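import Crest.Agent.R290.ADefs

/-!
# A_BASE: facts about the base graph in terms of `lb` (row 290, module A).
Proofs: case splits, unfold `bAdj`, `mainAgree`, `helperAgree`, `lb`; `Fin.ext_iff`.
-/
set_option autoImplicit false

namespace Crest.Agent.R290.A

open Crest.WLRefine Crest.WLRefine.ParityLift Finset

variable {t : ℕ}

theorem bAdj_main (C : ChoiceSystem t) (i j : Fin t) (d : Fin (C.dom i)) (e : Fin (C.dom j)) :
    bAdj C (Sum.inl ⟨i, d⟩) (Sum.inl ⟨j, e⟩) = true ↔ i ≠ j ∧ lb C i d j = lb C j e i := by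
  unfold bAdj mainAgree lb
  simp only [Bool.or_eq_true, decide_eq_true_eq]
  rcases lt_trichotomy i j with h | h | h
  · have h' : ¬ j < i := not_lt.2 h.le
    rw [if_pos h, if_neg h']
    constructor
    · rintro (⟨_, e1⟩ | ⟨h2, _⟩)
      · exact ⟨h.ne, congrArg Fin.val e1⟩
      · exact absurd h2 h'
    · rintro ⟨_, e1⟩
      exact Or.inl ⟨h, Fin.ext e1⟩
  · subst h
    constructor
    · rintro (⟨h2, _⟩ | ⟨h2, _⟩) <;> exact absurd h2 (lt_irrefl _)
    · rintro ⟨h2, _⟩; exact absurd rfl h2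
  · have h' : ¬ i < j := not_lt.2 h.le
    rw [if_neg h', if_pos h]
    constructor
    · rintro (⟨h2, _⟩ | ⟨_, e1⟩)
      · exact absurd h2 h'
      · exact ⟨h.ne', (congrArg Fin.val e1).symm⟩
    · rintro ⟨_, e1⟩
      exact Or.inr ⟨h, (Fin.ext e1).symm⟩

private theorem helperAgree_iff (C : ChoiceSystem t) (i : Fin t) (d : Fin (C.dom i)) (h : Helper t)
    (q : Fin (C.lab h.1.1 h.1.2.1)) :
    helperAgree C ⟨i, d⟩ ⟨h, q⟩ = true ↔
      (h.1.1 = i ∧ q.val = lb C i d h.1.2.1) ∨ (h.1.2.1 = i ∧ q.val = lb C i d h.1.1) ∨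
        h.1.2.2 = i := by
  obtain ⟨⟨a, b, c⟩, hab, hca, hcb⟩ := h
  unfold helperAgree lb
  simp only [decide_eq_true_eq]
  refine or_congr ?_ (or_congr ?_ ?_)
  · constructor
    · rintro ⟨e, h1⟩
      subst e
      refine ⟨rfl, ?_⟩
      rw [if_pos hab]
      exact congrArg Fin.val h1
    · rintro ⟨e, h1⟩
      subst e
      refine ⟨rfl, ?_⟩
      rw [if_pos hab] at h1
      exact Fin.ext h1
  · constructor
    · rintro ⟨e, h1⟩
      subst e
      refine ⟨rfl, ?_⟩
      rw [if_neg (not_lt.2 (le_of_lt hab))]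
      exact congrArg Fin.val h1
    · rintro ⟨e, h1⟩
      subst e
      refine ⟨rfl, ?_⟩
      rw [if_neg (not_lt.2 (le_of_lt hab))] at h1
      exact Fin.ext h1
  · exact eq_comm

theorem bAdj_helper (C : ChoiceSystem t) (i : Fin t) (d : Fin (C.dom i)) (h : Helper t)
    (q : Fin (C.lab h.1.1 h.1.2.1)) :
    bAdj C (Sum.inl ⟨i, d⟩) (Sum.inr ⟨h, q⟩) = true ↔
      (h.1.1 = i ∧ q.val = lb C i d h.1.2.1) ∨ (h.1.2.1 = i ∧ q.val = lb C i d h.1.1) ∨
        h.1.2.2 = i :=
  helperAgree_iff C i d h q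

theorem bAdj_helper' (C : ChoiceSystem t) (i : Fin t) (d : Fin (C.dom i)) (h : Helper t)
    (q : Fin (C.lab h.1.1 h.1.2.1)) :
    bAdj C (Sum.inr ⟨h, q⟩) (Sum.inl ⟨i, d⟩) = true ↔
      (h.1.1 = i ∧ q.val = lb C i d h.1.2.1) ∨ (h.1.2.1 = i ∧ q.val = lb C i d h.1.1) ∨
        h.1.2.2 = i :=
  helperAgree_iff C i d h q

theorem bAdj_tAdj (C : ChoiceSystem t) (u v : BV C) (h : bAdj C u v = true) :
    tAdj (typeOf C u) (typeOf C v) = true := by
  rcases u with ⟨i, d⟩ | ⟨hh, q⟩ <;> rcases v with ⟨j, e⟩ | ⟨hh', q'⟩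
  · have := (bAdj_main C i j d e).1 h
    simp [typeOf, tAdj, this.1]
  · have := (bAdj_helper C i d hh' q').1 h
    simp only [typeOf, tAdj, decide_eq_true_eq]
    rcases this with ⟨e, _⟩ | ⟨e, _⟩ | e
    · exact Or.inl e.symm
    · exact Or.inr (Or.inl e.symm)
    · exact Or.inr (Or.inr e.symm)
  · have := (bAdj_helper' C j e hh q).1 h
    simp only [typeOf, tAdj, decide_eq_true_eq]
    rcases this with ⟨e, _⟩ | ⟨e, _⟩ | e
    · exact Or.inl e.symm
    · exact Or.inr (Or.inl e.symm)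
    · exact Or.inr (Or.inr e.symm)
  · exact absurd h (by simp [bAdj])

/-- the label of a helper's first main is a label of the pair -/
theorem lb_lt (C : ChoiceSystem t) (h : Helper t) (d : Fin (C.dom h.1.1)) :
    lb C h.1.1 d h.1.2.1 < C.lab h.1.1 h.1.2.1 := by
  unfold lb
  rw [if_pos h.2.1]
  exact Fin.isLt _

theorem tAdj_main (i j : Fin t) : tAdj (Sum.inl i : TV t) (Sum.inl j) = true ↔ i ≠ j := by
  simp [tAdj]

theorem tAdj_helper (i : Fin t) (h : Helper t) :
    tAdj (Sum.inr h : TV t) (Sum.inl i) = true ↔ i = h.1.1 ∨ i = h.1.2.1 ∨ i = h.1.2.2 := by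
  simp [tAdj]

theorem tAdj_helper' (i : Fin t) (h : Helper t) :
    tAdj (Sum.inl i : TV t) (Sum.inr h) = true ↔ i = h.1.1 ∨ i = h.1.2.1 ∨ i = h.1.2.2 := by
  simp [tAdj]

/-- sums over the neighbours of a helper -/
theorem sum_helper (h : Helper t) (z : TV t → ZMod 2)
    (hz : ∀ b, tAdj (Sum.inr h) b = false → z b = 0) :
    ∑ b, z b = z (Sum.inl h.1.1) + z (Sum.inl h.1.2.1) + z (Sum.inl h.1.2.2) := by
  classical
  have h1 : h.1.1 ≠ h.1.2.1 := ne_of_lt h.2.1
  have h2 : h.1.2.2 ≠ h.1.1 := h.2.2.1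
  have h3 : h.1.2.2 ≠ h.1.2.1 := h.2.2.2
  have hs : ∑ b, z b = ∑ b ∈ ({Sum.inl h.1.1, Sum.inl h.1.2.1, Sum.inl h.1.2.2} : Finset (TV t)),
      z b := by
    symm
    apply sum_subset (subset_univ _)
    intro b _ hb
    apply hz
    rcases b with i | h'
    · rw [Bool.eq_false_iff]
      intro hc
      apply hb
      have := (tAdj_helper i h).1 hc
      simp only [mem_insert, mem_singleton, Sum.inl.injEq]
      exact this
    · rfl
  rw [hs, sum_insert, sum_insert, sum_singleton, add_assoc]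
  · simp only [mem_singleton, Sum.inl.injEq]
    exact h3.symm
  · simp only [mem_insert, mem_singleton, Sum.inl.injEq, not_or]
    exact ⟨h1, h2.symm⟩

theorem exists_incompat (C : ChoiceSystem t) (hC : ¬ C.Successful) (d : ∀ i, Fin (C.dom i)) :
    ∃ i j, i < j ∧ lb C i (d i) j ≠ lb C j (d j) i := by
  by_contra hcon
  push Not at hcon
  apply hC
  refine ⟨d, fun i j hij => ?_⟩
  have := hcon i j hij
  unfold lb at this
  rw [if_pos hij, if_neg (not_lt.2 hij.le)] at this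
  exact Fin.ext this

theorem exists_compat (C : ChoiceSystem t) (hC : C.Successful) :
    ∃ d : ∀ i, Fin (C.dom i), ∀ i j, i ≠ j → lb C i (d i) j = lb C j (d j) i := by
  obtain ⟨d, hd⟩ := hC
  refine ⟨d, fun i j hij => ?_⟩
  unfold lb
  rcases lt_or_gt_of_ne hij with h | h
  · rw [if_pos h, if_neg (not_lt.2 h.le)]
    exact congrArg Fin.val (hd i j h)
  · rw [if_neg (not_lt.2 h.le), if_pos h]
    exact (congrArg Fin.val (hd j i h)).symm

theorem star_zero (ht : 0 < t) : star (Sum.inl ⟨0, ht⟩ : TV t) = 1 := by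
  unfold star liftStarParity vb
  rw [if_pos]
  rw [decide_eq_true_eq]
  exact ⟨ht, rfl⟩

theorem star_main (ht : 0 < t) (i : Fin t) (hi : i ≠ ⟨0, ht⟩) : star (Sum.inl i : TV t) = 0 := by
  unfold star liftStarParity vb
  rw [if_neg]
  simp only [decide_eq_true_eq]
  rintro ⟨_, e⟩
  exact hi (Sum.inl.inj e)

theorem star_helper (h : Helper t) : star (Sum.inr h : TV t) = 0 := by
  unfold star liftStarParity vb
  rw [if_neg]
  simp only [decide_eq_true_eq]
  rintro ⟨_, e⟩
  exact absurd e (by simp)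

theorem sum_star (ht : 0 < t) : ∑ a : TV t, star a = 1 := by
  classical
  rw [Fintype.sum_sum_type]
  have h1 : ∑ h : Helper t, star (Sum.inr h : TV t) = 0 := sum_eq_zero fun h _ => star_helper h
  rw [h1, add_zero]
  rw [sum_eq_single (⟨0, ht⟩ : Fin t)]
  · exact star_zero ht
  · intro i _ hi
    exact star_main ht i hi
  · intro h; exact absurd (mem_univ _) h

end Crest.Agent.R290.A
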