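import Mathlib
import Crest.Prelude.Def_BitEnc
import Crest.Prelude.Def_WL
import Crest.Prelude.Def_ParityLift

/-!
Row 290, module A (S0438), helper13: cardinality of the parity lift (general `t`, general parity):
* `card_lift`     : `card (LiftV C b) = ∑ u, 2 ^ (card (Nbr (typeOf C u)) - 1)` (`2 ≤ t`);
* `card_lift_eq`  : independent of the parity assignment;
* `card_lift_le`  : `≤ A * orderFactor t` (`3 ≤ t`).
-/
set_option autoImplicit false

namespace Crest.Agent.R290.AE

open Crest.WLRefine Crest.WLRefine.ParityLift Finset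

section parity
variable {N : Type} [Fintype N] [DecidableEq N]

theorem cnt_eq (a0 : N) (z : N → Bool) :
    (univ.filter fun a => z a = true).card =
      (∑ a ∈ univ.erase a0, (z a).toNat) + (z a0).toNat := by
  rw [Finset.card_filter, Finset.sum_erase_add _ _ (Finset.mem_univ a0)]
  exact Finset.sum_congr rfl (fun a _ => by cases z a <;> simp)

theorem cnt_flip (a0 : N) (z : N → Bool) :
    ((univ.filter fun a => (Function.update z a0 (!z a0)) a = true).card +
      (univ.filter fun a => z a = true).card) % 2 = 1 := by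
  rw [cnt_eq a0, cnt_eq a0 z]
  have h : ∑ a ∈ univ.erase a0, ((Function.update z a0 (!z a0)) a).toNat =
      ∑ a ∈ univ.erase a0, (z a).toNat := by
    refine Finset.sum_congr rfl (fun a ha => ?_)
    rw [Function.update_of_ne (Finset.ne_of_mem_erase ha)]
  rw [h, Function.update_self]
  cases z a0 <;> simp <;> omega

/-- flip of parity -/
def flipEquiv (a0 : N) (c : Bool) :
    {z : N → Bool // (univ.filter fun a => z a = true).card % 2 = c.toNat} ≃
      {z : N → Bool // (univ.filter fun a => z a = true).card % 2 = (!c).toNat} where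
  toFun z := ⟨Function.update z.1 a0 (!z.1 a0), by
    have h := cnt_flip a0 z.1
    have h2 := z.2
    cases c <;> simp only [Bool.toNat_false, Bool.toNat_true, Bool.not_false, Bool.not_true] at h2 ⊢ <;>
      omega⟩
  invFun z := ⟨Function.update z.1 a0 (!z.1 a0), by
    have h := cnt_flip a0 z.1
    have h2 := z.2
    cases c <;> simp only [Bool.toNat_false, Bool.toNat_true, Bool.not_false, Bool.not_true] at h2 ⊢ <;>
      omega⟩
  left_inv z := by apply Subtype.ext; simp
  right_inv z := by apply Subtype.ext; simp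

theorem card_tag (hN : 0 < Fintype.card N) (c : Bool) :
    Fintype.card {z : N → Bool // (univ.filter fun a => z a = true).card % 2 = c.toNat} =
      2 ^ (Fintype.card N - 1) := by
  obtain ⟨a0⟩ := Fintype.card_pos_iff.1 hN
  have h1 := Fintype.card_congr (flipEquiv a0 c)
  have h2 : Fintype.card {z : N → Bool // (univ.filter fun a => z a = true).card % 2 = c.toNat} +
      Fintype.card {z : N → Bool // ¬ (univ.filter fun a => z a = true).card % 2 = c.toNat} =
        Fintype.card (N → Bool) := by
    rw [Fintype.card_subtype_compl]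
    have := Fintype.card_subtype_le (fun z : N → Bool =>
      (univ.filter fun a => z a = true).card % 2 = c.toNat)
    omega
  have h3 : Fintype.card {z : N → Bool // ¬ (univ.filter fun a => z a = true).card % 2 = c.toNat} =
      Fintype.card {z : N → Bool // (univ.filter fun a => z a = true).card % 2 = (!c).toNat} := by
    apply Fintype.card_congr
    apply Equiv.subtypeEquivRight
    intro z
    have := Nat.mod_two_eq_zero_or_one (univ.filter fun a => z a = true).card
    cases c <;> simp only [Bool.toNat_false, Bool.toNat_true, Bool.not_false, Bool.not_true] <;> omega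
  rw [h3, ← h1] at h2
  have h4 : Fintype.card (N → Bool) = 2 * 2 ^ (Fintype.card N - 1) := by
    rw [Fintype.card_fun, Fintype.card_bool, ← pow_succ']
    congr 1
    omega
  omega

end parity

variable {t : ℕ}

/-- the lift as a sigma type -/
def liftSigma (C : ChoiceSystem t) (b : TV t → Bool) :
    LiftV C b ≃ Σ u : BV C, {z : Nbr (typeOf C u) → Bool //
      (univ.filter fun a' => z a' = true).card % 2 = (b (typeOf C u)).toNat} where
  toFun x := ⟨x.1.1, x.1.2, x.2⟩
  invFun y := ⟨⟨y.1, y.2.1⟩, y.2.2⟩
  left_inv _ := rfl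
  right_inv _ := rfl

/-! ### counting helpers -/

theorem card_triple (Q : Fin t → Fin t → Fin t → Prop) [∀ a b c, Decidable (Q a b c)] :
    Fintype.card {h : Helper t // Q h.1.1 h.1.2.1 h.1.2.2} =
      ∑ a : Fin t, ∑ b : Fin t,
        if a < b then (univ.filter fun c => c ≠ a ∧ c ≠ b ∧ Q a b c).card else 0 := by
  have e : {h : Helper t // Q h.1.1 h.1.2.1 h.1.2.2} ≃
      {p : Fin t × Fin t × Fin t // (p.1 < p.2.1 ∧ p.2.2 ≠ p.1 ∧ p.2.2 ≠ p.2.1) ∧
        Q p.1 p.2.1 p.2.2} :=
    Equiv.subtypeSubtypeEquivSubtypeInter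
      (fun p : Fin t × Fin t × Fin t => p.1 < p.2.1 ∧ p.2.2 ≠ p.1 ∧ p.2.2 ≠ p.2.1)
      (fun p => Q p.1 p.2.1 p.2.2)
  rw [Fintype.card_congr e, Fintype.card_subtype, Finset.card_filter, Fintype.sum_prod_type]
  refine Finset.sum_congr rfl (fun a _ => ?_)
  rw [Fintype.sum_prod_type]
  refine Finset.sum_congr rfl (fun b _ => ?_)
  by_cases hab : a < b
  · rw [if_pos hab, Finset.card_filter]
    refine Finset.sum_congr rfl (fun c _ => ?_)
    simp [hab, and_assoc]
  · rw [if_neg hab]
    simp [hab]

theorem card_pairs : ∑ a : Fin t, ∑ b : Fin t, (if a < b then 1 else 0) = t.choose 2 := by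
  rw [Finset.sum_comm]
  have h : ∀ b : Fin t, ∑ a : Fin t, (if a < b then 1 else 0) = (b : ℕ) := by
    intro b
    rw [← Finset.card_filter]
    have : (univ.filter fun a : Fin t => a < b) = Finset.Iio b := by ext; simp
    rw [this, Fin.card_Iio]
  simp only [h]
  rw [Fin.sum_univ_eq_sum_range (fun i => i) t, Finset.sum_range_id, Nat.choose_two_right]

theorem card_pairs_mem (i : Fin t) :
    ∑ a : Fin t, ∑ b : Fin t, (if a < b ∧ (i = a ∨ i = b) then 1 else 0) = t - 1 := by
  have h : ∀ a b : Fin t, (if a < b ∧ (i = a ∨ i = b) then 1 else 0) =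
      (if a = i then (if i < b then 1 else 0) else 0) +
        (if b = i then (if a < i then 1 else 0) else 0) := by
    intro a b
    by_cases h1 : a = i <;> by_cases h2 : b = i
    · subst h1; subst h2; simp
    · subst h1
      simp [h2]
    · subst h2
      simp [h1, Ne.symm h1]
    · simp [h1, h2, Ne.symm h1, Ne.symm h2]
  simp only [h, Finset.sum_add_distrib]
  have h1 : ∑ a : Fin t, ∑ b : Fin t, (if a = i then (if i < b then 1 else 0) else 0) =
      t - 1 - i := by
    rw [Finset.sum_eq_single i]
    · simp only [if_true]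
      rw [← Finset.card_filter]
      have : (univ.filter fun b : Fin t => i < b) = Finset.Ioi i := by ext; simp
      rw [this, Fin.card_Ioi]
    · intro a _ ha; simp [ha]
    · simp
  have h2 : ∑ a : Fin t, ∑ b : Fin t, (if b = i then (if a < i then 1 else 0) else 0) = (i : ℕ) := by
    have : ∀ a : Fin t, ∑ b : Fin t, (if b = i then (if a < i then 1 else 0) else 0) =
        if a < i then 1 else 0 := by
      intro a; simp
    simp only [this]
    rw [← Finset.card_filter]
    have : (univ.filter fun a : Fin t => a < i) = Finset.Iio i := by ext; simp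
    rw [this, Fin.card_Iio]
  rw [h1, h2]
  have := i.2
  omega

theorem card_ne_ne {a b : Fin t} (hab : a < b) :
    (univ.filter fun c : Fin t => c ≠ a ∧ c ≠ b).card = t - 2 := by
  have : (univ.filter fun c : Fin t => c ≠ a ∧ c ≠ b) = ({a, b} : Finset (Fin t))ᶜ := by
    ext c; simp [not_or]
  rw [this, Finset.card_compl, Fintype.card_fin, Finset.card_pair hab.ne]

theorem card_helper : Fintype.card (Helper t) = 3 * t.choose 3 := by
  have e2 := card_triple (t := t) (fun _ _ _ => True)
  have e3 : Fintype.card (Helper t) = Fintype.card {h : Helper t // True} :=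
    Fintype.card_congr (Equiv.subtypeUnivEquiv (fun _ => trivial)).symm
  rw [e3]
  refine e2.trans ?_
  have h : ∀ a b : Fin t, (if a < b then (univ.filter fun c : Fin t => c ≠ a ∧ c ≠ b ∧ True).card
      else 0) = (if a < b then 1 else 0) * (t - 2) := by
    intro a b
    by_cases hab : a < b
    · simp only [hab, if_true, and_true, card_ne_ne hab, one_mul]
    · simp [hab]
  simp only [h]
  simp only [← Finset.sum_mul]
  rw [card_pairs]
  have h3 : t.choose 3 * 3 = t.choose 2 * (t - 2) := Nat.choose_succ_right_eq t 2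
  omega

theorem card_helper_mem (ht : 3 ≤ t) (i : Fin t) :
    Fintype.card {h : Helper t // i = h.1.1 ∨ i = h.1.2.1 ∨ i = h.1.2.2} =
      3 * (t - 1).choose 2 := by
  rw [card_triple (fun a b c => i = a ∨ i = b ∨ i = c)]
  have h : ∀ a b : Fin t, (if a < b then (univ.filter fun c : Fin t => c ≠ a ∧ c ≠ b ∧
      (i = a ∨ i = b ∨ i = c)).card else 0) = (if a < b then 1 else 0) +
        (if a < b ∧ (i = a ∨ i = b) then 1 else 0) * (t - 3) := by
    intro a b
    by_cases hab : a < b
    · by_cases hi : i = a ∨ i = b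
      · have : (univ.filter fun c : Fin t => c ≠ a ∧ c ≠ b ∧ (i = a ∨ i = b ∨ i = c)) =
            (univ.filter fun c : Fin t => c ≠ a ∧ c ≠ b) := by
          ext c
          simp only [Finset.mem_filter, Finset.mem_univ, true_and]
          tauto
        rw [this, if_pos hab, card_ne_ne hab]
        simp only [hab, hi, and_self, if_true]
        omega
      · have : (univ.filter fun c : Fin t => c ≠ a ∧ c ≠ b ∧ (i = a ∨ i = b ∨ i = c)) = {i} := by
          ext c
          simp only [Finset.mem_filter, Finset.mem_univ, true_and, Finset.mem_singleton]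
          constructor
          · rintro ⟨_, _, h3⟩
            tauto
          · rintro rfl
            tauto
        rw [this]
        simp [hab, hi]
    · simp [hab]
  simp only [h]
  simp only [Finset.sum_add_distrib, ← Finset.sum_mul]
  rw [card_pairs, card_pairs_mem]
  obtain ⟨s, rfl⟩ := Nat.exists_eq_add_of_le ht
  have e1 : 3 + s - 1 = s + 2 := by omega
  have e2 : 3 + s - 3 = s := by omega
  have e3 : 3 + s = s + 3 := by omega
  rw [e1, e2, e3]
  have q : (((s + 3).choose 2 + (s + 2) * s : ℕ) : ℚ) = ((3 * (s + 2).choose 2 : ℕ) : ℚ) := by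
    push_cast
    rw [Nat.cast_choose_two, Nat.cast_choose_two]
    push_cast
    ring
  exact_mod_cast q

theorem card_nbr_main (ht : 3 ≤ t) (i : Fin t) :
    Fintype.card (Nbr (Sum.inl i : TV t)) = (t - 1) + 3 * (t - 1).choose 2 := by
  rw [Fintype.card_congr (Equiv.subtypeSum (p := fun a' : TV t => tAdj (Sum.inl i) a' = true)),
    Fintype.card_sum]
  congr 1
  · rw [Fintype.card_subtype]
    have : (univ.filter fun j : Fin t => tAdj (Sum.inl i) (Sum.inl j) = true) = univ.erase i := by
      ext j
      simp only [Finset.mem_filter, Finset.mem_univ, true_and, Finset.mem_erase, and_true, tAdj]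
      constructor
      · intro h hj
        subst hj
        simp at h
      · intro h
        simpa using fun h' => h h'.symm
    rw [this, Finset.card_erase_of_mem (Finset.mem_univ _), Finset.card_univ, Fintype.card_fin]
  · rw [← card_helper_mem ht i]
    apply Fintype.card_congr
    apply Equiv.subtypeEquivRight
    intro h
    simp [tAdj]

theorem card_nbr_helper (h : Helper t) :
    Fintype.card (Nbr (Sum.inr h : TV t)) = 3 := by
  rw [Fintype.card_congr (Equiv.subtypeSum (p := fun a' : TV t => tAdj (Sum.inr h) a' = true)),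
    Fintype.card_sum]
  have h1 : Fintype.card {b : Helper t // tAdj (Sum.inr h) (Sum.inr b) = true} = 0 := by
    rw [Fintype.card_eq_zero_iff]
    exact ⟨fun x => by have := x.2; simp [tAdj] at this⟩
  rw [h1, Fintype.card_subtype]
  have h2 : (univ.filter fun j : Fin t => tAdj (Sum.inr h) (Sum.inl j) = true) =
      {h.1.1, h.1.2.1, h.1.2.2} := by
    ext j; simp [tAdj]
  rw [h2, Finset.card_eq_three.2 ⟨h.1.1, h.1.2.1, h.1.2.2, h.2.1.ne, h.2.2.1.symm, h.2.2.2.symm, rfl⟩]

theorem card_nbr_pos (ht : 3 ≤ t) (a : TV t) : 0 < Fintype.card (Nbr a) := by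
  cases a with
  | inl i => rw [card_nbr_main ht]; omega
  | inr h => rw [card_nbr_helper]; omega

theorem card_lift (ht : 3 ≤ t) (C : ChoiceSystem t) (b : TV t → Bool) :
    Fintype.card (LiftV C b) = ∑ u : BV C, 2 ^ (Fintype.card (Nbr (typeOf C u)) - 1) := by
  rw [Fintype.card_congr (liftSigma C b), Fintype.card_sigma]
  exact Finset.sum_congr rfl (fun u _ => card_tag (card_nbr_pos ht _) _)

theorem card_lift_eq (ht : 3 ≤ t) (C : ChoiceSystem t) (b b' : TV t → Bool) :
    Fintype.card (LiftV C b) = Fintype.card (LiftV C b') := by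
  rw [card_lift ht, card_lift ht]

theorem card_lift_le (ht : 3 ≤ t) (C : ChoiceSystem t) (b : TV t → Bool) (A : ℕ)
    (hA : C.SizeAtMost A) : Fintype.card (LiftV C b) ≤ A * orderFactor t := by
  rw [card_lift ht, Fintype.sum_sum_type]
  have h1 : ∑ x : (Σ i : Fin t, Fin (C.dom i)),
      2 ^ (Fintype.card (Nbr (typeOf C (Sum.inl x))) - 1) ≤
        A * (t * 2 ^ (t - 2 + 3 * (t - 1).choose 2)) := by
    have : ∀ x : (Σ i : Fin t, Fin (C.dom i)),
        2 ^ (Fintype.card (Nbr (typeOf C (Sum.inl x))) - 1) =
          2 ^ (t - 2 + 3 * (t - 1).choose 2) := by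
      intro x
      have hx : typeOf C (Sum.inl x) = Sum.inl x.1 := rfl
      rw [hx, card_nbr_main ht]
      congr 1
      omega
    simp only [this]
    rw [Finset.sum_const, Finset.card_univ, Fintype.card_sigma, smul_eq_mul]
    have h : ∑ i : Fin t, Fintype.card (Fin (C.dom i)) ≤ t * A := by
      calc ∑ i : Fin t, Fintype.card (Fin (C.dom i)) ≤ ∑ _i : Fin t, A :=
            Finset.sum_le_sum (fun i _ => by rw [Fintype.card_fin]; exact hA.1 i)
        _ = t * A := by simp
    calc _ ≤ (t * A) * 2 ^ (t - 2 + 3 * (t - 1).choose 2) := Nat.mul_le_mul_right _ h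
      _ = _ := by ring
  have h2 : ∑ x : (Σ h : Helper t, Fin (C.lab h.1.1 h.1.2.1)),
      2 ^ (Fintype.card (Nbr (typeOf C (Sum.inr x))) - 1) ≤ A * (12 * t.choose 3) := by
    have : ∀ x : (Σ h : Helper t, Fin (C.lab h.1.1 h.1.2.1)),
        2 ^ (Fintype.card (Nbr (typeOf C (Sum.inr x))) - 1) = 4 := by
      intro x
      have hx : typeOf C (Sum.inr x) = Sum.inr x.1 := rfl
      rw [hx, card_nbr_helper]
      norm_num
    simp only [this]
    rw [Finset.sum_const, Finset.card_univ, Fintype.card_sigma, smul_eq_mul]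
    have h : ∑ h : Helper t, Fintype.card (Fin (C.lab h.1.1 h.1.2.1)) ≤ 3 * t.choose 3 * A := by
      calc ∑ h : Helper t, Fintype.card (Fin (C.lab h.1.1 h.1.2.1)) ≤ ∑ _h : Helper t, A :=
            Finset.sum_le_sum (fun h _ => by rw [Fintype.card_fin]; exact hA.2 _ _ h.2.1)
        _ = 3 * t.choose 3 * A := by
          rw [Finset.sum_const, Finset.card_univ, card_helper, smul_eq_mul]
    calc _ ≤ (3 * t.choose 3 * A) * 4 := Nat.mul_le_mul_right _ h
      _ = _ := by ring
  unfold orderFactor
  rw [Nat.mul_add]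
  exact Nat.add_le_add h1 h2

end Crest.Agent.R290.AE
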