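import Crest.Agent.R290.ABase

/-!
# A_CIRC: triangle circulations (row 290, module A)

PROOF of `circ_sum` for a main `(i, d)`: `∑ a : TV t` splits (`Fintype.sum_sum_type`) into
`∑ j, ∑ h, [pair h = {i, j}] κ h (lb i d j)` and `∑ h, [i ∈ pair h] κ h (lb i d (other))`.  Swap the
first double sum (`Finset.sum_comm`): for fixed `h` exactly one `j` occurs if `i ∈ pair h` (namely the
other element of the pair), none otherwise; so the two parts are equal and the sum is `x + x = 0`
in `ZMod 2`.  For a helper `(h, q)`: `κ h q` occurs for exactly the two mains of the pair.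
`circ_match`: cases; for two mains use `bAdj_main` (the labels agree), the condition on `h` is
symmetric; for main/helper use `bAdj_helper`: if `h.1.1 = i` then (as `h.1.2.1 ≠ i ≠ h.1.2.2`)
`q = lb i d h.1.2.1`, etc.
-/
set_option autoImplicit false

namespace Crest.Agent.R290.A

open Crest.WLRefine Crest.WLRefine.ParityLift Finset

variable {t : ℕ}

private theorem hne (h : Helper t) : h.1.1 ≠ h.1.2.1 := ne_of_lt h.2.1

theorem circ_supp (C : ChoiceSystem t) (κ : Helper t → ℕ → ZMod 2) (u : BV C) (a : TV t)
    (h : tAdj (typeOf C u) a = false) : circ C κ u a = 0 := by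
  rcases u with p | p <;> rcases a with j | g
  · simp only [typeOf, tAdj, ne_eq, decide_not, Bool.not_eq_eq_eq_not, Bool.not_false,
      decide_eq_true_eq] at h
    simp only [circ]
    apply Finset.sum_eq_zero
    intro g _
    rw [if_neg]
    rintro (⟨h1, h2⟩ | ⟨h1, h2⟩)
    · exact hne g (by rw [h1, h2, h])
    · exact hne g (by rw [h1, h2, h])
  · simp only [typeOf, tAdj, decide_eq_false_iff_not, not_or] at h
    simp only [circ]
    rw [if_neg (fun e => h.1 e.symm), if_neg (fun e => h.2.1 e.symm)]
  · simp only [typeOf, tAdj, decide_eq_false_iff_not, not_or] at h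
    simp only [circ]
    rw [if_neg]
    rintro (e | e)
    · exact h.1 e.symm
    · exact h.2.1 e.symm
  · rfl

theorem circ_sum (C : ChoiceSystem t) (κ : Helper t → ℕ → ZMod 2) (u : BV C) :
    ∑ a, circ C κ u a = 0 := by
  rw [Fintype.sum_sum_type]
  rcases u with ⟨i, d⟩ | p
  · have h1 : ∑ j : Fin t, circ C κ (Sum.inl ⟨i, d⟩) (Sum.inl j) =
        ∑ g : Helper t, circ C κ (Sum.inl ⟨i, d⟩) (Sum.inr g) := by
      simp only [circ]
      rw [Finset.sum_comm]
      apply Finset.sum_congr rfl
      intro g _
      by_cases h1 : g.1.1 = i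
      · have h2 : g.1.2.1 ≠ i := fun e => hne g (by rw [h1, e])
        rw [if_pos h1]
        rw [Finset.sum_eq_single g.1.2.1]
        · rw [if_pos (Or.inl ⟨h1, rfl⟩)]
        · intro j _ hj
          rw [if_neg]
          rintro (⟨_, e⟩ | ⟨_, e⟩)
          · exact hj e.symm
          · exact h2 e
        · intro h; exact absurd (Finset.mem_univ _) h
      · rw [if_neg h1]
        by_cases h2 : g.1.2.1 = i
        · rw [if_pos h2]
          rw [Finset.sum_eq_single g.1.1]
          · rw [if_pos (Or.inr ⟨rfl, h2⟩)]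
          · intro j _ hj
            rw [if_neg]
            rintro (⟨e, _⟩ | ⟨e, _⟩)
            · exact h1 e
            · exact hj e.symm
          · intro h; exact absurd (Finset.mem_univ _) h
        · rw [if_neg h2]
          apply Finset.sum_eq_zero
          intro j _
          rw [if_neg]
          rintro (⟨e, _⟩ | ⟨_, e⟩)
          · exact h1 e
          · exact h2 e
    rw [h1]
    exact CharTwo.add_self_eq_zero _
  · have h2 : ∑ g : Helper t, circ C κ (Sum.inr p) (Sum.inr g) = 0 :=
      Finset.sum_eq_zero fun _ _ => rfl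
    rw [h2, add_zero]
    have h3 : ∀ j : Fin t, circ C κ (Sum.inr p) (Sum.inl j) =
        (if p.1.1.1 = j then κ p.1 p.2.val else 0) + (if p.1.1.2.1 = j then κ p.1 p.2.val else 0) := by
      intro j
      simp only [circ]
      by_cases e1 : p.1.1.1 = j
      · have e2 : p.1.1.2.1 ≠ j := fun e => hne p.1 (by rw [e1, e])
        rw [if_pos (Or.inl e1), if_pos e1, if_neg e2, add_zero]
      · by_cases e2 : p.1.1.2.1 = j
        · rw [if_pos (Or.inr e2), if_neg e1, if_pos e2, zero_add]
        · rw [if_neg (by rintro (e | e) <;> contradiction), if_neg e1, if_neg e2, add_zero]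
    rw [Finset.sum_congr rfl fun j _ => h3 j, Finset.sum_add_distrib]
    simp only [Finset.sum_ite_eq, Finset.mem_univ, if_true]
    exact CharTwo.add_self_eq_zero _

theorem circ_match (C : ChoiceSystem t) (κ : Helper t → ℕ → ZMod 2) (u v : BV C)
    (h : bAdj C u v = true) : circ C κ u (typeOf C v) = circ C κ v (typeOf C u) := by
  have key : ∀ (i : Fin t) (d : Fin (C.dom i)) (g : Helper t) (q : Fin (C.lab g.1.1 g.1.2.1)),
      ((g.1.1 = i ∧ q.val = lb C i d g.1.2.1) ∨ (g.1.2.1 = i ∧ q.val = lb C i d g.1.1) ∨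
        g.1.2.2 = i) →
      circ C κ (Sum.inl ⟨i, d⟩) (Sum.inr g) = circ C κ (Sum.inr ⟨g, q⟩) (Sum.inl i) := by
    intro i d g q hb
    have h0 := hne g
    have h2 := g.2.2.1
    have h3 := g.2.2.2
    simp only [circ]
    by_cases e1 : g.1.1 = i
    · rw [if_pos e1, if_pos (Or.inl e1)]
      rcases hb with ⟨_, hb⟩ | ⟨e, _⟩ | e
      · rw [hb]
      · exact absurd (e1.trans e.symm) h0
      · exact absurd (e.trans e1.symm) h2
    · rw [if_neg e1]
      by_cases e2 : g.1.2.1 = i
      · rw [if_pos e2, if_pos (Or.inr e2)]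
        rcases hb with ⟨e, _⟩ | ⟨_, hb⟩ | e
        · exact absurd e e1
        · rw [hb]
        · exact absurd (e.trans e2.symm) h3
      · rw [if_neg e2, if_neg (by rintro (e | e) <;> contradiction)]
  rcases u with ⟨i, d⟩ | ⟨g, q⟩ <;> rcases v with ⟨j, e⟩ | ⟨g', q'⟩
  · obtain ⟨_, hl⟩ := (bAdj_main C i j d e).1 h
    simp only [circ, typeOf, hl]
    apply Finset.sum_congr rfl
    intro g _
    congr 1
    exact propext or_comm
  · exact key i d g' q' ((bAdj_helper C i d g' q').1 h)
  · exact (key j e g q ((bAdj_helper' C j e g q).1 h)).symm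
  · simp [bAdj] at h

end Crest.Agent.R290.A
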