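import Mathlib
import Crest.Prelude.Def_BitEnc
import Crest.Prelude.Def_WL
import Crest.Prelude.Def_ParityLift

/-!
Row 290, module A (S0438), helper13: the easy conjuncts (general `t`, general parity):
* `isSimple_lift`  : `asMatrix (liftAdj C b)` is simple.
-/
set_option autoImplicit false

namespace Crest.Agent.R290.AE

open Crest.WLRefine Crest.WLRefine.ParityLift Finset

variable {t : ℕ}

theorem tAdj_symm (a b : TV t) : tAdj a b = tAdj b a := by
  cases a <;> cases b <;> simp [tAdj, eq_comm]

theorem tAdj_irrefl (a : TV t) : tAdj a a = false := by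
  cases a <;> simp [tAdj]

theorem bAdj_symm (C : ChoiceSystem t) (u v : BV C) : bAdj C u v = bAdj C v u := by
  cases u <;> cases v <;> simp [bAdj, Bool.or_comm]

theorem liftAdj_symm (C : ChoiceSystem t) (b : TV t → Bool) (x y : LiftV C b) :
    liftAdj C b x y = liftAdj C b y x := by
  unfold liftAdj
  apply decide_eq_decide.mpr
  constructor
  · rintro ⟨h, h', hb, e⟩
    exact ⟨h', h, by rw [bAdj_symm]; exact hb, e.symm⟩
  · rintro ⟨h, h', hb, e⟩
    exact ⟨h', h, by rw [bAdj_symm]; exact hb, e.symm⟩

theorem liftAdj_irrefl (C : ChoiceSystem t) (b : TV t → Bool) (x : LiftV C b) :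
    liftAdj C b x x = false := by
  unfold liftAdj
  apply decide_eq_false
  rintro ⟨h, _⟩
  rw [tAdj_irrefl] at h
  exact Bool.noConfusion h

theorem isSimple_lift (C : ChoiceSystem t) (b : TV t → Bool) :
    IsSimple (asMatrix (liftAdj C b)) := by
  constructor
  · intro v w
    exact liftAdj_symm C b _ _
  · intro v
    exact liftAdj_irrefl C b _

end Crest.Agent.R290.AE
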