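import Crest.Agent.R290.ACard
import Crest.Agent.R290.ASimple

/-!
# Row 290, module A (S0438): definitions (architect helper28)

The parity lift without dependent types.
* `vb : Bool → ZMod 2`, `star a : ZMod 2` = parity of `liftStarParity`.
* `lb C i d j : ℕ` : label of `d ∈ domain i` for the pair `{i, j}` (whatever the order of `i`, `j`).
* `LV C b` : vertices of the lift: a base vertex and a tag `TV t → ZMod 2`, zero off the template
  neighbours, with sum `b`;  `ladj C x y` adjacency.
* `circ C κ u a` : triangle circulations.  `IsFlow m f` : flow on the template balanced except at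
  main `m`.  `Loc C d P δ` : local conditions for tags differences `δ i` over mains `(i, d i)`, `P i`.
-/
set_option autoImplicit false

namespace Crest.Agent.R290.A

open Crest.WLRefine Crest.WLRefine.ParityLift Finset

variable {t : ℕ}

/-- a Boolean in `ZMod 2` -/
def vb (b : Bool) : ZMod 2 := if b then 1 else 0

/-- parity of the starred lift -/
def star (a : TV t) : ZMod 2 := vb (liftStarParity t a)

/-- label (a natural number) of the element `d` of domain `i` for the pair `{i, j}` -/
def lb (C : ChoiceSystem t) (i : Fin t) (d : Fin (C.dom i)) (j : Fin t) : ℕ :=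
  if i < j then (C.lamL i j d).val else (C.lamR j i d).val

/-- vertices of the lift, without dependent tags -/
abbrev LV (C : ChoiceSystem t) (b : TV t → Bool) : Type :=
  {p : BV C × (TV t → ZMod 2) //
    (∀ a, tAdj (typeOf C p.1) a = false → p.2 a = 0) ∧ ∑ a, p.2 a = vb (b (typeOf C p.1))}

/-- adjacency of the lift -/
def ladj (C : ChoiceSystem t) {b b' : TV t → Bool} (x : LV C b) (y : LV C b') : Bool :=
  decide (bAdj C x.1.1 y.1.1 = true ∧ x.1.2 (typeOf C y.1.1) = y.1.2 (typeOf C x.1.1))

/-- sum of the triangle circulations: for the helper `h` with pair `{i, j}` and the label `q` the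
edges `ij`, `ih`, `jh` of the layer `q` are changed by `κ h q` -/
def circ (C : ChoiceSystem t) (κ : Helper t → ℕ → ZMod 2) : BV C → TV t → ZMod 2
  | Sum.inl p, Sum.inl j => ∑ h : Helper t,
      if (h.1.1 = p.1 ∧ h.1.2.1 = j) ∨ (h.1.1 = j ∧ h.1.2.1 = p.1) then κ h (lb C p.1 p.2 j) else 0
  | Sum.inl p, Sum.inr h =>
      if h.1.1 = p.1 then κ h (lb C p.1 p.2 h.1.2.1)
      else if h.1.2.1 = p.1 then κ h (lb C p.1 p.2 h.1.1) else 0
  | Sum.inr p, Sum.inl i => if p.1.1.1 = i ∨ p.1.1.2.1 = i then κ p.1 p.2.val else 0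
  | Sum.inr _, Sum.inr _ => 0

/-- flow on the template with the boundary `star`, balanced at all helpers and at all mains except
possibly `m` -/
structure IsFlow (m : Fin t) (f : TV t → TV t → ZMod 2) : Prop where
  symm : ∀ a b, f a b = f b a
  supp : ∀ a b, tAdj a b = false → f a b = 0
  helper : ∀ h : Helper t, ∑ b, f (Sum.inr h) b = 0
  main : ∀ i, i ≠ m → ∑ b, f (Sum.inl i) b = star (Sum.inl i)

/-- the difference of tags of a base vertex given by a flow and circulations -/
def fl (C : ChoiceSystem t) (f : TV t → TV t → ZMod 2) (κ : Helper t → ℕ → ZMod 2) (u : BV C)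
    (a : TV t) : ZMod 2 := f (typeOf C u) a + circ C κ u a

/-- local conditions for the differences `δ i` over the mains `(i, d i)`, `i` with `P i` -/
structure Loc (C : ChoiceSystem t) (d : ∀ i, Fin (C.dom i)) (P : Fin t → Prop)
    (δ : Fin t → TV t → ZMod 2) : Prop where
  supp : ∀ i, P i → ∀ a, tAdj (Sum.inl i) a = false → δ i a = 0
  par : ∀ i, P i → ∑ a, δ i a = star (Sum.inl i)
  mat : ∀ i j, P i → P j → i ≠ j → lb C i (d i) j = lb C j (d j) i →
    δ i (Sum.inl j) = δ j (Sum.inl i)
  vis : ∀ h : Helper t, P h.1.1 → P h.1.2.1 → P h.1.2.2 →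
    lb C h.1.1 (d h.1.1) h.1.2.1 = lb C h.1.2.1 (d h.1.2.1) h.1.1 →
    δ h.1.1 (Sum.inr h) + δ h.1.2.1 (Sum.inr h) + δ h.1.2.2 (Sum.inr h) = 0

/-- the base game: `D` (difference of tags as a function of the base vertex) is good for the pebbled
base vertices `u`. -/
def Good (C : ChoiceSystem t) (D : BV C → TV t → ZMod 2) (u : Fin t → BV C) : Prop :=
  (∃ m f κ, IsFlow m f ∧ (∀ a, typeOf C (u a) ≠ Sum.inl m) ∧ ∀ a, D (u a) = fl C f κ (u a)) ∨
  (∃ d : ∀ i, Fin (C.dom i), (∀ i, ∃ a, u a = Sum.inl ⟨i, d i⟩) ∧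
    Loc C d (fun _ => True) (fun i => D (Sum.inl ⟨i, d i⟩)))

/-- odd clique: a clique such that any three of its vertices have an odd number of common
neighbours -/
def OddCl {V : Type} [Fintype V] (G : V → V → Bool) {k : ℕ} (v : Fin k → V) : Prop :=
  (∀ a b, a ≠ b → G (v a) (v b) = true) ∧
  ∀ a b c, a ≠ b → a ≠ c → b ≠ c →
    ((univ.filter fun z => G (v a) z = true ∧ G (v b) z = true ∧ G (v c) z = true).card : ZMod 2) = 1

/-- the three mains of a helper -/
def hsupp (h : Helper t) : Finset (Fin t) := {h.1.1, h.1.2.1, h.1.2.2}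

end Crest.Agent.R290.A
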