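import Crest.Agent.R290.WLGame

/-!
# Row 290, module B: pure tuples in the disjoint union

* `unionT G H`: disjoint union over arbitrary vertex types (`unionAdj` for `Fin`).
* `jt_union`: `JT k G H v w → JT k (unionT G H) (unionT G H) (inl ∘ v) (inr ∘ w)`; same for `ST`.
* `pureJEquiv_asMatrix_of_jeq`: `JEq k G H → PureJEquiv k (asMatrix G) (asMatrix H)`; same for S.
* `pureJHistEq_asMatrix`: `PureJHistEq k s (asMatrix G) (asMatrix H)` in terms of `gj (unionT G H)`.
-/

set_option autoImplicit false

open Finset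
open Crest.WLRefine Crest.WLRefine.ParityLift

namespace Crest.Agent.R290

variable {V W : Type} [Fintype V] [DecidableEq V] [Fintype W] [DecidableEq W]

/-- disjoint union of two adjacencies over arbitrary vertex types -/
def unionT {V W : Type} (G : V → V → Bool) (H : W → W → Bool) : V ⊕ W → V ⊕ W → Bool
  | Sum.inl a, Sum.inl a' => G a a'
  | Sum.inr c, Sum.inr c' => H c c'
  | _, _ => false

theorem unionT_fin {n m : ℕ} (G : Fin n → Fin n → Bool) (H : Fin m → Fin m → Bool) :
    unionT G H = unionAdj G H := by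
  funext a b
  rcases a with a | a <;> rcases b with b | b <;> rfl

/-- the relation on tuples of the union: swap the two sides along two strategies -/
def UnionRel {V W : Type} {k : ℕ} (R : (Fin k → V) → (Fin k → W) → Prop)
    (x y : Fin k → V ⊕ W) : Prop :=
  ∃ (v v' : Fin k → V) (w w' : Fin k → W), R v w ∧ R v' w' ∧
    ∀ i, (x i = Sum.inl (v i) ∧ y i = Sum.inr (w i)) ∨ (x i = Sum.inr (w' i) ∧ y i = Sum.inl (v' i))

omit [Fintype V] [Fintype W] in
theorem unionRel_atom {k : ℕ} {G : V → V → Bool} {H : W → W → Bool}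
    {R : (Fin k → V) → (Fin k → W) → Prop}
    (hR : ∀ v w, R v w → gatom G v = gatom H w) (x y : Fin k → V ⊕ W) (h : UnionRel R x y) :
    gatom (unionT G H) x = gatom (unionT G H) y := by
  obtain ⟨v, v', w, w', h1, h2, hi⟩ := h
  have a1 := hR v w h1
  have a2 := hR v' w' h2
  have e1 : ∀ i j, (v i = v j) ↔ (w i = w j) := fun i j =>
    decide_eq_decide.1 (congrFun (congrFun (congrArg Prod.fst a1) i) j)
  have e2 : ∀ i j, (v' i = v' j) ↔ (w' i = w' j) := fun i j =>
    decide_eq_decide.1 (congrFun (congrFun (congrArg Prod.fst a2) i) j)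
  have g1 : ∀ i j, G (v i) (v j) = H (w i) (w j) := fun i j =>
    congrFun (congrFun (congrArg Prod.snd a1) i) j
  have g2 : ∀ i j, G (v' i) (v' j) = H (w' i) (w' j) := fun i j =>
    congrFun (congrFun (congrArg Prod.snd a2) i) j
  refine Prod.ext ?_ ?_
  · funext i j
    refine decide_eq_decide.2 ?_
    rcases hi i with ⟨hx, hy⟩ | ⟨hx, hy⟩ <;> rcases hi j with ⟨hx', hy'⟩ | ⟨hx', hy'⟩ <;>
      rw [hx, hy, hx', hy'] <;> simp [e1, e2]
  · funext i j
    change unionT G H (x i) (x j) = unionT G H (y i) (y j)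
    rcases hi i with ⟨hx, hy⟩ | ⟨hx, hy⟩ <;> rcases hi j with ⟨hx', hy'⟩ | ⟨hx', hy'⟩ <;>
      rw [hx, hy, hx', hy'] <;> simp [unionT, g1, g2]

/-- the swap bijection -/
def swapEquiv {V W : Type} (σ σ' : V ≃ W) : V ⊕ W ≃ V ⊕ W :=
  (Equiv.sumCongr σ σ'.symm).trans (Equiv.sumComm W V)

theorem unionRel_update {V W : Type} {k : ℕ} {R : (Fin k → V) → (Fin k → W) → Prop}
    {v v' : Fin k → V} {w w' : Fin k → W} (h1 : R v w) (h2 : R v' w') {x y : Fin k → V ⊕ W}
    (hi : ∀ i, (x i = Sum.inl (v i) ∧ y i = Sum.inr (w i)) ∨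
      (x i = Sum.inr (w' i) ∧ y i = Sum.inl (v' i)))
    (σ σ' : V ≃ W) (i : Fin k)
    (hσ : ∀ z, R (Function.update v i z) (Function.update w i (σ z)))
    (hσ' : ∀ z, R (Function.update v' i z) (Function.update w' i (σ' z))) (z : V ⊕ W) :
    UnionRel R (Function.update x i z) (Function.update y i (swapEquiv σ σ' z)) := by
  rcases z with a | b
  · refine ⟨Function.update v i a, v', Function.update w i (σ a), w', hσ a, h2, ?_⟩
    intro j
    by_cases hj : j = i
    · subst hj
      left
      exact ⟨by rw [Function.update_self, Function.update_self],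
        by rw [Function.update_self, Function.update_self]; rfl⟩
    · simp only [Function.update_of_ne hj]
      exact hi j
  · refine ⟨v, Function.update v' i (σ'.symm b), w, Function.update w' i b, h1, ?_, ?_⟩
    · have := hσ' (σ'.symm b)
      rwa [Equiv.apply_symm_apply] at this
    · intro j
      by_cases hj : j = i
      · subst hj
        right
        exact ⟨by rw [Function.update_self, Function.update_self],
          by rw [Function.update_self, Function.update_self]; rfl⟩
      · simp only [Function.update_of_ne hj]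
        exact hi j

theorem unionRel_jBisim (k : ℕ) (G : V → V → Bool) (H : W → W → Bool) :
    JBisim k (unionT G H) (unionT G H) (UnionRel (JT k G H)) := by
  refine ⟨unionRel_atom (jt_bisim k G H).atom, ?_⟩
  rintro x y ⟨v, v', w, w', h1, h2, hi⟩
  obtain ⟨σ, hσ⟩ := (jt_bisim k G H).step v w h1
  obtain ⟨σ', hσ'⟩ := (jt_bisim k G H).step v' w' h2
  exact ⟨swapEquiv σ σ', fun z i => unionRel_update h1 h2 hi σ σ' i (fun z => hσ z i)
    (fun z => hσ' z i) z⟩

theorem unionRel_sBisim (k : ℕ) (G : V → V → Bool) (H : W → W → Bool) :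
    SBisim k (unionT G H) (unionT G H) (UnionRel (ST k G H)) := by
  refine ⟨unionRel_atom (st_bisim k G H).atom, ?_⟩
  rintro x y ⟨v, v', w, w', h1, h2, hi⟩ i
  obtain ⟨σ, hσ⟩ := (st_bisim k G H).step v w h1 i
  obtain ⟨σ', hσ'⟩ := (st_bisim k G H).step v' w' h2 i
  exact ⟨swapEquiv σ σ', fun z => unionRel_update h1 h2 hi σ σ' i hσ hσ' z⟩

theorem jt_union {k : ℕ} {G : V → V → Bool} {H : W → W → Bool} {v : Fin k → V} {w : Fin k → W}
    (h : JT k G H v w) : JT k (unionT G H) (unionT G H) (Sum.inl ∘ v) (Sum.inr ∘ w) :=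
  (unionRel_jBisim k G H).le ⟨v, v, w, w, h, h, fun _ => Or.inl ⟨rfl, rfl⟩⟩

theorem st_union {k : ℕ} {G : V → V → Bool} {H : W → W → Bool} {v : Fin k → V} {w : Fin k → W}
    (h : ST k G H v w) : ST k (unionT G H) (unionT G H) (Sum.inl ∘ v) (Sum.inr ∘ w) :=
  (unionRel_sBisim k G H).le ⟨v, v, w, w, h, h, fun _ => Or.inl ⟨rfl, rfl⟩⟩

/-- pure histograms in the union, arbitrary vertex types -/
theorem pureJHistEq_asMatrix (k s : ℕ) (G : V → V → Bool) (H : W → W → Bool) :
    PureJHistEq k s (asMatrix G) (asMatrix H) ↔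
      (univ : Finset (Fin k → V)).val.map (fun v => gj (unionT G H) k s (Sum.inl ∘ v)) =
        (univ : Finset (Fin k → W)).val.map (fun w => gj (unionT G H) k s (Sum.inr ∘ w)) := by
  unfold PureJHistEq
  have key : ∀ x : Fin k → V ⊕ W, gj (unionT G H) k s x =
      jcolor (asMatrix (unionAdj (asMatrix G) (asMatrix H))) k s
        (Fintype.equivFin _ ∘ (Equiv.sumCongr (Fintype.equivFin V) (Fintype.equivFin W)) ∘ x) := by
    intro x
    rw [← gj_eq]
    refine jt_of_iso k (unionT G H) (asMatrix (unionAdj (asMatrix G) (asMatrix H)))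
      ((Equiv.sumCongr (Fintype.equivFin V) (Fintype.equivFin W)).trans (Fintype.equivFin _)) ?_ x s
    intro a b
    rw [Equiv.trans_apply, Equiv.trans_apply, asMatrix_iso]
    rcases a with a | a <;> rcases b with b | b <;> simp [unionT, unionAdj, asMatrix_iso]
  have h1 : (univ : Finset (Fin k → V)).val.map (fun v => gj (unionT G H) k s (Sum.inl ∘ v)) =
      (univ : Finset (Fin k → Fin (Fintype.card V))).val.map (fun v =>
        jcolor (asMatrix (unionAdj (asMatrix G) (asMatrix H))) k s
          (Fintype.equivFin _ ∘ Sum.inl ∘ v)) := by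
    refine map_eq_of_equiv _ _ (Equiv.arrowCongr (Equiv.refl _) (Fintype.equivFin V)) ?_
    intro v
    rw [key]
    rfl
  have h2 : (univ : Finset (Fin k → W)).val.map (fun v => gj (unionT G H) k s (Sum.inr ∘ v)) =
      (univ : Finset (Fin k → Fin (Fintype.card W))).val.map (fun v =>
        jcolor (asMatrix (unionAdj (asMatrix G) (asMatrix H))) k s
          (Fintype.equivFin _ ∘ Sum.inr ∘ v)) := by
    refine map_eq_of_equiv _ _ (Equiv.arrowCongr (Equiv.refl _) (Fintype.equivFin W)) ?_
    intro v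
    rw [key]
    rfl
  rw [h1, h2]

theorem pureSHistEq_asMatrix (k s : ℕ) (G : V → V → Bool) (H : W → W → Bool) :
    PureSHistEq k s (asMatrix G) (asMatrix H) ↔
      (univ : Finset (Fin k → V)).val.map (fun v => gs (unionT G H) k s (Sum.inl ∘ v)) =
        (univ : Finset (Fin k → W)).val.map (fun w => gs (unionT G H) k s (Sum.inr ∘ w)) := by
  unfold PureSHistEq
  have key : ∀ x : Fin k → V ⊕ W, gs (unionT G H) k s x =
      scolor (asMatrix (unionAdj (asMatrix G) (asMatrix H))) k s
        (Fintype.equivFin _ ∘ (Equiv.sumCongr (Fintype.equivFin V) (Fintype.equivFin W)) ∘ x) := by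
    intro x
    rw [← gs_eq]
    refine st_of_iso k (unionT G H) (asMatrix (unionAdj (asMatrix G) (asMatrix H)))
      ((Equiv.sumCongr (Fintype.equivFin V) (Fintype.equivFin W)).trans (Fintype.equivFin _)) ?_ x s
    intro a b
    rw [Equiv.trans_apply, Equiv.trans_apply, asMatrix_iso]
    rcases a with a | a <;> rcases b with b | b <;> simp [unionT, unionAdj, asMatrix_iso]
  have h1 : (univ : Finset (Fin k → V)).val.map (fun v => gs (unionT G H) k s (Sum.inl ∘ v)) =
      (univ : Finset (Fin k → Fin (Fintype.card V))).val.map (fun v =>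
        scolor (asMatrix (unionAdj (asMatrix G) (asMatrix H))) k s
          (Fintype.equivFin _ ∘ Sum.inl ∘ v)) := by
    refine map_eq_of_equiv _ _ (Equiv.arrowCongr (Equiv.refl _) (Fintype.equivFin V)) ?_
    intro v
    rw [key]
    rfl
  have h2 : (univ : Finset (Fin k → W)).val.map (fun v => gs (unionT G H) k s (Sum.inr ∘ v)) =
      (univ : Finset (Fin k → Fin (Fintype.card W))).val.map (fun v =>
        scolor (asMatrix (unionAdj (asMatrix G) (asMatrix H))) k s
          (Fintype.equivFin _ ∘ Sum.inr ∘ v)) := by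
    refine map_eq_of_equiv _ _ (Equiv.arrowCongr (Equiv.refl _) (Fintype.equivFin W)) ?_
    intro v
    rw [key]
    rfl
  rw [h1, h2]

/-- **equivalence implies pure-tuple equivalence in the disjoint union**, joint convention -/
theorem pureJEquiv_asMatrix_of_jeq {k : ℕ} {G : V → V → Bool} {H : W → W → Bool}
    (h : JEq k G H) : PureJEquiv k (asMatrix G) (asMatrix H) := by
  intro s
  rw [pureJHistEq_asMatrix]
  obtain ⟨Φ, hΦ⟩ := jeq_iff_equiv.1 h
  exact map_eq_of_equiv _ _ Φ (fun v => jt_union (hΦ v) s)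

/-- **equivalence implies pure-tuple equivalence in the disjoint union**, separate convention -/
theorem pureSEquiv_asMatrix_of_seq {k : ℕ} {G : V → V → Bool} {H : W → W → Bool}
    (h : SEq k G H) : PureSEquiv k (asMatrix G) (asMatrix H) := by
  intro s
  rw [pureSHistEq_asMatrix]
  obtain ⟨Φ, hΦ⟩ := seq_iff_equiv.1 h
  exact map_eq_of_equiv _ _ Φ (fun v => st_union (hΦ v) s)

end Crest.Agent.R290
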