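import Crest.Agent.R290.ABase
import Crest.Agent.R290.WLPure

/-!
# A_EQUIV: the lift and its non-dependent form (row 290, module A)

`LiftV C b` has dependent tags `Nbr (typeOf C u) → Bool` with a parity condition on
`(univ.filter ..).card % 2`; `LV C b` has tags `TV t → ZMod 2`, zero off the neighbours.
PROOF. forward: tag `a ↦ if h : tAdj (typeOf C u) a = true then vb (z ⟨a, h⟩) else 0`; backward:
`a' ↦ decide (z a'.1 = 1)`.  Parity: `∑ a' : Nbr τ, vb (p a') = ((univ.filter (p · = true)).card : ZMod 2)`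
and `∑ a, (if h : tAdj τ a = true then F ⟨a,h⟩ else 0) = ∑ a' : Nbr τ, F a'`; `n % 2 = c.toNat` iff
`(n : ZMod 2) = vb c`.  Adjacency: `bAdj` implies `tAdj` both ways (`bAdj_tAdj`, `AE.bAdj_symm`), `vb`
is injective.
-/
set_option autoImplicit false

namespace Crest.Agent.R290.A

open Crest.WLRefine Crest.WLRefine.ParityLift Finset

variable {t : ℕ}

theorem vb_eq_one_iff (c : Bool) : vb c = 1 ↔ c = true := by
  cases c <;> simp [vb]

theorem vb_decide (x : ZMod 2) : vb (decide (x = 1)) = x := by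
  revert x
  decide

theorem decide_vb (c : Bool) : decide (vb c = 1) = c := by
  cases c <;> decide

theorem vb_injective {c d : Bool} (h : vb c = vb d) : c = d := by
  revert h
  cases c <;> cases d <;> decide

theorem parity_iff (n : ℕ) (c : Bool) : n % 2 = c.toNat ↔ (n : ZMod 2) = vb c := by
  have h1 : vb c = ((c.toNat : ℕ) : ZMod 2) := by cases c <;> simp [vb]
  rw [h1, ZMod.natCast_eq_natCast_iff']
  have h2 : c.toNat % 2 = c.toNat := by cases c <;> rfl
  rw [h2]

/-- extension of a tag to all template vertices -/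
def extT (τ : TV t) (z : Nbr τ → Bool) (a : TV t) : ZMod 2 :=
  if h : tAdj τ a = true then vb (z ⟨a, h⟩) else 0

theorem extT_of_adj {τ : TV t} (z : Nbr τ → Bool) {a : TV t} (h : tAdj τ a = true) :
    extT τ z a = vb (z ⟨a, h⟩) := dif_pos h

theorem extT_of_not {τ : TV t} (z : Nbr τ → Bool) {a : TV t} (h : tAdj τ a = false) :
    extT τ z a = 0 := dif_neg (by rw [h]; exact Bool.false_ne_true)

theorem sum_extT (τ : TV t) (z : Nbr τ → Bool) :
    ∑ a, extT τ z a = ((univ.filter fun a' => z a' = true).card : ZMod 2) := by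
  have h1 : ∑ a ∈ univ.filter (fun a => tAdj τ a = true), extT τ z a = ∑ a, extT τ z a := by
    apply Finset.sum_filter_of_ne
    intro a _ ha
    by_contra h
    exact ha (extT_of_not z (by simpa using h))
  have h2 : ∑ a ∈ univ.filter (fun a => tAdj τ a = true), extT τ z a =
      ∑ a' : Nbr τ, extT τ z a'.1 :=
    Finset.sum_subtype _ (by simp) _
  rw [← h1, h2, Finset.card_filter]
  push_cast
  refine Finset.sum_congr rfl fun a' _ => ?_
  rw [extT_of_adj z a'.2]
  rfl

theorem exists_liftEquiv (C : ChoiceSystem t) (b : TV t → Bool) :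
    ∃ e : LiftV C b ≃ LV C b, ∀ x y, ladj C (e x) (e y) = liftAdj C b x y := by
  let f : LiftV C b → LV C b := fun x => ⟨(x.1.1, extT (typeOf C x.1.1) x.1.2),
    fun a ha => extT_of_not _ ha, by
      have h := x.2
      rw [parity_iff] at h
      rw [sum_extT]
      exact h⟩
  let g : LV C b → LiftV C b := fun p => ⟨⟨p.1.1, fun a' => decide (p.1.2 a'.1 = 1)⟩, by
      show (univ.filter fun a' : Nbr (typeOf C p.1.1) => decide (p.1.2 a'.1 = 1) = true).card % 2 =
        (b (typeOf C p.1.1)).toNat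
      rw [parity_iff, ← sum_extT, ← p.2.2]
      refine Finset.sum_congr rfl fun a _ => ?_
      by_cases h : tAdj (typeOf C p.1.1) a = true
      · rw [extT_of_adj _ h]
        exact vb_decide _
      · have h' : tAdj (typeOf C p.1.1) a = false := by simpa using h
        rw [extT_of_not _ h', p.2.1 a h']⟩
  have hgf : ∀ x, g (f x) = x := by
    rintro ⟨⟨u, z⟩, h⟩
    apply Subtype.ext
    show (⟨u, fun a' => decide (extT (typeOf C u) z a'.1 = 1)⟩ :
      Σ u : BV C, (Nbr (typeOf C u) → Bool)) = ⟨u, z⟩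
    congr 1
    funext a'
    rw [extT_of_adj z a'.2]
    exact decide_vb _
  have hfg : ∀ p, f (g p) = p := by
    rintro ⟨⟨u, z⟩, h⟩
    apply Subtype.ext
    show ((u, extT (typeOf C u) fun a' => decide (z a'.1 = 1)) : BV C × (TV t → ZMod 2)) = (u, z)
    congr 1
    funext a
    by_cases h' : tAdj (typeOf C u) a = true
    · rw [extT_of_adj _ h']
      exact vb_decide _
    · have h'' : tAdj (typeOf C u) a = false := by simpa using h'
      rw [extT_of_not _ h'']
      exact (h.1 a h'').symm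
  refine ⟨⟨f, g, hgf, hfg⟩, ?_⟩
  intro x y
  show decide (bAdj C x.1.1 y.1.1 = true ∧ extT (typeOf C x.1.1) x.1.2 (typeOf C y.1.1) =
    extT (typeOf C y.1.1) y.1.2 (typeOf C x.1.1)) = _
  unfold liftAdj
  apply decide_eq_decide.2
  constructor
  · rintro ⟨h1, h2⟩
    have h3 := bAdj_tAdj C _ _ h1
    have h4 := bAdj_tAdj C y.1.1 x.1.1 (by rw [AE.bAdj_symm]; exact h1)
    refine ⟨h3, h4, h1, ?_⟩
    rw [extT_of_adj _ h3, extT_of_adj _ h4] at h2
    exact vb_injective h2
  · rintro ⟨h3, h4, h1, h2⟩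
    refine ⟨h1, ?_⟩
    rw [extT_of_adj _ h3, extT_of_adj _ h4, h2]

/-- the shift by a difference `D` of tags is a bijection of the two lifts -/
theorem exists_shift (C : ChoiceSystem t) (D : BV C → TV t → ZMod 2)
    (hs : ∀ x c, tAdj (typeOf C x) c = false → D x c = 0)
    (hp : ∀ x, ∑ c, D x c = star (typeOf C x)) :
    ∃ σ : LV C (lift0Parity t) ≃ LV C (liftStarParity t),
      ∀ z, (σ z).1.1 = z.1.1 ∧ (σ z).1.2 = z.1.2 + D z.1.1 := by
  have h2 : ∀ x : ZMod 2, x + x = 0 := by decide
  let f : LV C (lift0Parity t) → LV C (liftStarParity t) := fun z =>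
    ⟨(z.1.1, z.1.2 + D z.1.1), fun a ha => by
      show z.1.2 a + D z.1.1 a = 0
      rw [z.2.1 a ha, hs _ a ha, add_zero], by
      show ∑ a, (z.1.2 a + D z.1.1 a) = vb (liftStarParity t (typeOf C z.1.1))
      rw [Finset.sum_add_distrib, z.2.2, hp]
      simp [lift0Parity, vb, star]⟩
  let g : LV C (liftStarParity t) → LV C (lift0Parity t) := fun z =>
    ⟨(z.1.1, z.1.2 + D z.1.1), fun a ha => by
      show z.1.2 a + D z.1.1 a = 0
      rw [z.2.1 a ha, hs _ a ha, add_zero], by
      show ∑ a, (z.1.2 a + D z.1.1 a) = vb (lift0Parity t (typeOf C z.1.1))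
      rw [Finset.sum_add_distrib, z.2.2, hp]
      show star (typeOf C z.1.1) + star (typeOf C z.1.1) = vb false
      rw [h2]
      rfl⟩
  refine ⟨⟨f, g, ?_, ?_⟩, fun z => ⟨rfl, rfl⟩⟩
  · rintro ⟨⟨u, z⟩, h⟩
    apply Subtype.ext
    show ((u, z + D u + D u) : BV C × (TV t → ZMod 2)) = (u, z)
    congr 1
    funext a
    show z a + D u a + D u a = z a
    rw [add_assoc, h2, add_zero]
  · rintro ⟨⟨u, z⟩, h⟩
    apply Subtype.ext
    show ((u, z + D u + D u) : BV C × (TV t → ZMod 2)) = (u, z)
    congr 1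
    funext a
    show z a + D u a + D u a = z a
    rw [add_assoc, h2, add_zero]

end Crest.Agent.R290.A
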