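import Crest.Agent.R290.WLBasic

/-!
# Row 290, module B: game-level facts

* `JBisim.toSBisim`, `SBisim.top`, `jeq_of_jt`, `seq_of_st`: ONE related pair of tuples gives
  equality of all histograms.  `jeq_of_bisim`, `seq_of_bisim`: Duplicator theorem.
* `JT.comp`, `ST.comp`: closure of colour equality under `(v, w) ↦ (v ∘ f, w ∘ f)`, any `f`.
* relabelling: `jeq_of_iso`, `seq_of_iso`, `jEquiv_asMatrix`, `sEquiv_asMatrix`.
* `JT.step'`, `ST.step'`: the step with its atomic consequences.
-/

set_option autoImplicit false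

open Finset
open Crest.WLRefine Crest.WLRefine.ParityLift

namespace Crest.Agent.R290

variable {V W U X : Type} [Fintype V] [DecidableEq V] [Fintype W] [DecidableEq W]
  [Fintype U] [DecidableEq U] [Fintype X] [DecidableEq X]

/-! ### Symmetry, transitivity -/

theorem JT.symm {k : ℕ} {G : V → V → Bool} {H : W → W → Bool} {v : Fin k → V} {w : Fin k → W}
    (h : JT k G H v w) : JT k H G w v := fun s => (h s).symm

theorem ST.symm {k : ℕ} {G : V → V → Bool} {H : W → W → Bool} {v : Fin k → V} {w : Fin k → W}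
    (h : ST k G H v w) : ST k H G w v := fun s => (h s).symm

theorem JT.trans {k : ℕ} {G : V → V → Bool} {H : W → W → Bool} {I : U → U → Bool}
    {v : Fin k → V} {w : Fin k → W} {u : Fin k → U}
    (h : JT k G H v w) (h' : JT k H I w u) : JT k G I v u := fun s => (h s).trans (h' s)

theorem ST.trans {k : ℕ} {G : V → V → Bool} {H : W → W → Bool} {I : U → U → Bool}
    {v : Fin k → V} {w : Fin k → W} {u : Fin k → U}
    (h : ST k G H v w) (h' : ST k H I w u) : ST k G I v u := fun s => (h s).trans (h' s)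

theorem JT.refl (k : ℕ) (G : V → V → Bool) (v : Fin k → V) : JT k G G v v := fun _ => rfl

theorem ST.refl (k : ℕ) (G : V → V → Bool) (v : Fin k → V) : ST k G G v v := fun _ => rfl

theorem JEq.symm {k : ℕ} {G : V → V → Bool} {H : W → W → Bool}
    (h : JEq k G H) : JEq k H G := fun s => (h s).symm

theorem SEq.symm {k : ℕ} {G : V → V → Bool} {H : W → W → Bool}
    (h : SEq k G H) : SEq k H G := fun s => (h s).symm

theorem JEq.trans {k : ℕ} {G : V → V → Bool} {H : W → W → Bool} {I : U → U → Bool}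
    (h : JEq k G H) (h' : JEq k H I) : JEq k G I := fun s => (h s).trans (h' s)

theorem SEq.trans {k : ℕ} {G : V → V → Bool} {H : W → W → Bool} {I : U → U → Bool}
    (h : SEq k G H) (h' : SEq k H I) : SEq k G I := fun s => (h s).trans (h' s)

/-! ### Relabelling -/

theorem gatom_comp_of_iso (G : V → V → Bool) (H : W → W → Bool) (e : V ≃ W)
    (he : ∀ a b, H (e a) (e b) = G a b) {k : ℕ} (v : Fin k → V) :
    gatom G v = gatom H (e ∘ v) := by
  unfold gatom
  refine Prod.ext ?_ ?_
  · funext i j
    simp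
  · funext i j
    exact (he _ _).symm

theorem update_comp_equiv {k : ℕ} (e : V ≃ W) (v : Fin k → V) (i : Fin k) (z : V) :
    e ∘ Function.update v i z = Function.update (e ∘ v) i (e z) := by
  funext j
  by_cases h : j = i
  · subst h; simp
  · simp [Function.update_of_ne h]

theorem iso_jBisim (k : ℕ) (G : V → V → Bool) (H : W → W → Bool) (e : V ≃ W)
    (he : ∀ a b, H (e a) (e b) = G a b) :
    JBisim k G H (fun v w => w = e ∘ v) := by
  constructor
  · rintro v w rfl
    exact gatom_comp_of_iso G H e he v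
  · rintro v w rfl
    exact ⟨e, fun z i => (update_comp_equiv e v i z).symm⟩

theorem JBisim.toSBisim {k : ℕ} {G : V → V → Bool} {H : W → W → Bool}
    {R : (Fin k → V) → (Fin k → W) → Prop} (hR : JBisim k G H R) : SBisim k G H R :=
  ⟨hR.atom, fun v w h i => by
    obtain ⟨σ, hσ⟩ := hR.step v w h
    exact ⟨σ, fun z => hσ z i⟩⟩

theorem jt_of_iso (k : ℕ) (G : V → V → Bool) (H : W → W → Bool) (e : V ≃ W)
    (he : ∀ a b, H (e a) (e b) = G a b) (v : Fin k → V) : JT k G H v (e ∘ v) :=
  (iso_jBisim k G H e he).le rfl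

theorem st_of_iso (k : ℕ) (G : V → V → Bool) (H : W → W → Bool) (e : V ≃ W)
    (he : ∀ a b, H (e a) (e b) = G a b) (v : Fin k → V) : ST k G H v (e ∘ v) :=
  (iso_jBisim k G H e he).toSBisim.le rfl

theorem jeq_of_iso (k : ℕ) (G : V → V → Bool) (H : W → W → Bool) (e : V ≃ W)
    (he : ∀ a b, H (e a) (e b) = G a b) : JEq k G H :=
  jeq_iff_equiv.2 ⟨Equiv.arrowCongr (Equiv.refl _) e, fun v => jt_of_iso k G H e he v⟩

theorem seq_of_iso (k : ℕ) (G : V → V → Bool) (H : W → W → Bool) (e : V ≃ W)
    (he : ∀ a b, H (e a) (e b) = G a b) : SEq k G H :=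
  seq_iff_equiv.2 ⟨Equiv.arrowCongr (Equiv.refl _) e, fun v => st_of_iso k G H e he v⟩

theorem asMatrix_iso (G : V → V → Bool) (a b : V) :
    asMatrix G (Fintype.equivFin V a) (Fintype.equivFin V b) = G a b := by
  simp [asMatrix]

theorem jEquiv_asMatrix (k : ℕ) (G : V → V → Bool) (H : W → W → Bool) :
    JEquiv k (asMatrix G) (asMatrix H) ↔ JEq k G H := by
  rw [jequiv_iff]
  have h1 := jeq_of_iso k G (asMatrix G) (Fintype.equivFin V) (asMatrix_iso G)
  have h2 := jeq_of_iso k H (asMatrix H) (Fintype.equivFin W) (asMatrix_iso H)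
  exact ⟨fun h => (h1.trans h).trans h2.symm, fun h => (h1.symm.trans h).trans h2⟩

theorem sEquiv_asMatrix (k : ℕ) (G : V → V → Bool) (H : W → W → Bool) :
    SEquiv k (asMatrix G) (asMatrix H) ↔ SEq k G H := by
  rw [sequiv_iff]
  have h1 := seq_of_iso k G (asMatrix G) (Fintype.equivFin V) (asMatrix_iso G)
  have h2 := seq_of_iso k H (asMatrix H) (Fintype.equivFin W) (asMatrix_iso H)
  exact ⟨fun h => (h1.trans h).trans h2.symm, fun h => (h1.symm.trans h).trans h2⟩

theorem jEquiv_of_relabel {n m : ℕ} (k : ℕ) (G : V → V → Bool) (H : W → W → Bool)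
    (G' : Fin n → Fin n → Bool) (H' : Fin m → Fin m → Bool)
    (e : V ≃ Fin n) (f : W ≃ Fin m) (he : ∀ a b, G' (e a) (e b) = G a b)
    (hf : ∀ a b, H' (f a) (f b) = H a b) : JEquiv k G' H' ↔ JEq k G H := by
  rw [jequiv_iff]
  have h1 := jeq_of_iso k G G' e he
  have h2 := jeq_of_iso k H H' f hf
  exact ⟨fun h => (h1.trans h).trans h2.symm, fun h => (h1.symm.trans h).trans h2⟩

theorem sEquiv_of_relabel {n m : ℕ} (k : ℕ) (G : V → V → Bool) (H : W → W → Bool)
    (G' : Fin n → Fin n → Bool) (H' : Fin m → Fin m → Bool)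
    (e : V ≃ Fin n) (f : W ≃ Fin m) (he : ∀ a b, G' (e a) (e b) = G a b)
    (hf : ∀ a b, H' (f a) (f b) = H a b) : SEquiv k G' H' ↔ SEq k G H := by
  rw [sequiv_iff]
  have h1 := seq_of_iso k G G' e he
  have h2 := seq_of_iso k H H' f hf
  exact ⟨fun h => (h1.trans h).trans h2.symm, fun h => (h1.symm.trans h).trans h2⟩

/-! ### One related pair suffices -/

/-- replace the first `j` coordinates of `v` by `a` -/
def splice {Z : Type} {k j : ℕ} (a : Fin j → Z) (v : Fin k → Z) : Fin k → Z :=
  fun i => if h : i.1 < j then a ⟨i.1, h⟩ else v i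

theorem splice_zero {Z : Type} {k : ℕ} (a : Fin 0 → Z) (v : Fin k → Z) : splice a v = v := by
  funext i
  simp [splice]

theorem splice_full {Z : Type} {k : ℕ} (a : Fin k → Z) (v : Fin k → Z) : splice a v = a := by
  funext i
  simp [splice]

theorem splice_snoc {Z : Type} {k j : ℕ} (hj : j < k) (a : Fin j → Z) (z : Z) (v : Fin k → Z) :
    splice (Fin.snoc (α := fun _ => Z) a z) v = Function.update (splice a v) ⟨j, hj⟩ z := by
  funext i
  rcases lt_trichotomy i.1 j with h | h | h
  · have hne : i ≠ ⟨j, hj⟩ := by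
      intro hi
      rw [hi] at h
      exact lt_irrefl _ h
    rw [Function.update_of_ne hne]
    simp only [splice]
    rw [dif_pos (Nat.lt_succ_of_lt h), dif_pos h]
    exact Fin.snoc_castSucc (α := fun _ => Z) z a ⟨i.1, h⟩
  · have hi : i = ⟨j, hj⟩ := Fin.ext h
    subst hi
    rw [Function.update_self]
    simp only [splice]
    rw [dif_pos (Nat.lt_succ_self j)]
    exact Fin.snoc_last (α := fun _ => Z) z a
  · have hne : i ≠ ⟨j, hj⟩ := by
      intro hi
      rw [hi] at h
      exact lt_irrefl _ h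
    rw [Function.update_of_ne hne]
    simp only [splice]
    rw [dif_neg (by omega), dif_neg (by omega)]

theorem SBisim.top_aux {k : ℕ} {G : V → V → Bool} {H : W → W → Bool}
    {R : (Fin k → V) → (Fin k → W) → Prop} (hR : SBisim k G H R) {v : Fin k → V}
    {w : Fin k → W} (h : R v w) (j : ℕ) (hj : j ≤ k) :
    ∃ Φ : (Fin j → V) ≃ (Fin j → W), ∀ a, R (splice a v) (splice (Φ a) w) := by
  induction j with
  | zero =>
    refine ⟨⟨fun _ => Fin.elim0, fun _ => Fin.elim0, fun x => ?_, fun x => ?_⟩, ?_⟩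
    · funext i; exact i.elim0
    · funext i; exact i.elim0
    · intro a
      rw [splice_zero, splice_zero]
      exact h
  | succ j ih =>
    obtain ⟨Φ, hΦ⟩ := ih (by omega)
    have hs := fun a => hR.step _ _ (hΦ a) ⟨j, hj⟩
    choose σ hσ using hs
    let e1 : (V × (Fin j → V)) ≃ (Fin (j + 1) → V) := Fin.snocEquiv (fun _ => V)
    let e2 : (W × (Fin j → W)) ≃ (Fin (j + 1) → W) := Fin.snocEquiv (fun _ => W)
    let m : ((Fin j → V) × V) ≃ ((Fin j → W) × W) := Equiv.prodShear Φ σ
    refine ⟨e1.symm.trans ((Equiv.prodComm _ _).trans (m.trans ((Equiv.prodComm _ _).trans e2))), ?_⟩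
    intro a
    obtain ⟨⟨z, a'⟩, rfl⟩ := e1.surjective a
    have ha : e1 (z, a') = Fin.snoc (α := fun _ => V) a' z := rfl
    have hb : (e1.symm.trans ((Equiv.prodComm _ _).trans (m.trans ((Equiv.prodComm _ _).trans e2))))
        (e1 (z, a')) = Fin.snoc (α := fun _ => W) (Φ a') (σ a' z) := by
      simp only [Equiv.trans_apply, Equiv.symm_apply_apply]
      rfl
    rw [hb, ha, splice_snoc hj, splice_snoc hj]
    exact hσ a' z

/-- one related pair gives a bijection of all `k`-tuples respecting the strategy -/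
theorem SBisim.top {k : ℕ} {G : V → V → Bool} {H : W → W → Bool}
    {R : (Fin k → V) → (Fin k → W) → Prop} (hR : SBisim k G H R) {v : Fin k → V}
    {w : Fin k → W} (h : R v w) :
    ∃ Φ : (Fin k → V) ≃ (Fin k → W), ∀ a, R a (Φ a) := by
  obtain ⟨Φ, hΦ⟩ := hR.top_aux h k le_rfl
  refine ⟨Φ, fun a => ?_⟩
  have := hΦ a
  rwa [splice_full, splice_full] at this

theorem jeq_of_jt {k : ℕ} {G : V → V → Bool} {H : W → W → Bool} {v : Fin k → V}
    {w : Fin k → W} (h : JT k G H v w) : JEq k G H :=
  jeq_iff_equiv.2 ((jt_bisim k G H).toSBisim.top h)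

theorem seq_of_st {k : ℕ} {G : V → V → Bool} {H : W → W → Bool} {v : Fin k → V}
    {w : Fin k → W} (h : ST k G H v w) : SEq k G H :=
  seq_iff_equiv.2 ((st_bisim k G H).top h)

/-- **Duplicator theorem, joint convention**: a strategy with one related pair proves equivalence -/
theorem jeq_of_bisim {k : ℕ} {G : V → V → Bool} {H : W → W → Bool}
    {R : (Fin k → V) → (Fin k → W) → Prop} (hR : JBisim k G H R) {v : Fin k → V}
    {w : Fin k → W} (h : R v w) : JEq k G H := jeq_of_jt (hR.le h)

/-- **Duplicator theorem, separate convention** -/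
theorem seq_of_bisim {k : ℕ} {G : V → V → Bool} {H : W → W → Bool}
    {R : (Fin k → V) → (Fin k → W) → Prop} (hR : SBisim k G H R) {v : Fin k → V}
    {w : Fin k → W} (h : R v w) : SEq k G H := seq_of_st (hR.le h)

/-- every tuple has a partner -/
theorem JEq.exists_jt {k : ℕ} {G : V → V → Bool} {H : W → W → Bool} (h : JEq k G H)
    (v : Fin k → V) : ∃ w, JT k G H v w := by
  obtain ⟨Φ, hΦ⟩ := jeq_iff_equiv.1 h
  exact ⟨Φ v, hΦ v⟩

theorem SEq.exists_st {k : ℕ} {G : V → V → Bool} {H : W → W → Bool} (h : SEq k G H)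
    (v : Fin k → V) : ∃ w, ST k G H v w := by
  obtain ⟨Φ, hΦ⟩ := seq_iff_equiv.1 h
  exact ⟨Φ v, hΦ v⟩

theorem card_eq_of_jeq {k : ℕ} (hk : 0 < k) {G : V → V → Bool} {H : W → W → Bool}
    (h : JEq k G H) : Fintype.card V = Fintype.card W := by
  obtain ⟨Φ, -⟩ := jeq_iff_equiv.1 h
  have := Fintype.card_congr Φ
  simp only [Fintype.card_fun, Fintype.card_fin] at this
  exact Nat.pow_left_injective (by omega) this

theorem card_eq_of_seq {k : ℕ} (hk : 0 < k) {G : V → V → Bool} {H : W → W → Bool}
    (h : SEq k G H) : Fintype.card V = Fintype.card W := by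
  obtain ⟨Φ, -⟩ := seq_iff_equiv.1 h
  have := Fintype.card_congr Φ
  simp only [Fintype.card_fun, Fintype.card_fin] at this
  exact Nat.pow_left_injective (by omega) this

/-! ### Closure under coordinate maps -/

theorem exists_missed {k : ℕ} (f : Fin k → Fin k) (i : Fin k) : ∃ m, ∀ j, j ≠ i → f j ≠ m := by
  classical
  by_contra hcon
  push Not at hcon
  have hsurj : ((univ : Finset (Fin k)).erase i).image f = univ := by
    rw [Finset.eq_univ_iff_forall]
    intro m
    obtain ⟨j, hj, hm⟩ := hcon m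
    exact Finset.mem_image.2 ⟨j, Finset.mem_erase.2 ⟨hj, mem_univ _⟩, hm⟩
  have h1 : ((univ : Finset (Fin k)).erase i).card < k := by
    have := Finset.card_erase_lt_of_mem (mem_univ i)
    simpa using this
  have h2 := Finset.card_image_le (s := (univ : Finset (Fin k)).erase i) (f := f)
  rw [hsurj, Finset.card_univ, Fintype.card_fin] at h2
  omega

theorem update_comp_missed {Z : Type} {k : ℕ} (f : Fin k → Fin k) (i m : Fin k)
    (hm : ∀ j, j ≠ i → f j ≠ m) (v : Fin k → Z) (z : Z) :
    Function.update (v ∘ f) i z = Function.update v m z ∘ Function.update f i m := by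
  funext j
  by_cases h : j = i
  · subst h; simp
  · rw [Function.update_of_ne h]
    simp only [Function.comp]
    rw [Function.update_of_ne h, Function.update_of_ne (hm j h)]

theorem comp_jBisim (k : ℕ) (G : V → V → Bool) (H : W → W → Bool) :
    JBisim k G H (fun x y => ∃ (v : Fin k → V) (w : Fin k → W) (f : Fin k → Fin k),
      JT k G H v w ∧ x = v ∘ f ∧ y = w ∘ f) := by
  constructor
  · rintro x y ⟨v, w, f, h, rfl, rfl⟩
    have h0 := h 0
    have h1 : ∀ i j, decide (v i = v j) = decide (w i = w j) := fun i j =>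
      congrFun (congrFun (congrArg Prod.fst h0) i) j
    have h2 : ∀ i j, G (v i) (v j) = H (w i) (w j) := fun i j =>
      congrFun (congrFun (congrArg Prod.snd h0) i) j
    refine Prod.ext ?_ ?_
    · funext i j
      exact h1 _ _
    · funext i j
      exact h2 _ _
  · rintro x y ⟨v, w, f, h, rfl, rfl⟩
    obtain ⟨σ, hσ⟩ := (jt_bisim k G H).step v w h
    refine ⟨σ, fun z i => ?_⟩
    obtain ⟨m, hm⟩ := exists_missed f i
    exact ⟨Function.update v m z, Function.update w m (σ z), Function.update f i m, hσ z m,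
      update_comp_missed f i m hm v z, update_comp_missed f i m hm w (σ z)⟩

theorem comp_sBisim (k : ℕ) (G : V → V → Bool) (H : W → W → Bool) :
    SBisim k G H (fun x y => ∃ (v : Fin k → V) (w : Fin k → W) (f : Fin k → Fin k),
      ST k G H v w ∧ x = v ∘ f ∧ y = w ∘ f) := by
  constructor
  · rintro x y ⟨v, w, f, h, rfl, rfl⟩
    have h0 := h 0
    have h1 : ∀ i j, decide (v i = v j) = decide (w i = w j) := fun i j =>
      congrFun (congrFun (congrArg Prod.fst h0) i) j
    have h2 : ∀ i j, G (v i) (v j) = H (w i) (w j) := fun i j =>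
      congrFun (congrFun (congrArg Prod.snd h0) i) j
    refine Prod.ext ?_ ?_
    · funext i j
      exact h1 _ _
    · funext i j
      exact h2 _ _
  · rintro x y ⟨v, w, f, h, rfl, rfl⟩ i
    obtain ⟨m, hm⟩ := exists_missed f i
    obtain ⟨σ, hσ⟩ := (st_bisim k G H).step v w h m
    refine ⟨σ, fun z => ?_⟩
    exact ⟨Function.update v m z, Function.update w m (σ z), Function.update f i m, hσ z,
      update_comp_missed f i m hm v z, update_comp_missed f i m hm w (σ z)⟩

theorem JT.comp {k : ℕ} {G : V → V → Bool} {H : W → W → Bool} {v : Fin k → V} {w : Fin k → W}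
    (h : JT k G H v w) (f : Fin k → Fin k) : JT k G H (v ∘ f) (w ∘ f) :=
  (comp_jBisim k G H).le ⟨v, w, f, h, rfl, rfl⟩

theorem ST.comp {k : ℕ} {G : V → V → Bool} {H : W → W → Bool} {v : Fin k → V} {w : Fin k → W}
    (h : ST k G H v w) (f : Fin k → Fin k) : ST k G H (v ∘ f) (w ∘ f) :=
  (comp_sBisim k G H).le ⟨v, w, f, h, rfl, rfl⟩

/-! ### Atomic consequences -/

theorem JT.adj {k : ℕ} {G : V → V → Bool} {H : W → W → Bool} {v : Fin k → V} {w : Fin k → W}
    (h : JT k G H v w) (i j : Fin k) : G (v i) (v j) = H (w i) (w j) :=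
  congrFun (congrFun (congrArg Prod.snd (h 0)) i) j

theorem JT.eq_iff {k : ℕ} {G : V → V → Bool} {H : W → W → Bool} {v : Fin k → V} {w : Fin k → W}
    (h : JT k G H v w) (i j : Fin k) : v i = v j ↔ w i = w j := by
  have := congrFun (congrFun (congrArg Prod.fst (h 0)) i) j
  exact decide_eq_decide.1 this

theorem ST.adj {k : ℕ} {G : V → V → Bool} {H : W → W → Bool} {v : Fin k → V} {w : Fin k → W}
    (h : ST k G H v w) (i j : Fin k) : G (v i) (v j) = H (w i) (w j) :=
  congrFun (congrFun (congrArg Prod.snd (h 0)) i) j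

theorem ST.eq_iff {k : ℕ} {G : V → V → Bool} {H : W → W → Bool} {v : Fin k → V} {w : Fin k → W}
    (h : ST k G H v w) (i j : Fin k) : v i = v j ↔ w i = w j := by
  have := congrFun (congrFun (congrArg Prod.fst (h 0)) i) j
  exact decide_eq_decide.1 this

theorem exists_ne_fin {k : ℕ} (hk : 2 ≤ k) (i : Fin k) : ∃ j : Fin k, j ≠ i := by
  haveI : Nontrivial (Fin k) := Fin.nontrivial_iff_two_le.2 hk
  exact exists_ne i

/-- the joint step with its atomic consequences -/
theorem JT.step' {k : ℕ} (hk : 2 ≤ k) {G : V → V → Bool} {H : W → W → Bool} {v : Fin k → V}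
    {w : Fin k → W} (h : JT k G H v w) :
    ∃ σ : V ≃ W, (∀ z i, JT k G H (Function.update v i z) (Function.update w i (σ z))) ∧
      (∀ i, σ (v i) = w i) ∧ (∀ i z, G (v i) z = H (w i) (σ z)) ∧
      (∀ i z, G z (v i) = H (σ z) (w i)) := by
  obtain ⟨σ, hσ⟩ := (jt_bisim k G H).step v w h
  refine ⟨σ, hσ, ?_, ?_, ?_⟩
  · intro i
    obtain ⟨j, hj⟩ := exists_ne_fin hk i
    have h1 := (hσ (v i) j).eq_iff i j
    rw [Function.update_of_ne hj.symm, Function.update_of_ne hj.symm, Function.update_self,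
      Function.update_self] at h1
    exact (h1.1 rfl).symm
  · intro i z
    obtain ⟨j, hj⟩ := exists_ne_fin hk i
    have h1 := (hσ z j).adj i j
    rw [Function.update_of_ne hj.symm, Function.update_of_ne hj.symm, Function.update_self,
      Function.update_self] at h1
    exact h1
  · intro i z
    obtain ⟨j, hj⟩ := exists_ne_fin hk i
    have h1 := (hσ z j).adj j i
    rw [Function.update_of_ne hj.symm, Function.update_of_ne hj.symm, Function.update_self,
      Function.update_self] at h1
    exact h1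

/-- the separate step at coordinate `i` with its atomic consequences at the other coordinates -/
theorem ST.step' {k : ℕ} {G : V → V → Bool} {H : W → W → Bool} {v : Fin k → V}
    {w : Fin k → W} (h : ST k G H v w) (i : Fin k) :
    ∃ σ : V ≃ W, (∀ z, ST k G H (Function.update v i z) (Function.update w i (σ z))) ∧
      (∀ j, j ≠ i → σ (v j) = w j) ∧ (∀ j, j ≠ i → ∀ z, G (v j) z = H (w j) (σ z)) ∧
      (∀ j, j ≠ i → ∀ z, G z (v j) = H (σ z) (w j)) := by
  obtain ⟨σ, hσ⟩ := (st_bisim k G H).step v w h i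
  refine ⟨σ, hσ, ?_, ?_, ?_⟩
  · intro j hj
    have h1 := (hσ (v j)).eq_iff j i
    rw [Function.update_of_ne hj, Function.update_of_ne hj, Function.update_self,
      Function.update_self] at h1
    exact (h1.1 rfl).symm
  · intro j hj z
    have h1 := (hσ z).adj j i
    rw [Function.update_of_ne hj, Function.update_of_ne hj, Function.update_self,
      Function.update_self] at h1
    exact h1
  · intro j hj z
    have h1 := (hσ z).adj i j
    rw [Function.update_of_ne hj, Function.update_of_ne hj, Function.update_self,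
      Function.update_self] at h1
    exact h1

/-- degrees are seen by colours -/
theorem JT.degree_eq {k : ℕ} (hk : 2 ≤ k) {G : V → V → Bool} {H : W → W → Bool} {v : Fin k → V}
    {w : Fin k → W} (h : JT k G H v w) (i : Fin k) :
    (univ.filter fun z => G (v i) z = true).card = (univ.filter fun z => H (w i) z = true).card := by
  obtain ⟨σ, -, -, hσ, -⟩ := h.step' hk
  apply Finset.card_bij (fun z _ => σ z)
  · intro z hz
    rw [mem_filter] at hz ⊢
    exact ⟨mem_univ _, by rw [← hσ]; exact hz.2⟩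
  · intro a _ b _ hab
    exact σ.injective hab
  · intro b hb
    refine ⟨σ.symm b, ?_, by simp⟩
    rw [mem_filter] at hb ⊢
    refine ⟨mem_univ _, ?_⟩
    rw [hσ]
    simpa using hb.2

end Crest.Agent.R290
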