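import Crest.Agent.R290.EqDef
import Crest.Agent.R290.WLGame

/-!
Row 290, module B (helper68).

* `jeq_of_seq_succ`, `seq_succ_of_jeq`, `jeq_iff_seq_succ` : `JEq k ↔ SEq (k + 1)` for `2 ≤ k`.
* `jeq_of_jeq_succ`, `jeq_mono'`, `seq_mono'` : monotonicity in the number of pebbles.
* `crEquiv_of_jEquiv` : dimension `≥ 2` refines colour refinement.
* `jeq_iso` : with `card V ≤ k` pebbles the relation is isomorphism.
-/
set_option autoImplicit false

open Finset
open Crest.WLRefine

namespace Crest.Agent.R290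

variable {V W : Type} [Fintype V] [DecidableEq V] [Fintype W] [DecidableEq W]

/-! ### auxiliary -/

omit [Fintype V] [DecidableEq V] in
theorem snoc_const {k : ℕ} (a : V) :
    (Fin.snoc (α := fun _ => V) (fun _ : Fin k => a) a : Fin (k + 1) → V) = fun _ => a := by
  funext i
  refine Fin.lastCases ?_ (fun i => ?_) i
  · simp
  · simp

/-- constant tuples have constant partners -/
theorem JEq.const {k : ℕ} (hk : 1 ≤ k) {G : V → V → Bool} {H : W → W → Bool} (h : JEq k G H)
    (a : V) : ∃ b, JT k G H (fun _ => a) (fun _ => b) := by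
  obtain ⟨w, hw⟩ := h.exists_jt (fun _ => a)
  refine ⟨w ⟨0, hk⟩, ?_⟩
  have : w = fun _ => w ⟨0, hk⟩ := by
    funext i
    exact (hw.eq_iff i ⟨0, hk⟩).1 rfl
  rw [← this]; exact hw

theorem SEq.const {k : ℕ} (hk : 1 ≤ k) {G : V → V → Bool} {H : W → W → Bool} (h : SEq k G H)
    (a : V) : ∃ b, ST k G H (fun _ => a) (fun _ => b) := by
  obtain ⟨w, hw⟩ := h.exists_st (fun _ => a)
  refine ⟨w ⟨0, hk⟩, ?_⟩
  have : w = fun _ => w ⟨0, hk⟩ := by
    funext i
    exact (hw.eq_iff i ⟨0, hk⟩).1 rfl
  rw [← this]; exact hw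

theorem jeq_of_isEmpty' {k : ℕ} {G : V → V → Bool} {H : W → W → Bool} [IsEmpty V] [IsEmpty W] :
    JEq k G H :=
  jeq_of_iso k G H (Equiv.equivOfIsEmpty V W) fun a => isEmptyElim a

theorem seq_of_isEmpty' {k : ℕ} {G : V → V → Bool} {H : W → W → Bool} [IsEmpty V] [IsEmpty W] :
    SEq k G H :=
  seq_of_iso k G H (Equiv.equivOfIsEmpty V W) fun a => isEmptyElim a

omit [Fintype V] [Fintype W] in
/-- atoms of a restricted tuple -/
theorem gatom_comp {j k : ℕ} {G : V → V → Bool} {H : W → W → Bool} {v : Fin k → V}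
    {w : Fin k → W} (h : gatom G v = gatom H w) (f : Fin j → Fin k) :
    gatom G (v ∘ f) = gatom H (w ∘ f) := by
  refine Prod.ext ?_ ?_
  · funext a b
    exact congrFun (congrFun (congrArg Prod.fst h) (f a)) (f b)
  · funext a b
    exact congrFun (congrFun (congrArg Prod.snd h) (f a)) (f b)

omit [Fintype V] [DecidableEq V] in
theorem snoc_comp_castSucc' {k : ℕ} (v : Fin k → V) (a : V) :
    (Fin.snoc (α := fun _ => V) v a : Fin (k + 1) → V) ∘ Fin.castSucc = v := by
  funext i
  simp

/-! ### the separate game with `k + 1` pebbles gives the joint one with `k` -/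

theorem jBisim_of_st (k : ℕ) (G : V → V → Bool) (H : W → W → Bool) :
    JBisim k G H (fun v w => ∃ a b, ST (k + 1) G H (Fin.snoc (α := fun _ => V) v a)
      (Fin.snoc (α := fun _ => W) w b)) := by
  constructor
  · rintro v w ⟨a, b, h⟩
    have := gatom_comp (h 0) Fin.castSucc
    rwa [snoc_comp_castSucc', snoc_comp_castSucc'] at this
  · rintro v w ⟨a, b, h⟩
    obtain ⟨σ, hσ⟩ := (st_bisim (k + 1) G H).step _ _ h (Fin.last k)
    refine ⟨σ, fun z i => ⟨z, σ z, ?_⟩⟩
    have h1 := hσ z
    have e1 : Function.update (Fin.snoc (α := fun _ => V) v a : Fin (k + 1) → V) (Fin.last k) z =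
        Fin.snoc (α := fun _ => V) v z := by
      exact Fin.update_snoc_last ..
    have e2 : Function.update (Fin.snoc (α := fun _ => W) w b : Fin (k + 1) → W) (Fin.last k)
        (σ z) = Fin.snoc (α := fun _ => W) w (σ z) := by
      exact Fin.update_snoc_last ..
    rw [e1, e2] at h1
    obtain ⟨τ, hτ⟩ := (st_bisim (k + 1) G H).step _ _ h1 i.castSucc
    have h2 := hτ z
    rw [← Fin.snoc_update (α := fun _ => V), ← Fin.snoc_update (α := fun _ => W)] at h2
    have h3 := h2.eq_iff i.castSucc (Fin.last k)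
    simp only [Fin.snoc_castSucc, Fin.snoc_last, Function.update_self, true_iff] at h3
    rw [h3] at h2
    exact h2

theorem jeq_of_seq_succ {k : ℕ} {G : V → V → Bool} {H : W → W → Bool} (h : SEq (k + 1) G H) :
    JEq k G H := by
  have hc := card_eq_of_seq (Nat.succ_pos k) h
  rcases isEmpty_or_nonempty V with hV | ⟨⟨a⟩⟩
  · have : IsEmpty W := by
      rw [← Fintype.card_eq_zero_iff, ← hc, Fintype.card_eq_zero_iff]; exact hV
    exact jeq_of_isEmpty'
  · obtain ⟨b, hb⟩ := h.const (Nat.succ_pos k) a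
    refine jeq_of_bisim (jBisim_of_st k G H) (v := fun _ => a) (w := fun _ => b) ⟨a, b, ?_⟩
    rw [snoc_const, snoc_const]; exact hb

/-! ### the joint game with `k ≥ 2` pebbles gives the separate one with `k + 1` -/

theorem jt_comp_succ {k : ℕ} {G : V → V → Bool} {H : W → W → Bool} {u : Fin (k + 1) → V}
    {u' : Fin (k + 1) → W}
    (h : ∀ m : Fin (k + 1), JT k G H (u ∘ m.succAbove) (u' ∘ m.succAbove))
    (f : Fin k → Fin (k + 1)) : JT k G H (u ∘ f) (u' ∘ f) := by
  have hns : ¬ Function.Surjective f := by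
    intro hs
    have := Fintype.card_le_of_surjective f hs
    simp at this
  simp only [Function.Surjective, not_forall, not_exists] at hns
  obtain ⟨m, hm⟩ := hns
  choose g hg using fun c => Fin.exists_succAbove_eq (hm c)
  have e1 : u ∘ f = (u ∘ m.succAbove) ∘ g := by
    funext c; simp only [Function.comp]; rw [hg]
  have e2 : u' ∘ f = (u' ∘ m.succAbove) ∘ g := by
    funext c; simp only [Function.comp]; rw [hg]
  rw [e1, e2]
  exact (h m).comp g

omit [Fintype V] [DecidableEq V] in
theorem update_comp_succAbove {k : ℕ} (u : Fin (k + 1) → V) (j m : Fin (k + 1)) (i : Fin k)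
    (_hi : j.succAbove i = m) (g : Fin k → Fin k)
    (hg : ∀ c, g c = i ∧ m.succAbove c = j ∨ g c ≠ i ∧ m.succAbove c ≠ j ∧
      j.succAbove (g c) = m.succAbove c) (z : V) :
    Function.update u j z ∘ m.succAbove = Function.update (u ∘ j.succAbove) i z ∘ g := by
  funext c
  simp only [Function.comp]
  rcases hg c with ⟨h1, h2⟩ | ⟨h1, h2, h3⟩
  · rw [h1, h2, Function.update_self, Function.update_self]
  · rw [Function.update_of_ne h1, Function.update_of_ne h2]
    simp only [Function.comp]
    rw [h3]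

theorem sBisim_of_jt {k : ℕ} (hk : 2 ≤ k) (G : V → V → Bool) (H : W → W → Bool) :
    SBisim (k + 1) G H (fun u u' => ∀ m : Fin (k + 1),
      JT k G H (u ∘ m.succAbove) (u' ∘ m.succAbove)) := by
  constructor
  · intro u u' h
    have key : ∀ a b : Fin (k + 1), (u a = u b ↔ u' a = u' b) ∧ G (u a) (u b) = H (u' a) (u' b) := by
      intro a b
      have h1 := jt_comp_succ h (fun c => if c.val = 0 then a else b)
      have h2 := h1.eq_iff ⟨0, by omega⟩ ⟨1, by omega⟩
      have h3 := h1.adj ⟨0, by omega⟩ ⟨1, by omega⟩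
      simp only [Function.comp] at h2 h3
      exact ⟨by simpa using h2, by simpa using h3⟩
    refine Prod.ext ?_ ?_
    · funext a b
      simp only [gatom]
      rw [decide_eq_decide]
      exact (key a b).1
    · funext a b
      exact (key a b).2
  · intro u u' h j
    obtain ⟨σ, hσ⟩ := (jt_bisim k G H).step _ _ (h j)
    refine ⟨σ, fun z m => ?_⟩
    by_cases hm : m = j
    · subst hm
      have e1 : Function.update u m z ∘ m.succAbove = u ∘ m.succAbove := by
        funext c; simp only [Function.comp]; rw [Function.update_of_ne (Fin.succAbove_ne m c)]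
      have e2 : Function.update u' m (σ z) ∘ m.succAbove = u' ∘ m.succAbove := by
        funext c; simp only [Function.comp]; rw [Function.update_of_ne (Fin.succAbove_ne m c)]
      rw [e1, e2]; exact h m
    · obtain ⟨i, hi⟩ := Fin.exists_succAbove_eq hm
      have hg : ∀ c, ∃ d, d = i ∧ m.succAbove c = j ∨ d ≠ i ∧ m.succAbove c ≠ j ∧
          j.succAbove d = m.succAbove c := by
        intro c
        by_cases hc : m.succAbove c = j
        · exact ⟨i, Or.inl ⟨rfl, hc⟩⟩
        · obtain ⟨d, hd⟩ := Fin.exists_succAbove_eq hc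
          refine ⟨d, Or.inr ⟨?_, hc, hd⟩⟩
          rintro rfl
          rw [hi] at hd
          exact Fin.succAbove_ne m c hd.symm
      choose g hg using hg
      rw [update_comp_succAbove u j m i hi g hg z, update_comp_succAbove u' j m i hi g hg (σ z)]
      exact (hσ z i).comp g

theorem seq_succ_of_jeq {k : ℕ} (hk : 2 ≤ k) {G : V → V → Bool} {H : W → W → Bool}
    (h : JEq k G H) : SEq (k + 1) G H := by
  have hc := card_eq_of_jeq (by omega) h
  rcases isEmpty_or_nonempty V with hV | ⟨⟨a⟩⟩
  · have : IsEmpty W := by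
      rw [← Fintype.card_eq_zero_iff, ← hc, Fintype.card_eq_zero_iff]; exact hV
    exact seq_of_isEmpty'
  · obtain ⟨b, hb⟩ := h.const (by omega) a
    exact seq_of_bisim (sBisim_of_jt hk G H) (v := fun _ => a) (w := fun _ => b) fun m => hb

/-- **folklore**: `k`-dimensional in the joint convention = `(k + 1)`-dimensional in the separate
convention -/
theorem jeq_iff_seq_succ {k : ℕ} (hk : 2 ≤ k) {G : V → V → Bool} {H : W → W → Bool} :
    JEq k G H ↔ SEq (k + 1) G H := ⟨seq_succ_of_jeq hk, jeq_of_seq_succ⟩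

theorem seq_iff_jeq_pred {k : ℕ} (hk : 3 ≤ k) {G : V → V → Bool} {H : W → W → Bool} :
    SEq k G H ↔ JEq (k - 1) G H := by
  obtain ⟨k, rfl⟩ : ∃ j, k = j + 1 := ⟨k - 1, by omega⟩
  exact (jeq_iff_seq_succ (by omega)).symm

theorem jEquiv_iff_sEquiv_succ {n m k : ℕ} (hk : 2 ≤ k) (G : Fin n → Fin n → Bool)
    (H : Fin m → Fin m → Bool) : JEquiv k G H ↔ SEquiv (k + 1) G H := by
  rw [jequiv_iff, sequiv_iff]; exact jeq_iff_seq_succ hk

/-! ### monotonicity -/

theorem jBisim_of_jt_succ (k : ℕ) (G : V → V → Bool) (H : W → W → Bool) :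
    JBisim k G H (fun v w => ∃ a b, JT (k + 1) G H (Fin.snoc (α := fun _ => V) v a)
      (Fin.snoc (α := fun _ => W) w b)) := by
  constructor
  · rintro v w ⟨a, b, h⟩
    have := gatom_comp (h 0) Fin.castSucc
    rwa [snoc_comp_castSucc', snoc_comp_castSucc'] at this
  · rintro v w ⟨a, b, h⟩
    obtain ⟨σ, hσ⟩ := (jt_bisim (k + 1) G H).step _ _ h
    refine ⟨σ, fun z i => ⟨a, b, ?_⟩⟩
    have h2 := hσ z i.castSucc
    rwa [← Fin.snoc_update (α := fun _ => V), ← Fin.snoc_update (α := fun _ => W)] at h2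

theorem sBisim_of_st_succ (k : ℕ) (G : V → V → Bool) (H : W → W → Bool) :
    SBisim k G H (fun v w => ∃ a b, ST (k + 1) G H (Fin.snoc (α := fun _ => V) v a)
      (Fin.snoc (α := fun _ => W) w b)) := by
  constructor
  · rintro v w ⟨a, b, h⟩
    have := gatom_comp (h 0) Fin.castSucc
    rwa [snoc_comp_castSucc', snoc_comp_castSucc'] at this
  · rintro v w ⟨a, b, h⟩ i
    obtain ⟨σ, hσ⟩ := (st_bisim (k + 1) G H).step _ _ h i.castSucc
    refine ⟨σ, fun z => ⟨a, b, ?_⟩⟩
    have h2 := hσ z
    rwa [← Fin.snoc_update (α := fun _ => V), ← Fin.snoc_update (α := fun _ => W)] at h2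

theorem jeq_of_jeq_succ {k : ℕ} {G : V → V → Bool} {H : W → W → Bool} (h : JEq (k + 1) G H) :
    JEq k G H := by
  have hc := card_eq_of_jeq (Nat.succ_pos k) h
  rcases isEmpty_or_nonempty V with hV | ⟨⟨a⟩⟩
  · have : IsEmpty W := by
      rw [← Fintype.card_eq_zero_iff, ← hc, Fintype.card_eq_zero_iff]; exact hV
    exact jeq_of_isEmpty'
  · obtain ⟨b, hb⟩ := h.const (Nat.succ_pos k) a
    refine jeq_of_bisim (jBisim_of_jt_succ k G H) (v := fun _ => a) (w := fun _ => b) ⟨a, b, ?_⟩
    rw [snoc_const, snoc_const]; exact hb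

theorem seq_of_seq_succ {k : ℕ} {G : V → V → Bool} {H : W → W → Bool} (h : SEq (k + 1) G H) :
    SEq k G H := by
  have hc := card_eq_of_seq (Nat.succ_pos k) h
  rcases isEmpty_or_nonempty V with hV | ⟨⟨a⟩⟩
  · have : IsEmpty W := by
      rw [← Fintype.card_eq_zero_iff, ← hc, Fintype.card_eq_zero_iff]; exact hV
    exact seq_of_isEmpty'
  · obtain ⟨b, hb⟩ := h.const (Nat.succ_pos k) a
    refine seq_of_bisim (sBisim_of_st_succ k G H) (v := fun _ => a) (w := fun _ => b) ⟨a, b, ?_⟩
    rw [snoc_const, snoc_const]; exact hb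

theorem jeq_mono' {k k' : ℕ} (hkk : k' ≤ k) {G : V → V → Bool} {H : W → W → Bool}
    (h : JEq k G H) : JEq k' G H := by
  obtain ⟨d, rfl⟩ := Nat.exists_eq_add_of_le hkk
  induction d with
  | zero => exact h
  | succ d ih => exact ih (by omega) (jeq_of_jeq_succ h)

theorem seq_mono' {k k' : ℕ} (hkk : k' ≤ k) {G : V → V → Bool} {H : W → W → Bool}
    (h : SEq k G H) : SEq k' G H := by
  obtain ⟨d, rfl⟩ := Nat.exists_eq_add_of_le hkk
  induction d with
  | zero => exact h
  | succ d ih => exact ih (by omega) (seq_of_seq_succ h)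

/-! ### colour refinement -/

theorem JT.crcolor {n m k : ℕ} (hk : 2 ≤ k) {G : Fin n → Fin n → Bool} {H : Fin m → Fin m → Bool}
    (s : ℕ) : ∀ (v : Fin k → Fin n) (w : Fin k → Fin m), JT k G H v w →
      ∀ i, Crest.WLRefine.crcolor G s (v i) = Crest.WLRefine.crcolor H s (w i) := by
  induction s with
  | zero => intro v w _ i; rfl
  | succ s ih =>
    intro v w h i
    simp only [Crest.WLRefine.crcolor]
    refine Prod.ext (ih v w h i) ?_
    obtain ⟨σ, hσ, -, hσ2, -⟩ := h.step' hk
    obtain ⟨j, hj⟩ := exists_ne_fin hk i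
    have hc : ∀ z, Crest.WLRefine.crcolor G s z = Crest.WLRefine.crcolor H s (σ z) := by
      intro z
      have := ih _ _ (hσ z j) j
      rwa [Function.update_self, Function.update_self] at this
    have e1 : ((univ : Finset (Fin m)).filter fun w' => H (w i) w' = true) =
        ((univ : Finset (Fin n)).filter fun w' => G (v i) w' = true).map σ.toEmbedding := by
      ext y
      simp only [mem_filter, mem_univ, true_and, Finset.mem_map, Equiv.coe_toEmbedding]
      constructor
      · intro hy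
        refine ⟨σ.symm y, ?_, by simp⟩
        rw [hσ2]; simpa using hy
      · rintro ⟨x, hx, rfl⟩
        rw [← hσ2]; exact hx
    dsimp only
    rw [e1, Finset.map_val, Multiset.map_map]
    apply Multiset.map_congr rfl
    intro z _
    exact hc z

theorem crEquiv_of_jEquiv {n m k : ℕ} (hk : 2 ≤ k) {G : Fin n → Fin n → Bool}
    {H : Fin m → Fin m → Bool} (h : JEquiv k G H) : CREquiv G H := by
  rw [jequiv_iff] at h
  have hc := card_eq_of_jeq (by omega) h
  intro s
  rcases isEmpty_or_nonempty (Fin n) with hV | ⟨⟨a⟩⟩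
  · have : IsEmpty (Fin m) := by
      rw [← Fintype.card_eq_zero_iff, ← hc, Fintype.card_eq_zero_iff]; exact hV
    rw [Finset.univ_eq_empty, Finset.univ_eq_empty]
    rfl
  · obtain ⟨b, hb⟩ := h.const (by omega) a
    obtain ⟨σ, hσ, -⟩ := hb.step' hk
    apply map_eq_of_equiv _ _ σ
    intro z
    have := JT.crcolor hk s _ _ (hσ z ⟨0, by omega⟩) ⟨0, by omega⟩
    rwa [Function.update_self, Function.update_self] at this

/-- equivalence at dimension `k` implies equivalence at each smaller positive dimension -/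
theorem wlEquiv_of_jEquiv {n m k k' : ℕ} (hk : 2 ≤ k) (hkk : k' ≤ k) {G : Fin n → Fin n → Bool}
    {H : Fin m → Fin m → Bool} (h : JEquiv k G H) : WLEquiv k' G H := by
  unfold WLEquiv
  split_ifs
  · exact crEquiv_of_jEquiv hk h
  · rw [jequiv_iff] at h ⊢
    exact jeq_mono' hkk h

/-! ### many pebbles -/

theorem jeq_iso {k : ℕ} (hk : 1 ≤ k) {G : V → V → Bool} {H : W → W → Bool}
    (hc : Fintype.card V ≤ k) (h : JEq k G H) : ∃ e : V ≃ W, ∀ a b, H (e a) (e b) = G a b := by
  have hcc := card_eq_of_jeq (by omega) h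
  rcases isEmpty_or_nonempty V with hV | hV
  · have : IsEmpty W := by
      rw [← Fintype.card_eq_zero_iff, ← hcc, Fintype.card_eq_zero_iff]; exact hV
    exact ⟨Equiv.equivOfIsEmpty V W, fun a => isEmptyElim a⟩
  · obtain ⟨f⟩ : Nonempty (V ↪ Fin k) := Function.Embedding.nonempty_of_card_le (by simpa using hc)
    obtain ⟨w, hw⟩ := h.exists_jt (Function.invFun f)
    have hinv : ∀ a, Function.invFun f (f a) = a := Function.leftInverse_invFun f.injective
    have hinj : Function.Injective fun a => w (f a) := by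
      intro a b hab
      have := (hw.eq_iff (f a) (f b)).2 hab
      rwa [hinv, hinv] at this
    have hbij : Function.Bijective fun a => w (f a) :=
      (Fintype.bijective_iff_injective_and_card _).2 ⟨hinj, hcc⟩
    refine ⟨Equiv.ofBijective _ hbij, fun a b => ?_⟩
    have := hw.adj (f a) (f b)
    rw [hinv, hinv] at this
    exact this.symm

end Crest.Agent.R290
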