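import Crest.Agent.R290.AStep
import Crest.Agent.R290.AEquiv
import Crest.Agent.R290.BMono

/-!
# A_DUP: no successful choice implies equivalence (row 290, module A)

`good_match`: (I) `fl_match`; (II) every `u a` is some `inl ⟨i, d i⟩` (a surjection `Fin t → Fin t` of
indices is a bijection), `Loc.mat` with `bAdj_main`.
Relation `R v w := ∃ D, Good C D (fun a => (v a).1.1) ∧ ∀ a, (w a).1.1 = (v a).1.1 ∧
(w a).1.2 = (v a).1.2 + D (v a).1.1`.
`atom`: equality of `v a`, `v b` iff of `w a`, `w b` (same `D` at the same base vertex); adjacency: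
`ladj` unfolds, `good_match`.  `step`: `good_step` and `exists_shift`; for `z` take `D''` of `x = z.1.1`
(`Function.update` commutes with the map `(·).1.1`).
`seq_ladj`: if `LV C lift0` is empty so is the other (`exists_shift`-like bijection, or
`AE.card_lift_eq` + `exists_liftEquiv`); use `seq_of_isEmpty'` (BMono).  Otherwise one vertex `x0`;
constant tuple `v`; choose `m` with `typeOf x0 ≠ inl m`, `exists_flow`, `D = fl C f 0` and `w` its shift
(a vertex of the other lift by `fl_supp`, `fl_sum`); `seq_of_bisim` (WLGame).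
-/
set_option autoImplicit false

namespace Crest.Agent.R290.A

open Crest.WLRefine Crest.WLRefine.ParityLift Finset

variable {t : ℕ}

theorem good_match (C : ChoiceSystem t) {D : BV C → TV t → ZMod 2} {u : Fin t → BV C}
    (h : Good C D u) (a b : Fin t) (hab : bAdj C (u a) (u b) = true) :
    D (u a) (typeOf C (u b)) = D (u b) (typeOf C (u a)) := by
  rcases h with ⟨m, f, κ, hf, _, hD⟩ | ⟨d, hd, hL⟩
  · rw [hD a, hD b]
    exact fl_match C hf κ (u a) (u b) hab
  · choose g hg using hd
    have hinj : Function.Injective g := by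
      intro i j hij
      have h1 := hg i
      rw [hij, hg j] at h1
      have h2 := congrArg (typeOf C) h1
      simp only [typeOf] at h2
      exact (Sum.inl.inj h2).symm
    have hbij := Finite.injective_iff_bijective.1 hinj
    obtain ⟨i, rfl⟩ := hbij.2 a
    obtain ⟨j, rfl⟩ := hbij.2 b
    rw [hg i, hg j] at hab ⊢
    obtain ⟨h1, h2⟩ := (bAdj_main C i j (d i) (d j)).1 hab
    exact hL.mat i j trivial trivial h1 h2

/-- the strategy -/
def Rel (C : ChoiceSystem t) (v : Fin t → LV C (lift0Parity t)) (w : Fin t → LV C (liftStarParity t)) :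
    Prop :=
  ∃ D : BV C → TV t → ZMod 2, Good C D (fun a => (v a).1.1) ∧
    ∀ a, (w a).1.1 = (v a).1.1 ∧ (w a).1.2 = (v a).1.2 + D (v a).1.1

theorem rel_atom (C : ChoiceSystem t) (v : Fin t → LV C (lift0Parity t))
    (w : Fin t → LV C (liftStarParity t)) (h : Rel C v w) :
    gatom (ladj C) v = gatom (ladj C) w := by
  obtain ⟨D, hG, hw⟩ := h
  unfold gatom
  refine Prod.ext ?_ ?_
  · funext i j
    show decide (v i = v j) = decide (w i = w j)
    rw [decide_eq_decide]
    constructor
    · intro e
      apply Subtype.ext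
      refine Prod.ext ?_ ?_
      · rw [(hw i).1, (hw j).1, e]
      · rw [(hw i).2, (hw j).2, e]
    · intro e
      have e1 : (v i).1.1 = (v j).1.1 := by
        rw [← (hw i).1, ← (hw j).1, e]
      apply Subtype.ext
      refine Prod.ext e1 ?_
      have e2 : (v i).1.2 + D (v i).1.1 = (v j).1.2 + D (v j).1.1 := by
        rw [← (hw i).2, ← (hw j).2, e]
      rw [e1] at e2
      exact add_right_cancel e2
  · funext i j
    show ladj C (v i) (v j) = ladj C (w i) (w j)
    unfold ladj
    rw [decide_eq_decide, (hw i).1, (hw j).1, (hw i).2, (hw j).2]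
    constructor
    · rintro ⟨h1, h2⟩
      refine ⟨h1, ?_⟩
      have h3 := good_match C hG i j h1
      simp only [Pi.add_apply]
      rw [h2]
      congr 1
    · rintro ⟨h1, h2⟩
      refine ⟨h1, ?_⟩
      have h3 := good_match C hG i j h1
      simp only [Pi.add_apply] at h2 h3
      rw [h3] at h2
      exact add_right_cancel h2

theorem rel_step (ht : 2 ≤ t) (C : ChoiceSystem t) (hC : ¬ C.Successful)
    (v : Fin t → LV C (lift0Parity t)) (w : Fin t → LV C (liftStarParity t)) (h : Rel C v w)
    (a : Fin t) : ∃ σ : LV C (lift0Parity t) ≃ LV C (liftStarParity t),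
      ∀ z, Rel C (Function.update v a z) (Function.update w a (σ z)) := by
  obtain ⟨D, hG, hw⟩ := h
  obtain ⟨D', hs, hp, hx⟩ := good_step ht C hC hG a
  obtain ⟨σ, hσ⟩ := exists_shift C D' hs hp
  refine ⟨σ, fun z => ?_⟩
  obtain ⟨D'', h1, h2, h3⟩ := hx z.1.1
  refine ⟨D'', ?_, ?_⟩
  · have e : (fun b => (Function.update v a z b).1.1) =
        Function.update (fun b => (v b).1.1) a z.1.1 := by
      funext b
      by_cases hb : b = a
      · subst hb
        simp
      · simp [Function.update_of_ne hb]
    rw [e]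
    exact h3
  · intro b
    by_cases hb : b = a
    · subst hb
      rw [Function.update_self, Function.update_self, h1]
      exact hσ z
    · rw [Function.update_of_ne hb, Function.update_of_ne hb]
      have h4 : D'' (v b).1.1 = D (v b).1.1 := h2 b hb
      rw [h4]
      exact hw b

theorem seq_ladj (ht : 3 ≤ t) (C : ChoiceSystem t) (hC : ¬ C.Successful) :
    SEq t (ladj C (b := lift0Parity t) (b' := lift0Parity t))
      (ladj C (b := liftStarParity t) (b' := liftStarParity t)) := by
  rcases isEmpty_or_nonempty (LV C (lift0Parity t)) with he | ⟨⟨x0⟩⟩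
  · obtain ⟨e, _⟩ := exists_liftEquiv C (lift0Parity t)
    obtain ⟨e', _⟩ := exists_liftEquiv C (liftStarParity t)
    have he1 : IsEmpty (LiftV C (lift0Parity t)) := e.isEmpty
    have hc := AE.card_lift_eq ht C (lift0Parity t) (liftStarParity t)
    have h0 : Fintype.card (LiftV C (lift0Parity t)) = 0 := Fintype.card_eq_zero_iff.2 he1
    rw [h0] at hc
    have he2 : IsEmpty (LiftV C (liftStarParity t)) := Fintype.card_eq_zero_iff.1 hc.symm
    have he3 : IsEmpty (LV C (liftStarParity t)) := e'.symm.isEmpty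
    exact seq_of_isEmpty'
  · obtain ⟨m, hm⟩ : ∃ m : Fin t, typeOf C x0.1.1 ≠ Sum.inl m := by
      by_contra hcon
      push Not at hcon
      have h1 := hcon ⟨0, by omega⟩
      have h2 := hcon ⟨1, by omega⟩
      rw [h1] at h2
      have h3 := congrArg Fin.val (Sum.inl.inj h2)
      simp at h3
    obtain ⟨f, hf⟩ := exists_flow (by omega : 2 ≤ t) m
    have hw0 : (∀ a, tAdj (typeOf C x0.1.1) a = false →
        (x0.1.2 + fl C f 0 x0.1.1) a = 0) ∧
        ∑ a, (x0.1.2 + fl C f 0 x0.1.1) a = vb (liftStarParity t (typeOf C x0.1.1)) := by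
      constructor
      · intro a ha
        rw [Pi.add_apply, x0.2.1 a ha, fl_supp C hf 0 x0.1.1 a ha, add_zero]
      · simp only [Pi.add_apply]
        rw [Finset.sum_add_distrib, x0.2.2, fl_sum C hf 0 x0.1.1 hm]
        show vb false + star _ = _
        simp [vb, star]
    refine seq_of_bisim (R := Rel C)
      (v := fun _ => x0) (w := fun _ => ⟨(x0.1.1, x0.1.2 + fl C f 0 x0.1.1), hw0⟩)
      ⟨rel_atom C, fun v w h i => rel_step (by omega) C hC v w h i⟩ ?_
    exact ⟨fl C f 0, Or.inl ⟨m, f, 0, hf, fun _ => hm, fun _ => rfl⟩, fun _ => ⟨rfl, rfl⟩⟩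

theorem seq_lift (ht : 3 ≤ t) (C : ChoiceSystem t) (hC : ¬ C.Successful) :
    SEq t (liftAdj C (lift0Parity t)) (liftAdj C (liftStarParity t)) := by
  obtain ⟨e, he⟩ := exists_liftEquiv C (lift0Parity t)
  obtain ⟨e', he'⟩ := exists_liftEquiv C (liftStarParity t)
  exact ((seq_of_iso t _ _ e he).trans (seq_ladj ht C hC)).trans (seq_of_iso t _ _ e' he').symm

end Crest.Agent.R290.A
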