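import Crest.Agent.R290.ABase

/-!
# A_EVEN: the number of main common neighbours is even (row 290, module A)

PROOF.  Fixed-point free involution on the set: for a main `n` let `N = univ.filter (tAdj (inl n) ·)`;
`N.card = t - 1 + 3 * (t-1).choose 2 ≥ 5` (`AE.card_nbr_main`; `t ≥ 4`, so `(t-1).choose 2 ≥ 3`), so
`N \ {typeOf x1, typeOf x2, typeOf x3}` has two different elements `α n`, `β n`
(`Finset.one_lt_card`).  The involution adds `[α n] + [β n]` to the tag of `z` with base `inl ⟨n, e⟩`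
(support and parity are preserved, the coordinates `typeOf x_i` are not changed, so `ladj x_i z` is not
changed).  `Finset.sum_involution` for the constant `1 : ZMod 2`, `Finset.card_eq_sum_ones`/
`Finset.sum_const`.
-/
set_option autoImplicit false

namespace Crest.Agent.R290.A

open Crest.WLRefine Crest.WLRefine.ParityLift Finset

variable {t : ℕ}

private theorem exists_pair (ht : 4 ≤ t) (i : Fin t) (y1 y2 y3 : TV t) :
    ∃ α β : TV t, α ≠ β ∧ (tAdj (Sum.inl i) α = true ∧ α ≠ y1 ∧ α ≠ y2 ∧ α ≠ y3) ∧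
      (tAdj (Sum.inl i) β = true ∧ β ≠ y1 ∧ β ≠ y2 ∧ β ≠ y3) := by
  classical
  have h1 : (univ.filter fun a : TV t => tAdj (Sum.inl i) a = true).card =
      (t - 1) + 3 * (t - 1).choose 2 := by
    rw [← AE.card_nbr_main (by omega) i, Fintype.card_subtype]
  have h2 : 3 ≤ (t - 1).choose 2 := by
    have : Nat.choose 3 2 ≤ (t - 1).choose 2 := Nat.choose_le_choose 2 (by omega)
    simpa using this
  have h3 : ((univ.filter fun a : TV t => tAdj (Sum.inl i) a = true) \ {y1, y2, y3}).card +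
      ({y1, y2, y3} : Finset (TV t)).card ≥
      (univ.filter fun a : TV t => tAdj (Sum.inl i) a = true).card := by
    have := Finset.le_card_sdiff ({y1, y2, y3} : Finset (TV t))
      (univ.filter fun a : TV t => tAdj (Sum.inl i) a = true)
    omega
  have h4 : ({y1, y2, y3} : Finset (TV t)).card ≤ 3 := Finset.card_le_three
  have h5 : 1 < ((univ.filter fun a : TV t => tAdj (Sum.inl i) a = true) \ {y1, y2, y3}).card := by
    omega
  obtain ⟨α, hα, β, hβ, hne⟩ := Finset.one_lt_card.1 h5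
  rw [mem_sdiff, mem_filter] at hα hβ
  simp only [mem_insert, mem_singleton, not_or, mem_univ, true_and] at hα hβ
  exact ⟨α, β, hne, hα, hβ⟩

private theorem exists_delta (ht : 4 ≤ t) (C : ChoiceSystem t) (y1 y2 y3 : TV t) :
    ∃ δ : BV C → TV t → ZMod 2, ∀ u : BV C,
      (∀ a, tAdj (typeOf C u) a = false → δ u a = 0) ∧ (∑ a, δ u a = 0) ∧
      δ u y1 = 0 ∧ δ u y2 = 0 ∧ δ u y3 = 0 ∧ ((∃ p, u = Sum.inl p) → δ u ≠ 0) := by
  classical
  have key : ∀ u : BV C, ∃ d : TV t → ZMod 2,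
      (∀ a, tAdj (typeOf C u) a = false → d a = 0) ∧ (∑ a, d a = 0) ∧
      d y1 = 0 ∧ d y2 = 0 ∧ d y3 = 0 ∧ ((∃ p, u = Sum.inl p) → d ≠ 0) := by
    intro u
    rcases u with p | q
    · obtain ⟨α, β, hne, ⟨ha0, ha1, ha2, ha3⟩, ⟨hb0, hb1, hb2, hb3⟩⟩ :=
        exists_pair ht p.1 y1 y2 y3
      refine ⟨Pi.single α 1 + Pi.single β 1, ?_, ?_, ?_, ?_, ?_, ?_⟩
      · intro a ha
        have e1 : a ≠ α := by
          rintro rfl
          rw [show typeOf C (Sum.inl p) = Sum.inl p.1 from rfl, ha0] at ha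
          exact Bool.noConfusion ha
        have e2 : a ≠ β := by
          rintro rfl
          rw [show typeOf C (Sum.inl p) = Sum.inl p.1 from rfl, hb0] at ha
          exact Bool.noConfusion ha
        rw [Pi.add_apply, Pi.single_eq_of_ne e1, Pi.single_eq_of_ne e2, add_zero]
      · simp only [Pi.add_apply]
        rw [sum_add_distrib, Finset.sum_pi_single', Finset.sum_pi_single']
        simp
        decide
      · rw [Pi.add_apply, Pi.single_eq_of_ne ha1.symm, Pi.single_eq_of_ne hb1.symm, add_zero]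
      · rw [Pi.add_apply, Pi.single_eq_of_ne ha2.symm, Pi.single_eq_of_ne hb2.symm, add_zero]
      · rw [Pi.add_apply, Pi.single_eq_of_ne ha3.symm, Pi.single_eq_of_ne hb3.symm, add_zero]
      · intro _ h0
        have := congrFun h0 α
        rw [Pi.add_apply, Pi.single_eq_same, Pi.single_eq_of_ne hne, add_zero, Pi.zero_apply] at this
        exact one_ne_zero this
    · refine ⟨0, fun _ _ => rfl, by simp, rfl, rfl, rfl, ?_⟩
      rintro ⟨p, hp⟩
      exact absurd hp (by simp)
  choose δ hδ using key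
  exact ⟨δ, hδ⟩

theorem even_main (ht : 4 ≤ t) (C : ChoiceSystem t) (b : TV t → Bool) (x1 x2 x3 : LV C b) :
    ((univ.filter fun z : LV C b => (∃ p, z.1.1 = Sum.inl p) ∧
      ladj C x1 z = true ∧ ladj C x2 z = true ∧ ladj C x3 z = true).card : ZMod 2) = 0 := by
  classical
  obtain ⟨δ, hδ⟩ := exists_delta ht C (typeOf C x1.1.1) (typeOf C x2.1.1) (typeOf C x3.1.1)
  have hchar : ∀ x : ZMod 2, x + x = 0 := by decide
  set g : LV C b → LV C b := fun z => ⟨(z.1.1, fun a => z.1.2 a + δ z.1.1 a), by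
    refine ⟨fun a ha => ?_, ?_⟩
    · show z.1.2 a + δ z.1.1 a = 0
      rw [z.2.1 a ha, (hδ z.1.1).1 a ha, add_zero]
    · show ∑ a, (z.1.2 a + δ z.1.1 a) = vb (b (typeOf C z.1.1))
      rw [sum_add_distrib, z.2.2, (hδ z.1.1).2.1, add_zero]⟩ with hg
  have hgg : ∀ z, g (g z) = z := by
    intro z
    apply Subtype.ext
    refine Prod.ext rfl ?_
    funext a
    show z.1.2 a + δ z.1.1 a + δ z.1.1 a = z.1.2 a
    rw [add_assoc, hchar, add_zero]
  have hl : ∀ x z : LV C b, δ z.1.1 (typeOf C x.1.1) = 0 → (ladj C x (g z) = true ↔ ladj C x z = true) := by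
    intro x z h
    unfold ladj
    rw [decide_eq_true_eq, decide_eq_true_eq]
    show (bAdj C x.1.1 z.1.1 = true ∧ x.1.2 (typeOf C z.1.1) =
      z.1.2 (typeOf C x.1.1) + δ z.1.1 (typeOf C x.1.1)) ↔ _
    rw [h, add_zero]
  rw [Finset.card_eq_sum_ones, Nat.cast_sum]
  refine Finset.sum_involution (fun z _ => g z) ?_ ?_ ?_ ?_
  · intro z _
    rw [Nat.cast_one]
    exact hchar 1
  · intro z hz _ hc
    rw [mem_filter] at hz
    apply (hδ z.1.1).2.2.2.2.2 hz.2.1
    funext a
    have h1 : (g z).1.2 a = z.1.2 a := by rw [hc]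
    have h2 : z.1.2 a + δ z.1.1 a = z.1.2 a := h1
    rw [Pi.zero_apply]
    exact add_eq_left.1 h2
  · intro z hz
    rw [mem_filter] at hz ⊢
    obtain ⟨_, hp, h1, h2, h3⟩ := hz
    obtain ⟨_, _, k1, k2, k3, _⟩ := hδ z.1.1
    exact ⟨mem_univ _, hp, (hl x1 z k1).2 h1, (hl x2 z k2).2 h2, (hl x3 z k3).2 h3⟩
  · intro z _
    exact hgg z

end Crest.Agent.R290.A
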