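import Crest.Agent.R290.ALoc

/-!
# A_EXT: extension to the last main (row 290, module A)

Given local conditions for all mains `≠ m` and one incompatible pair, there are tags at `m` which
satisfy all conditions.
PROOF.  Candidate `z`: `z (inl m) = 0`, `z (inl j) := δ j (inl m)` (`j ≠ m`); for a helper `h`:
`h.1.2.2 = m`: `z (inr h) := δ h.1.1 (inr h) + δ h.1.2.1 (inr h)`; `h.1.1 = m`:
`z (inr h) := δ h.1.2.1 (inr h) + δ h.1.2.2 (inr h)`; `h.1.2.1 = m`: `δ h.1.1 (inr h) + δ h.1.2.2 (inr h)`;
`m ∉ hsupp h`: `0`.  All conditions except `par` at `m` hold.  If `∑ a, z a = star (inl m)` take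
`δm = z`.  Otherwise take `δm = z + [a0]` (indicator of one neighbour `a0` of `inl m`) where `a0` is
not constrained: let `i < j` be the incompatible pair.  If `m = i`: `a0 = inl j`; if `m = j`: `a0 = inl i`
(the condition `mat` for the pair `m, a0` is void).  If `m ∉ {i, j}`: `a0 = inr h`, `h = (i, j; m)`
(`vis` for `h` is void, no other condition involves `δm (inr h)`).
-/
set_option autoImplicit false

namespace Crest.Agent.R290.A

open Crest.WLRefine Crest.WLRefine.ParityLift Finset

variable {t : ℕ}

namespace Ext

/-- the candidate tag difference at `m` -/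
def zc (m : Fin t) (δ : Fin t → TV t → ZMod 2) : TV t → ZMod 2
  | Sum.inl j => if j = m then 0 else δ j (Sum.inl m)
  | Sum.inr h => if h.1.2.2 = m then δ h.1.1 (Sum.inr h) + δ h.1.2.1 (Sum.inr h)
      else if h.1.1 = m then δ h.1.2.1 (Sum.inr h) + δ h.1.2.2 (Sum.inr h)
      else if h.1.2.1 = m then δ h.1.1 (Sum.inr h) + δ h.1.2.2 (Sum.inr h) else 0

theorem zc_inl {m : Fin t} (δ : Fin t → TV t → ZMod 2) {j : Fin t} (h : j ≠ m) :
    zc m δ (Sum.inl j) = δ j (Sum.inl m) := if_neg h

theorem add_self' (a : ZMod 2) : a + a = 0 := CharTwo.add_self_eq_zero a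

theorem loc_of_add (C : ChoiceSystem t) (d : ∀ i, Fin (C.dom i)) (m : Fin t)
    (δ : Fin t → TV t → ZMod 2) (hL : Loc C d (fun i => i ≠ m) δ) (e : TV t → ZMod 2)
    (he0 : ∀ a, tAdj (Sum.inl m) a = false → e a = 0)
    (he1 : ∀ j, j ≠ m → lb C m (d m) j = lb C j (d j) m → e (Sum.inl j) = 0)
    (he2 : ∀ h : Helper t, lb C h.1.1 (d h.1.1) h.1.2.1 = lb C h.1.2.1 (d h.1.2.1) h.1.1 →
      e (Sum.inr h) = 0)
    (hpar : ∑ a, (zc m δ a + e a) = star (Sum.inl m)) :
    Loc C d (fun _ => True) (Function.update δ m (fun a => zc m δ a + e a)) := by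
  constructor
  · -- supp
    intro i _ a ha
    by_cases him : i = m
    · subst him
      rw [Function.update_self]
      rw [he0 a ha, add_zero]
      rcases a with j | h
      · have : j = i := by
          by_contra hne
          simp [tAdj, Ne.symm hne] at ha
        simp [zc, this]
      · simp only [tAdj, decide_eq_false_iff_not, not_or] at ha
        obtain ⟨h1, h2, h3⟩ := ha
        simp only [zc]
        rw [if_neg (Ne.symm h3), if_neg (Ne.symm h1), if_neg (Ne.symm h2)]
    · rw [Function.update_of_ne him]
      exact hL.supp i him a ha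
  · -- par
    intro i _
    by_cases him : i = m
    · subst him
      rw [Function.update_self]
      exact hpar
    · rw [Function.update_of_ne him]
      exact hL.par i him
  · -- mat
    intro i j _ _ hij hlab
    by_cases him : i = m
    · subst him
      rw [Function.update_self, Function.update_of_ne hij.symm, zc_inl δ hij.symm,
        he1 j hij.symm hlab, add_zero]
    · by_cases hjm : j = m
      · subst hjm
        rw [Function.update_self, Function.update_of_ne hij, zc_inl δ hij,
          he1 i hij hlab.symm, add_zero]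
      · rw [Function.update_of_ne him, Function.update_of_ne hjm]
        exact hL.mat i j him hjm hij hlab
  · -- vis
    intro h _ _ _ hlab
    have hne1 : h.1.2.2 ≠ h.1.1 := h.2.2.1
    have hne2 : h.1.2.2 ≠ h.1.2.1 := h.2.2.2
    have hne3 : h.1.1 ≠ h.1.2.1 := ne_of_lt h.2.1
    by_cases h3 : h.1.2.2 = m
    · have h1 : h.1.1 ≠ m := fun h' => hne1 (h3.trans h'.symm)
      have h2 : h.1.2.1 ≠ m := fun h' => hne2 (h3.trans h'.symm)
      rw [Function.update_of_ne h1, Function.update_of_ne h2, h3, Function.update_self,
        he2 h hlab, add_zero]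
      simp only [zc]
      rw [if_pos h3]
      exact add_self' _
    · by_cases h1 : h.1.1 = m
      · have h2 : h.1.2.1 ≠ m := fun h' => hne3 (h1.trans h'.symm)
        rw [Function.update_of_ne h2, Function.update_of_ne h3, h1, Function.update_self,
          he2 h hlab, add_zero]
        simp only [zc]
        rw [if_neg h3, if_pos h1, add_assoc]
        exact add_self' _
      · by_cases h2 : h.1.2.1 = m
        · rw [Function.update_of_ne h1, Function.update_of_ne h3, h2, Function.update_self,
            he2 h hlab, add_zero]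
          simp only [zc]
          rw [if_neg h3, if_neg h1, if_pos h2]
          have : ∀ a b : ZMod 2, a + (a + b) + b = 0 := by decide
          exact this _ _
        · rw [Function.update_of_ne h1, Function.update_of_ne h2, Function.update_of_ne h3]
          exact hL.vis h h1 h2 h3 hlab

end Ext

open Ext in
theorem loc_extend (C : ChoiceSystem t) (d : ∀ i, Fin (C.dom i)) (m : Fin t)
    (δ : Fin t → TV t → ZMod 2) (hL : Loc C d (fun i => i ≠ m) δ)
    (hinc : ∃ i j, i < j ∧ lb C i (d i) j ≠ lb C j (d j) i) :
    ∃ δm, Loc C d (fun _ => True) (Function.update δ m δm) := by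
  have h01 : ∀ a b : ZMod 2, a = b ∨ a + 1 = b := by decide
  rcases h01 (∑ a, zc m δ a) (star (Sum.inl m)) with h0 | h1
  · refine ⟨_, loc_of_add C d m δ hL (fun _ => 0) (fun _ _ => rfl) (fun _ _ _ => rfl)
      (fun _ _ => rfl) ?_⟩
    simpa using h0
  · obtain ⟨i, j, hij, hlab⟩ := hinc
    have key : ∀ a0 : TV t, ∑ a, (zc m δ a + (Pi.single a0 1 : TV t → ZMod 2) a) =
        star (Sum.inl m) := by
      intro a0
      rw [sum_add_distrib, Finset.sum_pi_single' a0 1 univ, if_pos (mem_univ _)]
      exact h1
    by_cases him : i = m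
    · subst him
      refine ⟨_, loc_of_add C d i δ hL (Pi.single (Sum.inl j) 1) ?_ ?_ ?_ (key _)⟩
      · intro a ha
        refine Pi.single_eq_of_ne ?_ _
        rintro rfl
        simp [tAdj, hij.ne] at ha
      · intro j' _ hl
        refine Pi.single_eq_of_ne ?_ _
        intro h
        rw [Sum.inl.inj h] at hl
        exact hlab hl
      · intro h _
        exact Pi.single_eq_of_ne (by simp) _
    · by_cases hjm : j = m
      · subst hjm
        refine ⟨_, loc_of_add C d j δ hL (Pi.single (Sum.inl i) 1) ?_ ?_ ?_ (key _)⟩
        · intro a ha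
          refine Pi.single_eq_of_ne ?_ _
          rintro rfl
          simp [tAdj, hij.ne'] at ha
        · intro j' _ hl
          refine Pi.single_eq_of_ne ?_ _
          intro h
          rw [Sum.inl.inj h] at hl
          exact hlab hl.symm
        · intro h _
          exact Pi.single_eq_of_ne (by simp) _
      · let h0 : Helper t := ⟨(i, j, m), hij, fun h => him h.symm, fun h => hjm h.symm⟩
        refine ⟨_, loc_of_add C d m δ hL (Pi.single (Sum.inr h0) 1) ?_ ?_ ?_ (key _)⟩
        · intro a ha
          refine Pi.single_eq_of_ne ?_ _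
          rintro rfl
          simp [tAdj, h0] at ha
        · intro j' _ hl
          exact Pi.single_eq_of_ne (by simp) _
        · intro h hl
          refine Pi.single_eq_of_ne ?_ _
          intro he
          rw [Sum.inr.inj he] at hl
          exact hlab hl

end Crest.Agent.R290.A
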