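import Crest.Agent.R290.AOdd

/-!
# A_ODD1: see the header of `AOdd.lean`
-/
set_option autoImplicit false

namespace Crest.Agent.R290.A

open Crest.WLRefine Crest.WLRefine.ParityLift Finset

variable {t : ℕ}

theorem exists_oddCl (ht : 4 ≤ t) (C : ChoiceSystem t) (hC : C.Successful) :
    ∃ v : Fin t → LV C (lift0Parity t), OddCl (ladj C) v := by
  classical
  obtain ⟨d, hd⟩ := exists_compat C hC
  let v : Fin t → LV C (lift0Parity t) := fun i =>
    ⟨(Sum.inl ⟨i, d i⟩, fun _ => 0), ⟨fun _ _ => rfl, by simp [lift0Parity, vb]⟩⟩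
  have hv1 : ∀ i, (v i).1.1 = Sum.inl ⟨i, d i⟩ := fun i => rfl
  have hv2 : ∀ i a, (v i).1.2 a = 0 := fun i a => rfl
  refine ⟨v, ?_, ?_⟩
  · intro a b hab
    unfold ladj
    rw [decide_eq_true_eq]
    refine ⟨?_, ?_⟩
    · rw [hv1, hv1]
      exact (bAdj_main C a b (d a) (d b)).2 ⟨hab, hd a b hab⟩
    · rfl
  · intro a b c hab hac hbc
    have hS : ({a, b, c} : Finset (Fin t)).card = 3 := Finset.card_eq_three.2 ⟨a, b, c, hab, hac, hbc, rfl⟩
    have h := common_fam ht C (lift0Parity t) (fun _ => rfl) {a, b, c} hS v d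
      (fun n _ => hv1 n) (fun n _ n' _ hn => hd n n' hn)
    have h3 : (univ.filter fun z : LV C (lift0Parity t) =>
        ladj C (v a) z = true ∧ ladj C (v b) z = true ∧ ladj C (v c) z = true) =
        (univ.filter fun z : LV C (lift0Parity t) => ∀ n ∈ ({a, b, c} : Finset (Fin t)),
          ladj C (v n) z = true) := by
      ext z
      simp only [mem_filter, mem_univ, true_and, mem_insert, mem_singleton, forall_eq_or_imp,
        forall_eq]
    rw [h3, h]
    have h5 : ∀ h ∈ univ.filter (fun h : Helper t => hsupp h = {a, b, c}),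
        (1 + ∑ n ∈ ({a, b, c} : Finset (Fin t)), (v n).1.2 (Sum.inr h)) = (1 : ZMod 2) := by
      intro h _
      simp only [hv2, Finset.sum_const_zero, add_zero]
    rw [Finset.sum_congr rfl h5, Finset.sum_const, card_hsupp _ hS]
    decide

end Crest.Agent.R290.A
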