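import Crest.Agent.R290.AOdd

/-!
# A_ODD2: see the header of `AOdd.lean`
-/
set_option autoImplicit false

namespace Crest.Agent.R290.A

open Crest.WLRefine Crest.WLRefine.ParityLift Finset

variable {t : ℕ}

theorem mem_hsupp (h : Helper t) (n : Fin t) :
    n ∈ hsupp h ↔ n = h.1.1 ∨ n = h.1.2.1 ∨ n = h.1.2.2 := by
  unfold hsupp
  simp only [mem_insert, mem_singleton]

/-- step (2), (3), (4): after reindexing -/
theorem no_oddCl_aux (ht : 4 ≤ t) (C : ChoiceSystem t) (x : Fin t → LV C (liftStarParity t))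
    (d : ∀ n, Fin (C.dom n)) (hx : ∀ n, (x n).1.1 = Sum.inl ⟨n, d n⟩)
    (hv : OddCl (ladj C) x) : False := by
  classical
  have ht0 : 0 < t := by omega
  have htype : ∀ n, typeOf C (x n).1.1 = Sum.inl n := by
    intro n; rw [hx n]; rfl
  -- adjacency
  have hadj : ∀ a b, a ≠ b → lb C a (d a) b = lb C b (d b) a ∧
      (x a).1.2 (Sum.inl b) = (x b).1.2 (Sum.inl a) := by
    intro a b hab
    have h := hv.1 a b hab
    unfold ladj at h
    rw [decide_eq_true_iff, htype, htype, hx, hx] at h
    exact ⟨((bAdj_main C a b (d a) (d b)).1 h.1).2, h.2⟩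
  -- step (3)
  have h3 : ∀ h : Helper t, (1 : ZMod 2) = ∑ h' ∈ univ.filter (fun h' : Helper t => hsupp h' = hsupp h),
      (1 + ∑ n ∈ hsupp h', (x n).1.2 (Sum.inr h')) := by
    intro h
    have h1 : h.1.1 ≠ h.1.2.1 := ne_of_lt h.2.1
    have h2 : h.1.2.2 ≠ h.1.1 := h.2.2.1
    have h3 : h.1.2.2 ≠ h.1.2.1 := h.2.2.2
    have e1 := hv.2 h.1.1 h.1.2.1 h.1.2.2 h1 h2.symm h3.symm
    have e2 := common_fam ht C (liftStarParity t) (fun h => by simp [liftStarParity])
      (hsupp h) (card_hsupp_self h) x d (fun n _ => hx n)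
      (fun n _ n' _ hn => (hadj n n' hn).1)
    have e3 : (univ.filter fun z : LV C (liftStarParity t) => ∀ n ∈ hsupp h, ladj C (x n) z = true) =
        univ.filter fun z => ladj C (x h.1.1) z = true ∧ ladj C (x h.1.2.1) z = true ∧
          ladj C (x h.1.2.2) z = true := by
      apply filter_congr
      intro z _
      constructor
      · intro hz
        exact ⟨hz _ ((mem_hsupp h _).2 (Or.inl rfl)), hz _ ((mem_hsupp h _).2 (Or.inr (Or.inl rfl))),
          hz _ ((mem_hsupp h _).2 (Or.inr (Or.inr rfl)))⟩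
      · rintro ⟨z1, z2, z3⟩ n hn
        rcases (mem_hsupp h n).1 hn with rfl | rfl | rfl
        · exact z1
        · exact z2
        · exact z3
    rw [e3, e1] at e2
    refine e2.trans ?_
    refine sum_congr rfl fun h' hh' => ?_
    rw [(mem_filter.1 hh').2]
  have h4 : ∑ h : Helper t, ∑ n ∈ hsupp h, (x n).1.2 (Sum.inr h) = 0 := by
    have e1 : ∑ h : Helper t, (1 : ZMod 2) = ∑ h : Helper t, ∑ h' ∈ univ.filter
        (fun h' : Helper t => hsupp h' = hsupp h), (1 + ∑ n ∈ hsupp h', (x n).1.2 (Sum.inr h')) :=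
      sum_congr rfl fun h _ => h3 h
    rw [sum_hsupp, sum_add_distrib] at e1
    exact (left_eq_add.1 e1)
  -- step (4)
  have h5 : ∀ n, ∑ m, (x n).1.2 (Sum.inl m) + ∑ h, (x n).1.2 (Sum.inr h) = star (Sum.inl n : TV t) := by
    intro n
    have e1 := (x n).2.2
    rw [htype] at e1
    rw [← Fintype.sum_sum_type (fun a => (x n).1.2 a)]
    exact e1
  have h6 : ∑ n : Fin t, star (Sum.inl n : TV t) = 1 := by
    have e1 := sum_star ht0
    rw [Fintype.sum_sum_type] at e1
    have e2 : ∑ h : Helper t, star (Sum.inr h : TV t) = 0 := sum_eq_zero fun h _ => star_helper h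
    rwa [e2, add_zero] at e1
  have h7 : ∑ n, ∑ m, (x n).1.2 (Sum.inl m) = 0 := by
    apply sum_symm_zero (fun n m => (x n).1.2 (Sum.inl m))
    · intro i j
      by_cases hij : i = j
      · subst hij; rfl
      · exact (hadj i j hij).2
    · intro i
      apply (x i).2.1
      rw [htype]
      simp [tAdj]
  have h8 : ∑ n, ∑ h, (x n).1.2 (Sum.inr h) = 0 := by
    rw [sum_comm]
    refine Eq.trans ?_ h4
    refine sum_congr rfl fun h _ => ?_
    symm
    apply sum_subset (subset_univ _)
    intro n _ hn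
    apply (x n).2.1
    rw [htype, Bool.eq_false_iff]
    intro hc
    exact hn ((mem_hsupp h n).2 ((tAdj_helper' n h).1 hc))
  have h9 : ∑ n, (∑ m, (x n).1.2 (Sum.inl m) + ∑ h, (x n).1.2 (Sum.inr h)) = 1 := by
    rw [← h6]
    exact sum_congr rfl fun n _ => h5 n
  rw [sum_add_distrib, h7, h8, add_zero] at h9
  exact zero_ne_one h9

theorem no_oddCl (ht : 4 ≤ t) (C : ChoiceSystem t) (v : Fin t → LV C (liftStarParity t)) :
    ¬ OddCl (ladj C) v := by
  classical
  intro hv
  have hb : ∀ x y : LV C (liftStarParity t), ladj C x y = true → bAdj C x.1.1 y.1.1 = true := by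
    intro x y h
    unfold ladj at h
    rw [decide_eq_true_iff] at h
    exact h.1
  -- (1) every coordinate is over a main
  have h1 : ∀ a, ∃ p, (v a).1.1 = Sum.inl p := by
    intro a
    rcases hva : (v a).1.1 with p | p
    · exact ⟨p, rfl⟩
    · exfalso
      obtain ⟨b, c, hab, hac, hbc⟩ : ∃ b c : Fin t, a ≠ b ∧ a ≠ c ∧ b ≠ c := by
        have h3 : 1 < ((univ : Finset (Fin t)).erase a).card := by
          rw [card_erase_of_mem (mem_univ _), card_univ, Fintype.card_fin]; omega
        obtain ⟨b, hb, c, hc, hbc⟩ := one_lt_card.1 h3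
        exact ⟨b, c, (ne_of_mem_erase hb).symm, (ne_of_mem_erase hc).symm, hbc⟩
      have e1 := hv.2 a b c hab hac hbc
      have e2 := even_main ht C (liftStarParity t) (v a) (v b) (v c)
      have e3 : (univ.filter fun z : LV C (liftStarParity t) => (∃ p, z.1.1 = Sum.inl p) ∧
          ladj C (v a) z = true ∧ ladj C (v b) z = true ∧ ladj C (v c) z = true) =
          univ.filter fun z => ladj C (v a) z = true ∧ ladj C (v b) z = true ∧
            ladj C (v c) z = true := by
        apply filter_congr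
        intro z _
        refine and_iff_right_of_imp ?_
        rintro ⟨hz, -, -⟩
        have h4 := hb _ _ hz
        rw [hva] at h4
        rcases hz1 : z.1.1 with q | q
        · exact ⟨q, rfl⟩
        · rw [hz1] at h4
          exact absurd h4 (by simp [bAdj])
      rw [e3, e1] at e2
      exact one_ne_zero e2
  choose p hp using h1
  have hinj : Function.Injective fun a => (p a).1 := by
    intro a b hab
    by_contra hne
    have h2 := hb _ _ (hv.1 a b hne)
    rw [hp a, hp b] at h2
    exact ((bAdj_main C (p a).1 (p b).1 (p a).2 (p b).2).1 h2).1 hab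
  have hbij : Function.Bijective fun a => (p a).1 := Finite.injective_iff_bijective.1 hinj
  choose σ hσ using hbij.2
  have hσinj : Function.Injective σ := by
    intro a b hab
    rw [← hσ a, ← hσ b, hab]
  have hd : ∀ n, ∃ e : Fin (C.dom n), (v (σ n)).1.1 = Sum.inl ⟨n, e⟩ := by
    intro n
    have h2 := hp (σ n)
    have h3 : (p (σ n)).1 = n := hσ n
    generalize p (σ n) = q at h2 h3
    obtain ⟨i, e⟩ := q
    subst h3
    exact ⟨e, h2⟩
  choose d hd using hd
  refine no_oddCl_aux ht C (fun n => v (σ n)) d hd ⟨?_, ?_⟩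
  · intro a b hab
    exact hv.1 _ _ (fun h => hab (hσinj h))
  · intro a b c hab hac hbc
    exact hv.2 _ _ _ (fun h => hab (hσinj h)) (fun h => hac (hσinj h)) (fun h => hbc (hσinj h))

end Crest.Agent.R290.A
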