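import Crest.Agent.R290.ADefs
import Crest.Agent.R290.WLPure

/-!
# A_TRS, A_TRJ, A_UNI: odd cliques are seen by colours (row 290, module A)

`oddCl_of_gs` (separate, round 1): `gs G t 1 v = gs H t 1 w` gives equality of round 0 (adjacencies)
and for every coordinate `m` equality of the multisets over `z` of the atomic types of
`update v m z`; for distinct `a, b, c` take `m ∉ {a, b, c}` (`t ≥ 4`); the number of `z` adjacent to
`v a`, `v b`, `v c` is the number of `z` whose atomic type has three entries `true`
(`Multiset.countP`/`card_filter` of the map; or `exists_equiv_of_map_eq` (WLBasic): a bijection `σ`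
with `gatom G (update v m z) = gatom H (update w m (σ z))`, then `Finset.card_bij`).

`oddCl_of_gj` (joint, round 2, `k ≥ 4`, `k + 1` vertices): `gj G k 2 v = gj H k 2 w` gives (by
`exists_equiv_of_map_eq`) a bijection `σ : V ≃ W` with `gj G k 1 (update v i z) = gj H k 1 (update w i (σ z))`
for all `z, i`; take `z' = σ z`.  Adjacency of the `k + 1` vertices: of `v a, v b` from round 0 (of
`v`), of `v a, z` from `update v i z` with `i ≠ a` (coordinates `a`, `i`).  For three distinct
coordinates `S` of `Fin (k + 1)`: choose `i : Fin k` with `castSucc i ∉ S`; then the tuple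
`u = update v i z` contains all three vertices (at the coordinates `a < k` as `u a`, the last one as
`u i`); round 1 of `u` gives a bijection `τ` with `gatom G (update u j y) = gatom H (update u' j (τ y))`
for all `j`; choose `j` not among the (at most 3) coordinates used; count as before.

`oddCl_union_inl`, `oddCl_union_inr`: in the disjoint union the neighbours of `inl x` are `inl _`.
-/
set_option autoImplicit false

namespace Crest.Agent.R290.A

open Crest.WLRefine Crest.WLRefine.ParityLift Finset

variable {V W : Type} [Fintype V] [DecidableEq V] [Fintype W] [DecidableEq W]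

omit [DecidableEq V] [DecidableEq W] in
theorem OddCl.map {k : ℕ} {G : V → V → Bool} {H : W → W → Bool} (e : V ≃ W)
    (he : ∀ a b, H (e a) (e b) = G a b) {v : Fin k → V} (hv : OddCl G v) : OddCl H (e ∘ v) := by
  refine ⟨fun a b hab => ?_, fun a b c hab hac hbc => ?_⟩
  · show H (e (v a)) (e (v b)) = true
    rw [he]; exact hv.1 a b hab
  · rw [← hv.2 a b c hab hac hbc]
    congr 1
    symm
    refine Finset.card_bij (fun z _ => e z) ?_ ?_ ?_
    · intro z hz
      rw [mem_filter] at hz ⊢
      refine ⟨mem_univ _, ?_⟩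
      show H (e (v a)) (e z) = true ∧ H (e (v b)) (e z) = true ∧ H (e (v c)) (e z) = true
      rw [he, he, he]
      exact hz.2
    · intro z _ z' _ h
      exact e.injective h
    · intro y hy
      rw [mem_filter] at hy
      refine ⟨e.symm y, ?_, e.apply_symm_apply y⟩
      rw [mem_filter]
      refine ⟨mem_univ _, ?_⟩
      rw [← he, ← he (v b), ← he (v c), e.apply_symm_apply]
      exact hy.2

private theorem gatom_adj {V W : Type} [DecidableEq V] [DecidableEq W] {k : ℕ} {G : V → V → Bool}
    {H : W → W → Bool} {v : Fin k → V} {w : Fin k → W} (h : gatom G v = gatom H w) (i j : Fin k) :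
    G (v i) (v j) = H (w i) (w j) :=
  congrFun (congrFun (congrArg Prod.snd h) i) j

private theorem exists_ne3 {t : ℕ} (ht : 4 ≤ t) (a b c : Fin t) : ∃ m : Fin t, m ≠ a ∧ m ≠ b ∧ m ≠ c := by
  by_contra hcon
  push Not at hcon
  have hsub : (univ : Finset (Fin t)) ⊆ {a, b, c} := by
    intro m _
    rw [mem_insert, mem_insert, mem_singleton]
    by_cases h1 : m = a
    · exact Or.inl h1
    · by_cases h2 : m = b
      · exact Or.inr (Or.inl h2)
      · exact Or.inr (Or.inr (hcon m h1 h2))
  have h1 := card_le_card hsub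
  have h2 : ({a, b, c} : Finset (Fin t)).card ≤ 3 := card_le_three
  rw [card_univ, Fintype.card_fin] at h1
  omega

theorem oddCl_of_gs {t : ℕ} (ht : 4 ≤ t) (G : V → V → Bool) (H : W → W → Bool) (v : Fin t → V)
    (w : Fin t → W) (h : gs G t 1 v = gs H t 1 w) (hv : OddCl G v) : OddCl H w := by
  have h0 : gatom G v = gatom H w := congrArg Prod.fst h
  have h1 : ∀ i, (univ : Finset V).val.map (fun z => gatom G (Function.update v i z)) =
      (univ : Finset W).val.map (fun z => gatom H (Function.update w i z)) := fun i =>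
    congrFun (congrArg Prod.snd h) i
  refine ⟨fun a b hab => ?_, fun a b c hab hac hbc => ?_⟩
  · rw [← gatom_adj h0 a b]; exact hv.1 a b hab
  · obtain ⟨m, hma, hmb, hmc⟩ := exists_ne3 ht a b c
    obtain ⟨σ, hσ⟩ := exists_equiv_of_map_eq _ _ (h1 m)
    rw [← hv.2 a b c hab hac hbc]
    congr 1
    symm
    have key : ∀ z, ∀ x : Fin t, m ≠ x → G (v x) z = H (w x) (σ z) := by
      intro z x hx
      have := gatom_adj (hσ z) x m
      rwa [Function.update_of_ne hx.symm, Function.update_self, Function.update_of_ne hx.symm,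
        Function.update_self] at this
    refine Finset.card_bij (fun z _ => σ z) ?_ ?_ ?_
    · intro z hz
      rw [mem_filter] at hz ⊢
      refine ⟨mem_univ _, ?_⟩
      rw [← key z a hma, ← key z b hmb, ← key z c hmc]
      exact hz.2
    · intro z _ z' _ h
      exact σ.injective h
    · intro y hy
      rw [mem_filter] at hy
      refine ⟨σ.symm y, ?_, σ.apply_symm_apply y⟩
      rw [mem_filter]
      refine ⟨mem_univ _, ?_⟩
      rw [key _ a hma, key _ b hmb, key _ c hmc, σ.apply_symm_apply]
      exact hy.2

private theorem card_union_inl (G : V → V → Bool) (H : W → W → Bool) (x y z : V) :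
    (univ.filter fun u : V ⊕ W => unionT G H (Sum.inl x) u = true ∧
      unionT G H (Sum.inl y) u = true ∧ unionT G H (Sum.inl z) u = true).card =
    (univ.filter fun u : V => G x u = true ∧ G y u = true ∧ G z u = true).card := by
  symm
  refine Finset.card_bij (fun u _ => Sum.inl u) ?_ ?_ ?_
  · intro u hu
    rw [mem_filter] at hu ⊢
    exact ⟨mem_univ _, hu.2⟩
  · intro u _ u' _ h
    exact Sum.inl.inj h
  · intro u hu
    rw [mem_filter] at hu
    rcases u with u | u
    · exact ⟨u, mem_filter.2 ⟨mem_univ _, hu.2⟩, rfl⟩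
    · exact absurd hu.2.1 (by simp [unionT])

private theorem card_union_inr (G : V → V → Bool) (H : W → W → Bool) (x y z : W) :
    (univ.filter fun u : V ⊕ W => unionT G H (Sum.inr x) u = true ∧
      unionT G H (Sum.inr y) u = true ∧ unionT G H (Sum.inr z) u = true).card =
    (univ.filter fun u : W => H x u = true ∧ H y u = true ∧ H z u = true).card := by
  symm
  refine Finset.card_bij (fun u _ => Sum.inr u) ?_ ?_ ?_
  · intro u hu
    rw [mem_filter] at hu ⊢
    exact ⟨mem_univ _, hu.2⟩
  · intro u _ u' _ h
    exact Sum.inr.inj h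
  · intro u hu
    rw [mem_filter] at hu
    rcases u with u | u
    · exact absurd hu.2.1 (by simp [unionT])
    · exact ⟨u, mem_filter.2 ⟨mem_univ _, hu.2⟩, rfl⟩

theorem oddCl_union_inl {k : ℕ} (hk : 1 ≤ k) (G : V → V → Bool) (H : W → W → Bool)
    (v : Fin k → V) : OddCl (unionT G H) (Sum.inl ∘ v) ↔ OddCl G v := by
  refine and_congr ?_ ?_
  · exact Iff.rfl
  · refine forall_congr' fun a => forall_congr' fun b => forall_congr' fun c =>
      imp_congr_right fun _ => imp_congr_right fun _ => imp_congr_right fun _ => ?_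
    show ((univ.filter fun u : V ⊕ W => unionT G H (Sum.inl (v a)) u = true ∧
      unionT G H (Sum.inl (v b)) u = true ∧ unionT G H (Sum.inl (v c)) u = true).card : ZMod 2) = 1
      ↔ _
    rw [card_union_inl]

theorem oddCl_union_inr {k : ℕ} (hk : 1 ≤ k) (G : V → V → Bool) (H : W → W → Bool)
    (w : Fin k → W) : OddCl (unionT G H) (Sum.inr ∘ w) ↔ OddCl H w := by
  refine and_congr ?_ ?_
  · exact Iff.rfl
  · refine forall_congr' fun a => forall_congr' fun b => forall_congr' fun c =>
      imp_congr_right fun _ => imp_congr_right fun _ => imp_congr_right fun _ => ?_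
    show ((univ.filter fun u : V ⊕ W => unionT G H (Sum.inr (w a)) u = true ∧
      unionT G H (Sum.inr (w b)) u = true ∧ unionT G H (Sum.inr (w c)) u = true).card : ZMod 2) = 1
      ↔ _
    rw [card_union_inr]

private theorem comp_snoc' {α β : Type} {k : ℕ} (f : α → β) (v : Fin k → α) (z : α) :
    Fin.snoc (α := fun _ => β) (f ∘ v) (f z) = f ∘ Fin.snoc (α := fun _ => α) v z := by
  funext i
  refine Fin.lastCases ?_ (fun j => ?_) i
  · rw [Fin.snoc_last, Function.comp_apply, Fin.snoc_last]
  · rw [Fin.snoc_castSucc, Function.comp_apply, Function.comp_apply, Fin.snoc_castSucc]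

/-- a clique of the union with a vertex on the right side lies on the right side -/
theorem oddCl_snoc_inr {k : ℕ} (hk : 1 ≤ k) (G : V → V → Bool) (H : W → W → Bool)
    (w : Fin k → W) (z : V ⊕ W)
    (h : OddCl (unionT G H) (Fin.snoc (α := fun _ => V ⊕ W) (Sum.inr ∘ w) z)) :
    ∃ z' : W, OddCl H (Fin.snoc (α := fun _ => W) w z') := by
  rcases z with x | z'
  · exfalso
    have h1 := h.1 (Fin.castSucc ⟨0, hk⟩) (Fin.last k) (Fin.castSucc_lt_last _).ne
    rw [Fin.snoc_castSucc, Fin.snoc_last] at h1
    exact absurd h1 (by simp [unionT])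
  · refine ⟨z', ?_⟩
    rw [comp_snoc'] at h
    exact (oddCl_union_inr (by omega) G H _).1 h

theorem oddCl_snoc_inl {k : ℕ} (hk : 1 ≤ k) (G : V → V → Bool) (H : W → W → Bool)
    (v : Fin k → V) (z : V) (h : OddCl G (Fin.snoc (α := fun _ => V) v z)) :
    OddCl (unionT G H) (Fin.snoc (α := fun _ => V ⊕ W) (Sum.inl ∘ v) (Sum.inl z)) := by
  rw [comp_snoc']
  exact (oddCl_union_inl (by omega) G H _).2 h

end Crest.Agent.R290.A
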