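import Crest.Agent.R290.ADefs
import Crest.Agent.R290.WLPure

/-!
# A_TRJ: see the header of `ATr.lean`
-/
set_option autoImplicit false

namespace Crest.Agent.R290.A

open Crest.WLRefine Crest.WLRefine.ParityLift Finset

variable {V W : Type} [Fintype V] [DecidableEq V] [Fintype W] [DecidableEq W]

namespace ATrJAux

/-- coordinate of `u = update v i z` which holds the vertex number `a` of `snoc v z` -/
def rho {k : ℕ} (i : Fin k) : Fin (k + 1) → Fin k := Fin.snoc (α := fun _ => Fin k) id i

theorem rho_last {k : ℕ} (i : Fin k) : rho i (Fin.last k) = i := by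
  unfold rho
  exact Fin.snoc_last (α := fun _ => Fin k) i id

theorem rho_cast {k : ℕ} (i a : Fin k) : rho i a.castSucc = a := by
  unfold rho
  exact Fin.snoc_castSucc (α := fun _ => Fin k) i id a

omit [Fintype V] [DecidableEq V] in
theorem snoc_eq {k : ℕ} (i : Fin k) (v : Fin k → V) (z : V) (a : Fin (k + 1))
    (ha : a ≠ i.castSucc) :
    Fin.snoc (α := fun _ => V) v z a = Function.update v i z (rho i a) := by
  refine Fin.lastCases ?_ (fun b hb => ?_) a ha
  · intro _
    rw [rho_last, Function.update_self]
    exact Fin.snoc_last (α := fun _ => V) z v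
  · have hbi : b ≠ i := fun e => hb (by rw [e])
    rw [rho_cast, Function.update_of_ne hbi]
    exact Fin.snoc_castSucc (α := fun _ => V) z v b

theorem exists_avoid {k : ℕ} (hk : 4 ≤ k) (a b c : Fin (k + 1)) :
    ∃ i : Fin k, a ≠ i.castSucc ∧ b ≠ i.castSucc ∧ c ≠ i.castSucc := by
  classical
  by_contra hcon
  push Not at hcon
  have hsub : (univ : Finset (Fin k)).map Fin.castSuccEmb ⊆ ({a, b, c} : Finset (Fin (k + 1))) := by
    intro x hx
    rw [Finset.mem_map] at hx
    obtain ⟨i, _, rfl⟩ := hx
    simp only [Finset.mem_insert, Finset.mem_singleton]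
    by_cases h1 : a = i.castSucc
    · exact Or.inl h1.symm
    · by_cases h2 : b = i.castSucc
      · exact Or.inr (Or.inl h2.symm)
      · exact Or.inr (Or.inr (hcon i h1 h2).symm)
  have h1 := Finset.card_le_card hsub
  rw [Finset.card_map, Finset.card_univ, Fintype.card_fin] at h1
  have h2 := Finset.card_le_three (a := a) (b := b) (c := c)
  omega

theorem exists_avoid' {k : ℕ} (hk : 4 ≤ k) (a b c : Fin k) :
    ∃ j : Fin k, a ≠ j ∧ b ≠ j ∧ c ≠ j := by
  obtain ⟨i, h1, h2, h3⟩ := exists_avoid hk a.castSucc b.castSucc c.castSucc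
  exact ⟨i, fun e => h1 (by rw [e]), fun e => h2 (by rw [e]), fun e => h3 (by rw [e])⟩

end ATrJAux

open ATrJAux in
theorem oddCl_of_gj {k : ℕ} (hk : 4 ≤ k) (G : V → V → Bool) (H : W → W → Bool)
    (hGs : ∀ a b, G a b = G b a) (hHs : ∀ a b, H a b = H b a)
    (v : Fin k → V) (w : Fin k → W) (h : gj G k 2 v = gj H k 2 w) (z : V)
    (hv : OddCl G (Fin.snoc (α := fun _ => V) v z)) :
    ∃ z' : W, OddCl H (Fin.snoc (α := fun _ => W) w z') := by
  have _ := hGs
  have _ := hHs
  obtain ⟨σ, hσ⟩ := exists_equiv_of_map_eq
    (fun z : V => fun i : Fin k => gj G k 1 (Function.update v i z))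
    (fun z : W => fun i : Fin k => gj H k 1 (Function.update w i z)) (congrArg Prod.snd h)
  have h1 : ∀ i, gj G k 1 (Function.update v i z) = gj H k 1 (Function.update w i (σ z)) :=
    fun i => congrFun (hσ z) i
  refine ⟨σ z, ?_, ?_⟩
  · intro a b hab
    obtain ⟨i, ha, hb, _⟩ := exists_avoid hk a b a
    have h0 : gatom G (Function.update v i z) = gatom H (Function.update w i (σ z)) :=
      congrArg Prod.fst (h1 i)
    have h2 : G (Function.update v i z (rho i a)) (Function.update v i z (rho i b)) =
        H (Function.update w i (σ z) (rho i a)) (Function.update w i (σ z) (rho i b)) :=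
      congrFun (congrFun (congrArg Prod.snd h0) (rho i a)) (rho i b)
    rw [snoc_eq i w (σ z) a ha, snoc_eq i w (σ z) b hb, ← h2, ← snoc_eq i v z a ha,
      ← snoc_eq i v z b hb]
    exact hv.1 a b hab
  · intro a b c hab hac hbc
    obtain ⟨i, ha, hb, hc⟩ := exists_avoid hk a b c
    obtain ⟨τ, hτ⟩ := exists_equiv_of_map_eq
      (fun y : V => fun j : Fin k => gj G k 0 (Function.update (Function.update v i z) j y))
      (fun y : W => fun j : Fin k => gj H k 0 (Function.update (Function.update w i (σ z)) j y))
      (congrArg Prod.snd (h1 i))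
    obtain ⟨j, hja, hjb, hjc⟩ := exists_avoid' hk (rho i a) (rho i b) (rho i c)
    have hadj : ∀ (y : V) (x : Fin (k + 1)), x ≠ i.castSucc → rho i x ≠ j →
        G (Fin.snoc (α := fun _ => V) v z x) y =
          H (Fin.snoc (α := fun _ => W) w (σ z) x) (τ y) := by
      intro y x hx hxj
      have h0 : gatom G (Function.update (Function.update v i z) j y) =
          gatom H (Function.update (Function.update w i (σ z)) j (τ y)) := congrFun (hτ y) j
      have h2 : G (Function.update (Function.update v i z) j y (rho i x))
            (Function.update (Function.update v i z) j y j) =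
          H (Function.update (Function.update w i (σ z)) j (τ y) (rho i x))
            (Function.update (Function.update w i (σ z)) j (τ y) j) :=
        congrFun (congrFun (congrArg Prod.snd h0) (rho i x)) j
      rw [Function.update_self, Function.update_self, Function.update_of_ne hxj,
        Function.update_of_ne hxj] at h2
      rw [snoc_eq i v z x hx, snoc_eq i w (σ z) x hx]
      exact h2
    have hcard : (univ.filter fun y => G (Fin.snoc (α := fun _ => V) v z a) y = true ∧
          G (Fin.snoc (α := fun _ => V) v z b) y = true ∧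
          G (Fin.snoc (α := fun _ => V) v z c) y = true).card =
        (univ.filter fun y => H (Fin.snoc (α := fun _ => W) w (σ z) a) y = true ∧
          H (Fin.snoc (α := fun _ => W) w (σ z) b) y = true ∧
          H (Fin.snoc (α := fun _ => W) w (σ z) c) y = true).card := by
      refine Finset.card_equiv τ ?_
      intro y
      rw [Finset.mem_filter, Finset.mem_filter]
      simp only [Finset.mem_univ, true_and]
      rw [hadj y a ha hja, hadj y b hb hjb, hadj y c hc hjc]
    rw [← hcard]
    exact hv.2 a b c hab hac hbc

end Crest.Agent.R290.A
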