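import Crest.Agent.R290.ADup
import Crest.Agent.R290.AOdd1
import Crest.Agent.R290.AOdd2
import Crest.Agent.R290.ATr
import Crest.Agent.R290.ATrJ

/-!
# A_FIN: Spoiler side over the lifts, then S0438 (row 290, module A)

`sep_*`: `v` from `exists_oddCl` transported to `LiftV` (`exists_liftEquiv`, `OddCl.map`); if the round-1
histograms were equal, some `w` has the same colour (`Multiset.mem_map`), `oddCl_of_gs`, transported back:
contradiction with `no_oddCl`.  `joint_*`: `t = k + 1`, `v = Fin.init v'`, `z = v' (last)`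
(`Fin.snoc_init_self`), `oddCl_of_gj`.  pure: graph `unionT G H`, tuples `inl ∘ v`, `inr ∘ w`.
-/
set_option autoImplicit false

namespace Crest.Agent.R290.A

open Crest.WLRefine Crest.WLRefine.ParityLift Finset

variable {t : ℕ}

theorem exists_oddCl_lift (ht : 4 ≤ t) (C : ChoiceSystem t) (hC : C.Successful) :
    ∃ v : Fin t → LiftV C (lift0Parity t), OddCl (liftAdj C (lift0Parity t)) v := by
  obtain ⟨v, hv⟩ := exists_oddCl ht C hC
  obtain ⟨e, he⟩ := exists_liftEquiv C (lift0Parity t)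
  refine ⟨e.symm ∘ v, OddCl.map e.symm ?_ hv⟩
  intro a b
  have := he (e.symm a) (e.symm b)
  rw [Equiv.apply_symm_apply, Equiv.apply_symm_apply] at this
  exact this.symm

theorem no_oddCl_lift (ht : 4 ≤ t) (C : ChoiceSystem t) (v : Fin t → LiftV C (liftStarParity t)) :
    ¬ OddCl (liftAdj C (liftStarParity t)) v := by
  intro hv
  obtain ⟨e, he⟩ := exists_liftEquiv C (liftStarParity t)
  exact no_oddCl ht C (e ∘ v) (OddCl.map e he hv)

section hist

variable {V W : Type} [Fintype V] [DecidableEq V] [Fintype W] [DecidableEq W]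

theorem mem_of_map_eq {A B α : Type*} [Fintype A] [Fintype B] {f : A → α} {g : B → α}
    (h : (univ : Finset A).val.map f = (univ : Finset B).val.map g) (a : A) : ∃ b, f a = g b := by
  have h1 : f a ∈ (univ : Finset A).val.map f := Multiset.mem_map_of_mem _ (Finset.mem_univ a)
  rw [h] at h1
  obtain ⟨b, -, hb⟩ := Multiset.mem_map.1 h1
  exact ⟨b, hb.symm⟩

theorem scolor_hist_of_asMatrix {k s : ℕ} (G : V → V → Bool) (H : W → W → Bool)
    (h : (Finset.univ.val.map (scolor (asMatrix G) k s)) =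
      Finset.univ.val.map (scolor (asMatrix H) k s)) (v : Fin k → V) :
    ∃ w : Fin k → W, gs G k s v = gs H k s w := by
  obtain ⟨w, hw⟩ := mem_of_map_eq h (Fintype.equivFin V ∘ v)
  refine ⟨(Fintype.equivFin W).symm ∘ w, ?_⟩
  have h1 := st_of_iso k G (asMatrix G) (Fintype.equivFin V) (asMatrix_iso G) v s
  have h2 := st_of_iso k H (asMatrix H) (Fintype.equivFin W) (asMatrix_iso H)
    ((Fintype.equivFin W).symm ∘ w) s
  have h3 : (Fintype.equivFin W) ∘ ((Fintype.equivFin W).symm ∘ w) = w := by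
    funext i
    exact Equiv.apply_symm_apply _ _
  rw [h3] at h2
  rw [gs_eq] at h1 h2
  exact h1.trans (hw.trans h2.symm)

theorem jcolor_hist_of_asMatrix {k s : ℕ} (G : V → V → Bool) (H : W → W → Bool)
    (h : (Finset.univ.val.map (jcolor (asMatrix G) k s)) =
      Finset.univ.val.map (jcolor (asMatrix H) k s)) (v : Fin k → V) :
    ∃ w : Fin k → W, gj G k s v = gj H k s w := by
  obtain ⟨w, hw⟩ := mem_of_map_eq h (Fintype.equivFin V ∘ v)
  refine ⟨(Fintype.equivFin W).symm ∘ w, ?_⟩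
  have h1 := jt_of_iso k G (asMatrix G) (Fintype.equivFin V) (asMatrix_iso G) v s
  have h2 := jt_of_iso k H (asMatrix H) (Fintype.equivFin W) (asMatrix_iso H)
    ((Fintype.equivFin W).symm ∘ w) s
  have h3 : (Fintype.equivFin W) ∘ ((Fintype.equivFin W).symm ∘ w) = w := by
    funext i
    exact Equiv.apply_symm_apply _ _
  rw [h3] at h2
  rw [gj_eq] at h1 h2
  exact h1.trans (hw.trans h2.symm)

omit [Fintype V] [DecidableEq V] [Fintype W] [DecidableEq W] in
theorem unionT_symm {G : V → V → Bool} {H : W → W → Bool}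
    (hG : ∀ a b, G a b = G b a) (hH : ∀ a b, H a b = H b a) (a b : V ⊕ W) :
    unionT G H a b = unionT G H b a := by
  rcases a with a | a <;> rcases b with b | b
  · exact hG a b
  · rfl
  · rfl
  · exact hH a b

end hist

theorem sep_hist_ne (ht : 4 ≤ t) (C : ChoiceSystem t) (hC : C.Successful) :
    (Finset.univ.val.map (scolor (asMatrix (liftAdj C (lift0Parity t))) t 1)) ≠
      Finset.univ.val.map (scolor (asMatrix (liftAdj C (liftStarParity t))) t 1) := by
  intro h
  obtain ⟨v, hv⟩ := exists_oddCl_lift ht C hC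
  obtain ⟨w, hw⟩ := scolor_hist_of_asMatrix _ _ h v
  exact no_oddCl_lift ht C w (oddCl_of_gs ht _ _ v w hw hv)

theorem sep_pure_ne (ht : 4 ≤ t) (C : ChoiceSystem t) (hC : C.Successful) :
    ¬ PureSHistEq t 1 (asMatrix (liftAdj C (lift0Parity t)))
      (asMatrix (liftAdj C (liftStarParity t))) := by
  rw [pureSHistEq_asMatrix]
  intro h
  obtain ⟨v, hv⟩ := exists_oddCl_lift ht C hC
  obtain ⟨w, hw⟩ := mem_of_map_eq h v
  exact no_oddCl_lift ht C w ((oddCl_union_inr (by omega) _ _ w).1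
    (oddCl_of_gs ht _ _ _ _ hw ((oddCl_union_inl (by omega) _ _ v).2 hv)))

theorem joint_hist_ne {k : ℕ} (hk : 4 ≤ k) (C : ChoiceSystem (k + 1)) (hC : C.Successful) :
    (Finset.univ.val.map (jcolor (asMatrix (liftAdj C (lift0Parity (k + 1)))) k 2)) ≠
      Finset.univ.val.map (jcolor (asMatrix (liftAdj C (liftStarParity (k + 1)))) k 2) := by
  intro h
  obtain ⟨v, hv⟩ := exists_oddCl_lift (by omega) C hC
  obtain ⟨w, hw⟩ := jcolor_hist_of_asMatrix _ _ h (Fin.init (α := fun _ => _) v)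
  rw [← Fin.snoc_init_self (α := fun _ => LiftV C (lift0Parity (k + 1))) v] at hv
  obtain ⟨z', hz'⟩ := oddCl_of_gj hk _ _ (AE.liftAdj_symm C _) (AE.liftAdj_symm C _) _ w hw _ hv
  exact no_oddCl_lift (by omega) C _ hz'

theorem joint_pure_ne {k : ℕ} (hk : 4 ≤ k) (C : ChoiceSystem (k + 1)) (hC : C.Successful) :
    ¬ PureJHistEq k 2 (asMatrix (liftAdj C (lift0Parity (k + 1))))
      (asMatrix (liftAdj C (liftStarParity (k + 1)))) := by
  rw [pureJHistEq_asMatrix]
  intro h
  obtain ⟨v, hv⟩ := exists_oddCl_lift (by omega) C hC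
  obtain ⟨w, hw⟩ := mem_of_map_eq h (Fin.init (α := fun _ => _) v)
  rw [← Fin.snoc_init_self (α := fun _ => LiftV C (lift0Parity (k + 1))) v] at hv
  have hv' := oddCl_snoc_inl (by omega) (liftAdj C (lift0Parity (k + 1)))
    (liftAdj C (liftStarParity (k + 1))) _ _ hv
  have hs := unionT_symm (AE.liftAdj_symm C (lift0Parity (k + 1)))
    (AE.liftAdj_symm C (liftStarParity (k + 1)))
  obtain ⟨z', hz'⟩ := oddCl_of_gj hk _ _ hs hs _ _ hw _ hv'
  obtain ⟨z'', hz''⟩ := oddCl_snoc_inr (by omega) _ _ w z' hz'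
  exact no_oddCl_lift (by omega) C _ hz''

end Crest.Agent.R290.A
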