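import Crest.Agent.R290.ABase

/-!
# A_FLOW: flows on the template (row 290, module A)

* `main_self`: `∑ a, ∑ b, f a b = 0` (symmetric, zero diagonal: `f a a = 0` by `supp` and
  `AE.tAdj_irrefl`; e.g. `Finset.sum_involution` on `univ ×ˢ univ` with `Prod.swap`), the helpers
  contribute 0, the mains `≠ m` contribute `star`, `∑ a, star a = 1` (`sum_star`).
* `flip`: add the edge `m m'`; then `m` becomes balanced (by `main_self`: `star + 1 + 1`), `m'` not.
* `exists_flow`: `f = 0` for `m = 0`, the single edge `0 m` otherwise (needs nothing but cases).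
-/
set_option autoImplicit false

namespace Crest.Agent.R290.A

open Crest.WLRefine Crest.WLRefine.ParityLift Finset

variable {t : ℕ}

private theorem two_add (a : ZMod 2) : a + a = 0 := CharTwo.add_self_eq_zero a

private theorem sum_symm_zero (f : TV t → TV t → ZMod 2) (hs : ∀ a b, f a b = f b a)
    (hd : ∀ a, f a a = 0) : ∑ a, ∑ b, f a b = 0 := by
  rw [← Finset.sum_product']
  refine Finset.sum_involution (fun p _ => (p.2, p.1)) ?_ ?_ ?_ ?_
  · intro p _
    simp only
    rw [hs p.2 p.1]
    exact two_add _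
  · intro p _ hne heq
    apply hne
    have h1 : p.2 = p.1 := congrArg Prod.fst heq
    rw [h1]
    exact hd _
  · intro p _
    simp
  · intro p _
    rfl

private theorem tAdj_irrefl (a : TV t) : tAdj a a = false := by
  cases a <;> simp [tAdj]

theorem IsFlow.main_self (ht : 0 < t) {m : Fin t} {f : TV t → TV t → ZMod 2} (hf : IsFlow m f) :
    ∑ b, f (Sum.inl m) b = star (Sum.inl m) + 1 := by
  have h0 := sum_symm_zero f hf.symm fun a => hf.supp a a (tAdj_irrefl a)
  rw [Fintype.sum_sum_type] at h0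
  have h1 : ∑ h : Helper t, ∑ b, f (Sum.inr h) b = 0 :=
    Finset.sum_eq_zero fun h _ => hf.helper h
  rw [h1, add_zero] at h0
  have h2 := sum_star ht
  rw [Fintype.sum_sum_type] at h2
  have h3 : ∑ h : Helper t, star (Sum.inr h : TV t) = 0 :=
    Finset.sum_eq_zero fun h _ => star_helper h
  rw [h3, add_zero] at h2
  rw [← Finset.add_sum_erase _ _ (Finset.mem_univ m)] at h0 h2
  have h4 : ∑ i ∈ univ.erase m, ∑ b, f (Sum.inl i) b =
      ∑ i ∈ univ.erase m, star (Sum.inl i : TV t) :=
    Finset.sum_congr rfl fun i hi => hf.main i (Finset.ne_of_mem_erase hi)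
  rw [h4] at h0
  generalize (∑ i ∈ univ.erase m, star (Sum.inl i : TV t)) = s at h0 h2
  generalize (∑ b, f (Sum.inl m) b) = u at h0 ⊢
  generalize star (Sum.inl m : TV t) = w at h2 ⊢
  have h5 : u = s := by
    have := congrArg (· + s) h0
    simpa [add_assoc, two_add] using this
  rw [h5, ← h2, ← add_assoc, two_add, zero_add]

/-- add the edge `m m'` -/
def flipE (m m' : Fin t) (f : TV t → TV t → ZMod 2) (a b : TV t) : ZMod 2 :=
  f a b + if (a = Sum.inl m ∧ b = Sum.inl m') ∨ (a = Sum.inl m' ∧ b = Sum.inl m) then 1 else 0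

theorem flipE_of_ne {m m' : Fin t} {f : TV t → TV t → ZMod 2} {a : TV t} (h : a ≠ Sum.inl m)
    (h' : a ≠ Sum.inl m') : flipE m m' f a = f a := by
  funext b
  simp [flipE, h, h']

theorem IsFlow.flip (ht : 0 < t) {m m' : Fin t} (hm : m' ≠ m) {f : TV t → TV t → ZMod 2}
    (hf : IsFlow m f) : IsFlow m' (flipE m m' f) := by
  refine ⟨fun a b => ?_, fun a b hab => ?_, fun h => ?_, fun i hi => ?_⟩
  · unfold flipE
    rw [hf.symm a b]
    congr 1
    refine if_congr ?_ rfl rfl
    constructor
    · rintro (⟨h1, h2⟩ | ⟨h1, h2⟩)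
      · exact Or.inr ⟨h2, h1⟩
      · exact Or.inl ⟨h2, h1⟩
    · rintro (⟨h1, h2⟩ | ⟨h1, h2⟩)
      · exact Or.inr ⟨h2, h1⟩
      · exact Or.inl ⟨h2, h1⟩
  · unfold flipE
    rw [hf.supp a b hab, if_neg, add_zero]
    rintro (⟨rfl, rfl⟩ | ⟨rfl, rfl⟩)
    · have := (tAdj_main m m').2 (Ne.symm hm)
      rw [hab] at this
      cases this
    · have := (tAdj_main m' m).2 hm
      rw [hab] at this
      cases this
  · rw [flipE_of_ne (by simp) (by simp)]
    exact hf.helper h
  · by_cases him : i = m
    · subst him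
      have h1 : ∀ b : TV t, flipE i m' f (Sum.inl i) b =
          f (Sum.inl i) b + if b = Sum.inl m' then 1 else 0 := by
        intro b
        unfold flipE
        congr 1
        refine if_congr ?_ rfl rfl
        constructor
        · rintro (⟨_, h2⟩ | ⟨h1, _⟩)
          · exact h2
          · exact absurd (Sum.inl.inj h1).symm hm
        · intro h
          exact Or.inl ⟨rfl, h⟩
      rw [Finset.sum_congr rfl fun b _ => h1 b, Finset.sum_add_distrib,
        Finset.sum_ite_eq' univ (Sum.inl m') (fun _ => (1 : ZMod 2)), if_pos (Finset.mem_univ _),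
        hf.main_self ht, add_assoc, two_add, add_zero]
    · rw [flipE_of_ne (by simpa using him) (by simpa using hi)]
      exact hf.main i him

theorem exists_flow (ht : 2 ≤ t) (m : Fin t) : ∃ f, IsFlow m f := by
  have h0 : 0 < t := by omega
  have hz : IsFlow (⟨0, h0⟩ : Fin t) (fun _ _ => 0) :=
    ⟨fun _ _ => rfl, fun _ _ _ => rfl, fun _ => by simp,
      fun i hi => by rw [star_main h0 i hi]; simp⟩
  by_cases hm : m = ⟨0, h0⟩
  · subst hm
    exact ⟨_, hz⟩
  · exact ⟨_, hz.flip h0 hm⟩

end Crest.Agent.R290.A
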