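import Crest.Agent.R290.ALoc

/-!
# A_FLOWOF: from local conditions (all mains `≠ l`) to a flow with circulations (row 290, module A)

CONSTRUCTION (helper28, proof helper13).  For a helper `h = (i, j; c)` put
* `K0 h := 0` if `l ∈ {i, j, c}`, else `δ_i + δ_j + δ_c`;
* `K h := K0 h + [c = l] (δ i (inl j) + δ j (inl i) + ∑_{h' pair (i, j)} K0 h')`.
If the pair is compatible then `K h = 0`.  `κ h q := if q = lb j (d j) i then K h else 0`.
Flow: see `mmF`, `bsF`, `fhF`, `flF`.
-/
set_option autoImplicit false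

namespace Crest.Agent.R290.A

open Crest.WLRefine Crest.WLRefine.ParityLift Finset

variable {t : ℕ}

section defs

variable (l : Fin t) (δ : Fin t → TV t → ZMod 2)

def K0F (h : Helper t) : ZMod 2 :=
  if h.1.1 = l ∨ h.1.2.1 = l ∨ h.1.2.2 = l then 0
  else δ h.1.1 (Sum.inr h) + δ h.1.2.1 (Sum.inr h) + δ h.1.2.2 (Sum.inr h)

def SF (i j : Fin t) : ZMod 2 :=
  ∑ h : Helper t, if h.1.1 = i ∧ h.1.2.1 = j then K0F l δ h else 0

def KF (h : Helper t) : ZMod 2 :=
  K0F l δ h + if h.1.2.2 = l then δ h.1.1 (Sum.inl h.1.2.1) + δ h.1.2.1 (Sum.inl h.1.1) +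
    SF l δ h.1.1 h.1.2.1 else 0

def kF (C : ChoiceSystem t) (d : ∀ i, Fin (C.dom i)) (h : Helper t) (q : ℕ) : ZMod 2 :=
  if q = lb C h.1.2.1 (d h.1.2.1) h.1.1 then KF l δ h else 0

def mmF (i j : Fin t) : ZMod 2 :=
  if i = j then 0 else if i = l then δ j (Sum.inl l) else if j = l then δ i (Sum.inl l) else
    if i < j then δ i (Sum.inl j) else δ j (Sum.inl i)

def bsF (h : Helper t) (x : Fin t) : ZMod 2 :=
  if x = h.1.1 then δ x (Sum.inr h) else if x = h.1.2.1 then δ x (Sum.inr h) + KF l δ h else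
    if x = h.1.2.2 then δ x (Sum.inr h) else 0

def fhF (h : Helper t) (x : Fin t) : ZMod 2 :=
  if x = l then ∑ y ∈ univ.erase l, bsF l δ h y else bsF l δ h x

def flF : TV t → TV t → ZMod 2
  | Sum.inl i, Sum.inl j => mmF l δ i j
  | Sum.inl i, Sum.inr h => fhF l δ h i
  | Sum.inr h, Sum.inl i => fhF l δ h i
  | Sum.inr _, Sum.inr _ => 0

end defs

section proofs

variable {C : ChoiceSystem t} {d : ∀ i, Fin (C.dom i)} {l : Fin t}
  {δ : Fin t → TV t → ZMod 2}

theorem two_zero (x : ZMod 2) : x + x = 0 := CharTwo.add_self_eq_zero x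

theorem K0F_eq_zero (hL : Loc C d (fun i => i ≠ l) δ) (h : Helper t)
    (hc : lb C h.1.1 (d h.1.1) h.1.2.1 = lb C h.1.2.1 (d h.1.2.1) h.1.1) : K0F l δ h = 0 := by
  unfold K0F
  split_ifs with h1
  · rfl
  · push Not at h1
    exact hL.vis h h1.1 h1.2.1 h1.2.2 hc

theorem SF_eq_zero (hL : Loc C d (fun i => i ≠ l) δ) (i j : Fin t)
    (hc : lb C i (d i) j = lb C j (d j) i) : SF l δ i j = 0 := by
  unfold SF
  refine Finset.sum_eq_zero (fun h _ => ?_)
  split_ifs with h1
  · obtain ⟨h1, h2⟩ := h1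
    apply K0F_eq_zero hL
    subst h1 h2
    exact hc
  · rfl

theorem KF_eq_zero (hL : Loc C d (fun i => i ≠ l) δ) (h : Helper t)
    (hc : lb C h.1.1 (d h.1.1) h.1.2.1 = lb C h.1.2.1 (d h.1.2.1) h.1.1) : KF l δ h = 0 := by
  unfold KF
  rw [K0F_eq_zero hL h hc, zero_add]
  split_ifs with h1
  · rw [SF_eq_zero hL _ _ hc, add_zero]
    have h2 := hL.mat h.1.1 h.1.2.1 (by rw [← h1]; exact h.2.2.1.symm)
      (by rw [← h1]; exact h.2.2.2.symm) h.2.1.ne hc
    rw [h2, two_zero]
  · rfl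

theorem KF_of_pair (h : Helper t) (h1 : h.1.1 = l ∨ h.1.2.1 = l) : KF l δ h = 0 := by
  unfold KF K0F
  rw [if_pos (by tauto), zero_add]
  rw [if_neg]
  intro h2
  rcases h1 with h1 | h1
  · exact h.2.2.1 (h2.trans h1.symm)
  · exact h.2.2.2 (h2.trans h1.symm)

theorem kF_fst (hL : Loc C d (fun i => i ≠ l) δ) (h : Helper t) :
    kF l δ C d h (lb C h.1.1 (d h.1.1) h.1.2.1) = 0 := by
  unfold kF
  split_ifs with h1
  · exact KF_eq_zero hL h h1
  · rfl

theorem kF_snd (h : Helper t) : kF l δ C d h (lb C h.1.2.1 (d h.1.2.1) h.1.1) = KF l δ h := by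
  unfold kF
  rw [if_pos rfl]

def mkH (i j c : Fin t) (h1 : i < j) (h2 : c ≠ i) (h3 : c ≠ j) : Helper t := ⟨(i, j, c), h1, h2, h3⟩

/-- sum of `K` over the helpers of a pair -/
theorem sum_KF {i j : Fin t} (hij : i < j) (hi : i ≠ l) (hj : j ≠ l) :
    (∑ h : Helper t, if h.1.1 = i ∧ h.1.2.1 = j then KF l δ h else 0) =
      δ i (Sum.inl j) + δ j (Sum.inl i) := by
  have h1 : ∀ h : Helper t, (if h.1.1 = i ∧ h.1.2.1 = j then KF l δ h else 0) =
      (if h.1.1 = i ∧ h.1.2.1 = j then K0F l δ h else 0) +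
        (if h = mkH i j l hij hi.symm hj.symm then
          δ i (Sum.inl j) + δ j (Sum.inl i) + SF l δ i j else 0) := by
    intro h
    by_cases h1 : h.1.1 = i ∧ h.1.2.1 = j
    · rw [if_pos h1, if_pos h1]
      unfold KF
      congr 1
      by_cases h2 : h.1.2.2 = l
      · rw [if_pos h2, if_pos, h1.1, h1.2]
        apply Subtype.ext
        exact Prod.ext h1.1 (Prod.ext h1.2 h2)
      · rw [if_neg h2, if_neg]
        intro h3
        apply h2
        rw [h3]
        rfl
    · rw [if_neg h1, if_neg h1, if_neg, add_zero]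
      intro h3
      apply h1
      rw [h3]
      exact ⟨rfl, rfl⟩
  rw [Finset.sum_congr rfl (fun h _ => h1 h), Finset.sum_add_distrib, Finset.sum_ite_eq']
  rw [if_pos (Finset.mem_univ _)]
  change SF l δ i j + _ = _
  rw [add_comm, add_assoc, two_zero, add_zero]

theorem circ_main_lt (hL : Loc C d (fun i => i ≠ l) δ) {i j : Fin t} (hij : i < j) :
    circ C (kF l δ C d) (Sum.inl ⟨i, d i⟩) (Sum.inl j) = 0 := by
  unfold circ
  refine Finset.sum_eq_zero (fun h _ => ?_)
  split_ifs with h1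
  · rcases h1 with ⟨h1, h2⟩ | ⟨h1, h2⟩
    · have := kF_fst hL h
      subst h1 h2
      exact this
    · exfalso
      have := h.2.1
      rw [h1, h2] at this
      exact absurd this (not_lt.2 hij.le)
  · rfl

theorem circ_main_gt {i j : Fin t} (hij : j < i) :
    circ C (kF l δ C d) (Sum.inl ⟨i, d i⟩) (Sum.inl j) =
      ∑ h : Helper t, if h.1.1 = j ∧ h.1.2.1 = i then KF l δ h else 0 := by
  unfold circ
  refine Finset.sum_congr rfl (fun h _ => ?_)
  by_cases h1 : h.1.1 = j ∧ h.1.2.1 = i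
  · rw [if_pos h1, if_pos (Or.inr h1)]
    obtain ⟨h1, h2⟩ := h1
    subst h1 h2
    exact kF_snd h
  · rw [if_neg h1, if_neg]
    rintro (⟨h2, h3⟩ | h2)
    · have := h.2.1
      rw [h2, h3] at this
      exact absurd this (not_lt.2 hij.le)
    · exact h1 h2

theorem flF_symm (a b : TV t) : flF l δ a b = flF l δ b a := by
  rcases a with i | h <;> rcases b with j | h'
  · show mmF l δ i j = mmF l δ j i
    unfold mmF
    by_cases h1 : i = j
    · subst h1; rfl
    · rw [if_neg h1, if_neg (Ne.symm h1)]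
      by_cases h2 : i = l
      · subst h2
        rw [if_pos rfl, if_neg (Ne.symm h1), if_pos rfl]
      · rw [if_neg h2]
        by_cases h3 : j = l
        · subst h3
          simp
        · rw [if_neg h3, if_neg h3, if_neg h2]
          rcases lt_trichotomy i j with h4 | h4 | h4
          · rw [if_pos h4, if_neg (not_lt.2 h4.le)]
          · exact absurd h4 h1
          · rw [if_neg (not_lt.2 h4.le), if_pos h4]
  · rfl
  · rfl
  · rfl

theorem sum_bsF (h : Helper t) :
    ∑ y, bsF l δ h y = δ h.1.1 (Sum.inr h) + (δ h.1.2.1 (Sum.inr h) + KF l δ h) +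
      δ h.1.2.2 (Sum.inr h) := by
  have h1 : ∀ y, bsF l δ h y = (if y = h.1.1 then δ h.1.1 (Sum.inr h) else 0) +
      (if y = h.1.2.1 then δ h.1.2.1 (Sum.inr h) + KF l δ h else 0) +
      (if y = h.1.2.2 then δ h.1.2.2 (Sum.inr h) else 0) := by
    intro y
    unfold bsF
    by_cases h1 : y = h.1.1
    · subst h1
      rw [if_pos rfl, if_pos rfl, if_neg h.2.1.ne, if_neg h.2.2.1.symm, add_zero, add_zero]
    · rw [if_neg h1, if_neg h1, zero_add]
      by_cases h2 : y = h.1.2.1
      · subst h2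
        rw [if_pos rfl, if_pos rfl, if_neg h.2.2.2.symm, add_zero]
      · rw [if_neg h2, if_neg h2, zero_add]
        by_cases h3 : y = h.1.2.2
        · subst h3
          rw [if_pos rfl]
        · rw [if_neg h3, if_neg h3]
  rw [Finset.sum_congr rfl (fun y _ => h1 y), Finset.sum_add_distrib, Finset.sum_add_distrib,
    Finset.sum_ite_eq', Finset.sum_ite_eq', Finset.sum_ite_eq']
  simp

theorem bsF_supp (h : Helper t) (x : Fin t) (hx : ¬ (x = h.1.1 ∨ x = h.1.2.1 ∨ x = h.1.2.2)) :
    bsF l δ h x = 0 := by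
  push Not at hx
  unfold bsF
  rw [if_neg hx.1, if_neg hx.2.1, if_neg hx.2.2]

theorem fhF_supp (h : Helper t) (x : Fin t) (hx : ¬ (x = h.1.1 ∨ x = h.1.2.1 ∨ x = h.1.2.2)) :
    fhF l δ h x = 0 := by
  unfold fhF
  split_ifs with h1
  · subst h1
    have h2 := Finset.add_sum_erase univ (bsF x δ h) (Finset.mem_univ x)
    rw [bsF_supp h x hx, zero_add] at h2
    rw [h2, sum_bsF]
    push Not at hx
    have h3 : KF x δ h = δ h.1.1 (Sum.inr h) + δ h.1.2.1 (Sum.inr h) + δ h.1.2.2 (Sum.inr h) := by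
      unfold KF K0F
      rw [if_neg hx.2.2.symm, if_neg, add_zero]
      intro h4
      rcases h4 with h4 | h4 | h4
      · exact hx.1 h4.symm
      · exact hx.2.1 h4.symm
      · exact hx.2.2 h4.symm
    rw [h3]
    have := two_zero (δ h.1.1 (Sum.inr h) + δ h.1.2.1 (Sum.inr h) + δ h.1.2.2 (Sum.inr h))
    calc _ = (δ h.1.1 (Sum.inr h) + δ h.1.2.1 (Sum.inr h) + δ h.1.2.2 (Sum.inr h)) +
        (δ h.1.1 (Sum.inr h) + δ h.1.2.1 (Sum.inr h) + δ h.1.2.2 (Sum.inr h)) := by ring
      _ = 0 := this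
  · exact bsF_supp h x hx

theorem flF_supp (a b : TV t) (hab : tAdj a b = false) : flF l δ a b = 0 := by
  rcases a with i | h <;> rcases b with j | h'
  · have h1 : i = j := by
      by_contra h1
      rw [(tAdj_main i j).2 h1] at hab
      exact absurd hab (by decide)
    show mmF l δ i j = 0
    unfold mmF
    rw [if_pos h1]
  · apply fhF_supp
    intro h1
    rw [(tAdj_helper' i h').2 h1] at hab
    exact absurd hab (by decide)
  · apply fhF_supp
    intro h1
    rw [(tAdj_helper j h).2 h1] at hab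
    exact absurd hab (by decide)
  · rfl

theorem flF_helper (h : Helper t) : ∑ b, flF l δ (Sum.inr h) b = 0 := by
  rw [Fintype.sum_sum_type]
  have h1 : ∑ a : Helper t, flF l δ (Sum.inr h) (Sum.inr a) = 0 :=
    Finset.sum_eq_zero (fun _ _ => rfl)
  rw [h1, add_zero]
  change ∑ x : Fin t, fhF l δ h x = 0
  rw [← Finset.add_sum_erase univ (fhF l δ h) (Finset.mem_univ l)]
  have h2 : ∑ x ∈ univ.erase l, fhF l δ h x = ∑ x ∈ univ.erase l, bsF l δ h x := by
    refine Finset.sum_congr rfl (fun x hx => ?_)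
    unfold fhF
    rw [if_neg (Finset.ne_of_mem_erase hx)]
  rw [h2]
  unfold fhF
  rw [if_pos rfl, two_zero]

theorem fl_eq (hL : Loc C d (fun i => i ≠ l) δ) (i : Fin t) (hi : i ≠ l) :
    fl C (flF l δ) (kF l δ C d) (Sum.inl ⟨i, d i⟩) = δ i := by
  funext a
  unfold fl
  rcases a with j | h
  · change mmF l δ i j + _ = _
    unfold mmF
    rcases lt_trichotomy i j with hij | hij | hij
    · rw [circ_main_lt hL hij, add_zero, if_neg hij.ne, if_neg hi]
      split_ifs with h1
      · rw [h1]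
      · rfl
    · subst hij
      rw [if_pos rfl, zero_add, circ_supp, hL.supp i hi]
      · simp [tAdj]
      · simp [tAdj, typeOf]
    · rw [circ_main_gt hij, if_neg hij.ne', if_neg hi]
      by_cases h1 : j = l
      · rw [if_pos h1, Finset.sum_eq_zero, add_zero, h1]
        intro h _
        split_ifs with h2
        · exact KF_of_pair h (Or.inl (h2.1.trans h1))
        · rfl
      · rw [if_neg h1, if_neg (not_lt.2 hij.le), sum_KF hij h1 hi, ← add_assoc, two_zero, zero_add]
  · change fhF l δ h i + _ = _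
    unfold fhF
    rw [if_neg hi]
    unfold bsF circ
    simp only
    by_cases h1 : h.1.1 = i
    · subst h1
      rw [if_pos rfl, if_pos rfl, kF_fst hL, add_zero]
    · rw [if_neg (Ne.symm h1), if_neg h1]
      by_cases h2 : h.1.2.1 = i
      · subst h2
        rw [if_pos rfl, if_pos rfl, kF_snd, add_assoc, two_zero, add_zero]
      · rw [if_neg (Ne.symm h2), if_neg h2, add_zero]
        by_cases h3 : h.1.2.2 = i
        · rw [if_pos h3.symm]
        · rw [if_neg (Ne.symm h3), hL.supp i hi]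
          rw [← Bool.not_eq_true]
          intro h4
          rcases (tAdj_helper' i h).1 h4 with h5 | h5 | h5
          · exact h1 h5.symm
          · exact h2 h5.symm
          · exact h3 h5.symm

end proofs

theorem flow_of_loc (C : ChoiceSystem t) (d : ∀ i, Fin (C.dom i)) (l : Fin t)
    (δ : Fin t → TV t → ZMod 2) (hL : Loc C d (fun i => i ≠ l) δ) :
    ∃ f κ, IsFlow l f ∧ ∀ i, i ≠ l → fl C f κ (Sum.inl ⟨i, d i⟩) = δ i := by
  refine ⟨flF l δ, kF l δ C d, ⟨flF_symm, flF_supp, flF_helper, fun i hi => ?_⟩, fl_eq hL⟩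
  have h1 := hL.par i hi
  rw [← fl_eq hL i hi] at h1
  unfold fl at h1
  rw [Finset.sum_add_distrib, circ_sum, add_zero] at h1
  exact h1

end Crest.Agent.R290.A
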