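import Crest.Agent.R290.ABase

/-!
# A_HELP: the helper common neighbours of three adjacent mains (row 290, module A)

PROOF.  A vertex `z` over `inr ⟨h, q⟩` adjacent to the three mains has `i, j, l ∈ hsupp h`
(`bAdj_helper`), so `hsupp h = {i, j, l}` (3 distinct elements, `hsupp h` has at most 3); its tag is
`x1 (inr h)` at `inl i`, `x2 (inr h)` at `inl j`, `x3 (inr h)` at `inl l`, zero elsewhere (support), so by
the parity (`sum_helper`, `b (inr h) = false`) `x1 h + x2 h + x3 h = 0`; the label `q` is determined: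
`q = lb` of the main `h.1.1` for `h.1.2.1`.  Conversely for `h` with `hsupp h = {i, j, l}` and
`x1 h + x2 h + x3 h = 0` exactly one such `z` exists (the labels of the two mains of the pair of `h`
agree because the mains are adjacent: `bAdj_main`; `lb_lt`).  So the card is the number of `h` in
`univ.filter (hsupp h = {i, j, l})` with `s_h = x1 h + x2 h + x3 h = 0`, which is `∑ h, (1 + s_h)` in
`ZMod 2`.  (`Finset.card_bij` / `Finset.card_nbij'` onto the filtered set of helpers.)
It may help to prove first the case distinction-free form: a function `xx : Fin t → LV C b` (or the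
mains as `d : ∀ i ∈ {i,j,l}`), with `xx i = x1` etc.
-/
set_option autoImplicit false

namespace Crest.Agent.R290.A

open Crest.WLRefine Crest.WLRefine.ParityLift Finset

variable {t : ℕ}

private def ztag {C : ChoiceSystem t} {b : TV t → Bool} (S : Finset (Fin t)) (x : Fin t → LV C b)
    (h : Helper t) : TV t → ZMod 2
  | Sum.inl n => if n ∈ S then (x n).1.2 (Sum.inr h) else 0
  | Sum.inr _ => 0

private theorem ztag_inl {C : ChoiceSystem t} {b : TV t → Bool} (S : Finset (Fin t))
    (x : Fin t → LV C b) (h : Helper t) (n : Fin t) :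
    ztag S x h (Sum.inl n) = if n ∈ S then (x n).1.2 (Sum.inr h) else 0 := rfl

private theorem ztag_supp {C : ChoiceSystem t} {b : TV t → Bool} (S : Finset (Fin t))
    (x : Fin t → LV C b) (h : Helper t) (hS : hsupp h = S) (a : TV t)
    (ha : tAdj (Sum.inr h) a = false) : ztag S x h a = 0 := by
  rcases a with n | h'
  · rw [ztag_inl, if_neg]
    intro hn
    rw [← hS] at hn
    unfold hsupp at hn
    simp only [mem_insert, mem_singleton] at hn
    have := (tAdj_helper n h).2 hn
    rw [ha] at this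
    exact absurd this (by simp)
  · rfl

private theorem ztag_sum {C : ChoiceSystem t} {b : TV t → Bool} (S : Finset (Fin t))
    (x : Fin t → LV C b) (h : Helper t) :
    ∑ a, ztag S x h a = ∑ n ∈ S, (x n).1.2 (Sum.inr h) := by
  rw [Fintype.sum_sum_type]
  have h1 : ∑ h' : Helper t, ztag S x h (Sum.inr h') = 0 := sum_eq_zero fun _ _ => rfl
  rw [h1, add_zero]
  simp only [ztag]
  rw [Finset.sum_ite_mem, Finset.univ_inter]

private theorem ztag_eq {C : ChoiceSystem t} {b : TV t → Bool} (S : Finset (Fin t))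
    (x : Fin t → LV C b) (h : Helper t) (hS : hsupp h = S) (z : TV t → ZMod 2)
    (hz : ∀ a, tAdj (Sum.inr h) a = false → z a = 0)
    (hz' : ∀ n ∈ S, (x n).1.2 (Sum.inr h) = z (Sum.inl n)) : z = ztag S x h := by
  funext a
  rcases a with n | h'
  · rw [ztag_inl]
    by_cases hn : n ∈ S
    · rw [if_pos hn, hz' n hn]
    · rw [if_neg hn]
      apply hz
      rw [Bool.eq_false_iff]
      intro hc
      apply hn
      have := (tAdj_helper n h).1 hc
      rw [← hS]
      unfold hsupp
      simp only [mem_insert, mem_singleton]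
      exact this
  · exact hz _ rfl

private theorem zmod2_aux (s : ZMod 2) : 1 + s = if s = 0 then (1 : ZMod 2) else 0 := by
  revert s; decide

/-- form with families: `x n` lies over the main `(n, d n)` for `n` in the three-element set `S` -/
theorem helper_common_fam (C : ChoiceSystem t) (b : TV t → Bool) (hb : ∀ h, b (Sum.inr h) = false)
    (S : Finset (Fin t)) (hS : S.card = 3) (x : Fin t → LV C b) (d : ∀ n, Fin (C.dom n))
    (hx : ∀ n ∈ S, (x n).1.1 = Sum.inl ⟨n, d n⟩)
    (hd : ∀ n ∈ S, ∀ n' ∈ S, n ≠ n' → lb C n (d n) n' = lb C n' (d n') n) :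
    ((univ.filter fun z : LV C b => (∃ p, z.1.1 = Sum.inr p) ∧
      ∀ n ∈ S, ladj C (x n) z = true).card : ZMod 2) =
    ∑ h ∈ univ.filter (fun h : Helper t => hsupp h = S), (1 + ∑ n ∈ S, (x n).1.2 (Sum.inr h)) := by
  classical
  have hR : ∑ h ∈ univ.filter (fun h : Helper t => hsupp h = S),
      (1 + ∑ n ∈ S, (x n).1.2 (Sum.inr h)) =
      (((univ.filter (fun h : Helper t => hsupp h = S)).filter
        fun h => ∑ n ∈ S, (x n).1.2 (Sum.inr h) = 0).card : ZMod 2) := by
    rw [Finset.card_filter, Nat.cast_sum]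
    apply sum_congr rfl
    intro h _
    rw [zmod2_aux]
    split_ifs <;> simp
  rw [hR]
  congr 1
  symm
  have key : ∀ h : Helper t, hsupp h = S → h.1.1 ∈ S ∧ h.1.2.1 ∈ S ∧ h.1.2.2 ∈ S := by
    intro h hh
    rw [← hh]
    unfold hsupp
    simp
  refine Finset.card_bij
    (fun h hh => (⟨(Sum.inr ⟨h, ⟨lb C h.1.1 (d h.1.1) h.1.2.1, lb_lt C h (d h.1.1)⟩⟩, ztag S x h),
      ⟨fun a ha => ztag_supp S x h (by simpa using (mem_filter.1 (mem_filter.1 hh).1).2) a ha,
       by
        rw [ztag_sum, (mem_filter.1 hh).2]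
        show (0 : ZMod 2) = vb (b (Sum.inr h))
        rw [hb]; rfl⟩⟩ : LV C b)) ?_ ?_ ?_
  · intro h hh
    have hh1 : hsupp h = S := (mem_filter.1 (mem_filter.1 hh).1).2
    rw [mem_filter]
    refine ⟨mem_univ _, ⟨_, rfl⟩, ?_⟩
    intro n hn
    unfold ladj
    rw [decide_eq_true_eq, hx n hn]
    constructor
    · rw [bAdj_helper]
      have hn' := hn
      rw [← hh1] at hn'
      unfold hsupp at hn'
      simp only [mem_insert, mem_singleton] at hn'
      rcases hn' with e | e | e
      · subst e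
        exact Or.inl ⟨rfl, rfl⟩
      · subst e
        refine Or.inr (Or.inl ⟨rfl, ?_⟩)
        exact hd h.1.1 (key h hh1).1 h.1.2.1 (key h hh1).2.1 (ne_of_lt h.2.1)
      · exact Or.inr (Or.inr e.symm)
    · show (x n).1.2 (Sum.inr h) = ztag S x h (Sum.inl n)
      rw [ztag_inl, if_pos hn]
  · intro h1 hh1 h2 hh2 he
    have e1 := congrArg (fun z : LV C b => z.1.1) he
    have e2 := Sum.inr.inj e1
    exact congrArg (fun p : (Σ h : Helper t, Fin (C.lab h.1.1 h.1.2.1)) => p.1) e2
  · intro z hz
    rw [mem_filter] at hz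
    obtain ⟨_, ⟨⟨h, q⟩, hp⟩, hz2⟩ := hz
    have hz3 : ∀ n ∈ S, ((h.1.1 = n ∧ q.val = lb C n (d n) h.1.2.1) ∨
        (h.1.2.1 = n ∧ q.val = lb C n (d n) h.1.1) ∨ h.1.2.2 = n) ∧
        (x n).1.2 (Sum.inr h) = z.1.2 (Sum.inl n) := by
      intro n hn
      have := hz2 n hn
      unfold ladj at this
      rw [decide_eq_true_eq, hx n hn, hp, bAdj_helper] at this
      exact this
    have hsub : S ⊆ hsupp h := by
      intro n hn
      unfold hsupp
      simp only [mem_insert, mem_singleton]
      rcases (hz3 n hn).1 with ⟨e, _⟩ | ⟨e, _⟩ | e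
      · exact Or.inl e.symm
      · exact Or.inr (Or.inl e.symm)
      · exact Or.inr (Or.inr e.symm)
    have hcard : (hsupp h).card ≤ 3 := by
      unfold hsupp
      exact Finset.card_le_three
    have hh1 : hsupp h = S := (Finset.eq_of_subset_of_card_le hsub (by rw [hS]; exact hcard)).symm
    obtain ⟨⟨u, tag⟩, hs1, hs2⟩ := z
    simp only at hp hz3 hs1 hs2
    subst hp
    have ht : tag = ztag S x h := ztag_eq S x h hh1 tag hs1 (fun n hn => (hz3 n hn).2)
    have hq : q = ⟨lb C h.1.1 (d h.1.1) h.1.2.1, lb_lt C h (d h.1.1)⟩ := by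
      apply Fin.ext
      rcases (hz3 h.1.1 (key h hh1).1).1 with ⟨_, e⟩ | ⟨e, _⟩ | e
      · exact e
      · exact absurd e (ne_of_gt h.2.1)
      · exact absurd e h.2.2.1
    subst hq
    subst ht
    refine ⟨h, ?_, rfl⟩
    rw [mem_filter, mem_filter]
    refine ⟨⟨mem_univ _, hh1⟩, ?_⟩
    rw [← ztag_sum, hs2]
    show vb (b (Sum.inr h)) = 0
    rw [hb]; rfl

end Crest.Agent.R290.A
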