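import Crest.Agent.R290.ACirc
import Crest.Agent.R290.AFlow

/-!
# A_LOC: from flows to local conditions (row 290, module A)

`loc_of_flow`: `supp`: `hf.supp` and `circ_supp`.  `par`: `hf.main` and `circ_sum`.  `mat`: `hf.symm` and
`circ_match` (with `bAdj_main`).  `vis`: for the helper `h = (i, j; l)` with compatible labels
`q = lb i d j = lb j d i`: the circulations at `inr h` are `κ h q`, `κ h q`, `0` (`circ` unfolds: main
`i = h.1.1`; main `j = h.1.2.1 ≠ h.1.1`; main `l = h.1.2.2 ≠` both) and the sum of the three `f` is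
`∑ b, f (inr h) b = 0` (`sum_helper`, `hf.symm`).
-/
set_option autoImplicit false

namespace Crest.Agent.R290.A

open Crest.WLRefine Crest.WLRefine.ParityLift Finset

variable {t : ℕ}

theorem fl_supp (C : ChoiceSystem t) {m : Fin t} {f : TV t → TV t → ZMod 2} (hf : IsFlow m f)
    (κ : Helper t → ℕ → ZMod 2) (u : BV C) (a : TV t) (h : tAdj (typeOf C u) a = false) :
    fl C f κ u a = 0 := by
  unfold fl
  rw [hf.supp _ _ h, circ_supp C κ u a h, add_zero]

theorem fl_sum (C : ChoiceSystem t) {m : Fin t} {f : TV t → TV t → ZMod 2} (hf : IsFlow m f)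
    (κ : Helper t → ℕ → ZMod 2) (u : BV C) (hu : typeOf C u ≠ Sum.inl m) :
    ∑ a, fl C f κ u a = star (typeOf C u) := by
  unfold fl
  rw [Finset.sum_add_distrib, circ_sum, add_zero]
  cases u with
  | inl p =>
    have hp : p.1 ≠ m := fun e => hu (by simp [typeOf, e])
    exact hf.main p.1 hp
  | inr p =>
    have h1 := hf.helper p.1
    have h2 := star_helper p.1
    show ∑ a, f (Sum.inr p.1) a = star (Sum.inr p.1)
    rw [h1, h2]

theorem fl_match (C : ChoiceSystem t) {m : Fin t} {f : TV t → TV t → ZMod 2} (hf : IsFlow m f)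
    (κ : Helper t → ℕ → ZMod 2) (u v : BV C) (h : bAdj C u v = true) :
    fl C f κ u (typeOf C v) = fl C f κ v (typeOf C u) := by
  unfold fl
  rw [hf.symm (typeOf C u) (typeOf C v), circ_match C κ u v h]

theorem loc_of_flow (C : ChoiceSystem t) {m : Fin t} {f : TV t → TV t → ZMod 2} (hf : IsFlow m f)
    (κ : Helper t → ℕ → ZMod 2) (d : ∀ i, Fin (C.dom i)) :
    Loc C d (fun i => i ≠ m) (fun i => fl C f κ (Sum.inl ⟨i, d i⟩)) := by
  refine ⟨?_, ?_, ?_, ?_⟩
  · intro i _ a ha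
    exact fl_supp C hf κ (Sum.inl ⟨i, d i⟩) a ha
  · intro i hi
    exact fl_sum C hf κ (Sum.inl ⟨i, d i⟩) (fun e => hi (Sum.inl.inj e))
  · intro i j _ _ hij hl
    exact fl_match C hf κ (Sum.inl ⟨i, d i⟩) (Sum.inl ⟨j, d j⟩)
      ((bAdj_main C i j (d i) (d j)).2 ⟨hij, hl⟩)
  · intro h _ _ _ hl
    obtain ⟨hlt, h3, h4⟩ := h.2
    have h12 : h.1.2.1 ≠ h.1.1 := ne_of_gt hlt
    have hf0 := hf.helper h
    rw [sum_helper h _ (fun b hb => hf.supp _ _ hb)] at hf0
    have c1 : circ C κ (Sum.inl ⟨h.1.1, d h.1.1⟩) (Sum.inr h) =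
        κ h (lb C h.1.1 (d h.1.1) h.1.2.1) := by
      simp [circ]
    have c2 : circ C κ (Sum.inl ⟨h.1.2.1, d h.1.2.1⟩) (Sum.inr h) =
        κ h (lb C h.1.2.1 (d h.1.2.1) h.1.1) := by
      simp [circ, h12.symm]
    have c3 : circ C κ (Sum.inl ⟨h.1.2.2, d h.1.2.2⟩) (Sum.inr h) = 0 := by
      simp [circ, h3.symm, h4.symm]
    simp only [fl, typeOf]
    rw [c1, c2, c3, hf.symm (Sum.inl h.1.1), hf.symm (Sum.inl h.1.2.1), hf.symm (Sum.inl h.1.2.2), hl]
    have h2 := CharTwo.add_self_eq_zero (κ h (lb C h.1.2.1 (d h.1.2.1) h.1.1))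
    linear_combination hf0 + h2

end Crest.Agent.R290.A
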