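import Crest.Agent.R290.ADefs

/-!
# A_SUPP: three helpers on three mains (row 290, module A)

PROOF.  WLOG (as a set) `{i, j, l} = {a, b, c}` with `a < b < c`; the helpers are `(a,b;c)`, `(a,c;b)`,
`(b,c;a)`.  Or: `h ↦ h.1.2.2` is a bijection of the set onto `S`.
-/
set_option autoImplicit false

namespace Crest.Agent.R290.A

open Crest.WLRefine Crest.WLRefine.ParityLift Finset

variable {t : ℕ}

theorem card_hsupp_self (h : Helper t) : (hsupp h).card = 3 := by
  unfold hsupp
  rw [Finset.card_eq_three]
  exact ⟨h.1.1, h.1.2.1, h.1.2.2, h.2.1.ne, h.2.2.1.symm, h.2.2.2.symm, rfl⟩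

private theorem hsupp_erase (h : Helper t) : (hsupp h).erase h.1.2.2 = {h.1.1, h.1.2.1} := by
  ext x
  have h1 := h.2.2.1
  have h2 := h.2.2.2
  simp only [hsupp, Finset.mem_erase, Finset.mem_insert, Finset.mem_singleton]
  constructor
  · rintro ⟨h3, h4 | h4 | h4⟩
    · exact Or.inl h4
    · exact Or.inr h4
    · exact absurd h4 h3
  · rintro (h4 | h4)
    · exact ⟨by rw [h4]; exact h1.symm, Or.inl h4⟩
    · exact ⟨by rw [h4]; exact h2.symm, Or.inr (Or.inl h4)⟩

private theorem pair_eq {a b c d : Fin t} (h1 : a < b) (h2 : c < d)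
    (h : ({a, b} : Finset (Fin t)) = {c, d}) : a = c ∧ b = d := by
  have ha : a ∈ ({c, d} : Finset (Fin t)) := h ▸ Finset.mem_insert_self _ _
  have hb : b ∈ ({c, d} : Finset (Fin t)) :=
    h ▸ Finset.mem_insert_of_mem (Finset.mem_singleton_self _)
  rw [Finset.mem_insert, Finset.mem_singleton] at ha hb
  rcases ha with ha | ha <;> rcases hb with hb | hb
  · omega
  · exact ⟨ha, hb⟩
  · omega
  · omega

theorem card_hsupp (S : Finset (Fin t)) (hS : S.card = 3) :
    (univ.filter fun h : Helper t => hsupp h = S).card = 3 := by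
  rw [← hS]
  refine Finset.card_bij (fun h _ => h.1.2.2) ?_ ?_ ?_
  · intro h hh
    rw [Finset.mem_filter] at hh
    rw [← hh.2]
    simp [hsupp]
  · intro h hh h' hh' he
    rw [Finset.mem_filter] at hh hh'
    have e1 := hsupp_erase h
    have e2 := hsupp_erase h'
    rw [hh.2] at e1
    rw [hh'.2] at e2
    have he' : h.1.2.2 = h'.1.2.2 := he
    rw [he'] at e1
    have e3 := pair_eq h.2.1 h'.2.1 (e1.symm.trans e2)
    apply Subtype.ext
    exact Prod.ext e3.1 (Prod.ext e3.2 he')
  · intro c hc
    have hc2 : (S.erase c).card = 2 := by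
      rw [Finset.card_erase_of_mem hc, hS]
    obtain ⟨x, y, hxy, he⟩ := Finset.card_eq_two.1 hc2
    have key : ∀ x y : Fin t, x < y → S.erase c = {x, y} →
        ∃ (a : Helper t) (_ : a ∈ univ.filter fun h : Helper t => hsupp h = S), a.1.2.2 = c := by
      intro x y hlt he
      have hx : x ∈ S.erase c := by rw [he]; exact Finset.mem_insert_self _ _
      have hy : y ∈ S.erase c := by
        rw [he]; exact Finset.mem_insert_of_mem (Finset.mem_singleton_self _)
      rw [Finset.mem_erase] at hx hy
      have hex : ∃ a : Helper t, a.1 = (x, y, c) := ⟨⟨(x, y, c), hlt, hx.1.symm, hy.1.symm⟩, rfl⟩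
      obtain ⟨a, ha⟩ := hex
      refine ⟨a, ?_, by rw [ha]⟩
      rw [Finset.mem_filter]
      refine ⟨Finset.mem_univ _, ?_⟩
      unfold hsupp
      rw [ha]
      rw [← Finset.insert_erase hc, he]
      ext z
      simp only [Finset.mem_insert, Finset.mem_singleton]
      tauto
    rcases lt_or_gt_of_ne hxy with h | h
    · exact key x y h he
    · exact key y x h (he.trans (Finset.pair_comm x y))

/-- double counting: every helper is counted three times -/
theorem sum_hsupp (F : Helper t → ZMod 2) :
    ∑ h : Helper t, ∑ h' ∈ univ.filter (fun h' : Helper t => hsupp h' = hsupp h), F h' =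
      ∑ h : Helper t, F h := by
  simp only [Finset.sum_filter]
  rw [Finset.sum_comm]
  apply Finset.sum_congr rfl
  intro h _
  rw [← Finset.sum_filter]
  have : (univ.filter fun h' : Helper t => hsupp h = hsupp h') =
      univ.filter fun h' : Helper t => hsupp h' = hsupp h := by
    ext h'
    simp only [Finset.mem_filter, Finset.mem_univ, true_and]
    exact eq_comm
  rw [this, Finset.sum_const, card_hsupp _ (card_hsupp_self h)]
  rw [show (3 : ℕ) = 2 + 1 from rfl, add_smul, one_smul, two_smul, CharTwo.add_self_eq_zero,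
    zero_add]

end Crest.Agent.R290.A
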