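import Crest.Agent.R290.AEven
import Crest.Agent.R290.AHelp
import Crest.Agent.R290.ASupp

/-!
# A_ODD1, A_ODD2: odd cliques (row 290, module A)

`OddCl G v` (ADefs): clique and any three coordinates have an odd number of common neighbours.

A_ODD1 `exists_oddCl`: `d` from `exists_compat`; `v i` = base `inl ⟨i, d i⟩`, tag 0 (parity 0 in lift0).
Adjacent by `bAdj_main`.  For distinct `a, b, c`: the filter is the disjoint union of main and helper
neighbours; `even_main`; `helper_common_fam` with `S = {a, b, c}`: `∑ h, (1 + 0) = 3 = 1` (`card_hsupp`).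
(`∀ n ∈ {a, b, c}, ladj (v n) z` iff the three conditions.)

A_ODD2 `no_oddCl`: let `v` be an odd clique in the starred lift.
(1) every `v a` is over a main: if `v a` is over `inr p`, take two other coordinates `b, c`: all common
neighbours are mains (a helper is adjacent to mains only, `bAdj` inr inr = false), so their number is
even (`even_main`), not 1.
(2) the types are distinct (`tAdj_main`), so `a ↦ type` is a bijection `Fin t → Fin t`; reindex:
`x n` := the vertex over main `n`, `d n` its element: `(x n).1.1 = inl ⟨n, d n⟩`, pairwise adjacent,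
labels compatible, any three have an odd number of common neighbours.
(3) for every helper `h`: with `S = hsupp h`: `1 = ∑ h' with hsupp h' = S, (1 + ∑ n ∈ S, (x n) (inr h'))`.
Sum over `h` (`sum_hsupp` with `F h' = 1 + ∑ n ∈ hsupp h', (x n) (inr h')`):
`card (Helper t) = card (Helper t) + ∑ h, ∑ n ∈ hsupp h, (x n) (inr h)`; so the last sum is 0.
(4) `1 = ∑ n, star (inl n) = ∑ n, ∑ a, (x n) a = ∑ n, ∑ m, (x n) (inl m) + ∑ n, ∑ h, (x n) (inr h)`; the
first double sum is 0 (symmetric by adjacency, diagonal 0 by support: `Finset.sum_involution` or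
`sum_symm_zero`), the second is `∑ h, ∑ n ∈ hsupp h, (x n) (inr h) = 0` (support).  Contradiction.
-/
set_option autoImplicit false

namespace Crest.Agent.R290.A

open Crest.WLRefine Crest.WLRefine.ParityLift Finset

variable {t : ℕ}

/-- common neighbours of three pairwise adjacent mains (all neighbours) -/
theorem common_fam (ht : 4 ≤ t) (C : ChoiceSystem t) (b : TV t → Bool)
    (hb : ∀ h, b (Sum.inr h) = false)
    (S : Finset (Fin t)) (hS : S.card = 3) (x : Fin t → LV C b) (d : ∀ n, Fin (C.dom n))
    (hx : ∀ n ∈ S, (x n).1.1 = Sum.inl ⟨n, d n⟩)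
    (hd : ∀ n ∈ S, ∀ n' ∈ S, n ≠ n' → lb C n (d n) n' = lb C n' (d n') n) :
    ((univ.filter fun z : LV C b => ∀ n ∈ S, ladj C (x n) z = true).card : ZMod 2) =
    ∑ h ∈ univ.filter (fun h : Helper t => hsupp h = S), (1 + ∑ n ∈ S, (x n).1.2 (Sum.inr h)) := by
  classical
  obtain ⟨i, j, l, hij, hil, hjl, hSe⟩ := Finset.card_eq_three.1 hS
  have h1 := even_main ht C b (x i) (x j) (x l)
  have h2 := helper_common_fam C b hb S hS x d hx hd
  have hmem : ∀ z : LV C b, (∀ n ∈ S, ladj C (x n) z = true) ↔
      (ladj C (x i) z = true ∧ ladj C (x j) z = true ∧ ladj C (x l) z = true) := by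
    intro z
    rw [hSe]
    simp only [mem_insert, mem_singleton, forall_eq_or_imp, forall_eq]
  have h3 : (univ.filter fun z : LV C b => ∀ n ∈ S, ladj C (x n) z = true) =
      (univ.filter fun z : LV C b => (∃ p, z.1.1 = Sum.inl p) ∧
        ladj C (x i) z = true ∧ ladj C (x j) z = true ∧ ladj C (x l) z = true) ∪
      (univ.filter fun z : LV C b => (∃ p, z.1.1 = Sum.inr p) ∧
        ∀ n ∈ S, ladj C (x n) z = true) := by
    ext z
    simp only [mem_filter, mem_univ, true_and, mem_union]
    rw [hmem z]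
    constructor
    · intro h
      rcases hz : z.1.1 with p | p
      · exact Or.inl ⟨⟨p, rfl⟩, h⟩
      · exact Or.inr ⟨⟨p, rfl⟩, h⟩
    · rintro (⟨_, h⟩ | ⟨_, h⟩) <;> exact h
  have h4 : Disjoint (univ.filter fun z : LV C b => (∃ p, z.1.1 = Sum.inl p) ∧
        ladj C (x i) z = true ∧ ladj C (x j) z = true ∧ ladj C (x l) z = true)
      (univ.filter fun z : LV C b => (∃ p, z.1.1 = Sum.inr p) ∧
        ∀ n ∈ S, ladj C (x n) z = true) := by
    rw [Finset.disjoint_left]
    intro z hz1 hz2
    simp only [mem_filter, mem_univ, true_and] at hz1 hz2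
    obtain ⟨⟨p, hp⟩, _⟩ := hz1
    obtain ⟨⟨q, hq⟩, _⟩ := hz2
    rw [hp] at hq
    exact absurd hq (by simp)
  rw [h3, card_union_of_disjoint h4, Nat.cast_add, h1, h2, zero_add]

theorem sum_symm_zero (g : Fin t → Fin t → ZMod 2) (hs : ∀ i j, g i j = g j i)
    (h0 : ∀ i, g i i = 0) : ∑ i, ∑ j, g i j = 0 := by
  classical
  rw [← Finset.sum_product']
  refine Finset.sum_involution (fun p _ => (p.2, p.1)) ?_ ?_ ?_ ?_
  · intro p _
    rw [hs p.2 p.1]
    exact CharTwo.add_self_eq_zero _
  · intro p _ hp he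
    apply hp
    have : p.2 = p.1 := congrArg Prod.fst he
    rw [this]
    exact h0 _
  · intro p _
    simp
  · intro p _
    rfl

end Crest.Agent.R290.A
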