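import Crest.Agent.R290.AFlowOf
import Crest.Agent.R290.AExt

/-!
# A_STEP: one step of the base game (row 290, module A)

`Good C D u` (ADefs): (I) some main `m` is not a type of the pebbled base vertices `u` and
`D = fl C f κ` on them with `IsFlow m f`, or (II) all mains `(i, d i)` are pebbled and `Loc` holds.

`good_pre` (lift the pebble `a`): EX `m f κ`, `IsFlow m f`, for all `b ≠ a`: `typeOf (u b) ≠ inl m` and
`D (u b) = fl C f κ (u b)`.  From (I) clear.  From (II): the map `i ↦ a_i` (`u a_i = inl ⟨i, d i⟩`) is
injective `Fin t → Fin t`, so bijective; let `l` be the index with `a_l = a`; `flow_of_loc` for `l`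
(`Loc` restricted to `i ≠ l`); for `b ≠ a`, `b = a_i` with `i ≠ l`.

`good_step`: take `m f κ` from `good_pre`.
Case A: some `m' ≠ m` with `typeOf (u b) ≠ inl m'` for all `b ≠ a`.  Let `f' = flipE m m' f`
(`IsFlow m' f'`, `flipE_of_ne`).  `D' x := if typeOf x = inl m then fl C f' κ x else fl C f κ x`.
`D''` for `x` of type `m`: `fl C f' κ` (agrees with `fl C f κ` on the `u b`; (I) with `m'`);
for `x` of another type: `D'' = fl C f κ`; (I) with `m`.
Case B: every `m' ≠ m` is the type of some `u b`, `b ≠ a`: choose `b_{m'}` and `d m'` with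
`u b_{m'} = inl ⟨m', d m'⟩`.  `D' x` for `x = inl ⟨m, e⟩`: let `dd = update d m e` (a total choice; `d m`
does not exist if `C.dom m = 0`, so build `dd` by `if h : i = m then h ▸ e else d i`); `loc_of_flow` and
`loc_extend` (with `exists_incompat C hC dd`) give `δm`; `D' x := δm`.  Other `x`: `D' x := fl C f κ x`.
`D''` for `x = inl ⟨m, e⟩`: `Function.update (fl C f κ) x (D' x)` ((II): `i = m` is pebbled by `a`,
`i ≠ m` by `b_i`); for other `x`: `fl C f κ` ((I) with `m`).
Parity of `D' x`: `fl_sum` or `Loc.par`; support: `fl_supp` or `Loc.supp`.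
-/
set_option autoImplicit false

namespace Crest.Agent.R290.A

open Crest.WLRefine Crest.WLRefine.ParityLift Finset

variable {t : ℕ}

private theorem typeOf_inl {C : ChoiceSystem t} {x : BV C} {m : Fin t}
    (h : typeOf C x = Sum.inl m) : ∃ e : Fin (C.dom m), x = Sum.inl ⟨m, e⟩ := by
  rcases x with ⟨i, e⟩ | p
  · have h1 : i = m := Sum.inl.inj h
    subst h1
    exact ⟨e, rfl⟩
  · exact absurd h (by simp [typeOf])

theorem good_pre (C : ChoiceSystem t) {D : BV C → TV t → ZMod 2} {u : Fin t → BV C}
    (h : Good C D u) (a : Fin t) :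
    ∃ m f κ, IsFlow m f ∧ (∀ b, b ≠ a → typeOf C (u b) ≠ Sum.inl m) ∧
      ∀ b, b ≠ a → D (u b) = fl C f κ (u b) := by
  rcases h with ⟨m, f, κ, hf, h1, h2⟩ | ⟨d, h1, h2⟩
  · exact ⟨m, f, κ, hf, fun b _ => h1 b, fun b _ => h2 b⟩
  · choose ai hai using h1
    have hinj : Function.Injective ai := by
      intro i j hij
      have h3 : (Sum.inl ⟨i, d i⟩ : BV C) = Sum.inl ⟨j, d j⟩ := by rw [← hai i, ← hai j, hij]
      have h4 := congrArg (typeOf C) h3
      exact Sum.inl.inj h4
    have hsurj : Function.Surjective ai := Finite.surjective_of_injective hinj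
    obtain ⟨l, hl⟩ := hsurj a
    have hL : Loc C d (fun i => i ≠ l) (fun i => D (Sum.inl ⟨i, d i⟩)) :=
      ⟨fun i _ => h2.supp i trivial, fun i _ => h2.par i trivial,
        fun i j _ _ => h2.mat i j trivial trivial,
        fun h _ _ _ => h2.vis h trivial trivial trivial⟩
    obtain ⟨f, κ, hf, hfl⟩ := flow_of_loc C d l _ hL
    refine ⟨l, f, κ, hf, ?_, ?_⟩
    · intro b hb
      obtain ⟨i, rfl⟩ := hsurj b
      rw [hai i]
      intro h3
      have h4 : i = l := Sum.inl.inj h3
      exact hb (by rw [h4, hl])
    · intro b hb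
      obtain ⟨i, rfl⟩ := hsurj b
      have hil : i ≠ l := fun h4 => hb (by rw [h4, hl])
      rw [hai i, hfl i hil]

theorem good_step (ht : 2 ≤ t) (C : ChoiceSystem t) (hC : ¬ C.Successful)
    {D : BV C → TV t → ZMod 2} {u : Fin t → BV C} (h : Good C D u) (a : Fin t) :
    ∃ D' : BV C → TV t → ZMod 2,
      (∀ x c, tAdj (typeOf C x) c = false → D' x c = 0) ∧
      (∀ x, ∑ c, D' x c = star (typeOf C x)) ∧
      ∀ x : BV C, ∃ D'' : BV C → TV t → ZMod 2, D'' x = D' x ∧
        (∀ b, b ≠ a → D'' (u b) = D (u b)) ∧ Good C D'' (Function.update u a x) := by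
  classical
  have ht0 : 0 < t := by omega
  obtain ⟨m, f, κ, hf, hty, hD⟩ := good_pre C h a
  -- the easy case of `x`
  have easy : ∀ x : BV C, typeOf C x ≠ Sum.inl m →
      Good C (fl C f κ) (Function.update u a x) := by
    intro x hx
    refine Or.inl ⟨m, f, κ, hf, ?_, fun _ => rfl⟩
    intro b
    by_cases hb : b = a
    · subst hb; rw [Function.update_self]; exact hx
    · rw [Function.update_of_ne hb]; exact hty b hb
  by_cases hA : ∃ m', m' ≠ m ∧ ∀ b, b ≠ a → typeOf C (u b) ≠ Sum.inl m'
  · obtain ⟨m', hm', hty'⟩ := hA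
    have hf' : IsFlow m' (flipE m m' f) := hf.flip ht0 hm'
    refine ⟨fun x => if typeOf C x = Sum.inl m then fl C (flipE m m' f) κ x else fl C f κ x,
      ?_, ?_, ?_⟩
    · intro x c hxc
      dsimp only
      split_ifs
      · exact fl_supp C hf' κ x c hxc
      · exact fl_supp C hf κ x c hxc
    · intro x
      dsimp only
      split_ifs with hx
      · refine fl_sum C hf' κ x ?_
        rw [hx]
        exact fun e => hm' (Sum.inl.inj e).symm
      · exact fl_sum C hf κ x hx
    · intro x
      by_cases hx : typeOf C x = Sum.inl m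
      · refine ⟨fl C (flipE m m' f) κ, ?_, ?_, ?_⟩
        · dsimp only
          rw [if_pos hx]
        · intro b hb
          rw [hD b hb]
          funext c
          unfold fl
          rw [flipE_of_ne (hty b hb) (hty' b hb)]
        · refine Or.inl ⟨m', flipE m m' f, κ, hf', ?_, fun _ => rfl⟩
          intro b
          by_cases hb : b = a
          · subst hb
            rw [Function.update_self, hx]
            exact fun e => hm' (Sum.inl.inj e).symm
          · rw [Function.update_of_ne hb]; exact hty' b hb
      · refine ⟨fl C f κ, ?_, ?_, easy x hx⟩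
        · dsimp only
          rw [if_neg hx]
        · intro b hb; exact (hD b hb).symm
  · push Not at hA
    have hB : ∀ i, i ≠ m → ∃ e : Fin (C.dom i), ∃ b, b ≠ a ∧ u b = Sum.inl ⟨i, e⟩ := by
      intro i hi
      obtain ⟨b, hb, hbt⟩ := hA i hi
      obtain ⟨e, he⟩ := typeOf_inl hbt
      exact ⟨e, b, hb, he⟩
    choose d b hb hub using hB
    let dd : Fin (C.dom m) → ∀ i, Fin (C.dom i) := fun e i =>
      if h : i = m then h.symm ▸ e else d i h
    have ddm : ∀ e, dd e m = e := by intro e; simp [dd]
    have ddn : ∀ e i (hi : i ≠ m), dd e i = d i hi := by intro e i hi; simp [dd, hi]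
    have hext : ∀ e : Fin (C.dom m), ∃ δm, Loc C (dd e) (fun _ => True)
        (Function.update (fun i => fl C f κ (Sum.inl ⟨i, dd e i⟩)) m δm) := fun e =>
      loc_extend C (dd e) m _ (loc_of_flow C hf κ (dd e)) (exists_incompat C hC (dd e))
    choose δ hδ using hext
    let D' : BV C → TV t → ZMod 2 := fun x => match x with
      | Sum.inl p => if h : p.1 = m then δ (h ▸ p.2) else fl C f κ (Sum.inl p)
      | Sum.inr p => fl C f κ (Sum.inr p)
    have hD'm : ∀ e : Fin (C.dom m), D' (Sum.inl ⟨m, e⟩) = δ e := by
      intro e; simp [D']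
    have hD'n : ∀ x : BV C, typeOf C x ≠ Sum.inl m → D' x = fl C f κ x := by
      intro x hx
      rcases x with ⟨i, e⟩ | p
      · have hi : i ≠ m := fun h1 => hx (congrArg Sum.inl h1)
        simp [D', hi]
      · rfl
    refine ⟨D', ?_, ?_, ?_⟩
    · intro x c hxc
      by_cases hx : typeOf C x = Sum.inl m
      · obtain ⟨e, rfl⟩ := typeOf_inl hx
        rw [hD'm]
        have := (hδ e).supp m trivial c hxc
        rwa [Function.update_self] at this
      · rw [hD'n x hx]; exact fl_supp C hf κ x c hxc
    · intro x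
      by_cases hx : typeOf C x = Sum.inl m
      · obtain ⟨e, rfl⟩ := typeOf_inl hx
        rw [hD'm]
        have := (hδ e).par m trivial
        rwa [Function.update_self] at this
      · rw [hD'n x hx]; exact fl_sum C hf κ x hx
    · intro x
      by_cases hx : typeOf C x = Sum.inl m
      · obtain ⟨e, rfl⟩ := typeOf_inl hx
        refine ⟨Function.update (fl C f κ) (Sum.inl ⟨m, e⟩) (δ e), ?_, ?_, Or.inr ⟨dd e, ?_, ?_⟩⟩
        · rw [Function.update_self, hD'm]
        · intro c hc
          rw [Function.update_of_ne, hD c hc]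
          intro h1
          exact hty c hc (by rw [h1]; rfl)
        · intro i
          by_cases hi : i = m
          · subst hi
            exact ⟨a, by rw [Function.update_self, ddm]⟩
          · refine ⟨b i hi, ?_⟩
            rw [Function.update_of_ne (hb i hi), hub i hi, ddn e i hi]
        · have h1 : (fun i => Function.update (fl C f κ) (Sum.inl ⟨m, e⟩) (δ e)
              (Sum.inl ⟨i, dd e i⟩)) =
              Function.update (fun i => fl C f κ (Sum.inl ⟨i, dd e i⟩)) m (δ e) := by
            funext i
            by_cases hi : i = m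
            · subst hi
              rw [Function.update_self, ddm, Function.update_self]
            · rw [Function.update_of_ne hi, Function.update_of_ne]
              intro h2
              exact hi (Sum.inl.inj (congrArg (typeOf C) h2))
          rw [h1]
          exact hδ e
      · refine ⟨fl C f κ, ?_, ?_, easy x hx⟩
        · rw [hD'n x hx]
        · intro c hc; exact (hD c hc).symm

end Crest.Agent.R290.A
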