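import Crest.Agent.R290.WLApex
import Crest.Agent.R290.BMono
import Crest.Agent.R290.WLPure

/-!
Row 290, MODULE B (WL basics): interface statements (architects helper27, helper68).
Proofs may be moved to B*.lean files; keep the names.
-/
set_option autoImplicit false

namespace Crest.Agent.R290

open Crest.WLRefine Finset

variable {U V W : Type} [Fintype U] [DecidableEq U] [Fintype V] [DecidableEq V]
  [Fintype W] [DecidableEq W] {k : ℕ}

/-- joint back-and-forth system -/
structure JBis (k : ℕ) (adj : V → V → Bool) (adj' : W → W → Bool)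
    (R : (Fin k → V) → (Fin k → W) → Prop) : Prop where
  atom : ∀ v w, R v w → gatom adj v = gatom adj' w
  step : ∀ v w, R v w → ∃ π : V ≃ W, ∀ z i, R (Function.update v i z) (Function.update w i (π z))

/-- separate back-and-forth system -/
structure SBis (k : ℕ) (adj : V → V → Bool) (adj' : W → W → Bool)
    (R : (Fin k → V) → (Fin k → W) → Prop) : Prop where
  atom : ∀ v w, R v w → gatom adj v = gatom adj' w
  step : ∀ v w, R v w → ∀ i, ∃ π : V ≃ W, ∀ z, R (Function.update v i z) (Function.update w i (π z))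

theorem JEq_of_bis {adj : V → V → Bool} {adj' : W → W → Bool} {R} (h : JBis k adj adj' R)
    (P : (Fin k → V) ≃ (Fin k → W)) (hP : ∀ v, R v (P v)) : JEq k adj adj' :=
  jeq_iff_equiv.2 ⟨P, fun v => (JBisim.mk h.atom h.step).le (hP v)⟩

theorem SEq_of_bis {adj : V → V → Bool} {adj' : W → W → Bool} {R} (h : SBis k adj adj' R)
    (P : (Fin k → V) ≃ (Fin k → W)) (hP : ∀ v, R v (P v)) : SEq k adj adj' :=
  seq_iff_equiv.2 ⟨P, fun v => (SBisim.mk h.atom h.step).le (hP v)⟩

/-- relation "same colour at all rounds" (for each related pair one bijection works for all rounds: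
finitely many bijections) -/
theorem JEq.bis {adj : V → V → Bool} {adj' : W → W → Bool} (h : JEq k adj adj') :
    ∃ R, JBis k adj adj' R ∧ ∃ P : (Fin k → V) ≃ (Fin k → W), ∀ v, R v (P v) :=
  ⟨JT k adj adj', ⟨(jt_bisim k adj adj').atom, (jt_bisim k adj adj').step⟩, jeq_iff_equiv.1 h⟩

theorem SEq.bis {adj : V → V → Bool} {adj' : W → W → Bool} (h : SEq k adj adj') :
    ∃ R, SBis k adj adj' R ∧ ∃ P : (Fin k → V) ≃ (Fin k → W), ∀ v, R v (P v) :=
  ⟨ST k adj adj', ⟨(st_bisim k adj adj').atom, (st_bisim k adj adj').step⟩, seq_iff_equiv.1 h⟩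

/-- ONE related pair of tuples is enough -/
theorem JEq_of_bis1 {adj : V → V → Bool} {adj' : W → W → Bool} {R} (h : JBis k adj adj' R)
    {v : Fin k → V} {w : Fin k → W} (hvw : R v w) : JEq k adj adj' :=
  jeq_of_bisim (JBisim.mk h.atom h.step) hvw

/-- ONE related pair of tuples is enough -/
theorem SEq_of_bis1 {adj : V → V → Bool} {adj' : W → W → Bool} {R} (h : SBis k adj adj' R)
    {v : Fin k → V} {w : Fin k → W} (hvw : R v w) : SEq k adj adj' :=
  seq_of_bisim (SBisim.mk h.atom h.step) hvw

/-- a bijection of tuples from a strategy that places the pebbles one after the other -/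
theorem exists_tupleEquiv (P : (j : ℕ) → (Fin j → V) → (Fin j → W) → Prop)
    (h0 : P 0 Fin.elim0 Fin.elim0)
    (hs : ∀ j < k, ∀ v w, P j v w → ∃ π : V ≃ W, ∀ z,
      P (j + 1) (Fin.snoc (α := fun _ => V) v z) (Fin.snoc (α := fun _ => W) w (π z))) :
    ∃ Q : (Fin k → V) ≃ (Fin k → W), ∀ v, P k v (Q v) := by
  have key : ∀ j ≤ k, ∃ Q : (Fin j → V) ≃ (Fin j → W), ∀ v, P j v (Q v) := by
    intro j
    induction j with
    | zero =>
      intro _
      refine ⟨⟨fun _ => Fin.elim0, fun _ => Fin.elim0, fun x => ?_, fun x => ?_⟩, ?_⟩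
      · funext i; exact i.elim0
      · funext i; exact i.elim0
      · intro v
        have hv : v = Fin.elim0 := by funext i; exact i.elim0
        rw [hv]
        exact h0
    | succ j ih =>
      intro hj
      obtain ⟨Φ, hΦ⟩ := ih (by omega)
      have hs' := fun a => hs j (by omega) a (Φ a) (hΦ a)
      choose σ hσ using hs'
      let e1 : (V × (Fin j → V)) ≃ (Fin (j + 1) → V) := Fin.snocEquiv (fun _ => V)
      let e2 : (W × (Fin j → W)) ≃ (Fin (j + 1) → W) := Fin.snocEquiv (fun _ => W)
      let m : ((Fin j → V) × V) ≃ ((Fin j → W) × W) := Equiv.prodShear Φ σ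
      refine ⟨e1.symm.trans ((Equiv.prodComm _ _).trans (m.trans ((Equiv.prodComm _ _).trans e2))),
        ?_⟩
      intro a
      obtain ⟨⟨z, a'⟩, rfl⟩ := e1.surjective a
      have hb : (e1.symm.trans ((Equiv.prodComm _ _).trans (m.trans
          ((Equiv.prodComm _ _).trans e2)))) (e1 (z, a')) =
            Fin.snoc (α := fun _ => W) (Φ a') (σ a' z) := by
        simp only [Equiv.trans_apply, Equiv.symm_apply_apply]
        rfl
      rw [hb]
      exact hσ a' z
  exact key k le_rfl

theorem JEq.symm' {adj : V → V → Bool} {adj' : W → W → Bool} (h : JEq k adj adj') :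
    JEq k adj' adj := fun s => (h s).symm

theorem SEq.symm' {adj : V → V → Bool} {adj' : W → W → Bool} (h : SEq k adj adj') :
    SEq k adj' adj := fun s => (h s).symm

theorem JEq.trans' {adj : V → V → Bool} {adj' : W → W → Bool} {adj'' : U → U → Bool}
    (h : JEq k adj adj') (h' : JEq k adj' adj'') : JEq k adj adj'' := fun s => (h s).trans (h' s)

theorem SEq.trans' {adj : V → V → Bool} {adj' : W → W → Bool} {adj'' : U → U → Bool}
    (h : SEq k adj adj') (h' : SEq k adj' adj'') : SEq k adj adj'' := fun s => (h s).trans (h' s)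

theorem JEq_of_iso {adj : V → V → Bool} {adj' : W → W → Bool} (e : V ≃ W)
    (h : ∀ a b, adj' (e a) (e b) = adj a b) : JEq k adj adj' := jeq_of_iso k adj adj' e h

theorem SEq_of_iso {adj : V → V → Bool} {adj' : W → W → Bool} (e : V ≃ W)
    (h : ∀ a b, adj' (e a) (e b) = adj a b) : SEq k adj adj' := seq_of_iso k adj adj' e h

theorem JEq.mono {adj : V → V → Bool} {adj' : W → W → Bool} {k' : ℕ} (hk : 1 ≤ k') (hkk : k' ≤ k)
    (h : JEq k adj adj') : JEq k' adj adj' := jeq_monoA hk hkk h

theorem JEq.card_eq {adj : V → V → Bool} {adj' : W → W → Bool} (hk : 1 ≤ k)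
    (h : JEq k adj adj') : Fintype.card V = Fintype.card W := card_eq_of_jeq hk h

/-- with at least `card V` pebbles the relation is isomorphism -/
theorem JEq.iso {adj : V → V → Bool} {adj' : W → W → Bool} (hk : 1 ≤ k)
    (hc : Fintype.card V ≤ k) (h : JEq k adj adj') :
    ∃ e : V ≃ W, ∀ a b, adj' (e a) (e b) = adj a b := iso_of_jeq hk hc h

/-- colour refinement is coarser than dimension two -/
theorem CREquiv_of_JEquiv {n m : ℕ} {G : Fin n → Fin n → Bool} {H : Fin m → Fin m → Bool}
    (hk : 2 ≤ k) (h : JEquiv k G H) : CREquiv G H :=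
  crequiv_of_jeq hk ((jequiv_iff k G H).1 h)

/-! `apexAdj p adj` is defined in `WLApex.lean` -/

theorem JEq_apex {adj : V → V → Bool} {adj' : W → W → Bool} (p : ℕ) (hk : 4 ≤ k)
    (hs : ∀ a b, adj a b = adj b a) (hl : ∀ a, adj a a = false) (hn : ∀ a, ∃ b, adj a b = true)
    (hc : ∀ a, ∃ b, a ≠ b ∧ adj a b = false)
    (hs' : ∀ a b, adj' a b = adj' b a) (hl' : ∀ a, adj' a a = false)
    (hn' : ∀ a, ∃ b, adj' a b = true) (hc' : ∀ a, ∃ b, a ≠ b ∧ adj' a b = false) :
    JEq k (apexAdj p adj) (apexAdj p adj') ↔ JEq k adj adj' :=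
  ⟨jeq_of_jeq_apex hn hc hn' hc' (by omega), jeq_apex_of_jeq (by omega) p⟩

theorem SEq_apex {adj : V → V → Bool} {adj' : W → W → Bool} (p : ℕ) (hk : 4 ≤ k)
    (hs : ∀ a b, adj a b = adj b a) (hl : ∀ a, adj a a = false) (hn : ∀ a, ∃ b, adj a b = true)
    (hc : ∀ a, ∃ b, a ≠ b ∧ adj a b = false)
    (hs' : ∀ a b, adj' a b = adj' b a) (hl' : ∀ a, adj' a a = false)
    (hn' : ∀ a, ∃ b, adj' a b = true) (hc' : ∀ a, ∃ b, a ≠ b ∧ adj' a b = false) :
    SEq k (apexAdj p adj) (apexAdj p adj') ↔ SEq k adj adj' :=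
  ⟨seq_of_seq_apex hn hc hn' hc' (by omega), seq_apex_of_seq (by omega) p⟩

/-- matrix of a graph along a complete list of vertices without repetitions -/
def matOf {V : Type} (L : List V) (adj : V → V → Bool) : Fin L.length → Fin L.length → Bool :=
  fun i j => adj (L.get i) (L.get j)

/-- the enumeration of a complete list without repetitions -/
def getE {V : Type} [DecidableEq V] (L : List V) (hL : L.Nodup) (hLc : ∀ v, v ∈ L) :
    V ≃ Fin L.length := (hL.getEquivOfForallMemList L hLc).symm

omit [Fintype V] in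
theorem matOf_getE (L : List V) (hL : L.Nodup) (hLc : ∀ v, v ∈ L) (adj : V → V → Bool) (a b : V) :
    matOf L adj (getE L hL hLc a) (getE L hL hLc b) = adj a b := by
  have h : ∀ a, L.get (getE L hL hLc a) = a := fun a =>
    (hL.getEquivOfForallMemList L hLc).apply_symm_apply a
  unfold matOf
  rw [h, h]

/-- relabelling -/
theorem JEq_matOf {adj : V → V → Bool} {adj' : W → W → Bool} {L : List V} {L' : List W}
    (hL : L.Nodup) (hLc : ∀ v, v ∈ L) (hL' : L'.Nodup) (hLc' : ∀ v, v ∈ L') :
    JEquiv k (matOf L adj) (matOf L' adj') ↔ JEq k adj adj' :=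
  jEquiv_of_relabel k adj adj' _ _ (getE L hL hLc) (getE L' hL' hLc')
    (matOf_getE L hL hLc adj) (matOf_getE L' hL' hLc' adj')

theorem SEq_matOf {adj : V → V → Bool} {adj' : W → W → Bool} {L : List V} {L' : List W}
    (hL : L.Nodup) (hLc : ∀ v, v ∈ L) (hL' : L'.Nodup) (hLc' : ∀ v, v ∈ L') :
    SEquiv k (matOf L adj) (matOf L' adj') ↔ SEq k adj adj' :=
  sEquiv_of_relabel k adj adj' _ _ (getE L hL hLc) (getE L' hL' hLc')
    (matOf_getE L hL hLc adj) (matOf_getE L' hL' hLc' adj')

/-- the apex graph is simple, connected, of diameter at most two -/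
theorem apex_diamTwo {adj : V → V → Bool} (p : ℕ) {L : List (V ⊕ Fin (p + 1))} (hL : L.Nodup)
    (hLc : ∀ v, v ∈ L) (hs : ∀ a b, adj a b = adj b a) (hl : ∀ a, adj a a = false) :
    SimpleConnDiamTwo (matOf L (apexAdj p adj)) := by
  have hsym : ∀ a b, apexAdj p adj a b = apexAdj p adj b a := by
    intro a b
    rcases a with a | a <;> rcases b with b | b
    · exact hs a b
    · rfl
    · rfl
    · exact Bool.xor_comm _ _
  have hirr : ∀ a, apexAdj p adj a a = false := by
    intro a
    rcases a with a | a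
    · exact hl a
    · exact Bool.xor_self _
  have hap : ∀ a, a ≠ Sum.inr 0 → apexAdj p adj a (Sum.inr 0) = true := by
    intro a ha
    rcases a with a | a
    · simp [apexAdj]
    · have : a.val ≠ 0 := by
        intro h
        apply ha
        rw [Fin.ext (h.trans rfl : a.val = (0 : Fin (p + 1)).val)]
      simp [apexAdj, this]
  obtain ⟨c, hc⟩ := List.get_of_mem (hLc (Sum.inr 0 : V ⊕ Fin (p + 1)))
  have hne : ∀ v : Fin L.length, v ≠ c → L.get v ≠ Sum.inr 0 := by
    intro v hv h
    apply hv
    exact (List.nodup_iff_injective_get.1 hL) (h.trans hc.symm)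
  have hcadj : ∀ v : Fin L.length, v ≠ c → matOf L (apexAdj p adj) v c = true := by
    intro v hv
    unfold matOf
    rw [hc]
    exact hap _ (hne v hv)
  refine ⟨⟨fun v w => hsym _ _, fun v => hirr _⟩, ?_, ?_⟩
  · rw [SimpleGraph.connected_iff_exists_forall_reachable]
    refine ⟨c, fun w => ?_⟩
    by_cases hw : w = c
    · rw [hw]
    · apply SimpleGraph.Adj.reachable
      unfold adjGraph
      rw [SimpleGraph.fromRel_adj]
      exact ⟨fun h => hw h.symm, Or.inr (hcadj w hw)⟩
  · intro v w hvw
    by_cases hw : w = c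
    · left
      rw [hw]
      apply hcadj
      rw [← hw]
      exact hvw
    · by_cases hv : v = c
      · left
        rw [hv]
        have := hcadj w hw
        unfold matOf at this ⊢
        rw [hsym]
        exact this
      · right
        refine ⟨c, hcadj v hv, ?_⟩
        have := hcadj w hw
        unfold matOf at this ⊢
        rw [hsym]
        exact this

end Crest.Agent.R290
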