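import Crest.Agent.R290.Defs

/-!
Row 290, module B (helper68): bisimulations.

`JBis k adj adj' H` : joint bisimulation on pairs of `k`-tuples; `SBis` : separate.
* `jeq_of_bis` : ONE related pair gives `JEq`.
* `exists_jbis` : `JEq` gives a bisimulation and a total bijection of the tuples.
* `jeq_iff_seq_succ` : `JEq k ↔ SEq (k + 1)` for `2 ≤ k`.
-/
set_option autoImplicit false

namespace Crest.Agent.R290.BB

open Crest.WLRefine Finset

section
variable {V W : Type} [Fintype V] [DecidableEq V] [Fintype W] [DecidableEq W]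

/-- joint bisimulation -/
def JBis (k : ℕ) (adj : V → V → Bool) (adj' : W → W → Bool)
    (H : (Fin k → V) → (Fin k → W) → Prop) : Prop :=
  (∀ v w, H v w → gatom adj v = gatom adj' w) ∧
  (∀ v w, H v w → ∃ e : V ≃ W, ∀ z i, H (Function.update v i z) (Function.update w i (e z)))

/-- separate bisimulation -/
def SBis (k : ℕ) (adj : V → V → Bool) (adj' : W → W → Bool)
    (H : (Fin k → V) → (Fin k → W) → Prop) : Prop :=
  (∀ v w, H v w → gatom adj v = gatom adj' w) ∧
  (∀ v w, H v w → ∀ i, ∃ e : V ≃ W, ∀ z, H (Function.update v i z) (Function.update w i (e z)))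

omit [DecidableEq V] [DecidableEq W] in
theorem map_univ_of_equiv {α : Type*} (f : V → α) (g : W → α) (e : V ≃ W)
    (h : ∀ v, g (e v) = f v) :
    (univ : Finset V).val.map f = (univ : Finset W).val.map g := by
  have h1 : f = g ∘ e := by funext v; exact (h v).symm
  rw [h1, ← Multiset.map_map, Multiset.map_univ_val_equiv]

omit [DecidableEq V] [DecidableEq W] in
theorem exists_equiv_of_map {α : Type*} (f : V → α) (g : W → α)
    (h : (univ : Finset V).val.map f = (univ : Finset W).val.map g) :
    ∃ e : V ≃ W, ∀ v, g (e v) = f v := by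
  classical
  have hc : ∀ c, Nonempty ({v // f v = c} ≃ {w // g w = c}) := by
    intro c
    apply Fintype.card_eq.mp
    have h2 := congrArg (Multiset.count c) h
    rw [Multiset.count_map, Multiset.count_map] at h2
    rw [Fintype.card_subtype, Fintype.card_subtype]
    simp only [Finset.card_def, Finset.filter_val]
    rw [Multiset.filter_congr (fun x _ => (eq_comm : f x = c ↔ c = f x)), h2,
      Multiset.filter_congr (fun x _ => (eq_comm : c = g x ↔ g x = c))]
  let φ := fun c => (hc c).some
  refine ⟨(Equiv.sigmaFiberEquiv f).symm.trans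
    ((Equiv.sigmaCongrRight fun c => φ c).trans (Equiv.sigmaFiberEquiv g)), fun v => ?_⟩
  exact (φ (f v) ⟨v, rfl⟩).2

omit [Fintype V] [Fintype W] in
theorem JBis.sbis {k : ℕ} {adj : V → V → Bool} {adj' : W → W → Bool}
    {H : (Fin k → V) → (Fin k → W) → Prop} (hH : JBis k adj adj' H) : SBis k adj adj' H :=
  ⟨hH.1, fun v w h i => (hH.2 v w h).imp fun _ he z => he z i⟩

/-- related tuples have the same colours -/
theorem gj_of_bis {k : ℕ} {adj : V → V → Bool} {adj' : W → W → Bool}
    {H : (Fin k → V) → (Fin k → W) → Prop} (hH : JBis k adj adj' H) (s : ℕ) :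
    ∀ v w, H v w → gj adj k s v = gj adj' k s w := by
  induction s with
  | zero => exact hH.1
  | succ s ih =>
    intro v w h
    obtain ⟨e, he⟩ := hH.2 v w h
    simp only [gj]
    refine Prod.ext (ih v w h) ?_
    refine map_univ_of_equiv _ _ e fun z => ?_
    funext i
    exact (ih _ _ (he z i)).symm

theorem gs_of_bis {k : ℕ} {adj : V → V → Bool} {adj' : W → W → Bool}
    {H : (Fin k → V) → (Fin k → W) → Prop} (hH : SBis k adj adj' H) (s : ℕ) :
    ∀ v w, H v w → gs adj k s v = gs adj' k s w := by
  induction s with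
  | zero => exact hH.1
  | succ s ih =>
    intro v w h
    simp only [gs]
    refine Prod.ext (ih v w h) ?_
    funext i
    obtain ⟨e, he⟩ := hH.2 v w h i
    refine map_univ_of_equiv _ _ e fun z => ?_
    exact (ih _ _ (he z)).symm

omit [Fintype V] [Fintype W] in
/-- one related pair extends to a bijection of all tuples inside the bisimulation -/
theorem exists_equiv_of_related {k : ℕ} (H : (Fin k → V) → (Fin k → W) → Prop)
    (hH : ∀ v w, H v w → ∀ i, ∃ e : V ≃ W, ∀ z,
      H (Function.update v i z) (Function.update w i (e z))) (T : Finset (Fin k)) :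
    ∀ v w, H v w → ∃ Φ : {u : Fin k → V // ∀ i, i ∉ T → u i = v i} ≃
      {u : Fin k → W // ∀ i, i ∉ T → u i = w i}, ∀ u, H u.1 (Φ u).1 := by
  induction T using Finset.induction_on with
  | empty =>
    intro v w h
    refine ⟨⟨fun _ => ⟨w, fun _ _ => rfl⟩, fun _ => ⟨v, fun _ _ => rfl⟩, ?_, ?_⟩, ?_⟩
    · rintro ⟨u, hu⟩
      have : u = v := by funext i; exact hu i (by simp)
      subst this; rfl
    · rintro ⟨u, hu⟩
      have : u = w := by funext i; exact hu i (by simp)
      subst this; rfl
    · rintro ⟨u, hu⟩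
      have : u = v := by funext i; exact hu i (by simp)
      subst this; exact h
  | insert a T ha ih =>
    intro v w h
    obtain ⟨e, he⟩ := hH v w h a
    choose φ hφ using fun z => ih _ _ (he z)
    have key : ∀ {U : Type} [DecidableEq U] (x : Fin k → U),
        ∃ E : {u : Fin k → U // ∀ i, i ∉ insert a T → u i = x i} ≃
          Σ z : U, {u : Fin k → U // ∀ i, i ∉ T → u i = Function.update x a z i},
          ∀ u, (E u).2.1 = u.1 := by
      intro U _ x
      refine ⟨⟨fun u => ⟨u.1 a, ⟨u.1, ?_⟩⟩, fun p => ⟨p.2.1, ?_⟩, ?_, ?_⟩, ?_⟩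
      · intro i hi
        by_cases hia : i = a
        · subst hia; simp
        · rw [Function.update_of_ne hia]
          exact u.2 i (by simp [hia, hi])
      · intro i hi
        rw [Finset.mem_insert, not_or] at hi
        rw [p.2.2 i hi.2, Function.update_of_ne hi.1]
      · intro u; rfl
      · rintro ⟨z, u, hu⟩
        have hz : u a = z := by rw [hu a ha]; simp
        subst hz; rfl
      · intro u; rfl
    obtain ⟨E1, hE1⟩ := key v
    obtain ⟨E2, hE2⟩ := key w
    refine ⟨E1.trans (((Equiv.sigmaCongrRight fun z => φ z).trans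
      (Equiv.sigmaCongrLeft (β := fun z => {u : Fin k → W // ∀ i, i ∉ T →
        u i = Function.update w a z i}) e)).trans E2.symm), ?_⟩
    intro u
    have h1 := hφ (E1 u).1 (E1 u).2
    rw [hE1] at h1
    have h2 := hE2 (E2.symm ((Equiv.sigmaCongrLeft (β := fun z => {u : Fin k → W // ∀ i, i ∉ T →
        u i = Function.update w a z i}) e) ((Equiv.sigmaCongrRight fun z => φ z) (E1 u))))
    rw [Equiv.apply_symm_apply] at h2
    simp only [Equiv.trans_apply]
    rw [← h2]
    exact h1

omit [Fintype V] [Fintype W] in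
theorem exists_tuple_equiv {k : ℕ} (H : (Fin k → V) → (Fin k → W) → Prop)
    (hH : ∀ v w, H v w → ∀ i, ∃ e : V ≃ W, ∀ z,
      H (Function.update v i z) (Function.update w i (e z))) {v : Fin k → V} {w : Fin k → W}
    (h : H v w) : ∃ Φ : (Fin k → V) ≃ (Fin k → W), ∀ u, H u (Φ u) := by
  obtain ⟨Φ, hΦ⟩ := exists_equiv_of_related H hH Finset.univ v w h
  refine ⟨((Equiv.subtypeUnivEquiv (fun u i hi => absurd (Finset.mem_univ i) hi)).symm.trans Φ).trans
    (Equiv.subtypeUnivEquiv (fun u i hi => absurd (Finset.mem_univ i) hi)), ?_⟩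
  intro u
  exact hΦ ⟨u, fun i hi => absurd (Finset.mem_univ i) hi⟩

/-- ONE related pair gives joint equivalence -/
theorem jeq_of_bis {k : ℕ} {adj : V → V → Bool} {adj' : W → W → Bool}
    {H : (Fin k → V) → (Fin k → W) → Prop} (hH : JBis k adj adj' H)
    {v : Fin k → V} {w : Fin k → W} (h : H v w) : JEq k adj adj' := by
  obtain ⟨Φ, hΦ⟩ := exists_tuple_equiv H hH.sbis.2 h
  intro s
  exact map_univ_of_equiv _ _ Φ fun u => (gj_of_bis hH s _ _ (hΦ u)).symm

/-- ONE related pair gives separate equivalence -/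
theorem seq_of_bis {k : ℕ} {adj : V → V → Bool} {adj' : W → W → Bool}
    {H : (Fin k → V) → (Fin k → W) → Prop} (hH : SBis k adj adj' H)
    {v : Fin k → V} {w : Fin k → W} (h : H v w) : SEq k adj adj' := by
  obtain ⟨Φ, hΦ⟩ := exists_tuple_equiv H hH.2 h
  intro s
  exact map_univ_of_equiv _ _ Φ fun u => (gs_of_bis hH s _ _ (hΦ u)).symm

/-- pigeonhole: a decreasing sequence of nonempty sets of elements of a finite type -/
theorem exists_forall_of_antitone {α : Type*} [Finite α] (P : ℕ → α → Prop)
    (hmono : ∀ s a, P (s + 1) a → P s a) (hex : ∀ s, ∃ a, P s a) : ∃ a, ∀ s, P s a := by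
  by_contra hcon
  push Not at hcon
  choose f hf using hcon
  obtain ⟨B, hB⟩ := (Set.finite_range f).bddAbove
  obtain ⟨a, ha⟩ := hex B
  have hm : ∀ t s, P (s + t) a → P s a := by
    intro t
    induction t with
    | zero => intro s h; exact h
    | succ t ih => intro s h; exact ih s (hmono _ _ h)
  have hfa : f a ≤ B := hB ⟨a, rfl⟩
  apply hf a
  apply hm (B - f a)
  rwa [Nat.add_sub_cancel' hfa]

/-- equality of all joint colours -/
def JRel (k : ℕ) (adj : V → V → Bool) (adj' : W → W → Bool) (v : Fin k → V) (w : Fin k → W) :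
    Prop := ∀ s, gj adj k s v = gj adj' k s w

def SRel (k : ℕ) (adj : V → V → Bool) (adj' : W → W → Bool) (v : Fin k → V) (w : Fin k → W) :
    Prop := ∀ s, gs adj k s v = gs adj' k s w

theorem jbis_jrel (k : ℕ) (adj : V → V → Bool) (adj' : W → W → Bool) :
    JBis k adj adj' (JRel k adj adj') := by
  refine ⟨fun v w h => h 0, fun v w h => ?_⟩
  suffices hx : ∃ e : V ≃ W, ∀ s, ∀ z i, gj adj k s (Function.update v i z) =
      gj adj' k s (Function.update w i (e z)) by
    obtain ⟨e, he⟩ := hx
    exact ⟨e, fun z i s => he s z i⟩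
  apply exists_forall_of_antitone (α := V ≃ W)
    (fun s e => ∀ z i, gj adj k s (Function.update v i z) =
      gj adj' k s (Function.update w i (e z)))
  · intro s e he z i
    have := he z i
    simp only [gj] at this
    exact congrArg Prod.fst this
  · intro s
    have h1 := h (s + 1)
    simp only [gj] at h1
    obtain ⟨e, he⟩ := exists_equiv_of_map _ _ (congrArg Prod.snd h1)
    exact ⟨e, fun z i => (congrFun (he z) i).symm⟩

theorem sbis_srel (k : ℕ) (adj : V → V → Bool) (adj' : W → W → Bool) :
    SBis k adj adj' (SRel k adj adj') := by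
  refine ⟨fun v w h => h 0, fun v w h i => ?_⟩
  suffices hx : ∃ e : V ≃ W, ∀ s, ∀ z, gs adj k s (Function.update v i z) =
      gs adj' k s (Function.update w i (e z)) by
    obtain ⟨e, he⟩ := hx
    exact ⟨e, fun z s => he s z⟩
  apply exists_forall_of_antitone (α := V ≃ W)
    (fun s e => ∀ z, gs adj k s (Function.update v i z) =
      gs adj' k s (Function.update w i (e z)))
  · intro s e he z
    have := he z
    simp only [gs] at this
    exact congrArg Prod.fst this
  · intro s
    have h1 := h (s + 1)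
    simp only [gs] at h1
    obtain ⟨e, he⟩ := exists_equiv_of_map _ _ (congrFun (congrArg Prod.snd h1) i)
    exact ⟨e, fun z => (he z).symm⟩

/-- equivalence gives a bisimulation (equality of all colours) and a total bijection -/
theorem JEq.exists_equiv {k : ℕ} {adj : V → V → Bool} {adj' : W → W → Bool}
    (h : JEq k adj adj') : ∃ Φ : (Fin k → V) ≃ (Fin k → W), ∀ u, JRel k adj adj' u (Φ u) := by
  suffices hx : ∃ Φ : (Fin k → V) ≃ (Fin k → W), ∀ s, ∀ u, gj adj k s u = gj adj' k s (Φ u) by
    obtain ⟨Φ, hΦ⟩ := hx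
    exact ⟨Φ, fun u s => hΦ s u⟩
  apply exists_forall_of_antitone (α := (Fin k → V) ≃ (Fin k → W))
    (fun s Φ => ∀ u, gj adj k s u = gj adj' k s (Φ u))
  · intro s e he z
    have := he z
    simp only [gj] at this
    exact congrArg Prod.fst this
  · intro s
    obtain ⟨e, he⟩ := exists_equiv_of_map _ _ (h s)
    exact ⟨e, fun z => (he z).symm⟩

theorem SEq.exists_equiv {k : ℕ} {adj : V → V → Bool} {adj' : W → W → Bool}
    (h : SEq k adj adj') : ∃ Φ : (Fin k → V) ≃ (Fin k → W), ∀ u, SRel k adj adj' u (Φ u) := by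
  suffices hx : ∃ Φ : (Fin k → V) ≃ (Fin k → W), ∀ s, ∀ u, gs adj k s u = gs adj' k s (Φ u) by
    obtain ⟨Φ, hΦ⟩ := hx
    exact ⟨Φ, fun u s => hΦ s u⟩
  apply exists_forall_of_antitone (α := (Fin k → V) ≃ (Fin k → W))
    (fun s Φ => ∀ u, gs adj k s u = gs adj' k s (Φ u))
  · intro s e he z
    have := he z
    simp only [gs] at this
    exact congrArg Prod.fst this
  · intro s
    obtain ⟨e, he⟩ := exists_equiv_of_map _ _ (h s)
    exact ⟨e, fun z => (he z).symm⟩

end

end Crest.Agent.R290.BB
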