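import Crest.Agent.R290.CThin

/-!
Row 290, MODULE C (Duplicator), from the abstract part (CFam.lean, helper51) and the concrete part
(CInst.lean, CThin.lean, helper77).
-/
set_option autoImplicit false

namespace Crest.Agent.R290

theorem dup {r : ℕ} (R : RSys r) {A m : ℕ} (hR : R.WF A) (hm : 2 * r < m) (_hm4 : 4 ≤ m)
    (hd : ¬ Der R R.goal.1 R.goal.2) : (csys R m).Cons m :=
  dupC R hR hm hd

end Crest.Agent.R290
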