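import Crest.Agent.R290.CAlw

/-!
Row 290, module C, piece C_KEYJ: THE JUNCTION NODE, EVERYTHING PINNED (statements helper51).

`w = jn γ d t₀` is a new node and its three starts are pinned.  Then there are allowed values with sum 0.

PROOF of `keyJ_code`.  `beta = none` (`js_beta`), so each of the three starts is owned by `S` at `d` or `ThrSt S d (js γ k) tₖ`, `tₖ d = t₀`.
 At most one start is owned at `d`: an owner is a slab node `sl (js γ k) d t₀` (`own_st`; `js_inj` shows that a junction owner would be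
 `jn γ d t₀ = w ∉ S`), two different ones and `w` would be three nodes (`Sp.two`). The codewords `tₖ` of the others are equal, `= t`
 (`thrSt_uniq`). Let `i ≠ d`.
 (1) one start owned at `d` by `n ∈ S`: `n, w` are two nodes of the digit `d`, so digit `i` has at most one (`Sp.three`): the owners of the two other
     starts at `(i, t i)` coincide; a node which owns two different starts of `γ` is a junction node `jn γ' i (t i)`, `γ' = γ` by `js_inj`.
 (2) none owned: three owners at the digit `i`, two of them coincide (`Sp.two`): again `jn γ i (t i)`.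
PROOF of `keyJ`.  `X_k := ∑_{i≠d} A(st (js γ k) i (t i))`; the constraints of `jn γ i (t i)`, `i ≠ d`, give `X_0 + X_1 + X_2 = 0`. Because `jn γ i (t i) ∈ S`
 owns all three starts, `ThrSt S d (js γ k) t` for every `k`, and it is the only codeword with `t d = t₀` (`thrSt_uniq`). If the start `k` is owned by `S` at
 `d`: let `v := A (st (js γ k) d t₀) + X_k ∈ D` (`alwSt_ne` and `AlwSt.vis`, `.own`), `arc` gives `f` with `f k = v`; take
 `g l := f l + X_l`; `g k = A(..)` is allowed by `alwSt_ne`, the others are not owned (see above), `beta = none`, `vis` holds by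
 construction. If no start is owned: take `k = 0`, `v ∈ D` (`D_ne`), the same.
-/
set_option autoImplicit false

namespace Crest.Agent.R290.FS

open Finset

variable {F : FS}

/-- an owner at `d` is a slab node -/
private theorem ownd {S : Finset F.Nd} {γ : F.Jn} {d : Fin F.m} {t₀ : ℕ}
    (hw : Nd.jn γ d t₀ ∉ S) {k : Fin 3} (h : ∃ n ∈ S, n.Own (.st (F.js γ k) d t₀)) :
    Nd.sl (F.js γ k) d t₀ ∈ S := by
  obtain ⟨n, hn, hn'⟩ := h
  rcases own_st.1 hn' with rfl | ⟨γ', k', h1, rfl⟩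
  · exact hn
  · rw [(F.js_inj _ _ _ _ h1).1] at hn
    exact absurd hn hw

/-- at most one start is owned at `d` -/
private theorem ownd_uniq {S : Finset F.Nd} {γ : F.Jn} {d : Fin F.m} {t₀ : ℕ}
    (hT : Sp (insert (.jn γ d t₀) S)) (hw : Nd.jn γ d t₀ ∉ S) {k k' : Fin 3}
    (h : ∃ n ∈ S, n.Own (.st (F.js γ k) d t₀)) (h' : ∃ n ∈ S, n.Own (.st (F.js γ k') d t₀)) :
    k = k' := by
  have e1 := ownd hw h
  have e2 := ownd hw h'
  rcases hT.two _ (mem_insert_of_mem e1) _ (mem_insert_of_mem e2) _ (mem_insert_self _ _) rfl rfl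
    with h3 | h3 | h3
  · simp only [Nd.sl.injEq, and_true] at h3
    exact (F.js_inj _ _ _ _ h3).2
  · exact absurd h3 (by simp)
  · exact absurd h3 (by simp)

private theorem thr_of {S : Finset F.Nd} {γ : F.Jn} {d : Fin F.m} {t₀ : ℕ}
    (h1 : ∀ k, PinSt S (F.js γ k) d t₀) {k : Fin 3}
    (h : ¬ ∃ n ∈ S, n.Own (.st (F.js γ k) d t₀)) : ∃ t, ThrSt S d (F.js γ k) t ∧ t d = t₀ := by
  rcases h1 k with h2 | h2 | h2
  · exact absurd h2 h
  · exact absurd (F.js_beta γ k d) h2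
  · exact h2

/-- a node which owns two starts is a junction node -/
private theorem two_own {n : F.Nd} {γ : F.Jn} {i : Fin F.m} {s : ℕ} {k k' : Fin 3} (hk : k ≠ k')
    (h : n.Own (.st (F.js γ k) i s)) (h' : n.Own (.st (F.js γ k') i s)) : n = .jn γ i s := by
  rcases own_st.1 h with rfl | ⟨γ', k'', h1, rfl⟩
  · rcases own_st.1 h' with h2 | ⟨_, _, _, h2⟩
    · simp only [Nd.sl.injEq, and_true] at h2
      exact absurd (F.js_inj _ _ _ _ h2).2 hk
    · exact absurd h2 (by simp)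
  · rw [(F.js_inj _ _ _ _ h1).1]

theorem keyJ_code {S : Finset F.Nd} {γ : F.Jn} {d : Fin F.m} {t₀ : ℕ}
    (hT : Sp (insert (.jn γ d t₀) S)) (hw : Nd.jn γ d t₀ ∉ S)
    (h1 : ∀ k, PinSt S (F.js γ k) d t₀) :
    ∃ t : Fin F.m → ℕ, Code t ∧ (∀ i, t i < F.num (F.js γ 0) i) ∧ t d = t₀ ∧
      ∀ i, i ≠ d → Nd.jn γ i (t i) ∈ S := by
  have hS : Sp S := hT.mono (subset_insert _ _)
  by_cases hO : ∃ k, ∃ n ∈ S, n.Own (.st (F.js γ k) d t₀)
  · obtain ⟨k0, hk0⟩ := hO
    have hne : ∀ k, k ≠ k0 → ¬ ∃ n ∈ S, n.Own (.st (F.js γ k) d t₀) :=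
      fun k hk h => hk (ownd_uniq hT hw h hk0)
    obtain ⟨k1, k2, hk1, hk2, h12⟩ : ∃ k1 k2 : Fin 3, k1 ≠ k0 ∧ k2 ≠ k0 ∧ k1 ≠ k2 := by
      have hdec : ∀ k : Fin 3, ∃ k1 k2 : Fin 3, k1 ≠ k ∧ k2 ≠ k ∧ k1 ≠ k2 := by decide
      exact hdec k0
    obtain ⟨t, ht, htd⟩ := thr_of h1 (hne k1 hk1)
    obtain ⟨t', ht', htd'⟩ := thr_of h1 (hne k2 hk2)
    have e : t = t' := thrSt_uniq hS ht ht' (htd.trans htd'.symm)
    subst e
    refine ⟨t, ht.1, fun i => by rw [← F.js_num γ k1]; exact ht.2.1 i, htd, fun i hi => ?_⟩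
    obtain ⟨n1, hn1, hn1'⟩ := ht.2.2 i hi
    obtain ⟨n2, hn2, hn2'⟩ := ht'.2.2 i hi
    have hn0 := ownd hw hk0
    rcases hT.three _ (mem_insert_of_mem hn0) _ (mem_insert_self _ _) _ (mem_insert_of_mem hn1) _
      (mem_insert_of_mem hn2) rfl ((dig_of_own_st hn1').trans (dig_of_own_st hn2').symm)
      (by rw [dig_of_own_st hn1']; exact fun h => hi h.symm) with h3 | h3
    · exact absurd h3 (by simp)
    · subst h3
      rw [← two_own h12 hn1' hn2']
      exact hn1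
  · have hne : ∀ k, ¬ ∃ n ∈ S, n.Own (.st (F.js γ k) d t₀) := fun k hk => hO ⟨k, hk⟩
    obtain ⟨t, ht, htd⟩ := thr_of h1 (hne 0)
    obtain ⟨t', ht', htd'⟩ := thr_of h1 (hne 1)
    obtain ⟨t'', ht'', htd''⟩ := thr_of h1 (hne 2)
    have e : t = t' := thrSt_uniq hS ht ht' (htd.trans htd'.symm)
    subst e
    have e : t = t'' := thrSt_uniq hS ht ht'' (htd.trans htd''.symm)
    subst e
    refine ⟨t, ht.1, ht.2.1, htd, fun i hi => ?_⟩
    obtain ⟨n1, hn1, hn1'⟩ := ht.2.2 i hi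
    obtain ⟨n2, hn2, hn2'⟩ := ht'.2.2 i hi
    obtain ⟨n3, hn3, hn3'⟩ := ht''.2.2 i hi
    rcases hS.two _ hn1 _ hn2 _ hn3 ((dig_of_own_st hn1').trans (dig_of_own_st hn2').symm)
      ((dig_of_own_st hn1').trans (dig_of_own_st hn3').symm) with h3 | h3 | h3
    · subst h3
      rw [← two_own (by decide : (0 : Fin 3) ≠ 1) hn1' hn2']
      exact hn1
    · subst h3
      rw [← two_own (by decide : (0 : Fin 3) ≠ 2) hn1' hn3']
      exact hn1
    · subst h3
      rw [← two_own (by decide : (1 : Fin 3) ≠ 2) hn2' hn3']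
      exact hn2

theorem keyJ {S : Finset F.Nd} {A : F.As} {γ : F.Jn} {d : Fin F.m} {t₀ : ℕ}
    (hT : Sp (insert (.jn γ d t₀) S)) (hw : Nd.jn γ d t₀ ∉ S)
    (hA : ∀ n ∈ S, n.Ok A) (hvis : Vis S A) (h1 : ∀ k, PinSt S (F.js γ k) d t₀) :
    ∃ g : Fin 3 → ZMod 2, (∀ k, AlwSt S A (F.js γ k) d t₀ (g k)) ∧ g 0 + g 1 + g 2 = 0 := by
  have hS : Sp S := hT.mono (subset_insert _ _)
  obtain ⟨t, hc, hr, htd, hj⟩ := keyJ_code hT hw h1
  have hr' : ∀ k i, t i < F.num (F.js γ k) i := fun k i => by rw [F.js_num]; exact hr i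
  have hthr : ∀ k, ThrSt S d (F.js γ k) t := fun k =>
    ⟨hc, hr' k, fun i hi => ⟨_, hj i hi, k, rfl⟩⟩
  set X : Fin 3 → ZMod 2 := fun k => ∑ i ∈ univ.erase d, A (.st (F.js γ k) i (t i)) with hX
  have hX0 : X 0 + X 1 + X 2 = 0 := by
    simp only [hX]
    rw [← sum_add_distrib, ← sum_add_distrib]
    exact sum_eq_zero fun i hi => hA _ (hj i (mem_erase.1 hi).1)
  have hXX : ∀ k, X k + X k = 0 := fun k => CharTwo.add_self_eq_zero _
  obtain ⟨k0, hk0⟩ : ∃ k0 : Fin 3, ∀ l, l ≠ k0 → ¬ ∃ n ∈ S, n.Own (.st (F.js γ l) d t₀) := by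
    by_cases hO : ∃ k, ∃ n ∈ S, n.Own (.st (F.js γ k) d t₀)
    · obtain ⟨k0, hk0⟩ := hO
      exact ⟨k0, fun k hk h => hk (ownd_uniq hT hw h hk0)⟩
    · exact ⟨0, fun k _ hk => hO ⟨k, hk⟩⟩
  obtain ⟨v0, hv0⟩ := alwSt_ne hS hA hvis (F.js γ k0) d t₀
  obtain ⟨f, hf0, hfD, hfs⟩ := F.arc γ t hc hr k0 (v0 + X k0) (hv0.vis t (hthr k0) htd)
  refine ⟨fun l => f l + X l, fun l => ?_, ?_⟩
  · show AlwSt S A (F.js γ l) d t₀ (f l + X l)
    by_cases hl : l = k0
    · subst hl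
      have : f l + X l = v0 := by rw [hf0, add_assoc, hXX, add_zero]
      rw [this]
      exact hv0
    · refine ⟨fun n hn hn' => absurd ⟨n, hn, hn'⟩ (hk0 l hl), fun b hb => ?_, fun t' ht' htd' => ?_⟩
      · rw [F.js_beta] at hb
        exact absurd hb (by simp)
      · have e : t' = t := thrSt_uniq hS ht' (hthr l) (htd'.trans htd.symm)
        subst e
        have : f l + X l + ∑ i ∈ univ.erase d, A (.st (F.js γ l) i (t' i)) = f l := by
          have h2 : ∑ i ∈ univ.erase d, A (.st (F.js γ l) i (t' i)) = X l := rfl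
          rw [h2, add_assoc, hXX, add_zero]
        rw [this]
        exact hfD l
  · calc f 0 + X 0 + (f 1 + X 1) + (f 2 + X 2) = (f 0 + f 1 + f 2) + (X 0 + X 1 + X 2) := by ring
      _ = 0 := by rw [hfs, hX0, add_zero]

end Crest.Agent.R290.FS
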