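import Crest.Agent.R290.CKeyS
import Crest.Agent.R290.CKeyJ

/-!
Row 290, module C, piece C_ADD: ADDING A NODE WHEN ALL DIGITS ARE COVERED (statements helper51).

PROOF of `add_sl` (`w = sl σ d t₀`; own variables: `x₁ = st σ d t₀`, `x₂ = hb (pr σ) d (lab σ d t₀)`, laterals `latv σ d j t₀`, `j ≠ d`,
pairwise different).  `A' := A` with `x₁ ↦ a`, `x₂ ↦ b`, `a` and `b` allowed (`alwSt_ne`, `alwHb_ne`; then `A' x₁ = A x₁` if `x₁` is
owned by `S`: `Agr`), and possibly one free lateral changed. `Vis (insert w S) A'` is `vis_insert` (`own_st`, `own_hb` : `w` owns only these two).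
 * some lateral `latv σ d j t₀` is not owned by `S`: change it to satisfy the parity.
 * all are owned, the start is not pinned: `b` allowed, `a :=` parity (`alwSt_of_not_pin`); the `beta` part of `Ok` is `AlwSt.beta`.
 * all are owned, the hub is not pinned: `a` allowed, `b :=` parity.
 * all are owned, both pinned: `keyS`.
PROOF of `add_jn` (`w = jn γ d t₀`, own variables `st (js γ k) d t₀`, `k < 3`, different by `js_inj`): if some start is not pinned: the others allowed,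
 this one by parity. Otherwise `keyJ`.
-/
set_option autoImplicit false

namespace Crest.Agent.R290.FS

open Finset

variable {F : FS}

theorem agr_upd {S : Finset F.Nd} {A : F.As} {x : F.Vr} {v : ZMod 2}
    (h : ∀ n ∈ S, n.Own x → v = A x) : Agr S A (upd A x v) := by
  intro n hn y hy
  by_cases hyx : y = x
  · subst hyx
    rw [upd_self]
    exact (h n hn hy).symm
  · rw [upd_ne _ _ hyx]

theorem latv_inj {σ : F.Sl} {d j j' : Fin F.m} {t₀ : ℕ} (hj : j ≠ d) (hj' : j' ≠ d)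
    (h : latv σ d j t₀ = latv σ d j' t₀) : j = j' := by
  unfold latv at h
  have key : s(d, j) = s(d, j') → j = j' := by
    intro h'
    rw [Sym2.eq_iff] at h'
    rcases h' with h' | h'
    · exact h'.2
    · exact absurd h'.2 hj
  split_ifs at h with h1 h2 h2
  · rw [h1, h2]
  · simp only [Vr.lt.injEq] at h
    exact key h.2

/-- the new slab node, given the values of its start and hub -/
theorem sl_done {S : Finset F.Nd} {A A1 : F.As} {σ : F.Sl} {d : Fin F.m} {t₀ : ℕ}
    (hvis : Vis S A) (hA1 : Agr S A A1) {a b : ZMod 2} (ha : AlwSt S A σ d t₀ a)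
    (hb : AlwHb S A (F.pr σ) d (F.lab σ d t₀) b)
    (hsum : a + b + ∑ j ∈ univ.erase d, A1 (latv σ d j t₀) = 0)
    (h1 : A1 (.st σ d t₀) = A (.st σ d t₀))
    (h2 : A1 (.hb (F.pr σ) d (F.lab σ d t₀)) = A (.hb (F.pr σ) d (F.lab σ d t₀))) :
    ∃ A', Agr S A A' ∧ (Nd.sl σ d t₀).Ok A' ∧ Vis (insert (.sl σ d t₀) S) A' := by
  classical
  obtain ⟨A', hA'⟩ : ∃ A', A' = upd (upd A1 (.hb (F.pr σ) d (F.lab σ d t₀)) b) (.st σ d t₀) a :=
    ⟨_, rfl⟩
  have e1 : A' (.st σ d t₀) = a := by rw [hA', upd_self]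
  have e2 : A' (.hb (F.pr σ) d (F.lab σ d t₀)) = b := by
    rw [hA', upd_ne _ _ (by simp), upd_self]
  have e3 : ∀ j, A' (latv σ d j t₀) = A1 (latv σ d j t₀) := by
    intro j
    rw [hA', upd_ne _ _ (latv_ne_st _ _ _ _ _ _ _), upd_ne _ _ (latv_ne_hb _ _ _ _ _ _ _)]
  have hagr : Agr S A A' := by
    rw [hA']
    refine (hA1.trans (agr_upd (x := .hb (F.pr σ) d (F.lab σ d t₀)) (v := b) ?_)).trans
      (agr_upd ?_)
    · intro n hn ho
      rw [h2]
      exact hb.own n hn ho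
    · intro n hn ho
      rw [upd_ne _ _ (by simp), h1]
      exact ha.own n hn ho
  refine ⟨A', hagr, ⟨?_, ?_⟩, vis_insert hvis hagr ?_ ?_⟩
  · rw [e1, e2, sum_congr rfl fun j _ => e3 j]
    exact hsum
  · intro b' hb'
    rw [e1]
    exact ha.beta b' hb'
  · intro σ' t' ho
    rcases own_st.1 ho with h | ⟨γ, k, _, h⟩
    · simp only [Nd.sl.injEq] at h
      obtain ⟨rfl, -, rfl⟩ := h
      simp only [Nd.dig]
      rw [e1]
      exact ha
    · simp at h
  · intro e c ho
    obtain ⟨σ', t', h, h3, h4⟩ := own_hb.1 ho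
    simp only [Nd.sl.injEq] at h
    obtain ⟨rfl, -, rfl⟩ := h
    simp only [Nd.dig] at h3 h4 ⊢
    rw [← h3, ← h4, e2]
    exact hb

theorem add_sl {S : Finset F.Nd} {A : F.As} {σ : F.Sl} {d : Fin F.m} {t₀ : ℕ}
    (hT : Sp (insert (.sl σ d t₀) S)) (hw : Nd.sl σ d t₀ ∉ S)
    (hV : ∀ n ∈ insert (.sl σ d t₀) S, n.Val) (hA : ∀ n ∈ S, n.Ok A) (hvis : Vis S A) :
    ∃ A', Agr S A A' ∧ (Nd.sl σ d t₀).Ok A' ∧ Vis (insert (.sl σ d t₀) S) A' := by
  classical
  have hS : Sp S := hT.mono (subset_insert _ _)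
  have hV' : ∀ n ∈ S, n.Val := fun n hn => hV n (mem_insert_of_mem hn)
  by_cases hl : ∀ j, j ≠ d → ∃ n ∈ S, n.Own (latv σ d j t₀)
  · by_cases h1 : PinSt S σ d t₀
    · by_cases h2 : PinHb S (F.pr σ) d (F.lab σ d t₀)
      · obtain ⟨a, b, ha, hb, hab⟩ := keyS hT hw hV hA hvis hl h1 h2
        exact sl_done hvis (Agr.refl S A) ha hb hab rfl rfl
      · obtain ⟨a, ha⟩ := alwSt_ne hS hA hvis σ d t₀
        refine sl_done hvis (Agr.refl S A) ha
          (alwHb_of_not_pin h2 (a + ∑ j ∈ univ.erase d, A (latv σ d j t₀))) ?_ rfl rfl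
        generalize ∑ j ∈ univ.erase d, A (latv σ d j t₀) = s
        have e : a + (a + s) + s = (a + a) + (s + s) := by ring
        rw [e, CharTwo.add_self_eq_zero, CharTwo.add_self_eq_zero, add_zero]
    · obtain ⟨b, hb⟩ := alwHb_ne hS hV' hvis (F.pr σ) d (F.lab σ d t₀)
      refine sl_done hvis (Agr.refl S A)
        (alwSt_of_not_pin h1 (b + ∑ j ∈ univ.erase d, A (latv σ d j t₀))) hb ?_ rfl rfl
      generalize ∑ j ∈ univ.erase d, A (latv σ d j t₀) = s
      have e : b + s + b + s = (b + b) + (s + s) := by ring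
      rw [e, CharTwo.add_self_eq_zero, CharTwo.add_self_eq_zero, add_zero]
  · push Not at hl
    obtain ⟨j, hj, hno⟩ := hl
    obtain ⟨a, ha⟩ := alwSt_ne hS hA hvis σ d t₀
    obtain ⟨b, hb⟩ := alwHb_ne hS hV' hvis (F.pr σ) d (F.lab σ d t₀)
    obtain ⟨v, hv⟩ : ∃ v, v = a + b + ∑ j' ∈ (univ.erase d).erase j, A (latv σ d j' t₀) :=
      ⟨_, rfl⟩
    refine sl_done hvis (A1 := upd A (latv σ d j t₀) v)
      (agr_upd fun n hn ho => absurd ho (hno n hn)) ha hb ?_
      (upd_ne _ _ (latv_ne_st _ _ _ _ _ _ _).symm) (upd_ne _ _ (latv_ne_hb _ _ _ _ _ _ _).symm)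
    rw [← add_sum_erase (univ.erase d) _ (mem_erase.2 ⟨hj, mem_univ j⟩), upd_self]
    have h3 : ∑ j' ∈ (univ.erase d).erase j, upd A (latv σ d j t₀) v (latv σ d j' t₀) =
        ∑ j' ∈ (univ.erase d).erase j, A (latv σ d j' t₀) := by
      refine sum_congr rfl fun j' hj' => ?_
      rw [mem_erase, mem_erase] at hj'
      exact upd_ne _ _ fun h => hj'.1 (latv_inj hj'.2.1 hj h)
    rw [h3, hv]
    generalize ∑ j' ∈ (univ.erase d).erase j, A (latv σ d j' t₀) = s
    have key : ∀ a b s : ZMod 2, a + b + (a + b + s + s) = 0 := by decide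
    exact key a b s

/-- the new junction node, given the values of its starts -/
theorem jn_done {S : Finset F.Nd} {A : F.As} {γ : F.Jn} {d : Fin F.m} {t₀ : ℕ}
    (hvis : Vis S A) {g : Fin 3 → ZMod 2} (hg : ∀ k, AlwSt S A (F.js γ k) d t₀ (g k))
    (hsum : g 0 + g 1 + g 2 = 0) :
    ∃ A', Agr S A A' ∧ (Nd.jn γ d t₀).Ok A' ∧ Vis (insert (.jn γ d t₀) S) A' := by
  classical
  have hne : ∀ k l, k ≠ l → (Vr.st (F.js γ k) d t₀ : F.Vr) ≠ .st (F.js γ l) d t₀ := by
    intro k l hkl h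
    simp only [Vr.st.injEq] at h
    exact hkl (F.js_inj _ _ _ _ h.1).2
  obtain ⟨A', hA'⟩ : ∃ A', A' = upd (upd (upd A (.st (F.js γ 0) d t₀) (g 0))
      (.st (F.js γ 1) d t₀) (g 1)) (.st (F.js γ 2) d t₀) (g 2) := ⟨_, rfl⟩
  have e0 : A' (.st (F.js γ 0) d t₀) = g 0 := by
    rw [hA', upd_ne _ _ (hne 0 2 (by decide)), upd_ne _ _ (hne 0 1 (by decide)), upd_self]
  have e1 : A' (.st (F.js γ 1) d t₀) = g 1 := by
    rw [hA', upd_ne _ _ (hne 1 2 (by decide)), upd_self]
  have e2 : A' (.st (F.js γ 2) d t₀) = g 2 := by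
    rw [hA', upd_self]
  have ek : ∀ k, A' (.st (F.js γ k) d t₀) = g k := by
    intro k
    fin_cases k
    · exact e0
    · exact e1
    · exact e2
  have hagr : Agr S A A' := by
    rw [hA']
    refine ((agr_upd ?_).trans (agr_upd ?_)).trans (agr_upd ?_)
    · intro n hn ho
      exact (hg 0).own n hn ho
    · intro n hn ho
      rw [upd_ne _ _ (hne 1 0 (by decide))]
      exact (hg 1).own n hn ho
    · intro n hn ho
      rw [upd_ne _ _ (hne 2 1 (by decide)), upd_ne _ _ (hne 2 0 (by decide))]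
      exact (hg 2).own n hn ho
  refine ⟨A', hagr, ?_, vis_insert hvis hagr ?_ ?_⟩
  · show A' _ + A' _ + A' _ = 0
    rw [e0, e1, e2]
    exact hsum
  · intro σ' t' ho
    rcases own_st.1 ho with h | ⟨γ', k, h', h⟩
    · simp at h
    · simp only [Nd.jn.injEq] at h
      obtain ⟨rfl, -, rfl⟩ := h
      subst h'
      simp only [Nd.dig]
      rw [ek k]
      exact hg k
  · intro e c ho
    obtain ⟨σ', t', h, h3, h4⟩ := own_hb.1 ho
    simp at h

theorem add_jn {S : Finset F.Nd} {A : F.As} {γ : F.Jn} {d : Fin F.m} {t₀ : ℕ}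
    (hT : Sp (insert (.jn γ d t₀) S)) (hw : Nd.jn γ d t₀ ∉ S)
    (hA : ∀ n ∈ S, n.Ok A) (hvis : Vis S A) :
    ∃ A', Agr S A A' ∧ (Nd.jn γ d t₀).Ok A' ∧ Vis (insert (.jn γ d t₀) S) A' := by
  classical
  have hS : Sp S := hT.mono (subset_insert _ _)
  by_cases h1 : ∀ k, PinSt S (F.js γ k) d t₀
  · obtain ⟨g, hg, hsum⟩ := keyJ hT hw hA hvis h1
    exact jn_done hvis hg hsum
  · push Not at h1
    obtain ⟨k, hk⟩ := h1
    choose v hv using fun l => alwSt_ne hS hA hvis (F.js γ l) d t₀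
    obtain ⟨u, hu⟩ : ∃ u : Fin 3 → ZMod 2, u k = v 0 + v 1 + v 2 + v k ∧ ∀ l, l ≠ k → u l = v l :=
      ⟨fun l => if l = k then v 0 + v 1 + v 2 + v k else v l, by simp, fun l hl => by simp [hl]⟩
    refine jn_done hvis (g := u) ?_ ?_
    · intro l
      by_cases hl : l = k
      · subst hl
        exact alwSt_of_not_pin hk _
      · rw [hu.2 l hl]
        exact hv l
    · have key : ∀ x y z : ZMod 2, x + y + (x + y + z + z) = 0 := by decide
      have key2 : ∀ x y z : ZMod 2, x + (x + y + z + y) + z = 0 := by decide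
      have key3 : ∀ x y z : ZMod 2, (x + y + z + x) + y + z = 0 := by decide
      fin_cases k
      · have e0 := hu.1
        have e1 := hu.2 1 (by decide)
        have e2 := hu.2 2 (by decide)
        simp only [Fin.zero_eta, Fin.isValue] at e0
        rw [e0, e1, e2]
        exact key3 _ _ _
      · have e0 := hu.2 0 (by decide)
        have e1 := hu.1
        have e2 := hu.2 2 (by decide)
        simp only [Fin.mk_one, Fin.isValue] at e1
        rw [e0, e1, e2]
        exact key2 _ _ _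
      · have e0 := hu.2 0 (by decide)
        have e1 := hu.2 1 (by decide)
        have e2 := hu.1
        simp only [Fin.reduceFinMk, Fin.isValue] at e2
        rw [e0, e1, e2]
        exact key _ _ _

theorem add_node {S : Finset F.Nd} {A : F.As} {w : F.Nd} (hT : Sp (insert w S)) (hw : w ∉ S)
    (hV : ∀ n ∈ insert w S, n.Val) (hA : ∀ n ∈ S, n.Ok A) (hvis : Vis S A) :
    ∃ A', Agr S A A' ∧ w.Ok A' ∧ Vis (insert w S) A' := by
  cases w with
  | sl σ d t₀ => exact add_sl hT hw hV hA hvis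
  | jn γ d t₀ => exact add_jn hT hw hA hvis

end Crest.Agent.R290.FS
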