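import Crest.Agent.R290.CBasic

/-!
Row 290, module C, piece C_ALW: ALLOWED VALUES for the own variables of a new node of digit `d` (statements
helper51).  `S` = the old nodes, `A` = the old assignment.

`ThrSt S d σ t` : the start bundle of `(σ, t)` has owners in `S` at all digits `≠ d` ("visible through a new node of
digit `d`").  `AlwSt S A σ d t₀ v` : `v` is an allowed value of the variable `st σ d t₀`.
`PinSt` : the variable is pinned (not all values are allowed).  The same for the hubs.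

PROOFS.
* `thrSt_uniq`: at a digit `i = d`: hypothesis. Idle digit `i`: `t i < num = 1` for both. `τ i = d`: `Code`.
  Otherwise if `t i ≠ t' i`, then `t (τ i) ≠ t' (τ i)`, the owners of `st σ i (t i)`, `st σ' i (t' i)` are different nodes of
  digit `i` (`own_st`: the local value of the node is determined), the same at `τ i ≠ i`: contradiction to `Sp.three`.
* `thrHb_uniq`: the same with `own_hb` (a node has only one hub label); idle digit: `num_idle`, `Val`, `lab_idle` give label 0.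
* `alwSt_ne`: (1) owned by `n ∈ S`: `v := A (st σ d t₀)`; `beta`: by `own_st` `n = sl σ d t₀` and `Ok`, or `n` is a junction
  node and `js_beta` excludes `beta = some b`; `vis`: the bundle is visible in `S` (`Vis S A`; split the sum at `d`:
  `add_sum_erase`). (2) not owned, `beta σ d = some b`: `v := b`; `vis`: the owners in `S` at `i ≠ d` are `sl σ i (t i)` (`js_beta` excludes
  junctions because `beta σ i ≠ none` by `beta_all`), `Ok` gives `A (st σ i (t i)) = (beta σ i).getD 0`, `t i < num = 1`, so the sum is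
  the element of `beta_D`. (3) not owned, `beta = none`: if some `t` is visible through `d` take `u ∈ D` (`D_ne`) and
  `v := u + ∑`; it works for all `t` by `thrSt_uniq`. Otherwise `v := 0`.
* `alwHb_ne`: the same without `beta`.
* `alwSt_of_not_pin`, `alwHb_of_not_pin`: trivial.
* `vis_insert`: an owner at a digit `i ≠ d` is in `S` (`dig_of_own_st`); if the owner at `d` is in `S` use `Vis S A` and `Agr`
  (`Vis.congr`), otherwise it is `w`: use `AlwSt.vis` and `Agr`.
-/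
set_option autoImplicit false

namespace Crest.Agent.R290.FS

open Finset

variable {F : FS}

def ThrSt (S : Finset F.Nd) (d : Fin F.m) (σ : F.Sl) (t : Fin F.m → ℕ) : Prop :=
  Code t ∧ (∀ i, t i < F.num σ i) ∧ ∀ i, i ≠ d → ∃ n ∈ S, n.Own (.st σ i (t i))

def ThrHb (S : Finset F.Nd) (d : Fin F.m) (e : F.Pr) (x : Fin F.m → ℕ) : Prop :=
  Code x ∧ ∀ i, i ≠ d → ∃ n ∈ S, n.Own (.hb e i (x i))

/-- allowed values of `st σ d t₀` -/
structure AlwSt (S : Finset F.Nd) (A : F.As) (σ : F.Sl) (d : Fin F.m) (t₀ : ℕ) (v : ZMod 2) :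
    Prop where
  own : ∀ n ∈ S, n.Own (.st σ d t₀) → v = A (.st σ d t₀)
  beta : ∀ b, F.beta σ d = some b → v = b
  vis : ∀ t, ThrSt S d σ t → t d = t₀ →
    v + ∑ i ∈ univ.erase d, A (.st σ i (t i)) ∈ F.D (F.pr σ) (fun i => F.lab σ i (t i))

/-- allowed values of `hb e d c₀` -/
structure AlwHb (S : Finset F.Nd) (A : F.As) (e : F.Pr) (d : Fin F.m) (c₀ : ℕ) (v : ZMod 2) :
    Prop where
  own : ∀ n ∈ S, n.Own (.hb e d c₀) → v = A (.hb e d c₀)
  vis : ∀ x, ThrHb S d e x → x d = c₀ →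
    v + ∑ i ∈ univ.erase d, A (.hb e i (x i)) ∈ F.D e x

def PinSt (S : Finset F.Nd) (σ : F.Sl) (d : Fin F.m) (t₀ : ℕ) : Prop :=
  (∃ n ∈ S, n.Own (.st σ d t₀)) ∨ F.beta σ d ≠ none ∨ ∃ t, ThrSt S d σ t ∧ t d = t₀

def PinHb (S : Finset F.Nd) (e : F.Pr) (d : Fin F.m) (c₀ : ℕ) : Prop :=
  (∃ n ∈ S, n.Own (.hb e d c₀)) ∨ ∃ x, ThrHb S d e x ∧ x d = c₀

theorem own_st_val {n : F.Nd} {σ σ' : F.Sl} {i i' : Fin F.m} {t t' : ℕ}
    (h : n.Own (.st σ i t)) (h' : n.Own (.st σ' i' t')) : t = t' := by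
  rcases own_st.1 h with rfl | ⟨γ, k, _, rfl⟩ <;> rcases own_st.1 h' with h2 | ⟨γ', k', _, h2⟩ <;>
    simp_all

theorem own_hb_val {n : F.Nd} {e e' : F.Pr} {i i' : Fin F.m} {c c' : ℕ}
    (h : n.Own (.hb e i c)) (h' : n.Own (.hb e' i' c')) : c = c' := by
  obtain ⟨σ, t, rfl, _, h1⟩ := own_hb.1 h
  obtain ⟨σ', t', h2, _, h3⟩ := own_hb.1 h'
  simp only [Nd.sl.injEq] at h2
  obtain ⟨rfl, rfl, rfl⟩ := h2
  rw [← h1, ← h3]

/-- an owner in `S` of a start with forced value has the forced value -/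
theorem st_of_beta {S : Finset F.Nd} {A : F.As} (hA : ∀ n ∈ S, n.Ok A) {n : F.Nd} (hn : n ∈ S)
    {σ : F.Sl} {i : Fin F.m} {t : ℕ} (h : n.Own (.st σ i t)) {b : ZMod 2} (hb : F.beta σ i = some b) :
    A (.st σ i t) = b := by
  rcases own_st.1 h with rfl | ⟨γ, k, rfl, rfl⟩
  · exact (hA _ hn).2 b hb
  · rw [F.js_beta] at hb; exact absurd hb (by simp)

theorem thrSt_uniq {S : Finset F.Nd} (hS : Sp S) {d : Fin F.m} {σ σ' : F.Sl}
    {t t' : Fin F.m → ℕ} (h : ThrSt S d σ t) (h' : ThrSt S d σ' t') (hd : t d = t' d) :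
    t = t' := by
  funext i
  by_cases hid : i = d
  · rw [hid, hd]
  by_cases hi : F.τ i = i
  · have h1 := h.2.1 i
    have h2 := h'.2.1 i
    rw [F.num_idle _ _ hi] at h1 h2
    omega
  by_cases hτd : F.τ i = d
  · rw [← h.1 i, ← h'.1 i, hτd, hd]
  by_contra hne
  obtain ⟨n1, hn1, ho1⟩ := h.2.2 i hid
  obtain ⟨n2, hn2, ho2⟩ := h'.2.2 i hid
  obtain ⟨n3, hn3, ho3⟩ := h.2.2 _ hτd
  obtain ⟨n4, hn4, ho4⟩ := h'.2.2 _ hτd
  have d1 := dig_of_own_st ho1
  have d2 := dig_of_own_st ho2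
  have d3 := dig_of_own_st ho3
  have d4 := dig_of_own_st ho4
  rcases hS.three n1 hn1 n2 hn2 n3 hn3 n4 hn4 (by rw [d1, d2]) (by rw [d3, d4])
    (by rw [d1, d3]; exact fun h => hi h.symm) with h5 | h5
  · subst h5; exact hne (own_st_val ho1 ho2)
  · subst h5
    have h6 := own_st_val ho3 ho4
    rw [h.1 i, h'.1 i] at h6
    exact hne h6

theorem thrHb_uniq {S : Finset F.Nd} (hS : Sp S) (hV : ∀ n ∈ S, n.Val) {d : Fin F.m} {e e' : F.Pr}
    {x x' : Fin F.m → ℕ} (h : ThrHb S d e x) (h' : ThrHb S d e' x') (hd : x d = x' d) :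
    x = x' := by
  funext i
  by_cases hid : i = d
  · rw [hid, hd]
  obtain ⟨n1, hn1, ho1⟩ := h.2 i hid
  obtain ⟨n2, hn2, ho2⟩ := h'.2 i hid
  by_cases hi : F.τ i = i
  · have key : ∀ (e : F.Pr) (c : ℕ) (n : F.Nd), n ∈ S → n.Own (.hb e i c) → c = 0 := by
      intro e c n hn ho
      obtain ⟨σ, t, rfl, _, h1⟩ := own_hb.1 ho
      have h2 := hV _ hn
      simp only [Nd.Val, F.num_idle _ _ hi] at h2
      have h3 : t = 0 := by omega
      rw [← h1, h3, F.lab_idle _ _ hi]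
    rw [key _ _ _ hn1 ho1, key _ _ _ hn2 ho2]
  by_cases hτd : F.τ i = d
  · rw [← h.1 i, ← h'.1 i, hτd, hd]
  by_contra hne
  obtain ⟨n3, hn3, ho3⟩ := h.2 _ hτd
  obtain ⟨n4, hn4, ho4⟩ := h'.2 _ hτd
  have d1 := dig_of_own_hb ho1
  have d2 := dig_of_own_hb ho2
  have d3 := dig_of_own_hb ho3
  have d4 := dig_of_own_hb ho4
  rcases hS.three n1 hn1 n2 hn2 n3 hn3 n4 hn4 (by rw [d1, d2]) (by rw [d3, d4])
    (by rw [d1, d3]; exact fun h => hi h.symm) with h5 | h5
  · subst h5; exact hne (own_hb_val ho1 ho2)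
  · subst h5
    have h6 := own_hb_val ho3 ho4
    rw [h.1 i, h'.1 i] at h6
    exact hne h6

theorem alwSt_ne {S : Finset F.Nd} {A : F.As} (hS : Sp S) (hA : ∀ n ∈ S, n.Ok A)
    (hvis : Vis S A) (σ : F.Sl) (d : Fin F.m) (t₀ : ℕ) : ∃ v, AlwSt S A σ d t₀ v := by
  classical
  by_cases hown : ∃ n ∈ S, n.Own (.st σ d t₀)
  · obtain ⟨n, hn, ho⟩ := hown
    refine ⟨A (.st σ d t₀), fun _ _ _ => rfl, fun b hb => st_of_beta hA hn ho hb, fun t ht htd => ?_⟩
    have h1 := hvis.st σ t ht.1 ht.2.1 (fun i => by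
      by_cases hi : i = d
      · subst hi; rw [htd]; exact ⟨n, hn, ho⟩
      · exact ht.2.2 i hi)
    rw [← add_sum_erase _ _ (mem_univ d), htd] at h1
    exact h1
  · by_cases hb : F.beta σ d = none
    · by_cases hex : ∃ t, ThrSt S d σ t ∧ t d = t₀
      · obtain ⟨t, ht, htd⟩ := hex
        obtain ⟨u, hu⟩ := F.D_ne (F.pr σ) (fun i => F.lab σ i (t i))
        refine ⟨u + ∑ i ∈ univ.erase d, A (.st σ i (t i)), fun n hn ho => absurd ⟨n, hn, ho⟩ hown,
          fun b hb' => by rw [hb] at hb'; exact absurd hb' (by simp), fun t' ht' htd' => ?_⟩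
        have h1 : t' = t := thrSt_uniq hS ht' ht (by rw [htd, htd'])
        subst h1
        rw [add_assoc, CharTwo.add_self_eq_zero, add_zero]
        exact hu
      · exact ⟨0, fun n hn ho => absurd ⟨n, hn, ho⟩ hown,
          fun b hb' => by rw [hb] at hb'; exact absurd hb' (by simp),
          fun t' ht' htd' => absurd ⟨t', ht', htd'⟩ hex⟩
    · obtain ⟨b, hb'⟩ := Option.ne_none_iff_exists'.1 hb
      refine ⟨b, fun n hn ho => absurd ⟨n, hn, ho⟩ hown, fun b' h' => by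
        rw [hb'] at h'; exact Option.some.inj h', fun t ht htd => ?_⟩
      have hall := F.beta_all σ d hb
      have ht0 : t = fun _ => 0 := by
        funext i
        have h1 := ht.2.1 i
        rw [(hall i).2] at h1
        omega
      have h2 := F.beta_D σ (fun i => (hall i).1)
      have h3 : (fun i => F.lab σ i (t i)) = fun i => F.lab σ i 0 := by rw [ht0]
      rw [h3, h2, Set.mem_singleton_iff, ← add_sum_erase _ (fun i => (F.beta σ i).getD 0) (mem_univ d),
        hb', Option.getD_some]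
      congr 1
      refine sum_congr rfl fun i hi => ?_
      obtain ⟨n, hn, ho⟩ := ht.2.2 i (mem_erase.1 hi).1
      obtain ⟨bi, hbi⟩ := Option.ne_none_iff_exists'.1 (hall i).1
      rw [hbi, Option.getD_some]
      exact st_of_beta hA hn ho hbi

theorem alwHb_ne {S : Finset F.Nd} {A : F.As} (hS : Sp S) (hV : ∀ n ∈ S, n.Val)
    (hvis : Vis S A) (e : F.Pr) (d : Fin F.m) (c₀ : ℕ) : ∃ v, AlwHb S A e d c₀ v := by
  classical
  by_cases hown : ∃ n ∈ S, n.Own (.hb e d c₀)
  · obtain ⟨n, hn, ho⟩ := hown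
    refine ⟨A (.hb e d c₀), fun _ _ _ => rfl, fun t ht htd => ?_⟩
    have h1 := hvis.hb e t ht.1 (fun i => by
      by_cases hi : i = d
      · subst hi; rw [htd]; exact ⟨n, hn, ho⟩
      · exact ht.2 i hi)
    rw [← add_sum_erase _ _ (mem_univ d), htd] at h1
    exact h1
  · by_cases hex : ∃ t, ThrHb S d e t ∧ t d = c₀
    · obtain ⟨t, ht, htd⟩ := hex
      obtain ⟨u, hu⟩ := F.D_ne e t
      refine ⟨u + ∑ i ∈ univ.erase d, A (.hb e i (t i)), fun n hn ho => absurd ⟨n, hn, ho⟩ hown,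
        fun t' ht' htd' => ?_⟩
      have h1 : t' = t := thrHb_uniq hS hV ht' ht (by rw [htd, htd'])
      subst h1
      rw [add_assoc, CharTwo.add_self_eq_zero, add_zero]
      exact hu
    · exact ⟨0, fun n hn ho => absurd ⟨n, hn, ho⟩ hown,
        fun t' ht' htd' => absurd ⟨t', ht', htd'⟩ hex⟩

theorem alwSt_of_not_pin {S : Finset F.Nd} {A : F.As} {σ : F.Sl} {d : Fin F.m} {t₀ : ℕ}
    (h : ¬ PinSt S σ d t₀) (v : ZMod 2) : AlwSt S A σ d t₀ v := by
  refine ⟨fun n hn ho => absurd (Or.inl ⟨n, hn, ho⟩) h, fun b hb => ?_,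
    fun t ht htd => absurd (Or.inr (Or.inr ⟨t, ht, htd⟩)) h⟩
  exact absurd (Or.inr (Or.inl (by rw [hb]; simp))) h

theorem alwHb_of_not_pin {S : Finset F.Nd} {A : F.As} {e : F.Pr} {d : Fin F.m} {c₀ : ℕ}
    (h : ¬ PinHb S e d c₀) (v : ZMod 2) : AlwHb S A e d c₀ v := by
  exact ⟨fun n hn ho => absurd (Or.inl ⟨n, hn, ho⟩) h,
    fun t ht htd => absurd (Or.inr ⟨t, ht, htd⟩) h⟩

theorem vis_insert {S : Finset F.Nd} {A A' : F.As} {w : F.Nd} (hvis : Vis S A)
    (hA : Agr S A A')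
    (h1 : ∀ σ t₀, w.Own (.st σ w.dig t₀) → AlwSt S A σ w.dig t₀ (A' (.st σ w.dig t₀)))
    (h2 : ∀ e c₀, w.Own (.hb e w.dig c₀) → AlwHb S A e w.dig c₀ (A' (.hb e w.dig c₀))) :
    Vis (insert w S) A' := by
  classical
  have hvis' := hvis.congr hA
  constructor
  · intro σ t hc hr ho
    have hS' : ∀ i, i ≠ w.dig → ∃ n ∈ S, n.Own (.st σ i (t i)) := by
      intro i hi
      obtain ⟨n, hn, hon⟩ := ho i
      rcases mem_insert.1 hn with rfl | hn
      · exact absurd (dig_of_own_st hon).symm hi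
      · exact ⟨n, hn, hon⟩
    by_cases hd : ∃ n ∈ S, n.Own (.st σ w.dig (t w.dig))
    · refine hvis'.st σ t hc hr fun i => ?_
      by_cases hi : i = w.dig
      · rw [hi]; exact hd
      · exact hS' i hi
    · obtain ⟨n, hn, hon⟩ := ho w.dig
      rcases mem_insert.1 hn with rfl | hn
      · have h3 := (h1 σ _ hon).vis t ⟨hc, hr, hS'⟩ rfl
        rw [← add_sum_erase _ _ (mem_univ n.dig)]
        have h4 : ∑ i ∈ univ.erase n.dig, A' (.st σ i (t i)) =
            ∑ i ∈ univ.erase n.dig, A (.st σ i (t i)) := by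
          refine sum_congr rfl fun i hi => ?_
          obtain ⟨n', hn', ho'⟩ := hS' i (mem_erase.1 hi).1
          exact (hA n' hn' _ ho').symm
        rw [h4]
        exact h3
      · exact absurd ⟨n, hn, hon⟩ hd
  · intro e x hc ho
    have hS' : ∀ i, i ≠ w.dig → ∃ n ∈ S, n.Own (.hb e i (x i)) := by
      intro i hi
      obtain ⟨n, hn, hon⟩ := ho i
      rcases mem_insert.1 hn with rfl | hn
      · exact absurd (dig_of_own_hb hon).symm hi
      · exact ⟨n, hn, hon⟩
    by_cases hd : ∃ n ∈ S, n.Own (.hb e w.dig (x w.dig))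
    · refine hvis'.hb e x hc fun i => ?_
      by_cases hi : i = w.dig
      · rw [hi]; exact hd
      · exact hS' i hi
    · obtain ⟨n, hn, hon⟩ := ho w.dig
      rcases mem_insert.1 hn with rfl | hn
      · have h3 := (h2 e _ hon).vis x ⟨hc, hS'⟩ rfl
        rw [← add_sum_erase _ _ (mem_univ n.dig)]
        have h4 : ∑ i ∈ univ.erase n.dig, A' (.hb e i (x i)) =
            ∑ i ∈ univ.erase n.dig, A (.hb e i (x i)) := by
          refine sum_congr rfl fun i hi => ?_
          obtain ⟨n', hn', ho'⟩ := hS' i (mem_erase.1 hi).1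
          exact (hA n' hn' _ ho').symm
        rw [h4]
        exact h3
      · exact absurd ⟨n, hn, hon⟩ hd

end Crest.Agent.R290.FS
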