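import Crest.Agent.R290.CDefs

/-!
Row 290, module C: BASIC LEMMAS of the fat system (helper51).
-/
set_option autoImplicit false

namespace Crest.Agent.R290.FS

open Finset

variable {F : FS}

/-! ### owners -/

theorem tau_ne {i : Fin F.m} (h : F.τ i ≠ i) : F.τ (F.τ i) ≠ F.τ i := by
  rw [F.tau_tau]; exact fun h' => h h'.symm

theorem latv_ne_st (σ : F.Sl) (i j : Fin F.m) (t : ℕ) (σ' : F.Sl) (i' : Fin F.m) (t' : ℕ) :
    latv σ i j t ≠ .st σ' i' t' := by
  unfold latv; split_ifs <;> simp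

theorem latv_ne_hb (σ : F.Sl) (i j : Fin F.m) (t : ℕ) (e : F.Pr) (i' : Fin F.m) (c : ℕ) :
    latv σ i j t ≠ .hb e i' c := by
  unfold latv; split_ifs <;> simp

theorem own_st {n : F.Nd} {σ : F.Sl} {i : Fin F.m} {t : ℕ} : n.Own (.st σ i t) ↔
    n = .sl σ i t ∨ ∃ γ k, F.js γ k = σ ∧ n = .jn γ i t := by
  cases n with
  | sl σ' i' t' =>
    simp only [Nd.Own, Vr.st.injEq, reduceCtorEq, false_or, Nd.sl.injEq, and_false, exists_false,
      or_false]
    constructor
    · rintro (h | ⟨j, _, h⟩)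
      · exact ⟨h.1.symm, h.2.1.symm, h.2.2.symm⟩
      · exact absurd h.symm (latv_ne_st _ _ _ _ _ _ _)
    · rintro ⟨rfl, rfl, rfl⟩; exact Or.inl ⟨rfl, rfl, rfl⟩
  | jn γ i' t' =>
    simp only [Nd.Own, Vr.st.injEq, reduceCtorEq, false_or, Nd.jn.injEq]
    constructor
    · rintro ⟨k, h1, h2, h3⟩; exact ⟨γ, k, h1.symm, rfl, h2.symm, h3.symm⟩
    · rintro ⟨γ', k, h1, h2, h3, h4⟩; subst h2; exact ⟨k, h1.symm, h3.symm, h4.symm⟩

theorem own_hb {n : F.Nd} {e : F.Pr} {i : Fin F.m} {c : ℕ} : n.Own (.hb e i c) ↔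
    ∃ σ t, n = .sl σ i t ∧ F.pr σ = e ∧ F.lab σ i t = c := by
  cases n with
  | sl σ' i' t' =>
    simp only [Nd.Own, reduceCtorEq, Vr.hb.injEq, false_or, Nd.sl.injEq]
    constructor
    · rintro (⟨h1, h2, h3⟩ | ⟨j, _, h⟩)
      · subst h2; exact ⟨σ', t', ⟨rfl, rfl, rfl⟩, h1.symm, h3.symm⟩
      · exact absurd h.symm (latv_ne_hb _ _ _ _ _ _ _)
    · rintro ⟨σ, t, ⟨rfl, rfl, rfl⟩, rfl, rfl⟩; exact Or.inl ⟨rfl, rfl, rfl⟩
  | jn γ i' t' =>
    simp [Nd.Own]

/-- owners of the lateral between non-twins -/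
theorem own_lt {n : F.Nd} {σ : F.Sl} {i j : Fin F.m} (hij : i ≠ j) (h : j ≠ F.τ i) :
    n.Own (.lt σ s(i, j)) ↔ ∃ t, n = .sl σ i t ∨ n = .sl σ j t := by
  cases n with
  | sl σ' i' t' =>
    simp only [Nd.Own, reduceCtorEq, false_or, Nd.sl.injEq]
    constructor
    · rintro ⟨j', hj', h'⟩
      unfold latv at h'
      split_ifs at h' with h1
      simp only [Vr.lt.injEq, Sym2.eq_iff] at h'
      obtain ⟨rfl, h' | h'⟩ := h'
      · exact ⟨t', Or.inl ⟨rfl, h'.1.symm, rfl⟩⟩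
      · exact ⟨t', Or.inr ⟨rfl, h'.2.symm, rfl⟩⟩
    · rintro ⟨t, ⟨rfl, rfl, rfl⟩ | ⟨rfl, rfl, rfl⟩⟩
      · refine ⟨j, hij.symm, ?_⟩
        rw [latv, if_neg h]
      · refine ⟨i, hij, ?_⟩
        rw [latv, if_neg, Sym2.eq_swap]
        intro h2; exact h (by rw [h2, F.tau_tau])
  | jn γ i' t' =>
    simp [Nd.Own]

/-- owners of the twin variables -/
theorem own_tw {n : F.Nd} {σ : F.Sl} {i : Fin F.m} {t : ℕ} (h : F.τ i ≠ i) :
    n.Own (.tw σ s(i, F.τ i) t) ↔ n = .sl σ i t ∨ n = .sl σ (F.τ i) t := by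
  cases n with
  | sl σ' i' t' =>
    simp only [Nd.Own, reduceCtorEq, false_or, Nd.sl.injEq]
    constructor
    · rintro ⟨j', hj', h'⟩
      unfold latv at h'
      split_ifs at h' with h1
      simp only [Vr.tw.injEq, Sym2.eq_iff] at h'
      obtain ⟨rfl, h' | h', rfl⟩ := h'
      · exact Or.inl ⟨rfl, h'.1.symm, rfl⟩
      · exact Or.inr ⟨rfl, h'.2.symm, rfl⟩
    · rintro (⟨rfl, rfl, rfl⟩ | ⟨rfl, rfl, rfl⟩)
      · exact ⟨F.τ i', h, by rw [latv, if_pos rfl]⟩
      · refine ⟨i, h.symm, ?_⟩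
        rw [latv, if_pos (F.tau_tau i).symm, Sym2.eq_swap]
  | jn γ i' t' =>
    simp [Nd.Own]

theorem dig_of_own_st {n : F.Nd} {σ : F.Sl} {i : Fin F.m} {t : ℕ} (h : n.Own (.st σ i t)) :
    n.dig = i := by
  rcases own_st.1 h with rfl | ⟨γ, k, _, rfl⟩ <;> rfl

theorem dig_of_own_hb {n : F.Nd} {e : F.Pr} {i : Fin F.m} {c : ℕ} (h : n.Own (.hb e i c)) :
    n.dig = i := by
  obtain ⟨σ, t, rfl, _, _⟩ := own_hb.1 h; rfl

/-- symmetry of the laterals -/
theorem latv_comm (σ : F.Sl) {i j : Fin F.m} (t : Fin F.m → ℕ) (ht : Code t) :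
    latv σ i j (t i) = latv σ j i (t j) := by
  unfold latv
  by_cases h : j = F.τ i
  · subst h
    rw [if_pos rfl, if_pos (F.tau_tau i).symm, ht i, Sym2.eq_swap]
  · have h' : i ≠ F.τ j := fun h' => h (by rw [h', F.tau_tau])
    rw [if_neg h, if_neg h', Sym2.eq_swap]

/-! ### the constraint of a node depends only on its own variables -/

theorem ok_congr {n : F.Nd} {A B : F.As} (h : ∀ x, n.Own x → A x = B x) : n.Ok A ↔ n.Ok B := by
  cases n with
  | sl σ i t =>
    have h1 : A (.st σ i t) = B (.st σ i t) := h _ (Or.inl rfl)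
    have h2 : A (.hb (F.pr σ) i (F.lab σ i t)) = B (.hb (F.pr σ) i (F.lab σ i t)) :=
      h _ (Or.inr (Or.inl rfl))
    have h3 : ∑ j ∈ univ.erase i, A (latv σ i j t) = ∑ j ∈ univ.erase i, B (latv σ i j t) :=
      sum_congr rfl fun j hj => h _ (Or.inr (Or.inr ⟨j, (mem_erase.1 hj).1, rfl⟩))
    simp only [Nd.Ok, h1, h2, h3]
  | jn γ i t =>
    have h0 : ∀ k, A (.st (F.js γ k) i t) = B (.st (F.js γ k) i t) := fun k => h _ ⟨k, rfl⟩
    simp only [Nd.Ok, h0]

theorem Agr.symm {S : Finset F.Nd} {A B : F.As} (h : Agr S A B) : Agr S B A :=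
  fun n hn x hx => (h n hn x hx).symm

theorem Agr.trans {S : Finset F.Nd} {A B C : F.As} (h : Agr S A B) (h' : Agr S B C) : Agr S A C :=
  fun n hn x hx => (h n hn x hx).trans (h' n hn x hx)

theorem Agr.mono {S T : Finset F.Nd} {A B : F.As} (h : Agr S A B) (hT : T ⊆ S) : Agr T A B :=
  fun n hn x hx => h n (hT hn) x hx

theorem Agr.refl (S : Finset F.Nd) (A : F.As) : Agr S A A := fun _ _ _ _ => rfl

theorem Vis.mono {S T : Finset F.Nd} {A : F.As} (h : Vis S A) (hT : T ⊆ S) : Vis T A where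
  st := fun σ t hc hr ho => h.st σ t hc hr fun i => by
    obtain ⟨n, hn, hn'⟩ := ho i; exact ⟨n, hT hn, hn'⟩
  hb := fun e x hc ho => h.hb e x hc fun i => by
    obtain ⟨n, hn, hn'⟩ := ho i; exact ⟨n, hT hn, hn'⟩

theorem Vis.congr {S : Finset F.Nd} {A B : F.As} (h : Vis S A) (hA : Agr S A B) : Vis S B where
  st := fun σ t hc hr ho => by
    have h1 := h.st σ t hc hr ho
    rwa [sum_congr rfl fun i _ => (by
      obtain ⟨n, hn, hn'⟩ := ho i
      exact hA n hn _ hn' : A (.st σ i (t i)) = B (.st σ i (t i)))] at h1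
  hb := fun e x hc ho => by
    have h1 := h.hb e x hc ho
    rwa [sum_congr rfl fun i _ => (by
      obtain ⟨n, hn, hn'⟩ := ho i
      exact hA n hn _ hn' : A (.hb e i (x i)) = B (.hb e i (x i)))] at h1

/-- nothing is visible if a digit is missing -/
theorem Vis.of_miss {S : Finset F.Nd} {A : F.As} {i₀ : Fin F.m} (h : ∀ n ∈ S, n.dig ≠ i₀) :
    Vis S A where
  st := fun σ t _ _ ho => by
    obtain ⟨n, hn, hn'⟩ := ho i₀; exact absurd (dig_of_own_st hn') (h n hn)
  hb := fun e x _ ho => by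
    obtain ⟨n, hn, hn'⟩ := ho i₀; exact absurd (dig_of_own_hb hn') (h n hn)

/-! ### few nodes per digit -/

/-- at most two nodes in a digit, and two nodes in at most one digit -/
structure Sp (S : Finset F.Nd) : Prop where
  two : ∀ n₁ ∈ S, ∀ n₂ ∈ S, ∀ n₃ ∈ S, n₁.dig = n₂.dig → n₁.dig = n₃.dig →
    n₁ = n₂ ∨ n₁ = n₃ ∨ n₂ = n₃
  three : ∀ n₁ ∈ S, ∀ n₂ ∈ S, ∀ n₃ ∈ S, ∀ n₄ ∈ S, n₁.dig = n₂.dig → n₃.dig = n₄.dig →
    n₁.dig ≠ n₃.dig → n₁ = n₂ ∨ n₃ = n₄

theorem Sp.mono {S T : Finset F.Nd} (h : Sp S) (hT : T ⊆ S) : Sp T where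
  two := fun a ha b hb c hc => h.two a (hT ha) b (hT hb) c (hT hc)
  three := fun a ha b hb c hc d hd => h.three a (hT ha) b (hT hb) c (hT hc) d (hT hd)

/-- counting: `m + 1` nodes covering all `m` digits -/
theorem sp_of_card {S : Finset F.Nd} (h : ∀ i, ∃ n ∈ S, n.dig = i) (hc : S.card ≤ F.m + 1) :
    Sp S := by
  classical
  choose f hf hfd using h
  have hinj : Function.Injective f := fun i j hij => by rw [← hfd i, ← hfd j, hij]
  set T := S \ univ.image f with hT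
  have hT1 : T.card ≤ 1 := by
    have h1 : (univ.image f).card = F.m := by
      rw [card_image_of_injective _ hinj, card_univ, Fintype.card_fin]
    have h2 : univ.image f ⊆ S := by
      intro n hn; obtain ⟨i, _, rfl⟩ := mem_image.1 hn; exact hf i
    rw [hT, card_sdiff_of_subset h2, h1]; omega
  have hmem : ∀ n ∈ S, n = f n.dig ∨ n ∈ T := by
    intro n hn
    by_cases h : n ∈ univ.image f
    · obtain ⟨i, _, rfl⟩ := mem_image.1 h
      left; rw [hfd i]
    · exact Or.inr (mem_sdiff.2 ⟨hn, h⟩)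
  have hone : ∀ a ∈ T, ∀ b ∈ T, a = b := card_le_one.1 hT1
  constructor
  · intro a ha b hb c hc h1 h2
    rcases hmem a ha with h3 | h3 <;> rcases hmem b hb with h4 | h4 <;>
      rcases hmem c hc with h5 | h5
    · left; rw [h3, h4, h1]
    · left; rw [h3, h4, h1]
    · right; left; rw [h3, h5, h2]
    · right; right; exact hone b h4 c h5
    · right; right; rw [h4, h5, ← h1, ← h2]
    · right; left; exact hone a h3 c h5
    · left; exact hone a h3 b h4
    · left; exact hone a h3 b h4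
  · intro a ha b hb c hc d hd h1 h2 h12
    rcases hmem a ha with h3 | h3 <;> rcases hmem b hb with h4 | h4
    · left; rw [h3, h4, h1]
    all_goals
      rcases hmem c hc with h5 | h5 <;> rcases hmem d hd with h6 | h6
    all_goals first
      | (right; rw [h5, h6, h2]; done)
      | (left; exact hone a h3 b h4)
      | (exfalso; exact h12 (by rw [hone a h3 c h5]))
      | (exfalso; exact h12 (by rw [hone a h3 d h6, h2]))
      | (exfalso; exact h12 (by rw [h1, hone b h4 c h5]))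
      | (exfalso; exact h12 (by rw [h1, hone b h4 d h6, h2]))

/-! ### updates -/

open Classical in
/-- change one variable -/
noncomputable def upd (A : F.As) (x : F.Vr) (v : ZMod 2) : F.As := fun y => if y = x then v else A y

theorem upd_self (A : F.As) (x : F.Vr) (v : ZMod 2) : upd A x v x = v := by simp [upd]

theorem upd_ne (A : F.As) {x y : F.Vr} (v : ZMod 2) (h : y ≠ x) : upd A x v y = A y := by
  simp [upd, h]

end Crest.Agent.R290.FS
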