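import Mathlib

/-!
Row 290, module C (Duplicator), architect helper51.  THE ABSTRACT FAT SYSTEM.

Digits: `Fin m`, twin involution `τ` (idle digits: `τ i = i`).  A slab `σ` has `num σ i` local values at the
digit `i` (`1` for idle digits), a hub predicate `pr σ`, injective labels `lab σ i t`; twins have the same
`num`, `lab`, `beta`.  A junction `γ` has three slabs `js γ k`; every slab is in at most one junction.
`beta σ i = some b`: the start variable of the slab `σ` at the digit `i` is forced to be `b` (axiom and goal slabs).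

Variables: `st σ i t` (start), `hb e i c` (hub, label `c`), `lt σ s(i,j)` (lateral of non-twins), `tw σ s(i,τ i) t`.
Nodes: `sl σ i t` (`st + hb + ∑ laterals = 0`, and `st = beta`), `jn γ i t` (sum of the three starts = 0).
`D e x`: domain of the hub bundle `(e, x)`, `x : Fin m → ℕ` a codeword (equal labels at twins); the domain of the start bundle
`(σ, t)` is `D (pr σ) (lab σ · (t ·))`.
-/
set_option autoImplicit false

namespace Crest.Agent.R290

open Finset

/-- the abstract fat system. -/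
structure FS where
  m : ℕ
  Sl : Type
  Pr : Type
  Jn : Type
  decSl : DecidableEq Sl
  decPr : DecidableEq Pr
  decJn : DecidableEq Jn
  hm : 0 < m
  τ : Fin m → Fin m
  num : Sl → Fin m → ℕ
  pr : Sl → Pr
  lab : Sl → Fin m → ℕ → ℕ
  js : Jn → Fin 3 → Sl
  beta : Sl → Fin m → Option (ZMod 2)
  D : Pr → (Fin m → ℕ) → Set (ZMod 2)
  tau_tau : ∀ i, τ (τ i) = i
  num_tau : ∀ σ i, num σ (τ i) = num σ i
  num_idle : ∀ σ i, τ i = i → num σ i = 1
  num_pos : ∀ σ i, 0 < num σ i
  lab_tau : ∀ σ i t, lab σ (τ i) t = lab σ i t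
  lab_idle : ∀ σ i, τ i = i → lab σ i 0 = 0
  lab_inj : ∀ σ i t t', t < num σ i → t' < num σ i → lab σ i t = lab σ i t' → t = t'
  js_inj : ∀ γ γ' k k', js γ k = js γ' k' → γ = γ' ∧ k = k'
  js_num : ∀ γ k i, num (js γ k) i = num (js γ 0) i
  js_beta : ∀ γ k i, beta (js γ k) i = none
  beta_tau : ∀ σ i, τ i ≠ i → beta σ (τ i) = beta σ i
  /-- a slab with a forced start has one local value everywhere and all its starts are forced -/
  beta_all : ∀ σ i, beta σ i ≠ none → ∀ j, beta σ j ≠ none ∧ num σ j = 1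
  D_ne : ∀ e x, (D e x).Nonempty
  /-- arc consistency of the junctions -/
  arc : ∀ γ (t : Fin m → ℕ), (∀ i, t (τ i) = t i) → (∀ i, t i < num (js γ 0) i) → ∀ k,
    ∀ v ∈ D (pr (js γ k)) (fun i => lab (js γ k) i (t i)), ∃ f : Fin 3 → ZMod 2, f k = v ∧
      (∀ l, f l ∈ D (pr (js γ l)) (fun i => lab (js γ l) i (t i))) ∧ f 0 + f 1 + f 2 = 0
  /-- the domain of a slab with forced starts is their sum -/
  beta_D : ∀ σ, (∀ i, beta σ i ≠ none) →
    D (pr σ) (fun i => lab σ i 0) = {∑ i, (beta σ i).getD 0}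

attribute [instance] FS.decSl FS.decPr FS.decJn

namespace FS

variable (F : FS)

/-- variables of the fat system -/
inductive Vr : Type
  | st (σ : F.Sl) (i : Fin F.m) (t : ℕ)
  | hb (e : F.Pr) (i : Fin F.m) (c : ℕ)
  | lt (σ : F.Sl) (p : Sym2 (Fin F.m))
  | tw (σ : F.Sl) (p : Sym2 (Fin F.m)) (t : ℕ)

/-- nodes of the fat system -/
inductive Nd : Type
  | sl (σ : F.Sl) (i : Fin F.m) (t : ℕ)
  | jn (γ : F.Jn) (i : Fin F.m) (t : ℕ)
  deriving DecidableEq

/-- assignments -/
abbrev As : Type := F.Vr → ZMod 2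

variable {F}

/-- digit of a node -/
def Nd.dig : F.Nd → Fin F.m
  | .sl _ i _ => i
  | .jn _ i _ => i

/-- valid nodes -/
def Nd.Val : F.Nd → Prop
  | .sl σ i t => t < F.num σ i
  | .jn γ i t => t < F.num (F.js γ 0) i

/-- the lateral variable of the digits `i ≠ j` in the slab `σ`, seen from the local value `t` of `i` -/
def latv (σ : F.Sl) (i j : Fin F.m) (t : ℕ) : F.Vr :=
  if j = F.τ i then .tw σ s(i, j) t else .lt σ s(i, j)

/-- variables owned by a node -/
def Nd.Own : F.Nd → F.Vr → Prop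
  | .sl σ i t, x => x = .st σ i t ∨ x = .hb (F.pr σ) i (F.lab σ i t) ∨ ∃ j, j ≠ i ∧ x = latv σ i j t
  | .jn γ i t, x => ∃ k, x = .st (F.js γ k) i t

/-- the constraint of a node -/
def Nd.Ok : F.Nd → F.As → Prop
  | .sl σ i t, A => A (.st σ i t) + A (.hb (F.pr σ) i (F.lab σ i t)) +
      ∑ j ∈ univ.erase i, A (latv σ i j t) = 0 ∧ ∀ b, F.beta σ i = some b → A (.st σ i t) = b
  | .jn γ i t, A => A (.st (F.js γ 0) i t) + A (.st (F.js γ 1) i t) + A (.st (F.js γ 2) i t) = 0

/-- codewords -/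
def Code (t : Fin F.m → ℕ) : Prop := ∀ i, t (F.τ i) = t i

/-- `(c)` : all visible codeword bundles have values in their domains -/
structure Vis (S : Finset F.Nd) (A : F.As) : Prop where
  st : ∀ σ (t : Fin F.m → ℕ), Code t → (∀ i, t i < F.num σ i) →
    (∀ i, ∃ n ∈ S, n.Own (.st σ i (t i))) →
    (∑ i, A (.st σ i (t i))) ∈ F.D (F.pr σ) (fun i => F.lab σ i (t i))
  hb : ∀ e (x : Fin F.m → ℕ), Code x → (∀ i, ∃ n ∈ S, n.Own (.hb e i (x i))) →
    (∑ i, A (.hb e i (x i))) ∈ F.D e x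

/-- global assignment satisfying all nodes of digits different from `i₀` -/
def Glob (i₀ : Fin F.m) (B : F.As) : Prop := ∀ n : F.Nd, n.Val → n.dig ≠ i₀ → n.Ok B

/-- `A` and `B` agree on the variables of the nodes of `S` -/
def Agr (S : Finset F.Nd) (A B : F.As) : Prop := ∀ n ∈ S, ∀ x, n.Own x → A x = B x

/-- the positions of the Duplicator -/
def Pos (S : Finset F.Nd) (A : F.As) : Prop :=
  S.card ≤ F.m ∧ (∀ n ∈ S, n.Val) ∧
    ((∃ i₀, (∀ n ∈ S, n.dig ≠ i₀) ∧ ∃ B, Glob i₀ B ∧ Agr S A B) ∨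
     ((∀ i, ∃ n ∈ S, n.dig = i) ∧ (∀ n ∈ S, n.Ok A) ∧ Vis S A))

end FS

end Crest.Agent.R290
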