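import Crest.Agent.R290.CBasic

/-!
Row 290, module C, piece C_DIG: ONE DIGIT (statements helper51).

`DS S A i s h` : the values `s` of the starts and `h` of the hubs of the digit `i` satisfy the junctions and the forced
starts and extend the values `A` of the variables owned by `S`.

PROOFS.
* `fill`: for `σ` in no junction: `s σ t := (beta σ i).getD (a σ t)`. For a junction `γ` and `t`: choose a triple
  `f : Fin 3 → ZMod 2` with sum 0 and `f k = a (js γ k) t` for all `k` with `P (js γ k) t` (if all three hold: `hj`; otherwise some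
  `k` is free and takes the sum of the others). `s (js γ k) t := f_{γ,t} k`; well-defined by `js_inj` (`Classical.choose`, e.g.
  `s σ t := if h : ∃ γ k, js γ k = σ then f h.choose t h.choose_spec.choose else ..`). `beta`: `js_beta`.
* `jn_mem_of_three`: the owners of the three starts at `(i, t)`: if one is a junction node it is `jn γ i t` (`own_st`, `js_inj`).
  Otherwise they are `sl (js γ k) i t`, three different nodes of one digit: contradiction to `Sp.two`.
* `owned_sum`: from `jn_mem_of_three` and `Ok`.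
* `single`: `fill` with `P σ t := ∃ n ∈ S, n.Own (.st σ i t)`, `a := A`; `h e c := A (.hb e i c)`. (`hb` of `fill`: owner `sl σ i t`: `Ok`;
  owner a junction node: `js_beta`.)
-/
set_option autoImplicit false

namespace Crest.Agent.R290.FS

open Finset

variable {F : FS}

/-- a solution of the digit `i` -/
structure DS (S : Finset F.Nd) (A : F.As) (i : Fin F.m) (s : F.Sl → ℕ → ZMod 2)
    (h : F.Pr → ℕ → ZMod 2) : Prop where
  jn : ∀ γ t, s (F.js γ 0) t + s (F.js γ 1) t + s (F.js γ 2) t = 0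
  beta : ∀ σ b t, F.beta σ i = some b → s σ t = b
  st : ∀ n ∈ S, ∀ σ t, n.Own (.st σ i t) → s σ t = A (.st σ i t)
  hb : ∀ n ∈ S, ∀ e c, n.Own (.hb e i c) → h e c = A (.hb e i c)

theorem fill (i : Fin F.m) (P : F.Sl → ℕ → Prop) (a : F.Sl → ℕ → ZMod 2)
    (hj : ∀ γ t, (∀ k, P (F.js γ k) t) →
      a (F.js γ 0) t + a (F.js γ 1) t + a (F.js γ 2) t = 0)
    (hb : ∀ σ b t, F.beta σ i = some b → P σ t → a σ t = b) :
    ∃ s : F.Sl → ℕ → ZMod 2, (∀ γ t, s (F.js γ 0) t + s (F.js γ 1) t + s (F.js γ 2) t = 0) ∧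
      (∀ σ b t, F.beta σ i = some b → s σ t = b) ∧ ∀ σ t, P σ t → s σ t = a σ t := by
  classical
  have h2 : ∀ x : ZMod 2, x + x = 0 := fun x => CharTwo.add_self_eq_zero x
  have hex : ∀ (γ : F.Jn) (t : ℕ), ∃ f : Fin 3 → ZMod 2, f 0 + f 1 + f 2 = 0 ∧
      ∀ k, P (F.js γ k) t → f k = a (F.js γ k) t := by
    intro γ t
    by_cases h0 : P (F.js γ 0) t
    · by_cases h1 : P (F.js γ 1) t
      · by_cases h3 : P (F.js γ 2) t
        · refine ⟨fun k => a (F.js γ k) t, hj γ t ?_, fun k _ => rfl⟩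
          intro k
          fin_cases k
          · exact h0
          · exact h1
          · exact h3
        · refine ⟨![a (F.js γ 0) t, a (F.js γ 1) t, a (F.js γ 0) t + a (F.js γ 1) t], ?_, ?_⟩
          · show a (F.js γ 0) t + a (F.js γ 1) t + (a (F.js γ 0) t + a (F.js γ 1) t) = 0
            exact h2 _
          · intro k hk
            fin_cases k
            · rfl
            · rfl
            · exact absurd hk h3
      · refine ⟨![a (F.js γ 0) t, a (F.js γ 0) t + a (F.js γ 2) t, a (F.js γ 2) t], ?_, ?_⟩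
        · show a (F.js γ 0) t + (a (F.js γ 0) t + a (F.js γ 2) t) + a (F.js γ 2) t = 0
          have := h2 (a (F.js γ 0) t + a (F.js γ 2) t)
          rw [← this]; ring
        · intro k hk
          fin_cases k
          · rfl
          · exact absurd hk h1
          · rfl
    · refine ⟨![a (F.js γ 1) t + a (F.js γ 2) t, a (F.js γ 1) t, a (F.js γ 2) t], ?_, ?_⟩
      · show a (F.js γ 1) t + a (F.js γ 2) t + a (F.js γ 1) t + a (F.js γ 2) t = 0
        have := h2 (a (F.js γ 1) t + a (F.js γ 2) t)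
        rw [← this]; ring
      · intro k hk
        fin_cases k
        · exact absurd hk h0
        · rfl
        · rfl
  choose f hf0 hf1 using hex
  let s : F.Sl → ℕ → ZMod 2 := fun σ t =>
    if h : ∃ γ k, F.js γ k = σ then f h.choose t h.choose_spec.choose
    else (F.beta σ i).getD (a σ t)
  have hs : ∀ γ k t, s (F.js γ k) t = f γ t k := by
    intro γ k t
    have h : ∃ γ' k', F.js γ' k' = F.js γ k := ⟨γ, k, rfl⟩
    have h1 : s (F.js γ k) t = f h.choose t h.choose_spec.choose := dif_pos h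
    obtain ⟨h3, h4⟩ := F.js_inj _ _ _ _ h.choose_spec.choose_spec
    rw [h1, h4, h3]
  have hs' : ∀ σ t, (¬ ∃ γ k, F.js γ k = σ) → s σ t = (F.beta σ i).getD (a σ t) :=
    fun σ t h => dif_neg h
  refine ⟨s, ?_, ?_, ?_⟩
  · intro γ t
    rw [hs, hs, hs]
    exact hf0 γ t
  · intro σ b t hβ
    rw [hs', hβ]
    · rfl
    · rintro ⟨γ, k, rfl⟩
      rw [F.js_beta] at hβ
      exact absurd hβ (by simp)
  · intro σ t hP
    by_cases h : ∃ γ k, F.js γ k = σ
    · obtain ⟨γ, k, rfl⟩ := h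
      rw [hs]
      exact hf1 γ t k hP
    · rw [hs' σ t h]
      cases hβ : F.beta σ i with
      | none => rfl
      | some b =>
        rw [hb σ b t hβ hP]
        rfl

theorem jn_mem_of_three {S : Finset F.Nd} (hS : Sp S) {γ : F.Jn} {i : Fin F.m} {t : ℕ}
    (h : ∀ k, ∃ n ∈ S, n.Own (.st (F.js γ k) i t)) : Nd.jn γ i t ∈ S := by
  have h1 : Nd.jn γ i t ∈ S ∨ ∀ k, Nd.sl (F.js γ k) i t ∈ S := by
    by_cases h2 : Nd.jn γ i t ∈ S
    · exact Or.inl h2
    · right
      intro k
      obtain ⟨n, hn, hn'⟩ := h k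
      rcases own_st.1 hn' with rfl | ⟨γ', k', h3, rfl⟩
      · exact hn
      · obtain ⟨rfl, _⟩ := F.js_inj _ _ _ _ h3
        exact absurd hn h2
  rcases h1 with h1 | h1
  · exact h1
  · exfalso
    have h3 := hS.two _ (h1 0) _ (h1 1) _ (h1 2) rfl rfl
    have h4 : ∀ k k' : Fin 3, (Nd.sl (F.js γ k) i t : F.Nd) = Nd.sl (F.js γ k') i t → k = k' := by
      intro k k' h5
      simp only [Nd.sl.injEq] at h5
      exact (F.js_inj _ _ _ _ h5.1).2
    rcases h3 with h3 | h3 | h3
    · exact absurd (h4 _ _ h3) (by decide)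
    · exact absurd (h4 _ _ h3) (by decide)
    · exact absurd (h4 _ _ h3) (by decide)

theorem owned_sum {S : Finset F.Nd} {A : F.As} (hS : Sp S) (hA : ∀ n ∈ S, n.Ok A) {γ : F.Jn}
    {i : Fin F.m} {t : ℕ} (h : ∀ k, ∃ n ∈ S, n.Own (.st (F.js γ k) i t)) :
    A (.st (F.js γ 0) i t) + A (.st (F.js γ 1) i t) + A (.st (F.js γ 2) i t) = 0 :=
  hA _ (jn_mem_of_three hS h)

theorem single {S : Finset F.Nd} {A : F.As} (hS : Sp S) (hA : ∀ n ∈ S, n.Ok A) (i : Fin F.m) :
    ∃ s h, DS S A i s h := by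
  obtain ⟨s, h1, h2, h3⟩ := fill i (fun σ t => ∃ n ∈ S, n.Own (.st σ i t))
    (fun σ t => A (.st σ i t)) (fun γ t h => owned_sum hS hA h) (by
      rintro σ b t hβ ⟨n, hn, hn'⟩
      rcases own_st.1 hn' with rfl | ⟨γ, k, h3, rfl⟩
      · exact (hA _ hn).2 b hβ
      · rw [← h3, F.js_beta] at hβ
        exact absurd hβ (by simp))
  exact ⟨s, fun e c => A (.hb e i c), h1, h2, fun n hn σ t hn' => h3 σ t ⟨n, hn, hn'⟩,
    fun n hn e c hn' => rfl⟩

/-- sum of the laterals of the digit `i` in the slab `σ`, without the twin variable -/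
def lam (A : F.As) (σ : F.Sl) (i : Fin F.m) : ZMod 2 :=
  ∑ j ∈ (univ.erase i).erase (F.τ i), A (.lt σ s(i, j))

/-- the claim for the pair `i`, `τ i` -/
def PairSol (S : Finset F.Nd) (A : F.As) (i : Fin F.m) : Prop :=
  ∃ (s : F.Sl → ℕ → ZMod 2) (h : F.Pr → ℕ → ZMod 2) (κ : F.Sl → ZMod 2) (η : F.Pr → ZMod 2),
    DS S A i s h ∧ DS S A (F.τ i) (fun σ t => s σ t + κ σ) (fun e c => h e c + η e) ∧
    ∀ σ, (∃ t, Nd.sl σ i t ∈ S) → (∃ t, Nd.sl σ (F.τ i) t ∈ S) →
      κ σ + η (F.pr σ) = lam A σ i + lam A σ (F.τ i)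

end Crest.Agent.R290.FS
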