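import Crest.Agent.R290.CPair

/-!
Row 290, module C, piece C_E1: EXTENSION TO A GLOBAL ASSIGNMENT WITH ONE MISSING DIGIT (statement helper51).

PROOF of `extend`.  Take `s, h, κ, η` from `digits`.  `H i σ t := s i σ t + h i (pr σ) (lab σ i t)`; for `τ i ≠ i`:
`H (τ i) σ t + H i σ t = κ i σ + η i (pr σ)` does not depend on `t` (`lab_tau`).
`N i σ := ∃ t, Nd.sl σ i t ∈ S`.
 `W σ i t := if N i σ ∨ τ i = i₀ then H i σ t + lam A σ i else if N (τ i) σ ∨ i = i₀ then H (τ i) σ t + lam A σ (τ i)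
              else H (min i (τ i)) σ t`.
 (W1) `τ i ≠ i → W σ (τ i) t = W σ i t` (both `N`: the equation of `digits`; no node has digit `i₀`).
 (W2) `τ i ≠ i`, `i ≠ i₀`, `τ i ≠ i₀`: `H i σ t + W σ i t = H i σ 0 + W σ i 0`.
 (W3) `τ i ≠ i`, `N i σ` or `τ i = i₀`: `W σ i t = H i σ t + lam A σ i`.
 `R σ i := H i σ 0 + (if τ i = i then 0 else W σ i 0) + ∑ j ∈ ((univ.erase i).erase (τ i)).erase i₀, A (lt σ s(i,j))`.
 (R1) `i ≠ i₀`, `τ i ≠ i₀`, `N i σ`: `R σ i = A (lt σ s(i,i₀))` (non-idle: (W3); idle: `Val`, `num_idle` give `t = 0`, use `Ok` of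
      `sl σ i 0` and `DS.st`, `DS.hb`; `i₀ ∈ (univ.erase i).erase (τ i)`).
`B (st σ i t) := s i σ t`, `B (hb e i c) := h i e c`,
`B (lt σ p) := if h : ∃ i, i ≠ i₀ ∧ p = s(i,i₀) then R σ h.choose else A (lt σ p)`  (so `B (lt σ s(i,i₀)) = R σ i` for `i ≠ i₀`, and
   `B (lt σ s(i,j)) = A (lt σ s(i,j))` for `i, j ≠ i₀`),
`B (tw σ p t) := if h : ∃ i, τ i ≠ i ∧ p = s(i,τ i) then W σ h.choose t else 0`  (so `B (tw σ s(i,τ i) t) = W σ i t` by (W1)).
`Glob i₀ B`: junction nodes: `DS.jn`. Slab node `sl σ i t`, `i ≠ i₀`: `beta`: `DS.beta`. Parity: `∑_{j≠i} B(latv σ i j t) =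
   (if τ i = i then 0 else W σ i t) + ∑_{j ∉ {i,τ i}} B (lt σ s(i,j))`.  `τ i = i₀` (then `τ i ≠ i`): the last sum is `lam A σ i`, (W3).  `τ i ≠ i₀`: the
   last sum is `∑_{j∉{i,τ i,i₀}} A + R σ i`; with (W2) (idle: `t = 0`) everything cancels.
`Agr S A B`: starts and hubs: `DS.st`, `DS.hb`.  `n = sl σ i t ∈ S` (so `i ≠ i₀`, `N i σ`), lateral to `j`: `j = τ i`: `W σ i t = H i σ t + lam A σ i = A (tw σ s(i,τ i) t)` by
   `Ok` of `n`; `j = i₀ ≠ τ i`: (R1); otherwise `B = A`.
-/
set_option autoImplicit false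

namespace Crest.Agent.R290.FS

open Finset

variable {F : FS}

theorem sum_latv (B : F.As) (σ : F.Sl) (i : Fin F.m) (t : ℕ) :
    ∑ j ∈ univ.erase i, B (latv σ i j t) =
      (if F.τ i = i then 0 else B (.tw σ s(i, F.τ i) t)) +
        ∑ j ∈ (univ.erase i).erase (F.τ i), B (.lt σ s(i, j)) := by
  have key : ∀ j ∈ (univ.erase i).erase (F.τ i), B (latv σ i j t) = B (.lt σ s(i, j)) := by
    intro j hj
    rw [latv, if_neg (mem_erase.1 hj).1]
  by_cases h : F.τ i = i
  · rw [if_pos h, zero_add]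
    have e : (univ.erase i).erase (F.τ i) = univ.erase i := by
      rw [h]; exact erase_eq_of_notMem (notMem_erase i univ)
    rw [← sum_congr rfl key, e]
  · rw [if_neg h, ← sum_congr rfl key, ← add_sum_erase (univ.erase i) _
      (mem_erase.2 ⟨h, mem_univ _⟩)]
    congr 1
    rw [latv, if_pos rfl]

theorem extend {S : Finset F.Nd} {A : F.As} (hS : Sp S) (hV : ∀ n ∈ S, n.Val)
    (hA : ∀ n ∈ S, n.Ok A) {i₀ : Fin F.m} (h0 : ∀ n ∈ S, n.dig ≠ i₀) :
    ∃ B, Glob i₀ B ∧ Agr S A B := by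
  classical
  obtain ⟨s, h, κ, η, hDS, hpair⟩ := digits hS hV hA
  have two : (2 : ZMod 2) = 0 := rfl
  -- starts + hubs
  set H : Fin F.m → F.Sl → ℕ → ZMod 2 := fun i σ t => s i σ t + h i (F.pr σ) (F.lab σ i t) with hH
  have H1 : ∀ i σ t, F.τ i ≠ i → H (F.τ i) σ t = H i σ t + κ i σ + η i (F.pr σ) := by
    intro i σ t hi
    obtain ⟨h1, h2, _⟩ := hpair i hi
    simp only [hH, h1, h2, F.lab_tau]
    ring
  set N : Fin F.m → F.Sl → Prop := fun i σ => ∃ t, Nd.sl σ i t ∈ S with hN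
  have N0 : ∀ i σ, N i σ → i ≠ i₀ := by
    rintro i σ ⟨t, ht⟩
    exact h0 _ ht
  set P : Fin F.m → F.Sl → Prop := fun i σ => N i σ ∨ F.τ i = i₀ with hP
  set W : F.Sl → Fin F.m → ℕ → ZMod 2 := fun σ i t =>
    if P i σ then H i σ t + lam A σ i else if P (F.τ i) σ then H (F.τ i) σ t + lam A σ (F.τ i)
    else H (min i (F.τ i)) σ t with hW
  have W3 : ∀ σ i t, P i σ → W σ i t = H i σ t + lam A σ i := by
    intro σ i t hp
    simp only [hW]
    rw [if_pos hp]
  have W1 : ∀ σ i t, F.τ i ≠ i → W σ (F.τ i) t = W σ i t := by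
    intro σ i t hi
    simp only [hW, F.tau_tau]
    by_cases p1 : P i σ
    · by_cases p2 : P (F.τ i) σ
      · simp only [if_pos p1, if_pos p2]
        have n12 : N i σ ∧ N (F.τ i) σ := by
          simp only [hP, F.tau_tau] at p1 p2
          rcases p1 with p1 | p1
          · refine ⟨p1, ?_⟩
            rcases p2 with p2 | p2
            · exact p2
            · exact absurd p2 (N0 _ _ p1)
          · exfalso
            rcases p2 with p2 | p2
            · exact N0 _ _ p2 p1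
            · exact hi (p1.trans p2.symm)
        have e := (hpair i hi).2.2 σ n12.1 n12.2
        rw [H1 i σ t hi]
        linear_combination e + lam A σ (F.τ i) * two
      · rw [if_pos p1, if_neg p2, if_pos p1]
    · by_cases p2 : P (F.τ i) σ
      · rw [if_pos p2, if_neg p1, if_pos p2]
      · rw [if_neg p2, if_neg p1, if_neg p1, if_neg p2, min_comm]
  have W2 : ∀ σ i t, F.τ i ≠ i → H i σ t + W σ i t = H i σ 0 + W σ i 0 := by
    intro σ i t hi
    simp only [hW]
    by_cases p1 : P i σ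
    · rw [if_pos p1, if_pos p1]
      linear_combination (H i σ t - H i σ 0) * two
    · rw [if_neg p1, if_neg p1]
      by_cases p2 : P (F.τ i) σ
      · rw [if_pos p2, if_pos p2, H1 i σ t hi, H1 i σ 0 hi]
        linear_combination (H i σ t - H i σ 0) * two
      · rw [if_neg p2, if_neg p2]
        rcases min_choice i (F.τ i) with hm | hm
        · rw [hm]
          linear_combination (H i σ t - H i σ 0) * two
        · rw [hm, H1 i σ t hi, H1 i σ 0 hi]
          linear_combination (H i σ t - H i σ 0) * two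
  set R : F.Sl → Fin F.m → ZMod 2 := fun σ i => H i σ 0 + (if F.τ i = i then 0 else W σ i 0) +
    ∑ j ∈ ((univ.erase i).erase (F.τ i)).erase i₀, A (.lt σ s(i, j)) with hR
  have R1 : ∀ σ i, i ≠ i₀ → F.τ i ≠ i₀ → N i σ → R σ i = A (.lt σ s(i, i₀)) := by
    intro σ i hi0 hi1 hn
    have hmem : i₀ ∈ (univ.erase i).erase (F.τ i) :=
      mem_erase.2 ⟨hi1.symm, mem_erase.2 ⟨hi0.symm, mem_univ _⟩⟩
    have hsum := add_sum_erase ((univ.erase i).erase (F.τ i))
      (fun j => A (.lt σ s(i, j))) hmem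
    simp only [hR]
    by_cases hi : F.τ i = i
    · rw [if_pos hi]
      obtain ⟨t, ht⟩ := hn
      have hv := hV _ ht
      simp only [Nd.Val] at hv
      rw [F.num_idle σ i hi] at hv
      obtain rfl : t = 0 := by omega
      have hok := (hA _ ht).1
      rw [sum_latv, if_pos hi] at hok
      have e1 := (hDS i).st _ ht σ 0 (own_st.2 (Or.inl rfl))
      have e2 := (hDS i).hb _ ht (F.pr σ) (F.lab σ i 0) (own_hb.2 ⟨σ, 0, rfl, rfl, rfl⟩)
      have e3 : H i σ 0 = A (.st σ i 0) + A (.hb (F.pr σ) i (F.lab σ i 0)) := by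
        rw [← e1, ← e2]
      rw [e3]
      linear_combination hok + hsum - A (.lt σ s(i, i₀)) * two
    · rw [if_neg hi, W3 σ i 0 (Or.inl hn)]
      have e4 : lam A σ i = ∑ j ∈ (univ.erase i).erase (F.τ i), A (.lt σ s(i, j)) := rfl
      rw [e4]
      linear_combination -hsum + H i σ 0 * two +
        (∑ j ∈ ((univ.erase i).erase (F.τ i)).erase i₀, A (.lt σ s(i, j))) * two
  -- the assignment
  let B : F.As := fun x => match x with
    | .st σ i t => s i σ t
    | .hb e i c => h i e c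
    | .lt σ p => if hh : ∃ i, i ≠ i₀ ∧ p = s(i, i₀) then R σ hh.choose else A (.lt σ p)
    | .tw σ p t => if hh : ∃ i, F.τ i ≠ i ∧ p = s(i, F.τ i) then W σ hh.choose t else 0
  have B1 : ∀ σ i, i ≠ i₀ → B (.lt σ s(i, i₀)) = R σ i := by
    intro σ i hi
    have hh : ∃ i', i' ≠ i₀ ∧ s(i, i₀) = s(i', i₀) := ⟨i, hi, rfl⟩
    have e : B (.lt σ s(i, i₀)) = R σ hh.choose := dif_pos hh
    rw [e]
    have hc := hh.choose_spec
    have : hh.choose = i := by
      have h3 := hc.2
      rw [Sym2.eq_iff] at h3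
      rcases h3 with h3 | h3
      · exact h3.1.symm
      · exact absurd h3.1 hi
    rw [this]
  have B2 : ∀ σ i j, i ≠ i₀ → j ≠ i₀ → B (.lt σ s(i, j)) = A (.lt σ s(i, j)) := by
    intro σ i j hi hj
    have hh : ¬ ∃ i', i' ≠ i₀ ∧ s(i, j) = s(i', i₀) := by
      rintro ⟨i', _, h3⟩
      rw [Sym2.eq_iff] at h3
      rcases h3 with h3 | h3
      · exact hj h3.2
      · exact hi h3.1
    exact dif_neg hh
  have B3 : ∀ σ i t, F.τ i ≠ i → B (.tw σ s(i, F.τ i) t) = W σ i t := by
    intro σ i t hi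
    have hh : ∃ i', F.τ i' ≠ i' ∧ s(i, F.τ i) = s(i', F.τ i') := ⟨i, hi, rfl⟩
    have e : B (.tw σ s(i, F.τ i) t) = W σ hh.choose t := dif_pos hh
    rw [e]
    have hc := hh.choose_spec
    have h3 := hc.2
    rw [Sym2.eq_iff] at h3
    rcases h3 with h3 | h3
    · rw [← h3.1]
    · rw [← h3.2]
      exact W1 σ i t hi
  have sumA : ∀ σ i, i ≠ i₀ → ∀ T : Finset (Fin F.m), i₀ ∉ T →
      ∑ j ∈ T, B (.lt σ s(i, j)) = ∑ j ∈ T, A (.lt σ s(i, j)) := by
    intro σ i hi T hT
    refine sum_congr rfl fun j hj => B2 σ i j hi ?_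
    rintro rfl
    exact hT hj
  refine ⟨B, ?_, ?_⟩
  · -- global
    intro n hval hdig
    cases n with
    | jn γ i t => exact (hDS i).jn γ t
    | sl σ i t =>
      have hi0 : i ≠ i₀ := hdig
      refine ⟨?_, fun b hb => (hDS i).beta σ b t hb⟩
      have eH : B (.st σ i t) + B (.hb (F.pr σ) i (F.lab σ i t)) = H i σ t := rfl
      rw [eH, sum_latv]
      by_cases hi1 : F.τ i = i₀
      · have hi : F.τ i ≠ i := by rw [hi1]; exact hi0.symm
        rw [if_neg hi, B3 σ i t hi, sumA σ i hi0 _ (by rw [hi1]; exact notMem_erase _ _),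
          W3 σ i t (Or.inr hi1)]
        have e4 : lam A σ i = ∑ j ∈ (univ.erase i).erase (F.τ i), A (.lt σ s(i, j)) := rfl
        rw [← e4]
        linear_combination (H i σ t + lam A σ i) * two
      · have hmem : i₀ ∈ (univ.erase i).erase (F.τ i) :=
          mem_erase.2 ⟨fun e => hi1 e.symm, mem_erase.2 ⟨hi0.symm, mem_univ _⟩⟩
        rw [← add_sum_erase ((univ.erase i).erase (F.τ i)) _ hmem, B1 σ i hi0,
          sumA σ i hi0 _ (notMem_erase _ _)]
        simp only [hR]
        by_cases hi : F.τ i = i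
        · rw [if_pos hi, if_pos hi]
          have hv : t < F.num σ i := hval
          rw [F.num_idle σ i hi] at hv
          obtain rfl : t = 0 := by omega
          linear_combination (H i σ 0 +
            ∑ j ∈ ((univ.erase i).erase (F.τ i)).erase i₀, A (.lt σ s(i, j))) * two
        · rw [if_neg hi, if_neg hi, B3 σ i t hi]
          have w2 := W2 σ i t hi
          linear_combination w2 + (H i σ 0 + W σ i 0 +
            ∑ j ∈ ((univ.erase i).erase (F.τ i)).erase i₀, A (.lt σ s(i, j))) * two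
  · -- agreement
    intro n hn x hx
    cases n with
    | jn γ i t =>
      obtain ⟨k, rfl⟩ := hx
      exact ((hDS i).st _ hn (F.js γ k) t ⟨k, rfl⟩).symm
    | sl σ i t =>
      have hi0 : i ≠ i₀ := h0 _ hn
      have hNi : N i σ := ⟨t, hn⟩
      have e1 := (hDS i).st _ hn σ t (own_st.2 (Or.inl rfl))
      have e2 := (hDS i).hb _ hn (F.pr σ) (F.lab σ i t) (own_hb.2 ⟨σ, t, rfl, rfl, rfl⟩)
      rcases hx with rfl | rfl | ⟨j, hj, rfl⟩
      · exact e1.symm
      · exact e2.symm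
      · by_cases hjt : j = F.τ i
        · subst hjt
          have ex : latv σ i (F.τ i) t = .tw σ s(i, F.τ i) t := by rw [latv, if_pos rfl]
          rw [ex, B3 σ i t hj, W3 σ i t (Or.inl hNi)]
          have hok := (hA _ hn).1
          rw [sum_latv, if_neg hj] at hok
          have e4 : lam A σ i = ∑ j ∈ (univ.erase i).erase (F.τ i), A (.lt σ s(i, j)) := rfl
          rw [← e4] at hok
          have e3 : H i σ t = A (.st σ i t) + A (.hb (F.pr σ) i (F.lab σ i t)) := by
            rw [← e1, ← e2]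
          rw [e3]
          linear_combination hok - (A (.st σ i t) + A (.hb (F.pr σ) i (F.lab σ i t)) +
            lam A σ i) * two
        · have ex : latv σ i j t = .lt σ s(i, j) := by rw [latv, if_neg hjt]
          rw [ex]
          by_cases hj0 : j = i₀
          · subst hj0
            rw [B1 σ i hi0]
            exact (R1 σ i hi0 (fun e => hjt e.symm) hNi).symm
          · exact (B2 σ i j hi0 hj0).symm

end Crest.Agent.R290.FS
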