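import Crest.Agent.R290.CBasic

/-!
Row 290, module C, piece C_EXCH: THE EXCHANGE LEMMA of the fat system (statement helper51).

`Glob i₀ B` = all valid nodes of digits `≠ i₀` are satisfied by `B`.  The missing digit can be moved from `i₀` to
`i₁ ≠ i₀`, changing only variables that are not owned by the valid nodes of digits `∉ {i₀, i₁}`.

PROOF.  Abbreviate `own(i, σ, t) := B(st σ i t) + B(hb (pr σ) i (lab σ i t))`.
* Case `i₁ = τ i₀` (so `i₀` is not idle). `B'` := `B` except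
    `B'(st σ i₀ t) := B(st σ i₁ t)`, `B'(hb e i₀ c) := B(hb e i₁ c)`,
    `B'(tw σ s(i₀,i₁) t) := B(st σ i₁ t) + B(hb (pr σ) i₁ (lab σ i₀ t)) + ∑_{j ∉ {i₀,i₁}} B(lt σ s(i₀,j))`.
* Case `i₁ ≠ τ i₀`, `τ i₀ ≠ i₀` . Let `i' = τ i₀`. `B'` := `B` except
    `B'(st σ i₀ t) := B(st σ i' t)`, `B'(hb e i₀ c) := B(hb e i' c)`,
    `B'(lt σ s(i₀,i₁)) := B(st σ i' 0) + B(hb (pr σ) i' (lab σ i₀ 0)) + B(tw σ s(i₀,i') 0) +
        ∑_{j ∉ {i₀,i',i₁}} B(lt σ s(i₀,j))`.
    The nodes `sl σ i₀ t` are satisfied for EVERY `t < num`: by `Glob i₀ B` at the node `sl σ i' t`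
    (`lab_tau`, `num_tau`, same variable `tw σ s(i₀,i') t`): `own(i',σ,t) + B(tw t) = ∑_{j ∉ {i₀,i'}} B(lt σ s(i',j))`
    does not depend on `t`.  `beta`: `beta_tau`.  Junction nodes: copied from `i'` (`js_num`, `num_tau`).
* Case `τ i₀ = i₀` (idle; `num = 1`, only `t = 0` is valid). `B'` := `B` except
    `B'(st σ i₀ t) := (beta σ i₀).getD 0`, `B'(hb e i₀ c) := 0`,
    `B'(lt σ s(i₀,i₁)) := (beta σ i₀).getD 0 + ∑_{j ∉ {i₀,i₁}} B(lt σ s(i₀,j))`
    (`i₁ ≠ τ i₀` is automatic). Junctions: `js_beta`.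
In all cases the changed variables are `st σ i₀ t`, `hb e i₀ c` and a lateral of the pair `s(i₀,i₁)`; they are not owned by the
valid nodes of the digits `∉ {i₀,i₁}` (last statement; it also gives `Glob i₁ B'` at these digits via `ok_congr`).
Do NOT forget that the laterals at a node are `latv σ i j t`, which is `tw` exactly if `j = τ i`.
Characteristic two: `x + x = 0` is `CharTwo.add_self_eq_zero`.
-/
set_option autoImplicit false

namespace Crest.Agent.R290.FS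

open Finset

variable {F : FS}

/-- the modified assignment -/
private noncomputable def exB (B : F.As) (i₀ i₁ : Fin F.m) (S : F.Sl → ℕ → ZMod 2)
    (H : F.Pr → ℕ → ZMod 2) (L : F.Sl → ZMod 2) (T : F.Sl → ℕ → ZMod 2) : F.As
  | .st σ i t => if i = i₀ then S σ t else B (.st σ i t)
  | .hb e i c => if i = i₀ then H e c else B (.hb e i c)
  | .lt σ p => if p = s(i₀, i₁) then L σ else B (.lt σ p)
  | .tw σ p t => if p = s(i₀, i₁) then T σ t else B (.tw σ p t)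

private theorem exB_latv_ne (B : F.As) (i₀ i₁ : Fin F.m) (S : F.Sl → ℕ → ZMod 2)
    (H : F.Pr → ℕ → ZMod 2) (L : F.Sl → ZMod 2) (T : F.Sl → ℕ → ZMod 2) (σ : F.Sl)
    (i j : Fin F.m) (t : ℕ) (h : s(i, j) ≠ s(i₀, i₁)) :
    exB B i₀ i₁ S H L T (latv σ i j t) = B (latv σ i j t) := by
  unfold latv
  split_ifs
  · simp only [exB, if_neg h]
  · simp only [exB, if_neg h]

private theorem exB_latv_eq (B : F.As) (i₀ i₁ : Fin F.m) (S : F.Sl → ℕ → ZMod 2)
    (H : F.Pr → ℕ → ZMod 2) (L : F.Sl → ZMod 2) (T : F.Sl → ℕ → ZMod 2) (σ : F.Sl) (t : ℕ) :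
    exB B i₀ i₁ S H L T (latv σ i₀ i₁ t) = if i₁ = F.τ i₀ then T σ t else L σ := by
  unfold latv
  split_ifs
  · simp only [exB, if_true]
  · simp only [exB, if_true]

private theorem exch_key {i₀ i₁ : Fin F.m} (h : i₁ ≠ i₀) {B : F.As} (hB : Glob i₀ B)
    (S : F.Sl → ℕ → ZMod 2) (H : F.Pr → ℕ → ZMod 2) (L : F.Sl → ZMod 2) (T : F.Sl → ℕ → ZMod 2)
    (h1 : ∀ σ t, t < F.num σ i₀ → S σ t + H (F.pr σ) (F.lab σ i₀ t) +
      ((if i₁ = F.τ i₀ then T σ t else L σ) +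
        ∑ j ∈ (univ.erase i₀).erase i₁, B (latv σ i₀ j t)) = 0)
    (h2 : ∀ σ t, t < F.num σ i₀ → ∀ b, F.beta σ i₀ = some b → S σ t = b)
    (h3 : ∀ γ t, t < F.num (F.js γ 0) i₀ →
      S (F.js γ 0) t + S (F.js γ 1) t + S (F.js γ 2) t = 0) :
    ∃ B', Glob i₁ B' ∧ ∀ n : F.Nd, n.Val → n.dig ≠ i₀ → n.dig ≠ i₁ →
      ∀ x, n.Own x → B' x = B x := by
  have hA : ∀ n : F.Nd, n.Val → n.dig ≠ i₀ → n.dig ≠ i₁ →
      ∀ x, n.Own x → exB B i₀ i₁ S H L T x = B x := by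
    intro n _ hn0 hn1 x hx
    cases n with
    | sl σ i t =>
      rcases hx with rfl | rfl | ⟨j, _, rfl⟩
      · simp only [exB]; exact if_neg hn0
      · simp only [exB]; exact if_neg hn0
      · apply exB_latv_ne
        intro hs
        rw [Sym2.eq_iff] at hs
        rcases hs with ⟨h4, _⟩ | ⟨h4, _⟩
        · exact hn0 h4
        · exact hn1 h4
    | jn γ i t =>
      obtain ⟨k, rfl⟩ := hx
      simp only [exB]; exact if_neg hn0
  refine ⟨exB B i₀ i₁ S H L T, ?_, hA⟩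
  intro n hv hn1
  by_cases hn0 : n.dig = i₀
  · cases n with
    | sl σ i t =>
      have hi : i = i₀ := hn0
      subst hi
      have hmem : i₁ ∈ univ.erase i := mem_erase.2 ⟨h, mem_univ _⟩
      refine ⟨?_, ?_⟩
      · rw [← add_sum_erase _ _ hmem, exB_latv_eq]
        have h5 : ∑ j ∈ (univ.erase i).erase i₁, exB B i i₁ S H L T (latv σ i j t) =
            ∑ j ∈ (univ.erase i).erase i₁, B (latv σ i j t) := by
          refine sum_congr rfl fun j hj => ?_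
          apply exB_latv_ne
          intro hs
          rw [Sym2.eq_iff] at hs
          rcases hs with ⟨_, h4⟩ | ⟨h4, _⟩
          · exact (mem_erase.1 hj).1 h4
          · exact h h4.symm
        rw [h5]
        have h6 := h1 σ t hv
        simp only [exB, if_true]
        exact h6
      · intro b hb
        simp only [exB, if_true]
        exact h2 σ t hv b hb
    | jn γ i t =>
      have hi : i = i₀ := hn0
      subst hi
      simp only [Nd.Ok, exB, if_true]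
      exact h3 γ t hv
  · exact (ok_congr (hA n hv hn0 hn1)).2 (hB n hv hn0)

private theorem tau_sum_indep {i₀ i₁ : Fin F.m} (h : i₁ ≠ i₀) {B : F.As} (hB : Glob i₀ B)
    (hτ : F.τ i₀ ≠ i₀) (h' : i₁ ≠ F.τ i₀) (σ : F.Sl) (t : ℕ) (ht : t < F.num σ i₀) :
    B (.st σ (F.τ i₀) t) + B (.hb (F.pr σ) (F.τ i₀) (F.lab σ i₀ t)) +
      ∑ j ∈ (univ.erase i₀).erase i₁, B (latv σ i₀ j t) =
    B (.st σ (F.τ i₀) 0) + B (.hb (F.pr σ) (F.τ i₀) (F.lab σ i₀ 0)) +
      ∑ j ∈ (univ.erase i₀).erase i₁, B (latv σ i₀ j 0) := by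
  have key : ∀ s, s < F.num σ i₀ →
      B (.st σ (F.τ i₀) s) + B (.hb (F.pr σ) (F.τ i₀) (F.lab σ i₀ s)) +
        ∑ j ∈ (univ.erase i₀).erase i₁, B (latv σ i₀ j s) =
      ∑ j ∈ (univ.erase (F.τ i₀)).erase i₀, B (.lt σ s(F.τ i₀, j)) +
        ∑ j ∈ ((univ.erase i₀).erase i₁).erase (F.τ i₀), B (.lt σ s(i₀, j)) := by
    intro s hs
    have hmem : F.τ i₀ ∈ (univ.erase i₀).erase i₁ :=
      mem_erase.2 ⟨Ne.symm h', mem_erase.2 ⟨hτ, mem_univ _⟩⟩
    have hmem' : i₀ ∈ univ.erase (F.τ i₀) := mem_erase.2 ⟨hτ.symm, mem_univ _⟩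
    have hok := (hB (.sl σ (F.τ i₀) s) (by show s < F.num σ (F.τ i₀); rwa [F.num_tau]) hτ).1
    rw [F.lab_tau, ← add_sum_erase _ _ hmem'] at hok
    have hcomm : latv σ (F.τ i₀) i₀ s = latv σ i₀ (F.τ i₀) s :=
      latv_comm σ (fun _ => s) (fun _ => rfl)
    rw [hcomm] at hok
    have e1 : ∑ j ∈ (univ.erase (F.τ i₀)).erase i₀, B (latv σ (F.τ i₀) j s) =
        ∑ j ∈ (univ.erase (F.τ i₀)).erase i₀, B (.lt σ s(F.τ i₀, j)) := by
      refine sum_congr rfl fun j hj => ?_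
      rw [latv, if_neg]
      rw [F.tau_tau]
      exact (mem_erase.1 hj).1
    have e2 : ∑ j ∈ ((univ.erase i₀).erase i₁).erase (F.τ i₀), B (latv σ i₀ j s) =
        ∑ j ∈ ((univ.erase i₀).erase i₁).erase (F.τ i₀), B (.lt σ s(i₀, j)) := by
      refine sum_congr rfl fun j hj => ?_
      rw [latv, if_neg]
      exact (mem_erase.1 hj).1
    rw [← add_sum_erase _ _ hmem, e2]
    rw [e1] at hok
    have h2 : ∀ x : ZMod 2, x + x = 0 := fun x => CharTwo.add_self_eq_zero x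
    set a := B (.st σ (F.τ i₀) s)
    set b := B (.hb (F.pr σ) (F.τ i₀) (F.lab σ i₀ s))
    set c := B (latv σ i₀ (F.τ i₀) s)
    set d := ∑ j ∈ (univ.erase (F.τ i₀)).erase i₀, B (.lt σ s(F.τ i₀, j))
    linear_combination hok - h2 d
  have h0 : 0 < F.num σ i₀ := lt_of_le_of_lt (Nat.zero_le _) ht
  rw [key t ht, key 0 h0]

theorem exchange {i₀ i₁ : Fin F.m} (h : i₁ ≠ i₀) {B : F.As} (hB : Glob i₀ B) :
    ∃ B', Glob i₁ B' ∧ ∀ n : F.Nd, n.Val → n.dig ≠ i₀ → n.dig ≠ i₁ →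
      ∀ x, n.Own x → B' x = B x := by
  have h2 : ∀ x : ZMod 2, x + x = 0 := fun x => CharTwo.add_self_eq_zero x
  by_cases hτ : F.τ i₀ = i₀
  · -- idle
    refine exch_key h hB (fun σ _ => (F.beta σ i₀).getD 0) (fun _ _ => 0)
      (fun σ => (F.beta σ i₀).getD 0 + ∑ j ∈ (univ.erase i₀).erase i₁, B (latv σ i₀ j 0))
      (fun _ _ => 0) ?_ ?_ ?_
    · intro σ t ht
      rw [F.num_idle σ i₀ hτ, Nat.lt_one_iff] at ht
      subst ht
      rw [if_neg (by rw [hτ]; exact h)]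
      set a := (F.beta σ i₀).getD 0
      set b := ∑ j ∈ (univ.erase i₀).erase i₁, B (latv σ i₀ j 0)
      linear_combination h2 a + h2 b
    · intro σ t _ b hb
      simp [hb]
    · intro γ t _
      simp [F.js_beta]
  · have hval : ∀ σ t, t < F.num σ i₀ → (Nd.sl (F := F) σ (F.τ i₀) t).Val := by
      intro σ t ht
      show t < F.num σ (F.τ i₀)
      rwa [F.num_tau]
    have hbeta : ∀ σ t, t < F.num σ i₀ → ∀ b, F.beta σ i₀ = some b →
        B (.st σ (F.τ i₀) t) = b := by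
      intro σ t ht b hb
      exact (hB _ (hval σ t ht) hτ).2 b (by rw [F.beta_tau σ i₀ hτ]; exact hb)
    have hjn : ∀ γ t, t < F.num (F.js γ 0) i₀ → B (.st (F.js γ 0) (F.τ i₀) t) +
        B (.st (F.js γ 1) (F.τ i₀) t) + B (.st (F.js γ 2) (F.τ i₀) t) = 0 := by
      intro γ t ht
      exact hB (.jn γ (F.τ i₀) t) (by show t < F.num (F.js γ 0) (F.τ i₀); rwa [F.num_tau]) hτ
    refine exch_key h hB (fun σ t => B (.st σ (F.τ i₀) t)) (fun e c => B (.hb e (F.τ i₀) c))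
      (fun σ => B (.st σ (F.τ i₀) 0) + B (.hb (F.pr σ) (F.τ i₀) (F.lab σ i₀ 0)) +
        ∑ j ∈ (univ.erase i₀).erase i₁, B (latv σ i₀ j 0))
      (fun σ t => B (.st σ (F.τ i₀) t) + B (.hb (F.pr σ) (F.τ i₀) (F.lab σ i₀ t)) +
        ∑ j ∈ (univ.erase i₀).erase i₁, B (latv σ i₀ j t)) ?_ hbeta hjn
    intro σ t ht
    split_ifs with hc
    · set a := B (.st σ (F.τ i₀) t)
      set b := B (.hb (F.pr σ) (F.τ i₀) (F.lab σ i₀ t))
      set c := ∑ j ∈ (univ.erase i₀).erase i₁, B (latv σ i₀ j t)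
      linear_combination h2 a + h2 b + h2 c
    · rw [← tau_sum_indep h hB hτ hc σ t ht]
      set a := B (.st σ (F.τ i₀) t)
      set b := B (.hb (F.pr σ) (F.τ i₀) (F.lab σ i₀ t))
      set c := ∑ j ∈ (univ.erase i₀).erase i₁, B (latv σ i₀ j t)
      linear_combination h2 a + h2 b + h2 c

end Crest.Agent.R290.FS
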