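import Crest.Agent.R290.CAdd
import Crest.Agent.R290.CE1
import Crest.Agent.R290.CExch

/-!
Row 290, module C: THE INTERFACE OF THE ABSTRACT PART (helper51).  The positions `Pos S A` of the fat system
form a family of the Duplicator (with `F.m` pebbles).
-/
set_option autoImplicit false

namespace Crest.Agent.R290.FS

open Finset

variable {F : FS}

/-- few satisfied nodes are a position -/
theorem pos_of_ok {S : Finset F.Nd} {A : F.As} (hc : S.card ≤ F.m) (hS : Sp S)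
    (hV : ∀ n ∈ S, n.Val) (hA : ∀ n ∈ S, n.Ok A) (hvis : Vis S A) : Pos S A := by
  refine ⟨hc, hV, ?_⟩
  by_cases h : ∀ i, ∃ n ∈ S, n.dig = i
  · exact Or.inr ⟨h, hA, hvis⟩
  · push Not at h
    obtain ⟨i₀, h0⟩ := h
    exact Or.inl ⟨i₀, h0, extend hS hV hA h0⟩

theorem pos_start : ∃ A : F.As, Pos (∅ : Finset F.Nd) A := by
  refine ⟨fun _ => 0, ?_⟩
  have h0 : ∀ n ∈ (∅ : Finset F.Nd), n.dig ≠ ⟨0, F.hm⟩ := by simp
  exact pos_of_ok (by simp) ⟨by simp, by simp⟩ (by simp) (by simp) (Vis.of_miss h0)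

theorem Pos.ok {S : Finset F.Nd} {A : F.As} (h : Pos S A) : ∀ n ∈ S, n.Ok A := by
  intro n hn
  rcases h.2.2 with ⟨i₀, h0, B, hB, hAB⟩ | ⟨_, hA, _⟩
  · exact (ok_congr fun x hx => hAB n hn x hx).2 (hB n (h.2.1 n hn) (h0 n hn))
  · exact hA n hn

theorem Pos.vis {S : Finset F.Nd} {A : F.As} (h : Pos S A) : Vis S A := by
  rcases h.2.2 with ⟨i₀, h0, B, hB, hAB⟩ | ⟨_, _, hv⟩
  · exact Vis.of_miss h0
  · exact hv

theorem Pos.mono {S S' : Finset F.Nd} {A : F.As} (h : Pos S A) (hS : S' ⊆ S) : Pos S' A := by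
  rcases h.2.2 with ⟨i₀, h0, B, hB, hAB⟩ | ⟨hcov, hA, hv⟩
  · exact ⟨(card_le_card hS).trans h.1, fun n hn => h.2.1 n (hS hn),
      Or.inl ⟨i₀, fun n hn => h0 n (hS hn), B, hB, hAB.mono hS⟩⟩
  · have hsp : Sp S := sp_of_card hcov (h.1.trans (Nat.le_succ _))
    exact pos_of_ok ((card_le_card hS).trans h.1) (hsp.mono hS) (fun n hn => h.2.1 n (hS hn))
      (fun n hn => hA n (hS hn)) (hv.mono hS)

theorem Pos.congr {S : Finset F.Nd} {A A' : F.As} (h : Pos S A) (hA : Agr S A A') : Pos S A' := by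
  refine ⟨h.1, h.2.1, ?_⟩
  rcases h.2.2 with ⟨i₀, h0, B, hB, hAB⟩ | ⟨hcov, hok, hv⟩
  · exact Or.inl ⟨i₀, h0, B, hB, hA.symm.trans hAB⟩
  · exact Or.inr ⟨hcov, fun n hn => (ok_congr fun x hx => hA n hn x hx).1 (hok n hn), hv.congr hA⟩

theorem Pos.ext {S : Finset F.Nd} {A : F.As} (h : Pos S A) (n : F.Nd) (hn : n.Val) :
    ∃ A', Agr S A A' ∧ (∀ q ∈ insert n S, q.Ok A') ∧
      ∀ S' ⊆ insert n S, S'.card ≤ F.m → Pos S' A' := by
  by_cases hnS : n ∈ S
  · rw [insert_eq_of_mem hnS]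
    exact ⟨A, Agr.refl S A, h.ok, fun S' hS' _ => h.mono hS'⟩
  have hVT : ∀ q ∈ insert n S, q.Val := by
    intro q hq
    rcases mem_insert.1 hq with rfl | hq
    · exact hn
    · exact h.2.1 q hq
  by_cases hcov : ∀ i, ∃ q ∈ insert n S, q.dig = i
  · have hT : Sp (insert n S) :=
      sp_of_card hcov ((card_insert_le _ _).trans (Nat.succ_le_succ h.1))
    obtain ⟨A', h1, h2, h3⟩ := add_node hT hnS hVT h.ok h.vis
    have hok : ∀ q ∈ insert n S, q.Ok A' := by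
      intro q hq
      rcases mem_insert.1 hq with rfl | hq
      · exact h2
      · exact (ok_congr fun x hx => h1 q hq x hx).1 (h.ok q hq)
    exact ⟨A', h1, hok, fun S' hS' hc => pos_of_ok hc (hT.mono hS') (fun q hq => hVT q (hS' hq))
      (fun q hq => hok q (hS' hq)) (h3.mono hS')⟩
  · push Not at hcov
    obtain ⟨i₁, h1⟩ := hcov
    have key : ∃ B, Glob i₁ B ∧ Agr S A B := by
      rcases h.2.2 with ⟨i₀, h0, B, hB, hAB⟩ | ⟨hc, _, _⟩
      · by_cases hi : i₁ = i₀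
        · subst hi; exact ⟨B, hB, hAB⟩
        · obtain ⟨B', hB', hBB⟩ := exchange hi hB
          refine ⟨B', hB', fun q hq x hx => ?_⟩
          rw [hAB q hq x hx,
            hBB q (h.2.1 q hq) (h0 q hq) (h1 q (mem_insert_of_mem hq)) x hx]
      · obtain ⟨q, hq, hq'⟩ := hc i₁
        exact absurd hq' (h1 q (mem_insert_of_mem hq))
    obtain ⟨B, hB, hAB⟩ := key
    refine ⟨B, hAB, fun q hq => hB q (hVT q hq) (h1 q hq), fun S' hS' hc => ?_⟩
    exact ⟨hc, fun q hq => hVT q (hS' hq), Or.inl ⟨i₁, fun q hq => h1 q (hS' hq), B, hB,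
      Agr.refl _ _⟩⟩

end Crest.Agent.R290.FS
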