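import Crest.Agent.R290.Defs
import Crest.Agent.R290.CDefs

/-!
Row 290, module C, concrete part 1 (helper77): the fat system `fsys` of a rule system.
-/
set_option autoImplicit false

namespace Crest.Agent.R290

open Finset

section Inst
variable {r : ℕ} (R : RSys r)

/-- slabs: `(rule, s)` or a fact -/
abbrev CSl : Type := (Fin R.rules.length × Fin 9) ⊕ Fin (R.ax.length + 1)
/-- hub kinds: predicate or private -/
abbrev CPr : Type := ℕ ⊕ (Fin R.rules.length × Fin 2)
/-- junctions -/
abbrev CJn : Type := Fin R.rules.length × Fin 3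

/-- fact number `b` (the last one is the goal) -/
def factAt (b : Fin (R.ax.length + 1)) : ℕ × (Fin r → ℕ) := (R.ax ++ [R.goal])[b.val]'(by
  have := b.isLt
  simp only [List.length_append, List.length_cons, List.length_nil]
  omega)

def cnum : CSl R → ℕ → ℕ
  | .inl p, i => (R.rules[p.1]).num i
  | .inr _, _ => 1

def cpr : CSl R → CPr R
  | .inl p => if p.2.val = 0 then .inl (R.rules[p.1]).e0
      else if p.2.val = 1 ∨ p.2.val = 3 then .inr (p.1, 0)
      else if p.2.val = 2 ∨ p.2.val = 6 then .inr (p.1, 1)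
      else if p.2.val = 4 ∨ p.2.val = 7 then .inl (R.rules[p.1]).e1
      else .inl (R.rules[p.1]).e2
  | .inr b => .inl (factAt R b).1

def clab : CSl R → ℕ → ℕ → ℕ
  | .inl p, i, t => if p.2.val = 0 then (R.rules[p.1]).lab 0 i t
      else if p.2.val = 1 ∨ p.2.val = 3 then t
      else if p.2.val = 2 ∨ p.2.val = 6 then t
      else if p.2.val = 4 ∨ p.2.val = 7 then (R.rules[p.1]).lab 1 i t
      else (R.rules[p.1]).lab 2 i t
  | .inr b, i, _ => if h : i / 2 < r then (factAt R b).2 ⟨i / 2, h⟩ else 0

def cbeta : CSl R → ℕ → Option (ZMod 2)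
  | .inl _, _ => none
  | .inr b, i => some (if b.val = R.ax.length ∧ i = 2 * r then 1 else 0)

def cjs (γ : CJn R) (k : Fin 3) : CSl R := .inl (γ.1, ⟨3 * γ.2.val + k.val, by omega⟩)

/-- twins -/
def ctau {r m : ℕ} (hm : 2 * r < m) (i : Fin m) : Fin m :=
  if h : i.val < 2 * r then (if i.val % 2 = 0 then ⟨i.val + 1, by omega⟩ else ⟨i.val - 1, by omega⟩)
  else i

/-- the address of a codeword -/
def caddr {r m : ℕ} (hm : 2 * r < m) (x : Fin m → ℕ) : Fin r → ℕ := fun J => x ⟨2 * J.val, by omega⟩

/-- domain of the hub bundle of a fact -/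
def DH (e : ℕ) (y : Fin r → ℕ) : Set (ZMod 2) :=
  {v | ((e = R.goal.1 ∧ y = R.goal.2) → v = 1) ∧ (Der R e y → v = 0)}

/-- labels of a rule at a local vector -/
def lbv {r : ℕ} (ρ : Rule r) (w : ℕ) (tv : Fin r → ℕ) : Fin r → ℕ := fun J => ρ.lab w (2 * J.val) (tv J)

/-- domain of the private bundles of a rule -/
def DP (a : Fin R.rules.length) (tv : Fin r → ℕ) : Set (ZMod 2) :=
  {v | Der R (R.rules[a]).e1 (lbv (R.rules[a]) 1 tv) →
    Der R (R.rules[a]).e2 (lbv (R.rules[a]) 2 tv) → v = 0}

def cD {m : ℕ} (hm : 2 * r < m) : CPr R → (Fin m → ℕ) → Set (ZMod 2)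
  | .inl e, x => DH R e (caddr hm x)
  | .inr p, x => DP R p.1 (caddr hm x)

end Inst

section Facts
variable {r m : ℕ} {R : RSys r}

theorem ctau_val (hm : 2 * r < m) (i : Fin m) : (ctau hm i).val =
    if i.val < 2 * r then (if i.val % 2 = 0 then i.val + 1 else i.val - 1) else i.val := by
  unfold ctau
  split_ifs <;> rfl

theorem ctau_half (hm : 2 * r < m) (i : Fin m) : (ctau hm i).val / 2 = i.val / 2 := by
  rw [ctau_val]
  split_ifs <;> omega

theorem ctau_ctau (hm : 2 * r < m) (i : Fin m) : ctau hm (ctau hm i) = i := by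
  apply Fin.ext
  rw [ctau_val, ctau_val]
  split_ifs <;> omega

theorem ctau_eq (hm : 2 * r < m) (i : Fin m) : ctau hm i = i ↔ 2 * r ≤ i.val := by
  rw [Fin.ext_iff, ctau_val]
  split_ifs <;> omega

theorem num_half (ρ : Rule r) {i j : ℕ} (h : i / 2 = j / 2) : ρ.num i = ρ.num j := by
  unfold Rule.num
  simp only [h]

theorem lab_half (ρ : Rule r) {i j : ℕ} (w t : ℕ) (h : i / 2 = j / 2) :
    ρ.lab w i t = ρ.lab w j t := by
  unfold Rule.lab
  simp only [h]

theorem DH_ne (hnd : ¬ Der R R.goal.1 R.goal.2) (e : ℕ) (y : Fin r → ℕ) : (DH R e y).Nonempty := by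
  by_cases h : e = R.goal.1 ∧ y = R.goal.2
  · refine ⟨1, fun _ => rfl, fun h' => ?_⟩
    rw [h.1, h.2] at h'
    exact absurd h' hnd
  · exact ⟨0, fun h' => absurd h' h, fun _ => rfl⟩

theorem DP_ne (a : Fin R.rules.length) (tv : Fin r → ℕ) : (DP R a tv).Nonempty :=
  ⟨0, fun _ _ => rfl⟩

theorem zero_mem_DH (hnd : ¬ Der R R.goal.1 R.goal.2) {e : ℕ} {y : Fin r → ℕ} (h : Der R e y) :
    (0 : ZMod 2) ∈ DH R e y := by
  refine ⟨fun h' => ?_, fun _ => rfl⟩
  rw [h'.1, h'.2] at h
  exact absurd h hnd

/-- arc consistency, head junction -/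
theorem arcA (hnd : ¬ Der R R.goal.1 R.goal.2) {a : Fin R.rules.length} {tv y0 : Fin r → ℕ} {e0 : ℕ}
    (hder : Der R (R.rules[a]).e1 (lbv (R.rules[a]) 1 tv) →
      Der R (R.rules[a]).e2 (lbv (R.rules[a]) 2 tv) → Der R e0 y0)
    (E : Fin 3 → Set (ZMod 2)) (h0 : E 0 = DH R e0 y0) (h1 : E 1 = DP R a tv)
    (h2 : E 2 = DP R a tv) (k : Fin 3) (v : ZMod 2) (hv : v ∈ E k) :
    ∃ f : Fin 3 → ZMod 2, f k = v ∧ (∀ l, f l ∈ E l) ∧ f 0 + f 1 + f 2 = 0 := by
  have zz : ∀ a : ZMod 2, a + a = 0 := by decide
  by_cases hb : Der R (R.rules[a]).e1 (lbv (R.rules[a]) 1 tv) ∧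
      Der R (R.rules[a]).e2 (lbv (R.rules[a]) 2 tv)
  · have hd := hder hb.1 hb.2
    have hall : ∀ l, (0 : ZMod 2) ∈ E l := by
      intro l
      fin_cases l
      · show _ ∈ E 0
        rw [h0]; exact zero_mem_DH hnd hd
      · show _ ∈ E 1
        rw [h1]; exact fun _ _ => rfl
      · show _ ∈ E 2
        rw [h2]; exact fun _ _ => rfl
    have hv0 : v = 0 := by
      fin_cases k
      · change v ∈ E 0 at hv
        rw [h0] at hv; exact hv.2 hd
      · change v ∈ E 1 at hv
        rw [h1] at hv; exact hv hb.1 hb.2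
      · change v ∈ E 2 at hv
        rw [h2] at hv; exact hv hb.1 hb.2
    exact ⟨fun _ => 0, hv0.symm, hall, by decide⟩
  · have hP : ∀ w : ZMod 2, w ∈ DP R a tv := fun w h3 h4 => absurd ⟨h3, h4⟩ hb
    fin_cases k
    · change v ∈ E 0 at hv
      refine ⟨![v, v, 0], rfl, ?_, ?_⟩
      · intro l
        fin_cases l
        · exact hv
        · show v ∈ E 1
          rw [h1]; exact hP _
        · show (0 : ZMod 2) ∈ E 2
          rw [h2]; exact hP _
      · show v + v + 0 = 0
        rw [zz, add_zero]
    · obtain ⟨x, hx⟩ := DH_ne hnd e0 y0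
      refine ⟨![x, v, x + v], rfl, ?_, ?_⟩
      · intro l
        fin_cases l
        · show x ∈ E 0
          rw [h0]; exact hx
        · show v ∈ E 1
          rw [h1]; exact hP _
        · show x + v ∈ E 2
          rw [h2]; exact hP _
      · show x + v + (x + v) = 0
        exact zz _
    · obtain ⟨x, hx⟩ := DH_ne hnd e0 y0
      refine ⟨![x, x + v, v], rfl, ?_, ?_⟩
      · intro l
        fin_cases l
        · show x ∈ E 0
          rw [h0]; exact hx
        · show x + v ∈ E 1
          rw [h1]; exact hP _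
        · show v ∈ E 2
          rw [h2]; exact hP _
      · show x + (x + v) + v = 0
        rw [← add_assoc, zz, zero_add, zz]

/-- arc consistency, body junctions -/
theorem arcB (hnd : ¬ Der R R.goal.1 R.goal.2) {a : Fin R.rules.length} {tv : Fin r → ℕ}
    (hg1 : (R.rules[a]).e1 ≠ R.goal.1) (hg2 : (R.rules[a]).e2 ≠ R.goal.1)
    (E : Fin 3 → Set (ZMod 2)) (h0 : E 0 = DP R a tv)
    (h1 : E 1 = DH R (R.rules[a]).e1 (lbv (R.rules[a]) 1 tv))
    (h2 : E 2 = DH R (R.rules[a]).e2 (lbv (R.rules[a]) 2 tv)) (k : Fin 3) (v : ZMod 2)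
    (hv : v ∈ E k) :
    ∃ f : Fin 3 → ZMod 2, f k = v ∧ (∀ l, f l ∈ E l) ∧ f 0 + f 1 + f 2 = 0 := by
  have zz : ∀ a : ZMod 2, a + a = 0 := by decide
  by_cases hb : Der R (R.rules[a]).e1 (lbv (R.rules[a]) 1 tv) ∧
      Der R (R.rules[a]).e2 (lbv (R.rules[a]) 2 tv)
  · have hall : ∀ l, (0 : ZMod 2) ∈ E l := by
      intro l
      fin_cases l
      · show _ ∈ E 0
        rw [h0]; exact fun _ _ => rfl
      · show _ ∈ E 1
        rw [h1]; exact zero_mem_DH hnd hb.1
      · show _ ∈ E 2
        rw [h2]; exact zero_mem_DH hnd hb.2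
    have hv0 : v = 0 := by
      fin_cases k
      · change v ∈ E 0 at hv
        rw [h0] at hv; exact hv hb.1 hb.2
      · change v ∈ E 1 at hv
        rw [h1] at hv; exact hv.2 hb.1
      · change v ∈ E 2 at hv
        rw [h2] at hv; exact hv.2 hb.2
    exact ⟨fun _ => 0, hv0.symm, hall, by decide⟩
  · have hP : ∀ w : ZMod 2, w ∈ DP R a tv := fun w h3 h4 => absurd ⟨h3, h4⟩ hb
    fin_cases k
    · -- one of the bodies is free
      by_cases hb1 : Der R (R.rules[a]).e1 (lbv (R.rules[a]) 1 tv)
      · have hb2 : ¬ Der R (R.rules[a]).e2 (lbv (R.rules[a]) 2 tv) := fun h => hb ⟨hb1, h⟩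
        obtain ⟨x, hx⟩ := DH_ne hnd (R.rules[a]).e1 (lbv (R.rules[a]) 1 tv)
        refine ⟨![v, x, v + x], rfl, ?_, ?_⟩
        · intro l
          fin_cases l
          · exact hv
          · show x ∈ E 1
            rw [h1]; exact hx
          · show v + x ∈ E 2
            rw [h2]; exact ⟨fun h => absurd h.1 hg2, fun h => absurd h hb2⟩
        · show v + x + (v + x) = 0
          exact zz _
      · obtain ⟨x, hx⟩ := DH_ne hnd (R.rules[a]).e2 (lbv (R.rules[a]) 2 tv)
        refine ⟨![v, v + x, x], rfl, ?_, ?_⟩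
        · intro l
          fin_cases l
          · exact hv
          · show v + x ∈ E 1
            rw [h1]; exact ⟨fun h => absurd h.1 hg1, fun h => absurd h hb1⟩
          · show x ∈ E 2
            rw [h2]; exact hx
        · show v + (v + x) + x = 0
          rw [← add_assoc, zz, zero_add, zz]
    · change v ∈ E 1 at hv
      obtain ⟨x, hx⟩ := DH_ne hnd (R.rules[a]).e2 (lbv (R.rules[a]) 2 tv)
      refine ⟨![v + x, v, x], rfl, ?_, ?_⟩
      · intro l
        fin_cases l
        · show v + x ∈ E 0
          rw [h0]; exact hP _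
        · exact hv
        · show x ∈ E 2
          rw [h2]; exact hx
      · show v + x + v + x = 0
        rw [add_assoc, zz]
    · change v ∈ E 2 at hv
      obtain ⟨x, hx⟩ := DH_ne hnd (R.rules[a]).e1 (lbv (R.rules[a]) 1 tv)
      refine ⟨![v + x, x, v], rfl, ?_, ?_⟩
      · intro l
        fin_cases l
        · show v + x ∈ E 0
          rw [h0]; exact hP _
        · show x ∈ E 1
          rw [h1]; exact hx
        · exact hv
      · show v + x + x + v = 0
        rw [add_assoc v x x, zz, add_zero, zz]

/-- the domain of the hub bundle of a slab at a codeword local vector -/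
theorem cD_slab (hm : 2 * r < m) (a : Fin R.rules.length) (s : Fin 9) (t : Fin m → ℕ) :
    cD R hm (cpr R (.inl (a, s))) (fun i => clab R (.inl (a, s)) i (t i)) =
      if s.val = 0 then DH R (R.rules[a]).e0 (lbv (R.rules[a]) 0 (caddr hm t))
      else if s.val = 1 ∨ s.val = 3 then DP R a (caddr hm t)
      else if s.val = 2 ∨ s.val = 6 then DP R a (caddr hm t)
      else if s.val = 4 ∨ s.val = 7 then DH R (R.rules[a]).e1 (lbv (R.rules[a]) 1 (caddr hm t))
      else DH R (R.rules[a]).e2 (lbv (R.rules[a]) 2 (caddr hm t)) := by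
  unfold cpr clab
  dsimp only
  split_ifs <;> rfl

theorem lbv_mem (ρ : Rule r) (tv : Fin r → ℕ) (h : ∀ J, tv J < (ρ.rel J).length) (J : Fin r) :
    (lbv ρ 0 tv J, lbv ρ 1 tv J, lbv ρ 2 tv J) ∈ ρ.rel J := by
  have h1 : 2 * J.val / 2 < r := by omega
  have h2 : (⟨2 * J.val / 2, h1⟩ : Fin r) = J := by apply Fin.ext; show 2 * J.val / 2 = J.val; omega
  have e : ∀ w, lbv ρ w tv J = (let a := (ρ.rel J).getD (tv J) (0, 0, 0);
      if w = 0 then a.1 else if w = 1 then a.2.1 else a.2.2) := by
    intro w
    unfold lbv Rule.lab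
    rw [dif_pos h1, h2]
  rw [e, e, e, List.getD_eq_getElem _ _ (h J)]
  exact List.getElem_mem _

end Facts

/-- the fat system of a rule system whose goal is not derivable -/
noncomputable def fsys {r A m : ℕ} (R : RSys r) (hm : 2 * r < m) (hR : R.WF A)
    (hnd : ¬ Der R R.goal.1 R.goal.2) : FS where
  m := m
  Sl := CSl R
  Pr := CPr R
  Jn := CJn R
  decSl := inferInstance
  decPr := inferInstance
  decJn := inferInstance
  hm := by omega
  τ := ctau hm
  num := fun σ i => cnum R σ i
  pr := cpr R
  lab := fun σ i t => clab R σ i t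
  js := cjs R
  beta := fun σ i => cbeta R σ i
  D := cD R hm
  tau_tau := ctau_ctau hm
  num_tau := by
    intro σ i
    rcases σ with p | b
    · exact num_half _ (ctau_half hm i)
    · rfl
  num_idle := by
    intro σ i hi
    rw [ctau_eq] at hi
    rcases σ with p | b
    · show Rule.num _ _ = 1
      unfold Rule.num
      rw [dif_neg (by omega)]
    · rfl
  num_pos := by
    intro σ i
    rcases σ with p | b
    · show 0 < Rule.num _ _
      unfold Rule.num
      split_ifs with h
      · exact List.length_pos_iff.2 (hR.ne _ (List.getElem_mem _) _)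
      · exact one_pos
    · exact one_pos
  lab_tau := by
    intro σ i t
    have hh := ctau_half hm i
    rcases σ with p | b
    · show clab R (.inl p) _ _ = clab R (.inl p) _ _
      unfold clab
      dsimp only
      rw [lab_half _ 0 t hh, lab_half _ 1 t hh, lab_half _ 2 t hh]
    · show clab R (.inr b) _ _ = clab R (.inr b) _ _
      unfold clab
      dsimp only
      simp only [hh]
  lab_idle := by
    intro σ i hi
    rw [ctau_eq] at hi
    have h1 : ¬ i.val / 2 < r := by omega
    rcases σ with p | b
    · show clab R (.inl p) _ _ = 0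
      have h2 : ∀ w, (R.rules[p.1]).lab w i.val 0 = 0 := by
        intro w
        unfold Rule.lab
        rw [dif_neg h1]
      unfold clab
      dsimp only
      rw [h2, h2, h2]
      simp
    · show clab R (.inr b) _ _ = 0
      unfold clab
      dsimp only
      rw [dif_neg h1]
  lab_inj := by
    intro σ i t t' ht ht' h
    rcases σ with p | b
    · change t < (R.rules[p.1]).num i at ht
      change t' < (R.rules[p.1]).num i at ht'
      change clab R (.inl p) i t = clab R (.inl p) i t' at h
      have hρ : R.rules[p.1] ∈ R.rules := List.getElem_mem _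
      have key : ∀ w, w = 0 ∨ w = 1 ∨ w = 2 → (R.rules[p.1]).lab w i t = (R.rules[p.1]).lab w i t' →
          t = t' := by
        intro w hw hl
        unfold Rule.num at ht ht'
        unfold Rule.lab at hl
        by_cases h1 : i.val / 2 < r
        · rw [dif_pos h1] at ht ht' hl
          rw [dif_pos h1] at hl
          dsimp only at hl
          rw [List.getD_eq_getElem _ _ ht, List.getD_eq_getElem _ _ ht'] at hl
          rcases hw with rfl | rfl | rfl
          · have hn := hR.nd0 _ hρ ⟨i.val / 2, h1⟩
            simp only [if_true] at hl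
            have := (List.Nodup.getElem_inj_iff hn (hi := by simpa using ht)
              (hj := by simpa using ht')).1 (by simpa using hl)
            exact this
          · have hn := hR.nd1 _ hρ ⟨i.val / 2, h1⟩
            simp only [one_ne_zero, if_false, if_true] at hl
            have := (List.Nodup.getElem_inj_iff hn (hi := by simpa using ht)
              (hj := by simpa using ht')).1 (by simpa using hl)
            exact this
          · have hn := hR.nd2 _ hρ ⟨i.val / 2, h1⟩
            have e20 : (2 : ℕ) ≠ 0 := by norm_num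
            have e21 : (2 : ℕ) ≠ 1 := by norm_num
            simp only [e20, e21, if_false] at hl
            have := (List.Nodup.getElem_inj_iff hn (hi := by simpa using ht)
              (hj := by simpa using ht')).1 (by simpa using hl)
            exact this
        · rw [dif_neg h1] at ht ht'
          omega
      unfold clab at h
      dsimp only at h
      split_ifs at h
      · exact key 0 (Or.inl rfl) h
      · exact h
      · exact h
      · exact key 1 (Or.inr (Or.inl rfl)) h
      · exact key 2 (Or.inr (Or.inr rfl)) h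
    · change t < 1 at ht
      change t' < 1 at ht'
      omega
  js_inj := by
    intro γ γ' k k' h
    have h1 := Sum.inl.inj h
    have h2 : γ.1 = γ'.1 := (Prod.mk.inj h1).1
    have h3 : 3 * γ.2.val + k.val = 3 * γ'.2.val + k'.val := congrArg Fin.val (Prod.mk.inj h1).2
    have h4 : γ.2 = γ'.2 := by apply Fin.ext; omega
    exact ⟨Prod.ext h2 h4, by apply Fin.ext; omega⟩
  js_num := fun _ _ _ => rfl
  js_beta := fun _ _ _ => rfl
  beta_tau := by
    intro σ i hi
    rw [Ne, ctau_eq] at hi
    rcases σ with p | b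
    · rfl
    · show some _ = some _
      have h1 : (ctau hm i).val ≠ 2 * r := by
        rw [ctau_val]; split_ifs <;> omega
      have h2 : i.val ≠ 2 * r := by omega
      rw [if_neg (fun h => h1 h.2), if_neg (fun h => h2 h.2)]
  beta_all := by
    intro σ i h j
    rcases σ with p | b
    · exact absurd rfl h
    · exact ⟨Option.some_ne_none _, rfl⟩
  D_ne := by
    intro e x
    rcases e with e | p
    · exact DH_ne hnd _ _
    · exact DP_ne _ _
  arc := by
    intro γ t hc ht k v hv
    obtain ⟨a, u⟩ := γ
    have hρ : R.rules[a] ∈ R.rules := List.getElem_mem _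
    have htl : ∀ J, caddr hm t J < ((R.rules[a]).rel J).length := by
      intro J
      have h1 := ht ⟨2 * J.val, by omega⟩
      change t _ < (R.rules[a]).num (2 * J.val) at h1
      unfold Rule.num at h1
      have h2 : 2 * J.val / 2 < r := by omega
      rw [dif_pos h2] at h1
      have h3 : (⟨2 * J.val / 2, h2⟩ : Fin r) = J := by
        apply Fin.ext; show 2 * J.val / 2 = J.val; omega
      rw [h3] at h1
      exact h1
    have hder : Der R (R.rules[a]).e1 (lbv (R.rules[a]) 1 (caddr hm t)) →
        Der R (R.rules[a]).e2 (lbv (R.rules[a]) 2 (caddr hm t)) →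
        Der R (R.rules[a]).e0 (lbv (R.rules[a]) 0 (caddr hm t)) := fun h1 h2 =>
      Der.rule _ _ _ _ hρ (lbv_mem _ _ htl) h1 h2
    have hE : ∀ l : Fin 3, cD R hm (cpr R (cjs R (a, u) l))
        (fun i => clab R (cjs R (a, u) l) i (t i)) = _ := fun l =>
      cD_slab hm a ⟨3 * u.val + l.val, by omega⟩ t
    fin_cases u
    · exact arcA hnd hder (fun l => cD R hm (cpr R (cjs R (a, 0) l))
        (fun i => clab R (cjs R (a, 0) l) i (t i))) (hE 0) (hE 1) (hE 2) k v hv
    · exact arcB hnd (hR.goal1 _ hρ) (hR.goal2 _ hρ) (fun l => cD R hm (cpr R (cjs R (a, 1) l))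
        (fun i => clab R (cjs R (a, 1) l) i (t i))) (hE 0) (hE 1) (hE 2) k v hv
    · exact arcB hnd (hR.goal1 _ hρ) (hR.goal2 _ hρ) (fun l => cD R hm (cpr R (cjs R (a, 2) l))
        (fun i => clab R (cjs R (a, 2) l) i (t i))) (hE 0) (hE 1) (hE 2) k v hv
  beta_D := by
    intro σ h
    rcases σ with p | b
    · exact absurd rfl (h ⟨0, by omega⟩)
    · show DH R (factAt R b).1 (caddr hm fun i => clab R (.inr b) i 0) =
        {∑ i : Fin m, (cbeta R (.inr b) i).getD 0}
      have hx : (caddr hm fun i => clab R (.inr b) i 0) = (factAt R b).2 := by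
        funext J
        show clab R (.inr b) (2 * J.val) 0 = _
        unfold clab
        dsimp only
        have h1 : 2 * J.val / 2 < r := by omega
        rw [dif_pos h1]
        have h3 : (⟨2 * J.val / 2, h1⟩ : Fin r) = J := by
          apply Fin.ext
          show 2 * J.val / 2 = J.val
          omega
        rw [h3]
      rw [hx]
      by_cases hb : b.val = R.ax.length
      · have hf : factAt R b = R.goal := by
          unfold factAt
          rw [List.getElem_append_right (by omega)]
          simp
        have hs : ∑ i : Fin m, (cbeta R (.inr b) i).getD 0 = 1 := by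
          rw [sum_eq_single (⟨2 * r, hm⟩ : Fin m)]
          · simp [cbeta, hb]
          · intro i _ hi
            have : i.val ≠ 2 * r := fun e => hi (Fin.ext e)
            simp [cbeta, this]
          · intro h; exact absurd (mem_univ _) h
        rw [hs, hf]
        ext v
        rw [Set.mem_singleton_iff]
        constructor
        · intro h1; exact h1.1 ⟨rfl, rfl⟩
        · intro h1; exact ⟨fun _ => h1, fun h2 => absurd h2 hnd⟩
      · have hblt : b.val < R.ax.length := by omega
        have hf : factAt R b = R.ax[b.val] := by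
          unfold factAt
          rw [List.getElem_append_left hblt]
        have hder : Der R (factAt R b).1 (factAt R b).2 := by
          rw [hf]
          exact Der.ax _ _ (List.getElem_mem _)
        have hs : ∑ i : Fin m, (cbeta R (.inr b) i).getD 0 = 0 := by
          refine sum_eq_zero fun i _ => ?_
          simp [cbeta, hb]
        rw [hs]
        ext v
        rw [Set.mem_singleton_iff]
        constructor
        · intro h1; exact h1.2 hder
        · intro h1; rw [h1]; exact zero_mem_DH hnd hder

end Crest.Agent.R290
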