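import Crest.Agent.R290.CAlw

/-!
Row 290, module C, piece C_KEYC: THE SLAB NODE, EVERYTHING PINNED (statements helper51).

`w = sl σ d t₀` is a new node; all its laterals are owned by old nodes and both its start and its hub are
pinned.  Then all other digits have nodes of the slab, forming a codeword.

PROOF of `keyS_code` (all other digits have the node of the codeword in the slab `σ`).  `T = insert w S`; `c₀ = lab σ d t₀`.
 (L) Laterals: if `τ d ≠ d` then `sl σ (τ d) t₀ ∈ S` (`own_tw`; `sl σ d t₀ = w ∉ S`). If `j ≠ d, τ d` then `lt σ s(d,j)` is owned by some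
     `sl σ j t` or `sl σ d t` in `S` (`own_lt`).
 (b) `beta σ d ≠ none` : then `num σ i = 1` for all `i` (`beta_all`), so every valid node of the slab has `t = 0`, `t₀ = 0`, no `sl σ d _` is in
     `S`, and all `sl σ j 0 ∈ S`. Take `t = 0`.
 (i) `st σ d t₀` owned by `n₁ ∈ S` and `hb e d c₀` owned by `n₂ ∈ S`: impossible: `n₁ = jn γ d t₀` (`own_st`, `w ∉ S`), `n₂ = sl σ' d t'` with
     `lab σ' d t' = c₀`; `w, n₁, n₂` are three nodes of digit `d` (`Sp.two`): `n₂ = w` or `n₂ = n₁` impossible, `n₁ = w` impossible.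
 (ii) start owned by `n₁ = jn γ d t₀ ∈ S`, hub bundle `x` visible through `d` (`ThrHb`): digit `d` has the two nodes `w, n₁`, so every
     other digit has at most one node (`Sp.three`) and `n₁` is the only node of digit `d` in `S`. The owner of `hb e i (x i)` (a slab node with
     label `x i`) and the slab node `sl σ i _` of (L) are equal: so `sl σ i (t i) ∈ S` with `lab σ i (t i) = x i`. Codeword: `t d := t₀`;
     `lab_tau`, `Code x`, `lab_inj`, `Val`.
 (iii) start bundle `t` visible through `d`, hub owned by `n₂ = sl σ' d t' ∈ S`: `n₂ ≠ w`; digit `d` has two nodes, so every other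
     digit has at most one. If `σ' = σ`, then `lab_inj` gives `t' = t₀`, `n₂ = w`. So `σ' ≠ σ`, the lateral `{d,i}` is owned by
     `sl σ i _`, which is the owner of `st σ i (t i)`: it is `sl σ i (t i)` (`own_st`).
 (iv) both bundles visible, `t` and `x` : let `i ≠ d`, `n = ` owner of `st σ i (t i)`, `n' =` owner of `hb e i (x i)`. If `n` is a slab
     node it is `sl σ i (t i)`, done. If `n = jn γ i (t i)` then `n ≠ n'`, digit `i` has the two nodes `n, n'`, so (`Sp.three`) all other digits have
     at most one node (in `T`, so no node of digit `d` in `S`); so by (L) some `sl σ i t'' ∈ S`, it is `n'` (`Sp.two`), `lab σ i t'' = x i`.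
     Claim `t'' = t i`: `i` idle: both `0`. `τ i = d`: `x i = x d = c₀ = lab σ d t₀ = lab σ i t₀`, `t i = t d = t₀`. Otherwise the only node of the digit
     `τ i` owns start and hub and is a slab node (it owns a hub), `sl σ (τ i) (t (τ i))` with the label `x (τ i)`; so
     `lab σ i t'' = x i = x (τ i) = lab σ (τ i) (t (τ i)) = lab σ i (t i)`, `lab_inj`.
     [`PinSt` has three cases: owned, beta, visible; `PinHb` two.]
-/
set_option autoImplicit false

namespace Crest.Agent.R290.FS

open Finset

variable {F : FS}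

theorem keyS_code {S : Finset F.Nd} {σ : F.Sl} {d : Fin F.m} {t₀ : ℕ}
    (hT : Sp (insert (.sl σ d t₀) S)) (hw : Nd.sl σ d t₀ ∉ S)
    (hV : ∀ n ∈ insert (.sl σ d t₀) S, n.Val)
    (hl : ∀ j, j ≠ d → ∃ n ∈ S, n.Own (latv σ d j t₀))
    (h1 : PinSt S σ d t₀) (h2 : PinHb S (F.pr σ) d (F.lab σ d t₀)) :
    ∃ t : Fin F.m → ℕ, Code t ∧ (∀ i, t i < F.num σ i) ∧ t d = t₀ ∧
      ∀ i, i ≠ d → Nd.sl σ i (t i) ∈ S := by
  have hwT : (Nd.sl σ d t₀ : F.Nd) ∈ insert (.sl σ d t₀) S := mem_insert_self _ _
  have hST : ∀ n ∈ S, n ∈ insert (Nd.sl σ d t₀ : F.Nd) S := fun n hn => mem_insert_of_mem hn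
  have hwv : t₀ < F.num σ d := hV _ hwT
  have hVs : ∀ i t, (Nd.sl σ i t : F.Nd) ∈ S → t < F.num σ i := fun i t h => hV _ (hST _ h)
  -- at most one node of digit `d` in `S`
  have huniq : ∀ a ∈ S, ∀ b ∈ S, a.dig = d → b.dig = d → a = b := by
    intro a ha b hb h3 h4
    rcases hT.two _ hwT _ (hST a ha) _ (hST b hb) h3.symm h4.symm with h | h | h
    · exact absurd (h ▸ ha) hw
    · exact absurd (h ▸ hb) hw
    · exact h
  -- if there is one, all other digits have at most one node
  have hone : ∀ n ∈ S, n.dig = d → ∀ a ∈ S, ∀ b ∈ S, a.dig = b.dig → a.dig ≠ d → a = b := by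
    intro n hn hnd a ha b hb hab had
    rcases hT.three _ hwT _ (hST n hn) _ (hST a ha) _ (hST b hb) hnd.symm hab
      (fun h => had h.symm) with h | h
    · exact absurd (h ▸ hn) hw
    · exact h
  -- laterals
  have L1 : ∀ j, j ≠ d → j = F.τ d → (Nd.sl σ j t₀ : F.Nd) ∈ S := by
    intro j hj hjd
    obtain ⟨n, hn, ho⟩ := hl j hj
    subst hjd
    rw [latv, if_pos rfl, own_tw hj] at ho
    rcases ho with ho | ho
    · exact absurd (ho ▸ hn) hw
    · exact ho ▸ hn
  have L2 : ∀ j, j ≠ d → j ≠ F.τ d →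
      (∃ t, (Nd.sl σ d t : F.Nd) ∈ S) ∨ (∃ t, (Nd.sl σ j t : F.Nd) ∈ S) := by
    intro j hj hjd
    obtain ⟨n, hn, ho⟩ := hl j hj
    rw [latv, if_neg hjd, own_lt (Ne.symm hj) hjd] at ho
    obtain ⟨t, ho | ho⟩ := ho
    · exact Or.inl ⟨t, ho ▸ hn⟩
    · exact Or.inr ⟨t, ho ▸ hn⟩
  -- if the node of digit `d` in `S` is not of the slab `σ`
  have L3 : (∀ t, (Nd.sl σ d t : F.Nd) ∉ S) → ∀ j, j ≠ d → ∃ t, (Nd.sl σ j t : F.Nd) ∈ S := by
    intro h j hj
    by_cases hjd : j = F.τ d
    · exact ⟨t₀, L1 j hj hjd⟩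
    · rcases L2 j hj hjd with ⟨t, ht⟩ | ht
      · exact absurd ht (h t)
      · exact ht
  rcases h1 with ⟨n₁, hn₁, ho₁⟩ | hb | ⟨t, ht, htd⟩
  · -- the start is owned by a junction node
    rcases own_st.1 ho₁ with rfl | ⟨γ, k, hγ, rfl⟩
    · exact absurd hn₁ hw
    rcases h2 with ⟨n₂, hn₂, ho₂⟩ | ⟨x, hx, hxd⟩
    · exfalso
      obtain ⟨σ', t', rfl, -, -⟩ := own_hb.1 ho₂
      have := huniq _ hn₁ _ hn₂ rfl rfl
      exact absurd this (by simp)
    · -- hub bundle visible
      have hnoσ : ∀ t, (Nd.sl σ d t : F.Nd) ∉ S := by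
        intro t ht
        have := huniq _ hn₁ _ ht rfl rfl
        exact absurd this (by simp)
      have hex : ∀ i, i ≠ d → ∃ s, (Nd.sl σ i s : F.Nd) ∈ S ∧ F.lab σ i s = x i := by
        intro i hi
        obtain ⟨s, hs⟩ := L3 hnoσ i hi
        obtain ⟨n', hn', ho'⟩ := hx.2 i hi
        obtain ⟨σ', t', hn'', hpr, hlab⟩ := own_hb.1 ho'
        have h5 : n' = Nd.sl σ i s :=
          hone _ hn₁ rfl _ hn' _ hs (by rw [hn'']; rfl) (by rw [hn'']; exact hi)
        rw [hn''] at h5
        have h6 := Nd.sl.inj h5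
        refine ⟨s, hs, ?_⟩
        rw [← hlab, h6.1, h6.2.2]
      choose! f hf using hex
      set g : Fin F.m → ℕ := fun i => if i = d then t₀ else f i with hg
      have hgd : g d = t₀ := by simp [hg]
      have hgi : ∀ i, i ≠ d → g i = f i := fun i hi => by simp [hg, hi]
      have hgl : ∀ i, F.lab σ i (g i) = x i ∧ g i < F.num σ i := by
        intro i
        by_cases hi : i = d
        · subst hi
          rw [hgd]
          exact ⟨hxd.symm, hwv⟩
        · rw [hgi i hi]
          exact ⟨(hf i hi).2, hVs _ _ (hf i hi).1⟩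
      refine ⟨g, ?_, fun i => (hgl i).2, hgd, fun i hi => ?_⟩
      · intro i
        refine F.lab_inj σ i _ _ ?_ (hgl i).2 ?_
        · rw [← F.num_tau σ i]; exact (hgl (F.τ i)).2
        · rw [← F.lab_tau σ i, (hgl (F.τ i)).1, (hgl i).1]
          exact hx.1 i
      · rw [hgi i hi]; exact (hf i hi).1
  · -- forced start
    have hnum : ∀ i, F.num σ i = 1 := fun i => (F.beta_all σ d hb i).2
    have ht0 : t₀ = 0 := by
      have := hwv
      rw [hnum] at this
      omega
    have hz : ∀ i t, (Nd.sl σ i t : F.Nd) ∈ S → t = 0 := by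
      intro i t h
      have := hVs i t h
      rw [hnum] at this
      omega
    refine ⟨fun _ => 0, fun _ => rfl, fun i => by rw [hnum]; exact Nat.one_pos, ht0.symm, ?_⟩
    intro i hi
    have hno : ∀ t, (Nd.sl σ d t : F.Nd) ∉ S := by
      intro t ht
      have h3 := hz d t ht
      rw [h3, ← ht0] at ht
      exact hw ht
    obtain ⟨s, hs⟩ := L3 hno i hi
    have h3 := hz i s hs
    rw [h3] at hs
    exact hs
  · rcases h2 with ⟨n₂, hn₂, ho₂⟩ | ⟨x, hx, hxd⟩
    · -- hub owned by `n₂`
      obtain ⟨σ', t', rfl, hpr, hlab⟩ := own_hb.1 ho₂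
      have hσ : σ' ≠ σ := by
        rintro rfl
        have h3 : t' = t₀ := F.lab_inj _ _ _ _ (hVs _ _ hn₂) hwv hlab
        rw [h3] at hn₂
        exact hw hn₂
      have hno : ∀ t, (Nd.sl σ d t : F.Nd) ∉ S := by
        intro s hs
        have h3 := huniq _ hn₂ _ hs rfl rfl
        exact hσ (Nd.sl.inj h3).1
      refine ⟨t, ht.1, ht.2.1, htd, fun i hi => ?_⟩
      obtain ⟨s, hs⟩ := L3 hno i hi
      obtain ⟨n, hn, ho⟩ := ht.2.2 i hi
      have h5 : n = Nd.sl σ i s :=
        hone _ hn₂ rfl _ hn _ hs (by rw [dig_of_own_st ho]; rfl) (by rw [dig_of_own_st ho]; exact hi)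
      rcases own_st.1 ho with h6 | ⟨γ, k, -, h6⟩
      · rw [← h6]; exact hn
      · rw [h6] at h5
        exact absurd h5 (by simp)
    · -- both bundles visible
      refine ⟨t, ht.1, ht.2.1, htd, fun i hi => ?_⟩
      obtain ⟨n, hn, ho⟩ := ht.2.2 i hi
      obtain ⟨n', hn', ho'⟩ := hx.2 i hi
      rcases own_st.1 ho with h6 | ⟨γ, k, hγ, h6⟩
      · rw [← h6]; exact hn
      obtain ⟨σ', t', hn'', hpr, hlab⟩ := own_hb.1 ho'
      have hne : n ≠ n' := by rw [h6, hn'']; simp
      have hni : n.dig = i := dig_of_own_st ho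
      have hni' : n'.dig = i := dig_of_own_hb ho'
      have hnod : ∀ a ∈ S, a.dig ≠ d := by
        intro a ha had
        exact hne (hone a ha had n hn n' hn' (by rw [hni, hni']) (by rw [hni]; exact hi))
      have hnoσ : ∀ s, (Nd.sl σ d s : F.Nd) ∉ S := fun s hs => hnod _ hs rfl
      by_cases hid : i = F.τ d
      · have h7 := L1 i hi hid
        have h8 : t i = t₀ := by rw [hid, ht.1 d, htd]
        rw [h8]; exact h7
      · obtain ⟨s, hs⟩ := L3 hnoσ i hi
        have h7 : n' = Nd.sl σ i s := by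
          rcases hT.two _ (hST _ hn) _ (hST _ hn') _ (hST _ hs) (by rw [hni, hni'])
            (by rw [hni]; rfl) with h | h | h
          · exact absurd h hne
          · rw [h6] at h
            exact absurd h (by simp)
          · exact h
        have h8 : F.lab σ i s = x i := by
          rw [hn''] at h7
          have h9 := Nd.sl.inj h7
          rw [← hlab, h9.1, h9.2.2]
        have hsv := hVs _ _ hs
        have hst : s = t i := by
          by_cases hidle : F.τ i = i
          · have h9 := F.num_idle σ i hidle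
            have h10 := ht.2.1 i
            rw [h9] at hsv h10
            omega
          · have hτd : F.τ i ≠ d := fun h => hid (by rw [← h, F.tau_tau])
            obtain ⟨a, ha, hao⟩ := ht.2.2 _ hτd
            obtain ⟨b, hb, hbo⟩ := hx.2 _ hτd
            have hda : a.dig = F.τ i := dig_of_own_st hao
            have hdb : b.dig = F.τ i := dig_of_own_hb hbo
            have hab : a = b := by
              rcases hT.three _ (hST _ hn) _ (hST _ hn') _ (hST _ ha) _ (hST _ hb)
                (by rw [hni, hni']) (by rw [hda, hdb]) (by rw [hni, hda]; exact fun h => hidle h.symm)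
                with h | h
              · exact absurd h hne
              · exact h
            obtain ⟨σ'', t'', hb'', hpr'', hlab''⟩ := own_hb.1 hbo
            rcases own_st.1 hao with h9 | ⟨γ', k', -, h9⟩
            · rw [hab, hb''] at h9
              have h10 := Nd.sl.inj h9
              rw [h10.1, h10.2.2, F.lab_tau, hx.1 i] at hlab''
              refine F.lab_inj σ i _ _ hsv (ht.2.1 i) ?_
              rw [h8, ← hlab'', ht.1 i]
            · rw [hab, hb''] at h9
              exact absurd h9 (by simp)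
        rw [← hst]; exact hs

end Crest.Agent.R290.FS
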