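import Crest.Agent.R290.CKeyC

/-!
Row 290, module C, piece C_KEYS: THE SLAB NODE, EVERYTHING PINNED (statements helper51).

`w = sl σ d t₀` is a new node; all its laterals are owned by old nodes and both its start and its hub are
pinned.  Then there are allowed values `a`, `b` with the parity of `w`. `keyS_code` (CKeyC.lean, imported) gives the codeword.

PROOF of `keyS_par`: sum the constraints of `sl σ i (t i)`, `i ≠ d`; the laterals `{i,j}`, `i, j ≠ d` cancel in pairs (`latv_comm`; e.g.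
  `∑_{i≠d} ∑_{j≠i} f i j = ∑_{i ≠ d} f i d + ∑_{i≠d} ∑_{j ≠ i,d} f i j`, and the last sum is 0 by `Finset.sum_involution` on pairs `(i,j) ↦ (j,i)`).
PROOF of `keyS`: let `t` be the codeword. `X_s := ∑_{i≠d} A(st σ i (t i))`, `X_h := ∑_{i≠d} A(hb ..)`; `a + b + L = 0` iff `a + X_s = b + X_h`.
  `ThrSt S d σ t`, `ThrHb S d (pr σ) (lab σ · (t ·))`, so all allowed `a` have `a + X_s ∈ D`, the same for `b`, the same domain `D`. It is the only codeword
  (`thrSt_uniq`, `thrHb_uniq`). * If the start is owned or `beta σ d ≠ none`: take `a` allowed (`alwSt_ne`), `b := a + X_s + X_h`; `b` is allowed if the hub is not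
  owned; if the hub is owned too, then `beta σ d ≠ none` [the start is not owned: otherwise the owners `n₁ = jn γ d t₀`, `n₂ = sl σ' d t'` and `w` are three different
  nodes of the digit `d`] and `D` is a singleton by `beta_D`; take `a, b` allowed: `a + X_s = b + X_h`.
  * Otherwise take `b` allowed (`alwHb_ne`) and `a := b + X_h + X_s`.
-/
set_option autoImplicit false

namespace Crest.Agent.R290.FS

open Finset

variable {F : FS}

private theorem dbl_zero {ι : Type} [DecidableEq ι] (E : Finset ι) (f : ι → ι → ZMod 2)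
    (hf : ∀ i j, f i j = f j i) : ∑ i ∈ E, ∑ j ∈ E.erase i, f i j = 0 := by
  rw [Finset.sum_sigma']
  refine Finset.sum_involution (fun x _ => ⟨x.2, x.1⟩) ?_ ?_ ?_ ?_
  · rintro ⟨i, j⟩ _
    simp only
    rw [hf j i]
    exact CharTwo.add_self_eq_zero _
  · rintro ⟨i, j⟩ h _ h'
    simp only [mem_sigma, mem_erase] at h
    simp only [Sigma.mk.injEq, heq_eq_eq] at h'
    exact h.2.1 h'.1
  · rintro ⟨i, j⟩ h
    simp only [mem_sigma, mem_erase] at h ⊢
    exact ⟨h.2.2, fun h' => h.2.1 h'.symm, h.1⟩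
  · rintro ⟨i, j⟩ _
    rfl

theorem keyS_par {A : F.As} {σ : F.Sl} {d : Fin F.m} (t : Fin F.m → ℕ) (ht : Code t)
    (hA : ∀ i, i ≠ d → (Nd.sl σ i (t i)).Ok A) :
    (∑ i ∈ univ.erase d, A (.st σ i (t i))) +
      (∑ i ∈ univ.erase d, A (.hb (F.pr σ) i (F.lab σ i (t i)))) +
      ∑ j ∈ univ.erase d, A (latv σ d j (t d)) = 0 := by
  have h1 : ∑ i ∈ univ.erase d, (A (.st σ i (t i)) + A (.hb (F.pr σ) i (F.lab σ i (t i))) +
      ∑ j ∈ univ.erase i, A (latv σ i j (t i))) = 0 :=
    sum_eq_zero fun i hi => (hA i (mem_erase.1 hi).1).1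
  rw [sum_add_distrib, sum_add_distrib] at h1
  have h2 : ∑ i ∈ univ.erase d, ∑ j ∈ univ.erase i, A (latv σ i j (t i)) =
      ∑ j ∈ univ.erase d, A (latv σ d j (t d)) := by
    have h3 : ∀ i ∈ univ.erase d, ∑ j ∈ univ.erase i, A (latv σ i j (t i)) =
        A (latv σ d i (t d)) + ∑ j ∈ (univ.erase d).erase i, A (latv σ i j (t i)) := by
      intro i hi
      have hid : i ≠ d := (mem_erase.1 hi).1
      have hd : d ∈ univ.erase i := mem_erase.2 ⟨hid.symm, mem_univ _⟩
      rw [← add_sum_erase _ _ hd, latv_comm σ t ht, erase_right_comm]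
    rw [sum_congr rfl h3, sum_add_distrib, dbl_zero (univ.erase d)
      (fun i j => A (latv σ i j (t i))) (fun i j => by rw [latv_comm σ t ht]), add_zero]
  rw [h2] at h1
  exact h1

theorem keyS {S : Finset F.Nd} {A : F.As} {σ : F.Sl} {d : Fin F.m} {t₀ : ℕ}
    (hT : Sp (insert (.sl σ d t₀) S)) (hw : Nd.sl σ d t₀ ∉ S)
    (hV : ∀ n ∈ insert (.sl σ d t₀) S, n.Val) (hA : ∀ n ∈ S, n.Ok A) (hvis : Vis S A)
    (hl : ∀ j, j ≠ d → ∃ n ∈ S, n.Own (latv σ d j t₀))
    (h1 : PinSt S σ d t₀) (h2 : PinHb S (F.pr σ) d (F.lab σ d t₀)) :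
    ∃ a b, AlwSt S A σ d t₀ a ∧ AlwHb S A (F.pr σ) d (F.lab σ d t₀) b ∧
      a + b + ∑ j ∈ univ.erase d, A (latv σ d j t₀) = 0 := by
  obtain ⟨t, ht, htn, htd, htS⟩ := keyS_code hT hw hV hl h1 h2
  have hS : Sp S := hT.mono (subset_insert _ _)
  have hVS : ∀ n ∈ S, n.Val := fun n hn => hV n (mem_insert_of_mem hn)
  have hpar := keyS_par (A := A) (d := d) t ht (fun i hi => hA _ (htS i hi))
  rw [htd] at hpar
  have hthr : ThrSt S d σ t := ⟨ht, htn, fun i hi => ⟨_, htS i hi, Or.inl rfl⟩⟩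
  have hthr' : ThrHb S d (F.pr σ) (fun i => F.lab σ i (t i)) :=
    ⟨fun i => by simp only [ht i, F.lab_tau], fun i hi => ⟨_, htS i hi, Or.inr (Or.inl rfl)⟩⟩
  have hx0 : (fun i => F.lab σ i (t i)) d = F.lab σ d t₀ := by simp only [htd]
  set Xs := ∑ i ∈ univ.erase d, A (.st σ i (t i)) with hXs
  set Xh := ∑ i ∈ univ.erase d, A (.hb (F.pr σ) i (F.lab σ i (t i))) with hXh
  set L := ∑ j ∈ univ.erase d, A (latv σ d j t₀) with hL
  have hneg : ∀ x : ZMod 2, x + x = 0 := CharTwo.add_self_eq_zero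
  by_cases ho2 : ∃ n ∈ S, n.Own (.hb (F.pr σ) d (F.lab σ d t₀))
  · by_cases hb : F.beta σ d = none
    · by_cases ho1 : ∃ n ∈ S, n.Own (.st σ d t₀)
      · exfalso
        obtain ⟨n₁, hn₁, ho₁⟩ := ho1
        obtain ⟨n₂, hn₂, ho₂⟩ := ho2
        have hd1 := dig_of_own_st ho₁
        have hd2 := dig_of_own_hb ho₂
        have hw' : (Nd.sl σ d t₀ : F.Nd).dig = d := rfl
        rcases hT.two _ (mem_insert_self _ _) n₁ (mem_insert_of_mem hn₁) n₂
          (mem_insert_of_mem hn₂) (by rw [hw', hd1]) (by rw [hw', hd2]) with h | h | h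
        · exact hw (h ▸ hn₁)
        · exact hw (h ▸ hn₂)
        · rcases own_st.1 ho₁ with h3 | ⟨γ, k, _, h3⟩
          · exact hw (h3 ▸ hn₁)
          · obtain ⟨σ', t', h4, _⟩ := own_hb.1 ho₂
            rw [h3, h4] at h
            cases h
      · obtain ⟨b, hbA⟩ := alwHb_ne (A := A) hS hVS hvis (F.pr σ) d (F.lab σ d t₀)
        have hbx := hbA.vis _ hthr' hx0
        refine ⟨b + Xh + Xs, b, ⟨fun n hn hno => absurd ⟨n, hn, hno⟩ ho1, fun c hc => ?_,
          fun t' ht' htd' => ?_⟩, hbA, ?_⟩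
        · rw [hb] at hc; cases hc
        · have := thrSt_uniq hS ht' hthr (by rw [htd', htd])
          subst this
          have e : b + Xh + Xs + Xs = b + Xh := by rw [add_assoc, hneg, add_zero]
          rw [← hXs, e]
          exact hbx
        · have e : b + Xh + Xs + b + L = (b + b) + (Xs + Xh + L) := by ring
          rw [e, hpar, hneg, add_zero]
    · obtain ⟨a, haA⟩ := alwSt_ne (A := A) hS hA hvis σ d t₀
      obtain ⟨b, hbA⟩ := alwHb_ne (A := A) hS hVS hvis (F.pr σ) d (F.lab σ d t₀)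
      have hax := haA.vis t hthr htd
      have hbx := hbA.vis _ hthr' hx0
      rw [← hXs] at hax
      have hall := F.beta_all σ d hb
      have ht0 : ∀ i, t i = 0 := fun i => by
        have := htn i
        rw [(hall i).2] at this
        omega
      have hD := F.beta_D σ (fun i => (hall i).1)
      have hD' : F.D (F.pr σ) (fun i => F.lab σ i (t i)) = {∑ i, (F.beta σ i).getD 0} := by
        rw [← hD]
        congr 1
        funext i
        rw [ht0 i]
      rw [hD', Set.mem_singleton_iff] at hax hbx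
      refine ⟨a, b, haA, hbA, ?_⟩
      have e1 : a + Xs = b + Xh := hax.trans hbx.symm
      have e2 : a + b + L = (a + Xs) + (b + Xh) + (Xs + Xh + L) := by
        have : (a + Xs) + (b + Xh) + (Xs + Xh + L) = a + b + L + ((Xs + Xs) + (Xh + Xh)) := by ring
        rw [this, hneg, hneg, add_zero, add_zero]
      rw [e2, hpar, add_zero, e1, hneg]
  · obtain ⟨a, haA⟩ := alwSt_ne (A := A) hS hA hvis σ d t₀
    have hax := haA.vis t hthr htd
    rw [← hXs] at hax
    refine ⟨a, a + Xs + Xh, haA, ⟨fun n hn hno => absurd ⟨n, hn, hno⟩ ho2,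
      fun x hx hxd => ?_⟩, ?_⟩
    · have := thrHb_uniq hS hVS hx hthr' (hxd.trans hx0.symm)
      subst this
      have e : a + Xs + Xh + Xh = a + Xs := by rw [add_assoc, hneg, add_zero]
      rw [← hXh, e]
      exact hax
    · have e : a + (a + Xs + Xh) + L = (a + a) + (Xs + Xh + L) := by ring
      rw [e, hpar, hneg, add_zero]

end Crest.Agent.R290.FS
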