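import Crest.Agent.R290.CDig

/-!
Row 290, module C, piece C_PAIRJ: the only node of the digit `τ i` is a junction node, or there is none (statements helper51).

The two twin digits `i`, `i' = τ i ≠ i` get solutions which differ by constants `κ σ` (starts) and `η e` (hubs), with
`κ σ + η (pr σ) = lam A σ i + lam A σ i'` whenever the slab `σ` has nodes of both digits in `S`.

PROOF of `pair_jn` (the only node of the digit `i'` is `v' = jn γ' i' t'`).  Find `κ' : Fin 3 → ZMod 2` with sum 0 and `κ' k = A (st (js γ' k) i t') + A (st (js γ' k) i' t')` if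
 `st (js γ' k) i t'` is owned by `S` (all three owned: `owned_sum` and `Ok` of `v'`; otherwise one is free). `κ (js γ' k) := κ' k`, otherwise 0; `η := 0`; `h := A`; `s := fill i P a`,
 `P σ t := owned at i ∨ (∃ k, σ = js γ' k ∧ t = t')`, `a` as above. No slab node of digit `i'`: the last claim is void.

PROOF of `pair_none`: `single`, `κ = η = 0`.
-/
set_option autoImplicit false

namespace Crest.Agent.R290.FS

open Finset

variable {F : FS}

namespace CPairJaux

theorem exists_triple (P : Fin 3 → Prop) (a : Fin 3 → ZMod 2)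
    (h : (∀ k, P k) → a 0 + a 1 + a 2 = 0) :
    ∃ f : Fin 3 → ZMod 2, f 0 + f 1 + f 2 = 0 ∧ ∀ k, P k → f k = a k := by
  classical
  have h2 : ∀ x : ZMod 2, x + x = 0 := fun x => CharTwo.add_self_eq_zero x
  by_cases h0 : P 0
  · by_cases h1 : P 1
    · by_cases h3 : P 2
      · refine ⟨a, h ?_, fun k _ => rfl⟩
        intro k
        fin_cases k
        · exact h0
        · exact h1
        · exact h3
      · refine ⟨![a 0, a 1, a 0 + a 1], ?_, ?_⟩
        · show a 0 + a 1 + (a 0 + a 1) = 0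
          exact h2 _
        · intro k hk
          fin_cases k
          · rfl
          · rfl
          · exact absurd hk h3
    · refine ⟨![a 0, a 0 + a 2, a 2], ?_, ?_⟩
      · show a 0 + (a 0 + a 2) + a 2 = 0
        have := h2 (a 0 + a 2)
        rw [← this]; ring
      · intro k hk
        fin_cases k
        · rfl
        · exact absurd hk h1
        · rfl
  · refine ⟨![a 1 + a 2, a 1, a 2], ?_, ?_⟩
    · show a 1 + a 2 + a 1 + a 2 = 0
      have := h2 (a 1 + a 2)
      rw [← this]; ring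
    · intro k hk
      fin_cases k
      · exact absurd hk h0
      · rfl
      · rfl

end CPairJaux

theorem pair_jn {S : Finset F.Nd} {A : F.As} (hS : Sp S) (hA : ∀ n ∈ S, n.Ok A) {i : Fin F.m}
    (hi : F.τ i ≠ i) {γ' : F.Jn} {t' : ℕ} (hv : Nd.jn γ' (F.τ i) t' ∈ S)
    (hone : ∀ n ∈ S, n.dig = F.τ i → n = Nd.jn γ' (F.τ i) t') :
    PairSol S A i := by
  classical
  have h2 : ∀ x : ZMod 2, x + x = 0 := fun x => CharTwo.add_self_eq_zero x
  obtain ⟨κ', hκ0, hκ1⟩ := CPairJaux.exists_triple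
    (fun k => ∃ n ∈ S, n.Own (.st (F.js γ' k) i t'))
    (fun k => A (.st (F.js γ' k) i t') + A (.st (F.js γ' k) (F.τ i) t')) (by
      intro h
      have e1 := owned_sum hS hA h
      have e2 : A (.st (F.js γ' 0) (F.τ i) t') + A (.st (F.js γ' 1) (F.τ i) t') +
        A (.st (F.js γ' 2) (F.τ i) t') = 0 := hA _ hv
      linear_combination e1 + e2)
  have hv0 : A (.st (F.js γ' 0) (F.τ i) t') + A (.st (F.js γ' 1) (F.τ i) t') +
        A (.st (F.js γ' 2) (F.τ i) t') = 0 := hA _ hv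
  let κ : F.Sl → ZMod 2 := fun σ => if h : ∃ k, F.js γ' k = σ then κ' h.choose else 0
  have hκ : ∀ k, κ (F.js γ' k) = κ' k := by
    intro k
    have h : ∃ k', F.js γ' k' = F.js γ' k := ⟨k, rfl⟩
    have h1 : κ (F.js γ' k) = κ' h.choose := dif_pos h
    rw [h1, (F.js_inj _ _ _ _ h.choose_spec).2]
  have hκn : ∀ σ, (¬ ∃ k, F.js γ' k = σ) → κ σ = 0 := fun σ h => dif_neg h
  -- the values at the start
  let a : F.Sl → ℕ → ZMod 2 := fun σ t => if ∃ n ∈ S, n.Own (.st σ i t) then A (.st σ i t)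
    else A (.st σ (F.τ i) t) + κ σ
  have ha1 : ∀ σ t, (∃ n ∈ S, n.Own (.st σ i t)) → a σ t = A (.st σ i t) :=
    fun σ t h => if_pos h
  have ha2 : ∀ k, a (F.js γ' k) t' = A (.st (F.js γ' k) (F.τ i) t') + κ' k := by
    intro k
    by_cases h : ∃ n ∈ S, n.Own (.st (F.js γ' k) i t')
    · rw [ha1 _ _ h, hκ1 k h]
      linear_combination -h2 (A (.st (F.js γ' k) (F.τ i) t'))
    · rw [← hκ k]
      exact if_neg h
  obtain ⟨s, hs1, hs2, hs3⟩ := fill i
    (fun σ t => (∃ n ∈ S, n.Own (.st σ i t)) ∨ ∃ k, F.js γ' k = σ ∧ t = t') a (by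
      intro γ t h
      by_cases hc : γ = γ' ∧ t = t'
      · obtain ⟨rfl, rfl⟩ := hc
        rw [ha2, ha2, ha2]
        linear_combination hv0 + hκ0
      · have ho : ∀ k, ∃ n ∈ S, n.Own (.st (F.js γ k) i t) := by
          intro k
          rcases h k with h' | ⟨k', h', ht⟩
          · exact h'
          · exact absurd ⟨(F.js_inj _ _ _ _ h').1.symm, ht⟩ hc
        rw [ha1 _ _ (ho 0), ha1 _ _ (ho 1), ha1 _ _ (ho 2)]
        exact owned_sum hS hA ho) (by
      rintro σ b t hβ (⟨n, hn, hn'⟩ | ⟨k, rfl, _⟩)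
      · rw [ha1 _ _ ⟨n, hn, hn'⟩]
        rcases own_st.1 hn' with rfl | ⟨γ, k, h3, rfl⟩
        · exact (hA _ hn).2 b hβ
        · rw [← h3, F.js_beta] at hβ
          exact absurd hβ (by simp)
      · rw [F.js_beta] at hβ
        exact absurd hβ (by simp))
  refine ⟨s, fun e c => A (.hb e i c), κ, fun _ => 0, ⟨hs1, hs2, ?_, fun n hn e c hn' => rfl⟩,
    ⟨?_, ?_, ?_, ?_⟩, ?_⟩
  · intro n hn σ t hn'
    rw [hs3 σ t (Or.inl ⟨n, hn, hn'⟩), ha1 _ _ ⟨n, hn, hn'⟩]
  · intro γ t
    have e1 := hs1 γ t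
    have e2 : κ (F.js γ 0) + κ (F.js γ 1) + κ (F.js γ 2) = 0 := by
      by_cases hc : γ = γ'
      · subst hc
        rw [hκ, hκ, hκ]; exact hκ0
      · have h0 : ∀ k, κ (F.js γ k) = 0 := fun k =>
          hκn _ (fun ⟨k', hk'⟩ => hc (F.js_inj _ _ _ _ hk').1.symm)
        rw [h0, h0, h0]; simp
    linear_combination e1 + e2
  · intro σ b t hβ
    rw [F.beta_tau σ i hi] at hβ
    rw [hs2 σ b t hβ, hκn σ, add_zero]
    rintro ⟨k, rfl⟩
    rw [F.js_beta] at hβ
    exact absurd hβ (by simp)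
  · intro n hn σ t hn'
    have hd := dig_of_own_st hn'
    have hn0 := hone n hn hd
    subst hn0
    obtain ⟨k, hk⟩ := hn'
    simp only [Vr.st.injEq, true_and] at hk
    obtain ⟨rfl, rfl⟩ := hk
    rw [hs3 _ _ (Or.inr ⟨k, rfl, rfl⟩), ha2, hκ]
    linear_combination h2 (κ' k)
  · intro n hn e c hn'
    have hd := dig_of_own_hb hn'
    have hn0 := hone n hn hd
    subst hn0
    obtain ⟨σ, t, h3, _⟩ := own_hb.1 hn'
    exact absurd h3 (by simp)
  · rintro σ _ ⟨t, ht⟩
    exact absurd (hone _ ht rfl) (by simp)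

theorem pair_none {S : Finset F.Nd} {A : F.As} (hS : Sp S) (hA : ∀ n ∈ S, n.Ok A) {i : Fin F.m}
    (hi : F.τ i ≠ i) (hone : ∀ n ∈ S, n.dig ≠ F.τ i) :
    PairSol S A i := by
  obtain ⟨s, h, hd⟩ := single hS hA i
  refine ⟨s, h, fun _ => 0, fun _ => 0, hd, ⟨?_, ?_, ?_, ?_⟩, ?_⟩
  · intro γ t
    have := hd.jn γ t
    simpa using this
  · intro σ b t hβ
    rw [F.beta_tau σ i hi] at hβ
    rw [hd.beta σ b t hβ, add_zero]
  · intro n hn σ t hn'
    exact absurd (dig_of_own_st hn') (hone n hn)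
  · intro n hn e c hn'
    exact absurd (dig_of_own_hb hn') (hone n hn)
  · rintro σ _ ⟨t, ht⟩
    exact absurd rfl (hone _ ht)

end Crest.Agent.R290.FS
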