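import Crest.Agent.R290.CPairS
import Crest.Agent.R290.CPairJ

/-!
Row 290, module C, piece C_PAIR: assembly for a pair, all digits (statements helper51).

The two twin digits `i`, `i' = τ i ≠ i` get solutions which differ by constants `κ σ` (starts) and `η e` (hubs), with
`κ σ + η (pr σ) = lam A σ i + lam A σ i'` whenever the slab `σ` has nodes of both digits in `S`.

PROOF of `pair`: if the digit `i'` has at most one node: the above. Otherwise the digit `i` has at most one node (`Sp.three`): apply it to `i'` (`τ i' = i`)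
 and shift (`s' := s + κ`, `h' := h + η`; the same `κ, η`, characteristic 2).
PROOF of `digits`: for `τ i = i` choose `single`; for `τ i ≠ i` choose `(s₀, h₀, κ₀, η₀)(i)` from `pair`; put `s i := s₀ i` if `i < τ i` or `τ i = i`, and
 `s i := s₀ (τ i) + κ₀ (τ i)` if `τ i < i`; `κ i := κ₀ (min i (τ i))`.
-/
set_option autoImplicit false

namespace Crest.Agent.R290.FS

open Finset

variable {F : FS}

/-- the case of at most one node of the digit `τ i` -/
theorem pair_one {S : Finset F.Nd} {A : F.As} (hS : Sp S) (hV : ∀ n ∈ S, n.Val)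
    (hA : ∀ n ∈ S, n.Ok A) {i : Fin F.m} (hi : F.τ i ≠ i)
    (hone : ∀ n₁ ∈ S, ∀ n₂ ∈ S, n₁.dig = F.τ i → n₂.dig = F.τ i → n₁ = n₂) : PairSol S A i := by
  by_cases h : ∃ n ∈ S, n.dig = F.τ i
  · obtain ⟨v, hv, hvd⟩ := h
    cases v with
    | sl σ' i' t' =>
      have e : i' = F.τ i := hvd
      subst e
      exact pair_sl hS hV hA hi hv (fun n hn hd => hone n hn _ hv hd rfl)
    | jn γ' i' t' =>
      have e : i' = F.τ i := hvd
      subst e
      exact pair_jn hS hA hi hv (fun n hn hd => hone n hn _ hv hd rfl)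
  · push Not at h
    exact pair_none hS hA hi h

theorem zmod2_add_add (a b : ZMod 2) : a + b + b = a := by
  rw [add_assoc, CharTwo.add_self_eq_zero, add_zero]

theorem pair {S : Finset F.Nd} {A : F.As} (hS : Sp S) (hV : ∀ n ∈ S, n.Val)
    (hA : ∀ n ∈ S, n.Ok A) {i : Fin F.m} (hi : F.τ i ≠ i) : PairSol S A i := by
  by_cases h : ∀ n₁ ∈ S, ∀ n₂ ∈ S, n₁.dig = F.τ i → n₂.dig = F.τ i → n₁ = n₂
  · exact pair_one hS hV hA hi h
  · push Not at h
    obtain ⟨n₁, h1, n₂, h2, hd1, hd2, hne⟩ := h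
    have hi' : F.τ (F.τ i) ≠ F.τ i := tau_ne hi
    have hone : ∀ n₃ ∈ S, ∀ n₄ ∈ S, n₃.dig = F.τ (F.τ i) → n₄.dig = F.τ (F.τ i) → n₃ = n₄ := by
      intro n₃ h3 n₄ h4 hd3 hd4
      have h5 := hS.three n₁ h1 n₂ h2 n₃ h3 n₄ h4 (hd1.trans hd2.symm) (hd3.trans hd4.symm) (by
        rw [hd1, hd3]
        exact hi'.symm)
      exact h5.resolve_left hne
    obtain ⟨s, g, κ, η, hD1, hD2, hlam⟩ := pair_one hS hV hA hi' hone
    rw [F.tau_tau] at hD2 hlam
    refine ⟨fun σ t => s σ t + κ σ, fun e c => g e c + η e, κ, η, hD2, ?_, ?_⟩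
    · simp only [zmod2_add_add]
      exact hD1
    · intro σ ha hb
      rw [hlam σ hb ha, add_comm]

theorem digits {S : Finset F.Nd} {A : F.As} (hS : Sp S) (hV : ∀ n ∈ S, n.Val)
    (hA : ∀ n ∈ S, n.Ok A) :
    ∃ (s : Fin F.m → F.Sl → ℕ → ZMod 2) (h : Fin F.m → F.Pr → ℕ → ZMod 2)
      (κ : Fin F.m → F.Sl → ZMod 2) (η : Fin F.m → F.Pr → ZMod 2),
      (∀ i, DS S A i (s i) (h i)) ∧
      ∀ i, F.τ i ≠ i → (∀ σ t, s (F.τ i) σ t = s i σ t + κ i σ) ∧
        (∀ e c, h (F.τ i) e c = h i e c + η i e) ∧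
        ∀ σ, (∃ t, Nd.sl σ i t ∈ S) → (∃ t, Nd.sl σ (F.τ i) t ∈ S) →
          κ i σ + η i (F.pr σ) = lam A σ i + lam A σ (F.τ i) := by
  have H : ∀ i : Fin F.m, ∃ (s : F.Sl → ℕ → ZMod 2) (h : F.Pr → ℕ → ZMod 2) (κ : F.Sl → ZMod 2)
      (η : F.Pr → ZMod 2), DS S A i s h ∧ (F.τ i ≠ i →
        DS S A (F.τ i) (fun σ t => s σ t + κ σ) (fun e c => h e c + η e) ∧
        ∀ σ, (∃ t, Nd.sl σ i t ∈ S) → (∃ t, Nd.sl σ (F.τ i) t ∈ S) →
          κ σ + η (F.pr σ) = lam A σ i + lam A σ (F.τ i)) := by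
    intro i
    by_cases hi : F.τ i = i
    · obtain ⟨s, h, hD⟩ := single hS hA i
      exact ⟨s, h, fun _ => 0, fun _ => 0, hD, fun h' => absurd hi h'⟩
    · obtain ⟨s, h, κ, η, h1, h2, h3⟩ := pair hS hV hA hi
      exact ⟨s, h, κ, η, h1, fun _ => ⟨h2, h3⟩⟩
  choose s₀ h₀ κ₀ η₀ H1 H2 using H
  refine ⟨fun i => if i ≤ F.τ i then s₀ i else fun σ t => s₀ (F.τ i) σ t + κ₀ (F.τ i) σ,
    fun i => if i ≤ F.τ i then h₀ i else fun e c => h₀ (F.τ i) e c + η₀ (F.τ i) e,
    fun i => if i ≤ F.τ i then κ₀ i else κ₀ (F.τ i),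
    fun i => if i ≤ F.τ i then η₀ i else η₀ (F.τ i), ?_, ?_⟩
  · intro i
    by_cases h : i ≤ F.τ i
    · simp only [if_pos h]
      exact H1 i
    · simp only [if_neg h]
      have hne : F.τ (F.τ i) ≠ F.τ i := by
        rw [F.tau_tau]
        intro h'
        exact h h'.le
      have h2 := (H2 (F.τ i) hne).1
      rw [F.tau_tau] at h2
      exact h2
  · intro i hi
    by_cases h : i ≤ F.τ i
    · have h' : ¬ F.τ i ≤ i := by
        intro h'
        exact hi (le_antisymm h' h)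
      simp only [if_pos h, F.tau_tau, if_neg h']
      exact ⟨fun _ _ => trivial, fun _ _ => trivial, (H2 i hi).2⟩
    · have h' : F.τ i ≤ F.τ (F.τ i) := by
        rw [F.tau_tau]
        exact (not_le.mp h).le
      simp only [if_neg h, if_pos h', zmod2_add_add]
      refine ⟨fun _ _ => trivial, fun _ _ => trivial, ?_⟩
      intro σ ha hb
      have h2 := (H2 (F.τ i) (tau_ne hi)).2 σ hb (by rw [F.tau_tau]; exact ha)
      rw [F.tau_tau] at h2
      rw [h2, add_comm]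

end Crest.Agent.R290.FS
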