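import Crest.Agent.R290.CDig

/-!
Row 290, module C, piece C_PAIRC: the constants of a slab node (statements helper51).

The two twin digits `i`, `i' = τ i ≠ i` get solutions which differ by constants `κ σ` (starts) and `η e` (hubs), with
`κ σ + η (pr σ) = lam A σ i + lam A σ i'` whenever the slab `σ` has nodes of both digits in `S`.

PROOF of `pair_sl` (the only node of the digit `i'` is `v' = sl σ' i' t'`).  `e' = pr σ'`, `c' = lab σ' i t' = lab σ' i' t'`.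
Find `κ₀, η₀` with (`pair_const`)
 (c1) if `st σ' i t'` is owned by `S`: `κ₀ = A(st σ' i t') + A(st σ' i' t')`.
 (c2) if `beta σ' i ≠ none`: `κ₀ = 0`.
 (c3) if `hb e' i c'` is owned by `S`: `η₀ = A(hb e' i c') + A(hb e' i' c')`.
 (c4) if some `sl σ' i t₁ ∈ S`: `κ₀ + η₀ = lam A σ' i + lam A σ' i'`.
 (c5) if `σ' = js γ k₀` and the two other starts `st (js γ k) i t'`, `k ≠ k₀`, are owned by `S`: `κ₀ =` the sum of their `A`-values `+ A(st σ' i' t')`.
 Existence. Case A: `sl σ' i t' ∈ S`: `κ₀, η₀` as in (c1), (c3). (c2): `Ok` of both nodes. (c4): sum of the parities of the two nodes (the twin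
  variable `tw σ' s(i,i') t'` is common, `Sym2.eq_swap`). (c5): the owners of the others: a junction node: it is `jn γ i t'`, use its `Ok`; otherwise
  three different slab nodes: impossible.
 Case B: `sl σ' i t' ∉ S`.  B1: `st σ' i t'` is owned: by `jn γ i t'`, `js γ k₀ = σ'`, so `beta = none`; `κ₀` as in (c1); (c5) by `Ok` of the junction node.
  If `hb e' i c'` is owned by `n₂`: `η₀` as in (c3), and (c4) is void: `jn γ i t'`, `n₂`, `sl σ' i t₁` : `n₂ = sl σ' i t₁`, `lab σ' i t₁ = c'`, `lab_inj`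
  gives `t₁ = t'`, contradiction. Otherwise `η₀ := κ₀ + lam + lam`.
  B2: not owned. (α) `beta σ' i ≠ none`: `κ₀ := 0`; (c5) void (`js_beta`); `η₀` as in (c3) if owned [(c4) void: `num = 1`, `t₁ = 0 = t'`], otherwise `lam + lam`.
  (β) `beta = none`, the hypothesis of (c5) holds: `κ₀` as in (c5); the owners are not `jn γ i t'` (it would own `st σ' i t'`), so they are two slab nodes
  different from all `sl σ' i t₁`: (c4) is void (`Sp.two`); `η₀` as in (c3) or 0. (γ) otherwise `η₀` as in (c3) or 0, `κ₀ := η₀ + lam + lam`.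
-/
set_option autoImplicit false

namespace Crest.Agent.R290.FS

open Finset

variable {F : FS}

private theorem sum_lat (A : F.As) (σ : F.Sl) {i : Fin F.m} (hi : F.τ i ≠ i) (t : ℕ) :
    ∑ j ∈ univ.erase i, A (latv σ i j t) = A (.tw σ s(i, F.τ i) t) + lam A σ i := by
  rw [← Finset.add_sum_erase (univ.erase i) _ (mem_erase.2 ⟨hi, mem_univ _⟩)]
  congr 1
  · rw [latv, if_pos rfl]
  · unfold lam
    refine sum_congr rfl fun j hj => ?_
    rw [latv, if_neg (mem_erase.1 hj).1]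

private theorem perm3 (g : Fin 3 → ZMod 2) (k₀ k₁ k₂ : Fin 3) (h01 : k₀ ≠ k₁) (h02 : k₀ ≠ k₂)
    (h12 : k₁ ≠ k₂) : g k₀ + g k₁ + g k₂ = g 0 + g 1 + g 2 := by
  have h : ∀ k₀ k₁ k₂ : Fin 3, k₀ ≠ k₁ → k₀ ≠ k₂ → k₁ ≠ k₂ →
      (k₀ = 0 ∧ k₁ = 1 ∧ k₂ = 2) ∨ (k₀ = 0 ∧ k₁ = 2 ∧ k₂ = 1) ∨ (k₀ = 1 ∧ k₁ = 0 ∧ k₂ = 2) ∨
      (k₀ = 1 ∧ k₁ = 2 ∧ k₂ = 0) ∨ (k₀ = 2 ∧ k₁ = 0 ∧ k₂ = 1) ∨ (k₀ = 2 ∧ k₁ = 1 ∧ k₂ = 0) := by
    decide
  rcases h k₀ k₁ k₂ h01 h02 h12 with ⟨rfl, rfl, rfl⟩ | ⟨rfl, rfl, rfl⟩ | ⟨rfl, rfl, rfl⟩ |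
    ⟨rfl, rfl, rfl⟩ | ⟨rfl, rfl, rfl⟩ | ⟨rfl, rfl, rfl⟩ <;> ring

private theorem cover3 (k₀ k₁ k₂ k : Fin 3) (h01 : k₀ ≠ k₁) (h02 : k₀ ≠ k₂)
    (h12 : k₁ ≠ k₂) : k = k₀ ∨ k = k₁ ∨ k = k₂ := by
  revert k₀ k₁ k₂ k
  decide

private theorem two_sum (g : Fin 3 → ZMod 2) (k₀ k₁ k₂ l₁ l₂ : Fin 3) (h01 : k₀ ≠ k₁)
    (h02 : k₀ ≠ k₂) (h12 : k₁ ≠ k₂) (h01' : k₀ ≠ l₁) (h02' : k₀ ≠ l₂) (h12' : l₁ ≠ l₂) :
    g k₁ + g k₂ = g l₁ + g l₂ := by
  have h1 := perm3 g k₀ k₁ k₂ h01 h02 h12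
  have h2 := perm3 g k₀ l₁ l₂ h01' h02' h12'
  have h3 : g k₀ + g k₁ + g k₂ = g k₀ + g l₁ + g l₂ := h1.trans h2.symm
  rw [add_assoc, add_assoc] at h3
  exact add_left_cancel h3

theorem pair_const {S : Finset F.Nd} {A : F.As} (hS : Sp S) (hV : ∀ n ∈ S, n.Val)
    (hA : ∀ n ∈ S, n.Ok A) {i : Fin F.m} (hi : F.τ i ≠ i) {σ' : F.Sl} {t' : ℕ}
    (hv : Nd.sl σ' (F.τ i) t' ∈ S) :
    ∃ κ₀ η₀ : ZMod 2,
      ((∃ n ∈ S, n.Own (.st σ' i t')) → κ₀ = A (.st σ' i t') + A (.st σ' (F.τ i) t')) ∧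
      (F.beta σ' i ≠ none → κ₀ = 0) ∧
      ((∃ n ∈ S, n.Own (.hb (F.pr σ') i (F.lab σ' i t'))) →
        η₀ = A (.hb (F.pr σ') i (F.lab σ' i t')) + A (.hb (F.pr σ') (F.τ i) (F.lab σ' i t'))) ∧
      ((∃ t₁, Nd.sl σ' i t₁ ∈ S) → κ₀ + η₀ = lam A σ' i + lam A σ' (F.τ i)) ∧
      ∀ γ k₀ k₁ k₂, F.js γ k₀ = σ' → k₀ ≠ k₁ → k₀ ≠ k₂ → k₁ ≠ k₂ →
        (∃ n ∈ S, n.Own (.st (F.js γ k₁) i t')) → (∃ n ∈ S, n.Own (.st (F.js γ k₂) i t')) →
        κ₀ = A (.st (F.js γ k₁) i t') + A (.st (F.js γ k₂) i t') + A (.st σ' (F.τ i) t') := by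
  classical
  have char2 : ∀ x : ZMod 2, x + x = 0 := by decide
  have hOk' := hA _ hv
  have hVal' := hV _ hv
  have ht' : t' < F.num σ' i := by
    have : t' < F.num σ' (F.τ i) := hVal'
    rwa [F.num_tau] at this
  obtain ⟨hsum', hbeta'⟩ := hOk'
  rw [sum_lat A σ' (tau_ne hi) t', F.tau_tau, F.lab_tau, Sym2.eq_swap] at hsum'
  rw [F.beta_tau σ' i hi] at hbeta'
  -- (c5) if all starts are owned
  have c5 : (∃ n ∈ S, n.Own (.st σ' i t')) → ∀ γ k₀ k₁ k₂, F.js γ k₀ = σ' → k₀ ≠ k₁ → k₀ ≠ k₂ →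
      k₁ ≠ k₂ → (∃ n ∈ S, n.Own (.st (F.js γ k₁) i t')) →
      (∃ n ∈ S, n.Own (.st (F.js γ k₂) i t')) →
        A (.st σ' i t') + A (.st σ' (F.τ i) t') =
          A (.st (F.js γ k₁) i t') + A (.st (F.js γ k₂) i t') + A (.st σ' (F.τ i) t') := by
    intro h0 γ k₀ k₁ k₂ hk h01 h02 h12 h1 h2
    have hall : ∀ k, ∃ n ∈ S, n.Own (.st (F.js γ k) i t') := by
      intro k
      rcases cover3 k₀ k₁ k₂ k h01 h02 h12 with rfl | rfl | rfl
      · rw [hk]; exact h0
      · exact h1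
      · exact h2
    have hs := owned_sum hS hA hall
    rw [← perm3 (fun k => A (.st (F.js γ k) i t')) k₀ k₁ k₂ h01 h02 h12, hk] at hs
    have hs2 : A (.st σ' i t') = A (.st (F.js γ k₁) i t') + A (.st (F.js γ k₂) i t') := by
      have e1 := char2 (A (.st (F.js γ k₁) i t') + A (.st (F.js γ k₂) i t'))
      linear_combination hs - e1
    rw [hs2]
  by_cases hsl : Nd.sl σ' i t' ∈ S
  · -- case A
    obtain ⟨hsum, hbeta⟩ := hA _ hsl
    rw [sum_lat A σ' hi t'] at hsum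
    refine ⟨A (.st σ' i t') + A (.st σ' (F.τ i) t'),
      A (.hb (F.pr σ') i (F.lab σ' i t')) + A (.hb (F.pr σ') (F.τ i) (F.lab σ' i t')),
      fun _ => rfl, ?_, fun _ => rfl, ?_, ?_⟩
    · intro hb
      obtain ⟨b, hb⟩ := Option.ne_none_iff_exists'.1 hb
      rw [hbeta b hb, hbeta' b hb]
      exact char2 b
    · intro _
      have e1 := char2 (A (.tw σ' s(i, F.τ i) t'))
      have e2 := char2 (lam A σ' i)
      have e3 := char2 (lam A σ' (F.τ i))
      linear_combination hsum + hsum' - e1 - e2 - e3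
    · exact c5 ⟨_, hsl, own_st.2 (Or.inl rfl)⟩
  · by_cases hPs : ∃ n ∈ S, n.Own (.st σ' i t')
    · -- case B1
      obtain ⟨n, hn, hno⟩ := hPs
      have hn' : ∃ γ k, F.js γ k = σ' ∧ n = .jn γ i t' := by
        rcases own_st.1 hno with h | h
        · exact absurd (h ▸ hn) hsl
        · exact h
      obtain ⟨γ, k, hγ, rfl⟩ := hn'
      have hbn : F.beta σ' i = none := by rw [← hγ]; exact F.js_beta γ k i
      by_cases hPh : ∃ n ∈ S, n.Own (.hb (F.pr σ') i (F.lab σ' i t'))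
      · refine ⟨A (.st σ' i t') + A (.st σ' (F.τ i) t'),
          A (.hb (F.pr σ') i (F.lab σ' i t')) + A (.hb (F.pr σ') (F.τ i) (F.lab σ' i t')),
          fun _ => rfl, fun h => absurd hbn h, fun _ => rfl, ?_, c5 ⟨_, hn, hno⟩⟩
        rintro ⟨t₁, ht₁⟩
        exfalso
        obtain ⟨n₂, hn₂, hno₂⟩ := hPh
        obtain ⟨σ₂, t₂, rfl, _, hlab⟩ := own_hb.1 hno₂
        rcases hS.two _ hn _ hn₂ _ ht₁ rfl rfl with h | h | h
        · exact absurd h (by simp)
        · exact absurd h (by simp)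
        · injection h with h1 h2 h3
          subst h1
          subst h3
          have hlt : t₂ < F.num σ₂ i := hV _ hn₂
          have := F.lab_inj σ₂ i t₂ t' hlt ht' hlab
          subst this
          exact hsl hn₂
      · refine ⟨A (.st σ' i t') + A (.st σ' (F.τ i) t'),
          A (.st σ' i t') + A (.st σ' (F.τ i) t') + lam A σ' i + lam A σ' (F.τ i),
          fun _ => rfl, fun h => absurd hbn h, fun h => absurd h hPh, ?_, c5 ⟨_, hn, hno⟩⟩
        intro _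
        have e1 := char2 (A (.st σ' i t') + A (.st σ' (F.τ i) t'))
        linear_combination e1
    · -- case B2
      by_cases hb : F.beta σ' i = none
      · by_cases h5 : ∃ γ k₀ k₁ k₂, F.js γ k₀ = σ' ∧ k₀ ≠ k₁ ∧ k₀ ≠ k₂ ∧ k₁ ≠ k₂ ∧
            (∃ n ∈ S, n.Own (.st (F.js γ k₁) i t')) ∧ (∃ n ∈ S, n.Own (.st (F.js γ k₂) i t'))
        · -- (β)
          obtain ⟨γ, k₀, k₁, k₂, hk, h01, h02, h12, h1, h2⟩ := h5
          refine ⟨A (.st (F.js γ k₁) i t') + A (.st (F.js γ k₂) i t') + A (.st σ' (F.τ i) t'),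
            A (.hb (F.pr σ') i (F.lab σ' i t')) + A (.hb (F.pr σ') (F.τ i) (F.lab σ' i t')),
            fun h => absurd h hPs, fun h => absurd hb h, fun _ => rfl, ?_, ?_⟩
          · rintro ⟨t₁, ht₁⟩
            exfalso
            have hown : ∀ l, (∃ n ∈ S, n.Own (.st (F.js γ l) i t')) →
                Nd.sl (F.js γ l) i t' ∈ S := by
              rintro l ⟨n, hn, hno⟩
              rcases own_st.1 hno with h | ⟨γ', k', hγ', h⟩
              · rw [← h]; exact hn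
              · exfalso
                have := (F.js_inj _ _ _ _ hγ').1
                subst this
                exact hPs ⟨n, hn, own_st.2 (Or.inr ⟨γ', k₀, hk, h⟩)⟩
            have m1 := hown k₁ h1
            have m2 := hown k₂ h2
            rcases hS.two _ m1 _ m2 _ ht₁ rfl rfl with h | h | h
            · injection h with h' _ _
              exact h12 (F.js_inj _ _ _ _ h').2
            · injection h with h' _ _
              exact h01 (F.js_inj _ _ _ _ (hk.trans h'.symm)).2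
            · injection h with h' _ _
              exact h02 (F.js_inj _ _ _ _ (hk.trans h'.symm)).2
          · intro γ' l₀ l₁ l₂ hl g01 g02 g12 _ _
            obtain ⟨hγ, hkl⟩ := F.js_inj _ _ _ _ (hl.trans hk.symm)
            subst hγ
            subst hkl
            rw [two_sum (fun k => A (.st (F.js γ' k) i t')) l₀ k₁ k₂ l₁ l₂ h01 h02 h12 g01 g02 g12]
        · -- (γ)
          refine ⟨A (.hb (F.pr σ') i (F.lab σ' i t')) + A (.hb (F.pr σ') (F.τ i) (F.lab σ' i t')) +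
              lam A σ' i + lam A σ' (F.τ i),
            A (.hb (F.pr σ') i (F.lab σ' i t')) + A (.hb (F.pr σ') (F.τ i) (F.lab σ' i t')),
            fun h => absurd h hPs, fun h => absurd hb h, fun _ => rfl, ?_, ?_⟩
          · intro _
            have e1 := char2 (A (.hb (F.pr σ') i (F.lab σ' i t')) +
              A (.hb (F.pr σ') (F.τ i) (F.lab σ' i t')))
            linear_combination e1
          · intro γ k₀ k₁ k₂ hk h01 h02 h12 h1 h2
            exact absurd ⟨γ, k₀, k₁, k₂, hk, h01, h02, h12, h1, h2⟩ h5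
      · -- (α)
        refine ⟨0,
          A (.hb (F.pr σ') i (F.lab σ' i t')) + A (.hb (F.pr σ') (F.τ i) (F.lab σ' i t')),
          fun h => absurd h hPs, fun _ => rfl, fun _ => rfl, ?_, ?_⟩
        · rintro ⟨t₁, ht₁⟩
          exfalso
          have hn1 := (F.beta_all σ' i hb i).2
          have hlt : t₁ < F.num σ' i := hV _ ht₁
          have : t₁ = t' := by omega
          subst this
          exact hsl ht₁
        · intro γ k₀ k₁ k₂ hk _ _ _ _ _
          exfalso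
          apply hb
          rw [← hk]
          exact F.js_beta γ k₀ i

end Crest.Agent.R290.FS
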