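import Crest.Agent.R290.CPairC

/-!
Row 290, module C, piece C_PAIRS: the only node of the digit `τ i` is a slab node (statements helper51).

The two twin digits `i`, `i' = τ i ≠ i` get solutions which differ by constants `κ σ` (starts) and `η e` (hubs), with
`κ σ + η (pr σ) = lam A σ i + lam A σ i'` whenever the slab `σ` has nodes of both digits in `S`.

PROOF of `pair_sl` (the only node of the digit `i'` is `v' = sl σ' i' t'`).  `e' = pr σ'`, `c' = lab σ' i t' = lab σ' i' t'`.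
Let `κ₀, η₀` be the constants of `pair_const` (CPairC.lean, imported): (c1) .. (c5) are its five claims.
 Then `κ := κ₀` at `σ'`, and if `σ' = js γ k₀` also `κ₀` at `js γ (k₀ + 1)`, otherwise 0 (so `∑ k, κ (js γ k) = 0` for all junctions, `js_inj`); `η := η₀` at `e'`,
 otherwise 0.  `s := fill i P a` with `P σ t := (∃ n ∈ S, n.Own (st σ i t)) ∨ (σ = σ' ∧ t = t')`, `a σ t := if (∃ n ∈ S, n.Own (st σ i t)) then A (st σ i t) else
 A (st σ i' t) + κ σ` [so `a σ' t' = A (st σ' i' t') + κ₀` in both cases by (c1)]; the hypothesis `hj`: `owned_sum` or (c5). `h e c := if owned at i then A (hb e i c) else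
 A (hb e i' c) + η e` [at `(e', c')` it is `A (hb e' i' c') + η₀` in both cases by (c3)].

-/
set_option autoImplicit false

namespace Crest.Agent.R290.FS

open Finset

variable {F : FS}

/-- the start constants: `κ₀` at `σ'` and at the next slab of its junction -/
theorem kap_exists (σ' : F.Sl) (κ₀ : ZMod 2) : ∃ κ : F.Sl → ZMod 2, κ σ' = κ₀ ∧
    (∀ γ, κ (F.js γ 0) + κ (F.js γ 1) + κ (F.js γ 2) = 0) ∧
    ∀ σ i, F.beta σ i ≠ none → σ ≠ σ' → κ σ = 0 := by
  classical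
  refine ⟨fun σ => if σ = σ' then κ₀ else if (∃ γ k, F.js γ k = σ' ∧ F.js γ (k + 1) = σ) then κ₀
    else 0, by simp, ?_, ?_⟩
  · intro γ
    by_cases h : ∃ k, F.js γ k = σ'
    · obtain ⟨k, hk⟩ := h
      have h1 : ∀ l, l ≠ k → F.js γ l ≠ σ' := fun l hl h' =>
        hl (F.js_inj γ γ l k (h'.trans hk.symm)).2
      have h2 : ∀ l, (∃ γ' k', F.js γ' k' = σ' ∧ F.js γ' (k' + 1) = F.js γ l) ↔ l = k + 1 := by
        intro l
        constructor
        · rintro ⟨γ', k', h3, h4⟩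
          obtain ⟨rfl, rfl⟩ := F.js_inj γ' γ k' k (h3.trans hk.symm)
          exact (F.js_inj γ' γ' _ _ h4).2.symm
        · rintro rfl; exact ⟨γ, k, hk, rfl⟩
      have h3 : ∀ l, (F.js γ l = σ') ↔ l = k := fun l =>
        ⟨fun h => by by_contra h'; exact h1 l h' h, fun h => h ▸ hk⟩
      simp only [h2, h3]
      fin_cases k <;> simp [CharTwo.add_self_eq_zero]
    · have h1 : ∀ l, F.js γ l ≠ σ' := fun l hl => h ⟨l, hl⟩
      have h2 : ∀ l, ¬ (∃ γ' k', F.js γ' k' = σ' ∧ F.js γ' (k' + 1) = F.js γ l) := by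
        rintro l ⟨γ', k', h3, h4⟩
        obtain ⟨rfl, _⟩ := F.js_inj _ _ _ _ h4
        exact h ⟨k', h3⟩
      simp only [if_neg (h1 _), if_neg (h2 _), add_zero]
  · intro σ i hb hσ
    have h2 : ¬ (∃ γ' k', F.js γ' k' = σ' ∧ F.js γ' (k' + 1) = σ) := by
      rintro ⟨γ', k', h3, h4⟩
      rw [← h4] at hb
      exact hb (F.js_beta _ _ _)
    simp only [if_neg hσ, if_neg h2]

theorem pair_sl {S : Finset F.Nd} {A : F.As} (hS : Sp S) (hV : ∀ n ∈ S, n.Val)
    (hA : ∀ n ∈ S, n.Ok A) {i : Fin F.m} (hi : F.τ i ≠ i) {σ' : F.Sl} {t' : ℕ}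
    (hv : Nd.sl σ' (F.τ i) t' ∈ S) (hone : ∀ n ∈ S, n.dig = F.τ i → n = Nd.sl σ' (F.τ i) t') :
    PairSol S A i := by
  classical
  obtain ⟨κ₀, η₀, c1, c2, c3, c4, c5⟩ := pair_const hS hV hA hi hv
  obtain ⟨κ, hκ, hκj, hκb⟩ := kap_exists σ' κ₀
  let a : F.Sl → ℕ → ZMod 2 := fun σ t =>
    if (∃ n ∈ S, n.Own (.st σ i t)) then A (.st σ i t) else A (.st σ (F.τ i) t) + κ σ
  have ha1 : ∀ σ t, (∃ n ∈ S, n.Own (.st σ i t)) → a σ t = A (.st σ i t) := fun σ t h => if_pos h
  have ha2 : a σ' t' = A (.st σ' (F.τ i) t') + κ₀ := by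
    by_cases h : ∃ n ∈ S, n.Own (.st σ' i t')
    · rw [ha1 _ _ h, c1 h]
      linear_combination (-1 : ZMod 2) * CharTwo.add_self_eq_zero (A (.st σ' (F.τ i) t'))
    · simp only [a, if_neg h, hκ]
  have hβ : ∀ σ b, F.beta σ i = some b → κ σ = 0 := by
    intro σ b hb
    by_cases h : σ = σ'
    · subst h; rw [hκ]; exact c2 (by simp [hb])
    · exact hκb σ i (by simp [hb]) h
  obtain ⟨s, hs1, hs2, hs3⟩ := fill i (fun σ t => (∃ n ∈ S, n.Own (.st σ i t)) ∨ (σ = σ' ∧ t = t')) a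
    (by
      intro γ t hk
      by_cases hall : ∀ k, ∃ n ∈ S, n.Own (.st (F.js γ k) i t)
      · rw [ha1 _ _ (hall 0), ha1 _ _ (hall 1), ha1 _ _ (hall 2)]
        exact owned_sum hS hA hall
      · push Not at hall
        obtain ⟨k₀, hk₀⟩ := hall
        have hk₀' : ¬ ∃ n ∈ S, n.Own (.st (F.js γ k₀) i t) := by
          rintro ⟨n, hn, hn'⟩; exact hk₀ n hn hn'
        obtain ⟨hσ, rfl⟩ := (hk k₀).resolve_left hk₀'
        have hoth : ∀ l, l ≠ k₀ → ∃ n ∈ S, n.Own (.st (F.js γ l) i t) := by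
          intro l hl
          refine (hk l).resolve_right ?_
          rintro ⟨h', _⟩
          exact hl (F.js_inj _ _ _ _ (h'.trans hσ.symm)).2
        have key : ∀ k₁ k₂, k₀ ≠ k₁ → k₀ ≠ k₂ → k₁ ≠ k₂ →
            a (F.js γ k₀) t + a (F.js γ k₁) t + a (F.js γ k₂) t = 0 := by
          intro k₁ k₂ h1 h2 h3
          have h4 := c5 γ k₀ k₁ k₂ hσ h1 h2 h3 (hoth _ h1.symm) (hoth _ h2.symm)
          rw [ha1 _ _ (hoth _ h1.symm), ha1 _ _ (hoth _ h2.symm), hσ, ha2, h4]
          linear_combination CharTwo.add_self_eq_zero (A (.st σ' (F.τ i) t)) +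
            CharTwo.add_self_eq_zero (A (.st (F.js γ k₁) i t)) +
            CharTwo.add_self_eq_zero (A (.st (F.js γ k₂) i t))
        fin_cases k₀
        · exact key 1 2 (by decide) (by decide) (by decide)
        · have := key 0 2 (by decide) (by decide) (by decide)
          rw [← this]; simp only [Fin.mk_one]; ring
        · have := key 0 1 (by decide) (by decide) (by decide)
          rw [← this]; simp only [Fin.reduceFinMk]; ring)
    (by
      intro σ b t hb hP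
      by_cases h : ∃ n ∈ S, n.Own (.st σ i t)
      · rw [ha1 _ _ h]
        obtain ⟨n, hn, hn'⟩ := h
        rcases own_st.1 hn' with rfl | ⟨γ, k, rfl, rfl⟩
        · exact (hA _ hn).2 b hb
        · rw [F.js_beta] at hb; simp at hb
      · obtain ⟨rfl, rfl⟩ := hP.resolve_left h
        rw [ha2, ← hκ, hβ _ _ hb, add_zero]
        exact (hA _ hv).2 b (by rw [F.beta_tau _ _ hi, hb]))
  let h : F.Pr → ℕ → ZMod 2 := fun e c =>
    if (∃ n ∈ S, n.Own (.hb e i c)) then A (.hb e i c) else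
      A (.hb e (F.τ i) c) + if e = F.pr σ' then η₀ else 0
  refine ⟨s, h, κ, fun e => if e = F.pr σ' then η₀ else 0, ⟨hs1, hs2, ?_, ?_⟩, ⟨?_, ?_, ?_, ?_⟩, ?_⟩
  · intro n hn σ t hn'
    rw [hs3 σ t (Or.inl ⟨n, hn, hn'⟩)]
    exact ha1 _ _ ⟨n, hn, hn'⟩
  · intro n hn e c hn'
    exact if_pos ⟨n, hn, hn'⟩
  · intro γ t
    linear_combination hs1 γ t + hκj γ
  · intro σ b t hb
    rw [F.beta_tau _ _ hi] at hb
    simp only [hs2 σ b t hb, hβ σ b hb, add_zero]
  · intro n hn σ t hn'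
    have h1 := hone n hn (dig_of_own_st hn')
    subst h1
    rcases own_st.1 hn' with h2 | ⟨γ, k, _, h2⟩
    · simp only [Nd.sl.injEq, true_and] at h2
      obtain ⟨rfl, rfl⟩ := h2
      have h3 := hs3 σ' t' (Or.inr ⟨rfl, rfl⟩)
      simp only [h3, ha2, hκ]
      linear_combination CharTwo.add_self_eq_zero κ₀
    · simp at h2
  · intro n hn e c hn'
    have h1 := hone n hn (dig_of_own_hb hn')
    subst h1
    obtain ⟨σ, t, h2, h3, h4⟩ := own_hb.1 hn'
    simp only [Nd.sl.injEq, true_and] at h2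
    obtain ⟨rfl, rfl⟩ := h2
    rw [F.lab_tau] at h4
    subst h3 h4
    simp only [h, if_true]
    by_cases ho : ∃ n ∈ S, n.Own (.hb (F.pr σ') i (F.lab σ' i t'))
    · rw [if_pos ho, c3 ho]
      linear_combination CharTwo.add_self_eq_zero (A (.hb (F.pr σ') i (F.lab σ' i t')))
    · rw [if_neg ho]
      linear_combination CharTwo.add_self_eq_zero η₀
  · rintro σ h1 ⟨t, h2⟩
    have h3 := hone _ h2 rfl
    simp only [Nd.sl.injEq, true_and] at h3
    obtain ⟨rfl, rfl⟩ := h3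
    simp only [hκ, if_true]
    exact c4 h1

end Crest.Agent.R290.FS
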