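import Mathlib
import Crest.Prelude.Def_BitEnc
import Crest.Prelude.Def_WL

/-!
Row 290 (S0435 - S0439), architect helper85.  DEFINITIONS SHARED BY ALL MODULES.
The global proof is in `ideas` (row 290).  Nothing here is a proof.

1. `gatom, gj, gs, JEq, SEq` : WL on arbitrary finite vertex types (for `Fin n` this is the Prelude).
2. `SMD` : multi-stack machines in normal form (description = data).
3. `RSys r` : succinct monotone rule systems, `Der` derivability.
4. `CSys κ` : F₂ constraint systems (XOR of three variables = 0, unary constraints), `Fam`, `Cons`.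
5. `gadj` : the subcubic graph of a constraint system.
6. `Key`, `csys` : the constraint system of a rule system with `m` digits.
-/
set_option autoImplicit false

namespace Crest.Agent.R290

open Crest.WLRefine Finset

/-! ### 1. Weisfeiler-Leman on finite types -/

section WL
variable {V W : Type} [Fintype V] [DecidableEq V] [Fintype W] [DecidableEq W]

omit [Fintype V] in
/-- atomic type -/
def gatom {k : ℕ} (adj : V → V → Bool) (v : Fin k → V) :
    (Fin k → Fin k → Bool) × (Fin k → Fin k → Bool) :=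
  (fun i j => decide (v i = v j), fun i j => adj (v i) (v j))

/-- joint colours -/
def gj (adj : V → V → Bool) (k : ℕ) : (s : ℕ) → (Fin k → V) → JColor k s
  | 0, v => gatom adj v
  | s + 1, v => (gj adj k s v,
      (univ : Finset V).val.map fun z => fun i => gj adj k s (Function.update v i z))

/-- separate colours -/
def gs (adj : V → V → Bool) (k : ℕ) : (s : ℕ) → (Fin k → V) → SColor k s
  | 0, v => gatom adj v
  | s + 1, v => (gs adj k s v,
      fun i => (univ : Finset V).val.map fun z => gs adj k s (Function.update v i z))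

def JEq (k : ℕ) (adj : V → V → Bool) (adj' : W → W → Bool) : Prop :=
  ∀ s, (univ : Finset (Fin k → V)).val.map (gj adj k s) =
    (univ : Finset (Fin k → W)).val.map (gj adj' k s)

def SEq (k : ℕ) (adj : V → V → Bool) (adj' : W → W → Bool) : Prop :=
  ∀ s, (univ : Finset (Fin k → V)).val.map (gs adj k s) =
    (univ : Finset (Fin k → W)).val.map (gs adj' k s)

end WL

theorem gj_eq {n : ℕ} (adj : Fin n → Fin n → Bool) (k s : ℕ) : gj adj k s = jcolor adj k s := by
  induction s with
  | zero => rfl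
  | succ s ih => funext v; simp only [gj, jcolor, ih]

theorem gs_eq {n : ℕ} (adj : Fin n → Fin n → Bool) (k s : ℕ) : gs adj k s = scolor adj k s := by
  induction s with
  | zero => rfl
  | succ s ih => funext v; simp only [gs, scolor, ih]

theorem jequiv_iff {n m : ℕ} (k : ℕ) (G : Fin n → Fin n → Bool) (H : Fin m → Fin m → Bool) :
    JEquiv k G H ↔ JEq k G H := by
  unfold JEquiv JEq; simp only [gj_eq]

theorem sequiv_iff {n m : ℕ} (k : ℕ) (G : Fin n → Fin n → Bool) (H : Fin m → Fin m → Bool) :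
    SEquiv k G H ↔ SEq k G H := by
  unfold SEquiv SEq; simp only [gs_eq]

/-! ### 2. machines in normal form -/

/-- an instruction `(tag, s, a, f)`: tag 0: push `a` on stack `s`, next state `f.getD 0 0`;
tag 1: pop stack `s`, next state `f.getD 0 0` if it was empty, `f.getD (a+1) 0` if `a` was popped;
other tags: halt, accepting iff `s = 1`. -/
abbrev InsD : Type := ℕ × ℕ × ℕ × List ℕ

/-- machine description `(code, number of stacks, number of symbols)` -/
abbrev SMD : Type := List InsD × ℕ × ℕ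

/-- configuration: state, stacks (top first) -/
structure SCfg where
  q : ℕ
  st : ℕ → List ℕ

def stepI (i : InsD) (c : SCfg) : Option SCfg :=
  if i.1 = 0 then some ⟨i.2.2.2.getD 0 0, Function.update c.st i.2.1 (i.2.2.1 :: c.st i.2.1)⟩
  else if i.1 = 1 then
    match c.st i.2.1 with
    | [] => some ⟨i.2.2.2.getD 0 0, c.st⟩
    | a :: l => some ⟨i.2.2.2.getD (a + 1) 0, Function.update c.st i.2.1 l⟩
  else none

def sstep (M : SMD) (c : SCfg) : Option SCfg :=
  match M.1[c.q]? with
  | none => none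
  | some i => stepI i c

/-- initial configuration: input on stack 0, state 0 -/
def sinit (x : List ℕ) : SCfg := ⟨0, fun s => if s = 0 then x else []⟩

/-- configuration after `t` steps -/
def scfg (M : SMD) (x : List ℕ) : ℕ → Option SCfg
  | 0 => some (sinit x)
  | t + 1 => (scfg M x t).bind (sstep M)

/-- `M` halts on `x` within `T` steps with answer `b` -/
def SHalts (M : SMD) (x : List ℕ) (T : ℕ) (b : Bool) : Prop :=
  ∃ t ≤ T, ∃ c i, scfg M x t = some c ∧ M.1[c.q]? = some i ∧ 2 ≤ i.1 ∧ (i.2.1 = 1 ↔ b = true)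

/-- well-formed: stacks and symbols are in range, at least one stack, two symbols -/
def SWF (M : SMD) : Prop :=
  1 ≤ M.2.1 ∧ 2 ≤ M.2.2 ∧ ∀ i ∈ M.1, (i.1 = 0 → i.2.1 < M.2.1 ∧ i.2.2.1 < M.2.2) ∧
    (i.1 = 1 → i.2.1 < M.2.1)

/-- bits as symbols -/
def bitsOf (w : List Bool) : List ℕ := w.map Bool.toNat

/-! ### 3. rule systems -/

/-- a rule `(e0, x) ⇐ (e1, y) ∧ (e2, z)`, for all `x, y, z` with `(x J, y J, z J) ∈ rel J`. -/
structure Rule (r : ℕ) where
  e0 : ℕ
  e1 : ℕ
  e2 : ℕ
  rel : Fin r → List (ℕ × ℕ × ℕ)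

/-- rule system on facts `(e, x)`, `x : Fin r → ℕ` -/
structure RSys (r : ℕ) where
  rules : List (Rule r)
  ax : List (ℕ × (Fin r → ℕ))
  goal : ℕ × (Fin r → ℕ)

inductive Der {r : ℕ} (R : RSys r) : ℕ → (Fin r → ℕ) → Prop
  | ax (e : ℕ) (x : Fin r → ℕ) : (e, x) ∈ R.ax → Der R e x
  | rule (ρ : Rule r) (x y z : Fin r → ℕ) : ρ ∈ R.rules →
      (∀ J, (x J, y J, z J) ∈ ρ.rel J) → Der R ρ.e1 y → Der R ρ.e2 z → Der R ρ.e0 x

/-- well-formed rule systems with digits below `A` -/
structure RSys.WF {r : ℕ} (R : RSys r) (A : ℕ) : Prop where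
  nd0 : ∀ ρ ∈ R.rules, ∀ J, ((ρ.rel J).map fun t => t.1).Nodup
  nd1 : ∀ ρ ∈ R.rules, ∀ J, ((ρ.rel J).map fun t => t.2.1).Nodup
  nd2 : ∀ ρ ∈ R.rules, ∀ J, ((ρ.rel J).map fun t => t.2.2).Nodup
  ne : ∀ ρ ∈ R.rules, ∀ J, ρ.rel J ≠ []
  lt : ∀ ρ ∈ R.rules, ∀ J, ∀ t ∈ ρ.rel J, t.1 < A ∧ t.2.1 < A ∧ t.2.2 < A
  ltax : ∀ a ∈ R.ax, ∀ J, a.2 J < A
  ltgoal : ∀ J, R.goal.2 J < A
  goal1 : ∀ ρ ∈ R.rules, ρ.e1 ≠ R.goal.1
  goal2 : ∀ ρ ∈ R.rules, ρ.e2 ≠ R.goal.1

/-- the predicates of a rule system -/
def RSys.preds {r : ℕ} (R : RSys r) : List ℕ :=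
  R.goal.1 :: (R.ax.map Prod.fst ++ R.rules.flatMap fun ρ => [ρ.e0, ρ.e1, ρ.e2])

/-- every fact is derivable -/
def RSys.Full {r : ℕ} (R : RSys r) (A : ℕ) : Prop :=
  ∀ e ∈ R.preds, ∀ x : Fin r → ℕ, (∀ J, x J < A) → Der R e x

/-! ### 4. constraint systems over F₂ -/

/-- constraint system: `a + b + c = 0` for `(a,b,c) ∈ xs`, `y = β` for `(y, β) ∈ ts`. -/
structure CSys (κ : Type) where
  xs : List (κ × κ × κ)
  ts : List (κ × ZMod 2)

inductive Item (κ : Type) : Type
  | var (y : κ)
  | nod (c : κ × κ × κ)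
  deriving DecidableEq

def Item.vars {κ : Type} : Item κ → List κ
  | .var y => [y]
  | .nod c => [c.1, c.2.1, c.2.2]

variable {κ : Type} [DecidableEq κ]

/-- the keys of all ports: three for each XOR constraint, one for each unary constraint -/
def portKeys {β : Type} (xs : List (κ × κ × κ)) (ts : List (κ × β)) : List κ :=
  (xs.flatMap fun c => [c.1, c.2.1, c.2.2]) ++ ts.map Prod.fst

def CSys.IsItem (s : CSys κ) : Item κ → Prop
  | .var y => y ∈ portKeys s.xs s.ts
  | .nod c => c ∈ s.xs

def CSys.Ok (s : CSys κ) (g : κ → ZMod 2) : Item κ → Prop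
  | .var y => ∀ β, (y, β) ∈ s.ts → g y = β
  | .nod c => g c.1 + g c.2.1 + g c.2.2 = 0

/-- `H S g` : the pebbles on the items `S` with the values `g` (only the values on the variables of
`S` matter) are a position of the family; at most `m` pebbles, extension to `m + 1`. -/
structure Fam (s : CSys κ) (m : ℕ) (H : Finset (Item κ) → (κ → ZMod 2) → Prop) : Prop where
  start : ∃ g, H ∅ g
  card : ∀ S g, H S g → S.card ≤ m
  congr : ∀ S g g', H S g → (∀ p ∈ S, ∀ x ∈ p.vars, g x = g' x) → H S g'
  item : ∀ S g, H S g → ∀ p ∈ S, s.IsItem p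
  ok : ∀ S g, H S g → ∀ p ∈ S, s.Ok g p
  mono : ∀ S S' g, H S g → S' ⊆ S → H S' g
  ext : ∀ S g, H S g → ∀ p, s.IsItem p → ∃ g', (∀ q ∈ S, ∀ x ∈ q.vars, g' x = g x) ∧
    (∀ q ∈ insert p S, s.Ok g' q) ∧ ∀ S' ⊆ insert p S, S'.card ≤ m → H S' g'

/-- consistency with `m + 1` pebbles -/
def CSys.Cons (s : CSys κ) (m : ℕ) : Prop := ∃ H, Fam s m H

/-! ### 5. the graph of a constraint system -/

/-- vertices; `X` = number of XOR constraints, `T` = number of unary constraints. Ports are numbered
`3 v + d` (XOR constraint `v`, `d < 3`) and `3 X + j` (unary constraint `j`). -/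
inductive GV (X T : ℕ) : Type
  | rt
  | rl (b : Bool)
  | bb (p : Fin (3 * X + T)) (s : Bool)
  | fr (p : Fin (3 * X + T)) (s : Bool)
  | fp (p : Fin (3 * X + T)) (s b : Bool)
  | cp (p : Fin (3 * X + T)) (b : Bool)
  | op (v : Fin X) (d : Fin 3) (b : Bool)
  | gd (v : Fin X) (z0 z1 : Bool)
  | t1 (j : Fin T)
  | t2 (j : Fin T)
  deriving DecidableEq, Fintype

/-- `q` is the next port after `p` with the same key -/
def isNext (ks : List κ) (p q : ℕ) : Bool :=
  decide (p < q ∧ ks[p]? = ks[q]? ∧ ∀ r < q, p < r → ks[r]? ≠ ks[p]?)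

/-- component of the gadget vector `(z0, z1, z0 + z1)` -/
def gz (z0 z1 : Bool) (d : Fin 3) : Bool :=
  if d.val = 0 then z0 else if d.val = 1 then z1 else Bool.xor z0 z1

/-- directed adjacency -/
def dadj (xs : List (κ × κ × κ)) (ts : List (κ × Bool)) :
    GV xs.length ts.length → GV xs.length ts.length → Bool
  | .rt, .rl _ => true
  | .rt, .bb p s => decide (p.val = 0) && !s
  | .bb p s, .bb q s' => (decide (p = q) && !s && s') || (decide (p.val + 1 = q.val) && s && !s')
  | .bb p s, .fr q s' => decide (p = q) && (s == s')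
  | .fr p s, .fp q s' _ => decide (p = q) && (s == s')
  | .fp p s b, .fp q s' b' => decide (p = q) && !s && s' && (b == b')
  | .fp p s b, .cp q b' => decide (p = q) && s && (b == b')
  | .cp p b, .cp q b' => isNext (portKeys xs ts) p q && (b == b')
  | .op v d b, .fp q s b' => decide (3 * v.val + d.val = q.val) && !s && (b == b')
  | .gd v z0 z1, .op v' d b => decide (v = v') && (gz z0 z1 d == b)
  | .t1 j, .fp q s b => decide (3 * xs.length + j.val = q.val) && !s && (b == (ts.get j).2)
  | .t1 j, .t2 j' => decide (j = j')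
  | _, _ => false

/-- the adjacency -/
def gadj (xs : List (κ × κ × κ)) (ts : List (κ × Bool))
    (u v : GV xs.length ts.length) : Bool := dadj xs ts u v || dadj xs ts v u

/-- same keys, unary values given by `f` -/
def setT (ts : List (κ × Bool)) (f : κ → Bool) : List (κ × Bool) := ts.map fun a => (a.1, f a.1)

/-! ### 6. the constraint system of a rule system -/

/-- names of the variables. `(σ, s)` is the name of a slab. -/
inductive Key : Type
  | hub (e i c : ℕ)
  | prv (a w i t : ℕ)
  | ch (σ s i t l : ℕ)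
  | lat (σ s i j : ℕ)
  | tw (σ s i t : ℕ)
  deriving DecidableEq

/-- chain variable number `l` of digit `i`, local value `t`, of the slab `(σ, s)` with hub variables
`hk`; `m` digits, `l = 0 .. m - 1`; the last one is the hub variable. -/
def chk (m σ s : ℕ) (hk : ℕ → ℕ → Key) (i t l : ℕ) : Key :=
  if l + 1 = m then hk i t else Key.ch σ s i t l

/-- lateral variable between the digits `i ≠ j` (twins: `i / 2 = j / 2`, both `< 2 r`) -/
def latk (r σ s i j t : ℕ) : Key :=
  if i < 2 * r ∧ i / 2 = j / 2 then Key.tw σ s (i / 2) t else Key.lat σ s (min i j) (max i j)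

/-- the partner of digit `i` in its link number `l` -/
def partner (i l : ℕ) : ℕ := if l < i then l else l + 1

/-- link nodes of a slab; `T i` = number of local values of digit `i`. -/
def slabNodes (r m σ s : ℕ) (T : ℕ → ℕ) (hk : ℕ → ℕ → Key) : List (Key × Key × Key) :=
  (List.range m).flatMap fun i => (List.range (T i)).flatMap fun t =>
    (List.range (m - 1)).map fun l =>
      (chk m σ s hk i t l, chk m σ s hk i t (l + 1), latk r σ s i (partner i l) t)

/-- number of local values of digit `i` for a rule -/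
def Rule.num {r : ℕ} (ρ : Rule r) (i : ℕ) : ℕ :=
  if h : i / 2 < r then (ρ.rel ⟨i / 2, h⟩).length else 1

/-- label of the local value `t` of digit `i`: coordinate `w` of the triple -/
def Rule.lab {r : ℕ} (ρ : Rule r) (w i t : ℕ) : ℕ :=
  if h : i / 2 < r then
    (let a := (ρ.rel ⟨i / 2, h⟩).getD t (0, 0, 0); if w = 0 then a.1 else if w = 1 then a.2.1 else a.2.2)
  else 0

/-- hub variables of the 9 slabs of rule number `a`: slots 0,1,2 = junction A (e0, u, v);
3,4,5 = junction B (u, e1, e2); 6,7,8 = junction C (v, e1, e2). -/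
def ruleHub {r : ℕ} (a : ℕ) (ρ : Rule r) (s i t : ℕ) : Key :=
  if s = 0 then Key.hub ρ.e0 i (ρ.lab 0 i t)
  else if s = 1 ∨ s = 3 then Key.prv a 0 i t
  else if s = 2 ∨ s = 6 then Key.prv a 1 i t
  else if s = 4 ∨ s = 7 then Key.hub ρ.e1 i (ρ.lab 1 i t)
  else Key.hub ρ.e2 i (ρ.lab 2 i t)

/-- all nodes of rule number `a` -/
def ruleNodes {r : ℕ} (m a : ℕ) (ρ : Rule r) : List (Key × Key × Key) :=
  ((List.range 9).flatMap fun s => slabNodes r m a s ρ.num (ruleHub a ρ s)) ++
  ((List.range m).flatMap fun i => (List.range (ρ.num i)).flatMap fun t => (List.range 3).map fun u =>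
    (Key.ch a (3 * u) i t 0, Key.ch a (3 * u + 1) i t 0, Key.ch a (3 * u + 2) i t 0))

/-- hub variables of a fact -/
def factHub {r : ℕ} (f : ℕ × (Fin r → ℕ)) (i _t : ℕ) : Key :=
  if h : i / 2 < r then Key.hub f.1 i (f.2 ⟨i / 2, h⟩) else Key.hub f.1 i 0

/-- nodes of the axiom (or goal) slab number `σ` -/
def factNodes {r : ℕ} (m σ : ℕ) (f : ℕ × (Fin r → ℕ)) : List (Key × Key × Key) :=
  slabNodes r m σ 0 (fun _ => 1) (factHub f)

/-- XOR constraints of a rule system with `m` digits: digits `i < 2 r` are the twins of the digit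
`i / 2` of the addresses, the others are idle. -/
def rxs {r : ℕ} (R : RSys r) (m : ℕ) : List (Key × Key × Key) :=
  (R.rules.zipIdx.flatMap fun a => ruleNodes m a.2 a.1) ++
  ((R.ax ++ [R.goal]).zipIdx.flatMap fun a => factNodes m (R.rules.length + a.2) a.1)

/-- keys of the unary constraints: starts of the axiom and goal slabs -/
def rtk {r : ℕ} (R : RSys r) (m : ℕ) : List Key :=
  (List.range (R.ax.length + 1)).flatMap fun a =>
    (List.range m).map fun i => Key.ch (R.rules.length + a) 0 i 0 0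

/-- the twisted unary constraint -/
def gkey {r : ℕ} (R : RSys r) : Key := Key.ch (R.rules.length + R.ax.length) 0 (2 * r) 0 0

/-- unary constraints, without and with the twist of the goal -/
def rts0 {r : ℕ} (R : RSys r) (m : ℕ) : List (Key × Bool) := (rtk R m).map fun y => (y, false)
def rts1 {r : ℕ} (R : RSys r) (m : ℕ) : List (Key × Bool) :=
  (rtk R m).map fun y => (y, decide (y = gkey R))

/-- the difference system -/
def csys {r : ℕ} (R : RSys r) (m : ℕ) : CSys Key :=
  ⟨rxs R m, (rtk R m).map fun y => (y, if y = gkey R then 1 else 0)⟩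

/-- the two graphs of a rule system -/
def adjG {r : ℕ} (R : RSys r) (m : ℕ) := gadj (rxs R m) (rts0 R m)
def adjH {r : ℕ} (R : RSys r) (m : ℕ) := gadj (rxs R m) (rts1 R m)

end Crest.Agent.R290
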