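import Crest.Agent.R290.EqDef
import Mathlib
import Crest.Agent.R290.Defs

/-!
Row 290, common definitions of the TWISTED objects (helper43). No sorry here.

* `gadjT xs ts tw` : the graph of the system with twisted XOR gadgets; `gadjT_false`.
* `CSysT`, `FamT`, `ConsT` : constraint systems with right-hand sides on the XOR nodes; `consT_zero`.
* `dsysT` : the difference system of two twisted graphs with the same keys.
* `rxs_nodup` : the nodes of `rxs R m` are distinct (`2 ≤ m`).
-/
set_option autoImplicit false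

namespace Crest.Agent.R290

open Crest.WLRefine Finset

variable {κ : Type} [DecidableEq κ]

/-! ### twisted graphs -/

/-- component of the gadget vector `(z0, z1, z0 + z1 + c)` -/
def gzT (c z0 z1 : Bool) (d : Fin 3) : Bool :=
  if d.val = 0 then z0 else if d.val = 1 then z1 else Bool.xor c (Bool.xor z0 z1)

/-- directed adjacency; as `dadj`, only the line of the gadgets is twisted -/
def dadjT (xs : List (κ × κ × κ)) (ts : List (κ × Bool)) (tw : κ × κ × κ → Bool) :
    GV xs.length ts.length → GV xs.length ts.length → Bool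
  | .rt, .rl _ => true
  | .rt, .bb p s => decide (p.val = 0) && !s
  | .bb p s, .bb q s' => (decide (p = q) && !s && s') || (decide (p.val + 1 = q.val) && s && !s')
  | .bb p s, .fr q s' => decide (p = q) && (s == s')
  | .fr p s, .fp q s' _ => decide (p = q) && (s == s')
  | .fp p s b, .fp q s' b' => decide (p = q) && !s && s' && (b == b')
  | .fp p s b, .cp q b' => decide (p = q) && s && (b == b')
  | .cp p b, .cp q b' => isNext (portKeys xs ts) p q && (b == b')
  | .op v d b, .fp q s b' => decide (3 * v.val + d.val = q.val) && !s && (b == b')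
  | .gd v z0 z1, .op v' d b => decide (v = v') && (gzT (tw (xs.get v)) z0 z1 d == b)
  | .t1 j, .fp q s b => decide (3 * xs.length + j.val = q.val) && !s && (b == (ts.get j).2)
  | .t1 j, .t2 j' => decide (j = j')
  | _, _ => false

/-- the adjacency of the twisted graph -/
def gadjT (xs : List (κ × κ × κ)) (ts : List (κ × Bool)) (tw : κ × κ × κ → Bool)
    (u v : GV xs.length ts.length) : Bool := dadjT xs ts tw u v || dadjT xs ts tw v u

theorem dadjT_false (xs : List (κ × κ × κ)) (ts : List (κ × Bool)) :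
    dadjT xs ts (fun _ => false) = dadj xs ts := by
  funext u v
  cases u <;> cases v <;> simp [dadjT, dadj, gzT, gz]

theorem gadjT_false (xs : List (κ × κ × κ)) (ts : List (κ × Bool)) :
    gadjT xs ts (fun _ => false) = gadj xs ts := by
  funext u v
  simp only [gadjT, gadj, dadjT_false]

/-! ### constraint systems with right-hand sides -/

/-- constraint system: `a + b + c = rhs (a,b,c)` for `(a,b,c) ∈ xs`, `y = β` for `(y, β) ∈ ts`. -/
structure CSysT (κ : Type) where
  xs : List (κ × κ × κ)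
  rhs : κ × κ × κ → ZMod 2
  ts : List (κ × ZMod 2)

def CSysT.IsItem (s : CSysT κ) : Item κ → Prop
  | .var y => y ∈ portKeys s.xs s.ts
  | .nod c => c ∈ s.xs

def CSysT.Ok (s : CSysT κ) (g : κ → ZMod 2) : Item κ → Prop
  | .var y => ∀ β, (y, β) ∈ s.ts → g y = β
  | .nod c => g c.1 + g c.2.1 + g c.2.2 = s.rhs c

/-- as `Fam`, for systems with right-hand sides -/
structure FamT (s : CSysT κ) (m : ℕ) (H : Finset (Item κ) → (κ → ZMod 2) → Prop) : Prop where
  start : ∃ g, H ∅ g
  card : ∀ S g, H S g → S.card ≤ m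
  congr : ∀ S g g', H S g → (∀ p ∈ S, ∀ x ∈ p.vars, g x = g' x) → H S g'
  item : ∀ S g, H S g → ∀ p ∈ S, s.IsItem p
  ok : ∀ S g, H S g → ∀ p ∈ S, s.Ok g p
  mono : ∀ S S' g, H S g → S' ⊆ S → H S' g
  ext : ∀ S g, H S g → ∀ p, s.IsItem p → ∃ g', (∀ q ∈ S, ∀ x ∈ q.vars, g' x = g x) ∧
    (∀ q ∈ insert p S, s.Ok g' q) ∧ ∀ S' ⊆ insert p S, S'.card ≤ m → H S' g'

/-- consistency with `m + 1` pebbles -/
def CSysT.Cons (s : CSysT κ) (m : ℕ) : Prop := ∃ H, FamT s m H

/-- a system without right-hand sides on the nodes -/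
def CSys.toT {κ : Type} (s : CSys κ) : CSysT κ := ⟨s.xs, fun _ => 0, s.ts⟩

omit [DecidableEq κ] in
theorem toT_isItem (s : CSys κ) (p : Item κ) : s.toT.IsItem p ↔ s.IsItem p := by
  cases p <;> exact Iff.rfl

omit [DecidableEq κ] in
theorem toT_ok (s : CSys κ) (g : κ → ZMod 2) (p : Item κ) : s.toT.Ok g p ↔ s.Ok g p := by
  cases p <;> exact Iff.rfl

theorem famT_toT (s : CSys κ) (m : ℕ) (H : Finset (Item κ) → (κ → ZMod 2) → Prop) :
    FamT s.toT m H ↔ Fam s m H := by
  constructor
  · intro h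
    exact ⟨h.start, h.card, h.congr, fun S g hg p hp => (toT_isItem s p).1 (h.item S g hg p hp),
      fun S g hg p hp => (toT_ok s g p).1 (h.ok S g hg p hp), h.mono, fun S g hg p hp => by
        obtain ⟨g', h1, h2, h3⟩ := h.ext S g hg p ((toT_isItem s p).2 hp)
        exact ⟨g', h1, fun q hq => (toT_ok s g' q).1 (h2 q hq), h3⟩⟩
  · intro h
    exact ⟨h.start, h.card, h.congr, fun S g hg p hp => (toT_isItem s p).2 (h.item S g hg p hp),
      fun S g hg p hp => (toT_ok s g p).2 (h.ok S g hg p hp), h.mono, fun S g hg p hp => by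
        obtain ⟨g', h1, h2, h3⟩ := h.ext S g hg p ((toT_isItem s p).1 hp)
        exact ⟨g', h1, fun q hq => (toT_ok s g' q).2 (h2 q hq), h3⟩⟩

theorem consT_zero (s : CSys κ) (m : ℕ) : s.toT.Cons m ↔ s.Cons m := by
  unfold CSysT.Cons CSys.Cons
  simp only [famT_toT]

/-- bits to `ZMod 2` -/
def tz (b : Bool) : ZMod 2 := if b then 1 else 0

/-- the difference system of `gadjT xs (tk.map fun y => (y, f y)) tw` and
`gadjT xs (tk.map fun y => (y, f' y)) tw'` -/
def dsysT (xs : List (κ × κ × κ)) (tk : List κ) (f f' : κ → Bool) (tw tw' : κ × κ × κ → Bool) :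
    CSysT κ :=
  ⟨xs, fun c => tz (Bool.xor (tw c) (tw' c)), tk.map fun y => (y, tz (Bool.xor (f y) (f' y)))⟩

/-! ### link and junction nodes -/

/-- link node number `l` of the chain `(i, t)` of the slab `(σ, s)` -/
def slabNode (r m σ s : ℕ) (hk : ℕ → ℕ → Key) (i t l : ℕ) : Key × Key × Key :=
  (chk m σ s hk i t l, chk m σ s hk i t (l + 1), latk r σ s i (partner i l) t)

/-- junction node number `u` (digit `i`, local value `t`) of rule number `a` -/
def juncNode (a i t u : ℕ) : Key × Key × Key :=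
  (Key.ch a (3 * u) i t 0, Key.ch a (3 * u + 1) i t 0, Key.ch a (3 * u + 2) i t 0)

theorem mem_slabNodes {r m σ s : ℕ} {T : ℕ → ℕ} {hk : ℕ → ℕ → Key} {c : Key × Key × Key} :
    c ∈ slabNodes r m σ s T hk ↔
      ∃ i < m, ∃ t < T i, ∃ l < m - 1, c = slabNode r m σ s hk i t l := by
  simp only [slabNodes, List.mem_flatMap, List.mem_map, List.mem_range, slabNode]
  constructor
  · rintro ⟨i, hi, t, ht, l, hl, rfl⟩; exact ⟨i, hi, t, ht, l, hl, rfl⟩
  · rintro ⟨i, hi, t, ht, l, hl, rfl⟩; exact ⟨i, hi, t, ht, l, hl, rfl⟩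

theorem mem_ruleNodes {r m a : ℕ} {ρ : Rule r} {c : Key × Key × Key} :
    c ∈ ruleNodes m a ρ ↔
      (∃ s < 9, ∃ i < m, ∃ t < ρ.num i, ∃ l < m - 1, c = slabNode r m a s (ruleHub a ρ s) i t l) ∨
      (∃ i < m, ∃ t < ρ.num i, ∃ u < 3, c = juncNode a i t u) := by
  simp only [ruleNodes, List.mem_append, List.mem_flatMap, List.mem_map, List.mem_range,
    mem_slabNodes, juncNode]
  constructor
  · rintro (h | ⟨i, hi, t, ht, u, hu, rfl⟩)
    · exact Or.inl h
    · exact Or.inr ⟨i, hi, t, ht, u, hu, rfl⟩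
  · rintro (h | ⟨i, hi, t, ht, u, hu, rfl⟩)
    · exact Or.inl h
    · exact Or.inr ⟨i, hi, t, ht, u, hu, rfl⟩

theorem mem_factNodes {r m σ : ℕ} {f : ℕ × (Fin r → ℕ)} {c : Key × Key × Key} :
    c ∈ factNodes m σ f ↔ ∃ i < m, ∃ l < m - 1, c = slabNode r m σ 0 (factHub f) i 0 l := by
  simp only [factNodes, mem_slabNodes]
  constructor
  · rintro ⟨i, hi, t, ht, l, hl, rfl⟩
    obtain rfl : t = 0 := by omega
    exact ⟨i, hi, l, hl, rfl⟩
  · rintro ⟨i, hi, l, hl, rfl⟩; exact ⟨i, hi, 0, Nat.one_pos, l, hl, rfl⟩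

theorem mem_rxs {r : ℕ} {R : RSys r} {m : ℕ} {c : Key × Key × Key} :
    c ∈ rxs R m ↔ (∃ a ρ, R.rules[a]? = some ρ ∧ c ∈ ruleNodes m a ρ) ∨
      (∃ b f, (R.ax ++ [R.goal])[b]? = some f ∧ c ∈ factNodes m (R.rules.length + b) f) := by
  simp only [rxs, List.mem_append, List.mem_flatMap, Prod.exists, List.mem_zipIdx_iff_getElem?]
  constructor
  · rintro (⟨ρ, a, h, hc⟩ | ⟨f, n, b, h, hc⟩)
    · exact Or.inl ⟨a, ρ, h, hc⟩
    · exact Or.inr ⟨b, f, n, h, hc⟩
  · rintro (⟨a, ρ, h, hc⟩ | ⟨b, f, n, h, hc⟩)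
    · exact Or.inl ⟨ρ, a, h, hc⟩
    · exact Or.inr ⟨f, n, b, h, hc⟩

theorem mem_rtk {r : ℕ} {R : RSys r} {m : ℕ} {y : Key} :
    y ∈ rtk R m ↔ ∃ b < R.ax.length + 1, ∃ i < m, y = Key.ch (R.rules.length + b) 0 i 0 0 := by
  simp only [rtk, List.mem_flatMap, List.mem_map, List.mem_range]
  constructor
  · rintro ⟨b, hb, i, hi, rfl⟩; exact ⟨b, hb, i, hi, rfl⟩
  · rintro ⟨b, hb, i, hi, rfl⟩; exact ⟨b, hb, i, hi, rfl⟩

/-! ### the nodes are distinct -/

/-- `(σ, s, i, t, l)` if the first key is `ch σ s i t l` -/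
def tag5 (c : Key × Key × Key) : ℕ × ℕ × ℕ × ℕ × ℕ :=
  match c.1 with
  | .ch σ s i t l => (σ, s, i, t, l)
  | _ => (0, 0, 0, 0, 0)

/-- is it a junction node? -/
def isJ (c : Key × Key × Key) : Bool :=
  match c.2.1 with
  | .ch _ _ _ _ l => decide (l = 0)
  | _ => false

theorem tag5_slab {r m σ s : ℕ} {hk : ℕ → ℕ → Key} {i t l : ℕ} (h : l < m - 1) :
    tag5 (slabNode r m σ s hk i t l) = (σ, s, i, t, l) := by
  have : l + 1 ≠ m := by omega
  simp [tag5, slabNode, chk, this]

theorem tag5_junc {a i t u : ℕ} : tag5 (juncNode a i t u) = (a, 3 * u, i, t, 0) := rfl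

theorem isJ_junc {a i t u : ℕ} : isJ (juncNode a i t u) = true := rfl

theorem isJ_slab {r m σ s : ℕ} {hk : ℕ → ℕ → Key} {i t l : ℕ}
    (hh : ∀ i t σ' s' i' t' l', hk i t ≠ Key.ch σ' s' i' t' l') :
    isJ (slabNode r m σ s hk i t l) = false := by
  unfold isJ slabNode chk
  by_cases h : l + 1 + 1 = m
  · simp only [h, if_true]
    cases hkk : hk i t with
    | ch σ' s' i' t' l' => exact absurd hkk (hh i t σ' s' i' t' l')
    | hub _ _ _ => rfl
    | prv _ _ _ _ => rfl
    | lat _ _ _ _ => rfl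
    | tw _ _ _ _ => rfl
  · simp [h]

theorem ruleHub_ne {r : ℕ} (a : ℕ) (ρ : Rule r) (s i t σ' s' i' t' l' : ℕ) :
    ruleHub a ρ s i t ≠ Key.ch σ' s' i' t' l' := by
  unfold ruleHub
  split_ifs <;> simp

theorem factHub_ne {r : ℕ} (f : ℕ × (Fin r → ℕ)) (i t σ' s' i' t' l' : ℕ) :
    factHub f i t ≠ Key.ch σ' s' i' t' l' := by
  unfold factHub
  split_ifs <;> simp

theorem nodup_flatMap_tag {α β γ : Type} {l : List α} {f : α → List β} (tag : β → γ) (g : α → γ)
    (hl : (l.map g).Nodup) (hf : ∀ a ∈ l, (f a).Nodup) (h : ∀ a ∈ l, ∀ b ∈ f a, tag b = g a) :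
    (l.flatMap f).Nodup := by
  rw [List.nodup_flatMap]
  refine ⟨hf, ?_⟩
  have h1 : l.Pairwise fun a b => g a ≠ g b := by
    have := hl
    rw [List.Nodup, List.pairwise_map] at this
    exact this
  refine List.Pairwise.imp_of_mem ?_ h1
  intro a b ha hb hab x hx hy
  exact hab ((h a ha x hx).symm.trans (h b hb x hy))

theorem slabNodes_nodup (r m σ s : ℕ) (T : ℕ → ℕ) (hk : ℕ → ℕ → Key) :
    (slabNodes r m σ s T hk).Nodup := by
  unfold slabNodes
  refine nodup_flatMap_tag (fun c => (tag5 c).2.2.1) id (by simpa using List.nodup_range) ?_ ?_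
  · intro i _
    refine nodup_flatMap_tag (fun c => (tag5 c).2.2.2.1) id (by simpa using List.nodup_range) ?_ ?_
    · intro t _
      refine List.Nodup.map_on ?_ List.nodup_range
      intro l hl l' hl' h
      have h1 := congrArg tag5 h
      rw [List.mem_range] at hl hl'
      have e1 := tag5_slab (r := r) (σ := σ) (s := s) (hk := hk) (i := i) (t := t) hl
      have e2 := tag5_slab (r := r) (σ := σ) (s := s) (hk := hk) (i := i) (t := t) hl'
      unfold slabNode at e1 e2
      rw [e1, e2] at h1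
      simpa using h1
    · intro t _ c hc
      rw [List.mem_map] at hc
      obtain ⟨l, hl, rfl⟩ := hc
      have e1 := tag5_slab (r := r) (σ := σ) (s := s) (hk := hk) (i := i) (t := t)
        (List.mem_range.1 hl)
      unfold slabNode at e1
      simp only [e1, id]
  · intro i _ c hc
    rw [List.mem_flatMap] at hc
    obtain ⟨t, _, hc⟩ := hc
    rw [List.mem_map] at hc
    obtain ⟨l, hl, rfl⟩ := hc
    have e1 := tag5_slab (r := r) (σ := σ) (s := s) (hk := hk) (i := i) (t := t)
      (List.mem_range.1 hl)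
    unfold slabNode at e1
    simp only [e1, id]

theorem ruleNodes_nodup {r : ℕ} (m a : ℕ) (ρ : Rule r) : (ruleNodes m a ρ).Nodup := by
  unfold ruleNodes
  rw [List.nodup_append]
  refine ⟨?_, ?_, ?_⟩
  · refine nodup_flatMap_tag (fun c => (tag5 c).2.1) id (by simpa using List.nodup_range)
      (fun s _ => slabNodes_nodup _ _ _ _ _ _) ?_
    intro s _ c hc
    obtain ⟨i, _, t, _, l, hl, rfl⟩ := mem_slabNodes.1 hc
    rw [tag5_slab hl]; rfl
  · refine nodup_flatMap_tag (fun c => (tag5 c).2.2.1) id (by simpa using List.nodup_range) ?_ ?_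
    · intro i _
      refine nodup_flatMap_tag (fun c => (tag5 c).2.2.2.1) id (by simpa using List.nodup_range)
        ?_ ?_
      · intro t _
        refine List.Nodup.map_on ?_ List.nodup_range
        intro u _ u' _ h
        have h1 := congrArg tag5 h
        simp only [tag5, Prod.mk.injEq, true_and] at h1
        omega
      · intro t _ c hc
        rw [List.mem_map] at hc
        obtain ⟨u, _, rfl⟩ := hc
        rfl
    · intro i _ c hc
      rw [List.mem_flatMap] at hc
      obtain ⟨t, _, hc⟩ := hc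
      rw [List.mem_map] at hc
      obtain ⟨u, _, rfl⟩ := hc
      rfl
  · intro c hc c' hc' he
    subst he
    rw [List.mem_flatMap] at hc
    obtain ⟨s, _, hc⟩ := hc
    obtain ⟨i, _, t, _, l, hl, rfl⟩ := mem_slabNodes.1 hc
    have h1 : isJ (slabNode r m a s (ruleHub a ρ s) i t l) = false :=
      isJ_slab fun i t σ' s' i' t' l' => ruleHub_ne a ρ s i t σ' s' i' t' l'
    simp only [List.mem_flatMap, List.mem_map] at hc'
    obtain ⟨i', _, t', _, u', _, h2⟩ := hc'
    have h3 := congrArg isJ h2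
    rw [h1] at h3
    exact absurd h3 (by simp [isJ])

theorem ruleNodes_tag {r m a : ℕ} {ρ : Rule r} {c : Key × Key × Key} (h : c ∈ ruleNodes m a ρ) :
    (tag5 c).1 = a := by
  rcases mem_ruleNodes.1 h with ⟨s, _, i, _, t, _, l, hl, rfl⟩ | ⟨i, _, t, _, u, _, rfl⟩
  · rw [tag5_slab hl]
  · rfl

theorem factNodes_tag {r m a : ℕ} {f : ℕ × (Fin r → ℕ)} {c : Key × Key × Key}
    (h : c ∈ factNodes m a f) : (tag5 c).1 = a := by
  obtain ⟨i, _, l, hl, rfl⟩ := mem_factNodes.1 h
  rw [tag5_slab hl]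

theorem rxs_nodup {r : ℕ} (R : RSys r) (m : ℕ) : (rxs R m).Nodup := by
  unfold rxs
  rw [List.nodup_append]
  refine ⟨?_, ?_, ?_⟩
  · refine nodup_flatMap_tag (fun c => (tag5 c).1) Prod.snd ?_
      (fun a _ => ruleNodes_nodup _ _ _) (fun a _ c hc => ruleNodes_tag hc)
    rw [List.zipIdx_map_snd]
    exact List.nodup_range'
  · refine nodup_flatMap_tag (fun c => (tag5 c).1) (fun a => R.rules.length + a.2) ?_
      (fun a _ => slabNodes_nodup _ _ _ _ _ _) (fun a _ c hc => factNodes_tag hc)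
    have h1 : ((R.ax ++ [R.goal]).zipIdx.map fun a => R.rules.length + a.2) =
        ((R.ax ++ [R.goal]).zipIdx.map Prod.snd).map fun b => R.rules.length + b := by
      rw [List.map_map]; rfl
    rw [h1, List.zipIdx_map_snd]
    exact List.Nodup.map (fun x y h => by simpa using h) List.nodup_range'
  · intro c hc c' hc' he
    subst he
    rw [List.mem_flatMap] at hc hc'
    obtain ⟨a, ha, hc⟩ := hc
    obtain ⟨b, _, hc'⟩ := hc'
    have h1 := ruleNodes_tag hc
    have h2 := factNodes_tag hc'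
    have h3 : a.2 < R.rules.length := by
      have := List.mem_zipIdx_iff_getElem?.1 ha
      exact (List.getElem?_eq_some_iff.1 this).1
    omega

theorem rtk_nodup {r : ℕ} (R : RSys r) (m : ℕ) : (rtk R m).Nodup := by
  unfold rtk
  refine nodup_flatMap_tag (fun y : Key => match y with | .ch σ _ _ _ _ => σ | _ => 0)
    (fun a => R.rules.length + a)
    (List.Nodup.map (fun x y h => by simpa using h) List.nodup_range) ?_ ?_
  · intro a _
    refine List.Nodup.map (fun x y h => ?_) List.nodup_range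
    simpa using h
  · intro a _ y hy
    rw [List.mem_map] at hy
    obtain ⟨i, _, rfl⟩ := hy
    rfl

end Crest.Agent.R290
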