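import Crest.Agent.R290.CInst
import Crest.Agent.R290.CFam
import Crest.Agent.R290.JDefs

/-!
Row 290, module C, concrete part 2 (helper77): from the positions of the fat system `fsys` to the
consistency of `csys R m`; `dupC` = module C.
-/
set_option autoImplicit false

namespace Crest.Agent.R290

open Finset

/-- digit number `i` -/
def dgt {r m : ℕ} (hm : 2 * r < m) (i : ℕ) : Fin m := ⟨i % m, Nat.mod_lt _ (by omega)⟩

theorem dgt_val {r m : ℕ} (hm : 2 * r < m) (i : Fin m) : dgt hm i.val = i := by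
  apply Fin.ext; exact Nat.mod_eq_of_lt i.isLt

theorem dgt_lt {r m : ℕ} (hm : 2 * r < m) {i : ℕ} (h : i < m) : dgt hm i = ⟨i, h⟩ := by
  apply Fin.ext; exact Nat.mod_eq_of_lt h

section
variable {r : ℕ} (R : RSys r)

/-- the slab of the name `(σ, s)` -/
def slabD (σ s : ℕ) : CSl R :=
  if h : σ < R.rules.length then .inl (⟨σ, h⟩, ⟨s % 9, Nat.mod_lt _ (by norm_num)⟩)
  else .inr ⟨(σ - R.rules.length) % (R.ax.length + 1), Nat.mod_lt _ (by omega)⟩

/-- name of a slab -/
def nmσ : CSl R → ℕ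
  | .inl p => p.1.val
  | .inr b => R.rules.length + b.val

def nms : CSl R → ℕ
  | .inl p => p.2.val
  | .inr _ => 0

theorem slabD_nm (sl : CSl R) : slabD R (nmσ R sl) (nms R sl) = sl := by
  rcases sl with p | b
  · unfold slabD nmσ nms
    dsimp only
    rw [dif_pos p.1.isLt]
    congr 1
    refine Prod.ext rfl ?_
    apply Fin.ext
    exact Nat.mod_eq_of_lt p.2.isLt
  · unfold slabD nmσ nms
    dsimp only
    rw [dif_neg (by omega)]
    congr 1
    apply Fin.ext
    show (R.rules.length + b.val - R.rules.length) % (R.ax.length + 1) = b.val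
    rw [Nat.add_sub_cancel_left]
    exact Nat.mod_eq_of_lt b.isLt

/-- hub keys of a slab -/
def hkS : CSl R → ℕ → ℕ → Key
  | .inl p => ruleHub p.1.val (R.rules[p.1]) p.2.val
  | .inr b => factHub (factAt R b)

/-- concretely typed fat assignments -/
structure TA (R : RSys r) (m : ℕ) where
  st : CSl R → Fin m → ℕ → ZMod 2
  hb : CPr R → Fin m → ℕ → ZMod 2
  lt : CSl R → Sym2 (Fin m) → ZMod 2
  tw : CSl R → Sym2 (Fin m) → ℕ → ZMod 2

end

section Thin
variable {r A m : ℕ} {R : RSys r} (hm : 2 * r < m)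

/-- lateral value -/
def TA.lv (T : TA R m) (sl : CSl R) (i j : Fin m) (t : ℕ) : ZMod 2 :=
  if j = ctau hm i then T.tw sl s(i, j) t else T.lt sl s(i, j)

/-- thin assignment of a fat one -/
def thin (T : TA R m) : Key → ZMod 2
  | .hub e i c => T.hb (Sum.inl e) (dgt hm i) c
  | .prv b w i t => if h : b < R.rules.length then
      T.hb (Sum.inr (⟨b, h⟩, ⟨w % 2, Nat.mod_lt _ (by norm_num)⟩)) (dgt hm i) t else 0
  | .ch σ s i t l => T.st (slabD R σ s) (dgt hm i) t +
      ∑ l' ∈ range l, T.lv hm (slabD R σ s) (dgt hm i) (dgt hm (partner i l')) t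
  | .lat σ s i j => T.lt (slabD R σ s) s(dgt hm i, dgt hm j)
  | .tw σ s J t => T.tw (slabD R σ s) s(dgt hm (2 * J), dgt hm (2 * J + 1)) t

theorem thin_hub (T : TA R m) (sl : CSl R) (i : Fin m) (t : ℕ) :
    thin hm T (hkS R sl i.val t) = T.hb (cpr R sl) i (clab R sl i.val t) := by
  rcases sl with ⟨b, s⟩ | b
  · show thin hm T (ruleHub b.val (R.rules[b]) s.val i.val t) = _
    unfold ruleHub cpr clab
    dsimp only
    split_ifs with h1 h2 h3 h4
    · show T.hb (Sum.inl _) (dgt hm i.val) _ = _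
      rw [dgt_val]
    · show (if h : b.val < R.rules.length then
        T.hb (Sum.inr (⟨b.val, h⟩, ⟨0 % 2, Nat.mod_lt _ (by norm_num)⟩)) (dgt hm i.val) t
          else 0) = _
      rw [dif_pos b.isLt, dgt_val]
      rfl
    · show (if h : b.val < R.rules.length then
        T.hb (Sum.inr (⟨b.val, h⟩, ⟨1 % 2, Nat.mod_lt _ (by norm_num)⟩)) (dgt hm i.val) t
          else 0) = _
      rw [dif_pos b.isLt, dgt_val]
      rfl
    · show T.hb (Sum.inl _) (dgt hm i.val) _ = _
      rw [dgt_val]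
    · show T.hb (Sum.inl _) (dgt hm i.val) _ = _
      rw [dgt_val]
  · show thin hm T (factHub (factAt R b) i.val t) = _
    unfold factHub cpr clab
    dsimp only
    split_ifs with h1
    · show T.hb (Sum.inl _) (dgt hm i.val) _ = _
      rw [dgt_val]
    · show T.hb (Sum.inl _) (dgt hm i.val) _ = _
      rw [dgt_val]

theorem partner_ne' {i l : ℕ} : partner i l ≠ i := by
  unfold partner; split_ifs <;> omega

theorem partner_lt' {m i l : ℕ} (hl : l < m - 1) : partner i l < m := by
  unfold partner; split_ifs <;> omega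

theorem thin_lat (T : TA R m) (sl : CSl R) (i : Fin m) {j : ℕ} (hj : j < m)
    (hji : j ≠ i.val) (t : ℕ) :
    thin hm T (latk r (nmσ R sl) (nms R sl) i.val j t) = T.lv hm sl i (dgt hm j) t := by
  have hτ : (dgt hm j = ctau hm i) ↔ (i.val < 2 * r ∧ i.val / 2 = j / 2) := by
    rw [Fin.ext_iff, ctau_val, dgt_lt hm hj]
    show j = _ ↔ _
    split_ifs <;> omega
  unfold latk TA.lv
  by_cases h : i.val < 2 * r ∧ i.val / 2 = j / 2
  · rw [if_pos h, if_pos (hτ.2 h)]
    show T.tw (slabD R (nmσ R sl) (nms R sl))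
      s(dgt hm (2 * (i.val / 2)), dgt hm (2 * (i.val / 2) + 1)) t = _
    rw [slabD_nm]
    have h1 : i.val < m := i.isLt
    by_cases he : i.val % 2 = 0
    · have e1 : 2 * (i.val / 2) = i.val := by omega
      have e2 : 2 * (i.val / 2) + 1 = j := by omega
      rw [e2, e1, dgt_val]
    · have e1 : 2 * (i.val / 2) + 1 = i.val := by omega
      have e2 : 2 * (i.val / 2) = j := by omega
      rw [e1, e2, dgt_val, Sym2.eq_swap]
  · rw [if_neg h, if_neg (fun h' => h (hτ.1 h'))]
    show T.lt (slabD R (nmσ R sl) (nms R sl)) s(dgt hm (min i.val j), dgt hm (max i.val j)) = _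
    rw [slabD_nm]
    rcases lt_or_ge i.val j with h2 | h2
    · rw [min_eq_left h2.le, max_eq_right h2.le, dgt_val]
    · rw [min_eq_right h2, max_eq_left h2, dgt_val, Sym2.eq_swap]

/-- the laterals of a digit, by link number -/
theorem sum_partner_fin {m : ℕ} {r : ℕ} (hm : 2 * r < m) (i : Fin m) (f : Fin m → ZMod 2) :
    ∑ l ∈ range (m - 1), f (dgt hm (partner i.val l)) = ∑ j ∈ univ.erase i, f j := by
  refine Finset.sum_bij (fun l _ => dgt hm (partner i.val l)) ?_ ?_ ?_ ?_
  · intro l hl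
    rw [mem_range] at hl
    rw [mem_erase]
    refine ⟨?_, mem_univ _⟩
    rw [dgt_lt hm (partner_lt' hl)]
    intro h
    exact partner_ne' (congrArg Fin.val h)
  · intro l hl l' hl' h
    rw [mem_range] at hl hl'
    rw [dgt_lt hm (partner_lt' hl), dgt_lt hm (partner_lt' hl'), Fin.mk.injEq] at h
    unfold partner at h
    split_ifs at h <;> omega
  · intro j hj
    rw [mem_erase] at hj
    have h1 : j.val ≠ i.val := fun e => hj.1 (Fin.ext e)
    have hj' := j.isLt
    have hi' := i.isLt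
    rcases lt_or_ge j.val i.val with h | h
    · refine ⟨j.val, mem_range.2 (by omega), ?_⟩
      have e : partner i.val j.val = j.val := by unfold partner; rw [if_pos h]
      rw [e, dgt_val]
    · refine ⟨j.val - 1, mem_range.2 (by omega), ?_⟩
      have e : partner i.val (j.val - 1) = j.val := by unfold partner; rw [if_neg (by omega)]; omega
      rw [e, dgt_val]
  · intro l _; rfl

theorem thin_chk (T : TA R m) (sl : CSl R) (i : Fin m) (t l : ℕ) :
    thin hm T (chk m (nmσ R sl) (nms R sl) (hkS R sl) i.val t l) =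
      if l + 1 = m then T.hb (cpr R sl) i (clab R sl i.val t)
      else T.st sl i t + ∑ l' ∈ range l, T.lv hm sl i (dgt hm (partner i.val l')) t := by
  unfold chk
  split_ifs with h
  · exact thin_hub hm T sl i t
  · show T.st (slabD R (nmσ R sl) (nms R sl)) (dgt hm i.val) t +
      ∑ l' ∈ range l, T.lv hm (slabD R (nmσ R sl) (nms R sl))
        (dgt hm i.val) (dgt hm (partner i.val l')) t = _
    rw [slabD_nm, dgt_val]

variable {hm} {hR : R.WF A} {hnd : ¬ Der R R.goal.1 R.goal.2}

/-- the typed form of an assignment of `fsys` -/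
def toTA (a : (fsys R hm hR hnd).As) : TA R m where
  st := fun sl i t => a (.st sl i t)
  hb := fun e i c => a (.hb e i c)
  lt := fun sl p => a (.lt sl p)
  tw := fun sl p t => a (.tw sl p t)

theorem latv_val {F : FS} (a : F.As) (sl : F.Sl) (i j : Fin F.m) (t : ℕ) :
    a (FS.latv sl i j t) = if j = F.τ i then a (.tw sl s(i, j) t) else a (.lt sl s(i, j)) := by
  unfold FS.latv
  split_ifs <;> rfl

theorem toTA_lv (a : (fsys R hm hR hnd).As) (sl : CSl R) (i j : Fin m) (t : ℕ) :
    (toTA a).lv hm sl i j t = a (FS.latv (F := fsys R hm hR hnd) sl i j t) :=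
  (latv_val a sl i j t).symm

/-- the fat node `n` covers the thin item `p` -/
def Cov (R : RSys r) (hm : 2 * r < m) (hR : R.WF A) (hnd : ¬ Der R R.goal.1 R.goal.2)
    (p : Item Key) (n : (fsys R hm hR hnd).Nd) : Prop :=
  n.Val ∧ (∀ a a' : (fsys R hm hR hnd).As, (∀ x, n.Own x → a x = a' x) →
    ∀ y ∈ p.vars, thin hm (toTA a) y = thin hm (toTA a') y) ∧
  ∀ a : (fsys R hm hR hnd).As, n.Ok a → (csys R m).Ok (thin hm (toTA a)) p

/-- agreement on a slab node -/
theorem agr_sl {a a' : (fsys R hm hR hnd).As} {sl : CSl R} {i : Fin m} {t : ℕ}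
    (h : ∀ x, FS.Nd.Own (F := fsys R hm hR hnd) (.sl sl i t) x → a x = a' x) :
    (toTA a).st sl i t = (toTA a').st sl i t ∧
    (toTA a).hb (cpr R sl) i (clab R sl i.val t) = (toTA a').hb (cpr R sl) i (clab R sl i.val t) ∧
    ∀ j, j ≠ i → (toTA a).lv hm sl i j t = (toTA a').lv hm sl i j t := by
  refine ⟨h _ (Or.inl rfl), h _ (Or.inr (Or.inl rfl)), fun j hj => ?_⟩
  rw [toTA_lv, toTA_lv]
  exact h _ (Or.inr (Or.inr ⟨j, hj, rfl⟩))

theorem ok_sl {a : (fsys R hm hR hnd).As} {sl : CSl R} {i : Fin m} {t : ℕ}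
    (h : FS.Nd.Ok (F := fsys R hm hR hnd) (.sl sl i t) a) :
    (toTA a).st sl i t + (toTA a).hb (cpr R sl) i (clab R sl i.val t) +
      ∑ j ∈ univ.erase i, (toTA a).lv hm sl i j t = 0 := by
  have h1 := h.1
  have e : ∑ j ∈ univ.erase i, (toTA a).lv hm sl i j t =
      ∑ j ∈ univ.erase i, a (FS.latv (F := fsys R hm hR hnd) sl i j t) :=
    sum_congr rfl fun j _ => toTA_lv a sl i j t
  rw [e]
  exact h1

theorem dgt_partner_ne (i : Fin m) {l : ℕ} (hl : l < m - 1) : dgt hm (partner i.val l) ≠ i := by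
  rw [dgt_lt hm (partner_lt' hl)]
  intro h
  exact partner_ne' (congrArg Fin.val h)

theorem cov_link (sl : CSl R) (i : Fin m) {t l : ℕ} (ht : t < cnum R sl i.val) (hl : l < m - 1) :
    Cov R hm hR hnd (.nod (slabNode r m (nmσ R sl) (nms R sl) (hkS R sl) i.val t l))
      (.sl sl i t) := by
  refine ⟨ht, ?_, ?_⟩
  · intro a a' haa y hy
    obtain ⟨hst, hhb, hlat⟩ := agr_sl haa
    have hch : ∀ l', l' ≤ m - 1 →
        thin hm (toTA a) (chk m (nmσ R sl) (nms R sl) (hkS R sl) i.val t l') =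
        thin hm (toTA a') (chk m (nmσ R sl) (nms R sl) (hkS R sl) i.val t l') := by
      intro l' hl'
      rw [thin_chk, thin_chk, hhb, hst]
      split_ifs with h
      · rfl
      · congr 1
        refine sum_congr rfl fun l'' hl'' => hlat _ (dgt_partner_ne i ?_)
        rw [mem_range] at hl''
        omega
    have hy' : y = chk m (nmσ R sl) (nms R sl) (hkS R sl) i.val t l ∨
        y = chk m (nmσ R sl) (nms R sl) (hkS R sl) i.val t (l + 1) ∨
        y = latk r (nmσ R sl) (nms R sl) i.val (partner i.val l) t := by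
      simpa [Item.vars, slabNode] using hy
    rcases hy' with rfl | rfl | rfl
    · exact hch l (by omega)
    · exact hch (l + 1) (by omega)
    · rw [thin_lat hm _ sl i (partner_lt' hl) partner_ne', thin_lat hm _ sl i (partner_lt' hl)
        partner_ne']
      exact hlat _ (dgt_partner_ne i hl)
  · intro a hok
    have hok1 := ok_sl hok
    show thin hm (toTA a) (chk m (nmσ R sl) (nms R sl) (hkS R sl) i.val t l) +
      thin hm (toTA a) (chk m (nmσ R sl) (nms R sl) (hkS R sl) i.val t (l + 1)) +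
      thin hm (toTA a) (latk r (nmσ R sl) (nms R sl) i.val (partner i.val l) t) = 0
    rw [thin_lat hm _ sl i (partner_lt' hl) partner_ne', thin_chk, thin_chk, if_neg (by omega)]
    split_ifs with h
    · rw [← sum_partner_fin hm i (fun j => (toTA a).lv hm sl i j t)] at hok1
      have e : m - 1 = l + 1 := by omega
      rw [e, sum_range_succ] at hok1
      have z : ∀ s u h v : ZMod 2, s + h + (u + v) = 0 → s + u + h + v = 0 := by decide
      exact z _ _ _ _ hok1
    · rw [sum_range_succ]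
      have z : ∀ s u v : ZMod 2, s + u + (s + (u + v)) + v = 0 := by decide
      exact z _ _ _

theorem thin_junc (T : TA R m) (b : Fin R.rules.length) (u k : Fin 3) (i : Fin m) (t : ℕ) :
    thin hm T (Key.ch b.val (3 * u.val + k.val) i.val t 0) = T.st (cjs R (b, u) k) i t := by
  have e : slabD R b.val (3 * u.val + k.val) = cjs R (b, u) k := by
    unfold slabD cjs
    rw [dif_pos b.isLt]
    congr 1
    refine Prod.ext rfl ?_
    apply Fin.ext
    show (3 * u.val + k.val) % 9 = 3 * u.val + k.val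
    omega
  show T.st (slabD R b.val (3 * u.val + k.val)) (dgt hm i.val) t + ∑ l' ∈ range 0, _ = _
  rw [sum_range_zero, add_zero, dgt_val, e]

theorem cov_junc (b : Fin R.rules.length) (u : Fin 3) (i : Fin m) {t : ℕ}
    (ht : t < (R.rules[b]).num i.val) :
    Cov R hm hR hnd (.nod (juncNode b.val i.val t u.val)) (.jn (b, u) i t) := by
  refine ⟨ht, ?_, ?_⟩
  · intro a a' haa y hy
    have hk : ∀ k : Fin 3, thin hm (toTA a) (Key.ch b.val (3 * u.val + k.val) i.val t 0) =
        thin hm (toTA a') (Key.ch b.val (3 * u.val + k.val) i.val t 0) := by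
      intro k
      rw [thin_junc, thin_junc]
      exact haa _ ⟨k, rfl⟩
    have hy' : y = Key.ch b.val (3 * u.val) i.val t 0 ∨ y = Key.ch b.val (3 * u.val + 1) i.val t 0 ∨
        y = Key.ch b.val (3 * u.val + 2) i.val t 0 := by
      simpa [Item.vars, juncNode] using hy
    rcases hy' with rfl | rfl | rfl
    · exact hk 0
    · exact hk 1
    · exact hk 2
  · intro a hok
    have h0 := thin_junc (hm := hm) (toTA a) b u 0 i t
    have h1 := thin_junc (hm := hm) (toTA a) b u 1 i t
    have h2 := thin_junc (hm := hm) (toTA a) b u 2 i t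
    have e0 : thin hm (toTA a) (Key.ch b.val (3 * u.val) i.val t 0) =
      (toTA a).st (cjs R (b, u) 0) i t := h0
    have e1 : thin hm (toTA a) (Key.ch b.val (3 * u.val + 1) i.val t 0) =
      (toTA a).st (cjs R (b, u) 1) i t := h1
    have e2 : thin hm (toTA a) (Key.ch b.val (3 * u.val + 2) i.val t 0) =
      (toTA a).st (cjs R (b, u) 2) i t := h2
    show thin hm (toTA a) (Key.ch b.val (3 * u.val) i.val t 0) +
      thin hm (toTA a) (Key.ch b.val (3 * u.val + 1) i.val t 0) +
      thin hm (toTA a) (Key.ch b.val (3 * u.val + 2) i.val t 0) = 0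
    rw [e0, e1, e2]
    exact hok

theorem thin_start (T : TA R m) (b : Fin (R.ax.length + 1)) (i : Fin m) :
    thin hm T (Key.ch (R.rules.length + b.val) 0 i.val 0 0) = T.st (Sum.inr b) i 0 := by
  have e : slabD R (R.rules.length + b.val) 0 = Sum.inr b := slabD_nm R (Sum.inr b)
  show T.st (slabD R (R.rules.length + b.val) 0) (dgt hm i.val) 0 + ∑ l' ∈ range 0, _ = _
  rw [sum_range_zero, add_zero, dgt_val, e]

/-- the start of a fact slab -/
theorem cov_start (b : Fin (R.ax.length + 1)) (i : Fin m) :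
    Cov R hm hR hnd (.var (Key.ch (R.rules.length + b.val) 0 i.val 0 0)) (.sl (Sum.inr b) i 0) := by
  refine ⟨one_pos, ?_, ?_⟩
  · intro a a' haa y hy
    rw [Item.vars, List.mem_singleton] at hy
    rw [hy, thin_start, thin_start]
    exact haa _ (Or.inl rfl)
  · intro a hok β hβ
    rw [thin_start]
    have h1 := hok.2 _ rfl
    have hβ' : (Key.ch (R.rules.length + b.val) 0 i.val 0 0, β) ∈
      (rtk R m).map fun y => (y, if y = gkey R then (1 : ZMod 2) else 0) := hβ
    rw [List.mem_map] at hβ'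
    obtain ⟨y, _, hy⟩ := hβ'
    rw [Prod.mk.injEq] at hy
    rw [← hy.2, hy.1]
    have h2 : (toTA a).st (Sum.inr b) i 0 =
      if b.val = R.ax.length ∧ i.val = 2 * r then (1 : ZMod 2) else 0 := h1
    rw [h2]
    congr 1
    unfold gkey
    rw [Key.ch.injEq]
    apply propext
    constructor
    · rintro ⟨h3, h4⟩
      exact ⟨by omega, rfl, h4, rfl, rfl⟩
    · rintro ⟨h3, _, h4, _, _⟩
      exact ⟨by omega, h4⟩

/-- every XOR node is covered -/
theorem cov_nod {c : Key × Key × Key} (hc : c ∈ rxs R m) : ∃ n, Cov R hm hR hnd (.nod c) n := by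
  rcases mem_rxs.1 hc with ⟨b, ρ, hb, h⟩ | ⟨b, f, hb, h⟩
  · obtain ⟨hb1, hb2⟩ := List.getElem?_eq_some_iff.1 hb
    rcases mem_ruleNodes.1 h with ⟨s, hs, i, hi, t, ht, l, hl, rfl⟩ | ⟨i, hi, t, ht, u, hu, rfl⟩
    · have := cov_link (hR := hR) (hnd := hnd) (hm := hm) (Sum.inl (⟨b, hb1⟩, ⟨s, hs⟩)) ⟨i, hi⟩
        (t := t) (l := l) (by show t < Rule.num _ _; rw [← hb2] at ht; exact ht) hl
      have e : hkS R (Sum.inl (⟨b, hb1⟩, ⟨s, hs⟩)) = ruleHub b ρ s := by
        show ruleHub b _ s = _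
        rw [← hb2]; rfl
      rw [e] at this
      exact ⟨_, this⟩
    · have := cov_junc (hR := hR) (hnd := hnd) (hm := hm) ⟨b, hb1⟩ ⟨u, hu⟩ ⟨i, hi⟩
        (t := t) (by rw [← hb2] at ht; exact ht)
      exact ⟨_, this⟩
  · obtain ⟨hb1, hb2⟩ := List.getElem?_eq_some_iff.1 hb
    obtain ⟨i, hi, l, hl, rfl⟩ := mem_factNodes.1 h
    have hb3 : b < R.ax.length + 1 := by simpa using hb1
    have := cov_link (hR := hR) (hnd := hnd) (hm := hm) (Sum.inr ⟨b, hb3⟩) ⟨i, hi⟩
        (t := 0) (l := l) one_pos hl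
    have e : hkS R (Sum.inr ⟨b, hb3⟩) = factHub f := by
      show factHub (factAt R ⟨b, hb3⟩) = _
      rw [← hb2]; rfl
    rw [e] at this
    exact ⟨_, this⟩

theorem cov_exists (p : Item Key) (hp : (csys R m).IsItem p) : ∃ n, Cov R hm hR hnd p n := by
  rcases p with y | c
  · by_cases hy : y ∈ rtk R m
    · obtain ⟨b, hb, i, hi, rfl⟩ := mem_rtk.1 hy
      exact ⟨_, cov_start ⟨b, hb⟩ ⟨i, hi⟩⟩
    · have hts : ∀ β, (y, β) ∉ (csys R m).ts := by
        intro β hβ
        have hβ' : (y, β) ∈ (rtk R m).map fun y => (y, if y = gkey R then (1 : ZMod 2) else 0) := hβ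
        rw [List.mem_map] at hβ'
        obtain ⟨y', hy', e⟩ := hβ'
        rw [Prod.mk.injEq] at e
        rw [e.1] at hy'
        exact hy hy'
      have hp' : y ∈ portKeys (csys R m).xs (csys R m).ts := hp
      unfold portKeys at hp'
      rw [List.mem_append] at hp'
      rcases hp' with h | h
      · rw [List.mem_flatMap] at h
        obtain ⟨c, hc, hyc⟩ := h
        obtain ⟨n, hn⟩ := cov_nod (hm := hm) (hR := hR) (hnd := hnd) (c := c) hc
        refine ⟨n, hn.1, ?_, ?_⟩
        · intro a a' haa y' hy'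
          rw [Item.vars, List.mem_singleton] at hy'
          rw [hy']
          exact hn.2.1 a a' haa y hyc
        · intro a _ β hβ
          exact absurd hβ (hts β)
      · rw [List.mem_map] at h
        obtain ⟨q, hq, e⟩ := h
        exact absurd (by rw [← e]; exact hq : (y, q.2) ∈ (csys R m).ts) (hts _)
  · exact cov_nod hp

end Thin

/-- MODULE C -/
theorem dupC {r : ℕ} (R : RSys r) {A m : ℕ} (hR : R.WF A) (hm : 2 * r < m)
    (hd : ¬ Der R R.goal.1 R.goal.2) : (csys R m).Cons m := by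
  classical
  have hcov := fun p (hp : (csys R m).IsItem p) => cov_exists (hm := hm) (hR := hR) (hnd := hd) p hp
  obtain ⟨n0⟩ : Nonempty (fsys R hm hR hd).Nd := ⟨.sl (Sum.inr ⟨0, by omega⟩) (⟨0, by omega⟩ : Fin m) 0⟩
  obtain ⟨fat, hfat⟩ : ∃ fat : Item Key → (fsys R hm hR hd).Nd,
      ∀ p, (csys R m).IsItem p → Cov R hm hR hd p (fat p) := by
    have h1 : ∀ p, ∃ n, (csys R m).IsItem p → Cov R hm hR hd p n := by
      intro p
      by_cases h : (csys R m).IsItem p
      · obtain ⟨n, hn⟩ := hcov p h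
        exact ⟨n, fun _ => hn⟩
      · exact ⟨n0, fun h' => absurd h' h⟩
    choose fat hfat using h1
    exact ⟨fat, hfat⟩
  have hOk : ∀ (g g' : Key → ZMod 2) (p : Item Key), (∀ y ∈ p.vars, g y = g' y) →
      (csys R m).Ok g p → (csys R m).Ok g' p := by
    intro g g' p hgg h
    rcases p with y | c
    · intro β hβ
      rw [← hgg y (by simp [Item.vars])]
      exact h β hβ
    · show g' c.1 + g' c.2.1 + g' c.2.2 = 0
      rw [← hgg c.1 (by simp [Item.vars]), ← hgg c.2.1 (by simp [Item.vars]),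
        ← hgg c.2.2 (by simp [Item.vars])]
      exact h
  refine ⟨fun S g => S.card ≤ m ∧ (∀ p ∈ S, (csys R m).IsItem p) ∧
    ∃ a, FS.Pos (S.image fat) a ∧ ∀ p ∈ S, ∀ y ∈ p.vars, g y = thin hm (toTA a) y,
    ?_, ?_, ?_, ?_, ?_, ?_, ?_⟩
  · obtain ⟨a, ha⟩ := FS.pos_start (F := fsys R hm hR hd)
    refine ⟨fun _ => 0, by simp, by simp, a, ?_, by simp⟩
    rw [image_empty]
    exact ha
  · intro S g h
    exact h.1
  · rintro S g g' ⟨h1, h2, a, h3, h4⟩ hgg
    exact ⟨h1, h2, a, h3, fun p hp y hy => (hgg p hp y hy).symm.trans (h4 p hp y hy)⟩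
  · rintro S g ⟨h1, h2, a, h3, h4⟩ p hp
    exact h2 p hp
  · rintro S g ⟨h1, h2, a, h3, h4⟩ p hp
    refine hOk _ g p (fun y hy => (h4 p hp y hy).symm) ?_
    exact (hfat p (h2 p hp)).2.2 a (h3.ok _ (mem_image_of_mem _ hp))
  · rintro S S' g ⟨h1, h2, a, h3, h4⟩ hS
    exact ⟨(card_le_card hS).trans h1, fun p hp => h2 p (hS hp), a,
      h3.mono (image_subset_image hS), fun p hp => h4 p (hS hp)⟩
  · rintro S g ⟨h1, h2, a, h3, h4⟩ p hp
    obtain ⟨a', e1, e2, e3⟩ := h3.ext (fat p) (hfat p hp).1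
    refine ⟨thin hm (toTA a'), ?_, ?_, ?_⟩
    · intro q hq y hy
      rw [h4 q hq y hy]
      exact ((hfat q (h2 q hq)).2.1 a a' (fun x hx =>
        e1 (fat q) (mem_image_of_mem _ hq) x hx) y hy).symm
    · intro q hq
      rcases mem_insert.1 hq with rfl | hq'
      · exact (hfat q hp).2.2 a' (e2 _ (mem_insert_self _ _))
      · exact (hfat q (h2 q hq')).2.2 a' (e2 _ (mem_insert_of_mem (mem_image_of_mem _ hq')))
    · intro S' hS' hcard
      refine ⟨hcard, ?_, a', ?_, fun q _ y _ => rfl⟩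
      · intro q hq
        rcases mem_insert.1 (hS' hq) with rfl | hq'
        · exact hp
        · exact h2 q hq'
      · refine e3 _ ?_ ?_
        · intro x hx
          obtain ⟨q, hq, rfl⟩ := mem_image.1 hx
          rcases mem_insert.1 (hS' hq) with rfl | hq'
          · exact mem_insert_self _ _
          · exact mem_insert_of_mem (mem_image_of_mem _ hq')
        · exact card_image_le.trans hcard

end Crest.Agent.R290
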