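import Crest.Agent.R290.D1Key

/-!
Row 290, MODULE D1: the system `s` is a model of the difference of the two graphs.
-/
set_option autoImplicit false

namespace Crest.Agent.R290

open Finset

variable {κ : Type} [DecidableEq κ] {X T : ℕ}

/-- `s` is the difference system of `aG pk tv tb` and `aG pk tv' tb'` -/
structure Mod (s : CSysT κ) (pk : Fin (3 * X + T) → κ) (tv tv' : Fin T → Bool)
    (tb tb' : Fin X → Bool) : Prop where
  item : ∀ p, s.IsItem p ↔ ∃ u : GV X T, itemV pk u = some p
  ok : ∀ g u p, itemV pk u = some p → (s.Ok g p ↔ OkV pk tv tv' tb tb' g u)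

end Crest.Agent.R290
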