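import Crest.Agent.R290.EqD1
import Crest.Agent.R290.D1Mod

/-!
Row 290, MODULE D1, piece D1_BWD: consistency implies equivalence (Duplicator).

PROOF. `jeq_of_bisim` with R v w := ∃ g, Ho (items of v) g ∧ w = shiftV pk false g ∘ v, where
items of v := univ.biUnion (fun i => (itemV pk (v i)).toFinset) (card ≤ k).
atom: shiftV is injective in the vertex, and adjacency: if g is OkV at u and u' then
aG pk tv' tb' (shift u) (shift u') = aG pk tv tb u u' (cases u, cases u').
step: for an item p let g_p be the extension (`ext`); σ z := shiftV pk false g_{item z} z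
(z itself if there is no item); it is an involution as item (shift z) = item z and
shift g (shift g z) = z. start: v = const rt.
-/
set_option autoImplicit false

namespace Crest.Agent.R290

open Finset

variable {κ : Type} [DecidableEq κ] {X T : ℕ}

theorem itemV_shiftV (pk : Fin (3 * X + T) → κ) (g : κ → ZMod 2) (u : GV X T) :
    itemV pk (shiftV pk false g u) = itemV pk u := by
  cases u <;> rfl

theorem shiftV_shiftV (pk : Fin (3 * X + T) → κ) (g : κ → ZMod 2) (u : GV X T) :
    shiftV pk false g (shiftV pk false g u) = u := by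
  cases u <;> simp [shiftV]

theorem shiftV_congr (pk : Fin (3 * X + T) → κ) (g g' : κ → ZMod 2) (u : GV X T)
    (h : ∀ p, itemV pk u = some p → ∀ x ∈ p.vars, g x = g' x) :
    shiftV pk false g u = shiftV pk false g' u := by
  cases u with
  | fp p s b =>
    have := h _ rfl (pk p) (by simp [Item.vars])
    simp only [shiftV, this]
  | cp p b =>
    have := h _ rfl (pk p) (by simp [Item.vars])
    simp only [shiftV, this]
  | op v d b =>
    have := h _ rfl (pk (po v d)) (by simp [Item.vars])
    simp only [shiftV, this]
  | gd v z0 z1 =>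
    have h0 := h _ rfl (pk (po v 0)) (by simp [Item.vars])
    have h1 := h _ rfl (pk (po v 1)) (by simp [Item.vars])
    simp only [shiftV, h0, h1]
  | rt => rfl
  | rl b => rfl
  | bb p s => rfl
  | fr p s => rfl
  | t1 j => rfl
  | t2 j => rfl

theorem okV_of_none {pk : Fin (3 * X + T) → κ} {tv tv' : Fin T → Bool}
    {tb tb' : Fin X → Bool} (g : κ → ZMod 2) (u : GV X T) (h : itemV pk u = none) :
    OkV pk tv tv' tb tb' g u := by
  cases u <;> simp [itemV] at h <;> trivial

theorem isNx_key {pk : Fin (3 * X + T) → κ} {p q : Fin (3 * X + T)} (h : isNx pk p q = true) :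
    pk p = pk q := by
  unfold isNx at h
  exact (of_decide_eq_true h).2.1

theorem xor_beq_xor (a b c : Bool) : (Bool.xor a c == Bool.xor b c) = (a == b) := by
  cases a <;> cases b <;> cases c <;> rfl

theorem dG_shift {pk : Fin (3 * X + T) → κ} {tv tv' : Fin T → Bool}
    {tb tb' : Fin X → Bool} (g : κ → ZMod 2) (u u' : GV X T)
    (h : OkV pk tv tv' tb tb' g u) (h' : OkV pk tv tv' tb tb' g u') :
    dG pk tv' tb' (shiftV pk false g u) (shiftV pk false g u') = dG pk tv tb u u' := by
  cases u with
  | rt => cases u' <;> rfl
  | rl b => cases u' <;> rfl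
  | bb p s => cases u' <;> rfl
  | fr p s => cases u' <;> rfl
  | t2 j => cases u' <;> rfl
  | fp p s b =>
    cases u' with
    | fp q s' b' =>
      by_cases hpq : p = q
      · subst hpq
        simp only [shiftV, dG, xor_beq_xor]
      · simp [shiftV, dG, hpq]
    | cp q b' =>
      by_cases hpq : p = q
      · subst hpq
        simp only [shiftV, dG, xor_beq_xor]
      · simp [shiftV, dG, hpq]
    | _ => rfl
  | cp p b =>
    cases u' with
    | cp q b' =>
      by_cases hpq : isNx pk p q = true
      · have hk := isNx_key hpq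
        simp only [shiftV, dG, hk, xor_beq_xor]
      · have : isNx pk p q = false := by simpa using hpq
        simp only [shiftV, dG, this, Bool.false_and]
    | _ => rfl
  | op v d b =>
    cases u' with
    | fp q s b' =>
      by_cases hpq : po v d = q
      · subst hpq
        simp only [shiftV, dG, xor_beq_xor]
      · simp [shiftV, dG, hpq]
    | _ => rfl
  | gd v z0 z1 =>
    cases u' with
    | op v' d b =>
      by_cases hv : v = v'
      · subst hv
        have hz : Bool.xor (Bool.xor (zb (g (pk (po v 0)))) (zb (g (pk (po v 1)))))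
            (zb (g (pk (po v 2)))) = Bool.xor (tb v) (tb' v) := by
          have h1 : g (pk (po v 0)) + g (pk (po v 1)) + g (pk (po v 2)) =
            tz (Bool.xor (tb v) (tb' v)) := h
          rw [← zb_add, ← zb_add, h1, zb_tz]
        simp only [shiftV, dG, decide_true, Bool.true_and]
        fin_cases d
        · simp only [gzT]
          exact xor_beq_xor _ _ _
        · simp only [gzT]
          exact xor_beq_xor _ _ _
        · simp only [gzT]
          revert hz
          generalize zb (g (pk (po v 0))) = a0
          generalize zb (g (pk (po v 1))) = a1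
          change Bool.xor (Bool.xor a0 a1) (zb (g (pk (po v 2)))) = _ →
            (Bool.xor (tb' v) (Bool.xor (Bool.xor z0 a0) (Bool.xor z1 a1)) ==
              Bool.xor b (zb (g (pk (po v 2))))) = (Bool.xor (tb v) (Bool.xor z0 z1) == b)
          generalize zb (g (pk (po v 2))) = a2
          generalize tb v = c
          generalize tb' v = c'
          clear h h'
          revert a0 a1 a2 c c' z0 z1 b
          decide
      · simp [shiftV, dG, hv]
    | _ => rfl
  | t1 j =>
    cases u' with
    | fp q s b =>
      by_cases hq : pu j = q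
      · subst hq
        have h1 : g (pk (pu j)) = tz (Bool.xor (tv j) (tv' j)) := h' j rfl
        simp only [shiftV, dG, h1, zb_tz]
        cases s
        · simp only [decide_true, Bool.true_and, Bool.not_false]
          generalize tv j = c
          generalize tv' j = c'
          clear h h'
          revert b c c'
          decide
        · rfl
      · simp [shiftV, dG, hq]
    | _ => rfl

theorem aG_shift {pk : Fin (3 * X + T) → κ} {tv tv' : Fin T → Bool}
    {tb tb' : Fin X → Bool} (g : κ → ZMod 2) (u u' : GV X T)
    (h : OkV pk tv tv' tb tb' g u) (h' : OkV pk tv tv' tb tb' g u') :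
    aG pk tv' tb' (shiftV pk false g u) (shiftV pk false g u') = aG pk tv tb u u' := by
  unfold aG
  rw [dG_shift g u u' h h', dG_shift g u' u h' h]

/-- the items of a tuple -/
def itsV (pk : Fin (3 * X + T) → κ) {k : ℕ} (v : Fin k → GV X T) : Finset (Item κ) :=
  univ.biUnion fun i => (itemV pk (v i)).toFinset

theorem mem_itsV {pk : Fin (3 * X + T) → κ} {k : ℕ} {v : Fin k → GV X T} {p : Item κ} :
    p ∈ itsV pk v ↔ ∃ i, itemV pk (v i) = some p := by
  unfold itsV
  simp [Option.mem_toFinset, Option.mem_def]

theorem card_itsV (pk : Fin (3 * X + T) → κ) {k : ℕ} (v : Fin k → GV X T) :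
    (itsV pk v).card ≤ k := by
  unfold itsV
  refine (Finset.card_biUnion_le_card_mul _ _ 1 ?_).trans (by simp)
  intro i _
  cases itemV pk (v i) <;> simp

theorem jeq_of_cons {s : CSysT κ} {pk : Fin (3 * X + T) → κ} {tv tv' : Fin T → Bool}
    {tb tb' : Fin X → Bool} (hs : Mod s pk tv tv' tb tb') {k : ℕ} (hk : 1 ≤ k)
    (h : s.Cons k) : JEq k (aG pk tv tb) (aG pk tv' tb') := by
  classical
  obtain ⟨H, hH⟩ := h
  have hext : ∀ (S : Finset (Item κ)) (g : κ → ZMod 2), H S g → ∀ z : GV X T,
      ∃ g' : κ → ZMod 2, (∀ q ∈ S, ∀ x ∈ q.vars, g' x = g x) ∧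
        ∀ S' : Finset (Item κ), (∀ q ∈ S', q ∈ S ∨ itemV pk z = some q) → S'.card ≤ k →
          H S' g' := by
    intro S g hg z
    rcases hz : itemV pk z with _ | p
    · refine ⟨g, fun _ _ _ _ => rfl, fun S' hS' _ => hH.mono S S' g hg ?_⟩
      intro q hq
      rcases hS' q hq with h | h
      · exact h
      · cases h
    · obtain ⟨g', h1, -, h3⟩ := hH.ext S g hg p ((hs.item p).2 ⟨z, hz⟩)
      refine ⟨g', h1, fun S' hS' hc => h3 S' ?_ hc⟩
      intro q hq
      rcases hS' q hq with h | h
      · exact Finset.mem_insert_of_mem h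
      · cases h
        exact Finset.mem_insert_self _ _
  have hB : JBisim k (aG pk tv tb) (aG pk tv' tb')
      (fun v w => ∃ g, H (itsV pk v) g ∧ ∀ i, w i = shiftV pk false g (v i)) := by
    constructor
    · rintro v w ⟨g, hg, hw⟩
      have hok : ∀ i, OkV pk tv tv' tb tb' g (v i) := by
        intro i
        rcases hi : itemV pk (v i) with _ | p
        · exact okV_of_none g _ hi
        · exact (hs.ok g (v i) p hi).1 (hH.ok _ g hg p (mem_itsV.2 ⟨i, hi⟩))
      unfold gatom
      refine Prod.ext ?_ ?_
      · funext i j
        simp only [decide_eq_decide]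
        rw [hw i, hw j]
        constructor
        · intro h; rw [h]
        · intro h
          rw [← shiftV_shiftV pk g (v i), ← shiftV_shiftV pk g (v j), h]
      · funext i j
        change aG pk tv tb (v i) (v j) = aG pk tv' tb' (w i) (w j)
        rw [hw i, hw j]
        exact (aG_shift g (v i) (v j) (hok i) (hok j)).symm
    · rintro v w ⟨g, hg, hw⟩
      -- choose the extension as a function of the item only
      have hch : ∀ o : Option (Item κ), ∃ g' : κ → ZMod 2, ∀ z : GV X T, itemV pk z = o →
          (∀ q ∈ itsV pk v, ∀ x ∈ q.vars, g' x = g x) ∧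
          ∀ S' : Finset (Item κ), (∀ q ∈ S', q ∈ itsV pk v ∨ itemV pk z = some q) → S'.card ≤ k →
            H S' g' := by
        intro o
        by_cases ho : ∃ z : GV X T, itemV pk z = o
        · obtain ⟨z, hz⟩ := ho
          obtain ⟨g', h1, h2⟩ := hext (itsV pk v) g hg z
          refine ⟨g', fun z' hz' => ⟨h1, fun S' hS' hc => h2 S' ?_ hc⟩⟩
          rw [hz', ← hz] at hS'
          exact hS'
        · exact ⟨g, fun z hz => absurd ⟨z, hz⟩ ho⟩
      choose Gf hGf using hch
      have hinv : ∀ z : GV X T, shiftV pk false (Gf (itemV pk (shiftV pk false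
          (Gf (itemV pk z)) z))) (shiftV pk false (Gf (itemV pk z)) z) = z := by
        intro z
        rw [itemV_shiftV, shiftV_shiftV]
      refine ⟨⟨fun z => shiftV pk false (Gf (itemV pk z)) z,
        fun z => shiftV pk false (Gf (itemV pk z)) z, hinv, hinv⟩, ?_⟩
      intro z i
      obtain ⟨h1, h2⟩ := hGf (itemV pk z) z rfl
      refine ⟨Gf (itemV pk z), h2 _ ?_ (card_itsV pk _), ?_⟩
      · intro q hq
        obtain ⟨j, hj⟩ := mem_itsV.1 hq
        by_cases hji : j = i
        · subst hji
          rw [Function.update_self] at hj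
          exact Or.inr hj
        · rw [Function.update_of_ne hji] at hj
          exact Or.inl (mem_itsV.2 ⟨j, hj⟩)
      · intro j
        by_cases hji : j = i
        · subst hji
          rw [Function.update_self, Function.update_self]
          rfl
        · rw [Function.update_of_ne hji, Function.update_of_ne hji, hw j]
          refine (shiftV_congr pk _ _ (v j) ?_).symm
          intro p hp x hx
          exact h1 p (mem_itsV.2 ⟨j, hp⟩) x hx
  obtain ⟨g, hg⟩ := hH.start
  refine jeq_of_bisim hB (v := fun _ => GV.rt) (w := fun _ => GV.rt) ⟨g, ?_, fun _ => rfl⟩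
  have : itsV pk (fun _ : Fin k => (GV.rt : GV X T)) = ∅ := by
    rw [Finset.eq_empty_iff_forall_notMem]
    intro p hp
    obtain ⟨i, hi⟩ := mem_itsV.1 hp
    cases hi
  rw [this]
  exact hg

end Crest.Agent.R290
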