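import Crest.Agent.R290.EqD1
import Crest.Agent.R290.D1Mod

/-!
Row 290, MODULE D1, piece D1_FWD: equivalence implies consistency (from the key lemma `JT.shift`).

PROOF. H S g := S.card ≤ k ∧ (∀ p ∈ S, s.Ok g p) ∧ ∃ v w, JT k G H v w ∧
  ∀ p ∈ S, ∃ i, itemV pk (v i) = some p ∧ w i = shiftV pk false g (v i)
(note itemV ≠ none: `shiftV` does not depend on `e` there).
start: from `JEq.exists_jt`. congr: `Ok g p` and `shiftV .. g (v i)` depend only on the values of g on
the variables of p. item: from Mod.item. mono: clear.
ext: let S, g, v, w; p an item, z a vertex with item p, σ from `(jt_bisim k G H).step`. For every j,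
JT (update v j z) (update w j (σ z)), so `JT.shift` gives e_j, g_j. Take g_p := g_{j0} for some j0 and
g' x := if x ∈ p.vars then g_p x else g x. (*) for q ∈ S (index i) g_p = g on the common variables:
take j ≠ i; g_j = g_p on p.vars (both shifts of z are σ z, both Ok at z; note that the value of the
third variable of a gadget is determined by Ok), g_j = g on q.vars. S' ⊆ insert p S, card ≤ k:
if p ∉ S' use v, w; else S'.erase p has < k elements, so some index j is not used by them: use
update v j z, update w j (σ z).
-/
set_option autoImplicit false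

namespace Crest.Agent.R290

open Finset

variable {κ : Type} [DecidableEq κ] {X T : ℕ}

private theorem shiftV_congr {pk : Fin (3 * X + T) → κ} {u : GV X T} {p : Item κ}
    (hu : itemV pk u = some p) (e e' : Bool) {g g' : κ → ZMod 2}
    (h : ∀ x ∈ p.vars, g x = g' x) : shiftV pk e g u = shiftV pk e' g' u := by
  cases u with
  | rt => simp [itemV] at hu
  | rl b => simp [itemV] at hu
  | bb q s => simp [itemV] at hu
  | fr q s => simp [itemV] at hu
  | t1 j => simp [itemV] at hu
  | t2 j => simp [itemV] at hu
  | fp q s b =>
    simp only [itemV, Option.some.injEq] at hu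
    subst hu
    simp only [shiftV, h (pk q) (by simp [Item.vars])]
  | cp q b =>
    simp only [itemV, Option.some.injEq] at hu
    subst hu
    simp only [shiftV, h (pk q) (by simp [Item.vars])]
  | op v d b =>
    simp only [itemV, Option.some.injEq] at hu
    subst hu
    simp only [shiftV, h (pk (po v d)) (by simp [Item.vars])]
  | gd v z0 z1 =>
    simp only [itemV, Option.some.injEq] at hu
    subst hu
    simp only [shiftV, h (pk (po v 0)) (by simp [Item.vars]),
      h (pk (po v 1)) (by simp [Item.vars])]

private theorem okT_congr {s : CSysT κ} {p : Item κ} {g g' : κ → ZMod 2}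
    (h : ∀ x ∈ p.vars, g x = g' x) (hg : s.Ok g p) : s.Ok g' p := by
  cases p with
  | var y =>
    intro β hβ
    rw [← h y (by simp [Item.vars])]
    exact hg β hβ
  | nod c =>
    have h1 := h c.1 (by simp [Item.vars])
    have h2 := h c.2.1 (by simp [Item.vars])
    have h3 := h c.2.2 (by simp [Item.vars])
    simp only [CSysT.Ok] at hg ⊢
    rw [← h1, ← h2, ← h3]
    exact hg

private theorem xor_zb_inj {b : Bool} {x y : ZMod 2}
    (h : Bool.xor b (zb x) = Bool.xor b (zb y)) : x = y := by
  apply zb_inj
  cases b <;> simpa using h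

private theorem shiftV_inj {s : CSysT κ} {pk : Fin (3 * X + T) → κ} {u : GV X T} {p : Item κ}
    (hu : itemV pk u = some p) {e e' : Bool} {g g' : κ → ZMod 2}
    (h : shiftV pk e g u = shiftV pk e' g' u) (hg : s.Ok g p) (hg' : s.Ok g' p) :
    ∀ x ∈ p.vars, g x = g' x := by
  cases u with
  | rt => simp [itemV] at hu
  | rl b => simp [itemV] at hu
  | bb q s => simp [itemV] at hu
  | fr q s => simp [itemV] at hu
  | t1 j => simp [itemV] at hu
  | t2 j => simp [itemV] at hu
  | fp q s b =>
    simp only [itemV, Option.some.injEq] at hu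
    subst hu
    simp only [shiftV, GV.fp.injEq, true_and] at h
    intro x hx
    simp only [Item.vars, List.mem_singleton] at hx
    subst hx
    exact xor_zb_inj h
  | cp q b =>
    simp only [itemV, Option.some.injEq] at hu
    subst hu
    simp only [shiftV, GV.cp.injEq, true_and] at h
    intro x hx
    simp only [Item.vars, List.mem_singleton] at hx
    subst hx
    exact xor_zb_inj h
  | op v d b =>
    simp only [itemV, Option.some.injEq] at hu
    subst hu
    simp only [shiftV, GV.op.injEq, true_and] at h
    intro x hx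
    simp only [Item.vars, List.mem_singleton] at hx
    subst hx
    exact xor_zb_inj h
  | gd v z0 z1 =>
    simp only [itemV, Option.some.injEq] at hu
    subst hu
    simp only [shiftV, GV.gd.injEq, true_and] at h
    have h0 := xor_zb_inj h.1
    have h1 := xor_zb_inj h.2
    simp only [CSysT.Ok] at hg hg'
    have h2 : g (pk (po v 2)) = g' (pk (po v 2)) := by
      have := hg.trans hg'.symm
      rw [h0, h1] at this
      exact add_left_cancel this
    intro x hx
    simp only [Item.vars, List.mem_cons, List.not_mem_nil, or_false] at hx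
    rcases hx with rfl | rfl | rfl
    · exact h0
    · exact h1
    · exact h2

theorem cons_of_jeq {s : CSysT κ} {pk : Fin (3 * X + T) → κ} {tv tv' : Fin T → Bool}
    {tb tb' : Fin X → Bool} (hs : Mod s pk tv tv' tb tb') (hne : 0 < 3 * X + T) {k : ℕ} (hk : 4 ≤ k)
    (h : JEq k (aG pk tv tb) (aG pk tv' tb')) : s.Cons k := by
  classical
  refine ⟨fun S g => S.card ≤ k ∧ (∀ p ∈ S, s.Ok g p) ∧
    ∃ (v w : Fin k → GV X T), JT k (aG pk tv tb) (aG pk tv' tb') v w ∧
      ∀ p ∈ S, ∃ i, itemV pk (v i) = some p ∧ w i = shiftV pk false g (v i), ?_⟩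
  refine ⟨?_, ?_, ?_, ?_, ?_, ?_, ?_⟩
  · -- start
    obtain ⟨w, hw⟩ := h.exists_jt (fun _ => GV.rt)
    exact ⟨fun _ => 0, by simp, by simp, fun _ => GV.rt, w, hw, by simp⟩
  · intro S g hg
    exact hg.1
  · -- congr
    rintro S g g' ⟨h1, h2, v, w, hvw, h3⟩ hgg
    refine ⟨h1, fun p hp => okT_congr (hgg p hp) (h2 p hp), v, w, hvw, fun p hp => ?_⟩
    obtain ⟨i, hi, hi'⟩ := h3 p hp
    exact ⟨i, hi, hi'.trans (shiftV_congr hi _ _ (hgg p hp))⟩
  · -- item
    rintro S g ⟨h1, h2, v, w, hvw, h3⟩ p hp
    obtain ⟨i, hi, hi'⟩ := h3 p hp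
    exact (hs.item p).2 ⟨v i, hi⟩
  · intro S g hg
    exact hg.2.1
  · -- mono
    rintro S S' g ⟨h1, h2, v, w, hvw, h3⟩ hSS
    exact ⟨(card_le_card hSS).trans h1, fun p hp => h2 p (hSS hp), v, w, hvw,
      fun p hp => h3 p (hSS hp)⟩
  · -- ext
    rintro S g ⟨h1, h2, v, w, hvw, h3⟩ p hp
    obtain ⟨z, hz⟩ := (hs.item p).1 hp
    obtain ⟨σ, hσ⟩ := (jt_bisim k (aG pk tv tb) (aG pk tv' tb')).step v w hvw
    have hsh := fun j => JT.shift hk hne (hσ z j)
    choose e gj hw hok using hsh
    have hzj : ∀ j, σ z = shiftV pk (e j) (gj j) z := by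
      intro j
      have := hw j j
      rwa [Function.update_self, Function.update_self] at this
    have hzok : ∀ j, s.Ok (gj j) p := by
      intro j
      have := hok j j
      rw [Function.update_self] at this
      exact (hs.ok (gj j) z p hz).2 this
    have hother : ∀ i j, i ≠ j → w i = shiftV pk (e j) (gj j) (v i) := by
      intro i j hij
      have := hw j i
      rwa [Function.update_of_ne hij, Function.update_of_ne hij] at this
    have hother' : ∀ i j, i ≠ j → ∀ q, itemV pk (v i) = some q → s.Ok (gj j) q := by
      intro i j hij q hq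
      have := hok j i
      rw [Function.update_of_ne hij] at this
      exact (hs.ok (gj j) (v i) q hq).2 this
    have hC : ∀ j j', ∀ x ∈ p.vars, gj j x = gj j' x := fun j j' =>
      shiftV_inj hz ((hzj j).symm.trans (hzj j')) (hzok j) (hzok j')
    let j0 : Fin k := ⟨0, by omega⟩
    let g' : κ → ZMod 2 := fun x => if x ∈ p.vars then gj j0 x else g x
    have hg'p : ∀ x ∈ p.vars, g' x = gj j0 x := fun x hx => if_pos hx
    have hstar : ∀ q ∈ S, ∀ x ∈ q.vars, g' x = g x := by
      intro q hq x hx
      by_cases hxp : x ∈ p.vars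
      · obtain ⟨i, hi, hi'⟩ := h3 q hq
        obtain ⟨j, hj⟩ := exists_ne_fin (by omega : 2 ≤ k) i
        have e1 := shiftV_inj hi ((hother i j hj.symm).symm.trans hi')
          (hother' i j hj.symm q hi) (h2 q hq) x hx
        rw [hg'p x hxp, hC j0 j x hxp, e1]
      · exact if_neg hxp
    have hokp : s.Ok g' p := okT_congr (fun x hx => (hg'p x hx).symm) (hzok j0)
    have hokall : ∀ q ∈ insert p S, s.Ok g' q := by
      intro q hq
      rcases mem_insert.1 hq with rfl | hq
      · exact hokp
      · exact okT_congr (fun x hx => (hstar q hq x hx).symm) (h2 q hq)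
    refine ⟨g', hstar, hokall, ?_⟩
    intro S' hS' hcard
    refine ⟨hcard, fun q hq => hokall q (hS' hq), ?_⟩
    by_cases hpS : p ∈ S'
    · -- choose the indices
      have hidx : ∀ q : Item κ, ∃ i : Fin k, q ∈ S → (itemV pk (v i) = some q ∧
          w i = shiftV pk false g (v i)) := by
        intro q
        by_cases hq : q ∈ S
        · obtain ⟨i, hi⟩ := h3 q hq
          exact ⟨i, fun _ => hi⟩
        · exact ⟨j0, fun h => absurd h hq⟩
      choose ι hι using hidx
      have hlt : ((S'.erase p).image ι).card < k := by
        have h4 := card_erase_lt_of_mem hpS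
        have h5 := card_image_le (s := S'.erase p) (f := ι)
        omega
      obtain ⟨j, hj⟩ : ∃ j : Fin k, j ∉ (S'.erase p).image ι := by
        by_contra hcon
        push Not at hcon
        have h6 : (S'.erase p).image ι = univ := eq_univ_of_forall hcon
        rw [h6, card_univ, Fintype.card_fin] at hlt
        exact lt_irrefl _ hlt
      refine ⟨Function.update v j z, Function.update w j (σ z), hσ z j, ?_⟩
      intro q hq
      by_cases hqp : q = p
      · subst hqp
        refine ⟨j, by rw [Function.update_self]; exact hz, ?_⟩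
        rw [Function.update_self, Function.update_self, hzj j0]
        exact shiftV_congr hz _ _ (fun x hx => (hg'p x hx).symm)
      · have hqS : q ∈ S := by
          rcases mem_insert.1 (hS' hq) with h7 | h7
          · exact absurd h7 hqp
          · exact h7
        have hne' : ι q ≠ j := by
          intro h8
          apply hj
          rw [← h8]
          exact mem_image_of_mem ι (mem_erase.2 ⟨hqp, hq⟩)
        obtain ⟨h9, h10⟩ := hι q hqS
        refine ⟨ι q, by rw [Function.update_of_ne hne']; exact h9, ?_⟩
        rw [Function.update_of_ne hne', Function.update_of_ne hne', h10]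
        exact shiftV_congr h9 _ _ (fun x hx => (hstar q hqS x hx).symm)
    · have hsub : ∀ q ∈ S', q ∈ S := by
        intro q hq
        rcases mem_insert.1 (hS' hq) with h7 | h7
        · rw [h7] at hq
          exact absurd hq hpS
        · exact h7
      refine ⟨v, w, hvw, fun q hq => ?_⟩
      obtain ⟨i, hi, hi'⟩ := h3 q (hsub q hq)
      exact ⟨i, hi, hi'.trans (shiftV_congr hi _ _ (fun x hx => (hstar q (hsub q hq) x hx).symm))⟩

end Crest.Agent.R290
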