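import Crest.Agent.R290.D1Nb

/-!
Row 290, MODULE D1, piece D1_GRAPH: elementary properties of the graph `aG` (use the neighbour
lemmas `nb_*` of D1Nb.lean).
-/
set_option autoImplicit false

namespace Crest.Agent.R290

open Finset

variable {κ : Type} [DecidableEq κ] {X T : ℕ} (pk : Fin (3 * X + T) → κ) (tv : Fin T → Bool)
  (tb : Fin X → Bool)

theorem aG_irrefl (u : GV X T) : aG pk tv tb u u = false := by
  rw [← Bool.not_eq_true]
  intro h
  cases u with
  | rt => rw [nb_rt] at h; simp at h
  | rl b => rw [nb_rl] at h; simp at h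
  | bb p s =>
    cases s
    · rw [nb_bb0] at h; simp at h
    · rw [nb_bb1] at h; simp at h
  | fr p s => rw [nb_fr] at h; simp at h
  | fp p s b =>
    cases s
    · rw [nb_fp0] at h; simp at h
    · rw [nb_fp1] at h; simp at h
  | cp p b =>
    rw [nb_cp] at h
    simp [isNx] at h
  | op v d b => rw [nb_op] at h; simp at h
  | gd v z0 z1 => rw [nb_gd] at h; simp at h
  | t1 j => rw [nb_t1] at h; simp at h
  | t2 j => rw [nb_t2] at h; simp at h

theorem aG_exists (u : GV X T) : ∃ v, aG pk tv tb u v = true := by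
  cases u with
  | rt => exact ⟨.rl false, (nb_rt pk tv tb _).2 (Or.inl ⟨_, rfl⟩)⟩
  | rl b => exact ⟨.rt, (nb_rl pk tv tb b _).2 rfl⟩
  | bb p s =>
    cases s
    · exact ⟨.bb p true, (nb_bb0 pk tv tb p _).2 (Or.inr (Or.inr (Or.inl rfl)))⟩
    · exact ⟨.bb p false, (nb_bb1 pk tv tb p _).2 (Or.inl rfl)⟩
  | fr p s => exact ⟨.bb p s, (nb_fr pk tv tb p s _).2 (Or.inl rfl)⟩
  | fp p s b =>
    cases s
    · exact ⟨.fr p false, (nb_fp0 pk tv tb p b _).2 (Or.inl rfl)⟩
    · exact ⟨.fr p true, (nb_fp1 pk tv tb p b _).2 (Or.inl rfl)⟩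
  | cp p b => exact ⟨.fp p true b, (nb_cp pk tv tb p b _).2 (Or.inl rfl)⟩
  | op v d b => exact ⟨.fp (po v d) false b, (nb_op pk tv tb v d b _).2 (Or.inl rfl)⟩
  | gd v z0 z1 => exact ⟨_, (nb_gd pk tv tb v z0 z1 _).2 ⟨0, rfl⟩⟩
  | t1 j => exact ⟨.t2 j, (nb_t1 pk tv tb j _).2 (Or.inr rfl)⟩
  | t2 j => exact ⟨.t1 j, (nb_t2 pk tv tb j _).2 rfl⟩

theorem aG_exists_not (hne : 0 < 3 * X + T) (u : GV X T) : ∃ v, u ≠ v ∧ aG pk tv tb u v = false := by
  by_cases hu : u = .rt
  · subst hu
    refine ⟨.fr ⟨0, hne⟩ false, by simp, ?_⟩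
    rw [← Bool.not_eq_true, nb_rt]
    simp
  · by_cases hr : ∃ b, u = .rl b
    · obtain ⟨b, rfl⟩ := hr
      refine ⟨.rl (!b), by simp, ?_⟩
      rw [← Bool.not_eq_true, nb_rl]
      simp
    · refine ⟨.rl false, fun e => hr ⟨false, e⟩, ?_⟩
      rw [← Bool.not_eq_true, aG_symm, nb_rl]
      exact hu

private theorem d1g_to_rt (u : GV X T) :
    Relation.ReflTransGen (fun a b => aG pk tv tb a b = true) u .rt := by
  have hbb : ∀ (k : ℕ) (p : Fin (3 * X + T)), p.val = k → ∀ s,
      Relation.ReflTransGen (fun a b => aG pk tv tb a b = true) (.bb p s) .rt := by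
    intro k
    induction k with
    | zero =>
      intro p hp
      have h0 : Relation.ReflTransGen (fun a b => aG pk tv tb a b = true) (.bb p false) .rt :=
        Relation.ReflTransGen.single ((nb_bb0 pk tv tb p _).2 (Or.inl ⟨hp, rfl⟩))
      intro s
      cases s
      · exact h0
      · exact Relation.ReflTransGen.head ((nb_bb1 pk tv tb p _).2 (Or.inl rfl)) h0
    | succ k ih =>
      intro p hp
      have hk : k < 3 * X + T := by have := p.2; omega
      have h0 : Relation.ReflTransGen (fun a b => aG pk tv tb a b = true) (.bb p false) .rt :=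
        Relation.ReflTransGen.head ((nb_bb0 pk tv tb p (.bb ⟨k, hk⟩ true)).2
          (Or.inr (Or.inl ⟨⟨k, hk⟩, hp.symm, rfl⟩))) (ih ⟨k, hk⟩ rfl true)
      intro s
      cases s
      · exact h0
      · exact Relation.ReflTransGen.head ((nb_bb1 pk tv tb p _).2 (Or.inl rfl)) h0
  have hfr : ∀ p s, Relation.ReflTransGen (fun a b => aG pk tv tb a b = true) (.fr p s) .rt :=
    fun p s => Relation.ReflTransGen.head ((nb_fr pk tv tb p s _).2 (Or.inl rfl)) (hbb _ p rfl s)
  have hfp : ∀ p s b, Relation.ReflTransGen (fun a b => aG pk tv tb a b = true) (.fp p s b) .rt := by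
    intro p s b
    cases s
    · exact Relation.ReflTransGen.head ((nb_fp0 pk tv tb p b _).2 (Or.inl rfl)) (hfr p false)
    · exact Relation.ReflTransGen.head ((nb_fp1 pk tv tb p b _).2 (Or.inl rfl)) (hfr p true)
  have hop : ∀ v d b, Relation.ReflTransGen (fun a b => aG pk tv tb a b = true) (.op v d b) .rt :=
    fun v d b => Relation.ReflTransGen.head ((nb_op pk tv tb v d b _).2 (Or.inl rfl)) (hfp _ _ _)
  have ht1 : ∀ j, Relation.ReflTransGen (fun a b => aG pk tv tb a b = true) (.t1 j) .rt :=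
    fun j => Relation.ReflTransGen.head ((nb_t1 pk tv tb j _).2 (Or.inl rfl)) (hfp _ _ _)
  cases u with
  | rt => exact Relation.ReflTransGen.refl
  | rl b => exact Relation.ReflTransGen.single ((nb_rl pk tv tb b _).2 rfl)
  | bb p s => exact hbb _ p rfl s
  | fr p s => exact hfr p s
  | fp p s b => exact hfp p s b
  | cp p b => exact Relation.ReflTransGen.head ((nb_cp pk tv tb p b _).2 (Or.inl rfl)) (hfp _ _ _)
  | op v d b => exact hop v d b
  | gd v z0 z1 =>
    exact Relation.ReflTransGen.head ((nb_gd pk tv tb v z0 z1 _).2 ⟨0, rfl⟩) (hop _ _ _)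
  | t1 j => exact ht1 j
  | t2 j => exact Relation.ReflTransGen.head ((nb_t2 pk tv tb j _).2 rfl) (ht1 j)

theorem aG_connected (u v : GV X T) :
    Relation.ReflTransGen (fun a b => aG pk tv tb a b = true) u v := by
  refine (d1g_to_rt pk tv tb u).trans ?_
  have hs : Std.Symm (fun a b : GV X T => aG pk tv tb a b = true) :=
    ⟨fun a b h => by rw [aG_symm]; exact h⟩
  have h := d1g_to_rt pk tv tb v
  exact (Relation.ReflTransGen.stdSymm (r := fun a b : GV X T => aG pk tv tb a b = true)).symm _ _ h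

/-! ### degree -/

private theorem d1g_card3 {α : Type} [Fintype α] [DecidableEq α] (P A B C : α → Prop)
    [DecidablePred P] (h : ∀ z, P z → A z ∨ B z ∨ C z) (hA : ∀ z z', A z → A z' → z = z')
    (hB : ∀ z z', B z → B z' → z = z') (hC : ∀ z z', C z → C z' → z = z') :
    (univ.filter P).card ≤ 3 := by
  classical
  have h1 : univ.filter P ⊆ univ.filter A ∪ (univ.filter B ∪ univ.filter C) := by
    intro z hz
    simp only [mem_filter, mem_univ, true_and, mem_union] at hz ⊢
    exact h z hz
  have cA : (univ.filter A).card ≤ 1 := by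
    rw [card_le_one]
    intro a ha b hb
    simp only [mem_filter, mem_univ, true_and] at ha hb
    exact hA a b ha hb
  have cB : (univ.filter B).card ≤ 1 := by
    rw [card_le_one]
    intro a ha b hb
    simp only [mem_filter, mem_univ, true_and] at ha hb
    exact hB a b ha hb
  have cC : (univ.filter C).card ≤ 1 := by
    rw [card_le_one]
    intro a ha b hb
    simp only [mem_filter, mem_univ, true_and] at ha hb
    exact hC a b ha hb
  have h2 := card_le_card h1
  have h3 := card_union_le (univ.filter A) (univ.filter B ∪ univ.filter C)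
  have h4 := card_union_le (univ.filter B) (univ.filter C)
  omega

private theorem d1g_next {p q q' : Fin (3 * X + T)} (h : isNx pk p q = true)
    (h' : isNx pk p q' = true) : q = q' := by
  simp only [isNx, decide_eq_true_eq] at h h'
  obtain ⟨a1, a2, a3⟩ := h
  obtain ⟨b1, b2, b3⟩ := h'
  rcases lt_trichotomy q q' with hl | hl | hl
  · exact absurd a2.symm (b3 q a1 hl)
  · exact hl
  · exact absurd b2.symm (a3 q' b1 hl)

private theorem d1g_prev {p q q' : Fin (3 * X + T)} (h : isNx pk q p = true)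
    (h' : isNx pk q' p = true) : q = q' := by
  simp only [isNx, decide_eq_true_eq] at h h'
  obtain ⟨a1, a2, a3⟩ := h
  obtain ⟨b1, b2, b3⟩ := h'
  rcases lt_trichotomy q q' with hl | hl | hl
  · exact absurd (b2.trans a2.symm) (a3 q' hl b1)
  · exact hl
  · exact absurd (a2.trans b2.symm) (b3 q hl a1)

theorem aG_deg (u : GV X T) :
    ((univ : Finset (GV X T)).filter fun v => aG pk tv tb u v = true).card ≤ 3 := by
  cases u with
  | rt =>
    refine d1g_card3 _ (fun z => z = .rl false) (fun z => z = .rl true)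
      (fun z => ∃ p, p.val = 0 ∧ z = .bb p false) ?_ ?_ ?_ ?_
    · intro z hz
      rcases (nb_rt pk tv tb z).1 hz with ⟨b, hb⟩ | h
      · cases b
        · exact Or.inl hb
        · exact Or.inr (Or.inl hb)
      · exact Or.inr (Or.inr h)
    · rintro z z' rfl rfl; rfl
    · rintro z z' rfl rfl; rfl
    · rintro z z' ⟨p, hp, rfl⟩ ⟨p', hp', rfl⟩
      have : p = p' := Fin.ext (by omega)
      rw [this]
  | rl b =>
    refine d1g_card3 _ (fun z => z = .rt) (fun z => False) (fun z => False) ?_ ?_ ?_ ?_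
    · intro z hz
      exact Or.inl ((nb_rl pk tv tb b z).1 hz)
    · rintro z z' rfl rfl; rfl
    · exact fun _ _ h => h.elim
    · exact fun _ _ h => h.elim
  | bb p s =>
    cases s
    · refine d1g_card3 _ (fun z => (p.val = 0 ∧ z = .rt) ∨ ∃ q, q.val + 1 = p.val ∧ z = .bb q true)
        (fun z => z = .bb p true) (fun z => z = .fr p false) ?_ ?_ ?_ ?_
      · intro z hz
        rcases (nb_bb0 pk tv tb p z).1 hz with h | h | h | h
        · exact Or.inl (Or.inl h)
        · exact Or.inl (Or.inr h)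
        · exact Or.inr (Or.inl h)
        · exact Or.inr (Or.inr h)
      · rintro z z' (⟨h, rfl⟩ | ⟨q, h, rfl⟩) (⟨h', rfl⟩ | ⟨q', h', rfl⟩)
        · rfl
        · omega
        · omega
        · have : q = q' := Fin.ext (by omega)
          rw [this]
      · rintro z z' rfl rfl; rfl
      · rintro z z' rfl rfl; rfl
    · refine d1g_card3 _ (fun z => z = .bb p false) (fun z => z = .fr p true)
        (fun z => ∃ q, p.val + 1 = q.val ∧ z = .bb q false) ?_ ?_ ?_ ?_
      · intro z hz
        exact (nb_bb1 pk tv tb p z).1 hz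
      · rintro z z' rfl rfl; rfl
      · rintro z z' rfl rfl; rfl
      · rintro z z' ⟨q, h, rfl⟩ ⟨q', h', rfl⟩
        have : q = q' := Fin.ext (by omega)
        rw [this]
  | fr p s =>
    refine d1g_card3 _ (fun z => z = .bb p s) (fun z => z = .fp p s false)
      (fun z => z = .fp p s true) ?_ ?_ ?_ ?_
    · intro z hz
      rcases (nb_fr pk tv tb p s z).1 hz with h | ⟨b, hb⟩
      · exact Or.inl h
      · cases b
        · exact Or.inr (Or.inl hb)
        · exact Or.inr (Or.inr hb)
    · rintro z z' rfl rfl; rfl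
    · rintro z z' rfl rfl; rfl
    · rintro z z' rfl rfl; rfl
  | fp p s b =>
    cases s
    · refine d1g_card3 _ (fun z => z = .fr p false) (fun z => z = .fp p true b)
        (fun z => (∃ v d, po v d = p ∧ z = .op v d b) ∨ ∃ j, pu j = p ∧ b = tv j ∧ z = .t1 j)
        ?_ ?_ ?_ ?_
      · intro z hz
        exact (nb_fp0 pk tv tb p b z).1 hz
      · rintro z z' rfl rfl; rfl
      · rintro z z' rfl rfl; rfl
      · rintro z z' (⟨v, d, h, rfl⟩ | ⟨j, h, -, rfl⟩) (⟨v', d', h', rfl⟩ | ⟨j', h', -, rfl⟩)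
        · obtain ⟨rfl, rfl⟩ := po_inj (h.trans h'.symm)
          rfl
        · exact absurd (h.trans h'.symm) (po_ne_pu v d j')
        · exact absurd (h'.trans h.symm) (po_ne_pu v' d' j)
        · rw [pu_inj (h.trans h'.symm)]
    · refine d1g_card3 _ (fun z => z = .fr p true) (fun z => z = .fp p false b)
        (fun z => z = .cp p b) ?_ ?_ ?_ ?_
      · intro z hz
        exact (nb_fp1 pk tv tb p b z).1 hz
      · rintro z z' rfl rfl; rfl
      · rintro z z' rfl rfl; rfl
      · rintro z z' rfl rfl; rfl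
  | cp p b =>
    refine d1g_card3 _ (fun z => z = .fp p true b) (fun z => ∃ q, isNx pk p q = true ∧ z = .cp q b)
      (fun z => ∃ q, isNx pk q p = true ∧ z = .cp q b) ?_ ?_ ?_ ?_
    · intro z hz
      rcases (nb_cp pk tv tb p b z).1 hz with h | ⟨q, h | h, hz⟩
      · exact Or.inl h
      · exact Or.inr (Or.inl ⟨q, h, hz⟩)
      · exact Or.inr (Or.inr ⟨q, h, hz⟩)
    · rintro z z' rfl rfl; rfl
    · rintro z z' ⟨q, h, rfl⟩ ⟨q', h', rfl⟩
      rw [d1g_next pk h h']
    · rintro z z' ⟨q, h, rfl⟩ ⟨q', h', rfl⟩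
      rw [d1g_prev pk h h']
  | op v d b =>
    have hsub : ((univ : Finset (GV X T)).filter fun z => aG pk tv tb (.op v d b) z = true) ⊆
        insert (.fp (po v d) false b)
          (((univ : Finset (Bool × Bool)).filter fun w => gzT (tb v) w.1 w.2 d = b).image
            fun w => .gd v w.1 w.2) := by
      intro z hz
      simp only [mem_filter, mem_univ, true_and] at hz
      rw [mem_insert, mem_image]
      rcases (nb_op pk tv tb v d b z).1 hz with h | ⟨z0, z1, h1, h2⟩
      · exact Or.inl h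
      · exact Or.inr ⟨(z0, z1), by simpa using h1, h2.symm⟩
    have hc : ∀ (c b : Bool) (d : Fin 3),
        ((univ : Finset (Bool × Bool)).filter fun w => gzT c w.1 w.2 d = b).card ≤ 2 := by
      decide
    have h1 := card_le_card hsub
    have h2 := card_insert_le (GV.fp (po v d) false b : GV X T)
      (((univ : Finset (Bool × Bool)).filter fun w => gzT (tb v) w.1 w.2 d = b).image
        fun w => .gd v w.1 w.2)
    have h3 : (((univ : Finset (Bool × Bool)).filter fun w => gzT (tb v) w.1 w.2 d = b).image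
        (fun w => (.gd v w.1 w.2 : GV X T))).card ≤ _ := card_image_le
    have h4 := hc (tb v) b d
    omega
  | gd v z0 z1 =>
    have hsub : ((univ : Finset (GV X T)).filter fun z => aG pk tv tb (.gd v z0 z1) z = true) ⊆
        (univ : Finset (Fin 3)).image fun d => .op v d (gzT (tb v) z0 z1 d) := by
      intro z hz
      simp only [mem_filter, mem_univ, true_and] at hz
      obtain ⟨d, hd⟩ := (nb_gd pk tv tb v z0 z1 z).1 hz
      exact mem_image.2 ⟨d, mem_univ _, hd.symm⟩
    exact (card_le_card hsub).trans (card_image_le.trans (by simp))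
  | t1 j =>
    refine d1g_card3 _ (fun z => z = .fp (pu j) false (tv j)) (fun z => z = .t2 j)
      (fun z => False) ?_ ?_ ?_ ?_
    · intro z hz
      rcases (nb_t1 pk tv tb j z).1 hz with h | h
      · exact Or.inl h
      · exact Or.inr (Or.inl h)
    · rintro z z' rfl rfl; rfl
    · rintro z z' rfl rfl; rfl
    · exact fun _ _ h => h.elim
  | t2 j =>
    refine d1g_card3 _ (fun z => z = .t1 j) (fun z => False) (fun z => False) ?_ ?_ ?_ ?_
    · intro z hz
      exact Or.inl ((nb_t2 pk tv tb j z).1 hz)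
    · rintro z z' rfl rfl; rfl
    · exact fun _ _ h => h.elim
    · exact fun _ _ h => h.elim

/-! ### number of vertices -/

/-- `GV` as a sum type -/
private def d1gEquiv (X T : ℕ) : GV X T ≃
    (Unit ⊕ Bool) ⊕ ((Fin (3 * X + T) × Bool) ⊕ (Fin (3 * X + T) × Bool)) ⊕
      ((Fin (3 * X + T) × Bool × Bool) ⊕ (Fin (3 * X + T) × Bool)) ⊕
      ((Fin X × Fin 3 × Bool) ⊕ (Fin X × Bool × Bool)) ⊕ (Fin T ⊕ Fin T) where
  toFun
    | .rt => .inl (.inl ())
    | .rl b => .inl (.inr b)
    | .bb p s => .inr (.inl (.inl (p, s)))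
    | .fr p s => .inr (.inl (.inr (p, s)))
    | .fp p s b => .inr (.inr (.inl (.inl (p, s, b))))
    | .cp p b => .inr (.inr (.inl (.inr (p, b))))
    | .op v d b => .inr (.inr (.inr (.inl (.inl (v, d, b)))))
    | .gd v z0 z1 => .inr (.inr (.inr (.inl (.inr (v, z0, z1)))))
    | .t1 j => .inr (.inr (.inr (.inr (.inl j))))
    | .t2 j => .inr (.inr (.inr (.inr (.inr j))))
  invFun
    | .inl (.inl ()) => .rt
    | .inl (.inr b) => .rl b
    | .inr (.inl (.inl (p, s))) => .bb p s
    | .inr (.inl (.inr (p, s))) => .fr p s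
    | .inr (.inr (.inl (.inl (p, s, b)))) => .fp p s b
    | .inr (.inr (.inl (.inr (p, b)))) => .cp p b
    | .inr (.inr (.inr (.inl (.inl (v, d, b))))) => .op v d b
    | .inr (.inr (.inr (.inl (.inr (v, z0, z1))))) => .gd v z0 z1
    | .inr (.inr (.inr (.inr (.inl j)))) => .t1 j
    | .inr (.inr (.inr (.inr (.inr j)))) => .t2 j
  left_inv u := by cases u <;> rfl
  right_inv u := by
    rcases u with ((_ | _) | (_ | _) | (_ | _) | (_ | _) | (_ | _)) <;> rfl

/-- number of vertices: `rt, rl` 3; per port 2+2+4+2; per XOR constraint 6+4; per unary 2 -/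
theorem card_GV (X T : ℕ) :
    Fintype.card (GV X T) = 3 + 10 * (3 * X + T) + 10 * X + 2 * T := by
  rw [Fintype.card_congr (d1gEquiv X T)]
  simp only [Fintype.card_sum, Fintype.card_prod, Fintype.card_fin, Fintype.card_bool,
    Fintype.card_unit]
  ring

end Crest.Agent.R290
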