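import Crest.Agent.R290.EqD1
import Crest.Agent.R290.D1Mod

/-!
Row 290, MODULE D1, piece D1_LIST: `gadjT` of lists is `aG`; the difference system is a model.
-/
set_option autoImplicit false

namespace Crest.Agent.R290

open Finset

variable {κ : Type} [DecidableEq κ]

theorem pkL_po (xs : List (κ × κ × κ)) {T : ℕ} (tk : Fin T → κ) (v : Fin xs.length) (d : Fin 3) :
    pkL xs T tk (po v d) = if d.val = 0 then (xs.get v).1 else if d.val = 1 then (xs.get v).2.1
      else (xs.get v).2.2 := by
  have h1 : (3 * v.val + d.val) / 3 = v.val := by omega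
  have h2 : (3 * v.val + d.val) % 3 = d.val := by omega
  have h3 : 3 * v.val + d.val < 3 * xs.length := by omega
  simp only [pkL, po, h1, h2, h3, dif_pos]

theorem pkL_pu (xs : List (κ × κ × κ)) {T : ℕ} (tk : Fin T → κ) (j : Fin T) :
    pkL xs T tk (pu j) = tk j := by
  have h3 : ¬ (3 * xs.length + j.val < 3 * xs.length) := by omega
  unfold pkL pu
  rw [dif_neg h3]
  congr 1
  apply Fin.ext
  simp

omit [DecidableEq κ] in
theorem d1l_flat (xs : List (κ × κ × κ)) (n : ℕ) :
    (xs.flatMap fun c => [c.1, c.2.1, c.2.2])[n]? =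
      (xs[n / 3]?).map (fun c => if n % 3 = 0 then c.1 else if n % 3 = 1 then c.2.1 else c.2.2) := by
  induction xs generalizing n with
  | nil => simp
  | cons c xs ih =>
    rw [List.flatMap_cons]
    match n with
    | 0 => simp
    | 1 => simp
    | 2 => simp
    | n + 3 =>
      have h1 : (n + 3) / 3 = n / 3 + 1 := by omega
      have h2 : (n + 3) % 3 = n % 3 := by omega
      rw [h1, h2, List.getElem?_cons_succ, ← ih n]
      rfl

omit [DecidableEq κ] in
theorem d1l_flat_len (xs : List (κ × κ × κ)) :
    (xs.flatMap fun c => [c.1, c.2.1, c.2.2]).length = 3 * xs.length := by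
  induction xs with
  | nil => rfl
  | cons c xs ih => rw [List.flatMap_cons, List.length_append, ih, List.length_cons]; simp; omega

/-- the list `portKeys` -/
theorem portKeys_get (xs : List (κ × κ × κ)) {β : Type} (ts : List (κ × β))
    (p : Fin (3 * xs.length + ts.length)) :
    (portKeys xs ts)[p.val]? = some (pkL xs ts.length (fun j => (ts.get j).1) p) := by
  unfold portKeys pkL
  by_cases h : p.val < 3 * xs.length
  · have h3 : p.val / 3 < xs.length := by omega
    rw [List.getElem?_append_left (by rw [d1l_flat_len]; exact h), d1l_flat, dif_pos h,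
      List.getElem?_eq_getElem h3]
    simp only [Option.map_some, List.get_eq_getElem]
  · have h3 : p.val - 3 * xs.length < ts.length := by omega
    rw [List.getElem?_append_right (by rw [d1l_flat_len]; omega), d1l_flat_len, dif_neg h,
      List.getElem?_map, List.getElem?_eq_getElem h3]
    simp only [Option.map_some, List.get_eq_getElem]

/-- the graph of lists is the graph `aG` -/
theorem gadjT_eq_aG (xs : List (κ × κ × κ)) (ts : List (κ × Bool)) (tw : κ × κ × κ → Bool) :
    gadjT xs ts tw = aG (pkL xs ts.length (fun j => (ts.get j).1)) (fun j => (ts.get j).2)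
      (fun v => tw (xs.get v)) := by
  have key : ∀ u v, dadjT xs ts tw u v =
      dG (pkL xs ts.length (fun j => (ts.get j).1)) (fun j => (ts.get j).2)
        (fun v => tw (xs.get v)) u v := by
    intro u v
    have hnx : ∀ p q : Fin (3 * xs.length + ts.length),
        isNext (portKeys xs ts) p q = isNx (pkL xs ts.length (fun j => (ts.get j).1)) p q := by
      intro p q
      unfold isNext isNx
      rw [decide_eq_decide, portKeys_get, portKeys_get]
      refine and_congr Iff.rfl (and_congr ?_ ?_)
      · exact Option.some_inj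
      · constructor
        · intro h r h1 h2 h3
          refine h r h2 h1 ?_
          rw [portKeys_get, h3]
        · intro h r h1 h2 h3
          have hr : r < 3 * xs.length + ts.length := lt_trans h1 q.isLt
          have h4 := portKeys_get xs ts ⟨r, hr⟩
          simp only at h4
          rw [h4] at h3
          exact h ⟨r, hr⟩ h2 h1 (Option.some_inj.1 h3)
    have h1 : ∀ (v : Fin xs.length) (d : Fin 3) (q : Fin (3 * xs.length + ts.length)),
        decide (3 * v.val + d.val = q.val) = decide (po v d = q) := by
      intro v d q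
      rw [decide_eq_decide, Fin.ext_iff]
      rfl
    have h2 : ∀ (j : Fin ts.length) (q : Fin (3 * xs.length + ts.length)),
        decide (3 * xs.length + j.val = q.val) = decide (pu j = q) := by
      intro j q
      rw [decide_eq_decide, Fin.ext_iff]
      rfl
    cases u <;> cases v <;> simp only [dadjT, dG, hnx, h1, h2]
  funext u v
  simp only [gadjT, aG, key]

/-- the same for `ts = tk.map ..`, up to the cast of the vertex types -/
theorem gadjT_map_iso (xs : List (κ × κ × κ)) (tk : List κ) (f : κ → Bool)
    (tw : κ × κ × κ → Bool) :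
    ∃ e : GV xs.length (tk.map fun y => (y, f y)).length ≃ GV xs.length tk.length,
      ∀ a b, aG (pkL xs tk.length tk.get) (fun j => f (tk.get j)) (fun v => tw (xs.get v))
        (e a) (e b) = gadjT xs (tk.map fun y => (y, f y)) tw a b := by
  have gen : ∀ (n m : ℕ) (h : n = m) (k1 : Fin n → κ) (k2 : Fin m → κ) (v1 : Fin n → Bool)
      (v2 : Fin m → Bool), (∀ j, k1 j = k2 (Fin.cast h j)) → (∀ j, v1 j = v2 (Fin.cast h j)) →
      ∃ e : GV xs.length n ≃ GV xs.length m, ∀ a b,
        aG (pkL xs m k2) v2 (fun v => tw (xs.get v)) (e a) (e b) =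
          aG (pkL xs n k1) v1 (fun v => tw (xs.get v)) a b := by
    intro n m h k1 k2 v1 v2 hk hv
    subst h
    have e1 : k1 = k2 := funext hk
    have e2 : v1 = v2 := funext hv
    subst e1 e2
    exact ⟨Equiv.refl _, fun a b => rfl⟩
  rw [gadjT_eq_aG]
  refine gen _ _ (List.length_map _) _ _ _ _ ?_ ?_
  · intro j
    simp
  · intro j
    simp

/-- the difference system is a model -/
theorem mod_dsysT (xs : List (κ × κ × κ)) (tk : List κ) (f f' : κ → Bool)
    (tw tw' : κ × κ × κ → Bool) :
    Mod (dsysT xs tk f f' tw tw') (pkL xs tk.length tk.get) (fun j => f (tk.get j))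
      (fun j => f' (tk.get j)) (fun v => tw (xs.get v)) (fun v => tw' (xs.get v)) := by
  have hp0 : ∀ v : Fin xs.length, pkL xs tk.length tk.get (po v 0) = (xs.get v).1 := by
    intro v; rw [pkL_po]; simp
  have hp1 : ∀ v : Fin xs.length, pkL xs tk.length tk.get (po v 1) = (xs.get v).2.1 := by
    intro v; rw [pkL_po]; simp
  have hp2 : ∀ v : Fin xs.length, pkL xs tk.length tk.get (po v 2) = (xs.get v).2.2 := by
    intro v; rw [pkL_po]; simp
  have hnod : ∀ v : Fin xs.length, (pkL xs tk.length tk.get (po v 0),
      pkL xs tk.length tk.get (po v 1), pkL xs tk.length tk.get (po v 2)) = xs.get v := by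
    intro v; rw [hp0, hp1, hp2]
  have hvar : ∀ y : κ, y ∈ portKeys xs (dsysT xs tk f f' tw tw').ts ↔
      ∃ q, pkL xs tk.length tk.get q = y := by
    intro y
    simp only [dsysT, portKeys, List.mem_append, List.mem_flatMap, List.mem_map, List.map_map]
    constructor
    · rintro (⟨c, hc, hy⟩ | ⟨z, hz, rfl⟩)
      · obtain ⟨v, rfl⟩ := List.get_of_mem hc
        simp only [List.mem_cons, List.not_mem_nil, or_false] at hy
        rcases hy with rfl | rfl | rfl
        · exact ⟨_, hp0 v⟩
        · exact ⟨_, hp1 v⟩
        · exact ⟨_, hp2 v⟩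
      · obtain ⟨j, rfl⟩ := List.get_of_mem hz
        exact ⟨pu j, pkL_pu _ _ _⟩
    · rintro ⟨q, rfl⟩
      rcases port_cases q with ⟨v, d, rfl⟩ | ⟨j, rfl⟩
      · left
        refine ⟨xs.get v, List.get_mem _ _, ?_⟩
        rw [pkL_po]
        split_ifs <;> simp
      · right
        refine ⟨tk.get j, List.get_mem _ _, ?_⟩
        rw [pkL_pu]
        rfl
  constructor
  · intro p
    cases p with
    | var y =>
      show y ∈ portKeys xs (dsysT xs tk f f' tw tw').ts ↔ _
      rw [hvar]
      constructor
      · rintro ⟨q, rfl⟩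
        exact ⟨.cp q false, rfl⟩
      · rintro ⟨u, hu⟩
        cases u <;> simp only [itemV, Option.some.injEq, Item.var.injEq, reduceCtorEq] at hu
        · exact ⟨_, hu⟩
        · exact ⟨_, hu⟩
        · exact ⟨_, hu⟩
    | nod c =>
      show c ∈ xs ↔ _
      constructor
      · intro hc
        obtain ⟨v, rfl⟩ := List.get_of_mem hc
        exact ⟨.gd v false false, by simp only [itemV, hnod]⟩
      · rintro ⟨u, hu⟩
        cases u <;> simp only [itemV, Option.some.injEq, Item.nod.injEq, reduceCtorEq] at hu
        rw [hnod] at hu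
        rw [← hu]
        exact List.get_mem _ _
  · intro g u p hu
    have hv : ∀ y : κ, (∀ β, (y, β) ∈ (dsysT xs tk f f' tw tw').ts → g y = β) ↔
        ∀ j : Fin tk.length, pkL xs tk.length tk.get (pu j) = y →
          g y = tz (Bool.xor (f (tk.get j)) (f' (tk.get j))) := by
      intro y
      simp only [pkL_pu, dsysT, List.mem_map, Prod.mk.injEq]
      constructor
      · intro h j hj
        refine h _ ⟨tk.get j, List.get_mem _ _, hj, rfl⟩
      · rintro h β ⟨z, hz, rfl, rfl⟩
        obtain ⟨j, rfl⟩ := List.get_of_mem hz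
        exact h j rfl
    cases u <;> simp only [itemV, Option.some.injEq, reduceCtorEq] at hu
    · subst hu; exact hv _
    · subst hu; exact hv _
    · subst hu; exact hv _
    · rename_i v z0 z1
      subst hu
      show g _ + g _ + g _ = tz (Bool.xor (tw _) (tw' _)) ↔ _
      simp only [OkV, hnod]

end Crest.Agent.R290
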