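import Crest.Agent.R290.B
import Crest.Agent.R290.D1Fwd
import Crest.Agent.R290.D1Bwd
import Crest.Agent.R290.D1List
import Crest.Agent.R290.D1Graph

/-!
Row 290, MODULE D1 (graph <-> consistency): interface statements, proved (helper49; pieces by
helper37, helper46, helper60, helper74, helper93).
-/
set_option autoImplicit false

namespace Crest.Agent.R290

open Crest.WLRefine Finset

variable {κ : Type} [DecidableEq κ]

theorem gadj_symm (xs : List (κ × κ × κ)) (ts : List (κ × Bool)) (u v) :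
    gadj xs ts u v = gadj xs ts v u := by
  unfold gadj; exact Bool.or_comm _ _

theorem gadj_eq_aG (xs : List (κ × κ × κ)) (ts : List (κ × Bool)) :
    gadj xs ts = aG (pkL xs ts.length (fun j => (ts.get j).1)) (fun j => (ts.get j).2)
      (fun _ => false) := by
  rw [← gadjT_false]
  exact gadjT_eq_aG xs ts _

theorem gadjT_symm (xs : List (κ × κ × κ)) (ts : List (κ × Bool)) (tw : κ × κ × κ → Bool) (u v) :
    gadjT xs ts tw u v = gadjT xs ts tw v u := by
  unfold gadjT; exact Bool.or_comm _ _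

theorem gadjT_irrefl (xs : List (κ × κ × κ)) (ts : List (κ × Bool)) (tw : κ × κ × κ → Bool) (u) :
    gadjT xs ts tw u u = false := by
  rw [gadjT_eq_aG]; exact aG_irrefl _ _ _ u

theorem gadj_irrefl (xs : List (κ × κ × κ)) (ts : List (κ × Bool)) (u) : gadj xs ts u u = false := by
  rw [gadj_eq_aG]; exact aG_irrefl _ _ _ u

omit [DecidableEq κ] in
theorem ports_pos {xs : List (κ × κ × κ)} (hx : xs ≠ []) (T : ℕ) : 0 < 3 * xs.length + T := by
  have := List.length_pos_iff.2 hx
  omega

/-- every vertex has a neighbour -/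
theorem gadj_exists (xs : List (κ × κ × κ)) (ts : List (κ × Bool)) (_hx : xs ≠ []) (u) :
    ∃ v, gadj xs ts u v = true := by
  rw [gadj_eq_aG]; exact aG_exists _ _ _ u

/-- every vertex has a non-neighbour -/
theorem gadj_exists_not (xs : List (κ × κ × κ)) (ts : List (κ × Bool)) (hx : xs ≠ []) (u) :
    ∃ v, u ≠ v ∧ gadj xs ts u v = false := by
  rw [gadj_eq_aG]; exact aG_exists_not _ _ _ (ports_pos hx _) u

theorem gadj_connected (xs : List (κ × κ × κ)) (ts : List (κ × Bool)) (_hx : xs ≠ []) (u v) :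
    Relation.ReflTransGen (fun a b => gadj xs ts a b = true) u v := by
  rw [gadj_eq_aG]; exact aG_connected _ _ _ u v

theorem gadj_deg (xs : List (κ × κ × κ)) (ts : List (κ × Bool)) (u) :
    ((univ : Finset (GV xs.length ts.length)).filter fun v => gadj xs ts u v = true).card ≤ 3 := by
  rw [gadj_eq_aG]; exact aG_deg _ _ _ u

/-- bits to `ZMod 2` -/
def toZ (b : Bool) : ZMod 2 := if b then 1 else 0

/-- the difference system -/
def dsys (xs : List (κ × κ × κ)) (tk : List κ) (f f' : κ → Bool) : CSys κ :=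
  ⟨xs, tk.map fun y => (y, toZ (Bool.xor (f y) (f' y)))⟩

theorem dsys_toT (xs : List (κ × κ × κ)) (tk : List κ) (f f' : κ → Bool) :
    (dsys xs tk f f').toT = dsysT xs tk f f' (fun _ => false) (fun _ => false) := by
  simp only [dsys, CSys.toT, dsysT, toZ, tz]
  rfl

/-- transport along an isomorphism -/
theorem jeq_iff_of_iso {V V' W W' : Type} [Fintype V] [DecidableEq V] [Fintype W] [DecidableEq W]
    [Fintype V'] [DecidableEq V'] [Fintype W'] [DecidableEq W'] {k : ℕ} {G : V → V → Bool}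
    {G' : V' → V' → Bool} {H : W → W → Bool} {H' : W' → W' → Bool} (e : V ≃ V')
    (he : ∀ a b, G' (e a) (e b) = G a b) (f : W ≃ W') (hf : ∀ a b, H' (f a) (f b) = H a b) :
    JEq k G H ↔ JEq k G' H' := by
  have h1 := jeq_of_iso k G G' e he
  have h2 := jeq_of_iso k H H' f hf
  exact ⟨fun h => (h1.symm.trans h).trans h2, fun h => (h1.trans h).trans h2.symm⟩

/-- MAIN THEOREM of D1, twisted form -/
theorem JEq_gadjT_iff (xs : List (κ × κ × κ)) (tk : List κ) (f f' : κ → Bool)
    (tw tw' : κ × κ × κ → Bool) (hx : xs ≠ []) {k : ℕ} (hk : 4 ≤ k) :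
    JEq k (gadjT xs (tk.map fun y => (y, f y)) tw) (gadjT xs (tk.map fun y => (y, f' y)) tw') ↔
      (dsysT xs tk f f' tw tw').Cons k := by
  obtain ⟨e, he⟩ := gadjT_map_iso xs tk f tw
  obtain ⟨e', he'⟩ := gadjT_map_iso xs tk f' tw'
  rw [jeq_iff_of_iso e he e' he']
  have hm := mod_dsysT xs tk f f' tw tw'
  exact ⟨cons_of_jeq hm (ports_pos hx _) hk, jeq_of_cons hm (by omega)⟩

theorem JEq_gadj_iff (xs : List (κ × κ × κ)) (tk : List κ) (f f' : κ → Bool) (hx : xs ≠ []) {k : ℕ}
    (hk : 4 ≤ k) :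
    JEq k (gadj xs (tk.map fun y => (y, f y))) (gadj xs (tk.map fun y => (y, f' y))) ↔
      (dsys xs tk f f').Cons k := by
  rw [← consT_zero, dsys_toT, ← JEq_gadjT_iff xs tk f f' _ _ hx hk, gadjT_false, gadjT_false]

theorem SEq_gadj_iff (xs : List (κ × κ × κ)) (tk : List κ) (f f' : κ → Bool) (hx : xs ≠ []) {k : ℕ}
    (hk : 5 ≤ k) :
    SEq k (gadj xs (tk.map fun y => (y, f y))) (gadj xs (tk.map fun y => (y, f' y))) ↔
      (dsys xs tk f f').Cons (k - 1) := by
  rw [seq_iff_jeq_pred (by omega), JEq_gadj_iff xs tk f f' hx (by omega)]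

theorem rxs_ne_nil {r : ℕ} (R : RSys r) {m : ℕ} (hm : 4 ≤ m) : rxs R m ≠ [] := by
  have : slabNode r m (R.rules.length + R.ax.length) 0 (factHub R.goal) 0 0 0 ∈ rxs R m := by
    rw [mem_rxs]
    right
    refine ⟨R.ax.length, R.goal, by simp, ?_⟩
    rw [mem_factNodes]
    exact ⟨0, by omega, 0, by omega, rfl⟩
  exact List.ne_nil_of_mem this

/-- specialisation to rule systems -/
theorem JEq_adj_iff {r : ℕ} (R : RSys r) {m : ℕ} (hm : 4 ≤ m) :
    JEq m (adjG R m) (adjH R m) ↔ (csys R m).Cons m := by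
  have h := JEq_gadj_iff (rxs R m) (rtk R m) (fun _ => false) (fun y => decide (y = gkey R))
    (rxs_ne_nil R hm) hm
  have h2 : csys R m = dsys (rxs R m) (rtk R m) (fun _ => false) (fun y => decide (y = gkey R)) := by
    simp only [csys, dsys, toZ, Bool.false_xor, decide_eq_true_eq]
  rw [h2]
  exact h

theorem SEq_adj_iff {r : ℕ} (R : RSys r) {m : ℕ} (hm : 4 ≤ m) :
    SEq (m + 1) (adjG R m) (adjH R m) ↔ (csys R m).Cons m := by
  rw [← jeq_iff_seq_succ (by omega), JEq_adj_iff R hm]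

end Crest.Agent.R290
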