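import Crest.Agent.R290.WLGame

/-!
Row 290, MODULE D1, piece D1_INV: algebra of the invariants of the joint game with 4 pebbles.
Everything follows from `JT.sigma`.
-/
set_option autoImplicit false

namespace Crest.Agent.R290

open Finset

variable {V W : Type} [Fintype V] [DecidableEq V] [Fintype W] [DecidableEq W]

/-- invariant pairs of unary predicates for the game with 4 pebbles -/
def Inv1 (G : V → V → Bool) (H : W → W → Bool) (S : V → Prop) (S' : W → Prop) : Prop :=
  ∀ v w, JT 4 G H v w → ∀ i, S (v i) ↔ S' (w i)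

/-- invariant pairs of binary predicates for the game with 4 pebbles -/
def Inv2 (G : V → V → Bool) (H : W → W → Bool) (P : V → V → Prop) (P' : W → W → Prop) : Prop :=
  ∀ v w, JT 4 G H v w → ∀ i j, P (v i) (v j) ↔ P' (w i) (w j)

/-- restriction to four pebbles -/
theorem JT.four {k : ℕ} (hk : 4 ≤ k) {G : V → V → Bool} {H : W → W → Bool} {v : Fin k → V}
    {w : Fin k → W} (h : JT k G H v w) (e : Fin 4 → Fin k) : JT 4 G H (v ∘ e) (w ∘ e) := by
  have hb : JBisim 4 G H (fun x y => ∃ (v : Fin k → V) (w : Fin k → W) (f : Fin 4 → Fin k),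
      JT k G H v w ∧ x = v ∘ f ∧ y = w ∘ f) := by
    constructor
    · rintro x y ⟨v, w, f, h, rfl, rfl⟩
      refine Prod.ext ?_ ?_
      · funext i j
        exact decide_eq_decide.2 (h.eq_iff (f i) (f j))
      · funext i j
        exact h.adj (f i) (f j)
    · rintro x y ⟨v, w, f, h, rfl, rfl⟩
      obtain ⟨σ, hσ⟩ := (jt_bisim k G H).step v w h
      refine ⟨σ, fun z i => ?_⟩
      have hm : ∃ m, ∀ j, j ≠ i → f j ≠ m := by
        classical
        by_contra hcon
        push Not at hcon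
        have hsurj : ((univ : Finset (Fin 4)).erase i).image f = univ := by
          rw [Finset.eq_univ_iff_forall]
          intro m
          obtain ⟨j, hj, hm⟩ := hcon m
          exact Finset.mem_image.2 ⟨j, Finset.mem_erase.2 ⟨hj, mem_univ _⟩, hm⟩
        have h1 : ((univ : Finset (Fin 4)).erase i).card < 4 := by
          have := Finset.card_erase_lt_of_mem (mem_univ i)
          simpa using this
        have h2 := Finset.card_image_le (s := (univ : Finset (Fin 4)).erase i) (f := f)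
        rw [hsurj, Finset.card_univ, Fintype.card_fin] at h2
        omega
      obtain ⟨m, hm⟩ := hm
      refine ⟨Function.update v m z, Function.update w m (σ z), Function.update f i m, hσ z m,
        ?_, ?_⟩
      · funext j
        by_cases h : j = i
        · subst h; simp
        · rw [Function.update_of_ne h]
          simp only [Function.comp]
          rw [Function.update_of_ne h, Function.update_of_ne (hm j h)]
      · funext j
        by_cases h : j = i
        · subst h; simp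
        · rw [Function.update_of_ne h]
          simp only [Function.comp]
          rw [Function.update_of_ne h, Function.update_of_ne (hm j h)]
  exact hb.le ⟨v, w, e, h, rfl, rfl⟩

/-- the step: a bijection such that every further vertex can be added while keeping two given ones -/
theorem JT.sigma {G : V → V → Bool} {H : W → W → Bool} {v : Fin 4 → V} {w : Fin 4 → W}
    (h : JT 4 G H v w) (i j : Fin 4) : ∃ σ : V ≃ W, ∀ z, ∃ v' w' m, JT 4 G H v' w' ∧ v' m = z ∧
      w' m = σ z ∧ v' i = v i ∧ v' j = v j ∧ w' i = w i ∧ w' j = w j := by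
  obtain ⟨σ, hσ⟩ := (jt_bisim 4 G H).step v w h
  have hm : ∃ m : Fin 4, m ≠ i ∧ m ≠ j := by
    revert i j; decide
  obtain ⟨m, hi, hj⟩ := hm
  refine ⟨σ, fun z => ⟨_, _, m, hσ z m, ?_, ?_, ?_, ?_, ?_, ?_⟩⟩
  · simp
  · simp
  · exact Function.update_of_ne hi.symm _ _
  · exact Function.update_of_ne hj.symm _ _
  · exact Function.update_of_ne hi.symm _ _
  · exact Function.update_of_ne hj.symm _ _

variable {G : V → V → Bool} {H : W → W → Bool}

theorem inv2_adj : Inv2 G H (fun x y => G x y = true) (fun x y => H x y = true) := by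
  intro v w h i j
  show G (v i) (v j) = true ↔ H (w i) (w j) = true
  rw [h.adj i j]

theorem inv2_eq : Inv2 G H (fun x y => x = y) (fun x y => x = y) := by
  intro v w h i j
  exact h.eq_iff i j

theorem Inv1.l {S : V → Prop} {S' : W → Prop} (h : Inv1 G H S S') :
    Inv2 G H (fun x _ => S x) (fun x _ => S' x) := fun v w hj i _ => h v w hj i

theorem Inv1.r {S : V → Prop} {S' : W → Prop} (h : Inv1 G H S S') :
    Inv2 G H (fun _ y => S y) (fun _ y => S' y) := fun v w hj _ j => h v w hj j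

theorem Inv2.diag {P : V → V → Prop} {P' : W → W → Prop} (h : Inv2 G H P P') :
    Inv1 G H (fun x => P x x) (fun x => P' x x) := fun v w hj i => h v w hj i i

theorem Inv1.and {S T : V → Prop} {S' T' : W → Prop} (h : Inv1 G H S S') (h' : Inv1 G H T T') :
    Inv1 G H (fun x => S x ∧ T x) (fun x => S' x ∧ T' x) :=
  fun v w hj i => and_congr (h v w hj i) (h' v w hj i)

theorem Inv1.or {S T : V → Prop} {S' T' : W → Prop} (h : Inv1 G H S S') (h' : Inv1 G H T T') :
    Inv1 G H (fun x => S x ∨ T x) (fun x => S' x ∨ T' x) :=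
  fun v w hj i => or_congr (h v w hj i) (h' v w hj i)

theorem Inv1.not {S : V → Prop} {S' : W → Prop} (h : Inv1 G H S S') :
    Inv1 G H (fun x => ¬ S x) (fun x => ¬ S' x) := fun v w hj i => not_congr (h v w hj i)

theorem Inv2.and {S T : V → V → Prop} {S' T' : W → W → Prop} (h : Inv2 G H S S')
    (h' : Inv2 G H T T') : Inv2 G H (fun x y => S x y ∧ T x y) (fun x y => S' x y ∧ T' x y) :=
  fun v w hj i j => and_congr (h v w hj i j) (h' v w hj i j)

theorem Inv2.or {S T : V → V → Prop} {S' T' : W → W → Prop} (h : Inv2 G H S S')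
    (h' : Inv2 G H T T') : Inv2 G H (fun x y => S x y ∨ T x y) (fun x y => S' x y ∨ T' x y) :=
  fun v w hj i j => or_congr (h v w hj i j) (h' v w hj i j)

theorem Inv2.not {S : V → V → Prop} {S' : W → W → Prop} (h : Inv2 G H S S') :
    Inv2 G H (fun x y => ¬ S x y) (fun x y => ¬ S' x y) :=
  fun v w hj i j => not_congr (h v w hj i j)

theorem Inv2.conv {S : V → V → Prop} {S' : W → W → Prop} (h : Inv2 G H S S') :
    Inv2 G H (fun x y => S y x) (fun x y => S' y x) := fun v w hj i j => h v w hj j i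

theorem Inv2.comp {P Q : V → V → Prop} {P' Q' : W → W → Prop} (h : Inv2 G H P P')
    (h' : Inv2 G H Q Q') :
    Inv2 G H (fun x y => ∃ z, P x z ∧ Q z y) (fun x y => ∃ z, P' x z ∧ Q' z y) := by
  intro v w hj i j
  obtain ⟨σ, hσ⟩ := hj.sigma i j
  have key : ∀ z, (P (v i) z ∧ Q z (v j)) ↔ (P' (w i) (σ z) ∧ Q' (σ z) (w j)) := by
    intro z
    obtain ⟨v', w', m, hvw, rfl, hm, h1, h2, h3, h4⟩ := hσ z
    rw [← hm, ← h1, ← h2, ← h3, ← h4]
    exact and_congr (h v' w' hvw i m) (h' v' w' hvw m j)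
  constructor
  · rintro ⟨z, hz⟩
    exact ⟨σ z, (key z).1 hz⟩
  · rintro ⟨z, hz⟩
    refine ⟨σ.symm z, (key _).2 ?_⟩
    rw [σ.apply_symm_apply]
    exact hz

theorem Inv2.ex {P : V → V → Prop} {P' : W → W → Prop} (h : Inv2 G H P P') :
    Inv1 G H (fun x => ∃ z, P x z) (fun x => ∃ z, P' x z) := by
  intro v w hj i
  have := h.comp (Q := fun _ _ => True) (Q' := fun _ _ => True) (fun _ _ _ _ _ => Iff.rfl) v w hj i i
  simpa using this

/-- unary version: `∃ z, S z ∧ P z x` -/
theorem Inv1.via {S : V → Prop} {S' : W → Prop} {P : V → V → Prop} {P' : W → W → Prop}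
    (h : Inv1 G H S S') (h' : Inv2 G H P P') :
    Inv1 G H (fun x => ∃ z, S z ∧ P z x) (fun x => ∃ z, S' z ∧ P' z x) :=
  (h.r.and h'.conv).ex

theorem Inv2.sigmaIff {P : V → V → Prop} {P' : W → W → Prop} (h : Inv2 G H P P') {v : Fin 4 → V}
    {w : Fin 4 → W} (hj : JT 4 G H v w) (i : Fin 4) :
    ∃ σ : V ≃ W, ∀ z, P (v i) z ↔ P' (w i) (σ z) := by
  obtain ⟨σ, hσ⟩ := hj.sigma i i
  refine ⟨σ, fun z => ?_⟩
  obtain ⟨v', w', m, hvw, rfl, hm, h1, -, h3, -⟩ := hσ z
  rw [← hm, ← h1, ← h3]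
  exact h v' w' hvw i m

theorem Inv2.two {P : V → V → Prop} {P' : W → W → Prop} (h : Inv2 G H P P') :
    Inv1 G H (fun x => ∃ a b, a ≠ b ∧ P x a ∧ P x b) (fun x => ∃ a b, a ≠ b ∧ P' x a ∧ P' x b) := by
  intro v w hj i
  obtain ⟨σ, hσ⟩ := h.sigmaIff hj i
  constructor
  · rintro ⟨a, b, hab, ha, hb⟩
    exact ⟨σ a, σ b, fun h => hab (σ.injective h), (hσ a).1 ha, (hσ b).1 hb⟩
  · rintro ⟨a, b, hab, ha, hb⟩
    exact ⟨σ.symm a, σ.symm b, fun h => hab (σ.symm.injective h),
      (hσ _).2 (by rwa [σ.apply_symm_apply]), (hσ _).2 (by rwa [σ.apply_symm_apply])⟩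

theorem Inv2.three {P : V → V → Prop} {P' : W → W → Prop} (h : Inv2 G H P P') :
    Inv1 G H (fun x => ∃ a b c, a ≠ b ∧ a ≠ c ∧ b ≠ c ∧ P x a ∧ P x b ∧ P x c)
      (fun x => ∃ a b c, a ≠ b ∧ a ≠ c ∧ b ≠ c ∧ P' x a ∧ P' x b ∧ P' x c) := by
  intro v w hj i
  obtain ⟨σ, hσ⟩ := h.sigmaIff hj i
  constructor
  · rintro ⟨a, b, c, hab, hac, hbc, ha, hb, hc⟩
    exact ⟨σ a, σ b, σ c, fun h => hab (σ.injective h), fun h => hac (σ.injective h),
      fun h => hbc (σ.injective h), (hσ a).1 ha, (hσ b).1 hb, (hσ c).1 hc⟩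
  · rintro ⟨a, b, c, hab, hac, hbc, ha, hb, hc⟩
    exact ⟨σ.symm a, σ.symm b, σ.symm c, fun h => hab (σ.symm.injective h),
      fun h => hac (σ.symm.injective h), fun h => hbc (σ.symm.injective h),
      (hσ _).2 (by rwa [σ.apply_symm_apply]), (hσ _).2 (by rwa [σ.apply_symm_apply]),
      (hσ _).2 (by rwa [σ.apply_symm_apply])⟩

theorem Inv1.congr {S T : V → Prop} {S' T' : W → Prop} (h : Inv1 G H S S')
    (h1 : ∀ x, S x ↔ T x) (h2 : ∀ x, S' x ↔ T' x) : Inv1 G H T T' := by
  intro v w hj i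
  rw [← h1, ← h2]
  exact h v w hj i

theorem Inv2.congr {S T : V → V → Prop} {S' T' : W → W → Prop} (h : Inv2 G H S S')
    (h1 : ∀ x y, S x y ↔ T x y) (h2 : ∀ x y, S' x y ↔ T' x y) : Inv2 G H T T' := by
  intro v w hj i j
  rw [← h1, ← h2]
  exact h v w hj i j

/-! ### the predicates used for the graphs of constraint systems -/

/-- at most one neighbour -/
def Leaf (a : V → V → Bool) (z : V) : Prop := ¬ ∃ x y, x ≠ y ∧ a z x = true ∧ a z y = true

/-- three distinct neighbours, and all neighbours are at distance 2 from some non-neighbour -/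
def TT (a : V → V → Bool) (z : V) : Prop :=
  (∃ x y u, x ≠ y ∧ x ≠ u ∧ y ≠ u ∧ a z x = true ∧ a z y = true ∧ a z u = true) ∧
  ∃ c, ¬ (a z c = true) ∧ ¬ ∃ y, a z y = true ∧ ¬ ∃ x, a y x = true ∧ a x c = true

theorem inv1_leaf : Inv1 G H (Leaf G) (Leaf H) := (inv2_adj.two).not

theorem inv1_TT : Inv1 G H (TT G) (TT H) :=
  inv2_adj.three.and ((inv2_adj.not.and (inv2_adj.comp (inv2_adj.comp inv2_adj).not).not).ex)

end Crest.Agent.R290
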