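import Crest.Agent.R290.D1Nb
import Crest.Agent.R290.D1Inv

/-!
Row 290, MODULE D1, piece D1_BASE: the colours determine the kind and the port of every vertex.

PROOF. Write A_p = bb p false, B_p = bb p true, F_p = fr p false, C_p = fr p true,
E_p = {fp p false b}, D_p = {fp p true b}, G = aG pk tv tb, H = aG pk tv' tb'.
`TT` holds for F_p (witness c = C_p) and C_p (witness F_p), fails for rt, A_p, B_p:
 rt: c at distance two via rl is a neighbour of rt;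
 A_p: c ∈ {D_p, B_{p+1}, F_{p+1}} via B_p (a common neighbour excluded), c ∈ {prev, F_q, D_q} via
 prev = B_q, p = q+1;
 B_p: no three neighbours if p is last; else c ∈ {E_p, cp p} via C_p, c ∈ {C_{p+1}, A_{p+2}, E_{p+1}}
 via A_{p+1}.
Then: {rt} = two leaf neighbours; A_0 = non-leaf neighbour of rt; F_p = nbr of A_p with TT;
B_p = nbr of A_p, not TT, not prev; C_p = nbr of B_p with TT; A_{p+1} = nbr of B_p, not TT, not A_p;
E_p = nbr of F_p, not A_p; D_p = nbr of C_p, not B_p; CP_p = nbr of D_p, not C_p, not E_p;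
OP_{v,d} = nbr of E_{po v d}, not F, not D; t1 j the same with E_{pu j}; GD_v = nbr of OP_{v,0}, not E;
t2 j = nbr of t1 j, not E.
-/
set_option autoImplicit false

namespace Crest.Agent.R290

open Finset

variable {κ : Type} [DecidableEq κ] {X T : ℕ} {pk : Fin (3 * X + T) → κ} {tv tv' : Fin T → Bool}
  {tb tb' : Fin X → Bool}

/-- same kind and port -/
def SameBase : GV X T → GV X T → Prop
  | .rt, .rt => True
  | .rl _, .rl _ => True
  | .bb p s, .bb q s' => p = q ∧ s = s'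
  | .fr p s, .fr q s' => p = q ∧ s = s'
  | .fp p s _, .fp q s' _ => p = q ∧ s = s'
  | .cp p _, .cp q _ => p = q
  | .op v d _, .op v' d' _ => v = v' ∧ d = d'
  | .gd v _ _, .gd v' _ _ => v = v'
  | .t1 j, .t1 j' => j = j'
  | .t2 j, .t2 j' => j = j'
  | _, _ => False

theorem TT.dist {V : Type} {a : V → V → Bool} {z : V} (h : TT a z) :
    ∃ c, a z c ≠ true ∧ ∀ y, a z y = true → ∃ x, a y x = true ∧ a x c = true := by
  obtain ⟨-, c, hc, h⟩ := h
  refine ⟨c, hc, fun y hy => ?_⟩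
  by_contra hcon
  exact h ⟨y, hy, hcon⟩

theorem not_TT_rt : ¬ TT (aG pk tv tb) .rt := by
  intro h
  obtain ⟨c, hc, h⟩ := h.dist
  obtain ⟨x, hx, hxc⟩ := h (.rl false) ((nb_rt _ _ _ _).2 (Or.inl ⟨_, rfl⟩))
  rw [nb_rl] at hx
  subst hx
  exact hc hxc

theorem not_TT_A_aux (p : Fin (3 * X + T)) {y c x x' : GV X T}
    (hy : (p.val = 0 ∧ y = .rt) ∨ ∃ q, q.val + 1 = p.val ∧ y = .bb q true)
    (hc : aG pk tv tb (.bb p false) c ≠ true)
    (hx : aG pk tv tb (.bb p true) x = true) (hxc : aG pk tv tb x c = true)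
    (hx' : aG pk tv tb y x' = true) (hxc' : aG pk tv tb x' c = true) : False := by
  rcases hy with ⟨hp, rfl⟩ | ⟨q, hq, rfl⟩
  · grind [nb_bb0, nb_bb1, nb_fr, nb_rt, nb_rl]
  · grind [nb_bb0, nb_bb1, nb_fr]

theorem exists_prev (p : Fin (3 * X + T)) : ∃ y, aG pk tv tb (.bb p false) y = true ∧
    ((p.val = 0 ∧ y = .rt) ∨ ∃ q, q.val + 1 = p.val ∧ y = .bb q true) := by
  by_cases hp : p.val = 0
  · exact ⟨.rt, by rw [nb_bb0]; simp [hp], Or.inl ⟨hp, rfl⟩⟩
  · have hq : p.val - 1 < 3 * X + T := by omega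
    have hq2 : p.val - 1 + 1 = p.val := by omega
    exact ⟨.bb ⟨p.val - 1, hq⟩ true, by
      rw [nb_bb0]; right; left; exact ⟨⟨p.val - 1, hq⟩, hq2, rfl⟩,
      Or.inr ⟨⟨p.val - 1, hq⟩, hq2, rfl⟩⟩

theorem not_TT_A (p : Fin (3 * X + T)) : ¬ TT (aG pk tv tb) (.bb p false) := by
  intro h
  obtain ⟨c, hc, h⟩ := h.dist
  obtain ⟨x, hx, hxc⟩ := h (.bb p true) (by rw [nb_bb0]; simp)
  obtain ⟨y, hy, hyy⟩ := exists_prev (pk := pk) (tv := tv) (tb := tb) p
  obtain ⟨x', hx', hxc'⟩ := h y hy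
  exact not_TT_A_aux p hyy hc hx hxc hx' hxc'

theorem not_TT_B_aux (p q : Fin (3 * X + T)) {c x x' : GV X T} (hq : p.val + 1 = q.val)
    (hc : aG pk tv tb (.bb p true) c ≠ true)
    (hx : aG pk tv tb (.fr p true) x = true) (hxc : aG pk tv tb x c = true)
    (hx' : aG pk tv tb (.bb q false) x' = true) (hxc' : aG pk tv tb x' c = true) : False := by
  grind [nb_bb0, nb_bb1, nb_fr, nb_fp1, nb_rt]

theorem not_TT_B (p : Fin (3 * X + T)) : ¬ TT (aG pk tv tb) (.bb p true) := by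
  intro h
  by_cases hp : ∃ q : Fin (3 * X + T), p.val + 1 = q.val
  · obtain ⟨q, hq⟩ := hp
    obtain ⟨c, hc, h⟩ := h.dist
    obtain ⟨x, hx, hxc⟩ := h (.fr p true) (by rw [nb_bb1]; simp)
    obtain ⟨x', hx', hxc'⟩ := h (.bb q false) (by rw [nb_bb1]; exact Or.inr (Or.inr ⟨q, hq, rfl⟩))
    exact not_TT_B_aux p q hq hc hx hxc hx' hxc'
  · obtain ⟨⟨x, y, u, hxy, hxu, hyu, hx, hy, hu⟩, -⟩ := h
    grind [nb_bb1]

theorem TT_F (p : Fin (3 * X + T)) : TT (aG pk tv tb) (.fr p false) := by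
  refine ⟨⟨.bb p false, .fp p false false, .fp p false true, by simp, by simp, by simp,
    by rw [nb_fr]; simp, by rw [nb_fr]; simp, by rw [nb_fr]; simp⟩, .fr p true,
    by rw [nb_fr]; simp, ?_⟩
  rintro ⟨y, hy, hcon⟩
  apply hcon
  rw [nb_fr] at hy
  rcases hy with rfl | ⟨b, rfl⟩
  · exact ⟨.bb p true, by rw [nb_bb0]; simp, by rw [nb_bb1]; simp⟩
  · exact ⟨.fp p true b, by rw [nb_fp0]; simp, by rw [nb_fp1]; simp⟩

theorem TT_C (p : Fin (3 * X + T)) : TT (aG pk tv tb) (.fr p true) := by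
  refine ⟨⟨.bb p true, .fp p true false, .fp p true true, by simp, by simp, by simp,
    by rw [nb_fr]; simp, by rw [nb_fr]; simp, by rw [nb_fr]; simp⟩, .fr p false,
    by rw [nb_fr]; simp, ?_⟩
  rintro ⟨y, hy, hcon⟩
  apply hcon
  rw [nb_fr] at hy
  rcases hy with rfl | ⟨b, rfl⟩
  · exact ⟨.bb p false, by rw [nb_bb1]; simp, by rw [nb_bb0]; simp⟩
  · exact ⟨.fp p false b, by rw [nb_fp1]; simp, by rw [nb_fp0]; simp⟩

/-- leaves -/
theorem leaf_cases {z : GV X T} (h : Leaf (aG pk tv tb) z) :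
    (∃ b, z = .rl b) ∨ (∃ j, z = .t2 j) ∨ ∃ p b, z = .cp p b := by
  by_contra hcon
  apply h
  cases z with
  | rt => exact ⟨.rl false, .rl true, by simp, by rw [nb_rt]; simp, by rw [nb_rt]; simp⟩
  | rl b => simp at hcon
  | bb p s =>
    cases s
    · exact ⟨.bb p true, .fr p false, by simp, by rw [nb_bb0]; simp, by rw [nb_bb0]; simp⟩
    · exact ⟨.bb p false, .fr p true, by simp, by rw [nb_bb1]; simp, by rw [nb_bb1]; simp⟩
  | fr p s => exact ⟨.bb p s, .fp p s true, by simp, by rw [nb_fr]; simp, by rw [nb_fr]; simp⟩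
  | fp p s b =>
    cases s
    · exact ⟨.fr p false, .fp p true b, by simp, by rw [nb_fp0]; simp, by rw [nb_fp0]; simp⟩
    · exact ⟨.fr p true, .fp p false b, by simp, by rw [nb_fp1]; simp, by rw [nb_fp1]; simp⟩
  | cp p b => simp at hcon
  | op v d b =>
    have hg : ∃ z0 z1, gzT (tb v) z0 z1 d = b := by
      have : d = 0 ∨ d = 1 ∨ d = 2 := by omega
      rcases this with rfl | rfl | rfl
      · exact ⟨b, false, rfl⟩
      · exact ⟨false, b, rfl⟩
      · exact ⟨Bool.xor (tb v) b, false, by cases tb v <;> cases b <;> rfl⟩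
    obtain ⟨z0, z1, hg⟩ := hg
    exact ⟨.fp (po v d) false b, .gd v z0 z1, by simp, by rw [nb_op]; simp,
      by rw [nb_op]; exact Or.inr ⟨z0, z1, hg, rfl⟩⟩
  | gd v z0 z1 => exact ⟨.op v 0 (gzT (tb v) z0 z1 0), .op v 1 (gzT (tb v) z0 z1 1), by simp,
      by rw [nb_gd]; exact ⟨_, rfl⟩, by rw [nb_gd]; exact ⟨_, rfl⟩⟩
  | t1 j => exact ⟨.fp (pu j) false (tv j), .t2 j, by simp, by rw [nb_t1]; simp,
      by rw [nb_t1]; simp⟩
  | t2 j => simp at hcon

theorem leaf_rl (b : Bool) : Leaf (aG pk tv tb) (.rl b : GV X T) := by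
  rintro ⟨x, y, hxy, hx, hy⟩
  rw [nb_rl] at hx hy
  exact hxy (hx.trans hy.symm)

/-- the root: two leaf neighbours -/
theorem root_iff (z : GV X T) : (∃ x y, x ≠ y ∧ (aG pk tv tb z x = true ∧ Leaf (aG pk tv tb) x) ∧
    (aG pk tv tb z y = true ∧ Leaf (aG pk tv tb) y)) ↔ z = .rt := by
  constructor
  · rintro ⟨x, y, hxy, ⟨hx, hlx⟩, ⟨hy, hly⟩⟩
    have hx' := hx
    have hy' := hy
    rw [aG_symm] at hx hy
    rcases leaf_cases hlx with ⟨b, rfl⟩ | ⟨j, rfl⟩ | ⟨p, b, rfl⟩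
    · rw [nb_rl] at hx; exact hx
    · rw [nb_t2] at hx
      subst hx
      rcases leaf_cases hly with ⟨b, rfl⟩ | ⟨j', rfl⟩ | ⟨p, b, rfl⟩
      · rw [nb_rl] at hy; exact hy
      · rw [nb_t2] at hy; grind
      · rw [nb_cp] at hy; simp at hy
    · rcases leaf_cases hly with ⟨b, rfl⟩ | ⟨j', rfl⟩ | ⟨p', b', rfl⟩
      · rw [nb_rl] at hy; exact hy
      · rw [nb_t2] at hy; subst hy; rw [nb_cp] at hx; simp at hx
      · exfalso
        rw [nb_cp] at hx hy
        rcases hx with rfl | ⟨q, hq, rfl⟩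
        · rcases hy with hy | ⟨q', hq', hy⟩
          · apply hxy; grind
          · simp at hy
        · apply hlx
          refine ⟨.fp p true b, .cp q b, by simp, by rw [nb_cp]; simp, ?_⟩
          rw [aG_symm]; exact hx'
  · rintro rfl
    exact ⟨.rl false, .rl true, by simp, ⟨by rw [nb_rt]; simp, leaf_rl _⟩,
      ⟨by rw [nb_rt]; simp, leaf_rl _⟩⟩


/-! ### the sets of vertices are invariant -/

theorem Inv1.nb {V W : Type} [Fintype V] [DecidableEq V] [Fintype W] [DecidableEq W]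
    {G : V → V → Bool} {H : W → W → Bool} {u : V} {u' : W}
    (h : Inv1 G H (fun z => z = u) (fun z => z = u')) :
    Inv1 G H (fun x => G u x = true) (fun x => H u' x = true) :=
  (h.via inv2_adj).congr (fun x => by simp) (fun x => by simp)

theorem inv1_rt : Inv1 (aG pk tv tb) (aG pk tv' tb') (fun z => z = .rt) (fun z => z = .rt) :=
  ((inv2_adj.and inv1_leaf.r).two).congr root_iff root_iff

/-- the vertex before `bb p false` -/
def PrevV (p : Fin (3 * X + T)) (z : GV X T) : Prop :=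
  (p.val = 0 ∧ z = .rt) ∨ ∃ q, q.val + 1 = p.val ∧ z = .bb q true

theorem not_leaf_bb (p : Fin (3 * X + T)) (s : Bool) : ¬ Leaf (aG pk tv tb) (.bb p s) := by
  intro h
  have := leaf_cases h
  simp at this

theorem A_zero_iff (p : Fin (3 * X + T)) (hp : p.val = 0) (x : GV X T) :
    (aG pk tv tb .rt x = true ∧ ¬ Leaf (aG pk tv tb) x) ↔ x = .bb p false := by
  constructor
  · rintro ⟨h, hl⟩
    rw [nb_rt] at h
    rcases h with ⟨b, rfl⟩ | ⟨q, hq, rfl⟩
    · exact absurd (leaf_rl b) hl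
    · have : q = p := Fin.ext (by omega)
      rw [this]
  · rintro rfl
    exact ⟨by rw [nb_rt]; exact Or.inr ⟨p, hp, rfl⟩, not_leaf_bb _ _⟩

theorem A_succ_iff (p q : Fin (3 * X + T)) (hp : q.val + 1 = p.val) (x : GV X T) :
    ((aG pk tv tb (.bb q true) x = true ∧ ¬ TT (aG pk tv tb) x) ∧ ¬ x = .bb q false) ↔
      x = .bb p false := by
  constructor
  · rintro ⟨⟨h, hl⟩, hx⟩
    rw [nb_bb1] at h
    rcases h with rfl | rfl | ⟨q', hq', rfl⟩
    · exact absurd rfl hx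
    · exact absurd (TT_C q) hl
    · have : q' = p := Fin.ext (by omega)
      rw [this]
  · rintro rfl
    refine ⟨⟨by rw [nb_bb1]; exact Or.inr (Or.inr ⟨p, hp, rfl⟩), not_TT_A _⟩, ?_⟩
    intro h
    rw [GV.bb.injEq] at h
    omega

theorem F_iff (p : Fin (3 * X + T)) (x : GV X T) :
    (aG pk tv tb (.bb p false) x = true ∧ TT (aG pk tv tb) x) ↔ x = .fr p false := by
  constructor
  · rintro ⟨h, hl⟩
    rw [nb_bb0] at h
    rcases h with ⟨-, rfl⟩ | ⟨q, -, rfl⟩ | rfl | rfl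
    · exact absurd hl not_TT_rt
    · exact absurd hl (not_TT_B _)
    · exact absurd hl (not_TT_B _)
    · rfl
  · rintro rfl
    exact ⟨by rw [nb_bb0]; simp, TT_F p⟩

theorem B_iff (p : Fin (3 * X + T)) (x : GV X T) :
    ((aG pk tv tb (.bb p false) x = true ∧ ¬ TT (aG pk tv tb) x) ∧ ¬ PrevV p x) ↔
      x = .bb p true := by
  constructor
  · rintro ⟨⟨h, hl⟩, hx⟩
    rw [nb_bb0] at h
    rcases h with h | h | h | rfl
    · exact absurd (Or.inl h) hx
    · exact absurd (Or.inr h) hx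
    · exact h
    · exact absurd (TT_F p) hl
  · rintro rfl
    refine ⟨⟨by rw [nb_bb0]; simp, not_TT_B _⟩, ?_⟩
    rintro (⟨_, h⟩ | ⟨q, hq, h⟩)
    · exact absurd h (by simp)
    · rw [GV.bb.injEq] at h
      rw [← h.1] at hq
      omega

theorem C_iff (p : Fin (3 * X + T)) (x : GV X T) :
    (aG pk tv tb (.bb p true) x = true ∧ TT (aG pk tv tb) x) ↔ x = .fr p true := by
  constructor
  · rintro ⟨h, hl⟩
    rw [nb_bb1] at h
    rcases h with rfl | rfl | ⟨q', hq', rfl⟩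
    · exact absurd hl (not_TT_A _)
    · rfl
    · exact absurd hl (not_TT_A _)
  · rintro rfl
    exact ⟨by rw [nb_bb1]; simp, TT_C p⟩

theorem inv1_B_of {p : Fin (3 * X + T)}
    (h1 : Inv1 (aG pk tv tb) (aG pk tv' tb') (PrevV p) (PrevV p))
    (h2 : Inv1 (aG pk tv tb) (aG pk tv' tb') (fun z => z = .bb p false) (fun z => z = .bb p false)) :
    Inv1 (aG pk tv tb) (aG pk tv' tb') (fun z => z = .bb p true) (fun z => z = .bb p true) :=
  ((h2.nb.and inv1_TT.not).and h1.not).congr (B_iff p) (B_iff p)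

theorem inv1_bb_aux (n : ℕ) : ∀ p : Fin (3 * X + T), p.val = n →
    Inv1 (aG pk tv tb) (aG pk tv' tb') (PrevV p) (PrevV p) ∧
    Inv1 (aG pk tv tb) (aG pk tv' tb') (fun z => z = .bb p false) (fun z => z = .bb p false) := by
  induction n with
  | zero =>
    intro p hp
    refine ⟨inv1_rt.congr (fun x => ?_) (fun x => ?_),
      (inv1_rt.nb.and inv1_leaf.not).congr (A_zero_iff p hp) (A_zero_iff p hp)⟩
    · simp [PrevV, hp]
    · simp [PrevV, hp]
  | succ n ih =>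
    intro p hp
    have hq : p.val - 1 < 3 * X + T := by omega
    obtain ⟨h1, h2⟩ := ih ⟨p.val - 1, hq⟩ (by simp only; omega)
    have h3 := inv1_B_of h1 h2
    have hq2 : (⟨p.val - 1, hq⟩ : Fin (3 * X + T)).val + 1 = p.val := by simp only; omega
    refine ⟨h3.congr (fun x => ?_) (fun x => ?_),
      ((h3.nb.and inv1_TT.not).and h2.not).congr (A_succ_iff p _ hq2) (A_succ_iff p _ hq2)⟩
    · constructor
      · intro h; exact Or.inr ⟨_, hq2, h⟩
      · rintro (⟨h, _⟩ | ⟨q, hq', rfl⟩)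
        · omega
        · have : q = ⟨p.val - 1, hq⟩ := Fin.ext (by simp only; omega)
          rw [this]
    · constructor
      · intro h; exact Or.inr ⟨_, hq2, h⟩
      · rintro (⟨h, _⟩ | ⟨q, hq', rfl⟩)
        · omega
        · have : q = ⟨p.val - 1, hq⟩ := Fin.ext (by simp only; omega)
          rw [this]

theorem inv1_bb (p : Fin (3 * X + T)) (s : Bool) :
    Inv1 (aG pk tv tb) (aG pk tv' tb') (fun z => z = .bb p s) (fun z => z = .bb p s) := by
  obtain ⟨h1, h2⟩ := inv1_bb_aux (pk := pk) (tv := tv) (tv' := tv') (tb := tb) (tb' := tb')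
    p.val p rfl
  cases s
  · exact h2
  · exact inv1_B_of h1 h2

theorem inv1_fr (p : Fin (3 * X + T)) (s : Bool) :
    Inv1 (aG pk tv tb) (aG pk tv' tb') (fun z => z = .fr p s) (fun z => z = .fr p s) := by
  cases s
  · exact ((inv1_bb p false).nb.and inv1_TT).congr (F_iff p) (F_iff p)
  · exact ((inv1_bb p true).nb.and inv1_TT).congr (C_iff p) (C_iff p)

theorem fp_iff (p : Fin (3 * X + T)) (s : Bool) (x : GV X T) :
    (aG pk tv tb (.fr p s) x = true ∧ ¬ x = .bb p s) ↔ ∃ b, x = .fp p s b := by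
  rw [nb_fr]
  constructor
  · rintro ⟨h | h, h'⟩
    · exact absurd h h'
    · exact h
  · rintro ⟨b, rfl⟩
    exact ⟨Or.inr ⟨b, rfl⟩, by simp⟩

theorem inv1_fp (p : Fin (3 * X + T)) (s : Bool) : Inv1 (aG pk tv tb) (aG pk tv' tb')
    (fun z => ∃ b, z = .fp p s b) (fun z => ∃ b, z = .fp p s b) :=
  ((inv1_fr p s).nb.and (inv1_bb p s).not).congr (fp_iff p s) (fp_iff p s)

theorem CP_iff (p : Fin (3 * X + T)) (x : GV X T) :
    (((∃ z, (∃ b, z = .fp p true b) ∧ aG pk tv tb z x = true) ∧ ¬ x = .fr p true) ∧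
      ¬ ∃ b, x = .fp p false b) ↔ ∃ b, x = .cp p b := by
  constructor
  · rintro ⟨⟨⟨z, ⟨b, rfl⟩, h⟩, h1⟩, h2⟩
    rw [nb_fp1] at h
    rcases h with h | h | h
    · exact absurd h h1
    · exact absurd ⟨b, h⟩ h2
    · exact ⟨b, h⟩
  · rintro ⟨b, rfl⟩
    exact ⟨⟨⟨.fp p true b, ⟨b, rfl⟩, by rw [nb_fp1]; simp⟩, by simp⟩, by simp⟩

theorem inv1_CP (p : Fin (3 * X + T)) : Inv1 (aG pk tv tb) (aG pk tv' tb')
    (fun z => ∃ b, z = .cp p b) (fun z => ∃ b, z = .cp p b) :=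
  ((((inv1_fp p true).via inv2_adj).and (inv1_fr p true).not).and (inv1_fp p false).not).congr
    (CP_iff p) (CP_iff p)

theorem OP_iff (v : Fin X) (d : Fin 3) (x : GV X T) :
    (((∃ z, (∃ b, z = .fp (po v d) false b) ∧ aG pk tv tb z x = true) ∧ ¬ x = .fr (po v d) false) ∧
      ¬ ∃ b, x = .fp (po v d) true b) ↔ ∃ b, x = .op v d b := by
  constructor
  · rintro ⟨⟨⟨z, ⟨b, rfl⟩, h⟩, h1⟩, h2⟩
    rw [nb_fp0] at h
    rcases h with h | h | ⟨v', d', hvd, h⟩ | ⟨j, hj, -, h⟩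
    · exact absurd h h1
    · exact absurd ⟨b, h⟩ h2
    · obtain ⟨rfl, rfl⟩ := po_inj hvd
      exact ⟨b, h⟩
    · exact absurd hj.symm (po_ne_pu v d j)
  · rintro ⟨b, rfl⟩
    exact ⟨⟨⟨.fp (po v d) false b, ⟨b, rfl⟩, by
      rw [nb_fp0]; exact Or.inr (Or.inr (Or.inl ⟨v, d, rfl, rfl⟩))⟩, by simp⟩, by simp⟩

theorem inv1_OP (v : Fin X) (d : Fin 3) : Inv1 (aG pk tv tb) (aG pk tv' tb')
    (fun z => ∃ b, z = .op v d b) (fun z => ∃ b, z = .op v d b) :=
  ((((inv1_fp (po v d) false).via inv2_adj).and (inv1_fr (po v d) false).not).and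
    (inv1_fp (po v d) true).not).congr (OP_iff v d) (OP_iff v d)

theorem t1_iff (j : Fin T) (x : GV X T) :
    (((∃ z, (∃ b, z = .fp (pu j) false b) ∧ aG pk tv tb z x = true) ∧ ¬ x = .fr (pu j) false) ∧
      ¬ ∃ b, x = .fp (pu j) true b) ↔ x = .t1 j := by
  constructor
  · rintro ⟨⟨⟨z, ⟨b, rfl⟩, h⟩, h1⟩, h2⟩
    rw [nb_fp0] at h
    rcases h with h | h | ⟨v', d', hvd, h⟩ | ⟨j', hj, -, h⟩
    · exact absurd h h1
    · exact absurd ⟨b, h⟩ h2
    · exact absurd hvd (po_ne_pu v' d' j)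
    · rw [pu_inj hj] at h
      exact h
  · rintro rfl
    exact ⟨⟨⟨.fp (pu j) false (tv j), ⟨_, rfl⟩, by
      rw [nb_fp0]; exact Or.inr (Or.inr (Or.inr ⟨j, rfl, rfl, rfl⟩))⟩, by simp⟩, by simp⟩

theorem inv1_t1 (j : Fin T) : Inv1 (aG pk tv tb) (aG pk tv' tb')
    (fun z => z = .t1 j) (fun z => z = .t1 j) :=
  ((((inv1_fp (pu j) false).via inv2_adj).and (inv1_fr (pu j) false).not).and
    (inv1_fp (pu j) true).not).congr (t1_iff j) (t1_iff j)

theorem t2_iff (j : Fin T) (x : GV X T) :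
    (aG pk tv tb (.t1 j) x = true ∧ ¬ ∃ b, x = .fp (pu j) false b) ↔ x = .t2 j := by
  constructor
  · rintro ⟨h, h1⟩
    rw [nb_t1] at h
    rcases h with h | h
    · exact absurd ⟨_, h⟩ h1
    · exact h
  · rintro rfl
    exact ⟨by rw [nb_t1]; simp, by simp⟩

theorem inv1_t2 (j : Fin T) : Inv1 (aG pk tv tb) (aG pk tv' tb')
    (fun z => z = .t2 j) (fun z => z = .t2 j) :=
  ((inv1_t1 j).nb.and (inv1_fp (pu j) false).not).congr (t2_iff j) (t2_iff j)

theorem GD_iff (v : Fin X) (x : GV X T) :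
    ((∃ z, (∃ b, z = .op v 0 b) ∧ aG pk tv tb z x = true) ∧
      ¬ ∃ b, x = .fp (po v 0) false b) ↔ ∃ z0 z1, x = .gd v z0 z1 := by
  constructor
  · rintro ⟨⟨z, ⟨b, rfl⟩, h⟩, h1⟩
    rw [nb_op] at h
    rcases h with h | ⟨z0, z1, -, h⟩
    · exact absurd ⟨_, h⟩ h1
    · exact ⟨z0, z1, h⟩
  · rintro ⟨z0, z1, rfl⟩
    exact ⟨⟨.op v 0 z0, ⟨_, rfl⟩, by rw [nb_op]; exact Or.inr ⟨z0, z1, rfl, rfl⟩⟩, by simp⟩

theorem inv1_GD (v : Fin X) : Inv1 (aG pk tv tb) (aG pk tv' tb')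
    (fun z => ∃ z0 z1, z = .gd v z0 z1) (fun z => ∃ z0 z1, z = .gd v z0 z1) :=
  (((inv1_OP v 0).via inv2_adj).and (inv1_fp (po v 0) false).not).congr (GD_iff v) (GD_iff v)

theorem rl_iff (x : GV X T) :
    (aG pk tv tb .rt x = true ∧ Leaf (aG pk tv tb) x) ↔ ∃ b, x = .rl b := by
  constructor
  · rintro ⟨h, hl⟩
    rw [nb_rt] at h
    rcases h with h | ⟨p, -, rfl⟩
    · exact h
    · exact absurd hl (not_leaf_bb _ _)
  · rintro ⟨b, rfl⟩
    exact ⟨by rw [nb_rt]; simp, leaf_rl _⟩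

theorem inv1_rl : Inv1 (aG pk tv tb) (aG pk tv' tb')
    (fun z => ∃ b, z = .rl b) (fun z => ∃ b, z = .rl b) :=
  (inv1_rt.nb.and inv1_leaf).congr rl_iff rl_iff

/-- BASE LEMMA -/
theorem sameBase_of_jt {v w : Fin 4 → GV X T} (h : JT 4 (aG pk tv tb) (aG pk tv' tb') v w)
    (_hne : 0 < 3 * X + T) (i : Fin 4) : SameBase (v i) (w i) := by
  cases hv : v i with
  | rt => rw [(inv1_rt v w h i).1 hv]; trivial
  | rl b =>
    obtain ⟨b', hw⟩ := (inv1_rl v w h i).1 ⟨b, hv⟩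
    rw [hw]; trivial
  | bb p s => rw [(inv1_bb p s v w h i).1 hv]; exact ⟨rfl, rfl⟩
  | fr p s => rw [(inv1_fr p s v w h i).1 hv]; exact ⟨rfl, rfl⟩
  | fp p s b =>
    obtain ⟨b', hw⟩ := (inv1_fp p s v w h i).1 ⟨b, hv⟩
    rw [hw]; exact ⟨rfl, rfl⟩
  | cp p b =>
    obtain ⟨b', hw⟩ := (inv1_CP p v w h i).1 ⟨b, hv⟩
    rw [hw]; exact rfl
  | op v' d b =>
    obtain ⟨b', hw⟩ := (inv1_OP v' d v w h i).1 ⟨b, hv⟩
    rw [hw]; exact ⟨rfl, rfl⟩
  | gd v' z0 z1 =>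
    obtain ⟨b', b'', hw⟩ := (inv1_GD v' v w h i).1 ⟨z0, z1, hv⟩
    rw [hw]; exact rfl
  | t1 j => rw [(inv1_t1 j v w h i).1 hv]; exact rfl
  | t2 j => rw [(inv1_t2 j v w h i).1 hv]; exact rfl

end Crest.Agent.R290
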