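import Crest.Agent.R290.D1Base

/-!
Row 290, MODULE D1, piece D1_BIT: the colours determine the differences.

PROOF. P_p := {(x, y) : ∃ b, Sees p x b, y = cp p b}. For x ∈ D_p: adjacency. x ∈ E_p: ∃ z ∈ D_p,
x ~ z ~ y. x ∈ CP_p: equality. x ∈ OP_{v,d}: ∃ z ∈ E_{po v d}, x ~ z, P z y. x ∈ GD_v: ∃ z ∈ OP_{v,d},
x ~ z, P z y.  C_{p,q} := {(cp p b, cp q b)} for p < q with the same key: via the next port with the
key (`isNx`), strong induction on q - p.
-/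
set_option autoImplicit false

namespace Crest.Agent.R290

open Finset

variable {κ : Type} [DecidableEq κ] {X T : ℕ} {pk : Fin (3 * X + T) → κ} {tv tv' : Fin T → Bool}
  {tb tb' : Fin X → Bool}

/-- the vertex sees the port `p` with the bit `b` -/
def Sees (tb : Fin X → Bool) (p : Fin (3 * X + T)) : GV X T → Bool → Prop
  | .fp q _ b', b => q = p ∧ b' = b
  | .cp q b', b => q = p ∧ b' = b
  | .op v d b', b => po v d = p ∧ b' = b
  | .gd v z0 z1, b => ∃ d, po v d = p ∧ gzT (tb v) z0 z1 d = b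
  | _, _ => False

theorem Sees.fn {p : Fin (3 * X + T)} {x : GV X T} {b b' : Bool} (h : Sees tb p x b)
    (h' : Sees tb p x b') : b = b' := by
  cases x <;> simp only [Sees] at h h'
  · rw [← h.2, ← h'.2]
  · rw [← h.2, ← h'.2]
  · rw [← h.2, ← h'.2]
  · obtain ⟨d, h1, h2⟩ := h
    obtain ⟨d', h1', h2'⟩ := h'
    obtain ⟨-, rfl⟩ := po_inj (h1.trans h1'.symm)
    rw [← h2, ← h2']

/-! ### the parts of `P_p` -/

theorem inv2_PD (p : Fin (3 * X + T)) : Inv2 (aG pk tv tb) (aG pk tv' tb')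
    (fun x y => ∃ b, x = .fp p true b ∧ y = .cp p b)
    (fun x y => ∃ b, x = .fp p true b ∧ y = .cp p b) := by
  have key : ∀ (tv : Fin T → Bool) (tb : Fin X → Bool) (x y : GV X T),
      (((∃ b, x = .fp p true b) ∧ ∃ b, y = .cp p b) ∧ aG pk tv tb x y = true) ↔
      ∃ b, x = .fp p true b ∧ y = .cp p b := by
    intro tv tb x y
    constructor
    · rintro ⟨⟨⟨b, rfl⟩, ⟨b', rfl⟩⟩, h⟩
      rw [nb_fp1] at h
      rcases h with h | h | h
      · exact absurd h (by simp)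
      · exact absurd h (by simp)
      · exact ⟨b, rfl, h⟩
    · rintro ⟨b, rfl, rfl⟩
      exact ⟨⟨⟨b, rfl⟩, ⟨b, rfl⟩⟩, by rw [nb_fp1]; simp⟩
  exact (((inv1_fp p true).l.and (inv1_CP p).r).and inv2_adj).congr (key _ _) (key _ _)

theorem inv2_PE (p : Fin (3 * X + T)) : Inv2 (aG pk tv tb) (aG pk tv' tb')
    (fun x y => ∃ b, x = .fp p false b ∧ y = .cp p b)
    (fun x y => ∃ b, x = .fp p false b ∧ y = .cp p b) := by
  have key : ∀ (tv : Fin T → Bool) (tb : Fin X → Bool) (x y : GV X T),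
      ((∃ b, x = .fp p false b) ∧ ∃ z, aG pk tv tb x z = true ∧
        ∃ b, z = .fp p true b ∧ y = .cp p b) ↔
      ∃ b, x = .fp p false b ∧ y = .cp p b := by
    intro tv tb x y
    constructor
    · rintro ⟨⟨b, rfl⟩, z, h, b', rfl, rfl⟩
      rw [nb_fp0] at h
      rcases h with h | h | ⟨_, _, _, h⟩ | ⟨_, _, _, h⟩
      · exact absurd h (by simp)
      · rw [GV.fp.injEq] at h
        rw [h.2.2]
        exact ⟨b, rfl, rfl⟩
      · exact absurd h (by simp)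
      · exact absurd h (by simp)
    · rintro ⟨b, rfl, rfl⟩
      exact ⟨⟨b, rfl⟩, .fp p true b, by rw [nb_fp0]; simp, b, rfl, rfl⟩
  exact ((inv1_fp p false).l.and (inv2_adj.comp (inv2_PD p))).congr (key _ _) (key _ _)

theorem inv2_Pcp (p : Fin (3 * X + T)) : Inv2 (aG pk tv tb) (aG pk tv' tb')
    (fun x y => ∃ b, x = .cp p b ∧ y = .cp p b)
    (fun x y => ∃ b, x = .cp p b ∧ y = .cp p b) := by
  have key : ∀ (x y : GV X T), ((∃ b, x = .cp p b) ∧ x = y) ↔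
      ∃ b, x = .cp p b ∧ y = .cp p b := by
    intro x y
    constructor
    · rintro ⟨⟨b, rfl⟩, rfl⟩
      exact ⟨b, rfl, rfl⟩
    · rintro ⟨b, rfl, rfl⟩
      exact ⟨⟨b, rfl⟩, rfl⟩
  exact ((inv1_CP p).l.and inv2_eq).congr key key

theorem inv2_PO (v : Fin X) (d : Fin 3) : Inv2 (aG pk tv tb) (aG pk tv' tb')
    (fun x y => ∃ b, x = .op v d b ∧ y = .cp (po v d) b)
    (fun x y => ∃ b, x = .op v d b ∧ y = .cp (po v d) b) := by
  have key : ∀ (tv : Fin T → Bool) (tb : Fin X → Bool) (x y : GV X T),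
      ((∃ b, x = .op v d b) ∧ ∃ z, aG pk tv tb x z = true ∧
        ∃ b, z = .fp (po v d) false b ∧ y = .cp (po v d) b) ↔
      ∃ b, x = .op v d b ∧ y = .cp (po v d) b := by
    intro tv tb x y
    constructor
    · rintro ⟨⟨b, rfl⟩, z, h, b', rfl, rfl⟩
      rw [nb_op] at h
      rcases h with h | ⟨_, _, _, h⟩
      · rw [GV.fp.injEq] at h
        rw [h.2.2]
        exact ⟨b, rfl, rfl⟩
      · exact absurd h (by simp)
    · rintro ⟨b, rfl, rfl⟩
      exact ⟨⟨b, rfl⟩, .fp (po v d) false b, by rw [nb_op]; simp, b, rfl, rfl⟩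
  exact ((inv1_OP v d).l.and (inv2_adj.comp (inv2_PE (po v d)))).congr (key _ _) (key _ _)

theorem inv2_PG (v : Fin X) (d : Fin 3) : Inv2 (aG pk tv tb) (aG pk tv' tb')
    (fun x y => ∃ z0 z1, x = .gd v z0 z1 ∧ y = .cp (po v d) (gzT (tb v) z0 z1 d))
    (fun x y => ∃ z0 z1, x = .gd v z0 z1 ∧ y = .cp (po v d) (gzT (tb' v) z0 z1 d)) := by
  have key : ∀ (tv : Fin T → Bool) (tb : Fin X → Bool) (x y : GV X T),
      ((∃ z0 z1, x = .gd v z0 z1) ∧ ∃ z, aG pk tv tb x z = true ∧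
        ∃ b, z = .op v d b ∧ y = .cp (po v d) b) ↔
      ∃ z0 z1, x = .gd v z0 z1 ∧ y = .cp (po v d) (gzT (tb v) z0 z1 d) := by
    intro tv tb x y
    constructor
    · rintro ⟨⟨z0, z1, rfl⟩, z, h, b', rfl, rfl⟩
      rw [nb_gd] at h
      obtain ⟨d', h⟩ := h
      rw [GV.op.injEq] at h
      obtain ⟨-, rfl, rfl⟩ := h
      exact ⟨z0, z1, rfl, rfl⟩
    · rintro ⟨z0, z1, rfl, rfl⟩
      exact ⟨⟨z0, z1, rfl⟩, .op v d (gzT (tb v) z0 z1 d), by rw [nb_gd]; exact ⟨d, rfl⟩, _, rfl, rfl⟩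
  exact ((inv1_GD v).l.and (inv2_adj.comp (inv2_PO v d))).congr (key _ _) (key _ _)

/-- `P_p` -/
theorem inv2_P (_hne : 0 < 3 * X + T) (p : Fin (3 * X + T)) :
    Inv2 (aG pk tv tb) (aG pk tv' tb') (fun x y => ∃ b, Sees tb p x b ∧ y = .cp p b)
      (fun x y => ∃ b, Sees tb' p x b ∧ y = .cp p b) := by
  rcases port_cases p with ⟨v, d, rfl⟩ | ⟨j, rfl⟩
  · have key : ∀ (tb : Fin X → Bool) (x y : GV X T),
        (((((∃ b, x = .fp (po v d) true b ∧ y = .cp (po v d) b) ∨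
          (∃ b, x = .fp (po v d) false b ∧ y = .cp (po v d) b)) ∨
          (∃ b, x = .cp (po v d) b ∧ y = .cp (po v d) b)) ∨
          (∃ b, x = .op v d b ∧ y = .cp (po v d) b)) ∨
          (∃ z0 z1, x = .gd v z0 z1 ∧ y = .cp (po v d) (gzT (tb v) z0 z1 d))) ↔
        ∃ b, Sees tb (po v d) x b ∧ y = .cp (po v d) b := by
      intro tb x y
      constructor
      · rintro ((((⟨b, rfl, rfl⟩ | ⟨b, rfl, rfl⟩) | ⟨b, rfl, rfl⟩) | ⟨b, rfl, rfl⟩) |
          ⟨z0, z1, rfl, rfl⟩)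
        · exact ⟨b, ⟨rfl, rfl⟩, rfl⟩
        · exact ⟨b, ⟨rfl, rfl⟩, rfl⟩
        · exact ⟨b, ⟨rfl, rfl⟩, rfl⟩
        · exact ⟨b, ⟨rfl, rfl⟩, rfl⟩
        · exact ⟨_, ⟨d, rfl, rfl⟩, rfl⟩
      · rintro ⟨b, h, rfl⟩
        cases x with
        | fp q s b' =>
          obtain ⟨rfl, rfl⟩ := h
          cases s
          · exact Or.inl (Or.inl (Or.inl (Or.inr ⟨b', rfl, rfl⟩)))
          · exact Or.inl (Or.inl (Or.inl (Or.inl ⟨b', rfl, rfl⟩)))
        | cp q b' =>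
          obtain ⟨rfl, rfl⟩ := h
          exact Or.inl (Or.inl (Or.inr ⟨b', rfl, rfl⟩))
        | op v' d' b' =>
          obtain ⟨h1, rfl⟩ := h
          obtain ⟨rfl, rfl⟩ := po_inj h1
          exact Or.inl (Or.inr ⟨b', rfl, rfl⟩)
        | gd v' z0 z1 =>
          obtain ⟨d', h1, rfl⟩ := h
          obtain ⟨rfl, rfl⟩ := po_inj h1
          exact Or.inr ⟨z0, z1, rfl, rfl⟩
        | _ => exact absurd h (by simp [Sees])
    exact (((((inv2_PD _).or (inv2_PE _)).or (inv2_Pcp _)).or (inv2_PO v d)).or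
      (inv2_PG v d)).congr (key _) (key _)
  · have key : ∀ (tb : Fin X → Bool) (x y : GV X T),
        (((∃ b, x = .fp (pu j) true b ∧ y = .cp (pu j) b) ∨
          (∃ b, x = .fp (pu j) false b ∧ y = .cp (pu j) b)) ∨
          (∃ b, x = .cp (pu j) b ∧ y = .cp (pu j) b)) ↔
        ∃ b, Sees tb (pu j) x b ∧ y = .cp (pu j) b := by
      intro tb x y
      constructor
      · rintro ((⟨b, rfl, rfl⟩ | ⟨b, rfl, rfl⟩) | ⟨b, rfl, rfl⟩)
        · exact ⟨b, ⟨rfl, rfl⟩, rfl⟩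
        · exact ⟨b, ⟨rfl, rfl⟩, rfl⟩
        · exact ⟨b, ⟨rfl, rfl⟩, rfl⟩
      · rintro ⟨b, h, rfl⟩
        cases x with
        | fp q s b' =>
          obtain ⟨rfl, rfl⟩ := h
          cases s
          · exact Or.inl (Or.inr ⟨b', rfl, rfl⟩)
          · exact Or.inl (Or.inl ⟨b', rfl, rfl⟩)
        | cp q b' =>
          obtain ⟨rfl, rfl⟩ := h
          exact Or.inr ⟨b', rfl, rfl⟩
        | op v' d' b' =>
          obtain ⟨h1, rfl⟩ := h
          exact absurd h1 (po_ne_pu _ _ _)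
        | gd v' z0 z1 =>
          obtain ⟨d', h1, rfl⟩ := h
          exact absurd h1 (po_ne_pu _ _ _)
        | _ => exact absurd h (by simp [Sees])
    exact (((inv2_PD _).or (inv2_PE _)).or (inv2_Pcp _)).congr (key _) (key _)

theorem inv2_C_lt (n : ℕ) : ∀ {p q : Fin (3 * X + T)}, q.val - p.val = n → p < q → pk p = pk q →
    Inv2 (aG pk tv tb) (aG pk tv' tb') (fun x y => ∃ b, x = .cp p b ∧ y = .cp q b)
      (fun x y => ∃ b, x = .cp p b ∧ y = .cp q b) := by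
  induction n using Nat.strong_induction_on with
  | _ n ih =>
    intro p q hn hlt hpq
    obtain ⟨r, hr, hmin⟩ := (univ.filter fun r : Fin (3 * X + T) => p < r ∧ pk r = pk p).exists_min_image
      id ⟨q, by simp [hlt, hpq]⟩
    simp only [mem_filter, mem_univ, true_and, id] at hr hmin
    have hnx : isNx pk p r = true := by
      simp only [isNx, decide_eq_true_eq]
      refine ⟨hr.1, hr.2.symm, fun r' h1 h2 h3 => ?_⟩
      exact absurd (hmin r' ⟨h1, h3⟩) (not_le.2 h2)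
    have hrq : r ≤ q := hmin q ⟨hlt, hpq.symm⟩
    have h1 : Inv2 (aG pk tv tb) (aG pk tv' tb') (fun x y => ∃ b, x = .cp p b ∧ y = .cp r b)
        (fun x y => ∃ b, x = .cp p b ∧ y = .cp r b) := by
      have key : ∀ (tv : Fin T → Bool) (tb : Fin X → Bool) (x y : GV X T),
          (((∃ b, x = .cp p b) ∧ ∃ b, y = .cp r b) ∧ aG pk tv tb x y = true) ↔
          ∃ b, x = .cp p b ∧ y = .cp r b := by
        intro tv tb x y
        constructor
        · rintro ⟨⟨⟨b, rfl⟩, ⟨b', rfl⟩⟩, h⟩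
          rw [nb_cp] at h
          rcases h with h | ⟨q', -, h⟩
          · exact absurd h (by simp)
          · rw [GV.cp.injEq] at h
            rw [h.2]
            exact ⟨b, rfl, rfl⟩
        · rintro ⟨b, rfl, rfl⟩
          exact ⟨⟨⟨b, rfl⟩, ⟨b, rfl⟩⟩, by rw [nb_cp]; exact Or.inr ⟨r, Or.inl hnx, rfl⟩⟩
      exact (((inv1_CP p).l.and (inv1_CP r).r).and inv2_adj).congr (key _ _) (key _ _)
    rcases hrq.lt_or_eq with h2 | h2
    · have h3 := ih (q.val - r.val) (by have := hr.1; omega) rfl h2 (hr.2.trans hpq)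
      refine (h1.comp h3).congr ?_ ?_
      · intro x y
        constructor
        · rintro ⟨z, ⟨b, rfl, rfl⟩, ⟨b', h, rfl⟩⟩
          rw [GV.cp.injEq] at h
          rw [← h.2]
          exact ⟨b, rfl, rfl⟩
        · rintro ⟨b, rfl, rfl⟩
          exact ⟨_, ⟨b, rfl, rfl⟩, ⟨b, rfl, rfl⟩⟩
      · intro x y
        constructor
        · rintro ⟨z, ⟨b, rfl, rfl⟩, ⟨b', h, rfl⟩⟩
          rw [GV.cp.injEq] at h
          rw [← h.2]
          exact ⟨b, rfl, rfl⟩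
        · rintro ⟨b, rfl, rfl⟩
          exact ⟨_, ⟨b, rfl, rfl⟩, ⟨b, rfl, rfl⟩⟩
    · rw [← h2]; exact h1

/-- `C_{p,q}` -/
theorem inv2_C (_hne : 0 < 3 * X + T) {p q : Fin (3 * X + T)} (hpq : pk p = pk q) :
    Inv2 (aG pk tv tb) (aG pk tv' tb') (fun x y => ∃ b, x = .cp p b ∧ y = .cp q b)
      (fun x y => ∃ b, x = .cp p b ∧ y = .cp q b) := by
  rcases lt_trichotomy p q with h | h | h
  · exact inv2_C_lt _ rfl h hpq
  · rw [← h]; exact inv2_Pcp p
  · refine (inv2_C_lt _ rfl h hpq.symm).conv.congr ?_ ?_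
    · intro x y
      exact ⟨fun ⟨b, h1, h2⟩ => ⟨b, h2, h1⟩, fun ⟨b, h1, h2⟩ => ⟨b, h2, h1⟩⟩
    · intro x y
      exact ⟨fun ⟨b, h1, h2⟩ => ⟨b, h2, h1⟩, fun ⟨b, h1, h2⟩ => ⟨b, h2, h1⟩⟩

theorem inv2_PP (hne : 0 < 3 * X + T) {p q : Fin (3 * X + T)} (hpq : pk p = pk q) :
    Inv2 (aG pk tv tb) (aG pk tv' tb') (fun x y => ∃ b, Sees tb p x b ∧ Sees tb q y b)
      (fun x y => ∃ b, Sees tb' p x b ∧ Sees tb' q y b) := by
  have key : ∀ (tb : Fin X → Bool) (x y : GV X T),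
      (∃ z : GV X T, (∃ b, Sees tb p x b ∧ z = .cp p b) ∧
        ∃ u : GV X T, (∃ b, z = .cp p b ∧ u = .cp q b) ∧
        ∃ b, Sees tb q y b ∧ u = .cp q b) ↔ ∃ b, Sees tb p x b ∧ Sees tb q y b := by
    intro tb x y
    constructor
    · rintro ⟨z, ⟨b, h1, rfl⟩, u, ⟨b', h2, rfl⟩, ⟨b'', h3, h4⟩⟩
      rw [GV.cp.injEq] at h2 h4
      rw [← h4.2, ← h2.2] at h3
      exact ⟨b, h1, h3⟩
    · rintro ⟨b, h1, h2⟩
      exact ⟨_, ⟨b, h1, rfl⟩, _, ⟨b, rfl, rfl⟩, ⟨b, h2, rfl⟩⟩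
  exact ((inv2_P hne p).comp ((inv2_C hne hpq).comp (inv2_P hne q).conv)).congr (key _) (key _)

theorem inv1_U (hne : 0 < 3 * X + T) {p : Fin (3 * X + T)} (j : Fin T) (hpj : pk p = pk (pu j)) :
    Inv1 (aG pk tv tb) (aG pk tv' tb') (fun x => Sees tb p x (tv j))
      (fun x => Sees tb' p x (tv' j)) := by
  have key : ∀ (tv : Fin T → Bool) (tb : Fin X → Bool) (x : GV X T),
      (∃ z, (aG pk tv tb (.t1 j) z = true ∧ ∃ b, z = .fp (pu j) false b) ∧
        ∃ b, Sees tb p x b ∧ Sees tb (pu j) z b) ↔ Sees tb p x (tv j) := by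
    intro tv tb x
    constructor
    · rintro ⟨z, ⟨h1, b, rfl⟩, b', h2, h3⟩
      rw [nb_t1] at h1
      rcases h1 with h1 | h1
      · rw [GV.fp.injEq] at h1
        obtain ⟨-, h4⟩ := h3
        rw [← h1.2.2, h4]
        exact h2
      · exact absurd h1 (by simp)
    · intro h
      exact ⟨.fp (pu j) false (tv j), ⟨by rw [nb_t1]; simp, _, rfl⟩, tv j, h, ⟨rfl, rfl⟩⟩
  exact (((inv1_t1 j).nb.and (inv1_fp (pu j) false)).via (inv2_PP hne hpj).conv).congr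
    (key _ _) (key _ _)

end Crest.Agent.R290
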