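import Crest.Agent.R290.JDefs
import Crest.Agent.R290.WLGame

/-!
Row 290, MODULE D1 (graph <-> consistency), helper49: definitions.

`aG pk tv tb` : the graph with port keys `pk`, unary values `tv`, gadget twists `tb` on `GV X T`.
`item`, `shift e g`, `OkV`.
-/
set_option autoImplicit false

namespace Crest.Agent.R290

open Finset

variable {κ : Type} [DecidableEq κ] {X T : ℕ}

/-- port of direction `d` of the gadget `v` -/
def po (v : Fin X) (d : Fin 3) : Fin (3 * X + T) := ⟨3 * v.val + d.val, by omega⟩

/-- port of the unary constraint `j` -/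
def pu (j : Fin T) : Fin (3 * X + T) := ⟨3 * X + j.val, by omega⟩

/-- `q` is the next port after `p` with the same key -/
def isNx (pk : Fin (3 * X + T) → κ) (p q : Fin (3 * X + T)) : Bool :=
  decide (p < q ∧ pk p = pk q ∧ ∀ r, p < r → r < q → pk r ≠ pk p)

/-- directed adjacency -/
def dG (pk : Fin (3 * X + T) → κ) (tv : Fin T → Bool) (tb : Fin X → Bool) :
    GV X T → GV X T → Bool
  | .rt, .rl _ => true
  | .rt, .bb p s => decide (p.val = 0) && !s
  | .bb p s, .bb q s' => (decide (p = q) && !s && s') || (decide (p.val + 1 = q.val) && s && !s')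
  | .bb p s, .fr q s' => decide (p = q) && (s == s')
  | .fr p s, .fp q s' _ => decide (p = q) && (s == s')
  | .fp p s b, .fp q s' b' => decide (p = q) && !s && s' && (b == b')
  | .fp p s b, .cp q b' => decide (p = q) && s && (b == b')
  | .cp p b, .cp q b' => isNx pk p q && (b == b')
  | .op v d b, .fp q s b' => decide (po v d = q) && !s && (b == b')
  | .gd v z0 z1, .op v' d b => decide (v = v') && (gzT (tb v) z0 z1 d == b)
  | .t1 j, .fp q s b => decide (pu j = q) && !s && (b == tv j)
  | .t1 j, .t2 j' => decide (j = j')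
  | _, _ => false

/-- the adjacency -/
def aG (pk : Fin (3 * X + T) → κ) (tv : Fin T → Bool) (tb : Fin X → Bool)
    (u v : GV X T) : Bool := dG pk tv tb u v || dG pk tv tb v u

/-- `ZMod 2` to bits -/
def zb (z : ZMod 2) : Bool := decide (z = 1)

/-- the item of a vertex -/
def itemV (pk : Fin (3 * X + T) → κ) : GV X T → Option (Item κ)
  | .fp p _ _ => some (.var (pk p))
  | .cp p _ => some (.var (pk p))
  | .op v d _ => some (.var (pk (po v d)))
  | .gd v _ _ => some (.nod (pk (po v 0), pk (po v 1), pk (po v 2)))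
  | _ => none

/-- shift by the values `g` (and exchange the two leaves of the root if `e`) -/
def shiftV (pk : Fin (3 * X + T) → κ) (e : Bool) (g : κ → ZMod 2) : GV X T → GV X T
  | .rl b => .rl (Bool.xor b e)
  | .fp p s b => .fp p s (Bool.xor b (zb (g (pk p))))
  | .cp p b => .cp p (Bool.xor b (zb (g (pk p))))
  | .op v d b => .op v d (Bool.xor b (zb (g (pk (po v d)))))
  | .gd v z0 z1 => .gd v (Bool.xor z0 (zb (g (pk (po v 0))))) (Bool.xor z1 (zb (g (pk (po v 1)))))
  | u => u

/-- the values `g` satisfy the constraints of the item of the vertex -/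
def OkV (pk : Fin (3 * X + T) → κ) (tv tv' : Fin T → Bool) (tb tb' : Fin X → Bool)
    (g : κ → ZMod 2) : GV X T → Prop
  | .fp p _ _ => ∀ j, pk (pu j) = pk p → g (pk p) = tz (Bool.xor (tv j) (tv' j))
  | .cp p _ => ∀ j, pk (pu j) = pk p → g (pk p) = tz (Bool.xor (tv j) (tv' j))
  | .op v d _ => ∀ j, pk (pu j) = pk (po v d) → g (pk (po v d)) = tz (Bool.xor (tv j) (tv' j))
  | .gd v _ _ => g (pk (po v 0)) + g (pk (po v 1)) + g (pk (po v 2)) = tz (Bool.xor (tb v) (tb' v))
  | _ => True

/-! ### bits and `ZMod 2` -/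

@[simp] theorem zb_tz (b : Bool) : zb (tz b) = b := by cases b <;> decide

@[simp] theorem tz_zb (z : ZMod 2) : tz (zb z) = z := by revert z; decide

theorem tz_xor (a b : Bool) : tz (Bool.xor a b) = tz a + tz b := by cases a <;> cases b <;> decide

theorem zb_add (a b : ZMod 2) : zb (a + b) = Bool.xor (zb a) (zb b) := by revert a b; decide

@[simp] theorem zb_zero : zb 0 = false := by decide

theorem zb_inj {a b : ZMod 2} (h : zb a = zb b) : a = b := by revert a b; decide

/-! ### ports -/

theorem port_cases (p : Fin (3 * X + T)) :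
    (∃ (v : Fin X) (d : Fin 3), p = po v d) ∨ ∃ j : Fin T, p = pu j := by
  by_cases h : p.val < 3 * X
  · left
    refine ⟨⟨p.val / 3, by omega⟩, ⟨p.val % 3, Nat.mod_lt _ (by norm_num)⟩, ?_⟩
    apply Fin.ext
    simp only [po]
    omega
  · right
    refine ⟨⟨p.val - 3 * X, by omega⟩, ?_⟩
    apply Fin.ext
    simp only [pu]
    omega

theorem po_inj {v v' : Fin X} {d d' : Fin 3} (h : po (T := T) v d = po v' d') :
    v = v' ∧ d = d' := by
  have h1 := congrArg Fin.val h
  simp only [po] at h1
  constructor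
  · apply Fin.ext; omega
  · apply Fin.ext; omega

theorem pu_inj {j j' : Fin T} (h : pu (X := X) j = pu j') : j = j' := by
  have h1 := congrArg Fin.val h
  simp only [pu] at h1
  apply Fin.ext; omega

theorem po_ne_pu (v : Fin X) (d : Fin 3) (j : Fin T) : po v d ≠ pu j := by
  intro h
  have h1 := congrArg Fin.val h
  simp only [po, pu] at h1
  omega

/-! ### the graph `gadjT` is a graph `aG` -/

/-- port keys of lists -/
def pkL (xs : List (κ × κ × κ)) (T : ℕ) (tk : Fin T → κ) (p : Fin (3 * xs.length + T)) : κ :=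
  if h : p.val < 3 * xs.length then
    (let c := xs.get ⟨p.val / 3, by omega⟩
     if p.val % 3 = 0 then c.1 else if p.val % 3 = 1 then c.2.1 else c.2.2)
  else tk ⟨p.val - 3 * xs.length, by omega⟩

end Crest.Agent.R290
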