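import Crest.Agent.R290.D1Bit

/-!
Row 290, MODULE D1, piece D1_KEY: KEY LEMMA, related tuples differ by a shift.

PROOF. For i let Dif i p δ := ∃ b b', Sees tb p (v i) b ∧ Sees tb' p (w i) b' ∧ δ = xor b b'.
(1) Dif i p δ, Dif j q δ', pk p = pk q → δ = δ' : `(h.four hk ![i,j,i,i])`, `inv2_PP`, `Sees.fn`.
(2) Dif i p δ, pk p = pk (pu j) → δ = xor (tv j) (tv' j) : `inv1_U`.
(3) SameBase (v i) (w i) and Sees tb p (v i) b → ∃ b', Sees tb' p (w i) b'.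
g y := tz δ if Dif i p δ, pk p = y for some i p δ (choice), else 0.
e := xor b b' if v i = rl b, w i = rl b' for some i (`JT.eq_iff`), else false.
-/
set_option autoImplicit false

namespace Crest.Agent.R290

open Finset

variable {κ : Type} [DecidableEq κ] {X T : ℕ} {pk : Fin (3 * X + T) → κ} {tv tv' : Fin T → Bool}
  {tb tb' : Fin X → Bool}

/-- the difference of the bits seen at the port `p` -/
def Dif {k : ℕ} (tb tb' : Fin X → Bool) (v w : Fin k → GV X T) (i : Fin k) (p : Fin (3 * X + T))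
    (δ : Bool) : Prop :=
  ∃ b b', Sees tb p (v i) b ∧ Sees tb' p (w i) b' ∧ δ = Bool.xor b b'

theorem xor_eq_of_iff {b b' c c' : Bool} (h : b = c ↔ b' = c') : Bool.xor b b' = Bool.xor c c' := by
  revert h; revert b b' c c'; decide

theorem Dif.unique {k : ℕ} (hk : 4 ≤ k) (hne : 0 < 3 * X + T) {v w : Fin k → GV X T}
    (h : JT k (aG pk tv tb) (aG pk tv' tb') v w) {i j : Fin k} {p q : Fin (3 * X + T)}
    {δ δ' : Bool} (h1 : Dif tb tb' v w i p δ) (h2 : Dif tb tb' v w j q δ') (hpq : pk p = pk q) :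
    δ = δ' := by
  obtain ⟨b, b', s1, s2, rfl⟩ := h1
  obtain ⟨c, c', t1, t2, rfl⟩ := h2
  have hj := h.four hk ![i, j, i, i]
  have hP := inv2_PP (tv := tv) (tv' := tv') (tb := tb) (tb' := tb') hne hpq _ _ hj 0 1
  have hP' : (∃ b, Sees tb p (v i) b ∧ Sees tb q (v j) b) ↔
      ∃ b, Sees tb' p (w i) b ∧ Sees tb' q (w j) b := hP
  apply xor_eq_of_iff
  constructor
  · rintro rfl
    obtain ⟨x, x1, x2⟩ := hP'.1 ⟨b, s1, t1⟩
    rw [s2.fn x1, t2.fn x2]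
  · rintro rfl
    obtain ⟨x, x1, x2⟩ := hP'.2 ⟨b', s2, t2⟩
    rw [s1.fn x1, t1.fn x2]

theorem Dif.unary {k : ℕ} (hk : 4 ≤ k) (hne : 0 < 3 * X + T) {v w : Fin k → GV X T}
    (h : JT k (aG pk tv tb) (aG pk tv' tb') v w) {i : Fin k} {p : Fin (3 * X + T)}
    {δ : Bool} (h1 : Dif tb tb' v w i p δ) {j : Fin T} (hpj : pk p = pk (pu j)) :
    δ = Bool.xor (tv j) (tv' j) := by
  obtain ⟨b, b', s1, s2, rfl⟩ := h1
  have hj := h.four hk ![i, i, i, i]
  have hP := inv1_U (tv := tv) (tv' := tv') (tb := tb) (tb' := tb') hne j hpj _ _ hj 0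
  have hP' : Sees tb p (v i) (tv j) ↔ Sees tb' p (w i) (tv' j) := hP
  apply xor_eq_of_iff
  constructor
  · rintro rfl
    exact s2.fn (hP'.1 s1)
  · rintro rfl
    exact s1.fn (hP'.2 s2)

theorem JT.sameBase {k : ℕ} (hk : 4 ≤ k) (hne : 0 < 3 * X + T) {v w : Fin k → GV X T}
    (h : JT k (aG pk tv tb) (aG pk tv' tb') v w) (i : Fin k) : SameBase (v i) (w i) :=
  sameBase_of_jt (h.four hk ![i, i, i, i]) hne 0

theorem zb_of_eq_tz {z : ZMod 2} {b : Bool} (h : z = tz b) : zb z = b := by rw [h, zb_tz]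

/-- KEY LEMMA -/
theorem JT.shift {k : ℕ} (hk : 4 ≤ k) (hne : 0 < 3 * X + T) {v w : Fin k → GV X T}
    (h : JT k (aG pk tv tb) (aG pk tv' tb') v w) :
    ∃ (e : Bool) (g : κ → ZMod 2), (∀ i, w i = shiftV pk e g (v i)) ∧
      ∀ i, OkV pk tv tv' tb tb' g (v i) := by
  classical
  obtain ⟨g, hg⟩ : ∃ g : κ → ZMod 2, ∀ i p δ, Dif tb tb' v w i p δ → g (pk p) = tz δ := by
    refine ⟨fun y => if hy : ∃ δ, ∃ i p, Dif tb tb' v w i p δ ∧ pk p = y then tz hy.choose else 0,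
      fun i p δ hd => ?_⟩
    have hy : ∃ δ, ∃ i' p', Dif tb tb' v w i' p' δ ∧ pk p' = pk p := ⟨δ, i, p, hd, rfl⟩
    simp only [dif_pos hy]
    obtain ⟨i', p', hd', hp'⟩ := hy.choose_spec
    rw [Dif.unique hk hne h hd' hd hp']
  obtain ⟨e, he⟩ : ∃ e : Bool, ∀ i b b', v i = .rl b → w i = .rl b' → e = Bool.xor b b' := by
    by_cases hex : ∃ i b b', v i = .rl b ∧ w i = .rl b'
    · obtain ⟨i, b, b', h1, h2⟩ := hex
      refine ⟨Bool.xor b b', fun j c c' h3 h4 => ?_⟩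
      have := h.eq_iff i j
      rw [h1, h2, h3, h4] at this
      apply xor_eq_of_iff
      simpa using this
    · refine ⟨false, fun i b b' h1 h2 => absurd ⟨i, b, b', h1, h2⟩ hex⟩
  have hfp : ∀ i p s b b', v i = .fp p s b → w i = .fp p s b' →
      g (pk p) = tz (Bool.xor b b') ∧ Dif tb tb' v w i p (Bool.xor b b') := by
    intro i p s b b' h1 h2
    have hd : Dif tb tb' v w i p (Bool.xor b b') :=
      ⟨b, b', by rw [h1]; exact ⟨rfl, rfl⟩, by rw [h2]; exact ⟨rfl, rfl⟩, rfl⟩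
    exact ⟨hg _ _ _ hd, hd⟩
  have hcp : ∀ i p b b', v i = .cp p b → w i = .cp p b' →
      g (pk p) = tz (Bool.xor b b') ∧ Dif tb tb' v w i p (Bool.xor b b') := by
    intro i p b b' h1 h2
    have hd : Dif tb tb' v w i p (Bool.xor b b') :=
      ⟨b, b', by rw [h1]; exact ⟨rfl, rfl⟩, by rw [h2]; exact ⟨rfl, rfl⟩, rfl⟩
    exact ⟨hg _ _ _ hd, hd⟩
  have hop : ∀ i x d b b', v i = .op x d b → w i = .op x d b' →
      g (pk (po x d)) = tz (Bool.xor b b') ∧ Dif tb tb' v w i (po x d) (Bool.xor b b') := by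
    intro i x d b b' h1 h2
    have hd : Dif tb tb' v w i (po x d) (Bool.xor b b') :=
      ⟨b, b', by rw [h1]; exact ⟨rfl, rfl⟩, by rw [h2]; exact ⟨rfl, rfl⟩, rfl⟩
    exact ⟨hg _ _ _ hd, hd⟩
  have hgd : ∀ i x z0 z1 z0' z1', v i = .gd x z0 z1 → w i = .gd x z0' z1' → ∀ d,
      g (pk (po x d)) = tz (Bool.xor (gzT (tb x) z0 z1 d) (gzT (tb' x) z0' z1' d)) := by
    intro i x z0 z1 z0' z1' h1 h2 d
    apply hg i
    exact ⟨_, _, by rw [h1]; exact ⟨d, rfl, rfl⟩, by rw [h2]; exact ⟨d, rfl, rfl⟩, rfl⟩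
  refine ⟨e, g, fun i => ?_, fun i => ?_⟩
  · have hb := h.sameBase hk hne i
    rcases hv : v i with _ | b | ⟨p, s⟩ | ⟨p, s⟩ | ⟨p, s, b⟩ | ⟨p, b⟩ | ⟨x, d, b⟩ | ⟨x, z0, z1⟩ | j | j <;>
    rcases hw : w i with _ | b' | ⟨p', s'⟩ | ⟨p', s'⟩ | ⟨p', s', b'⟩ | ⟨p', b'⟩ | ⟨x', d', b'⟩ |
      ⟨x', z0', z1'⟩ | j' | j' <;>
    rw [hv, hw] at hb <;> simp only [SameBase] at hb
    · rfl
    · rw [he i b b' hv hw]
      simp [shiftV]
    · obtain ⟨rfl, rfl⟩ := hb; rfl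
    · obtain ⟨rfl, rfl⟩ := hb; rfl
    · obtain ⟨rfl, rfl⟩ := hb
      simp only [shiftV, zb_of_eq_tz (hfp i p s b b' hv hw).1]
      simp
    · subst hb
      simp only [shiftV, zb_of_eq_tz (hcp i p b b' hv hw).1]
      simp
    · obtain ⟨rfl, rfl⟩ := hb
      simp only [shiftV, zb_of_eq_tz (hop i x d b b' hv hw).1]
      simp
    · subst hb
      simp only [shiftV, zb_of_eq_tz (hgd i x z0 z1 z0' z1' hv hw 0),
        zb_of_eq_tz (hgd i x z0 z1 z0' z1' hv hw 1)]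
      simp [gzT]
    · subst hb; rfl
    · subst hb; rfl
  · have hb := h.sameBase hk hne i
    rcases hv : v i with _ | b | ⟨p, s⟩ | ⟨p, s⟩ | ⟨p, s, b⟩ | ⟨p, b⟩ | ⟨x, d, b⟩ | ⟨x, z0, z1⟩ | j | j <;>
    rcases hw : w i with _ | b' | ⟨p', s'⟩ | ⟨p', s'⟩ | ⟨p', s', b'⟩ | ⟨p', b'⟩ | ⟨x', d', b'⟩ |
      ⟨x', z0', z1'⟩ | j' | j' <;>
    rw [hv, hw] at hb <;> simp only [SameBase] at hb
    all_goals simp only [OkV]
    · obtain ⟨rfl, rfl⟩ := hb
      intro j hj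
      obtain ⟨h1, h2⟩ := hfp i p s b b' hv hw
      rw [h1, h2.unary hk hne h hj.symm]
    · subst hb
      intro j hj
      obtain ⟨h1, h2⟩ := hcp i p b b' hv hw
      rw [h1, h2.unary hk hne h hj.symm]
    · obtain ⟨rfl, rfl⟩ := hb
      intro j hj
      obtain ⟨h1, h2⟩ := hop i x d b b' hv hw
      rw [h1, h2.unary hk hne h hj.symm]
    · subst hb
      rw [hgd i x z0 z1 z0' z1' hv hw 0, hgd i x z0 z1 z0' z1' hv hw 1,
        hgd i x z0 z1 z0' z1' hv hw 2]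
      generalize tb x = t
      generalize tb' x = t'
      revert t t' z0 z1 z0' z1'
      clear hgd hop hcp hfp he hg h
      intro z0 z1 hv z0' z1' hw t t'
      clear hv hw
      revert t t' z0 z1 z0' z1'
      decide

end Crest.Agent.R290
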