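import Crest.Agent.R290.D1Defs

/-!
Row 290, MODULE D1, piece D1_NB: the neighbours of every vertex of `aG pk tv tb`.
All by `cases z` and `simp [aG, dG]`.
-/
set_option autoImplicit false

namespace Crest.Agent.R290

open Finset

variable {κ : Type} [DecidableEq κ] {X T : ℕ} (pk : Fin (3 * X + T) → κ) (tv : Fin T → Bool)
  (tb : Fin X → Bool)

theorem aG_symm (u v : GV X T) : aG pk tv tb u v = aG pk tv tb v u := Bool.or_comm _ _

theorem nb_rt (z : GV X T) : aG pk tv tb .rt z = true ↔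
    (∃ b, z = .rl b) ∨ ∃ p, p.val = 0 ∧ z = .bb p false := by
  cases z <;> simp [aG, dG]

theorem nb_rl (b : Bool) (z : GV X T) : aG pk tv tb (.rl b) z = true ↔ z = .rt := by
  cases z <;> simp [aG, dG]

theorem nb_bb0 (p) (z : GV X T) : aG pk tv tb (.bb p false) z = true ↔
    (p.val = 0 ∧ z = .rt) ∨ (∃ q, q.val + 1 = p.val ∧ z = .bb q true) ∨ z = .bb p true ∨
      z = .fr p false := by
  cases z <;> simp [aG, dG]
  all_goals grind

theorem nb_bb1 (p) (z : GV X T) : aG pk tv tb (.bb p true) z = true ↔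
    z = .bb p false ∨ z = .fr p true ∨ ∃ q, p.val + 1 = q.val ∧ z = .bb q false := by
  cases z <;> simp [aG, dG]
  all_goals grind

theorem nb_fr (p s) (z : GV X T) : aG pk tv tb (.fr p s) z = true ↔
    z = .bb p s ∨ ∃ b, z = .fp p s b := by
  cases z <;> simp [aG, dG]
  all_goals grind

theorem nb_fp0 (p b) (z : GV X T) : aG pk tv tb (.fp p false b) z = true ↔
    z = .fr p false ∨ z = .fp p true b ∨ (∃ v d, po v d = p ∧ z = .op v d b) ∨
      ∃ j, pu j = p ∧ b = tv j ∧ z = .t1 j := by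
  cases z <;> simp [aG, dG]
  all_goals grind

theorem nb_fp1 (p b) (z : GV X T) : aG pk tv tb (.fp p true b) z = true ↔
    z = .fr p true ∨ z = .fp p false b ∨ z = .cp p b := by
  cases z <;> simp [aG, dG]
  all_goals grind

theorem nb_cp (p b) (z : GV X T) : aG pk tv tb (.cp p b) z = true ↔
    z = .fp p true b ∨ ∃ q, (isNx pk p q = true ∨ isNx pk q p = true) ∧ z = .cp q b := by
  cases z <;> simp [aG, dG]
  all_goals grind

theorem nb_op (v d b) (z : GV X T) : aG pk tv tb (.op v d b) z = true ↔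
    z = .fp (po v d) false b ∨ ∃ z0 z1, gzT (tb v) z0 z1 d = b ∧ z = .gd v z0 z1 := by
  cases z <;> simp [aG, dG]
  · grind
  · rename_i v' z0 z1
    cases z0 <;> cases z1 <;> simp <;> grind

theorem nb_gd (v z0 z1) (z : GV X T) : aG pk tv tb (.gd v z0 z1) z = true ↔
    ∃ d, z = .op v d (gzT (tb v) z0 z1 d) := by
  cases z <;> simp [aG, dG]
  all_goals grind

theorem nb_t1 (j) (z : GV X T) : aG pk tv tb (.t1 j) z = true ↔
    z = .fp (pu j) false (tv j) ∨ z = .t2 j := by
  cases z <;> simp [aG, dG]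
  all_goals grind

theorem nb_t2 (j) (z : GV X T) : aG pk tv tb (.t2 j) z = true ↔ z = .t1 j := by
  cases z <;> simp [aG, dG]

end Crest.Agent.R290
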