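import Crest.Agent.R290.D2X

/-!
Row 290, MODULE D2 (Spoiler closure), proved by helper77 from D2X.lean (walks with right-hand sides).
`Zb Ho m key` (for a family `Ho`): sums over a position on the `m` variables `key i` vanish.
-/
set_option autoImplicit false

namespace Crest.Agent.R290

open Finset

/-- zero sum property of the bundle of variables `key 0, ..., key (m-1)` for the family `Ho` -/
def Zb (Ho : Finset (Item Key) → (Key → ZMod 2) → Prop) (m : ℕ) (key : ℕ → Key) : Prop :=
  ∀ g, Ho ((range m).image fun i => Item.var (key i)) g → ∑ i ∈ range m, g (key i) = 0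

/-- hub variables of the fact `f` -/
def hubKey {r : ℕ} (f : ℕ × (Fin r → ℕ)) (i : ℕ) : Key := factHub f i 0

theorem isItem_of_mem {κ : Type} {s : CSys κ} {c : κ × κ × κ} (hc : c ∈ s.xs)
    {p : Item κ} (hp : p = .nod c ∨ ∃ x ∈ (Item.nod c).vars, p = .var x) : s.IsItem p := by
  rcases hp with rfl | ⟨x, hx, rfl⟩
  · exact hc
  · show _ ∈ portKeys s.xs s.ts
    unfold portKeys
    rw [List.mem_append]
    left
    rw [List.mem_flatMap]
    exact ⟨c, hc, hx⟩

theorem Fam.toX {κ : Type} [DecidableEq κ] {s : CSys κ} {m : ℕ}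
    {H : Finset (Item κ) → (κ → ZMod 2) → Prop} (hF : Fam s m H) :
    FamX s.xs (fun _ => 0) m H where
  start := hF.start
  nod := fun S g h _ hc => hF.ok S g h _ hc
  ext := by
    intro S g h c hc p hp
    obtain ⟨g', h1, -, h3⟩ := hF.ext S g h p (isItem_of_mem hc hp)
    exact ⟨g', h1, h3⟩

theorem image_range_eq {m : ℕ} (key : ℕ → Key) :
    ((range m).image fun i => Item.var (key i)) =
      (univ : Finset (Fin m)).image fun i : Fin m => Item.var (key i) := by
  ext p
  simp only [mem_image, mem_range, mem_univ, true_and]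
  constructor
  · rintro ⟨i, hi, rfl⟩
    exact ⟨⟨i, hi⟩, rfl⟩
  · rintro ⟨i, rfl⟩
    exact ⟨i.val, i.isLt, rfl⟩

theorem Zb_iff_ZC {m : ℕ} {H : Finset (Item Key) → (Key → ZMod 2) → Prop} (key : ℕ → Key) :
    Zb H m key ↔ ZC H (fun i : Fin m => key i) 0 := by
  unfold Zb ZC PosF
  constructor
  · intro h g hg
    rw [← image_range_eq] at hg
    have := h g hg
    rwa [sum_range] at this
  · intro h g hg
    rw [image_range_eq] at hg
    rw [sum_range]
    exact h g hg

section
variable {r m : ℕ} {R : RSys r} {xs : List (Key × Key × Key)} {τ : Key × Key × Key → ZMod 2}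
  {H : Finset (Item Key) → (Key → ZMod 2) → Prop}

/-- constants of derivable facts, with right-hand sides: for every axiom the start bundle has a
constant sum `σa a`. -/
theorem zc_der (hF : FamX xs τ m H) (hm : 2 ≤ m) (hxs : ∀ c ∈ rxs R m, c ∈ xs)
    (hax : ∀ a < R.ax.length, ∃ k, ZC H (fun i : Fin m => Key.ch (R.rules.length + a) 0 i 0 0) k)
    (e : ℕ) (x : Fin r → ℕ) (h : Der R e x) : ∃ k, ZC H (factB m e x) k := by
  induction h with
  | ax e x hex =>
    obtain ⟨a, ha, hax'⟩ := List.getElem_of_mem hex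
    have h1 : (R.ax ++ [R.goal])[a]? = some (e, x) := by
      rw [List.getElem?_append_left ha, List.getElem?_eq_getElem ha, hax']
    obtain ⟨k, hk⟩ := hax a ha
    exact ⟨_, (zc_fact hF hm hxs h1 k).1 hk⟩
  | rule ρ x y z hρ hrel _ _ ih1 ih2 =>
    obtain ⟨a, ha, ha'⟩ := List.getElem_of_mem hρ
    obtain ⟨c1, h1⟩ := ih1
    obtain ⟨c2, h2⟩ := ih2
    obtain ⟨t, ht, ttw⟩ := exists_ridx (m := m) ρ x y z hrel
    exact ⟨_, zc_rule hF hm hxs (by rw [List.getElem?_eq_getElem ha, ha']) x y z t ht ttw h1 h2⟩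

theorem slabC_zero {s σ : ℕ} (hk : ℕ → ℕ → Key) (t : Fin m → ℕ) :
    slabC r m σ s hk (fun _ => 0) t = 0 := by
  unfold slabC; simp

theorem ruleC_zero {a : ℕ} (ρ : Rule r) (t : Fin m → ℕ) : ruleC m a ρ (fun _ => 0) t = 0 := by
  unfold ruleC; simp [slabC_zero]

/-- homogeneous nodes, zero axioms: derivable facts have zero sums -/
theorem zc_der0 (hF : FamX xs (fun _ => 0) m H) (hm : 2 ≤ m) (hxs : ∀ c ∈ rxs R m, c ∈ xs)
    (hax : ∀ a < R.ax.length, ZC H (fun i : Fin m => Key.ch (R.rules.length + a) 0 i 0 0) 0)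
    (e : ℕ) (x : Fin r → ℕ) (h : Der R e x) : ZC H (factB m e x) 0 := by
  induction h with
  | ax e x hex =>
    obtain ⟨a, ha, hax'⟩ := List.getElem_of_mem hex
    have h1 : (R.ax ++ [R.goal])[a]? = some (e, x) := by
      rw [List.getElem?_append_left ha, List.getElem?_eq_getElem ha, hax']
    have h2 := (zc_fact hF hm hxs h1 0).1 (hax a ha)
    rw [slabC_zero, add_zero] at h2
    exact h2
  | rule ρ x y z hρ hrel _ _ ih1 ih2 =>
    obtain ⟨a, ha, ha'⟩ := List.getElem_of_mem hρ
    obtain ⟨t, ht, ttw⟩ := exists_ridx (m := m) ρ x y z hrel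
    have := zc_rule hF hm hxs (by rw [List.getElem?_eq_getElem ha, ha']) x y z t ht ttw ih1 ih2
    rw [ruleC_zero] at this
    exact this

end

section
variable {r m : ℕ} {R : RSys r} {Ho : Finset (Item Key) → (Key → ZMod 2) → Prop}

theorem start_ts (a : ℕ) (ha : a < R.ax.length + 1) (i : Fin m) :
    (Key.ch (R.rules.length + a) 0 i 0 0,
      if Key.ch (R.rules.length + a) 0 i 0 0 = gkey R then (1 : ZMod 2) else 0) ∈
      (csys R m).ts := by
  show _ ∈ (rtk R m).map fun y => (y, if y = gkey R then (1 : ZMod 2) else 0)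
  rw [List.mem_map]
  refine ⟨_, ?_, rfl⟩
  unfold rtk
  rw [List.mem_flatMap]
  exact ⟨a, List.mem_range.2 ha, List.mem_map.2 ⟨i, List.mem_range.2 i.isLt, rfl⟩⟩

theorem start_val (hF : Fam (csys R m) m Ho) (a : ℕ) (ha : a < R.ax.length + 1)
    (g : Key → ZMod 2)
    (hg : PosF Ho (fun i : Fin m => Item.var (Key.ch (R.rules.length + a) 0 i 0 0)) g)
    (i : Fin m) : g (Key.ch (R.rules.length + a) 0 i 0 0) =
        if Key.ch (R.rules.length + a) 0 i 0 0 = gkey R then (1 : ZMod 2) else 0 :=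
  hF.ok _ g hg (Item.var (Key.ch (R.rules.length + a) 0 i 0 0))
    (mem_image_of_mem (fun i : Fin m => Item.var (Key.ch (R.rules.length + a) 0 i 0 0))
      (mem_univ i)) _ (start_ts a ha i)

theorem start_zero (hF : Fam (csys R m) m Ho) (a : ℕ) (ha : a < R.ax.length) :
    ZC Ho (fun i : Fin m => Key.ch (R.rules.length + a) 0 i 0 0) 0 := by
  intro g hg
  refine sum_eq_zero fun i _ => ?_
  rw [start_val hF a (by omega) g hg i, if_neg]
  unfold gkey
  rw [Key.ch.injEq]
  omega

end

/-- derivable facts have the zero sum property (also used by module J, for families of an arbitrary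
unary right hand side that vanishes on the axiom slabs) -/
theorem Zb_of_der {r : ℕ} (R : RSys r) {A m : ℕ} (_hR : R.WF A) (_hm : 2 * r < m) (hm4 : 4 ≤ m)
    (Ho : Finset (Item Key) → (Key → ZMod 2) → Prop) (hF : Fam (csys R m) m Ho)
    (e : ℕ) (x : Fin r → ℕ) (hd : Der R e x) : Zb Ho m (hubKey (e, x)) := by
  rw [Zb_iff_ZC]
  exact zc_der0 hF.toX (by omega) (fun c hc => hc) (fun a ha => start_zero hF a ha) e x hd

theorem spo {r : ℕ} (R : RSys r) {A m : ℕ} (_hR : R.WF A) (hm : 2 * r < m) (hm4 : 4 ≤ m)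
    (hd : Der R R.goal.1 R.goal.2) : ¬ (csys R m).Cons m := by
  rintro ⟨Ho, hF⟩
  have hz : ZC Ho (factB m R.goal.1 R.goal.2) 0 :=
    zc_der0 hF.toX (by omega) (fun c hc => hc) (fun a ha => start_zero hF a ha) _ _ hd
  have hgoal : (R.ax ++ [R.goal])[R.ax.length]? = some R.goal := by
    rw [List.getElem?_append_right le_rfl]; simp
  have hz0 := (zc_fact hF.toX (by omega) (fun c hc => hc) hgoal 0).2
    (by rw [slabC_zero, add_zero]; exact hz)
  obtain ⟨g, hg⟩ := pos_exists (m := m) hF.toX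
    (fun i : Fin m => Item.var (Key.ch (R.rules.length + R.ax.length) 0 i 0 0)) (by
      intro i
      have h := slabNode_mem (r := r) (m := m) (σ := R.rules.length + R.ax.length) (s := 0)
        (T := fun _ => 1) (hk := factHub R.goal) (i := i) (t := 0) (l := 0) i.isLt one_pos
        (by omega)
      refine ⟨_, fact_mem hgoal h, Or.inr ⟨_, ?_, rfl⟩⟩
      have e : Key.ch (R.rules.length + R.ax.length) 0 i 0 0 =
          chk m (R.rules.length + R.ax.length) 0 (factHub R.goal) i 0 0 := by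
        unfold chk
        rw [if_neg (by omega)]
      rw [e]
      simp [Item.vars, linkN])
  have h0 := hz0 g hg
  have h1 : ∑ i : Fin m, g (Key.ch (R.rules.length + R.ax.length) 0 i 0 0) =
      ∑ i : Fin m, if i = (⟨2 * r, hm⟩ : Fin m) then (1 : ZMod 2) else 0 := by
    refine sum_congr rfl fun i _ => ?_
    rw [start_val hF R.ax.length (by omega) g hg i]
    unfold gkey
    congr 1
    rw [Key.ch.injEq, Fin.ext_iff]
    simp
  rw [h1, sum_ite_eq' univ, if_pos (mem_univ _)] at h0
  exact one_ne_zero h0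

end Crest.Agent.R290
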