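import Crest.Agent.R290.Defs

/-!
# Row 290, module D2 (helper77): the spoiler closure, with right-hand sides.

Everything is for XOR nodes `a + b + c = τ (a, b, c)` (arbitrary `τ`); `FamX xs τ m H` is the part of a
consistent family that is used.

* `PosF H p g` = the position with pebble `i` on the item `p i`; `move_all` moves all the pebbles.
* `ZC H y k` : in every position of the family `H` with pebble `i` on the variable `y i`, the sum of the
  values is `k`. `zc_pair` (two links with a common lateral), `zc_junction`, `zc_slab`, `zc_rule`,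
  `zc_fact`.
-/
set_option autoImplicit false

namespace Crest.Agent.R290

open Finset

section Abstract
variable {κ : Type} [DecidableEq κ]

/-- the used part of a consistent family of positions -/
structure FamX (xs : List (κ × κ × κ)) (τ : κ × κ × κ → ZMod 2) (m : ℕ)
    (H : Finset (Item κ) → (κ → ZMod 2) → Prop) : Prop where
  start : ∃ g, H ∅ g
  nod : ∀ S g, H S g → ∀ c, Item.nod c ∈ S → g c.1 + g c.2.1 + g c.2.2 = τ c
  ext : ∀ S g, H S g → ∀ c ∈ xs, ∀ p : Item κ, (p = .nod c ∨ ∃ x ∈ (Item.nod c).vars, p = .var x) →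
    ∃ g', (∀ q ∈ S, ∀ x ∈ q.vars, g' x = g x) ∧ ∀ S' ⊆ insert p S, S'.card ≤ m → H S' g'

/-- the position with pebble `i` on the item `p i` -/
def PosF (H : Finset (Item κ) → (κ → ZMod 2) → Prop) {m : ℕ} (p : Fin m → Item κ)
    (g : κ → ZMod 2) : Prop := H (univ.image p) g

/-- in every position with the pebbles on the variables `y i` the sum of the values is `k` -/
def ZC (H : Finset (Item κ) → (κ → ZMod 2) → Prop) {m : ℕ} (y : Fin m → κ) (k : ZMod 2) : Prop :=
  ∀ g, PosF H (fun i => Item.var (y i)) g → ∑ i, g (y i) = k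

variable {xs : List (κ × κ × κ)} {τ : κ × κ × κ → ZMod 2} {m : ℕ}
  {H : Finset (Item κ) → (κ → ZMod 2) → Prop}

/-- `q` is a node or a variable of a node -/
def IsIt (xs : List (κ × κ × κ)) (q : Item κ) : Prop :=
  ∃ c ∈ xs, q = .nod c ∨ ∃ x ∈ (Item.nod c).vars, q = .var x

theorem pos_move (hF : FamX xs τ m H) (p : Fin m → Item κ) (g : κ → ZMod 2) (h : PosF H p g)
    (i : Fin m) (q : Item κ) (hq : IsIt xs q) :
    ∃ g', (∀ j, ∀ x ∈ (p j).vars, g' x = g x) ∧ PosF H (Function.update p i q) g' := by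
  obtain ⟨c, hc, hq⟩ := hq
  obtain ⟨g', h1, h3⟩ := hF.ext _ g h c hc q hq
  refine ⟨g', fun j x hx => h1 (p j) (mem_image_of_mem p (mem_univ j)) x hx, ?_⟩
  refine h3 _ ?_ ?_
  · intro a ha
    rw [mem_image] at ha
    obtain ⟨j, -, rfl⟩ := ha
    by_cases hj : j = i
    · subst hj
      rw [Function.update_self]
      exact mem_insert_self _ _
    · rw [Function.update_of_ne hj]
      exact mem_insert_of_mem (mem_image_of_mem p (mem_univ j))
  · refine card_image_le.trans ?_
    rw [card_univ, Fintype.card_fin]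

theorem pos_nod (hF : FamX xs τ m H) {p : Fin m → Item κ} {g : κ → ZMod 2} (h : PosF H p g)
    (i : Fin m) {c : κ × κ × κ} (hi : p i = .nod c) : g c.1 + g c.2.1 + g c.2.2 = τ c :=
  hF.nod _ g h c (by rw [← hi]; exact mem_image_of_mem p (mem_univ i))

/-- move all the pebbles, one digit at a time -/
theorem move_all (hF : FamX xs τ m H) (p q : Fin m → Item κ) (g : κ → ZMod 2) (h : PosF H p g)
    (hq : ∀ i, IsIt xs (q i)) :
    ∃ g', PosF H q g' ∧ ∀ i, ∀ x ∈ (p i).vars, x ∈ (q i).vars → g' x = g x := by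
  have key : ∀ A : Finset (Fin m), ∃ g', PosF H (fun i => if i ∈ A then q i else p i) g' ∧
      (∀ i, i ∉ A → ∀ x ∈ (p i).vars, g' x = g x) ∧
      ∀ i, i ∈ A → ∀ x ∈ (p i).vars, x ∈ (q i).vars → g' x = g x := by
    intro A
    induction A using Finset.induction_on with
    | empty =>
      refine ⟨g, ?_, fun _ _ _ _ => rfl, fun _ _ _ _ _ => rfl⟩
      simpa using h
    | insert i A hi ih =>
      obtain ⟨g1, h1, h2, h3⟩ := ih
      obtain ⟨g2, h4, h6⟩ := pos_move hF _ g1 h1 i (q i) (hq i)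
      refine ⟨g2, ?_, ?_, ?_⟩
      · have e : Function.update (fun j => if j ∈ A then q j else p j) i (q i) =
            fun j => if j ∈ insert i A then q j else p j := by
          funext j
          by_cases hj : j = i
          · subst hj; simp
          · rw [Function.update_of_ne hj]
            simp [hj]
        rw [e] at h6
        exact h6
      · intro j hj x hx
        rw [mem_insert, not_or] at hj
        rw [h4 j x (by rw [if_neg hj.2]; exact hx), h2 j hj.2 x hx]
      · intro j hj x hx hx'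
        rw [mem_insert] at hj
        rcases hj with rfl | hj
        · rw [h4 j x (by rw [if_neg hi]; exact hx), h2 j hi x hx]
        · rw [h4 j x (by rw [if_pos hj]; exact hx'), h3 j hj x hx hx']
  obtain ⟨g', h1, -, h3⟩ := key univ
  refine ⟨g', ?_, fun i x hx hx' => h3 i (mem_univ i) x hx hx'⟩
  simpa using h1

/-- passage of two links with a common lateral variable (one direction) -/
theorem zc_pair_aux (hF : FamX xs τ m H) (y : Fin m → κ) {i j : Fin m} (hij : i ≠ j)
    {bi bj : κ} (ci cj : κ × κ × κ) (hi : ci ∈ xs) (hj : cj ∈ xs)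
    (hvi : y i ∈ (Item.nod ci).vars ∧ bi ∈ (Item.nod ci).vars)
    (hvj : y j ∈ (Item.nod cj).vars ∧ bj ∈ (Item.nod cj).vars) (k : ZMod 2)
    (hs : ∀ g : κ → ZMod 2, g ci.1 + g ci.2.1 + g ci.2.2 = τ ci →
      g cj.1 + g cj.2.1 + g cj.2.2 = τ cj → g bi + g bj = g (y i) + g (y j) + (τ ci + τ cj))
    (hZ : ZC H (Function.update (Function.update y i bi) j bj) (k + (τ ci + τ cj))) :
    ZC H y k := by
  intro g hg
  obtain ⟨g1, a1, p1⟩ := pos_move hF _ g hg i (.nod ci) ⟨ci, hi, Or.inl rfl⟩
  obtain ⟨g2, a2, p2⟩ := pos_move hF _ g1 p1 j (.nod cj) ⟨cj, hj, Or.inl rfl⟩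
  obtain ⟨g3, a3, p3⟩ := pos_move hF _ g2 p2 i (.var bi) ⟨ci, hi, Or.inr ⟨bi, hvi.2, rfl⟩⟩
  obtain ⟨g4, a4, p4⟩ := pos_move hF _ g3 p3 j (.var bj) ⟨cj, hj, Or.inr ⟨bj, hvj.2, rfl⟩⟩
  have e4 : Function.update (Function.update (Function.update (Function.update
      (fun k => Item.var (y k)) i (.nod ci)) j (.nod cj)) i (.var bi)) j (.var bj) =
      fun k => Item.var (Function.update (Function.update y i bi) j bj k) := by
    funext k
    by_cases hkj : k = j
    · subst hkj; simp
    · by_cases hki : k = i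
      · subst hki
        simp [hkj]
      · simp [hkj, hki]
  rw [e4] at p4
  have hz := hZ g4 p4
  have v1 : ∀ k, g1 (y k) = g (y k) := fun k => a1 k (y k) (by simp [Item.vars])
  have okI2 : g2 ci.1 + g2 ci.2.1 + g2 ci.2.2 = τ ci :=
    pos_nod hF p2 i (by rw [Function.update_of_ne hij, Function.update_self])
  have okJ2 : g2 cj.1 + g2 cj.2.1 + g2 cj.2.2 = τ cj :=
    pos_nod hF p2 j (by rw [Function.update_self])
  have v2i : ∀ x ∈ (Item.nod ci).vars, g2 x = g1 x := by
    intro x hx
    refine a2 i x ?_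
    rw [Function.update_self]; exact hx
  have v2 : ∀ k, k ≠ i → g2 (y k) = g1 (y k) := by
    intro k hk
    refine a2 k (y k) ?_
    rw [Function.update_of_ne hk]; simp [Item.vars]
  have v3 : ∀ k, k ≠ i → k ≠ j → g3 (y k) = g2 (y k) := by
    intro k hk hk'
    refine a3 k (y k) ?_
    rw [Function.update_of_ne hk', Function.update_of_ne hk]; simp [Item.vars]
  have v3i : ∀ x ∈ (Item.nod ci).vars, g3 x = g2 x := by
    intro x hx
    refine a3 i x ?_
    rw [Function.update_of_ne hij, Function.update_self]; exact hx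
  have v3j : ∀ x ∈ (Item.nod cj).vars, g3 x = g2 x := by
    intro x hx
    refine a3 j x ?_
    rw [Function.update_self]; exact hx
  have v4 : ∀ k, k ≠ i → k ≠ j → g4 (y k) = g3 (y k) := by
    intro k hk hk'
    refine a4 k (y k) ?_
    rw [Function.update_of_ne hk, Function.update_of_ne hk', Function.update_of_ne hk]
    simp [Item.vars]
  have v4i : g4 bi = g3 bi := by
    refine a4 i bi ?_
    rw [Function.update_self]; simp [Item.vars]
  have v4j : ∀ x ∈ (Item.nod cj).vars, g4 x = g3 x := by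
    intro x hx
    refine a4 j x ?_
    rw [Function.update_of_ne hij.symm, Function.update_self]; exact hx
  have hsum := hs g2 okI2 okJ2
  have e1 : g4 bi = g2 bi := by rw [v4i, v3i bi hvi.2]
  have e2 : g4 bj = g2 bj := by rw [v4j bj hvj.2, v3j bj hvj.2]
  have e5 : g2 (y i) = g (y i) := by rw [v2i (y i) hvi.1, v1]
  have e6 : g2 (y j) = g (y j) := by rw [v2 j hij.symm, v1]
  have split : ∀ f : Fin m → ZMod 2, ∑ k, f k = f i + f j + ∑ k ∈ (univ.erase i).erase j, f k := by
    intro f
    rw [← add_sum_erase univ f (mem_univ i),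
      ← add_sum_erase (univ.erase i) f (mem_erase.2 ⟨hij.symm, mem_univ j⟩), add_assoc]
  rw [split] at hz ⊢
  have e7 : ∑ k ∈ (univ.erase i).erase j, g4 (Function.update (Function.update y i bi) j bj k) =
      ∑ k ∈ (univ.erase i).erase j, g (y k) := by
    refine sum_congr rfl fun k hk => ?_
    rw [mem_erase, mem_erase] at hk
    obtain ⟨hkj, hki, -⟩ := hk
    rw [Function.update_of_ne hkj, Function.update_of_ne hki, v4 k hki hkj, v3 k hki hkj, v2 k hki,
      v1 k]
  rw [e7] at hz
  rw [Function.update_self, Function.update_of_ne hij, Function.update_self, e1, e2, hsum, e5, e6]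
    at hz
  have z : ∀ a b c d : ZMod 2, a + c + b = d + c → a + b = d := by decide
  exact z _ _ _ _ hz

private theorem z2_aux {a b c a' b' t t' : ZMod 2} (h1 : a + b + c = t) (h2 : a' + b' + c = t') :
    b + b' = a + a' + (t + t') := by
  revert a b c a' b' t t'; decide

private theorem z2_aux' {a b c a' b' t t' : ZMod 2} (h1 : a + b + c = t) (h2 : a' + b' + c = t') :
    a + a' = b + b' + (t + t') := by
  revert a b c a' b' t t'; decide

/-- passage of two links with a common lateral variable -/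
theorem zc_pair (hF : FamX xs τ m H) (y : Fin m → κ) {i j : Fin m} (hij : i ≠ j)
    {bi bj c : κ} (hi : (y i, bi, c) ∈ xs) (hj : (y j, bj, c) ∈ xs) (k k' : ZMod 2)
    (hk : k' = k + (τ (y i, bi, c) + τ (y j, bj, c))) :
    ZC H y k ↔ ZC H (Function.update (Function.update y i bi) j bj) k' := by
  constructor
  · intro hZ
    have e : y = Function.update (Function.update
        (Function.update (Function.update y i bi) j bj) i (y i)) j (y j) := by
      funext k
      by_cases hkj : k = j
      · subst hkj; simp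
      · by_cases hki : k = i
        · subst hki; simp [hkj]
        · simp [hkj, hki]
    have yi : Function.update (Function.update y i bi) j bj i = bi := by
      rw [Function.update_of_ne hij, Function.update_self]
    have yj : Function.update (Function.update y i bi) j bj j = bj := Function.update_self _ _ _
    refine zc_pair_aux hF _ hij (bi := y i) (bj := y j) (y i, bi, c) (y j, bj, c) hi hj
      ?_ ?_ k' ?_ ?_
    · rw [yi]; simp [Item.vars]
    · rw [yj]; simp [Item.vars]
    · intro g h1 h2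
      rw [yi, yj]
      exact z2_aux' h1 h2
    · rw [← e]
      have z : ∀ a b c : ZMod 2, a + (b + c) + (b + c) = a := by decide
      rw [hk, z]
      exact hZ
  · intro hZ
    refine zc_pair_aux hF _ hij (bi := bi) (bj := bj) (y i, bi, c) (y j, bj, c) hi hj
      ?_ ?_ k ?_ ?_
    · simp [Item.vars]
    · simp [Item.vars]
    · intro g h1 h2
      exact z2_aux h1 h2
    · rw [← hk]; exact hZ

/-- junction: bundles `y₁, y₂, y₃` with the junction nodes `c i` -/
theorem zc_junction (hF : FamX xs τ m H) (y1 y2 y3 : Fin m → κ) (c : Fin m → κ × κ × κ)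
    (hc : ∀ i, c i ∈ xs) (h1 : ∀ i, y1 i ∈ (Item.nod (c i)).vars)
    (h2 : ∀ i, y2 i ∈ (Item.nod (c i)).vars) (h3 : ∀ i, y3 i ∈ (Item.nod (c i)).vars)
    (hs : ∀ i, ∀ g : κ → ZMod 2, g (c i).1 + g (c i).2.1 + g (c i).2.2 = τ (c i) →
      g (y1 i) = g (y2 i) + g (y3 i) + τ (c i)) {k2 k3 : ZMod 2}
    (hZ2 : ZC H y2 k2) (hZ3 : ZC H y3 k3) : ZC H y1 (k2 + k3 + ∑ i, τ (c i)) := by
  intro g hg
  obtain ⟨g', p', a'⟩ := move_all hF _ (fun i => Item.nod (c i)) g hg
    (fun i => ⟨c i, hc i, Or.inl rfl⟩)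
  have sub : ∀ y : Fin m → κ, (∀ i, y i ∈ (Item.nod (c i)).vars) → ∀ k, ZC H y k →
      ∑ i, g' (y i) = k := by
    intro y hy k hZ
    obtain ⟨g2, p2, a2⟩ := move_all hF _ (fun i => Item.var (y i)) g' p'
      (fun i => ⟨c i, hc i, Or.inr ⟨y i, hy i, rfl⟩⟩)
    rw [← hZ g2 p2]
    refine sum_congr rfl fun i _ => ?_
    exact (a2 i (y i) (hy i) (by simp [Item.vars])).symm
  have e1 : ∀ i, g (y1 i) = g' (y2 i) + g' (y3 i) + τ (c i) := by
    intro i
    rw [← hs i g' (pos_nod hF p' i rfl)]
    exact (a' i (y1 i) (by simp [Item.vars]) (h1 i)).symm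
  rw [sum_congr rfl fun i _ => e1 i, sum_add_distrib, sum_add_distrib, sub y2 h2 k2 hZ2,
    sub y3 h3 k3 hZ3]

/-- there are positions with the pebbles on any items -/
theorem pos_exists (hF : FamX xs τ m H) (p : Fin m → Item κ) (hp : ∀ i, IsIt xs (p i)) :
    ∃ g, PosF H p g := by
  have key : ∀ A : Finset (Fin m), ∃ g, H (A.image p) g := by
    intro A
    induction A using Finset.induction_on with
    | empty => simpa using hF.start
    | insert i A _ ih =>
      obtain ⟨g, hg⟩ := ih
      obtain ⟨c, hc, hq⟩ := hp i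
      obtain ⟨g', -, h3⟩ := hF.ext _ g hg c hc (p i) hq
      refine ⟨g', h3 _ ?_ ?_⟩
      · rw [image_insert]
      · refine card_image_le.trans ?_
        refine (card_le_univ _).trans ?_
        rw [Fintype.card_fin]
  exact key univ

end Abstract

/-! ### slabs -/

/-- level of the digit `k` when the pairs before `(a, b)` (in the lexicographic order) are done -/
def lev (m a b k : ℕ) : ℕ :=
  if k < a then m - 1 else if k = a then b - 1 else if k < b then a + 1 else a

theorem partner_lt {i l : ℕ} (h : l < i) : partner i l = l := by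
  unfold partner; rw [if_pos h]

theorem partner_ge {i l : ℕ} (h : i ≤ l) : partner i l = l + 1 := by
  unfold partner; rw [if_neg (by omega)]

/-- link node number `l` of the chain `(i, t)` of a slab -/
def linkN (r m σ s : ℕ) (hk : ℕ → ℕ → Key) (i t l : ℕ) : Key × Key × Key :=
  (chk m σ s hk i t l, chk m σ s hk i t (l + 1), latk r σ s i (partner i l) t)

section Slab
variable {r m σ s : ℕ} {T : ℕ → ℕ} {hk : ℕ → ℕ → Key}

theorem slabNode_mem {i t l : ℕ} (hi : i < m) (ht : t < T i) (hl : l < m - 1) :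
    linkN r m σ s hk i t l ∈ slabNodes r m σ s T hk := by
  unfold slabNodes
  rw [List.mem_flatMap]
  refine ⟨i, List.mem_range.2 hi, ?_⟩
  rw [List.mem_flatMap]
  refine ⟨t, List.mem_range.2 ht, ?_⟩
  rw [List.mem_map]
  exact ⟨l, List.mem_range.2 hl, rfl⟩

theorem latk_symm {i j t t' : ℕ} (h : i < 2 * r → i / 2 = j / 2 → t = t') :
    latk r σ s i j t = latk r σ s j i t' := by
  unfold latk
  by_cases h1 : i < 2 * r ∧ i / 2 = j / 2
  · have h2 : j < 2 * r ∧ j / 2 = i / 2 := by omega
    rw [if_pos h1, if_pos h2, h h1.1 h1.2, h1.2]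
  · have h2 : ¬ (j < 2 * r ∧ j / 2 = i / 2) := by omega
    rw [if_neg h1, if_neg h2, min_comm, max_comm]

/-- sum of the right-hand sides over the chains of the slab at the local vector `t` -/
def slabC (r m σ s : ℕ) (hk : ℕ → ℕ → Key) (τ : Key × Key × Key → ZMod 2) (t : Fin m → ℕ) : ZMod 2 :=
  ∑ i : Fin m, ∑ l ∈ range (m - 1), τ (linkN r m σ s hk i (t i) l)

variable {xs : List (Key × Key × Key)} {τ : Key × Key × Key → ZMod 2}
  {H : Finset (Item Key) → (Key → ZMod 2) → Prop}

theorem zc_slab (hF : FamX xs τ m H) (hm : 1 ≤ m)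
    (hxs : ∀ c ∈ slabNodes r m σ s T hk, c ∈ xs) (t : Fin m → ℕ) (ht : ∀ i, t i < T i)
    (htw : ∀ i j : Fin m, i.val < 2 * r → i.val / 2 = j.val / 2 → t i = t j) (k : ZMod 2) :
    ZC H (fun i : Fin m => chk m σ s hk i (t i) 0) k ↔
      ZC H (fun i : Fin m => hk i (t i)) (k + slabC r m σ s hk τ t) := by
  -- the correction at a level vector
  obtain ⟨F, hFdef⟩ : ∃ F : (ℕ → ℕ) → ZMod 2, ∀ L : ℕ → ℕ, F L = k +
    ∑ i : Fin m, ∑ l ∈ range (L i), τ (linkN r m σ s hk i (t i) l) := ⟨_, fun _ => rfl⟩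
  -- the level bundles
  have step : ∀ a b, a < b → b < m →
      (ZC H (fun i : Fin m => chk m σ s hk i (t i) (lev m a b i)) (F (lev m a b)) ↔
        ZC H (fun i : Fin m => chk m σ s hk i (t i) (lev m a (b + 1) i)) (F (lev m a (b + 1)))) := by
    intro a b hab hb
    have ha : a < m := by omega
    have hij : (⟨a, ha⟩ : Fin m) ≠ ⟨b, hb⟩ := by
      intro e; rw [Fin.mk.injEq] at e; omega
    have la : lev m a b a = b - 1 := by unfold lev; simp
    have lb : lev m a b b = a := by
      unfold lev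
      rw [if_neg (by omega), if_neg (by omega), if_neg (by omega)]
    have la' : lev m a (b + 1) a = b - 1 + 1 := by unfold lev; simp; omega
    have lb' : lev m a (b + 1) b = a + 1 := by
      unfold lev
      rw [if_neg (by omega), if_neg (by omega), if_pos (by omega)]
    have lo : ∀ k : ℕ, k ≠ a → k ≠ b → lev m a b k = lev m a (b + 1) k := by
      intro k h2 h1
      unfold lev
      by_cases h3 : k < a
      · rw [if_pos h3, if_pos h3]
      · rw [if_neg h3, if_neg h3, if_neg h2, if_neg h2]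
        by_cases h4 : k < b
        · rw [if_pos h4, if_pos (by omega)]
        · rw [if_neg h4, if_neg (by omega)]
    have nodeA : linkN r m σ s hk a (t ⟨a, ha⟩) (b - 1) =
        (chk m σ s hk a (t ⟨a, ha⟩) (b - 1), chk m σ s hk a (t ⟨a, ha⟩) (b - 1 + 1),
          latk r σ s a b (t ⟨a, ha⟩)) := by
      unfold linkN
      have e : b - 1 + 1 = b := by omega
      rw [partner_ge (by omega : a ≤ b - 1), e]
    have nodeB : linkN r m σ s hk b (t ⟨b, hb⟩) a =
        (chk m σ s hk b (t ⟨b, hb⟩) a, chk m σ s hk b (t ⟨b, hb⟩) (a + 1),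
          latk r σ s a b (t ⟨a, ha⟩)) := by
      unfold linkN
      rw [partner_lt hab,
        latk_symm (i := a) (t' := t ⟨b, hb⟩) (fun h1 h2 => htw ⟨a, ha⟩ ⟨b, hb⟩ h1 h2)]
    have memA := slabNode_mem (r := r) (m := m) (σ := σ) (s := s) (T := T) (hk := hk)
        (i := a) (t := t ⟨a, ha⟩) (l := b - 1) ha (ht ⟨a, ha⟩) (by omega)
    have memB := slabNode_mem (r := r) (m := m) (σ := σ) (s := s) (T := T) (hk := hk)
        (i := b) (t := t ⟨b, hb⟩) (l := a) hb (ht ⟨b, hb⟩) (by omega)
    rw [nodeA] at memA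
    rw [nodeB] at memB
    have e : Function.update (Function.update
        (fun i : Fin m => chk m σ s hk i (t i) (lev m a b i)) ⟨a, ha⟩
        (chk m σ s hk a (t ⟨a, ha⟩) (b - 1 + 1))) ⟨b, hb⟩
        (chk m σ s hk b (t ⟨b, hb⟩) (a + 1)) =
        fun i : Fin m => chk m σ s hk i (t i) (lev m a (b + 1) i) := by
      funext k
      by_cases hkb : k = ⟨b, hb⟩
      · subst hkb
        rw [Function.update_self, lb']
      · rw [Function.update_of_ne hkb]
        by_cases hka : k = ⟨a, ha⟩
        · subst hka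
          rw [Function.update_self, la']
        · rw [Function.update_of_ne hka]
          have h1 : k.val ≠ b := fun e => hkb (Fin.ext e)
          have h2 : k.val ≠ a := fun e => hka (Fin.ext e)
          rw [lo k.val h2 h1]
    rw [← e]
    refine zc_pair hF (fun i : Fin m => chk m σ s hk i (t i) (lev m a b i)) hij
      (c := latk r σ s a b (t ⟨a, ha⟩)) ?_ ?_ _ _ ?_
    · show (chk m σ s hk a (t ⟨a, _⟩) (lev m a b a), _, _) ∈ xs
      rw [la]
      exact hxs _ memA
    · show (chk m σ s hk b (t ⟨b, hb⟩) (lev m a b b), _, _) ∈ xs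
      rw [lb]
      exact hxs _ memB
    · show F (lev m a (b + 1)) = F (lev m a b) +
        (τ (chk m σ s hk a (t ⟨a, ha⟩) (lev m a b a), _, _) +
          τ (chk m σ s hk b (t ⟨b, hb⟩) (lev m a b b), _, _))
      rw [la, lb, ← nodeA, ← nodeB, hFdef, hFdef]
      have split : ∀ f : Fin m → ZMod 2, ∑ k, f k = f ⟨a, ha⟩ + f ⟨b, hb⟩ +
          ∑ k ∈ (univ.erase (⟨a, ha⟩ : Fin m)).erase ⟨b, hb⟩, f k := by
        intro f
        rw [← add_sum_erase univ f (mem_univ (⟨a, ha⟩ : Fin m)),
          ← add_sum_erase (univ.erase (⟨a, ha⟩ : Fin m)) f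
            (mem_erase.2 ⟨hij.symm, mem_univ _⟩), add_assoc]
      rw [split, split (fun i : Fin m => ∑ l ∈ range (lev m a b i), _)]
      have e7 : ∑ k ∈ (univ.erase (⟨a, ha⟩ : Fin m)).erase ⟨b, hb⟩,
          ∑ l ∈ range (lev m a (b + 1) k), τ (linkN r m σ s hk k (t k) l) =
          ∑ k ∈ (univ.erase (⟨a, ha⟩ : Fin m)).erase ⟨b, hb⟩,
          ∑ l ∈ range (lev m a b k), τ (linkN r m σ s hk k (t k) l) := by
        refine sum_congr rfl fun k hk => ?_
        rw [mem_erase, mem_erase] at hk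
        obtain ⟨hkb, hka, -⟩ := hk
        rw [lo k.val (fun e => hka (Fin.ext e)) (fun e => hkb (Fin.ext e))]
      rw [e7]
      show k + (∑ l ∈ range (lev m a (b + 1) a), τ (linkN r m σ s hk a (t ⟨a, ha⟩) l) +
        ∑ l ∈ range (lev m a (b + 1) b), τ (linkN r m σ s hk b (t ⟨b, hb⟩) l) + _) =
        k + (∑ l ∈ range (lev m a b a), τ (linkN r m σ s hk a (t ⟨a, ha⟩) l) +
        ∑ l ∈ range (lev m a b b), τ (linkN r m σ s hk b (t ⟨b, hb⟩) l) + _) + _
      rw [la', lb', la, lb, sum_range_succ, sum_range_succ]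
      abel
  have row : ∀ a b, a < b → b ≤ m →
      (ZC H (fun i : Fin m => chk m σ s hk i (t i) (lev m a (a + 1) i)) (F (lev m a (a + 1))) ↔
        ZC H (fun i : Fin m => chk m σ s hk i (t i) (lev m a b i)) (F (lev m a b))) := by
    intro a b hab
    induction b, hab using Nat.le_induction with
    | base => intro _; rfl
    | succ b hab ih =>
      intro hb
      rw [ih (by omega)]
      exact step a b hab (by omega)
  have all : ∀ a, a < m →
      (ZC H (fun i : Fin m => chk m σ s hk i (t i) (lev m 0 1 i)) (F (lev m 0 1)) ↔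
        ZC H (fun i : Fin m => chk m σ s hk i (t i) (lev m a (a + 1) i))
          (F (lev m a (a + 1)))) := by
    intro a
    induction a with
    | zero => intro _; rfl
    | succ a ih =>
      intro ha
      rw [ih (by omega), row a m (by omega) le_rfl]
      have hl : ∀ k : Fin m, lev m a m k = lev m (a + 1) (a + 1 + 1) k := by
        intro k
        have hk := k.isLt
        unfold lev
        by_cases h1 : k.val < a
        · rw [if_pos h1, if_pos (by omega)]
        · rw [if_neg h1]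
          by_cases h2 : k.val = a
          · rw [if_pos h2, if_pos (by omega)]
          · rw [if_neg h2, if_pos hk, if_neg (by omega)]
            by_cases h3 : k.val = a + 1
            · rw [if_pos h3]; omega
            · rw [if_neg h3, if_neg (by omega)]
      have e : (fun i : Fin m => chk m σ s hk i (t i) (lev m a m i)) =
          fun i : Fin m => chk m σ s hk i (t i) (lev m (a + 1) (a + 1 + 1) i) := by
        funext k
        rw [hl]
      have e' : F (lev m a m) = F (lev m (a + 1) (a + 1 + 1)) := by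
        rw [hFdef, hFdef]
        congr 1
        refine sum_congr rfl fun k _ => ?_
        rw [hl]
      rw [e, e']
  have l0 : ∀ k : ℕ, lev m 0 1 k = 0 := by
    intro k
    unfold lev
    rw [if_neg (by omega)]
    by_cases h : k = 0
    · rw [if_pos h]
    · rw [if_neg h, if_neg (by omega)]
  have l1 : ∀ k : Fin m, lev m (m - 1) (m - 1 + 1) k = m - 1 := by
    intro k
    have hk' := k.isLt
    unfold lev
    by_cases h1 : k.val < m - 1
    · rw [if_pos h1]
    · rw [if_neg h1, if_pos (by omega)]; omega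
  have e0 : (fun i : Fin m => chk m σ s hk i (t i) 0) =
      fun i : Fin m => chk m σ s hk i (t i) (lev m 0 1 i) := by
    funext k
    rw [l0]
  have f0 : F (lev m 0 1) = k := by
    rw [hFdef]
    simp [l0]
  have e1 : (fun i : Fin m => hk i (t i)) =
      fun i : Fin m => chk m σ s hk i (t i) (lev m (m - 1) (m - 1 + 1) i) := by
    funext k
    rw [l1]
    unfold chk
    rw [if_pos (by omega)]
  have f1 : F (lev m (m - 1) (m - 1 + 1)) = k + slabC r m σ s hk τ t := by
    rw [hFdef]
    unfold slabC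
    congr 1
    refine sum_congr rfl fun k _ => ?_
    rw [l1]
  rw [e0, e1, ← f1]
  have := all (m - 1) (by omega)
  rw [f0] at this
  exact this

end Slab

/-! ### the rule system -/

section Main
variable {r m : ℕ} {R : RSys r} {xs : List (Key × Key × Key)} {τ : Key × Key × Key → ZMod 2}
  {H : Finset (Item Key) → (Key → ZMod 2) → Prop}

/-- the hub variables of a fact at its codeword address -/
def factB (m : ℕ) {r : ℕ} (e : ℕ) (x : Fin r → ℕ) : Fin m → Key := fun i => factHub (e, x) i 0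

theorem rule_mem {a : ℕ} {ρ : Rule r} (ha : R.rules[a]? = some ρ) {c : Key × Key × Key}
    (hc : c ∈ ruleNodes m a ρ) : c ∈ rxs R m := by
  unfold rxs
  rw [List.mem_append]
  left
  rw [List.mem_flatMap]
  exact ⟨(ρ, a), List.mem_zipIdx_iff_getElem?.2 ha, hc⟩

theorem fact_mem {a : ℕ} {f : ℕ × (Fin r → ℕ)} (ha : (R.ax ++ [R.goal])[a]? = some f)
    {c : Key × Key × Key} (hc : c ∈ factNodes m (R.rules.length + a) f) : c ∈ rxs R m := by
  unfold rxs
  rw [List.mem_append]
  right
  rw [List.mem_flatMap]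
  exact ⟨(f, a), List.mem_zipIdx_iff_getElem?.2 ha, hc⟩

theorem ruleSlab_mem {a : ℕ} {ρ : Rule r} {s : ℕ} (hs : s < 9) {c : Key × Key × Key}
    (hc : c ∈ slabNodes r m a s ρ.num (ruleHub a ρ s)) : c ∈ ruleNodes m a ρ := by
  unfold ruleNodes
  rw [List.mem_append]
  left
  rw [List.mem_flatMap]
  exact ⟨s, List.mem_range.2 hs, hc⟩

/-- junction node number `u` of rule `a` -/
def junN (a u i t : ℕ) : Key × Key × Key :=
  (Key.ch a (3 * u) i t 0, Key.ch a (3 * u + 1) i t 0, Key.ch a (3 * u + 2) i t 0)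

theorem ruleJun_mem {a : ℕ} {ρ : Rule r} {i t u : ℕ} (hi : i < m) (ht : t < ρ.num i)
    (hu : u < 3) : junN a u i t ∈ ruleNodes m a ρ := by
  unfold ruleNodes
  rw [List.mem_append]
  right
  rw [List.mem_flatMap]
  refine ⟨i, List.mem_range.2 hi, ?_⟩
  rw [List.mem_flatMap]
  refine ⟨t, List.mem_range.2 ht, ?_⟩
  rw [List.mem_map]
  exact ⟨u, List.mem_range.2 hu, rfl⟩

/-- a slab of a fact (axiom or goal) -/
theorem zc_fact (hF : FamX xs τ m H) (hm : 2 ≤ m) (hxs : ∀ c ∈ rxs R m, c ∈ xs) {a : ℕ}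
    {f : ℕ × (Fin r → ℕ)} (ha : (R.ax ++ [R.goal])[a]? = some f) (k : ZMod 2) :
    ZC H (fun i : Fin m => Key.ch (R.rules.length + a) 0 i 0 0) k ↔
      ZC H (factB m f.1 f.2)
        (k + slabC r m (R.rules.length + a) 0 (factHub f) τ (fun _ => 0)) := by
  have h := zc_slab (r := r) (σ := R.rules.length + a) (s := 0) (T := fun _ => 1)
    (hk := factHub f) hF (by omega) (fun c hc => hxs c (fact_mem ha hc)) (fun _ => 0)
    (fun _ => by norm_num) (fun _ _ _ _ => rfl) k
  have e : (fun i : Fin m => chk m (R.rules.length + a) 0 (factHub f) i 0 0) =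
      fun i : Fin m => Key.ch (R.rules.length + a) 0 i 0 0 := by
    funext i
    unfold chk
    rw [if_neg (by omega)]
  rw [e] at h
  exact h

/-- local index vector of a rule instance -/
def RIdx {r : ℕ} (ρ : Rule r) (m : ℕ) (x y z : Fin r → ℕ) (t : Fin m → ℕ) : Prop :=
  ∀ i : Fin m, (∀ h : i.val / 2 < r, (ρ.rel ⟨i.val / 2, h⟩)[t i]? =
      some (x ⟨i.val / 2, h⟩, y ⟨i.val / 2, h⟩, z ⟨i.val / 2, h⟩)) ∧
    (¬ i.val / 2 < r → t i = 0)

theorem exists_ridx (ρ : Rule r) (x y z : Fin r → ℕ) (hrel : ∀ J, (x J, y J, z J) ∈ ρ.rel J) :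
    ∃ t : Fin m → ℕ, RIdx ρ m x y z t ∧
      ∀ i j : Fin m, i.val < 2 * r → i.val / 2 = j.val / 2 → t i = t j := by
  have hT : ∀ J, ∃ n, (ρ.rel J)[n]? = some (x J, y J, z J) := fun J =>
    List.mem_iff_getElem?.1 (hrel J)
  choose T hT using hT
  refine ⟨fun i => if h : i.val / 2 < r then T ⟨i.val / 2, h⟩ else 0, ?_, ?_⟩
  · intro i
    refine ⟨?_, ?_⟩
    · intro h
      beta_reduce
      rw [dif_pos h]
      exact hT _
    · intro h
      beta_reduce
      rw [dif_neg h]
  · intro i j h1 h2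
    have h3 : i.val / 2 < r := by omega
    have h4 : j.val / 2 < r := by omega
    show (if h : i.val / 2 < r then T ⟨i.val / 2, h⟩ else 0) =
      (if h : j.val / 2 < r then T ⟨j.val / 2, h⟩ else 0)
    rw [dif_pos h3, dif_pos h4]
    congr 2

/-- sum of the right-hand sides over all the nodes of rule `a` at the local vector `t` -/
def ruleC (m a : ℕ) {r : ℕ} (ρ : Rule r) (τ : Key × Key × Key → ZMod 2) (t : Fin m → ℕ) : ZMod 2 :=
  ∑ s ∈ range 9, slabC r m a s (ruleHub a ρ s) τ t + ∑ u ∈ range 3, ∑ i : Fin m, τ (junN a u i (t i))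

/-- a rule instance -/
theorem zc_rule (hF : FamX xs τ m H) (hm : 2 ≤ m) (hxs : ∀ c ∈ rxs R m, c ∈ xs) {a : ℕ}
    {ρ : Rule r} (ha : R.rules[a]? = some ρ) (x y z : Fin r → ℕ) (t : Fin m → ℕ)
    (ht : RIdx ρ m x y z t)
    (ttw : ∀ i j : Fin m, i.val < 2 * r → i.val / 2 = j.val / 2 → t i = t j) {c1 c2 : ZMod 2}
    (hy : ZC H (factB m ρ.e1 y) c1) (hz : ZC H (factB m ρ.e2 z) c2) :
    ZC H (factB m ρ.e0 x) (ruleC m a ρ τ t) := by
  have tlt : ∀ i : Fin m, t i < ρ.num i := by
    intro i
    unfold Rule.num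
    by_cases h : i.val / 2 < r
    · rw [dif_pos h]
      have := (ht i).1 h
      rw [List.getElem?_eq_some_iff] at this
      exact this.1
    · rw [dif_neg h, (ht i).2 h]; norm_num
  have slab : ∀ s, s < 9 → ∀ k, (ZC H (fun i : Fin m => Key.ch a s i (t i) 0) k ↔
      ZC H (fun i : Fin m => ruleHub a ρ s i (t i)) (k + slabC r m a s (ruleHub a ρ s) τ t)) := by
    intro s hs k
    have h := zc_slab (r := r) (σ := a) (s := s) (T := ρ.num) (hk := ruleHub a ρ s) hF
      (by omega) (fun c hc => hxs c (rule_mem ha (ruleSlab_mem hs hc))) t tlt ttw k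
    have e : (fun i : Fin m => chk m a s (ruleHub a ρ s) i (t i) 0) =
        fun i : Fin m => Key.ch a s i (t i) 0 := by
      funext i
      unfold chk
      rw [if_neg (by omega)]
    rw [e] at h
    exact h
  have z2 : ∀ a b : ZMod 2, a + b + b = a := by decide
  have slab' : ∀ s, s < 9 → ∀ k, ZC H (fun i : Fin m => ruleHub a ρ s i (t i)) k →
      ZC H (fun i : Fin m => Key.ch a s i (t i) 0) (k + slabC r m a s (ruleHub a ρ s) τ t) := by
    intro s hs k h
    rw [slab s hs, z2]
    exact h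
  have lab : ∀ (e w : ℕ) (v : Fin r → ℕ), (∀ i : Fin m, ∀ h : i.val / 2 < r,
      (if w = 0 then x ⟨i.val / 2, h⟩ else if w = 1 then y ⟨i.val / 2, h⟩
        else z ⟨i.val / 2, h⟩) = v ⟨i.val / 2, h⟩) →
      ∀ i : Fin m, Key.hub e i (ρ.lab w i (t i)) = factB m e v i := by
    intro e w v hv i
    unfold Rule.lab factB factHub
    by_cases h : i.val / 2 < r
    · rw [dif_pos h, dif_pos h]
      rw [List.getD_eq_getElem?_getD, (ht i).1 h]
      show _ = Key.hub e i.val (v ⟨i.val / 2, h⟩)
      rw [← hv i h]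
      rfl
    · rw [dif_neg h, dif_neg h]
  have hub0 : (fun i : Fin m => ruleHub a ρ 0 i (t i)) = factB m ρ.e0 x := by
    funext i; rw [← lab ρ.e0 0 x (fun _ _ => rfl) i]; rfl
  have hub4 : (fun i : Fin m => ruleHub a ρ 4 i (t i)) = factB m ρ.e1 y := by
    funext i; rw [← lab ρ.e1 1 y (fun _ _ => rfl) i]; rfl
  have hub5 : (fun i : Fin m => ruleHub a ρ 5 i (t i)) = factB m ρ.e2 z := by
    funext i; rw [← lab ρ.e2 2 z (fun _ _ => rfl) i]; rfl
  have hub7 : (fun i : Fin m => ruleHub a ρ 7 i (t i)) = factB m ρ.e1 y := by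
    funext i; rw [← lab ρ.e1 1 y (fun _ _ => rfl) i]; rfl
  have hub8 : (fun i : Fin m => ruleHub a ρ 8 i (t i)) = factB m ρ.e2 z := by
    funext i; rw [← lab ρ.e2 2 z (fun _ _ => rfl) i]; rfl
  have hub13 : (fun i : Fin m => ruleHub a ρ 1 i (t i)) = fun i : Fin m => ruleHub a ρ 3 i (t i) := rfl
  have hub26 : (fun i : Fin m => ruleHub a ρ 2 i (t i)) = fun i : Fin m => ruleHub a ρ 6 i (t i) := rfl
  have jmem : ∀ u, u < 3 → ∀ i : Fin m, junN a u i (t i) ∈ xs := fun u hu i =>
    hxs _ (rule_mem ha (ruleJun_mem i.isLt (tlt i) hu))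
  have z3 : ∀ p q w t : ZMod 2, p + q + w = t → p = q + w + t := by decide
  have jun : ∀ u, u < 3 → ∀ k k', ZC H (fun i : Fin m => Key.ch a (3 * u + 1) i (t i) 0) k →
      ZC H (fun i : Fin m => Key.ch a (3 * u + 2) i (t i) 0) k' →
      ZC H (fun i : Fin m => Key.ch a (3 * u) i (t i) 0)
        (k + k' + ∑ i : Fin m, τ (junN a u i (t i))) := by
    intro u hu k k' h1 h2
    refine zc_junction hF _ _ _ (fun i : Fin m => junN a u i (t i)) (jmem u hu) ?_ ?_ ?_ ?_ h1 h2
    · intro i; simp [Item.vars, junN]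
    · intro i; simp [Item.vars, junN]
    · intro i; simp [Item.vars, junN]
    · intro i g hg
      exact z3 _ _ _ _ hg
  have s4 := slab' 4 (by norm_num) c1 (by rw [hub4]; exact hy)
  have s5 := slab' 5 (by norm_num) c2 (by rw [hub5]; exact hz)
  have s7 := slab' 7 (by norm_num) c1 (by rw [hub7]; exact hy)
  have s8 := slab' 8 (by norm_num) c2 (by rw [hub8]; exact hz)
  have s3 := jun 1 (by norm_num) _ _ s4 s5
  have s6 := jun 2 (by norm_num) _ _ s7 s8
  have s1 := slab' 1 (by norm_num) _ (by rw [hub13]; exact (slab 3 (by norm_num) _).1 s3)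
  have s2 := slab' 2 (by norm_num) _ (by rw [hub26]; exact (slab 6 (by norm_num) _).1 s6)
  have s0 := (slab 0 (by norm_num) _).1 (jun 0 (by norm_num) _ _ s1 s2)
  rw [hub0] at s0
  convert s0 using 1
  unfold ruleC
  simp only [sum_range_succ, sum_range_zero, zero_add]
  have zz : ∀ a : ZMod 2, a + a = 0 := by decide
  generalize slabC r m a 0 (ruleHub a ρ 0) τ t = L0
  generalize slabC r m a 1 (ruleHub a ρ 1) τ t = L1
  generalize slabC r m a 2 (ruleHub a ρ 2) τ t = L2
  generalize slabC r m a 3 (ruleHub a ρ 3) τ t = L3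
  generalize slabC r m a 4 (ruleHub a ρ 4) τ t = L4
  generalize slabC r m a 5 (ruleHub a ρ 5) τ t = L5
  generalize slabC r m a 6 (ruleHub a ρ 6) τ t = L6
  generalize slabC r m a 7 (ruleHub a ρ 7) τ t = L7
  generalize slabC r m a 8 (ruleHub a ρ 8) τ t = L8
  generalize ∑ i : Fin m, τ (junN a 0 i (t i)) = J0
  generalize ∑ i : Fin m, τ (junN a 1 i (t i)) = J1
  generalize ∑ i : Fin m, τ (junN a 2 i (t i)) = J2
  have e : c1 + L4 + (c2 + L5) + J1 + L3 + L1 + (c1 + L7 + (c2 + L8) + J2 + L6 + L2) + J0 + L0 =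
      (c1 + c1) + (c2 + c2) + (L0 + L1 + L2 + L3 + L4 + L5 + L6 + L7 + L8 + (J0 + J1 + J2)) := by
    abel
  rw [e, zz, zz]
  ring

end Main

end Crest.Agent.R290
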