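import Crest.Agent.R290.Defs

/-!
Row 290: the rule system `msys M x A R` of a machine `M` on the input `x` : facts
`Q q (t, p)` (state q at time t; any p), `C s γ (t, p)` (γ = 0: cell p of stack s is beyond the
bottom at time t; γ = a + 1: it holds a; cell 0 = top), `Acc`, `Goal`.
Addresses: digits `0 .. R-1` = time, `R .. 2R-1` = position, base `A`, least significant digit first.
-/
set_option autoImplicit false

namespace Crest.Agent.R290

def pQ (q : ℕ) : ℕ := 4 * q
def pC (g s γ : ℕ) : ℕ := 4 * (s * (g + 1) + γ) + 1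
def pAcc : ℕ := 2
def pGoal : ℕ := 3

/-- digit `J` in the relation `x ↦ x + 1` with carry up to digit `i`: pairs (digit of x, of x+1) -/
def incD (A i J : ℕ) : List (ℕ × ℕ) :=
  if J < i then [(A - 1, 0)] else if J = i then (List.range (A - 1)).map fun a => (a, a + 1)
  else (List.range A).map fun a => (a, a)

/-- triples (head, body 1, body 2) for one digit -/
def dSame (A _J : ℕ) : List (ℕ × ℕ × ℕ) := (List.range A).map fun a => (a, a, a)
def dZero (_J : ℕ) : List (ℕ × ℕ × ℕ) := [(0, 0, 0)]
def dInc (A i J : ℕ) : List (ℕ × ℕ × ℕ) := (incD A i J).map fun a => (a.2, a.1, a.1)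
def dPop (A i J : ℕ) : List (ℕ × ℕ × ℕ) := (incD A i J).map fun a => (a.1, a.1, a.2)

/-- rule with time part `tr` and position part `pr` -/
def mkR (R e0 e1 e2 : ℕ) (tr pr : ℕ → List (ℕ × ℕ × ℕ)) : Rule (2 * R) :=
  ⟨e0, e1, e2, fun J => if J.val < R then tr J.val else pr (J.val - R)⟩

/-- rules of state `q` with instruction `i` -/
def insRules (A R S g q : ℕ) (i : InsD) : List (Rule (2 * R)) :=
  (if i.1 = 0 then
    ((List.range R).map fun it => mkR R (pQ (i.2.2.2.getD 0 0)) (pQ q) (pQ q) (dInc A it) dZero) ++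
    ((List.range (g + 1)).flatMap fun γ => (List.range R).flatMap fun it => (List.range R).map fun ip =>
      mkR R (pC g i.2.1 γ) (pQ q) (pC g i.2.1 γ) (dInc A it) (dInc A ip)) ++
    ((List.range R).map fun it =>
      mkR R (pC g i.2.1 (i.2.2.1 + 1)) (pQ q) (pQ q) (dInc A it) dZero)
  else if i.1 = 1 then
    ((List.range (g + 1)).flatMap fun γ => (List.range R).map fun it =>
      mkR R (pQ (i.2.2.2.getD γ 0)) (pQ q) (pC g i.2.1 γ) (dInc A it) dZero) ++
    ((List.range (g + 1)).flatMap fun γ => (List.range R).flatMap fun it => (List.range R).map fun ip =>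
      mkR R (pC g i.2.1 γ) (pQ q) (pC g i.2.1 γ) (dInc A it) (dPop A ip))
  else if i.2.1 = 1 then [mkR R pAcc (pQ q) (pQ q) (dSame A) dZero] else []) ++
  (if i.1 = 0 ∨ i.1 = 1 then
    (List.range S).flatMap fun s => if s = i.2.1 then [] else
      (List.range (g + 1)).flatMap fun γ => (List.range R).map fun it =>
        mkR R (pC g s γ) (pQ q) (pC g s γ) (dInc A it) (dSame A)
  else []) ++
  -- broadcast of the state along the positions
  ((List.range R).map fun ip => mkR R (pQ q) (pQ q) (pQ q) (dSame A) (dInc A ip))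

/-- rules before the flood -/
def baseRules (M : SMD) (A R : ℕ) : List (Rule (2 * R)) :=
  (M.1.zipIdx.flatMap fun a => insRules A R M.2.1 M.2.2 a.2 a.1) ++
  -- initial row: empty cells
  ((List.range M.2.1).flatMap fun s => (List.range R).map fun ip =>
    mkR R (pC M.2.2 s 0) (pC M.2.2 s 0) (pC M.2.2 s 0) dZero (dInc A ip)) ++
  [mkR R pGoal pAcc pAcc dZero dZero]

/-- address of time 0, position `j` -/
def posAddr (A R j : ℕ) : Fin (2 * R) → ℕ :=
  fun J => if J.val < R then 0 else j / A ^ (J.val - R) % A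

def baseAx (M : SMD) (x : List ℕ) (A R : ℕ) : List (ℕ × (Fin (2 * R) → ℕ)) :=
  (pQ 0, posAddr A R 0) ::
  ((x.zipIdx.map fun a => (pC M.2.2 0 (a.1 + 1), posAddr A R a.2)) ++
   (pC M.2.2 0 0, posAddr A R x.length) ::
   ((List.range (M.2.1 - 1)).map fun s => (pC M.2.2 (s + 1) 0, posAddr A R 0)))

/-- rule with identity relations -/
def idR (A R e0 e1 e2 : ℕ) : Rule (2 * R) := mkR R e0 e1 e2 (dSame A) (dSame A)

/-- `Acc` spreads to all addresses -/
def floodAcc (A R : ℕ) : List (Rule (2 * R)) :=
  (List.range (2 * R)).flatMap fun J =>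
    [⟨pAcc, pAcc, pAcc, fun J' => if J'.val = J then (List.range (A - 1)).map fun a => (a + 1, a, a)
      else dSame A 0⟩,
     ⟨pAcc, pAcc, pAcc, fun J' => if J'.val = J then (List.range (A - 1)).map fun a => (a, a + 1, a + 1)
      else dSame A 0⟩]

/-- predicates of the base system -/
def basePreds (M : SMD) (x : List ℕ) (A R : ℕ) : List ℕ :=
  pGoal :: ((baseAx M x A R).map Prod.fst ++ (baseRules M A R).flatMap fun ρ => [ρ.e0, ρ.e1, ρ.e2])

/-- the rule system of the machine -/
def msys (M : SMD) (x : List ℕ) (A R : ℕ) : RSys (2 * R) where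
  rules := baseRules M A R ++ floodAcc A R ++
    (basePreds M x A R).map fun e => idR A R e pAcc pAcc
  ax := baseAx M x A R
  goal := (pGoal, fun _ => 0)

end Crest.Agent.R290
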