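import Crest.Agent.R290.EqDef
import Crest.Agent.R290.MSys

/-!
Row 290, module E1: determinism of halting, exchange of the answers.
-/
set_option autoImplicit false

namespace Crest.Agent.R290.E1

open Crest.Agent.R290

theorem scfg_succ_none {M : SMD} {x : List ℕ} {t : ℕ} {c : SCfg} {i : InsD}
    (h : scfg M x t = some c) (hi : M.1[c.q]? = some i) (h2 : 2 ≤ i.1) :
    scfg M x (t + 1) = none := by
  have h0 : ¬ i.1 = 0 := by omega
  have h1 : ¬ i.1 = 1 := by omega
  simp [scfg, h, sstep, hi, stepI, h0, h1]

theorem scfg_none_of_le {M : SMD} {x : List ℕ} {t t' : ℕ} (h : scfg M x t = none) (ht : t ≤ t') :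
    scfg M x t' = none := by
  induction t', ht using Nat.le_induction with
  | base => exact h
  | succ n _ ih => simp [scfg, ih]

theorem shalts_unique {M : SMD} {x : List ℕ} {T T' : ℕ} {b b' : Bool} (h : SHalts M x T b)
    (h' : SHalts M x T' b') : b = b' := by
  obtain ⟨t, _, c, i, hc, hi, h2, hb⟩ := h
  obtain ⟨t', _, c', i', hc', hi', h2', hb'⟩ := h'
  have key : t = t' := by
    rcases lt_trichotomy t t' with hlt | heq | hgt
    · have := scfg_none_of_le (scfg_succ_none hc hi h2) hlt
      rw [hc'] at this; cases this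
    · exact heq
    · have := scfg_none_of_le (scfg_succ_none hc' hi' h2') hgt
      rw [hc] at this; cases this
  subst key
  rw [hc] at hc'
  cases hc'
  rw [hi] at hi'
  cases hi'
  have : (b = true) ↔ (b' = true) := hb.symm.trans hb'
  cases b <;> cases b' <;> simp_all

/-- the machine with the answers exchanged -/
def flipI (i : InsD) : InsD :=
  if 2 ≤ i.1 then (i.1, if i.2.1 = 1 then 0 else 1, i.2.2) else i

theorem flip_sstep (M : SMD) (c : SCfg) :
    sstep (M.1.map flipI, M.2) c = sstep M c := by
  unfold sstep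
  simp only [List.getElem?_map]
  cases h : M.1[c.q]? with
  | none => rfl
  | some i =>
    simp only [Option.map_some]
    by_cases h2 : 2 ≤ i.1
    · have h0 : ¬ i.1 = 0 := by omega
      have h1 : ¬ i.1 = 1 := by omega
      simp [flipI, h2, stepI, h0, h1]
    · simp [flipI, h2]

theorem flip_scfg (M : SMD) (x : List ℕ) (t : ℕ) :
    scfg (M.1.map flipI, M.2) x t = scfg M x t := by
  induction t with
  | zero => rfl
  | succ t ih =>
    simp only [scfg, ih]
    congr 1
    funext c
    exact flip_sstep M c

theorem flip_halts {M : SMD} {x : List ℕ} {T : ℕ} {b : Bool} (h : SHalts M x T b) :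
    SHalts (M.1.map flipI, M.2) x T (!b) := by
  obtain ⟨t, ht, c, i, hc, hi, h2, hb⟩ := h
  refine ⟨t, ht, c, flipI i, ?_, ?_, ?_, ?_⟩
  · rw [flip_scfg, hc]
  · simp [hi]
  · simpa [flipI, h2] using h2
  · by_cases h1 : i.2.1 = 1
    · have : b = true := hb.1 h1
      subst this
      simp [flipI, h2, h1]
    · have : b = false := by
        cases b
        · rfl
        · exact absurd (hb.2 rfl) h1
      subst this
      simp [flipI, h2, h1]

theorem flip_wf {M : SMD} (hM : SWF M) : SWF (M.1.map flipI, M.2) := by
  refine ⟨hM.1, hM.2.1, ?_⟩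
  intro i hi
  simp only [List.mem_map] at hi
  obtain ⟨j, hj, rfl⟩ := hi
  by_cases h2 : 2 ≤ j.1
  · constructor
    · intro h; simp [flipI, h2] at h; omega
    · intro h; simp [flipI, h2] at h; omega
  · have : flipI j = j := by simp [flipI, h2]
    rw [this]
    exact hM.2.2 j hj

end Crest.Agent.R290.E1
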