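import Crest.Agent.R290.E1Wf

/-!
Row 290, module E1: flood.
-/
set_option autoImplicit false

namespace Crest.Agent.R290.E1

open Crest.Agent.R290

theorem mem_dSame {A J a : ℕ} (h : a < A) : (a, a, a) ∈ dSame A J := by
  unfold dSame
  simp [h]

theorem flood_up_mem {M : SMD} {x : List ℕ} {A R J : ℕ} (hJ : J < 2 * R) :
    (⟨pAcc, pAcc, pAcc, fun J' => if J'.val = J then
      (List.range (A - 1)).map fun a => (a + 1, a, a) else dSame A 0⟩ : Rule (2 * R)) ∈
      (msys M x A R).rules := by
  unfold msys
  simp only [List.mem_append]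
  left; right
  unfold floodAcc
  rw [List.mem_flatMap]
  exact ⟨J, List.mem_range.2 hJ, by simp⟩

theorem flood_down_mem {M : SMD} {x : List ℕ} {A R J : ℕ} (hJ : J < 2 * R) :
    (⟨pAcc, pAcc, pAcc, fun J' => if J'.val = J then
      (List.range (A - 1)).map fun a => (a, a + 1, a + 1) else dSame A 0⟩ : Rule (2 * R)) ∈
      (msys M x A R).rules := by
  unfold msys
  simp only [List.mem_append]
  left; right
  unfold floodAcc
  rw [List.mem_flatMap]
  exact ⟨J, List.mem_range.2 hJ, by simp⟩

theorem flood_succ {M : SMD} {x : List ℕ} {A R : ℕ} {a : Fin (2 * R) → ℕ}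
    (ha : ∀ J, a J < A) (J : Fin (2 * R)) {c : ℕ} (hc : c + 1 < A)
    (h : Der (msys M x A R) pAcc (Function.update a J c)) :
    Der (msys M x A R) pAcc (Function.update a J (c + 1)) := by
  refine Der.rule _ _ (Function.update a J c) (Function.update a J c)
    (flood_up_mem (J := J.val) J.isLt) (fun J' => ?_) h h
  simp only
  split_ifs with hJ
  · have : J' = J := Fin.ext hJ
    subst this
    simp only [Function.update_self, List.mem_map, List.mem_range]
    exact ⟨c, by omega, rfl⟩
  · have : J' ≠ J := fun e => hJ (by rw [e])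
    rw [Function.update_of_ne this, Function.update_of_ne this]
    exact mem_dSame (ha J')

theorem flood_pred {M : SMD} {x : List ℕ} {A R : ℕ} {a : Fin (2 * R) → ℕ}
    (ha : ∀ J, a J < A) (J : Fin (2 * R)) {c : ℕ} (hc : c + 1 < A)
    (h : Der (msys M x A R) pAcc (Function.update a J (c + 1))) :
    Der (msys M x A R) pAcc (Function.update a J c) := by
  refine Der.rule _ _ (Function.update a J (c + 1)) (Function.update a J (c + 1))
    (flood_down_mem (J := J.val) J.isLt) (fun J' => ?_) h h
  simp only
  split_ifs with hJ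
  · have : J' = J := Fin.ext hJ
    subst this
    simp only [Function.update_self, List.mem_map, List.mem_range]
    exact ⟨c, by omega, rfl⟩
  · have : J' ≠ J := fun e => hJ (by rw [e])
    rw [Function.update_of_ne this, Function.update_of_ne this]
    exact mem_dSame (ha J')

theorem flood_zero {M : SMD} {x : List ℕ} {A R : ℕ} {a : Fin (2 * R) → ℕ}
    (ha : ∀ J, a J < A) (J : Fin (2 * R)) : ∀ c : ℕ, c < A →
    Der (msys M x A R) pAcc (Function.update a J c) →
    Der (msys M x A R) pAcc (Function.update a J 0)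
  | 0, _, h => h
  | c + 1, hc, h => flood_zero ha J c (by omega) (flood_pred ha J hc h)

theorem flood_set {M : SMD} {x : List ℕ} {A R : ℕ} {a : Fin (2 * R) → ℕ}
    (ha : ∀ J, a J < A) (J : Fin (2 * R)) (h : Der (msys M x A R) pAcc (Function.update a J 0)) :
    ∀ c : ℕ, c < A → Der (msys M x A R) pAcc (Function.update a J c)
  | 0, _ => h
  | c + 1, hc => flood_succ ha J hc (flood_set ha J h c (by omega))

theorem flood_any {M : SMD} {x : List ℕ} {A R : ℕ} {a : Fin (2 * R) → ℕ}
    (ha : ∀ J, a J < A) (J : Fin (2 * R)) (h : Der (msys M x A R) pAcc a) {c : ℕ} (hc : c < A) :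
    Der (msys M x A R) pAcc (Function.update a J c) := by
  refine flood_set ha J (flood_zero ha J (a J) (ha J) ?_) c hc
  rw [Function.update_eq_self]
  exact h

/-- `Acc` spreads to all addresses (rules `floodAcc`) -/
theorem acc_flood {M : SMD} {x : List ℕ} {A R : ℕ} {a : Fin (2 * R) → ℕ}
    (ha : ∀ J, a J < A) (h : Der (msys M x A R) pAcc a) (b : Fin (2 * R) → ℕ)
    (hb : ∀ J, b J < A) : Der (msys M x A R) pAcc b := by
  have key : ∀ k : ℕ, k ≤ 2 * R →
      Der (msys M x A R) pAcc (fun J => if J.val < k then b J else a J) := by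
    intro k
    induction k with
    | zero => intro _; simpa using h
    | succ k ih =>
      intro hk
      have h1 := ih (by omega)
      have h2 : ∀ J : Fin (2 * R), (if J.val < k then b J else a J) < A := by
        intro J
        split_ifs
        · exact hb J
        · exact ha J
      have h3 := flood_any h2 ⟨k, by omega⟩ h1 (hb ⟨k, by omega⟩)
      convert h3 using 1
      funext J
      by_cases hJ : J = ⟨k, by omega⟩
      · subst hJ
        simp
      · rw [Function.update_of_ne hJ]
        have : J.val ≠ k := fun e => hJ (Fin.ext e)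
        by_cases h4 : J.val < k
        · simp [h4, show J.val < k + 1 by omega]
        · simp [h4, show ¬ J.val < k + 1 by omega]
  have := key (2 * R) le_rfl
  convert this using 1
  funext J
  simp [J.isLt]

theorem pAcc_ne_pGoal : pAcc ≠ pGoal := by unfold pAcc pGoal; omega

theorem insRules_head {A R S g q : ℕ} {i : InsD} :
    ∀ ρ ∈ insRules A R S g q i, ρ.e0 ≠ pGoal := by
  intro ρ hρ
  unfold insRules at hρ
  simp only [List.mem_append] at hρ
  rcases hρ with (hρ | hρ) | hρ
  · split_ifs at hρ with h0 h1 h2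
    · simp only [List.mem_append, List.mem_map, List.mem_flatMap, List.mem_range] at hρ
      rcases hρ with (⟨it, _, rfl⟩ | ⟨γ, _, it, _, ip, _, rfl⟩) | ⟨it, _, rfl⟩
      · exact pQ_ne _
      · exact pC_ne _ _ _
      · exact pC_ne _ _ _
    · simp only [List.mem_append, List.mem_map, List.mem_flatMap, List.mem_range] at hρ
      rcases hρ with ⟨γ, _, it, _, rfl⟩ | ⟨γ, _, it, _, ip, _, rfl⟩
      · exact pQ_ne _
      · exact pC_ne _ _ _
    · simp only [List.mem_singleton] at hρ
      subst hρ
      exact pAcc_ne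
    · simp at hρ
  · split_ifs at hρ with h0
    · simp only [List.mem_flatMap, List.mem_range] at hρ
      obtain ⟨s, _, hρ⟩ := hρ
      split_ifs at hρ with h1
      · simp at hρ
      · simp only [List.mem_map, List.mem_flatMap, List.mem_range] at hρ
        obtain ⟨γ, _, it, _, rfl⟩ := hρ
        exact pC_ne _ _ _
    · simp at hρ
  · simp only [List.mem_map, List.mem_range] at hρ
    obtain ⟨ip, _, rfl⟩ := hρ
    exact pQ_ne _

/-- a rule with the goal as head has the bodies `Acc` -/
theorem goal_head {M : SMD} {x : List ℕ} {A R : ℕ} :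
    ∀ ρ ∈ (msys M x A R).rules, ρ.e0 = pGoal → ρ.e1 = pAcc := by
  intro ρ hρ h0
  unfold msys at hρ
  simp only [List.mem_append, List.mem_map] at hρ
  rcases hρ with (hρ | hρ) | ⟨e, _, rfl⟩
  · unfold baseRules at hρ
    simp only [List.mem_append, List.mem_flatMap, List.mem_map, List.mem_range,
      List.mem_singleton] at hρ
    rcases hρ with (⟨a, _, hρ⟩ | ⟨s, _, ip, _, rfl⟩) | rfl
    · exact absurd h0 (insRules_head ρ hρ)
    · exact absurd h0 (pC_ne _ _ _)
    · rfl
  · unfold floodAcc at hρ
    simp only [List.mem_flatMap, List.mem_range, List.mem_cons, List.not_mem_nil, or_false] at hρ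
    obtain ⟨J, _, rfl | rfl⟩ := hρ
    · exact absurd h0 pAcc_ne
    · exact absurd h0 pAcc_ne
  · rfl

theorem baseAx_ne {M : SMD} {x : List ℕ} {A R : ℕ} :
    ∀ a ∈ baseAx M x A R, a.1 ≠ pGoal ∧ a.1 ≠ pAcc := by
  intro a ha
  unfold baseAx at ha
  simp only [List.mem_cons, List.mem_append, List.mem_map, List.mem_range] at ha
  rcases ha with rfl | ⟨b, _, rfl⟩ | rfl | ⟨s, _, rfl⟩ <;>
    constructor <;> simp only [pQ, pC, pGoal, pAcc] <;> omega

/-- if the goal is derivable, `Acc` is derivable somewhere -/
theorem acc_of_goal {M : SMD} {x : List ℕ} {A R : ℕ} (hA : 2 ≤ A) {e : ℕ} {a : Fin (2 * R) → ℕ}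
    (h : Der (msys M x A R) e a) (he : e = pGoal) :
    ∃ b : Fin (2 * R) → ℕ, (∀ J, b J < A) ∧ Der (msys M x A R) pAcc b := by
  cases h with
  | ax e x h => exact absurd he (baseAx_ne _ h).1
  | rule ρ x y z hρ hrel h1 h2 =>
    rw [goal_head ρ hρ he] at h1
    exact ⟨y, der_lt (msys_wf' hA) h1, h1⟩

theorem msys_full' {M : SMD} {x : List ℕ} {A R : ℕ} (hA : 2 ≤ A)
    (h : Der (msys M x A R) (msys M x A R).goal.1 (msys M x A R).goal.2) :
    (msys M x A R).Full A := by
  obtain ⟨b, hb, hacc⟩ := acc_of_goal hA h rfl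
  have hall : ∀ v : Fin (2 * R) → ℕ, (∀ J, v J < A) → Der (msys M x A R) pAcc v :=
    fun v hv => acc_flood hb hacc v hv
  have hbase : ∀ e ∈ basePreds M x A R, ∀ v : Fin (2 * R) → ℕ, (∀ J, v J < A) →
      Der (msys M x A R) e v := by
    intro e he v hv
    refine Der.rule (idR A R e pAcc pAcc) v v v ?_ (fun J => ?_) (hall v hv) (hall v hv)
    · unfold msys
      simp only [List.mem_append, List.mem_map]
      exact Or.inr ⟨e, he, rfl⟩
    · unfold idR mkR
      simp only
      split_ifs <;> exact mem_dSame (hv J)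
  intro e he v hv
  have h1 : e ∈ basePreds M x A R ∨ e = pAcc := by
    unfold RSys.preds at he
    rw [List.mem_cons, List.mem_append, List.mem_flatMap] at he
    rcases he with rfl | he | ⟨ρ, hρ, he⟩
    · left; unfold basePreds; exact List.mem_cons_self
    · left; unfold basePreds
      rw [List.mem_cons, List.mem_append]
      exact Or.inr (Or.inl he)
    · unfold msys at hρ
      simp only [List.mem_append, List.mem_map] at hρ
      rcases hρ with (hρ | hρ) | ⟨e', he', rfl⟩
      · left; unfold basePreds
        rw [List.mem_cons, List.mem_append, List.mem_flatMap]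
        exact Or.inr (Or.inr ⟨ρ, hρ, he⟩)
      · right
        unfold floodAcc at hρ
        simp only [List.mem_flatMap, List.mem_range, List.mem_cons, List.not_mem_nil,
          or_false] at hρ
        obtain ⟨J, _, rfl | rfl⟩ := hρ
        · simpa using he
        · simpa using he
      · simp only [idR, mkR, List.mem_cons, List.not_mem_nil, or_false] at he
        rcases he with rfl | rfl | rfl
        · exact Or.inl he'
        · exact Or.inr rfl
        · exact Or.inr rfl
  rcases h1 with h1 | rfl
  · exact hbase e h1 v hv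
  · exact hall v hv

theorem msys_full {M : SMD} (_hM : SWF M) {x : List ℕ} {A R : ℕ} (hA : 2 ≤ A) (_hR : 1 ≤ R)
    (h : Der (msys M x A R) (msys M x A R).goal.1 (msys M x A R).goal.2) :
    (msys M x A R).Full A := msys_full' hA h

end Crest.Agent.R290.E1
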