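import Crest.Agent.R290.MSys

/-!
Row 290, module E1: `msys` is well-formed; some rule has the goal as head.
-/
set_option autoImplicit false

namespace Crest.Agent.R290.E1

open Crest.Agent.R290

/-- a good relation list for one digit -/
structure GRel (A : ℕ) (l : List (ℕ × ℕ × ℕ)) : Prop where
  nd0 : (l.map fun t => t.1).Nodup
  nd1 : (l.map fun t => t.2.1).Nodup
  nd2 : (l.map fun t => t.2.2).Nodup
  ne : l ≠ []
  lt : ∀ t ∈ l, t.1 < A ∧ t.2.1 < A ∧ t.2.2 < A

theorem nodup_add (A : ℕ) : ((List.range A).map fun a => a + 1).Nodup :=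
  List.Nodup.map (fun a b h => by simpa using h) List.nodup_range

theorem nodup_id (A : ℕ) : ((List.range A).map fun a => a).Nodup :=
  List.Nodup.map (fun _ _ h => h) List.nodup_range

theorem range_map_ne {α : Type} {A : ℕ} (hA : 1 ≤ A) (f : ℕ → α) : (List.range A).map f ≠ [] := by
  intro h
  have := congrArg List.length h
  simp at this
  omega

theorem gSame {A : ℕ} (hA : 2 ≤ A) (J : ℕ) : GRel A (dSame A J) := by
  unfold dSame
  refine ⟨?_, ?_, ?_, range_map_ne (by omega) _, ?_⟩
  · rw [List.map_map]; exact nodup_id A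
  · rw [List.map_map]; exact nodup_id A
  · rw [List.map_map]; exact nodup_id A
  · intro t ht
    simp only [List.mem_map, List.mem_range] at ht
    obtain ⟨a, ha, rfl⟩ := ht
    exact ⟨ha, ha, ha⟩

theorem gZero {A : ℕ} (hA : 2 ≤ A) (J : ℕ) : GRel A (dZero J) := by
  unfold dZero
  refine ⟨by simp, by simp, by simp, by simp, ?_⟩
  intro t ht
  simp only [List.mem_singleton] at ht
  subst ht
  exact ⟨by simp; omega, by simp; omega, by simp; omega⟩

theorem gInc {A : ℕ} (hA : 2 ≤ A) (i J : ℕ) : GRel A (dInc A i J) := by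
  unfold dInc incD
  split_ifs with h1 h2
  · refine ⟨by simp, by simp, by simp, by simp, ?_⟩
    intro t ht
    simp only [List.map_cons, List.map_nil, List.mem_singleton] at ht
    subst ht
    exact ⟨by omega, by simp; omega, by simp; omega⟩
  · refine ⟨?_, ?_, ?_, ?_, ?_⟩
    · rw [List.map_map, List.map_map]; exact nodup_add _
    · rw [List.map_map, List.map_map]; exact nodup_id _
    · rw [List.map_map, List.map_map]; exact nodup_id _
    · rw [List.map_map]; exact range_map_ne (by omega) _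
    · intro t ht
      simp only [List.map_map, List.mem_map, List.mem_range, Function.comp] at ht
      obtain ⟨a, ha, rfl⟩ := ht
      exact ⟨by simp; omega, by simp; omega, by simp; omega⟩
  · refine ⟨?_, ?_, ?_, ?_, ?_⟩
    · rw [List.map_map, List.map_map]; exact nodup_id _
    · rw [List.map_map, List.map_map]; exact nodup_id _
    · rw [List.map_map, List.map_map]; exact nodup_id _
    · rw [List.map_map]; exact range_map_ne (by omega) _
    · intro t ht
      simp only [List.map_map, List.mem_map, List.mem_range, Function.comp] at ht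
      obtain ⟨a, ha, rfl⟩ := ht
      exact ⟨ha, ha, ha⟩

theorem gPop {A : ℕ} (hA : 2 ≤ A) (i J : ℕ) : GRel A (dPop A i J) := by
  unfold dPop incD
  split_ifs with h1 h2
  · refine ⟨by simp, by simp, by simp, by simp, ?_⟩
    intro t ht
    simp only [List.map_cons, List.map_nil, List.mem_singleton] at ht
    subst ht
    exact ⟨by simp; omega, by simp; omega, by simp; omega⟩
  · refine ⟨?_, ?_, ?_, ?_, ?_⟩
    · rw [List.map_map, List.map_map]; exact nodup_id _
    · rw [List.map_map, List.map_map]; exact nodup_id _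
    · rw [List.map_map, List.map_map]; exact nodup_add _
    · rw [List.map_map]; exact range_map_ne (by omega) _
    · intro t ht
      simp only [List.map_map, List.mem_map, List.mem_range, Function.comp] at ht
      obtain ⟨a, ha, rfl⟩ := ht
      exact ⟨by simp; omega, by simp; omega, by simp; omega⟩
  · refine ⟨?_, ?_, ?_, ?_, ?_⟩
    · rw [List.map_map, List.map_map]; exact nodup_id _
    · rw [List.map_map, List.map_map]; exact nodup_id _
    · rw [List.map_map, List.map_map]; exact nodup_id _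
    · rw [List.map_map]; exact range_map_ne (by omega) _
    · intro t ht
      simp only [List.map_map, List.mem_map, List.mem_range, Function.comp] at ht
      obtain ⟨a, ha, rfl⟩ := ht
      exact ⟨ha, ha, ha⟩

theorem gUp {A : ℕ} (hA : 2 ≤ A) : GRel A ((List.range (A - 1)).map fun a => (a + 1, a, a)) := by
  refine ⟨?_, ?_, ?_, range_map_ne (by omega) _, ?_⟩
  · rw [List.map_map]; exact nodup_add _
  · rw [List.map_map]; exact nodup_id _
  · rw [List.map_map]; exact nodup_id _
  · intro t ht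
    simp only [List.mem_map, List.mem_range] at ht
    obtain ⟨a, ha, rfl⟩ := ht
    exact ⟨by simp; omega, by simp; omega, by simp; omega⟩

theorem gDown {A : ℕ} (hA : 2 ≤ A) :
    GRel A ((List.range (A - 1)).map fun a => (a, a + 1, a + 1)) := by
  refine ⟨?_, ?_, ?_, range_map_ne (by omega) _, ?_⟩
  · rw [List.map_map]; exact nodup_id _
  · rw [List.map_map]; exact nodup_add _
  · rw [List.map_map]; exact nodup_add _
  · intro t ht
    simp only [List.mem_map, List.mem_range] at ht
    obtain ⟨a, ha, rfl⟩ := ht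
    exact ⟨by simp; omega, by simp; omega, by simp; omega⟩

/-- a good rule -/
structure GRule {r : ℕ} (A : ℕ) (ρ : Rule r) : Prop where
  rel : ∀ J, GRel A (ρ.rel J)
  ne1 : ρ.e1 ≠ pGoal
  ne2 : ρ.e2 ≠ pGoal

theorem gMk {A R e0 e1 e2 : ℕ} {tr pr : ℕ → List (ℕ × ℕ × ℕ)} (ht : ∀ J, GRel A (tr J))
    (hp : ∀ J, GRel A (pr J)) (h1 : e1 ≠ pGoal) (h2 : e2 ≠ pGoal) :
    GRule A (mkR R e0 e1 e2 tr pr) := by
  refine ⟨fun J => ?_, h1, h2⟩
  unfold mkR
  simp only
  split_ifs
  · exact ht _
  · exact hp _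

theorem pQ_ne (q : ℕ) : pQ q ≠ pGoal := by unfold pQ pGoal; omega
theorem pC_ne (g s γ : ℕ) : pC g s γ ≠ pGoal := by unfold pC pGoal; omega
theorem pAcc_ne : pAcc ≠ pGoal := by unfold pAcc pGoal; omega

theorem insRules_good {A : ℕ} (hA : 2 ≤ A) {R S g q : ℕ} {i : InsD} :
    ∀ ρ ∈ insRules A R S g q i, GRule A ρ := by
  intro ρ hρ
  unfold insRules at hρ
  simp only [List.mem_append] at hρ
  rcases hρ with (hρ | hρ) | hρ
  · split_ifs at hρ with h0 h1 h2
    · simp only [List.mem_append, List.mem_map, List.mem_flatMap, List.mem_range] at hρ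
      rcases hρ with (⟨it, _, rfl⟩ | ⟨γ, _, it, _, ip, _, rfl⟩) | ⟨it, _, rfl⟩
      · exact gMk (gInc hA it) (gZero hA) (pQ_ne _) (pQ_ne _)
      · exact gMk (gInc hA it) (gInc hA ip) (pQ_ne _) (pC_ne _ _ _)
      · exact gMk (gInc hA it) (gZero hA) (pQ_ne _) (pQ_ne _)
    · simp only [List.mem_append, List.mem_map, List.mem_flatMap, List.mem_range] at hρ
      rcases hρ with ⟨γ, _, it, _, rfl⟩ | ⟨γ, _, it, _, ip, _, rfl⟩
      · exact gMk (gInc hA it) (gZero hA) (pQ_ne _) (pC_ne _ _ _)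
      · exact gMk (gInc hA it) (gPop hA ip) (pQ_ne _) (pC_ne _ _ _)
    · simp only [List.mem_singleton] at hρ
      subst hρ
      exact gMk (gSame hA) (gZero hA) (pQ_ne _) (pQ_ne _)
    · simp at hρ
  · split_ifs at hρ with h0
    · simp only [List.mem_flatMap, List.mem_range] at hρ
      obtain ⟨s, _, hρ⟩ := hρ
      split_ifs at hρ with h1
      · simp at hρ
      · simp only [List.mem_map, List.mem_flatMap, List.mem_range] at hρ
        obtain ⟨γ, _, it, _, rfl⟩ := hρ
        exact gMk (gInc hA it) (gSame hA) (pQ_ne _) (pC_ne _ _ _)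
    · simp at hρ
  · simp only [List.mem_map, List.mem_range] at hρ
    obtain ⟨ip, _, rfl⟩ := hρ
    exact gMk (gSame hA) (gInc hA ip) (pQ_ne _) (pQ_ne _)

theorem baseRules_good {M : SMD} {A R : ℕ} (hA : 2 ≤ A) :
    ∀ ρ ∈ baseRules M A R, GRule A ρ := by
  intro ρ hρ
  unfold baseRules at hρ
  simp only [List.mem_append, List.mem_flatMap, List.mem_map, List.mem_range,
    List.mem_singleton] at hρ
  rcases hρ with (⟨a, _, hρ⟩ | ⟨s, _, ip, _, rfl⟩) | rfl
  · exact insRules_good hA ρ hρ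
  · exact gMk (gZero hA) (gInc hA ip) (pC_ne _ _ _) (pC_ne _ _ _)
  · exact gMk (gZero hA) (gZero hA) pAcc_ne pAcc_ne

theorem floodAcc_good {A R : ℕ} (hA : 2 ≤ A) : ∀ ρ ∈ floodAcc A R, GRule A ρ := by
  intro ρ hρ
  unfold floodAcc at hρ
  simp only [List.mem_flatMap, List.mem_range, List.mem_cons, List.not_mem_nil, or_false] at hρ
  obtain ⟨J, _, rfl | rfl⟩ := hρ
  · refine ⟨fun J' => ?_, pAcc_ne, pAcc_ne⟩
    simp only
    split_ifs
    · exact gUp hA
    · exact gSame hA 0
  · refine ⟨fun J' => ?_, pAcc_ne, pAcc_ne⟩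
    simp only
    split_ifs
    · exact gDown hA
    · exact gSame hA 0

theorem msys_good {M : SMD} {x : List ℕ} {A R : ℕ} (hA : 2 ≤ A) :
    ∀ ρ ∈ (msys M x A R).rules, GRule A ρ := by
  intro ρ hρ
  unfold msys at hρ
  simp only [List.mem_append, List.mem_map] at hρ
  rcases hρ with (hρ | hρ) | ⟨e, _, rfl⟩
  · exact baseRules_good hA ρ hρ
  · exact floodAcc_good hA ρ hρ
  · exact gMk (gSame hA) (gSame hA) pAcc_ne pAcc_ne

theorem posAddr_lt {A R j : ℕ} (hA : 2 ≤ A) (J : Fin (2 * R)) : posAddr A R j J < A := by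
  unfold posAddr
  split_ifs
  · omega
  · exact Nat.mod_lt _ (by omega)

theorem baseAx_lt {M : SMD} {x : List ℕ} {A R : ℕ} (hA : 2 ≤ A) :
    ∀ a ∈ baseAx M x A R, ∀ J, a.2 J < A := by
  intro a ha J
  unfold baseAx at ha
  simp only [List.mem_cons, List.mem_append, List.mem_map, List.mem_range] at ha
  rcases ha with rfl | ⟨b, _, rfl⟩ | rfl | ⟨s, _, rfl⟩ <;> exact posAddr_lt hA J

theorem msys_wf' {M : SMD} {x : List ℕ} {A R : ℕ} (hA : 2 ≤ A) : (msys M x A R).WF A where
  nd0 ρ hρ J := ((msys_good hA ρ hρ).rel J).nd0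
  nd1 ρ hρ J := ((msys_good hA ρ hρ).rel J).nd1
  nd2 ρ hρ J := ((msys_good hA ρ hρ).rel J).nd2
  ne ρ hρ J := ((msys_good hA ρ hρ).rel J).ne
  lt ρ hρ J := ((msys_good hA ρ hρ).rel J).lt
  ltax := baseAx_lt hA
  ltgoal J := by
    show 0 < A
    omega
  goal1 ρ hρ := (msys_good hA ρ hρ).ne1
  goal2 ρ hρ := (msys_good hA ρ hρ).ne2

theorem msys_wf {M : SMD} (_hM : SWF M) {x : List ℕ} (_hx : ∀ a ∈ x, a < M.2.2) {A R : ℕ}
    (hA : 2 ≤ A) (_hR : 1 ≤ R) : (msys M x A R).WF A := msys_wf' hA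

theorem goalRule_mem {M : SMD} {x : List ℕ} {A R : ℕ} :
    mkR R pGoal pAcc pAcc dZero dZero ∈ (msys M x A R).rules := by
  unfold msys baseRules
  simp

theorem msys_goal {M : SMD} {x : List ℕ} {A R : ℕ} :
    ∃ ρ ∈ (msys M x A R).rules, ρ.e0 = (msys M x A R).goal.1 ∧
      ∀ J, ∃ t ∈ ρ.rel J, t.1 = (msys M x A R).goal.2 J := by
  refine ⟨_, goalRule_mem, rfl, fun J => ?_⟩
  unfold mkR
  simp only
  split_ifs <;> exact ⟨(0, 0, 0), by simp [dZero], rfl⟩

/-- derivable facts have digits below `A` -/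
theorem der_lt {r A : ℕ} {S : RSys r} (hS : S.WF A) {e : ℕ} {v : Fin r → ℕ} (h : Der S e v) :
    ∀ J, v J < A := by
  cases h with
  | ax e x h => exact hS.ltax _ h
  | rule ρ x y z hρ hrel h1 h2 => exact fun J => (hS.lt ρ hρ J _ (hrel J)).1

end Crest.Agent.R290.E1
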