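import Crest.Agent.R290.E1Cell
import Crest.Agent.R290.E1Full

/-!
Row 290, module E1: completeness of the simulation.
-/
set_option autoImplicit false

namespace Crest.Agent.R290.E1

open Crest.Agent.R290

section
variable {M : SMD} {x : List ℕ} {A R : ℕ}

/-- the state spreads along the positions -/
theorem bcast (hA : 2 ≤ A) {q : ℕ} {i : InsD} (hi : M.1[q]? = some i) {t : ℕ}
    (h : Der (msys M x A R) (pQ q) (addr A R t 0)) :
    ∀ p : ℕ, p < A ^ R → Der (msys M x A R) (pQ q) (addr A R t p)
  | 0, _ => h
  | p + 1, hp => by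
    have ih := bcast hA hi h p (by omega)
    obtain ⟨ip, hip, hr, _⟩ := drel_inc hA hp
    exact der_mkR (mem_bcast hi hip) (drel_same (by omega)) hr ih ih

/-- empty cells spread in the initial row -/
theorem init_spread (hA : 2 ≤ A) {s p0 : ℕ} (hs : s < M.2.1)
    (h : Der (msys M x A R) (pC M.2.2 s 0) (addr A R 0 p0)) :
    ∀ d : ℕ, p0 + d < A ^ R → Der (msys M x A R) (pC M.2.2 s 0) (addr A R 0 (p0 + d))
  | 0, _ => h
  | d + 1, hp => by
    have ih := init_spread hA hs h d (by omega)
    obtain ⟨ip, hip, hr, _⟩ := drel_inc hA (t := p0 + d) (by omega)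
    exact der_mkR (mem_init hs hip) drel_zero hr ih ih

theorem init_cells (hA : 2 ≤ A) (hS : 1 ≤ M.2.1) (hxl : x.length < A ^ R) {s p : ℕ}
    (hs : s < M.2.1) (hp : p < A ^ R) :
    Der (msys M x A R) (pC M.2.2 s (cell ((sinit x).st s) p)) (addr A R 0 p) := by
  by_cases h0 : s = 0
  · subst h0
    have hst : (sinit x).st 0 = x := by simp [sinit]
    rw [hst]
    rcases Nat.lt_or_ge p x.length with hlt | hge
    · have h1 : x[p]? = some x[p] := List.getElem?_eq_getElem hlt
      rw [cell_some h1]
      apply Der.ax
      rw [← posAddr_eq]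
      unfold msys baseAx
      simp only
      rw [List.mem_cons, List.mem_append, List.mem_map]
      exact Or.inr (Or.inl ⟨(x[p], p), List.mk_mem_zipIdx_iff_getElem?.2 h1, rfl⟩)
    · rw [cell_ge hge]
      have h1 : Der (msys M x A R) (pC M.2.2 0 0) (addr A R 0 x.length) := by
        apply Der.ax
        rw [← posAddr_eq]
        unfold msys baseAx
        simp
      have h2 := init_spread hA hs h1 (p - x.length) (by omega)
      rwa [show x.length + (p - x.length) = p by omega] at h2
  · have hst : (sinit x).st s = [] := by simp [sinit, h0]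
    rw [hst, cell_nil]
    have h1 : Der (msys M x A R) (pC M.2.2 s 0) (addr A R 0 0) := by
      apply Der.ax
      rw [← posAddr_eq]
      unfold msys baseAx
      simp only
      rw [List.mem_cons, List.mem_append, List.mem_cons]
      exact Or.inr (Or.inr (Or.inr (List.mem_map.2 ⟨s - 1, List.mem_range.2 (by omega), by
        rw [show s - 1 + 1 = s by omega]⟩)))
    have h2 := init_spread hA hs h1 p (by omega)
    rwa [Nat.zero_add] at h2

/-- the facts of a configuration -/
def Known (M : SMD) (x : List ℕ) (A R t : ℕ) (c : SCfg) : Prop :=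
  Der (msys M x A R) (pQ c.q) (addr A R t 0) ∧
  ∀ s < M.2.1, ∀ p, p + t < A ^ R →
    Der (msys M x A R) (pC M.2.2 s (cell (c.st s) p)) (addr A R t p)

theorem known (hM : SWF M) (hx : ∀ a ∈ x, a < M.2.2) (hA : 2 ≤ A)
    (hxl : x.length < A ^ R) :
    ∀ (t : ℕ) (c : SCfg), t < A ^ R → scfg M x t = some c → Known M x A R t c
  | 0, c, _, h => by
    simp only [scfg, Option.some.injEq] at h
    subst h
    refine ⟨?_, fun s hs p hp => init_cells hA hM.1 hxl hs (by omega)⟩
    apply Der.ax
    rw [← posAddr_eq]
    unfold msys baseAx sinit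
    simp
  | t + 1, c', ht, h => by
    obtain ⟨c, i, hc, hi, h01⟩ := step_some h
    obtain ⟨ihQ, ihC⟩ := known hM hx hA hxl t c (by omega) hc
    have hsym := symb hM hx t c hc
    have hQ := bcast hA hi ihQ
    obtain ⟨it, hit, htr, _⟩ := drel_inc (R := R) hA (t := t) ht
    -- the stacks which are not touched
    have hother : ∀ s < M.2.1, s ≠ i.2.1 → ∀ p, p + (t + 1) < A ^ R →
        Der (msys M x A R) (pC M.2.2 s (cell (c.st s) p)) (addr A R (t + 1) p) := by
      intro s hs hne p hp
      exact der_mkR (mem_other hi h01 hs hne hit (cell_le (hsym s) p)) htr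
        (drel_same (by omega)) (hQ p (by omega)) (ihC s hs p (by omega))
    rcases h01 with h0 | h1
    · rw [step_push hc hi h0] at h
      simp only [Option.some.injEq] at h
      subst h
      refine ⟨?_, fun s hs p hp => ?_⟩
      · exact der_mkR (mem_pushQ hi h0 hit) htr drel_zero ihQ ihQ
      · simp only
        by_cases hne : s = i.2.1
        · subst hne
          rw [Function.update_self]
          cases p with
          | zero =>
            rw [cell_cons_zero]
            exact der_mkR (mem_pushN hi h0 hit) htr drel_zero ihQ ihQ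
          | succ p =>
            rw [cell_cons_succ]
            obtain ⟨ip, hip, hpr, _⟩ := drel_inc (R := R) hA (t := p) (by omega)
            exact der_mkR (mem_pushC hi h0 hit hip (cell_le (hsym _) p)) htr hpr
              (hQ p (by omega)) (ihC _ hs p (by omega))
        · rw [Function.update_of_ne hne]
          exact hother s hs hne p hp
    · have hi1 : i.2.1 < M.2.1 := (hM.2.2 i (List.mem_of_getElem? hi)).2 h1
      rw [step_pop hc hi h1] at h
      simp only [Option.some.injEq] at h
      subst h
      refine ⟨?_, fun s hs p hp => ?_⟩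
      · exact der_mkR (mem_popQ hi h1 hit (cell_le (hsym _) 0)) htr drel_zero ihQ
          (ihC _ hi1 0 (by omega))
      · simp only
        by_cases hne : s = i.2.1
        · subst hne
          rw [Function.update_self, cell_tail]
          obtain ⟨ip, hip, _, hpr⟩ := drel_inc (R := R) hA (t := p) (by omega)
          exact der_mkR (mem_popC hi h1 hit hip (cell_le (hsym _) (p + 1))) htr hpr
            (hQ p (by omega)) (ihC _ hs (p + 1) (by omega))
        · rw [Function.update_of_ne hne]
          exact hother s hs hne p hp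

end

theorem msys_comp {M : SMD} (hM : SWF M) {x : List ℕ} (hx : ∀ a ∈ x, a < M.2.2) {A R : ℕ}
    (hA : 2 ≤ A) (_hR : 1 ≤ R) (hxl : x.length < A ^ R) (h : SHalts M x (A ^ R - 1) true) :
    Der (msys M x A R) (msys M x A R).goal.1 (msys M x A R).goal.2 := by
  obtain ⟨t, ht, c, i, hc, hi, h2, hb⟩ := h
  have hpos : 0 < A ^ R := by positivity
  have hQ := (known hM hx hA hxl t c (by omega) hc).1
  have h1 : Der (msys M x A R) pAcc (addr A R t 0) :=
    der_mkR (mem_halt hi h2 (hb.2 rfl)) (drel_same (by omega)) drel_zero hQ hQ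
  have h3 : Der (msys M x A R) pAcc (addr A R 0 0) :=
    acc_flood (der_lt (msys_wf' hA) h1) h1 _ (fun J => by
      unfold addr
      split_ifs <;> exact dig_lt (by omega) _ _)
  have h4 : Der (msys M x A R) pGoal (addr A R 0 0) :=
    der_mkR mem_goal drel_zero drel_zero h3 h3
  have h5 : (msys M x A R).goal.2 = addr A R 0 0 := by
    funext J
    unfold msys addr
    simp [dig_zero]
  rw [h5]
  exact h4

end Crest.Agent.R290.E1
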