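import Crest.Agent.R290.E1Cell
import Crest.Agent.R290.E1Full

/-!
Row 290, module E1: soundness of the simulation.
-/
set_option autoImplicit false

namespace Crest.Agent.R290.E1

open Crest.Agent.R290

def StQ (M : SMD) (x : List ℕ) (q t : ℕ) : Prop := ∃ c, scfg M x t = some c ∧ c.q = q
def StC (M : SMD) (x : List ℕ) (s γ t p : ℕ) : Prop :=
  ∃ c, scfg M x t = some c ∧ cell (c.st s) p = γ

/-- truth of a fact -/
def Tr (M : SMD) (x : List ℕ) (A R e : ℕ) (v : Fin (2 * R) → ℕ) : Prop :=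
  (∀ q, e = pQ q → StQ M x q (tv A v)) ∧
  (∀ s γ, γ ≤ M.2.2 → e = pC M.2.2 s γ → StC M x s γ (tv A v) (pv A v)) ∧ e ≠ pAcc ∧ e ≠ pGoal

theorem pC_inj {g s γ s' γ' : ℕ} (h : pC g s γ = pC g s' γ') (hγ : γ ≤ g) (hγ' : γ' ≤ g) :
    s = s' ∧ γ = γ' := by
  unfold pC at h
  have h1 : s * (g + 1) + γ = s' * (g + 1) + γ' := by omega
  have h2 : s = s' := by
    have h3 : (s * (g + 1) + γ) / (g + 1) = s := by
      rw [Nat.add_comm, Nat.add_mul_div_right _ _ (by omega), Nat.div_eq_of_lt (by omega)]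
      omega
    have h4 : (s' * (g + 1) + γ') / (g + 1) = s' := by
      rw [Nat.add_comm, Nat.add_mul_div_right _ _ (by omega), Nat.div_eq_of_lt (by omega)]
      omega
    rw [← h3, h1, h4]
  subst h2
  exact ⟨rfl, by omega⟩

section
variable {M : SMD} {x : List ℕ} {A R : ℕ}

theorem tr_Q {q : ℕ} {v : Fin (2 * R) → ℕ} (h : StQ M x q (tv A v)) : Tr M x A R (pQ q) v := by
  refine ⟨fun q' hq => ?_, fun s γ _ hc => ?_, ?_, ?_⟩
  · have : q = q' := by unfold pQ at hq; omega
    subst this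
    exact h
  · exfalso; unfold pQ pC at hc; omega
  · unfold pQ pAcc; omega
  · unfold pQ pGoal; omega

theorem tr_C {s γ : ℕ} {v : Fin (2 * R) → ℕ} (hγ : γ ≤ M.2.2)
    (h : StC M x s γ (tv A v) (pv A v)) : Tr M x A R (pC M.2.2 s γ) v := by
  refine ⟨fun q' hq => ?_, fun s' γ' hγ' hc => ?_, ?_, ?_⟩
  · exfalso; unfold pQ pC at hq; omega
  · obtain ⟨rfl, rfl⟩ := pC_inj hc hγ hγ'
    exact h
  · unfold pC pAcc; omega
  · unfold pC pGoal; omega

theorem tr_ax (hx : ∀ a ∈ x, a < M.2.2) (hA : 2 ≤ A) (hxl : x.length < A ^ R) :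
    ∀ a ∈ baseAx M x A R, Tr M x A R a.1 a.2 := by
  have hpos : 0 < A ^ R := by positivity
  intro a ha
  unfold baseAx at ha
  simp only [List.mem_cons, List.mem_append, List.mem_map, List.mem_range] at ha
  rcases ha with rfl | ⟨b, hb, rfl⟩ | rfl | ⟨s, _, rfl⟩
  · apply tr_Q
    simp only
    rw [posAddr_eq, tv_addr (by omega) hpos]
    exact ⟨sinit x, rfl, rfl⟩
  · have hb' := List.mem_zipIdx_iff_getElem?.1 hb
    have hlt : b.2 < x.length := by
      by_contra hge
      rw [List.getElem?_eq_none (by omega)] at hb'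
      cases hb'
    apply tr_C (hx _ (List.mem_of_getElem? hb'))
    simp only
    rw [posAddr_eq, tv_addr (by omega) hpos, pv_addr (by omega) (by omega)]
    refine ⟨sinit x, rfl, ?_⟩
    simp only [sinit, if_true]
    exact cell_some hb'
  · apply tr_C (Nat.zero_le _)
    simp only
    rw [posAddr_eq, tv_addr (by omega) hpos, pv_addr (by omega) hxl]
    refine ⟨sinit x, rfl, ?_⟩
    simp only [sinit, if_true]
    exact cell_ge le_rfl
  · apply tr_C (Nat.zero_le _)
    simp only
    rw [posAddr_eq, tv_addr (by omega) hpos, pv_addr (by omega) hpos]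
    refine ⟨sinit x, rfl, ?_⟩
    simp [sinit, cell_nil]

theorem tr_ins (hM : SWF M) (hA : 2 ≤ A) (hno : ¬ SHalts M x (A ^ R - 1) true)
    {q : ℕ} {i : InsD} (hi : M.1[q]? = some i) :
    ∀ ρ ∈ insRules A R M.2.1 M.2.2 q i, ∀ v y z : Fin (2 * R) → ℕ,
      (∀ J, (v J, y J, z J) ∈ ρ.rel J) → (∀ J, y J < A) →
      Tr M x A R ρ.e1 y → Tr M x A R ρ.e2 z → Tr M x A R ρ.e0 v := by
  have hA1 : 1 ≤ A := by omega
  intro ρ hρ v y z hrel hy h1 h2
  unfold insRules at hρ
  simp only [List.mem_append] at hρ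
  rcases hρ with (hρ | hρ) | hρ
  · split_ifs at hρ with h0 h01 hacc
    · -- push
      simp only [List.mem_append, List.mem_map, List.mem_flatMap, List.mem_range] at hρ
      rcases hρ with (⟨it, hit, rfl⟩ | ⟨γ, hγ, it, hit, ip, hip, rfl⟩) | ⟨it, hit, rfl⟩
      · obtain ⟨ht, hp⟩ := mkR_rel.1 hrel
        obtain ⟨c, hc, hq⟩ := h1.1 q rfl
        subst hq
        have e1 : tv A v = tv A y + 1 := (dInc_val hA1 hit ht).1
        apply tr_Q
        rw [e1]
        exact ⟨_, step_push hc hi h0, rfl⟩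
      · obtain ⟨ht, hp⟩ := mkR_rel.1 hrel
        obtain ⟨c, hc, hq⟩ := h1.1 q rfl
        subst hq
        have hγ' : γ ≤ M.2.2 := by omega
        obtain ⟨c', hc', hcell⟩ := h2.2.1 i.2.1 γ hγ' rfl
        have e1 : tv A v = tv A y + 1 ∧ tv A z = tv A y := dInc_val hA1 hit ht
        have e2 : pv A v = pv A y + 1 ∧ pv A z = pv A y := dInc_val hA1 hip hp
        rw [e1.2, hc] at hc'
        cases hc'
        apply tr_C hγ'
        rw [e1.1]
        refine ⟨_, step_push hc hi h0, ?_⟩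
        simp only
        rw [Function.update_self, e2.1, cell_cons_succ, ← e2.2]
        exact hcell
      · obtain ⟨ht, hp⟩ := mkR_rel.1 hrel
        obtain ⟨c, hc, hq⟩ := h1.1 q rfl
        subst hq
        have e1 : tv A v = tv A y + 1 := (dInc_val hA1 hit ht).1
        have e2 : pv A v = 0 := (dZero_val hp).1
        apply tr_C (((hM.2.2 i (List.mem_of_getElem? hi)).1 h0).2)
        rw [e1, e2]
        refine ⟨_, step_push hc hi h0, ?_⟩
        simp only
        rw [Function.update_self, cell_cons_zero]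
    · -- pop
      simp only [List.mem_append, List.mem_map, List.mem_flatMap, List.mem_range] at hρ
      rcases hρ with ⟨γ, hγ, it, hit, rfl⟩ | ⟨γ, hγ, it, hit, ip, hip, rfl⟩
      · obtain ⟨ht, hp⟩ := mkR_rel.1 hrel
        obtain ⟨c, hc, hq⟩ := h1.1 q rfl
        subst hq
        have hγ' : γ ≤ M.2.2 := by omega
        obtain ⟨c', hc', hcell⟩ := h2.2.1 i.2.1 γ hγ' rfl
        have e1 : tv A v = tv A y + 1 ∧ tv A z = tv A y := dInc_val hA1 hit ht
        have e2 : pv A v = 0 ∧ pv A y = 0 ∧ pv A z = 0 := dZero_val hp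
        rw [e1.2, hc] at hc'
        cases hc'
        apply tr_Q
        rw [e1.1]
        refine ⟨_, step_pop hc hi h01, ?_⟩
        simp only
        rw [← hcell, e2.2.2]
      · obtain ⟨ht, hp⟩ := mkR_rel.1 hrel
        obtain ⟨c, hc, hq⟩ := h1.1 q rfl
        subst hq
        have hγ' : γ ≤ M.2.2 := by omega
        obtain ⟨c', hc', hcell⟩ := h2.2.1 i.2.1 γ hγ' rfl
        have e1 : tv A v = tv A y + 1 ∧ tv A z = tv A y := dInc_val hA1 hit ht
        have e2 : pv A z = pv A y + 1 ∧ pv A v = pv A y := dPop_val hA1 hip hp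
        rw [e1.2, hc] at hc'
        cases hc'
        apply tr_C hγ'
        rw [e1.1]
        refine ⟨_, step_pop hc hi h01, ?_⟩
        simp only
        rw [Function.update_self, cell_tail, e2.2, ← e2.1]
        exact hcell
    · -- accepting halt: impossible
      exfalso
      simp only [List.mem_singleton] at hρ
      subst hρ
      obtain ⟨c, hc, hq⟩ := h1.1 q rfl
      subst hq
      refine hno ⟨tv A y, ?_, c, i, hc, hi, by omega, by simp [hacc]⟩
      have := tv_lt hy
      omega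
    · simp at hρ
  · -- other stacks
    split_ifs at hρ with h01
    · simp only [List.mem_flatMap, List.mem_range] at hρ
      obtain ⟨s, hs, hρ⟩ := hρ
      split_ifs at hρ with hne
      · simp at hρ
      · simp only [List.mem_map, List.mem_flatMap, List.mem_range] at hρ
        obtain ⟨γ, hγ, it, hit, rfl⟩ := hρ
        obtain ⟨ht, hp⟩ := mkR_rel.1 hrel
        obtain ⟨c, hc, hq⟩ := h1.1 q rfl
        subst hq
        have hγ' : γ ≤ M.2.2 := by omega
        obtain ⟨c', hc', hcell⟩ := h2.2.1 s γ hγ' rfl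
        have e1 : tv A v = tv A y + 1 ∧ tv A z = tv A y := dInc_val hA1 hit ht
        have e2 : pv A v = pv A y ∧ pv A z = pv A y := dSame_val hp
        rw [e1.2, hc] at hc'
        cases hc'
        apply tr_C hγ'
        rw [e1.1]
        rcases h01 with h0 | h1'
        · refine ⟨_, step_push hc hi h0, ?_⟩
          simp only
          rw [Function.update_of_ne hne, e2.1, ← e2.2]
          exact hcell
        · refine ⟨_, step_pop hc hi h1', ?_⟩
          simp only
          rw [Function.update_of_ne hne, e2.1, ← e2.2]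
          exact hcell
    · simp at hρ
  · -- broadcast
    simp only [List.mem_map, List.mem_range] at hρ
    obtain ⟨ip, hip, rfl⟩ := hρ
    obtain ⟨ht, hp⟩ := mkR_rel.1 hrel
    have e1 : tv A v = tv A y := (dSame_val ht).1
    apply tr_Q
    rw [e1]
    exact h1.1 q rfl

theorem tr_rule (hM : SWF M) (hA : 2 ≤ A) (hno : ¬ SHalts M x (A ^ R - 1) true) :
    ∀ ρ ∈ (msys M x A R).rules, ∀ v y z : Fin (2 * R) → ℕ,
      (∀ J, (v J, y J, z J) ∈ ρ.rel J) → (∀ J, y J < A) →
      Tr M x A R ρ.e1 y → Tr M x A R ρ.e2 z → Tr M x A R ρ.e0 v := by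
  have hA1 : 1 ≤ A := by omega
  intro ρ hρ v y z hrel hy h1 h2
  unfold msys at hρ
  simp only [List.mem_append, List.mem_map] at hρ
  rcases hρ with (hρ | hρ) | ⟨e, _, rfl⟩
  · unfold baseRules at hρ
    simp only [List.mem_append, List.mem_flatMap, List.mem_map, List.mem_range,
      List.mem_singleton] at hρ
    rcases hρ with (⟨a, ha, hρ⟩ | ⟨s, _, ip, hip, rfl⟩) | rfl
    · exact tr_ins hM hA hno (List.mem_zipIdx_iff_getElem?.1 ha) ρ hρ v y z hrel hy h1 h2
    · -- initial row
      obtain ⟨ht, hp⟩ := mkR_rel.1 hrel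
      have e1 : tv A v = 0 ∧ tv A y = 0 ∧ tv A z = 0 := dZero_val ht
      have e2 : pv A v = pv A y + 1 := (dInc_val hA1 hip hp).1
      obtain ⟨c, hc, hcell⟩ := h1.2.1 s 0 (Nat.zero_le _) rfl
      apply tr_C (Nat.zero_le _)
      rw [e1.1, e2]
      rw [e1.2.1] at hc
      refine ⟨c, hc, ?_⟩
      have := cell_zero_iff.1 hcell
      exact cell_ge (by omega)
    · exact absurd rfl h1.2.2.1
  · unfold floodAcc at hρ
    simp only [List.mem_flatMap, List.mem_range, List.mem_cons, List.not_mem_nil, or_false] at hρ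
    obtain ⟨J, _, rfl | rfl⟩ := hρ
    · exact absurd rfl h1.2.2.1
    · exact absurd rfl h1.2.2.1
  · exact absurd rfl h1.2.2.1

theorem tr_der (hM : SWF M) (hx : ∀ a ∈ x, a < M.2.2) (hA : 2 ≤ A) (hxl : x.length < A ^ R)
    (hno : ¬ SHalts M x (A ^ R - 1) true) {e : ℕ} {v : Fin (2 * R) → ℕ}
    (h : Der (msys M x A R) e v) : Tr M x A R e v := by
  induction h with
  | ax e v h => exact tr_ax hx hA hxl _ h
  | rule ρ v y z hρ hrel h1 _ ih1 ih2 =>
    exact tr_rule hM hA hno ρ hρ v y z hrel (der_lt (msys_wf' hA) h1) ih1 ih2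

end

theorem msys_sound {M : SMD} (hM : SWF M) {x : List ℕ} (hx : ∀ a ∈ x, a < M.2.2) {A R : ℕ}
    (hA : 2 ≤ A) (_hR : 1 ≤ R) (hxl : x.length < A ^ R)
    (h : Der (msys M x A R) (msys M x A R).goal.1 (msys M x A R).goal.2) :
    SHalts M x (A ^ R - 1) true := by
  by_contra hno
  exact (tr_der hM hx hA hxl hno h).2.2.2 rfl

end Crest.Agent.R290.E1
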