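import Crest.Agent.R290.ESmd

/-!
Row 290, MODULE E, file ETm (helper57): every `FinTM2` with Boolean input and output alphabets
has a description `M : SMD` (linear slowdown).
-/
set_option autoImplicit false

namespace Crest.Agent.R290

open Turing Turing.TM2

section
variable (tm : FinTM2)

abbrev GS : Type := Σ k, tm.Γ k

abbrev TStmt : Type := TM2.Stmt tm.Γ tm.Λ tm.σ

/-- control points -/
inductive CP : Type
  | run (s : TStmt tm) (v : tm.σ)
  | pb (g : GS tm) (s : TStmt tm) (v : tm.σ)
  | jmp (s : TStmt tm) (v : tm.σ)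
  | ans (b : Bool)

variable {tm}

/-- read a symbol of stack `k` -/
noncomputable def pick (k : tm.K) : Option (GS tm) → Option (tm.Γ k)
  | none => none
  | some ⟨k', g⟩ => if h : k' = k then some (h ▸ g) else none

theorem pick_mk (k : tm.K) (g : tm.Γ k) : pick k (some ⟨k, g⟩) = some g := by
  simp [pick]

/-- the abstract program -/
noncomputable def prog (g0 : GS tm) (yes : GS tm → Bool) : CP tm → AI (CP tm) tm.K (GS tm)
  | .run (.push k f q) v => .push k ⟨k, f v⟩ (.run q v)
  | .run (.peek k f q) v => .pop k fun o =>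
      match o with
      | none => .run q (f v none)
      | some g => .pb g q (f v (pick k (some g)))
  | .run (.pop k f q) v => .pop k fun o => .run q (f v (pick k o))
  | .run (.load a q) v => .push g0.1 g0 (.jmp q (a v))
  | .run (.branch p q1 q2) v => .push g0.1 g0 (.jmp (cond (p v) q1 q2) v)
  | .run (.goto l) v => .push g0.1 g0 (.jmp (tm.m (l v)) v)
  | .run .halt _ => .pop tm.k₁ fun o => .ans (o.elim false yes)
  | .pb g q v => .push g.1 g (.run q v)
  | .jmp q v => .pop g0.1 fun _ => .run q v
  | .ans b => .halt b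

/-- cost of a statement -/
def cost : TStmt tm → ℕ
  | .push _ _ q => 1 + cost q
  | .peek _ _ q => 2 + cost q
  | .pop _ _ q => 1 + cost q
  | .load _ q => 2 + cost q
  | .branch _ q1 q2 => 2 + (cost q1 + cost q2)
  | .goto _ => 2
  | .halt => 0

/-- stacks -/
def encS (S : ∀ k, List (tm.Γ k)) : tm.K → List (GS tm) := fun k => (S k).map (Sigma.mk k)

/-- representation of a configuration -/
def rep : tm.Cfg → CP tm × (tm.K → List (GS tm))
  | ⟨some l, v, S⟩ => (.run (tm.m l) v, encS S)
  | ⟨none, v, S⟩ => (.run .halt v, encS S)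

theorem encS_update (S : ∀ k, List (tm.Γ k)) (k : tm.K) (l : List (tm.Γ k)) :
    encS (Function.update S k l) = Function.update (encS S) k (l.map (Sigma.mk k)) := by
  funext k'
  by_cases h : k' = k
  · subst h; simp [encS]
  · simp [encS, Function.update_of_ne h]

theorem noop (g0 : GS tm) (yes : GS tm → Bool) (q : TStmt tm) (v : tm.σ)
    (st : tm.K → List (GS tm)) (c : CP tm)
    (hc : prog g0 yes c = .push g0.1 g0 (.jmp q v)) :
    Rch (prog g0 yes) 2 (c, st) (.run q v, st) := by
  have h1 : astep (prog g0 yes) (c, st) =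
      some (.jmp q v, Function.update st g0.1 (g0 :: st g0.1)) := by
    simp [astep, hc]
  have h2 : astep (prog g0 yes) (.jmp q v, Function.update st g0.1 (g0 :: st g0.1)) =
      some (.run q v, st) := by
    simp [astep, prog]
  exact (Rch.step h1).trans (Rch.step h2)

theorem run_stmt (g0 : GS tm) (yes : GS tm → Bool) (q : TStmt tm) :
    ∀ (v : tm.σ) (S : ∀ k, List (tm.Γ k)),
      Rch (prog g0 yes) (cost q) (.run q v, encS S) (rep (stepAux q v S)) := by
  induction q with
  | push k f q ih =>
    intro v S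
    have h1 : astep (prog g0 yes) (.run (.push k f q) v, encS S) =
        some (.run q v, encS (Function.update S k (f v :: S k))) := by
      rw [encS_update]; simp [astep, prog, encS]
    exact (Rch.step h1).trans (ih v _)
  | peek k f q ih =>
    intro v S
    cases hS : S k with
    | nil =>
      have h1 : astep (prog g0 yes) (.run (.peek k f q) v, encS S) =
          some (.run q (f v none), encS S) := by
        simp [astep, prog, encS, hS]
      have h2 := (Rch.step h1).trans (ih (f v none) S)
      refine Rch.mono ?_ (show 1 + cost q ≤ 2 + cost q by omega)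
      simpa [hS] using h2
    | cons g l =>
      have h1 : astep (prog g0 yes) (.run (.peek k f q) v, encS S) =
          some (.pb ⟨k, g⟩ q (f v (some g)), encS (Function.update S k l)) := by
        rw [encS_update]
        simp [astep, prog, encS, hS, pick_mk]
      have h3 : astep (prog g0 yes) (.pb ⟨k, g⟩ q (f v (some g)), encS (Function.update S k l)) =
          some (.run q (f v (some g)), encS S) := by
        rw [encS_update]
        simp only [astep, prog, Function.update_self, Function.update_idem]
        rw [show (⟨k, g⟩ :: List.map (Sigma.mk k) l : List (GS tm)) = encS S k by simp [encS, hS],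
          Function.update_eq_self]
      have h2 := ((Rch.step h1).trans (Rch.step h3)).trans (ih (f v (some g)) S)
      simpa [hS, cost] using h2
  | pop k f q ih =>
    intro v S
    cases hS : S k with
    | nil =>
      have h1 : astep (prog g0 yes) (.run (.pop k f q) v, encS S) =
          some (.run q (f v none), encS (Function.update S k [])) := by
        rw [encS_update]
        have : Function.update (encS S) k (List.map (Sigma.mk k) []) = encS S := by
          rw [Function.update_eq_self_iff]; simp [encS, hS]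
        rw [this]
        simp [astep, prog, encS, hS, pick]
      have h2 := (Rch.step h1).trans (ih (f v none) (Function.update S k []))
      simpa [hS, cost] using h2
    | cons g l =>
      have h1 : astep (prog g0 yes) (.run (.pop k f q) v, encS S) =
          some (.run q (f v (some g)), encS (Function.update S k l)) := by
        rw [encS_update]
        simp [astep, prog, encS, hS, pick_mk]
      have h2 := (Rch.step h1).trans (ih (f v (some g)) (Function.update S k l))
      simpa [hS, cost] using h2
  | load a q ih =>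
    intro v S
    exact (noop g0 yes q (a v) (encS S) (.run (.load a q) v) rfl).trans (ih (a v) S)
  | branch p q1 q2 ih1 ih2 =>
    intro v S
    have h1 := noop g0 yes (cond (p v) q1 q2) v (encS S) (.run (.branch p q1 q2) v) rfl
    cases hp : p v with
    | true =>
      rw [hp] at h1
      have h2 := h1.trans (ih1 v S)
      refine Rch.mono ?_ (show 2 + cost q1 ≤ 2 + (cost q1 + cost q2) by omega)
      simpa [hp] using h2
    | false =>
      rw [hp] at h1
      have h2 := h1.trans (ih2 v S)
      refine Rch.mono ?_ (show 2 + cost q2 ≤ 2 + (cost q1 + cost q2) by omega)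
      simpa [hp] using h2
  | goto l =>
    intro v S
    exact noop g0 yes (tm.m (l v)) v (encS S) (.run (.goto l) v) rfl
  | halt =>
    intro v S
    exact Rch.refl _ _ _

/-- cost bound of one step of `tm` -/
noncomputable def maxCost (tm : FinTM2) : ℕ :=
  haveI := tm.ΛFin
  ∑ l : tm.Λ, cost (tm.m l)

theorem cost_le (l : tm.Λ) : cost (tm.m l) ≤ maxCost tm := by
  unfold maxCost
  exact Finset.single_le_sum (f := fun l => cost (tm.m l)) (fun _ _ => Nat.zero_le _)
    (@Finset.mem_univ _ tm.ΛFin l)

theorem flip_bind_none {σ : Type} (f : σ → Option σ) : ∀ n : ℕ, (flip bind f)^[n] none = none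
  | 0 => rfl
  | n + 1 => by
    rw [Function.iterate_succ_apply]
    exact flip_bind_none f n

theorem run_steps (g0 : GS tm) (yes : GS tm → Bool) : ∀ (n : ℕ) (c c' : tm.Cfg),
    (flip bind tm.step)^[n] (some c) = some c' →
      Rch (prog g0 yes) (maxCost tm * n) (rep c) (rep c')
  | 0, c, c', h => by
    simp only [Function.iterate_zero, id_eq, Option.some.injEq] at h
    subst h
    exact Rch.refl _ _ _
  | n + 1, c, c', h => by
    rw [Function.iterate_succ_apply] at h
    obtain ⟨l, v, S⟩ := c
    cases l with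
    | none =>
      have h1 : flip bind tm.step (some (⟨none, v, S⟩ : tm.Cfg)) = none := rfl
      rw [h1, flip_bind_none] at h
      exact absurd h (by simp)
    | some l =>
      have h1 : flip bind tm.step (some (⟨some l, v, S⟩ : tm.Cfg)) =
        some (stepAux (tm.m l) v S) := rfl
      rw [h1] at h
      have h2 := run_steps g0 yes n _ _ h
      have h3 := (run_stmt g0 yes (tm.m l) v S).mono (cost_le l)
      refine (h3.trans h2).mono ?_
      rw [mul_add, mul_one, add_comm]

/-! ### the support -/

open Classical in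
/-- all statements -/
noncomputable def allS (tm : FinTM2) : Finset (TStmt tm) :=
  haveI := tm.ΛFin
  Finset.univ.biUnion fun l => stmts₁ (tm.m l)

open Classical in
theorem mem_allS (l : tm.Λ) : tm.m l ∈ allS tm := by
  unfold allS
  exact Finset.mem_biUnion.2 ⟨l, @Finset.mem_univ _ tm.ΛFin _, stmts₁_self⟩

open Classical in
theorem allS_sub {q q' : TStmt tm} (h : q ∈ allS tm) (h' : q' ∈ stmts₁ q) : q' ∈ allS tm := by
  unfold allS at h ⊢
  obtain ⟨l, _, h⟩ := Finset.mem_biUnion.1 h
  exact Finset.mem_biUnion.2 ⟨l, @Finset.mem_univ _ tm.ΛFin _, stmts₁_trans h h'⟩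

open Classical in
/-- symbols pushed by a statement -/
noncomputable def pushed : TStmt tm → Finset (GS tm)
  | .push k f _ => haveI := tm.σFin; Finset.univ.image fun v => ⟨k, f v⟩
  | _ => ∅

open Classical in
noncomputable def allG (tm : FinTM2) : Finset (GS tm) := (allS tm).biUnion pushed

open Classical in
noncomputable def allQ (tm : FinTM2) (GG : Finset (GS tm)) : Finset (CP tm) :=
  haveI := tm.σFin
  ((allS tm ×ˢ Finset.univ).image fun p => CP.run p.1 p.2) ∪
  ((GG ×ˢ allS tm ×ˢ Finset.univ).image fun p => CP.pb p.1 p.2.1 p.2.2) ∪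
  ((allS tm ×ˢ Finset.univ).image fun p => CP.jmp p.1 p.2) ∪
  {CP.ans true, CP.ans false}

open Classical in
theorem mem_allQ {GG : Finset (GS tm)} {c : CP tm} : c ∈ allQ tm GG ↔
    (∃ q v, q ∈ allS tm ∧ c = .run q v) ∨ (∃ g q v, g ∈ GG ∧ q ∈ allS tm ∧ c = .pb g q v) ∨
    (∃ q v, q ∈ allS tm ∧ c = .jmp q v) ∨ ∃ b, c = .ans b := by
  unfold allQ
  simp only [Finset.mem_union, Finset.mem_image, Finset.mem_product, Finset.mem_univ, and_true,
    Finset.mem_insert, Finset.mem_singleton, Prod.exists]
  constructor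
  · rintro (((⟨q, v, h, rfl⟩ | ⟨g, q, v, ⟨h1, h2⟩, rfl⟩) | ⟨q, v, h, rfl⟩) | h)
    · exact Or.inl ⟨q, v, h, rfl⟩
    · exact Or.inr (Or.inl ⟨g, q, v, h1, h2, rfl⟩)
    · exact Or.inr (Or.inr (Or.inl ⟨q, v, h, rfl⟩))
    · rcases h with rfl | rfl
      · exact Or.inr (Or.inr (Or.inr ⟨_, rfl⟩))
      · exact Or.inr (Or.inr (Or.inr ⟨_, rfl⟩))
  · rintro (⟨q, v, h, rfl⟩ | ⟨g, q, v, h1, h2, rfl⟩ | ⟨q, v, h, rfl⟩ | ⟨b, rfl⟩)
    · exact Or.inl (Or.inl (Or.inl ⟨q, v, h, rfl⟩))
    · exact Or.inl (Or.inl (Or.inr ⟨g, q, v, ⟨h1, h2⟩, rfl⟩))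
    · exact Or.inl (Or.inr ⟨q, v, h, rfl⟩)
    · cases b
      · exact Or.inr (Or.inr rfl)
      · exact Or.inr (Or.inl rfl)

open Classical in
theorem prog_supp (g0 : GS tm) (yes : GS tm → Bool) {LQ : List (CP tm)} {LS : List tm.K}
    {LG : List (GS tm)} (hS : ∀ k, k ∈ LS) (h0 : g0 ∈ LG) (hG : ∀ g ∈ allG tm, g ∈ LG)
    (hQ : ∀ c, c ∈ LQ ↔ (∃ q v, q ∈ allS tm ∧ c = .run q v) ∨
      (∃ g q v, g ∈ LG ∧ q ∈ allS tm ∧ c = .pb g q v) ∨
      (∃ q v, q ∈ allS tm ∧ c = .jmp q v) ∨ ∃ b, c = .ans b) :
    Supp (prog g0 yes) LQ LS LG := by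
  have hrun : ∀ q v, q ∈ allS tm → CP.run q v ∈ LQ := fun q v h => (hQ _).2 (Or.inl ⟨q, v, h, rfl⟩)
  have hpb : ∀ g q v, g ∈ LG → q ∈ allS tm → CP.pb g q v ∈ LQ :=
    fun g q v h h' => (hQ _).2 (Or.inr (Or.inl ⟨g, q, v, h, h', rfl⟩))
  have hjmp : ∀ q v, q ∈ allS tm → CP.jmp q v ∈ LQ :=
    fun q v h => (hQ _).2 (Or.inr (Or.inr (Or.inl ⟨q, v, h, rfl⟩)))
  have hans : ∀ b, CP.ans b ∈ LQ := fun b => (hQ _).2 (Or.inr (Or.inr (Or.inr ⟨b, rfl⟩)))
  constructor
  · intro c hc s g c' h
    rcases (hQ c).1 hc with ⟨q, v, hq, rfl⟩ | ⟨g', q, v, hg', hq, rfl⟩ | ⟨q, v, hq, rfl⟩ | ⟨b, rfl⟩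
    · cases q with
      | push k f q =>
        simp only [prog, AI.push.injEq] at h
        obtain ⟨rfl, rfl, rfl⟩ := h
        refine ⟨hS _, hG _ ?_, hrun _ _ (allS_sub hq ?_)⟩
        · unfold allG
          refine Finset.mem_biUnion.2 ⟨_, hq, ?_⟩
          unfold pushed
          exact Finset.mem_image.2 ⟨v, @Finset.mem_univ _ tm.σFin v, rfl⟩
        · unfold stmts₁
          exact Finset.mem_insert_of_mem stmts₁_self
      | peek k f q => simp [prog] at h
      | pop k f q => simp [prog] at h
      | load a q =>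
        simp only [prog, AI.push.injEq] at h
        obtain ⟨rfl, rfl, rfl⟩ := h
        refine ⟨hS _, h0, hjmp _ _ (allS_sub hq ?_)⟩
        unfold stmts₁
        exact Finset.mem_insert_of_mem stmts₁_self
      | branch p q1 q2 =>
        simp only [prog, AI.push.injEq] at h
        obtain ⟨rfl, rfl, rfl⟩ := h
        refine ⟨hS _, h0, hjmp _ _ (allS_sub hq ?_)⟩
        unfold stmts₁
        refine Finset.mem_insert_of_mem ?_
        cases p v
        · exact Finset.mem_union_right _ stmts₁_self
        · exact Finset.mem_union_left _ stmts₁_self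
      | goto l =>
        simp only [prog, AI.push.injEq] at h
        obtain ⟨rfl, rfl, rfl⟩ := h
        exact ⟨hS _, h0, hjmp _ _ (mem_allS _)⟩
      | halt => simp [prog] at h
    · simp only [prog, AI.push.injEq] at h
      obtain ⟨rfl, rfl, rfl⟩ := h
      exact ⟨hS _, hg', hrun _ _ hq⟩
    · simp [prog] at h
    · simp [prog] at h
  · intro c hc s f' h
    rcases (hQ c).1 hc with ⟨q, v, hq, rfl⟩ | ⟨g', q, v, hg', hq, rfl⟩ | ⟨q, v, hq, rfl⟩ | ⟨b, rfl⟩
    · cases q with
      | push k f q => simp [prog] at h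
      | peek k f q =>
        simp only [prog, AI.pop.injEq] at h
        obtain ⟨rfl, rfl⟩ := h
        have hq' : q ∈ allS tm := allS_sub hq (by
          unfold stmts₁
          exact Finset.mem_insert_of_mem stmts₁_self)
        exact ⟨hS _, hrun _ _ hq', fun g hg => hpb _ _ _ hg hq'⟩
      | pop k f q =>
        simp only [prog, AI.pop.injEq] at h
        obtain ⟨rfl, rfl⟩ := h
        have hq' : q ∈ allS tm := allS_sub hq (by
          unfold stmts₁
          exact Finset.mem_insert_of_mem stmts₁_self)
        exact ⟨hS _, hrun _ _ hq', fun g hg => hrun _ _ hq'⟩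
      | load a q => simp [prog] at h
      | branch p q1 q2 => simp [prog] at h
      | goto l => simp [prog] at h
      | halt =>
        simp only [prog, AI.pop.injEq] at h
        obtain ⟨rfl, rfl⟩ := h
        exact ⟨hS _, hans _, fun g hg => hans _⟩
    · simp [prog] at h
    · simp only [prog, AI.pop.injEq] at h
      obtain ⟨rfl, rfl⟩ := h
      exact ⟨hS _, hrun _ _ hq, fun g hg => hrun _ _ hq⟩
    · simp [prog] at h

end

/-- every library machine with a one-bit answer has a description -/
theorem exists_smd' (tm : Turing.FinTM2) (ei : tm.Γ tm.k₀ ≃ Bool) (eo : tm.Γ tm.k₁ ≃ Bool) :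
    ∃ M : SMD, SWF M ∧ ∃ C : ℕ, ∀ (w : List Bool) (b : Bool) (t : ℕ),
      Nonempty (Turing.TM2OutputsInTime tm (w.map ei.symm) (some [eo.symm b]) t) →
        SHalts M (bitsOf w) (C * (t + 1)) b := by
  classical
  have := tm.kFin
  set g0 : GS tm := ⟨tm.k₀, ei.symm false⟩ with hg0
  set g1 : GS tm := ⟨tm.k₀, ei.symm true⟩ with hg1
  have h01 : g0 ≠ g1 := by
    intro h
    simp only [hg0, hg1, Sigma.mk.injEq, heq_eq_eq, true_and] at h
    exact absurd (ei.symm.injective h) (by simp)
  set yes : GS tm → Bool := fun g => decide (g = ⟨tm.k₁, eo.symm true⟩) with hyes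
  set LG : List (GS tm) := g0 :: g1 :: (allG tm).toList with hLG
  set LS : List tm.K := tm.k₀ :: Finset.univ.toList with hLS
  set LQ : List (CP tm) := CP.run (tm.m tm.main) tm.initialState ::
    (allQ tm LG.toFinset).toList with hLQ
  have hsupp : Supp (prog g0 yes) LQ LS LG := by
    apply prog_supp
    · intro k; simp [hLS]
    · simp [hLG]
    · intro g hg; simp [hLG, hg]
    · intro c
      have h1 : c ∈ LQ ↔ c ∈ allQ tm LG.toFinset := by
        rw [hLQ, List.mem_cons, Finset.mem_toList]
        constructor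
        · rintro (rfl | h)
          · exact mem_allQ.2 (Or.inl ⟨_, _, mem_allS _, rfl⟩)
          · exact h
        · exact Or.inr
      rw [h1, mem_allQ]
      simp only [List.mem_toFinset]
  refine ⟨toSMD (prog g0 yes) LQ LS LG, toSMD_wf hsupp (by simp [hLS]) (by simp [hLG]),
    maxCost tm + 1, ?_⟩
  rintro w b t ⟨⟨⟨n, hn⟩, hnt⟩⟩
  have h1 := run_steps g0 yes n _ _ hn
  have hinit : rep (initList tm (w.map ei.symm)) =
      (CP.run (tm.m tm.main) tm.initialState,
        fun k => if k = tm.k₀ then w.map fun b => (⟨tm.k₀, ei.symm b⟩ : GS tm) else []) := by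
    unfold initList rep encS
    simp only [Prod.mk.injEq, true_and]
    funext k
    by_cases hk : k = tm.k₀
    · subst hk
      simp [List.map_map, Function.comp_def]
    · simp [hk]
  have hhalt : rep (haltList tm [eo.symm b]) =
      (CP.run .halt tm.initialState,
        fun k => if k = tm.k₁ then [(⟨tm.k₁, eo.symm b⟩ : GS tm)] else []) := by
    unfold haltList rep encS
    simp only [Prod.mk.injEq, true_and]
    funext k
    by_cases hk : k = tm.k₁
    · subst hk
      simp
    · simp [hk]
  rw [hinit, hhalt] at h1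
  have hyb : yes ⟨tm.k₁, eo.symm b⟩ = b := by
    simp only [hyes, Sigma.mk.injEq, heq_eq_eq, true_and, EmbeddingLike.apply_eq_iff_eq]
    cases b <;> simp
  have h2 : Rch (prog g0 yes) 1 (CP.run .halt tm.initialState,
        fun k => if k = tm.k₁ then [(⟨tm.k₁, eo.symm b⟩ : GS tm)] else [])
      (CP.ans b, fun _ => []) := by
    apply Rch.step
    simp only [astep, prog, if_true, Option.elim, hyb, Option.some.injEq, Prod.mk.injEq, true_and]
    funext k
    by_cases hk : k = tm.k₁
    · subst hk; simp
    · simp [Function.update_of_ne hk, hk]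
  have h3 := h1.trans h2
  have hrel : SRel LQ LS LG (CP.run (tm.m tm.main) tm.initialState,
      fun k => if k = tm.k₀ then w.map fun b => (⟨tm.k₀, ei.symm b⟩ : GS tm) else [])
      (sinit (bitsOf w)) := by
    apply SRel.init
    · rw [hLQ]; rfl
    · rw [hLS]; rfl
    · intro g hg
      obtain ⟨b', _, rfl⟩ := List.mem_map.1 hg
      cases b' <;> simp [hLG, hg0, hg1]
    · unfold bitsOf
      rw [List.map_map]
      apply List.map_congr_left
      intro b' _
      cases b'
      · simp [hLG, ← hg0]
      · simp only [Function.comp_apply, ← hg1, Bool.toNat_true, hLG]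
        rw [List.idxOf_cons_ne _ h01]
        simp
  have h4 := toSMD_halts hsupp hrel h3 (b := b) rfl
  obtain ⟨t', ht', h5⟩ := h4
  refine ⟨t', ht'.trans ?_, h5⟩
  have h6 : maxCost tm * n ≤ maxCost tm * t := Nat.mul_le_mul_left _ hnt
  nlinarith

end Crest.Agent.R290
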