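import Crest.Agent.R290.MSys
import Crest.Agent.R290.ETm
import Crest.Agent.R290.E1Basic
import Crest.Agent.R290.E1Wf
import Crest.Agent.R290.E1Full
import Crest.Agent.R290.EComp
import Crest.Agent.R290.ESound

/-!
Row 290, MODULE E (machines): interface statements (architects helper57, helper71).
-/
set_option autoImplicit false

namespace Crest.Agent.R290

open Finset

theorem SHalts.unique {M : SMD} {x : List ℕ} {T T' : ℕ} {b b' : Bool} (h : SHalts M x T b)
    (h' : SHalts M x T' b') : b = b' := E1.shalts_unique h h'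

theorem SHalts.mono {M : SMD} {x : List ℕ} {T T' : ℕ} {b : Bool} (h : SHalts M x T b)
    (hT : T ≤ T') : SHalts M x T' b := by
  obtain ⟨t, ht, h⟩ := h
  exact ⟨t, ht.trans hT, h⟩

theorem msys_wf {M : SMD} (hM : SWF M) {x : List ℕ} (hx : ∀ a ∈ x, a < M.2.2) {A R : ℕ}
    (hA : 2 ≤ A) (hR : 1 ≤ R) : (msys M x A R).WF A := E1.msys_wf hM hx hA hR

/-- correctness of the simulation -/
theorem msys_der {M : SMD} (hM : SWF M) {x : List ℕ} (hx : ∀ a ∈ x, a < M.2.2) {A R : ℕ}
    (hA : 2 ≤ A) (hR : 1 ≤ R) (hxl : x.length < A ^ R) :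
    Der (msys M x A R) (msys M x A R).goal.1 (msys M x A R).goal.2 ↔ SHalts M x (A ^ R - 1) true :=
  ⟨E1.msys_sound hM hx hA hR hxl, E1.msys_comp hM hx hA hR hxl⟩

theorem msys_full {M : SMD} (hM : SWF M) {x : List ℕ} {A R : ℕ} (hA : 2 ≤ A) (hR : 1 ≤ R)
    (h : Der (msys M x A R) (msys M x A R).goal.1 (msys M x A R).goal.2) :
    (msys M x A R).Full A := E1.msys_full hM hA hR h

/-- some rule has the goal as head -/
theorem msys_goal {M : SMD} {x : List ℕ} {A R : ℕ} :
    ∃ ρ ∈ (msys M x A R).rules, ρ.e0 = (msys M x A R).goal.1 ∧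
      ∀ J, ∃ t ∈ ρ.rel J, t.1 = (msys M x A R).goal.2 J := E1.msys_goal

/-- the machine with the answers exchanged -/
def sflip (M : SMD) : SMD :=
  (M.1.map fun i => if 2 ≤ i.1 then (i.1, if i.2.1 = 1 then 0 else 1, i.2.2) else i, M.2)

theorem sflip_wf {M : SMD} (hM : SWF M) : SWF (sflip M) := E1.flip_wf hM

theorem sflip_halts {M : SMD} {x : List ℕ} {T : ℕ} {b : Bool} (h : SHalts M x T b) :
    SHalts (sflip M) x T (!b) := E1.flip_halts h

/-- every library machine with a one-bit answer has a description -/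
theorem exists_smd (tm : Turing.FinTM2) (ei : tm.Γ tm.k₀ ≃ Bool) (eo : tm.Γ tm.k₁ ≃ Bool) :
    ∃ M : SMD, SWF M ∧ ∃ C : ℕ, ∀ (w : List Bool) (b : Bool) (t : ℕ),
      Nonempty (Turing.TM2OutputsInTime tm (w.map ei.symm) (some [eo.symm b]) t) →
        SHalts M (bitsOf w) (C * (t + 1)) b := exists_smd' tm ei eo

end Crest.Agent.R290
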