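import Crest.Agent.R290.MSys

/-!
Row 290, MODULE E, file EAddr (helper57): digits, values, increments.
-/
set_option autoImplicit false

namespace Crest.Agent.R290

open Finset

/-- value of the digits `v 0 .. v (R-1)`, base `A`, least significant first -/
def dval (A : ℕ) : ℕ → (ℕ → ℕ) → ℕ
  | 0, _ => 0
  | R + 1, v => v 0 + A * dval A R fun J => v (J + 1)

/-- digit `J` of `t` -/
def dig (A t J : ℕ) : ℕ := t / A ^ J % A

theorem mem_incD {A i J a b : ℕ} : (a, b) ∈ incD A i J ↔
    (J < i ∧ a = A - 1 ∧ b = 0) ∨ (J = i ∧ a < A - 1 ∧ b = a + 1) ∨ (i < J ∧ a < A ∧ b = a) := by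
  unfold incD
  split_ifs with h1 h2
  · simp; omega
  · subst h2
    simp only [List.mem_map, List.mem_range, Prod.mk.injEq]
    constructor
    · rintro ⟨c, hc, rfl, rfl⟩; exact Or.inr (Or.inl ⟨trivial, hc, rfl⟩)
    · rintro (h | ⟨_, h, h'⟩ | h)
      · omega
      · exact ⟨a, h, rfl, h'.symm⟩
      · omega
  · simp only [List.mem_map, List.mem_range, Prod.mk.injEq]
    constructor
    · rintro ⟨c, hc, rfl, rfl⟩; exact Or.inr (Or.inr ⟨by omega, hc, rfl⟩)
    · rintro (h | h | ⟨_, h, h'⟩)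
      · omega
      · omega
      · exact ⟨a, h, rfl, h'.symm⟩

theorem dval_congr (A : ℕ) : ∀ (R : ℕ) (x y : ℕ → ℕ), (∀ J < R, x J = y J) → dval A R x = dval A R y
  | 0, _, _, _ => rfl
  | R + 1, x, y, h => by
    unfold dval
    rw [h 0 (by omega), dval_congr A R _ _ fun J hJ => h (J + 1) (by omega)]

theorem dval_lt {A : ℕ} : ∀ (R : ℕ) (x : ℕ → ℕ), (∀ J < R, x J < A) → dval A R x < A ^ R
  | 0, _, _ => by simp [dval]
  | R + 1, x, h => by
    have h0 := h 0 (by omega)
    have h1 := dval_lt R (fun J => x (J + 1)) fun J hJ => h (J + 1) (by omega)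
    unfold dval
    rw [pow_succ]
    calc x 0 + A * dval A R (fun J => x (J + 1)) < A + A * dval A R (fun J => x (J + 1)) := by omega
      _ = A * (dval A R (fun J => x (J + 1)) + 1) := by ring
      _ ≤ A * A ^ R := Nat.mul_le_mul_left _ h1
      _ = A ^ R * A := by ring

theorem dval_inc {A : ℕ} (hA : 1 ≤ A) : ∀ (R i : ℕ) (x y : ℕ → ℕ), i < R →
    (∀ J < R, (x J, y J) ∈ incD A i J) → dval A R y = dval A R x + 1
  | 0, i, _, _, hi, _ => by omega
  | R + 1, 0, x, y, _, h => by
    have h0 := mem_incD.1 (h 0 (by omega))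
    have h1 : dval A R (fun J => y (J + 1)) = dval A R (fun J => x (J + 1)) := by
      apply dval_congr
      intro J hJ
      have := mem_incD.1 (h (J + 1) (by omega))
      omega
    unfold dval
    rw [h1]; omega
  | R + 1, i + 1, x, y, hi, h => by
    have h0 := mem_incD.1 (h 0 (by omega))
    have h1 : dval A R (fun J => y (J + 1)) = dval A R (fun J => x (J + 1)) + 1 := by
      apply dval_inc hA R i _ _ (by omega)
      intro J hJ
      have := mem_incD.1 (h (J + 1) (by omega))
      rw [mem_incD]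
      omega
    unfold dval
    rw [h1, mul_add]; omega

theorem dig_zero (A J : ℕ) : dig A 0 J = 0 := by simp [dig]

theorem dig_lt {A : ℕ} (hA : 1 ≤ A) (t J : ℕ) : dig A t J < A := Nat.mod_lt _ hA

theorem dig_succ (A t J : ℕ) : dig A t (J + 1) = dig A (t / A) J := by
  unfold dig
  rw [pow_succ', Nat.div_div_eq_div_mul]

theorem dval_dig {A : ℕ} (hA : 1 ≤ A) : ∀ (R t : ℕ), t < A ^ R → dval A R (dig A t) = t
  | 0, t, h => by simp at h; simp [dval, h]
  | R + 1, t, h => by
    have h1 : dval A R (fun J => dig A t (J + 1)) = t / A := by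
      simp only [dig_succ]
      exact dval_dig hA R (t / A) ((Nat.div_lt_iff_lt_mul hA).2 (by rw [← pow_succ]; exact h))
    unfold dval
    rw [h1]
    unfold dig
    simp only [pow_zero, Nat.div_one]
    exact Nat.mod_add_div t A

theorem dig_inc {A : ℕ} (hA : 2 ≤ A) : ∀ (R t : ℕ), t + 1 < A ^ R →
    ∃ i < R, ∀ J < R, (dig A t J, dig A (t + 1) J) ∈ incD A i J
  | 0, t, h => by simp at h
  | R + 1, t, h => by
    rcases Nat.lt_or_ge (t % A + 1) A with h1 | h1
    · refine ⟨0, by omega, fun J hJ => ?_⟩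
      have h2 : (t + 1) / A = t / A := by
        rw [Nat.add_div (by omega)]
        rw [Nat.mod_eq_of_lt (show 1 < A by omega), Nat.div_eq_of_lt (show 1 < A by omega)]
        rw [if_neg (by omega)]; rfl
      cases J with
      | zero =>
        rw [mem_incD]
        right; left
        unfold dig
        simp only [pow_zero, Nat.div_one]
        refine ⟨trivial, by omega, ?_⟩
        rw [Nat.add_mod, Nat.mod_eq_of_lt (show 1 < A by omega), Nat.mod_eq_of_lt h1]
      | succ J =>
        rw [mem_incD]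
        right; right
        refine ⟨by omega, dig_lt (by omega) _ _, ?_⟩
        rw [dig_succ, dig_succ, h2]
    · have h0 := Nat.mod_lt t (show 0 < A by omega)
      have h2 : (t + 1) / A = t / A + 1 := by
        rw [Nat.add_div (by omega)]
        rw [Nat.mod_eq_of_lt (show 1 < A by omega), Nat.div_eq_of_lt (show 1 < A by omega)]
        rw [if_pos (by omega)]
      have h3 : t / A + 1 < A ^ R := by
        rw [← h2]
        exact (Nat.div_lt_iff_lt_mul (by omega)).2 (by rw [← pow_succ]; exact h)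
      obtain ⟨i, hi, h4⟩ := dig_inc hA R (t / A) h3
      refine ⟨i + 1, by omega, fun J hJ => ?_⟩
      cases J with
      | zero =>
        rw [mem_incD]
        left
        unfold dig
        simp only [pow_zero, Nat.div_one]
        refine ⟨by omega, by omega, ?_⟩
        rw [Nat.add_mod, Nat.mod_eq_of_lt (show 1 < A by omega)]
        have : t % A + 1 = A := by omega
        rw [this, Nat.mod_self]
      | succ J =>
        have h5 := mem_incD.1 (h4 J (by omega))
        rw [dig_succ, dig_succ, h2, mem_incD]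
        omega

/-! ### the two halves of an address -/

def tpart {R : ℕ} (v : Fin (2 * R) → ℕ) (J : ℕ) : ℕ := if h : J < R then v ⟨J, by omega⟩ else 0
def ppart {R : ℕ} (v : Fin (2 * R) → ℕ) (J : ℕ) : ℕ := if h : J < R then v ⟨R + J, by omega⟩ else 0

/-- time of an address -/
def tv {R : ℕ} (A : ℕ) (v : Fin (2 * R) → ℕ) : ℕ := dval A R (tpart v)
/-- position of an address -/
def pv {R : ℕ} (A : ℕ) (v : Fin (2 * R) → ℕ) : ℕ := dval A R (ppart v)

/-- the address `(t, p)` -/
def addr (A R t p : ℕ) : Fin (2 * R) → ℕ :=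
  fun J => if J.val < R then dig A t J.val else dig A p (J.val - R)

theorem posAddr_eq (A R j : ℕ) : posAddr A R j = addr A R 0 j := by
  funext J; unfold posAddr addr; split_ifs
  · rw [dig_zero]
  · rfl

theorem tv_lt {A R : ℕ} {v : Fin (2 * R) → ℕ} (h : ∀ J, v J < A) : tv A v < A ^ R := by
  apply dval_lt
  intro J hJ
  unfold tpart
  rw [dif_pos hJ]
  exact h _

theorem tv_addr {A R t p : ℕ} (hA : 1 ≤ A) (ht : t < A ^ R) : tv A (addr A R t p) = t := by
  unfold tv
  rw [dval_congr A R _ (dig A t), dval_dig hA R t ht]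
  intro J hJ
  unfold tpart addr
  rw [dif_pos hJ, if_pos hJ]

theorem pv_addr {A R t p : ℕ} (hA : 1 ≤ A) (hp : p < A ^ R) : pv A (addr A R t p) = p := by
  unfold pv
  rw [dval_congr A R _ (dig A p), dval_dig hA R p hp]
  intro J hJ
  unfold ppart addr
  rw [dif_pos hJ, if_neg (by simp)]
  simp

/-- the relation of a rule `mkR` splits -/
theorem mkR_rel {R e0 e1 e2 : ℕ} {tr pr : ℕ → List (ℕ × ℕ × ℕ)} {x y z : Fin (2 * R) → ℕ} :
    (∀ J, (x J, y J, z J) ∈ (mkR R e0 e1 e2 tr pr).rel J) ↔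
      (∀ J < R, (tpart x J, tpart y J, tpart z J) ∈ tr J) ∧
      (∀ J < R, (ppart x J, ppart y J, ppart z J) ∈ pr J) := by
  unfold mkR tpart ppart
  constructor
  · intro h
    refine ⟨fun J hJ => ?_, fun J hJ => ?_⟩
    · have := h ⟨J, by omega⟩
      simpa [hJ] using this
    · have := h ⟨R + J, by omega⟩
      simpa [hJ] using this
  · rintro ⟨h1, h2⟩ J
    rcases Nat.lt_or_ge J.val R with hJ | hJ
    · have := h1 J.val hJ
      simpa [hJ] using this
    · have := h2 (J.val - R) (by omega)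
      have h3 : R + (J.val - R) = J.val := by omega
      simp only [show J.val - R < R by omega, dite_true, h3] at this
      simpa [show ¬ J.val < R by omega] using this

theorem dInc_val {A R i : ℕ} (hA : 1 ≤ A) (hi : i < R) {x y z : ℕ → ℕ}
    (h : ∀ J < R, (x J, y J, z J) ∈ dInc A i J) :
    dval A R x = dval A R y + 1 ∧ dval A R z = dval A R y := by
  have h1 : ∀ J < R, (y J, x J) ∈ incD A i J ∧ z J = y J := by
    intro J hJ
    have := h J hJ
    unfold dInc at this
    simp only [List.mem_map, Prod.mk.injEq, Prod.exists] at this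
    obtain ⟨a, b, hab, rfl, rfl, h3⟩ := this
    exact ⟨hab, h3.symm⟩
  exact ⟨dval_inc hA R i _ _ hi fun J hJ => (h1 J hJ).1, dval_congr _ _ _ _ fun J hJ => (h1 J hJ).2⟩

theorem dPop_val {A R i : ℕ} (hA : 1 ≤ A) (hi : i < R) {x y z : ℕ → ℕ}
    (h : ∀ J < R, (x J, y J, z J) ∈ dPop A i J) :
    dval A R z = dval A R y + 1 ∧ dval A R x = dval A R y := by
  have h1 : ∀ J < R, (y J, z J) ∈ incD A i J ∧ x J = y J := by
    intro J hJ
    have := h J hJ
    unfold dPop at this
    simp only [List.mem_map, Prod.mk.injEq, Prod.exists] at this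
    obtain ⟨a, b, hab, h2, rfl, rfl⟩ := this
    exact ⟨hab, h2.symm⟩
  exact ⟨dval_inc hA R i _ _ hi fun J hJ => (h1 J hJ).1, dval_congr _ _ _ _ fun J hJ => (h1 J hJ).2⟩

theorem dSame_val {A R : ℕ} {x y z : ℕ → ℕ} (h : ∀ J < R, (x J, y J, z J) ∈ dSame A J) :
    dval A R x = dval A R y ∧ dval A R z = dval A R y := by
  have h1 : ∀ J < R, x J = y J ∧ z J = y J := by
    intro J hJ
    have := h J hJ
    unfold dSame at this
    simp only [List.mem_map, Prod.mk.injEq] at this
    obtain ⟨a, _, h2, h3, h4⟩ := this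
    omega
  exact ⟨dval_congr _ _ _ _ fun J hJ => (h1 J hJ).1, dval_congr _ _ _ _ fun J hJ => (h1 J hJ).2⟩

theorem dval_zero (A : ℕ) : ∀ (R : ℕ) (x : ℕ → ℕ), (∀ J < R, x J = 0) → dval A R x = 0
  | 0, _, _ => rfl
  | R + 1, x, h => by
    unfold dval
    rw [h 0 (by omega), dval_zero A R _ fun J hJ => h (J + 1) (by omega)]
    rfl

theorem dZero_val {A R : ℕ} {x y z : ℕ → ℕ} (h : ∀ J < R, (x J, y J, z J) ∈ dZero J) :
    dval A R x = 0 ∧ dval A R y = 0 ∧ dval A R z = 0 := by
  have h1 : ∀ J < R, x J = 0 ∧ y J = 0 ∧ z J = 0 := by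
    intro J hJ
    have := h J hJ
    unfold dZero at this
    simpa using this
  exact ⟨dval_zero _ _ _ fun J hJ => (h1 J hJ).1, dval_zero _ _ _ fun J hJ => (h1 J hJ).2.1,
    dval_zero _ _ _ fun J hJ => (h1 J hJ).2.2⟩

/-! ### using rules at canonical addresses -/

/-- digit relation between three numbers -/
def DRel (A R : ℕ) (tr : ℕ → List (ℕ × ℕ × ℕ)) (a b c : ℕ) : Prop :=
  ∀ J < R, (dig A a J, dig A b J, dig A c J) ∈ tr J

theorem drel_same {A R t : ℕ} (hA : 1 ≤ A) : DRel A R (dSame A) t t t := by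
  intro J _
  unfold dSame
  simp only [List.mem_map, List.mem_range, Prod.mk.injEq]
  exact ⟨dig A t J, dig_lt hA _ _, rfl, rfl, rfl⟩

theorem drel_zero {A R : ℕ} : DRel A R dZero 0 0 0 := by
  intro J _
  simp [dZero, dig_zero]

theorem drel_inc {A R t : ℕ} (hA : 2 ≤ A) (ht : t + 1 < A ^ R) :
    ∃ i < R, DRel A R (dInc A i) (t + 1) t t ∧ DRel A R (dPop A i) t t (t + 1) := by
  obtain ⟨i, hi, h⟩ := dig_inc hA R t ht
  refine ⟨i, hi, fun J hJ => ?_, fun J hJ => ?_⟩
  · unfold dInc
    exact List.mem_map.2 ⟨_, h J hJ, rfl⟩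
  · unfold dPop
    exact List.mem_map.2 ⟨_, h J hJ, rfl⟩

theorem der_mkR {A R e0 e1 e2 : ℕ} {S : RSys (2 * R)} {tr pr : ℕ → List (ℕ × ℕ × ℕ)}
    (hρ : mkR R e0 e1 e2 tr pr ∈ S.rules) {t0 t1 t2 p0 p1 p2 : ℕ}
    (ht : DRel A R tr t0 t1 t2) (hp : DRel A R pr p0 p1 p2)
    (h1 : Der S e1 (addr A R t1 p1)) (h2 : Der S e2 (addr A R t2 p2)) :
    Der S e0 (addr A R t0 p0) := by
  refine Der.rule (mkR R e0 e1 e2 tr pr) _ _ _ hρ (fun J => ?_) h1 h2
  unfold mkR addr
  rcases Nat.lt_or_ge J.val R with hJ | hJ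
  · simpa [hJ] using ht J.val hJ
  · simpa [show ¬ J.val < R by omega] using hp (J.val - R) (by omega)

end Crest.Agent.R290
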