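import Crest.Agent.R290.EqDef
import Crest.Agent.R290.EAddr

/-!
Row 290, module E1: cells of stacks, steps of the machine, membership of the rules in `msys`.
-/
set_option autoImplicit false

namespace Crest.Agent.R290.E1

open Crest.Agent.R290

/-- content of cell `p` of a stack, plus one; `0` beyond the bottom -/
def cell (l : List ℕ) (p : ℕ) : ℕ := match l[p]? with | none => 0 | some a => a + 1

theorem cell_nil (p : ℕ) : cell [] p = 0 := by simp [cell]

theorem cell_cons_zero (a : ℕ) (l : List ℕ) : cell (a :: l) 0 = a + 1 := by simp [cell]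

theorem cell_cons_succ (a : ℕ) (l : List ℕ) (p : ℕ) : cell (a :: l) (p + 1) = cell l p := by
  simp [cell]

theorem cell_tail (l : List ℕ) (p : ℕ) : cell l.tail p = cell l (p + 1) := by
  cases l with
  | nil => simp [cell_nil]
  | cons a l => rw [cell_cons_succ]; rfl

theorem cell_some {l : List ℕ} {p a : ℕ} (h : l[p]? = some a) : cell l p = a + 1 := by
  simp [cell, h]

theorem cell_ge {l : List ℕ} {p : ℕ} (h : l.length ≤ p) : cell l p = 0 := by
  have : l[p]? = none := List.getElem?_eq_none h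
  simp [cell, this]

theorem cell_zero_iff {l : List ℕ} {p : ℕ} : cell l p = 0 ↔ l.length ≤ p := by
  constructor
  · intro h
    by_contra hlt
    push Not at hlt
    have : l[p]? = some l[p] := List.getElem?_eq_getElem hlt
    rw [cell_some this] at h
    omega
  · exact cell_ge

theorem cell_le {l : List ℕ} {g : ℕ} (h : ∀ a ∈ l, a < g) (p : ℕ) : cell l p ≤ g := by
  rcases Nat.lt_or_ge p l.length with hp | hp
  · have h1 : l[p]? = some l[p] := List.getElem?_eq_getElem hp
    rw [cell_some h1]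
    exact h _ (List.getElem_mem hp)
  · rw [cell_ge hp]; exact Nat.zero_le _

theorem scfg_succ {M : SMD} {x : List ℕ} {t : ℕ} {c : SCfg} {i : InsD}
    (h : scfg M x t = some c) (hi : M.1[c.q]? = some i) : scfg M x (t + 1) = stepI i c := by
  simp [scfg, h, sstep, hi]

theorem step_push {M : SMD} {x : List ℕ} {t : ℕ} {c : SCfg} {i : InsD}
    (h : scfg M x t = some c) (hi : M.1[c.q]? = some i) (h0 : i.1 = 0) :
    scfg M x (t + 1) =
      some ⟨i.2.2.2.getD 0 0, Function.update c.st i.2.1 (i.2.2.1 :: c.st i.2.1)⟩ := by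
  rw [scfg_succ h hi]
  unfold stepI
  rw [if_pos h0]

theorem step_pop {M : SMD} {x : List ℕ} {t : ℕ} {c : SCfg} {i : InsD}
    (h : scfg M x t = some c) (hi : M.1[c.q]? = some i) (h1 : i.1 = 1) :
    scfg M x (t + 1) = some ⟨i.2.2.2.getD (cell (c.st i.2.1) 0) 0,
      Function.update c.st i.2.1 (c.st i.2.1).tail⟩ := by
  rw [scfg_succ h hi]
  unfold stepI
  rw [if_neg (by omega), if_pos h1]
  cases hl : c.st i.2.1 with
  | nil =>
    simp only [cell_nil, List.tail_nil]
    congr 2
    rw [← hl, Function.update_eq_self]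
  | cons a l =>
    simp only [cell_cons_zero, List.tail_cons]

theorem step_halt {M : SMD} {x : List ℕ} {t : ℕ} {c : SCfg} {i : InsD}
    (h : scfg M x t = some c) (hi : M.1[c.q]? = some i) (h2 : 2 ≤ i.1) :
    scfg M x (t + 1) = none := by
  rw [scfg_succ h hi]
  unfold stepI
  rw [if_neg (by omega), if_neg (by omega)]

/-- if there is a next configuration, the instruction exists and is no halt -/
theorem step_some {M : SMD} {x : List ℕ} {t : ℕ} {c' : SCfg}
    (h : scfg M x (t + 1) = some c') :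
    ∃ c i, scfg M x t = some c ∧ M.1[c.q]? = some i ∧ (i.1 = 0 ∨ i.1 = 1) := by
  cases hc : scfg M x t with
  | none => simp [scfg, hc] at h
  | some c =>
    cases hi : M.1[c.q]? with
    | none => simp [scfg, hc, sstep, hi] at h
    | some i =>
      refine ⟨c, i, rfl, hi, ?_⟩
      by_contra hne
      have h2 : 2 ≤ i.1 := by omega
      rw [step_halt hc hi h2] at h
      cases h

/-- all symbols on the stacks are in range -/
theorem symb {M : SMD} (hM : SWF M) {x : List ℕ} (hx : ∀ a ∈ x, a < M.2.2) :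
    ∀ (t : ℕ) (c : SCfg), scfg M x t = some c → ∀ s, ∀ a ∈ c.st s, a < M.2.2
  | 0, c, h, s, a, ha => by
    simp only [scfg, Option.some.injEq] at h
    subst h
    simp only [sinit] at ha
    split_ifs at ha
    · exact hx a ha
    · simp at ha
  | t + 1, c', h, s, a, ha => by
    obtain ⟨c, i, hc, hi, h01⟩ := step_some h
    have ih := symb hM hx t c hc
    rcases h01 with h0 | h1
    · rw [step_push hc hi h0] at h
      simp only [Option.some.injEq] at h
      subst h
      simp only at ha
      by_cases hs : s = i.2.1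
      · subst hs
        rw [Function.update_self, List.mem_cons] at ha
        rcases ha with rfl | ha
        · exact ((hM.2.2 i (List.mem_of_getElem? hi)).1 h0).2
        · exact ih _ _ ha
      · rw [Function.update_of_ne hs] at ha
        exact ih _ _ ha
    · rw [step_pop hc hi h1] at h
      simp only [Option.some.injEq] at h
      subst h
      simp only at ha
      by_cases hs : s = i.2.1
      · subst hs
        rw [Function.update_self] at ha
        exact ih _ _ (List.mem_of_mem_tail ha)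
      · rw [Function.update_of_ne hs] at ha
        exact ih _ _ ha

/-! ### membership of rules -/

section mem
variable {M : SMD} {x : List ℕ} {A R : ℕ}

theorem base_mem {ρ : Rule (2 * R)} (h : ρ ∈ baseRules M A R) : ρ ∈ (msys M x A R).rules := by
  unfold msys
  simp only [List.mem_append]
  exact Or.inl (Or.inl h)

theorem ins_mem {q : ℕ} {i : InsD} (hi : M.1[q]? = some i) {ρ : Rule (2 * R)}
    (h : ρ ∈ insRules A R M.2.1 M.2.2 q i) : ρ ∈ (msys M x A R).rules := by
  apply base_mem
  unfold baseRules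
  simp only [List.mem_append, List.mem_flatMap]
  exact Or.inl (Or.inl ⟨(i, q), List.mk_mem_zipIdx_iff_getElem?.2 hi, h⟩)

theorem mem_pushQ {q : ℕ} {i : InsD} (hi : M.1[q]? = some i) (h0 : i.1 = 0) {it : ℕ}
    (hit : it < R) : mkR R (pQ (i.2.2.2.getD 0 0)) (pQ q) (pQ q) (dInc A it) dZero ∈
      (msys M x A R).rules := by
  apply ins_mem hi
  unfold insRules
  rw [if_pos h0, List.mem_append, List.mem_append, List.mem_append, List.mem_append]
  exact Or.inl (Or.inl (Or.inl (Or.inl (List.mem_map.2 ⟨it, List.mem_range.2 hit, rfl⟩))))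

theorem mem_pushC {q : ℕ} {i : InsD} (hi : M.1[q]? = some i) (h0 : i.1 = 0) {it ip γ : ℕ}
    (hit : it < R) (hip : ip < R) (hγ : γ ≤ M.2.2) :
    mkR R (pC M.2.2 i.2.1 γ) (pQ q) (pC M.2.2 i.2.1 γ) (dInc A it) (dInc A ip) ∈
      (msys M x A R).rules := by
  apply ins_mem hi
  unfold insRules
  rw [if_pos h0, List.mem_append, List.mem_append, List.mem_append, List.mem_append]
  exact Or.inl (Or.inl (Or.inl (Or.inr (List.mem_flatMap.2 ⟨γ, List.mem_range.2 (by omega),
    List.mem_flatMap.2 ⟨it, List.mem_range.2 hit, List.mem_map.2 ⟨ip, List.mem_range.2 hip, rfl⟩⟩⟩))))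

theorem mem_pushN {q : ℕ} {i : InsD} (hi : M.1[q]? = some i) (h0 : i.1 = 0) {it : ℕ}
    (hit : it < R) :
    mkR R (pC M.2.2 i.2.1 (i.2.2.1 + 1)) (pQ q) (pQ q) (dInc A it) dZero ∈
      (msys M x A R).rules := by
  apply ins_mem hi
  unfold insRules
  rw [if_pos h0, List.mem_append, List.mem_append, List.mem_append]
  exact Or.inl (Or.inl (Or.inr (List.mem_map.2 ⟨it, List.mem_range.2 hit, rfl⟩)))

theorem mem_popQ {q : ℕ} {i : InsD} (hi : M.1[q]? = some i) (h1 : i.1 = 1) {it γ : ℕ}
    (hit : it < R) (hγ : γ ≤ M.2.2) :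
    mkR R (pQ (i.2.2.2.getD γ 0)) (pQ q) (pC M.2.2 i.2.1 γ) (dInc A it) dZero ∈
      (msys M x A R).rules := by
  apply ins_mem hi
  unfold insRules
  rw [if_neg (by omega), if_pos h1, List.mem_append, List.mem_append, List.mem_append]
  exact Or.inl (Or.inl (Or.inl (List.mem_flatMap.2 ⟨γ, List.mem_range.2 (by omega),
    List.mem_map.2 ⟨it, List.mem_range.2 hit, rfl⟩⟩)))

theorem mem_popC {q : ℕ} {i : InsD} (hi : M.1[q]? = some i) (h1 : i.1 = 1) {it ip γ : ℕ}
    (hit : it < R) (hip : ip < R) (hγ : γ ≤ M.2.2) :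
    mkR R (pC M.2.2 i.2.1 γ) (pQ q) (pC M.2.2 i.2.1 γ) (dInc A it) (dPop A ip) ∈
      (msys M x A R).rules := by
  apply ins_mem hi
  unfold insRules
  rw [if_neg (by omega), if_pos h1, List.mem_append, List.mem_append, List.mem_append]
  exact Or.inl (Or.inl (Or.inr (List.mem_flatMap.2 ⟨γ, List.mem_range.2 (by omega),
    List.mem_flatMap.2 ⟨it, List.mem_range.2 hit, List.mem_map.2 ⟨ip, List.mem_range.2 hip, rfl⟩⟩⟩)))

theorem mem_halt {q : ℕ} {i : InsD} (hi : M.1[q]? = some i) (h2 : 2 ≤ i.1) (h1 : i.2.1 = 1) :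
    mkR R pAcc (pQ q) (pQ q) (dSame A) dZero ∈ (msys M x A R).rules := by
  apply ins_mem hi
  unfold insRules
  rw [if_neg (by omega), if_neg (by omega), if_pos h1, List.mem_append, List.mem_append]
  exact Or.inl (Or.inl (List.mem_singleton.2 rfl))

theorem mem_other {q : ℕ} {i : InsD} (hi : M.1[q]? = some i) (h01 : i.1 = 0 ∨ i.1 = 1)
    {s it γ : ℕ} (hs : s < M.2.1) (hne : s ≠ i.2.1) (hit : it < R) (hγ : γ ≤ M.2.2) :
    mkR R (pC M.2.2 s γ) (pQ q) (pC M.2.2 s γ) (dInc A it) (dSame A) ∈ (msys M x A R).rules := by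
  apply ins_mem hi
  unfold insRules
  rw [if_pos h01, List.mem_append, List.mem_append]
  refine Or.inl (Or.inr (List.mem_flatMap.2 ⟨s, List.mem_range.2 hs, ?_⟩))
  rw [if_neg hne]
  exact List.mem_flatMap.2 ⟨γ, List.mem_range.2 (by omega),
    List.mem_map.2 ⟨it, List.mem_range.2 hit, rfl⟩⟩

theorem mem_bcast {q : ℕ} {i : InsD} (hi : M.1[q]? = some i) {ip : ℕ} (hip : ip < R) :
    mkR R (pQ q) (pQ q) (pQ q) (dSame A) (dInc A ip) ∈ (msys M x A R).rules := by
  apply ins_mem hi
  unfold insRules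
  rw [List.mem_append]
  exact Or.inr (List.mem_map.2 ⟨ip, List.mem_range.2 hip, rfl⟩)

theorem mem_init {s ip : ℕ} (hs : s < M.2.1) (hip : ip < R) :
    mkR R (pC M.2.2 s 0) (pC M.2.2 s 0) (pC M.2.2 s 0) dZero (dInc A ip) ∈
      (msys M x A R).rules := by
  apply base_mem
  unfold baseRules
  rw [List.mem_append, List.mem_append]
  exact Or.inl (Or.inr (List.mem_flatMap.2 ⟨s, List.mem_range.2 hs,
    List.mem_map.2 ⟨ip, List.mem_range.2 hip, rfl⟩⟩))

theorem mem_goal : mkR R pGoal pAcc pAcc dZero dZero ∈ (msys M x A R).rules := by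
  apply base_mem
  unfold baseRules
  rw [List.mem_append]
  exact Or.inr (List.mem_singleton.2 rfl)

end mem

end Crest.Agent.R290.E1
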