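import Crest.Agent.R290.EqDef
import Crest.Agent.R290.Defs

/-!
Row 290, MODULE E, file ESmd (helper57): abstract stack machines over arbitrary types and their
compilation to `SMD` when they have a finite support.
-/
set_option autoImplicit false

namespace Crest.Agent.R290

/-- abstract instructions -/
inductive AI (Q S G : Type) : Type
  | push (s : S) (g : G) (q : Q)
  | pop (s : S) (f : Option G → Q)
  | halt (b : Bool)

section
variable {Q S G : Type} [DecidableEq S]

/-- one step of the abstract machine -/
def astep (P : Q → AI Q S G) (a : Q × (S → List G)) : Option (Q × (S → List G)) :=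
  match P a.1 with
  | .push s g q => some (q, Function.update a.2 s (g :: a.2 s))
  | .pop s f =>
    match a.2 s with
    | [] => some (f none, a.2)
    | g :: l => some (f (some g), Function.update a.2 s l)
  | .halt _ => none

/-- `t` steps -/
def arun (P : Q → AI Q S G) (a : Q × (S → List G)) : ℕ → Option (Q × (S → List G))
  | 0 => some a
  | t + 1 => (arun P a t).bind (astep P)

theorem arun_add (P : Q → AI Q S G) (a : Q × (S → List G)) (i : ℕ) : ∀ j,
    arun P a (i + j) = (arun P a i).bind fun b => arun P b j
  | 0 => by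
    cases h : arun P a i <;> simp [arun]
  | j + 1 => by
    change (arun P a (i + j)).bind (astep P) = _
    rw [arun_add P a i j, Option.bind_assoc]
    rfl

/-- reachable within `n` steps -/
def Rch (P : Q → AI Q S G) (n : ℕ) (a b : Q × (S → List G)) : Prop :=
  ∃ j ≤ n, arun P a j = some b

theorem Rch.refl (P : Q → AI Q S G) (n : ℕ) (a : Q × (S → List G)) : Rch P n a a :=
  ⟨0, Nat.zero_le _, rfl⟩

theorem Rch.trans {P : Q → AI Q S G} {n m : ℕ} {a b c : Q × (S → List G)} (h : Rch P n a b)
    (h' : Rch P m b c) : Rch P (n + m) a c := by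
  obtain ⟨i, hi, h⟩ := h
  obtain ⟨j, hj, h'⟩ := h'
  exact ⟨i + j, by omega, by rw [arun_add, h]; exact h'⟩

theorem Rch.mono {P : Q → AI Q S G} {n m : ℕ} {a b : Q × (S → List G)} (h : Rch P n a b)
    (hnm : n ≤ m) : Rch P m a b := by
  obtain ⟨i, hi, h⟩ := h
  exact ⟨i, by omega, h⟩

theorem Rch.step {P : Q → AI Q S G} {a b : Q × (S → List G)} (h : astep P a = some b) :
    Rch P 1 a b := ⟨1, le_refl _, by simpa [arun] using h⟩

end

section
variable {Q S G : Type} [DecidableEq Q] [DecidableEq S] [DecidableEq G]

/-- finite support -/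
structure Supp (P : Q → AI Q S G) (LQ : List Q) (LS : List S) (LG : List G) : Prop where
  push : ∀ q ∈ LQ, ∀ s g q', P q = .push s g q' → s ∈ LS ∧ g ∈ LG ∧ q' ∈ LQ
  pop : ∀ q ∈ LQ, ∀ s f, P q = .pop s f → s ∈ LS ∧ f none ∈ LQ ∧ ∀ g ∈ LG, f (some g) ∈ LQ

/-- compiled instruction -/
def encI (LQ : List Q) (LS : List S) (LG : List G) : AI Q S G → InsD
  | .push s g q => (0, LS.idxOf s, LG.idxOf g, [LQ.idxOf q])
  | .pop s f => (1, LS.idxOf s, 0, LQ.idxOf (f none) :: LG.map fun g => LQ.idxOf (f (some g)))
  | .halt b => (2, if b then 1 else 0, 0, [])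

/-- compiled machine -/
def toSMD (P : Q → AI Q S G) (LQ : List Q) (LS : List S) (LG : List G) : SMD :=
  (LQ.map fun q => encI LQ LS LG (P q), LS.length, LG.length)

theorem toSMD_wf {P : Q → AI Q S G} {LQ : List Q} {LS : List S} {LG : List G}
    (h : Supp P LQ LS LG) (hS : 1 ≤ LS.length) (hG : 2 ≤ LG.length) : SWF (toSMD P LQ LS LG) := by
  refine ⟨hS, hG, ?_⟩
  intro i hi
  obtain ⟨q, hq, rfl⟩ := List.mem_map.1 hi
  cases hP : P q with
  | push s g q' =>
    obtain ⟨h1, h2, h3⟩ := h.push q hq s g q' hP
    exact ⟨fun _ => ⟨List.idxOf_lt_length_of_mem h1, List.idxOf_lt_length_of_mem h2⟩,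
      fun h' => by simp [encI] at h'⟩
  | pop s f =>
    obtain ⟨h1, h2, h3⟩ := h.pop q hq s f hP
    exact ⟨fun h' => by simp [encI] at h', fun _ => List.idxOf_lt_length_of_mem h1⟩
  | halt b =>
    exact ⟨fun h' => by simp [encI] at h', fun h' => by simp [encI] at h'⟩

/-- simulation relation -/
structure SRel (LQ : List Q) (LS : List S) (LG : List G) (a : Q × (S → List G)) (c : SCfg) :
    Prop where
  q : c.q = LQ.idxOf a.1
  mem : a.1 ∈ LQ
  st : ∀ s ∈ LS, c.st (LS.idxOf s) = (a.2 s).map fun g => LG.idxOf g
  sym : ∀ s, ∀ g ∈ a.2 s, g ∈ LG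

theorem SRel.ins {P : Q → AI Q S G} {LQ : List Q} {LS : List S} {LG : List G}
    {a : Q × (S → List G)} {c : SCfg} (h : SRel LQ LS LG a c) :
    (toSMD P LQ LS LG).1[c.q]? = some (encI LQ LS LG (P a.1)) := by
  unfold toSMD
  simp only [List.getElem?_map, h.q]
  have h1 : LQ[List.idxOf a.1 LQ]? = some a.1 := by
    rw [List.getElem?_eq_getElem (List.idxOf_lt_length_of_mem h.mem)]
    simp
  rw [h1]; rfl

theorem SRel.step {P : Q → AI Q S G} {LQ : List Q} {LS : List S} {LG : List G}
    (hP : Supp P LQ LS LG) {a a' : Q × (S → List G)} {c : SCfg} (h : SRel LQ LS LG a c)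
    (ha : astep P a = some a') : ∃ c', sstep (toSMD P LQ LS LG) c = some c' ∧ SRel LQ LS LG a' c' := by
  unfold sstep
  rw [h.ins]
  obtain ⟨q, st⟩ := a
  unfold astep at ha
  cases hq : P q with
  | push s g q' =>
    obtain ⟨h1, h2, h3⟩ := hP.push q h.mem s g q' hq
    simp only [hq, Option.some.injEq] at ha
    subst ha
    refine ⟨_, rfl, ?_⟩
    refine ⟨rfl, h3, ?_, ?_⟩
    · intro s' hs'
      by_cases hss : s' = s
      · subst hss
        simp [encI, h.st s' hs']
      · have : LS.idxOf s' ≠ LS.idxOf s := fun e => hss ((List.idxOf_inj hs').1 e)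
        simp only [encI, Function.update_of_ne this, Function.update_of_ne hss]
        exact h.st s' hs'
    · intro s' g' hg'
      by_cases hss : s' = s
      · subst hss
        simp only [Function.update_self, List.mem_cons] at hg'
        rcases hg' with rfl | hg'
        · exact h2
        · exact h.sym s' g' hg'
      · simp only [Function.update_of_ne hss] at hg'
        exact h.sym s' g' hg'
  | pop s f =>
    obtain ⟨h1, h2, h3⟩ := hP.pop q h.mem s f hq
    simp only [hq] at ha
    have h4 := h.st s h1
    cases hs : st s with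
    | nil =>
      simp only [hs, Option.some.injEq] at ha
      subst ha
      simp only [hs, List.map_nil] at h4
      refine ⟨⟨LQ.idxOf (f none), c.st⟩, ?_, rfl, h2, h.st, h.sym⟩
      simp [stepI, encI, h4]
    | cons g l =>
      simp only [hs, Option.some.injEq] at ha
      subst ha
      simp only [hs, List.map_cons] at h4
      have hg : g ∈ LG := h.sym s g (by simp [hs])
      refine ⟨⟨LQ.idxOf (f (some g)), Function.update c.st (LS.idxOf s) (l.map fun g => LG.idxOf g)⟩,
        ?_, rfl, h3 g hg, ?_, ?_⟩
      · simp only [stepI, encI, h4]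
        simp only [one_ne_zero, if_false, if_true, Option.some.injEq, SCfg.mk.injEq, and_true]
        rw [List.getD_cons_succ, List.getD_eq_getElem?_getD, List.getElem?_map,
          List.getElem?_eq_getElem (List.idxOf_lt_length_of_mem hg)]
        simp
      · intro s' hs'
        by_cases hss : s' = s
        · subst hss
          simp
        · have : LS.idxOf s' ≠ LS.idxOf s := fun e => hss ((List.idxOf_inj hs').1 e)
          simp only [Function.update_of_ne this, Function.update_of_ne hss]
          exact h.st s' hs'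
      · intro s' g' hg'
        by_cases hss : s' = s
        · subst hss
          simp only [Function.update_self] at hg'
          exact h.sym s' g' (by simp [hs, hg'])
        · simp only [Function.update_of_ne hss] at hg'
          exact h.sym s' g' hg'
  | halt b =>
    simp [hq] at ha

theorem SRel.run {P : Q → AI Q S G} {LQ : List Q} {LS : List S} {LG : List G}
    (hP : Supp P LQ LS LG) {a : Q × (S → List G)} {x : List ℕ} (h : SRel LQ LS LG a (sinit x)) :
    ∀ (t : ℕ) (b : Q × (S → List G)), arun P a t = some b →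
      ∃ c, scfg (toSMD P LQ LS LG) x t = some c ∧ SRel LQ LS LG b c
  | 0, b, hb => by
    simp only [arun, Option.some.injEq] at hb
    subst hb
    exact ⟨_, rfl, h⟩
  | t + 1, b, hb => by
    unfold arun at hb
    obtain ⟨b', hb', hb⟩ := Option.bind_eq_some_iff.1 hb
    obtain ⟨c, hc, h1⟩ := SRel.run hP h t b' hb'
    obtain ⟨c', hc', h2⟩ := h1.step hP hb
    exact ⟨c', by unfold scfg; rw [hc]; exact hc', h2⟩

theorem toSMD_halts {P : Q → AI Q S G} {LQ : List Q} {LS : List S} {LG : List G}
    (hP : Supp P LQ LS LG) {a : Q × (S → List G)} {x : List ℕ} (h : SRel LQ LS LG a (sinit x))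
    {T : ℕ} {c : Q × (S → List G)} (hc : Rch P T a c) {b : Bool} (hb : P c.1 = .halt b) :
    SHalts (toSMD P LQ LS LG) x T b := by
  obtain ⟨t, ht, hc⟩ := hc
  obtain ⟨c', hc', h1⟩ := h.run hP t c hc
  refine ⟨t, ht, c', _, hc', h1.ins, ?_, ?_⟩
  · rw [hb]; simp [encI]
  · rw [hb]; cases b <;> simp [encI]

/-- initial configuration -/
theorem SRel.init {LQ : List Q} {LS : List S} {LG : List G} {q0 : Q} {s0 : S} (hq : LQ.head? = some q0)
    (hs : LS.head? = some s0) {w : List G} (hw : ∀ g ∈ w, g ∈ LG) {x : List ℕ}
    (hx : w.map (fun g => LG.idxOf g) = x) :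
    SRel LQ LS LG (q0, fun s => if s = s0 then w else []) (sinit x) := by
  cases LQ with
  | nil => simp at hq
  | cons q LQ =>
    cases LS with
    | nil => simp at hs
    | cons s LS =>
      simp only [List.head?_cons, Option.some.injEq] at hq hs
      subst hq hs
      refine ⟨by simp [sinit], by simp, ?_, ?_⟩
      · intro s' hs'
        by_cases h : s' = s
        · subst h
          simp [sinit, hx]
        · have : (s :: LS).idxOf s' ≠ 0 := by
            intro e
            rw [List.idxOf_cons_ne _ (Ne.symm h)] at e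
            omega
          simp [sinit, this, h]
      · intro s' g hg
        by_cases h : s' = s
        · subst h
          simp only [if_true] at hg
          exact hw g hg
        · simp [h] at hg

end

end Crest.Agent.R290
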