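import Crest.Agent.R290.D1Defs

/-!
Row 290, module D1: equation lemmas realised in one place.
-/

namespace Crest.Agent.R290.EqDef

theorem iv_1 : type_of% @itemV.eq_1 := @itemV.eq_1

theorem iv_2 : type_of% @itemV.eq_2 := @itemV.eq_2

theorem iv_3 : type_of% @itemV.eq_3 := @itemV.eq_3

theorem iv_4 : type_of% @itemV.eq_4 := @itemV.eq_4

theorem iv_5 : type_of% @itemV.eq_5 := @itemV.eq_5

end Crest.Agent.R290.EqDef
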