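import Crest.Agent.R290.Defs

/-!
Row 290: equation lemmas realised in one place, so that the modules which unfold these
definitions share them (`jcolor`'s come from `Defs`).
-/

namespace Crest.Agent.R290.EqDef

theorem cr_def : type_of% @Crest.WLRefine.crcolor.eq_def := @Crest.WLRefine.crcolor.eq_def

theorem cr_1 : type_of% @Crest.WLRefine.crcolor.eq_1 := @Crest.WLRefine.crcolor.eq_1

theorem cr_2 : type_of% @Crest.WLRefine.crcolor.eq_2 := @Crest.WLRefine.crcolor.eq_2

theorem j_def : type_of% @Crest.WLRefine.jcolor.eq_def := @Crest.WLRefine.jcolor.eq_def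

theorem s_def : type_of% @Crest.WLRefine.scolor.eq_def := @Crest.WLRefine.scolor.eq_def

theorem sc_def : type_of% @scfg.eq_def := @scfg.eq_def

theorem sc_1 : type_of% @scfg.eq_1 := @scfg.eq_1

theorem sc_2 : type_of% @scfg.eq_2 := @scfg.eq_2

theorem d_1 : type_of% @dadj.eq_1 := @dadj.eq_1

theorem d_2 : type_of% @dadj.eq_2 := @dadj.eq_2

theorem d_13 : type_of% @dadj.eq_13 := @dadj.eq_13

end Crest.Agent.R290.EqDef
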