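import Crest.Agent.R290.MSys

/-!
Row 290, module F (helper63), part 6: the size of the constraint system of a machine.
-/
set_option autoImplicit false

namespace Crest.Agent.R290

theorem length_flatMap_le {β γ : Type} (l : List β) (f : β → List γ) (b : ℕ)
    (h : ∀ a ∈ l, (f a).length ≤ b) : (l.flatMap f).length ≤ l.length * b := by
  induction l with
  | nil => simp
  | cons a l ih =>
    rw [List.flatMap_cons, List.length_append, List.length_cons]
    have h1 := h a (by simp)
    have h2 := ih fun a' ha' => h a' (by simp [ha'])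
    nlinarith

theorem length_slabNodes_le (r m σ s : ℕ) (T : ℕ → ℕ) (hk : ℕ → ℕ → Key) (b : ℕ)
    (h : ∀ i, T i ≤ b) : (slabNodes r m σ s T hk).length ≤ m * (b * m) := by
  unfold slabNodes
  refine (length_flatMap_le _ _ (b * m) fun i _ => ?_).trans (by rw [List.length_range])
  refine (length_flatMap_le _ _ m fun t _ => ?_).trans ?_
  · simp
  · rw [List.length_range]
    exact Nat.mul_le_mul_right _ (h i)

theorem length_ruleNodes_le {r : ℕ} (m a : ℕ) (ρ : Rule r) (b : ℕ) (h : ∀ i, ρ.num i ≤ b) :
    (ruleNodes m a ρ).length ≤ 9 * (m * (b * m)) + m * (b * 3) := by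
  unfold ruleNodes
  rw [List.length_append]
  refine Nat.add_le_add ?_ ?_
  · refine (length_flatMap_le _ _ (m * (b * m)) fun s _ => ?_).trans (by rw [List.length_range])
    exact length_slabNodes_le _ _ _ _ _ _ _ h
  · refine (length_flatMap_le _ _ (b * 3) fun i _ => ?_).trans (by rw [List.length_range])
    refine (length_flatMap_le _ _ 3 fun t _ => ?_).trans ?_
    · simp
    · rw [List.length_range]
      exact Nat.mul_le_mul_right _ (h i)

theorem length_rxs_le {r : ℕ} (R : RSys r) (m b : ℕ) (h : ∀ ρ ∈ R.rules, ∀ i, ρ.num i ≤ b) :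
    (rxs R m).length ≤ R.rules.length * (9 * (m * (b * m)) + m * (b * 3)) +
      (R.ax.length + 1) * (m * (1 * m)) := by
  unfold rxs
  rw [List.length_append]
  refine Nat.add_le_add ?_ ?_
  · refine (length_flatMap_le _ _ (9 * (m * (b * m)) + m * (b * 3)) fun a ha => ?_).trans
      (by rw [List.length_zipIdx])
    refine length_ruleNodes_le _ _ _ _ (h a.1 ?_)
    exact (List.mem_zipIdx' ha).2 ▸ List.getElem_mem _
  · refine (length_flatMap_le _ _ (m * (1 * m)) fun a _ => ?_).trans (by simp)
    unfold factNodes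
    exact length_slabNodes_le _ _ _ _ _ _ _ fun _ => le_rfl

theorem length_rtk {r : ℕ} (R : RSys r) (m : ℕ) : (rtk R m).length = (R.ax.length + 1) * m := by
  unfold rtk
  simp [List.length_flatMap]

/-! ### digits -/

theorem length_incD_le (A i J : ℕ) : (incD A i J).length ≤ A + 1 := by
  unfold incD
  split_ifs <;> simp
  omega

theorem num_mkR (R e0 e1 e2 : ℕ) (tr pr : ℕ → List (ℕ × ℕ × ℕ)) (b : ℕ) (hb : 1 ≤ b)
    (ht : ∀ J, (tr J).length ≤ b) (hp : ∀ J, (pr J).length ≤ b) (i : ℕ) :
    (mkR R e0 e1 e2 tr pr).num i ≤ b := by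
  unfold Rule.num
  split_ifs with h
  · show (ite _ _ _ : List _).length ≤ _
    split_ifs
    · exact ht _
    · exact hp _
  · exact hb

theorem dSame_le (A J : ℕ) : (dSame A J).length ≤ A + 1 := by simp [dSame]
theorem dZero_le (A J : ℕ) : (dZero J).length ≤ A + 1 := by simp [dZero]
theorem dInc_le (A i J : ℕ) : (dInc A i J).length ≤ A + 1 := by
  simpa [dInc] using length_incD_le A i J
theorem dPop_le (A i J : ℕ) : (dPop A i J).length ≤ A + 1 := by
  simpa [dPop] using length_incD_le A i J

theorem num_insRules (A R S g q : ℕ) (i : InsD) : ∀ ρ ∈ insRules A R S g q i, ∀ j,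
    ρ.num j ≤ A + 1 := by
  intro ρ hρ j
  unfold insRules at hρ
  simp only [List.mem_append] at hρ
  rcases hρ with (hρ | hρ) | hρ
  · split_ifs at hρ
    · simp only [List.mem_append, List.mem_map, List.mem_flatMap] at hρ
      rcases hρ with (⟨it, _, rfl⟩ | ⟨γ, _, it, _, ip, _, rfl⟩) | ⟨it, _, rfl⟩
      · exact num_mkR _ _ _ _ _ _ _ (by omega) (dInc_le _ _) (dZero_le _) _
      · exact num_mkR _ _ _ _ _ _ _ (by omega) (dInc_le _ _) (dInc_le _ _) _
      · exact num_mkR _ _ _ _ _ _ _ (by omega) (dInc_le _ _) (dZero_le _) _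
    · simp only [List.mem_append, List.mem_map, List.mem_flatMap] at hρ
      rcases hρ with ⟨γ, _, it, _, rfl⟩ | ⟨γ, _, it, _, ip, _, rfl⟩
      · exact num_mkR _ _ _ _ _ _ _ (by omega) (dInc_le _ _) (dZero_le _) _
      · exact num_mkR _ _ _ _ _ _ _ (by omega) (dInc_le _ _) (dPop_le _ _) _
    · rw [List.mem_singleton] at hρ
      subst hρ
      exact num_mkR _ _ _ _ _ _ _ (by omega) (dSame_le _) (dZero_le _) _
    · simp at hρ
  · split_ifs at hρ
    · simp only [List.mem_flatMap] at hρ
      obtain ⟨s, _, hρ⟩ := hρ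
      split_ifs at hρ
      · simp at hρ
      · simp only [List.mem_flatMap, List.mem_map] at hρ
        obtain ⟨γ, _, it, _, rfl⟩ := hρ
        exact num_mkR _ _ _ _ _ _ _ (by omega) (dInc_le _ _) (dSame_le _) _
    · simp at hρ
  · simp only [List.mem_map] at hρ
    obtain ⟨ip, _, rfl⟩ := hρ
    exact num_mkR _ _ _ _ _ _ _ (by omega) (dSame_le _) (dInc_le _ _) _

theorem num_msys (M : SMD) (x : List ℕ) (A R : ℕ) : ∀ ρ ∈ (msys M x A R).rules, ∀ j,
    ρ.num j ≤ A + 1 := by
  intro ρ hρ j
  simp only [msys, baseRules, List.mem_append] at hρ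
  rcases hρ with (((hρ | hρ) | hρ) | hρ) | hρ
  · simp only [List.mem_flatMap] at hρ
    obtain ⟨a, _, hρ⟩ := hρ
    exact num_insRules _ _ _ _ _ _ ρ hρ j
  · simp only [List.mem_flatMap, List.mem_map] at hρ
    obtain ⟨s, _, ip, _, rfl⟩ := hρ
    exact num_mkR _ _ _ _ _ _ _ (by omega) (dZero_le _) (dInc_le _ _) _
  · rw [List.mem_singleton] at hρ
    subst hρ
    exact num_mkR _ _ _ _ _ _ _ (by omega) (dZero_le _) (dZero_le _) _
  · simp only [floodAcc, List.mem_flatMap, List.mem_cons, List.not_mem_nil, or_false] at hρ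
    obtain ⟨J, _, rfl | rfl⟩ := hρ
    · unfold Rule.num
      split_ifs with h
      · show (ite _ _ _ : List _).length ≤ _
        split_ifs
        · simp; omega
        · exact dSame_le _ _
      · omega
    · unfold Rule.num
      split_ifs with h
      · show (ite _ _ _ : List _).length ≤ _
        split_ifs
        · simp; omega
        · exact dSame_le _ _
      · omega
  · simp only [List.mem_map] at hρ
    obtain ⟨e, _, rfl⟩ := hρ
    exact num_mkR _ _ _ _ _ _ _ (by omega) (dSame_le _) (dSame_le _) _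

/-! ### the number of rules -/

theorem length_insRules (A A' R S g q : ℕ) (i : InsD) :
    (insRules A R S g q i).length = (insRules A' R S g q i).length := by
  unfold insRules
  simp only [List.length_append, apply_ite List.length, List.length_flatMap, List.length_map,
    List.length_cons, List.length_nil, List.length_range]

theorem length_baseRules (M : SMD) (A A' R : ℕ) :
    (baseRules M A R).length = (baseRules M A' R).length := by
  unfold baseRules
  simp only [List.length_append, List.length_flatMap, List.length_map, List.length_cons,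
    List.length_nil, List.length_range, length_insRules A A']

theorem length_baseAx (M : SMD) (x : List ℕ) (A R : ℕ) :
    (baseAx M x A R).length = x.length + (M.2.1 - 1) + 2 := by
  unfold baseAx
  simp
  omega

theorem length_rules (M : SMD) (x : List ℕ) (A R : ℕ) : (msys M x A R).rules.length =
    4 * (baseRules M 0 R).length + 4 * R + x.length + (M.2.1 - 1) + 3 := by
  have h : (basePreds M x A R).length =
      1 + (x.length + (M.2.1 - 1) + 2 + 3 * (baseRules M 0 R).length) := by
    unfold basePreds
    rw [List.length_cons, List.length_append, List.length_map, length_baseAx, List.length_flatMap,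
      length_baseRules M 0 A]
    simp
    ring
  simp only [msys, List.length_append, List.length_map, h, length_baseRules M A 0, floodAcc,
    List.length_flatMap, List.length_cons, List.length_nil]
  simp
  ring

theorem size_msys (M : SMD) (R m : ℕ) : ∃ C : ℕ, ∀ (x : List ℕ) (A : ℕ),
    3 + 10 * (3 * (rxs (msys M x A R) m).length + (rts0 (msys M x A R) m).length) +
      10 * (rxs (msys M x A R) m).length + 2 * (rts0 (msys M x A R) m).length ≤
      C * (A + x.length + 1) ^ 2 := by
  have h0 : ∃ K : ℕ, 4 * (baseRules M 0 R).length + 4 * R + (M.2.1 - 1) + 3 = K := ⟨_, rfl⟩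
  obtain ⟨K, hK⟩ := h0
  refine ⟨3 + 40 * ((K + 1) * (12 * (m * m) + m * 3) + (K + 1) * (m * m)) + 12 * ((K + 1) * m), ?_⟩
  intro x A
  have h1 := length_rxs_le (msys M x A R) m (A + 1) (num_msys M x A R)
  have h2 : (rts0 (msys M x A R) m).length = ((baseAx M x A R).length + 1) * m := by
    unfold rts0
    rw [List.length_map, length_rtk]
    rfl
  have h3 := length_rules M x A R
  have h4 : (msys M x A R).ax.length = x.length + (M.2.1 - 1) + 2 := length_baseAx M x A R
  rw [length_baseAx] at h2
  obtain ⟨n, hn⟩ : ∃ n, n = A + x.length + 1 := ⟨_, rfl⟩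
  have hx : x.length + 1 ≤ n := by omega
  have hA : A + 1 ≤ n := by omega
  have hn1 : 1 ≤ n := by omega
  have h5 : (msys M x A R).rules.length ≤ (K + 1) * n := by
    rw [h3]
    nlinarith
  have h6 : (msys M x A R).ax.length + 1 ≤ (K + 1) * n := by
    rw [h4]
    nlinarith
  have h7 : (rts0 (msys M x A R) m).length ≤ (K + 1) * n * m := by
    rw [h2]
    refine Nat.mul_le_mul_right _ ?_
    rw [h4] at h6
    exact h6
  have h8 : (rxs (msys M x A R) m).length ≤
      ((K + 1) * (12 * (m * m) + m * 3) + (K + 1) * (m * m)) * n ^ 2 := by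
    refine h1.trans ?_
    have h9 : 9 * (m * ((A + 1) * m)) + m * ((A + 1) * 3) ≤ (12 * (m * m) + m * 3) * n := by
      have : 9 * (m * ((A + 1) * m)) + m * ((A + 1) * 3) = (9 * (m * m) + m * 3) * (A + 1) := by ring
      rw [this]
      exact Nat.mul_le_mul (by nlinarith [Nat.zero_le (m * m)]) hA
    have h10 : (msys M x A R).rules.length * (9 * (m * ((A + 1) * m)) + m * ((A + 1) * 3)) ≤
        ((K + 1) * n) * ((12 * (m * m) + m * 3) * n) := Nat.mul_le_mul h5 h9
    have h11 : ((msys M x A R).ax.length + 1) * (m * (1 * m)) ≤ ((K + 1) * n) * (m * m) := by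
      rw [one_mul]
      exact Nat.mul_le_mul_right _ h6
    have h12 : ((K + 1) * n) * (m * m) ≤ ((K + 1) * n) * (m * m) * n :=
      Nat.le_mul_of_pos_right _ hn1
    calc _ ≤ ((K + 1) * n) * ((12 * (m * m) + m * 3) * n) + ((K + 1) * n) * (m * m) * n := by
          omega
      _ = _ := by ring
  have h13 : (K + 1) * n * m ≤ (K + 1) * m * n ^ 2 := by
    have : (K + 1) * n * m ≤ (K + 1) * n * m * n := Nat.le_mul_of_pos_right _ hn1
    calc _ ≤ _ := this
      _ = _ := by ring
  have h14 : 1 ≤ n ^ 2 := Nat.one_le_pow _ _ hn1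
  rw [← hn]
  calc _ ≤ 3 * n ^ 2 + 40 * (((K + 1) * (12 * (m * m) + m * 3) + (K + 1) * (m * m)) * n ^ 2) +
        12 * ((K + 1) * m * n ^ 2) := by omega
    _ = _ := by ring

end Crest.Agent.R290
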