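import Crest.Agent.R290.FMsysPT
import Crest.Agent.R290.FSize

/-!
Row 290, MODULE F (the generator), helper63.
Everything is a `PT` function of the parameters `GP` (toolkit Crest/Agent/Lib/PolyTime/Api.lean).
The numbers of stacks and symbols of the machine are given in unary (`SMU`).
-/
set_option autoImplicit false

namespace Crest.Agent.R290

open Crest.WLRefine Crest.Agent.PolyT

/-! ### vertex lists -/

/-- the vertices in a fixed order -/
abbrev vlist (X T : ℕ) : List (GV X T) := gvList X T

theorem vlist_nodup (X T : ℕ) : (vlist X T).Nodup := nodup_gvList X T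

theorem mem_vlist {X T : ℕ} (v : GV X T) : v ∈ vlist X T := mem_gvList v

theorem length_vlist (X T : ℕ) :
    (vlist X T).length = 3 + 10 * (3 * X + T) + 10 * X + 2 * T := length_gvList X T

/-- vertices of the apex graph -/
def plist {V : Type} (p : ℕ) (L : List V) : List (V ⊕ Fin (p + 1)) :=
  L.map Sum.inl ++ (List.finRange (p + 1)).map Sum.inr

theorem plist_nodup {V : Type} (p : ℕ) {L : List V} (h : L.Nodup) : (plist p L).Nodup := by
  unfold plist
  rw [List.nodup_append]
  refine ⟨h.map Sum.inl_injective, (List.nodup_finRange _).map Sum.inr_injective, ?_⟩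
  simp

theorem mem_plist {V : Type} (p : ℕ) {L : List V} (h : ∀ v, v ∈ L) (v) : v ∈ plist p L := by
  cases v with
  | inl v => simp [plist, h]
  | inr j => simp [plist]

theorem length_plist {V : Type} (p : ℕ) (L : List V) : (plist p L).length = L.length + p + 1 := by
  simp [plist, add_assoc]

/-! ### parameters -/

/-- machine descriptions with unary numbers of stacks and symbols -/
abbrev SMU : Type := List InsD × Un × Un

def unSMD (M : SMU) : SMD := (M.1, M.2.1.val, M.2.2.val)

def mkSMU (M : SMD) : SMU := (M.1, ⟨M.2.1⟩, ⟨M.2.2⟩)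

@[simp] theorem unSMD_mkSMU (M : SMD) : unSMD (mkSMU M) = M := rfl

/-- parameters: machine `M`, input `x`, base `A`, `R`, `δ` (the number of digits is `4 R + δ`) -/
abbrev GP : Type := SMU × List ℕ × Un × Un × Un

def gR (p : GP) : ℕ := p.2.2.2.1.val
def gsys (p : GP) : RSys (2 * gR p) := msys (unSMD p.1) p.2.1 p.2.2.1.val (gR p)
def gm (p : GP) : ℕ := 4 * gR p + p.2.2.2.2.val

/-- the two graphs -/
def gphG (p : GP) := adjG (gsys p) (gm p)
def gphH (p : GP) := adjH (gsys p) (gm p)

/-- lists of their vertices -/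
def vlG (p : GP) := vlist (rxs (gsys p) (gm p)).length (rts0 (gsys p) (gm p)).length
def vlH (p : GP) := vlist (rxs (gsys p) (gm p)).length (rts1 (gsys p) (gm p)).length

theorem length_vlG (p : GP) : (vlG p).length = (vlH p).length := by
  unfold vlG vlH
  rw [length_vlist, length_vlist]
  simp only [rts0, rts1, List.length_map]

def codeG (p : GP) : List Bool := adjMatrixCode (matOf (vlG p) (gphG p))
def codeH (p : GP) : List Bool := adjMatrixCode (matOf (vlH p) (gphH p))

theorem pt_gR : PT gR := by
  unfold gR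
  fun_prop

theorem pb_gR : PB gR := PB.unVal (by fun_prop)

theorem pt_gm : PT gm := by
  have := pt_gR
  unfold gm
  fun_prop

theorem pb_gm : PB gm := PB.add (PB.mul (PB.const 4) pb_gR) (PB.unVal (by fun_prop))

theorem pt_unSMD : PT unSMD := by
  unfold unSMD
  fun_prop

/-- data of the rule system -/
def gdat (p : GP) : RSD := msysD (unSMD p.1) p.2.1 p.2.2.1.val (gR p)

theorem pt_gdat : PT gdat := by
  have h1 := pt_gR
  have h2 := pt_unSMD
  unfold gdat
  refine pt_msysD (by fun_prop) ?_ ?_ (by fun_prop) (by fun_prop) (PB.unVal (by fun_prop))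
    (by fun_prop) pb_gR
  · exact PB.unVal (f := fun p : GP => p.1.2.1) (by fun_prop)
  · exact PB.unVal (f := fun p : GP => p.1.2.2) (by fun_prop)

theorem gsys_eq (p : GP) : gsys p = RSD.toR (2 * gR p) (gdat p) := (msysD_toR _ _ _ _).symm

theorem pt_grxs : PT (fun p : GP => rxs (gsys p) (gm p)) := by
  simp only [gsys_eq]
  have h1 := pt_gR
  exact pt_rxs (by fun_prop) pt_gm pb_gm pt_gdat

theorem pt_grts0 : PT (fun p : GP => rts0 (gsys p) (gm p)) := by
  simp only [gsys_eq]
  have h1 := pt_gR
  exact pt_rts0 (by fun_prop) pt_gm pb_gm pt_gdat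

theorem pt_grts1 : PT (fun p : GP => rts1 (gsys p) (gm p)) := by
  simp only [gsys_eq]
  have h1 := pt_gR
  exact pt_rts1 (by fun_prop) pt_gm pb_gm pt_gdat

theorem PT_codeG : PT codeG := pt_gcode pt_grxs pt_grts0

theorem PT_codeH : PT codeH := pt_gcode pt_grxs pt_grts1

/-- number of XOR constraints, of unary constraints -/
def nX (p : GP) : ℕ := (rxs (gsys p) (gm p)).length
def nT (p : GP) : ℕ := (rts0 (gsys p) (gm p)).length

theorem pt_nX : PT nX := PT.length pt_grxs
theorem pt_nT : PT nT := PT.length pt_grts0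

/-- number of vertices -/
def nV (p : GP) : ℕ := 3 + 10 * (3 * nX p + nT p) + 10 * nX p + 2 * nT p

theorem nV_eq (p : GP) : (vlG p).length = nV p := length_vlist _ _

theorem pt_nV : PT nV := by
  have h1 := pt_nX
  have h2 := pt_nT
  unfold nV
  exact PT.natAdd (PT.natAdd (PT.natAdd (PT.const 3) (PT.natMul (PT.const 10)
    (PT.natAdd (PT.natMul (PT.const 3) h1) h2))) (PT.natMul (PT.const 10) h1))
    (PT.natMul (PT.const 2) h2)

theorem pt_length_vlG : PT (fun p : GP => (vlG p).length) := by
  have h : (fun p : GP => (vlG p).length) = nV := funext nV_eq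
  rw [h]
  exact pt_nV

/-- padding number: `n` vertices in total (if possible) -/
def gpad (q : GP × Un) : ℕ := q.2.val - (vlG q.1).length - 1

theorem pt_gpad : PT gpad := by
  have h : gpad = fun q : GP × Un => q.2.val - nV q.1 - 1 := by
    funext q
    unfold gpad
    rw [nV_eq]
  rw [h]
  exact PT.natSub (PT.natSub (PT.unVal (PT.snd PT.id))
    (PT.comp (g := nV) (f := fun q : GP × Un => q.1) pt_nV (PT.fst PT.id))) (PT.const 1)

theorem pb_gpad : PB gpad := PB.sub (PB.sub (PB.unVal (by fun_prop)))

def padG (q : GP × Un) := matOf (plist (gpad q) (vlG q.1)) (apexAdj (gpad q) (gphG q.1))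
def padH (q : GP × Un) := matOf (plist (gpad q) (vlH q.1)) (apexAdj (gpad q) (gphH q.1))

def codePG (q : GP × Un) : List Bool := adjMatrixCode (padG q)
def codePH (q : GP × Un) : List Bool := adjMatrixCode (padH q)

theorem PT_codePG : PT codePG :=
  pt_apcode (p := gpad) pt_gpad pb_gpad
    (PT.comp (g := fun p : GP => rxs (gsys p) (gm p)) (f := fun q : GP × Un => q.1) pt_grxs
      (by fun_prop))
    (PT.comp (g := fun p : GP => rts0 (gsys p) (gm p)) (f := fun q : GP × Un => q.1) pt_grts0
      (by fun_prop))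

theorem PT_codePH : PT codePH :=
  pt_apcode (p := gpad) pt_gpad pb_gpad
    (PT.comp (g := fun p : GP => rxs (gsys p) (gm p)) (f := fun q : GP × Un => q.1) pt_grxs
      (by fun_prop))
    (PT.comp (g := fun p : GP => rts1 (gsys p) (gm p)) (f := fun q : GP × Un => q.1) pt_grts1
      (by fun_prop))

/-- number of vertices: at most quadratic in `A` and `|x|` for fixed `M, R, δ` -/
theorem size_vlG (M : SMU) (R δ : ℕ) : ∃ C : ℕ, ∀ (x : List ℕ) (A : ℕ),
    (vlG (M, x, ⟨A⟩, ⟨R⟩, ⟨δ⟩)).length ≤ C * (A + x.length + 1) ^ 2 := by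
  obtain ⟨C, hC⟩ := size_msys (unSMD M) R (4 * R + δ)
  refine ⟨C, fun x A => ?_⟩
  unfold vlG
  rw [length_vlist]
  exact hC x A

end Crest.Agent.R290
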