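import Crest.Prelude.Def_WL

/-!
# Row 290, module H, part 2: the codes of graphs are uniquely decodable  (helper36)
-/

set_option autoImplicit false

namespace Crest.Agent.R290

open Crest.Enc Crest.WLRefine

theorem digits_append_inj : ∀ (l l' u v : List Bool),
    (l.map fun b => [true, b]).flatten ++ [false, false] ++ u =
      (l'.map fun b => [true, b]).flatten ++ [false, false] ++ v → l = l' ∧ u = v
  | [], [], u, v, h => by simpa using h
  | [], b :: l', u, v, h => by simp at h
  | b :: l, [], u, v, h => by simp at h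
  | b :: l, b' :: l', u, v, h => by
    have h1 : b = b' ∧ (l.map fun b => [true, b]).flatten ++ [false, false] ++ u =
        (l'.map fun b => [true, b]).flatten ++ [false, false] ++ v := by
      simpa using h
    obtain ⟨h2, h3⟩ := digits_append_inj l l' u v h1.2
    exact ⟨by rw [h1.1, h2], h3⟩

theorem bits_inj {a b : ℕ} (h : a.bits = b.bits) : a = b := by
  have h1 : Nat.digits 2 a = Nat.digits 2 b := by
    rw [Nat.digits_two_eq_bits, Nat.digits_two_eq_bits, h]
  exact Nat.digits.injective 2 h1

/-- `natCode` is self-delimiting. -/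
theorem natCode_append_inj {a b : ℕ} {u v : List Bool} (h : natCode a ++ u = natCode b ++ v) :
    a = b ∧ u = v := by
  obtain ⟨h1, h2⟩ := digits_append_inj _ _ _ _ h
  exact ⟨bits_inj h1, h2⟩

theorem natCode_injective : Function.Injective natCode := by
  intro a b h
  exact (natCode_append_inj (u := []) (v := []) (by rw [h])).1

theorem length_natCode (n : ℕ) : (natCode n).length = 2 * n.size + 2 := by
  unfold natCode
  rw [List.length_append, List.length_flatten, List.map_map]
  have : (List.map (List.length ∘ fun b : Bool => [true, b]) n.bits) = n.bits.map fun _ => 2 := by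
    apply List.map_congr_left
    intro a _
    rfl
  rw [this]
  simp [Nat.size_eq_bits_len, mul_comm]

theorem length_natCode_le (n : ℕ) : (natCode n).length ≤ 2 * n + 2 := by
  rw [length_natCode]
  have : n.size ≤ n := by
    rw [Nat.size_le]
    exact n.lt_two_pow_self
  omega

theorem length_matrix {n : ℕ} (adj : Fin n → Fin n → Bool) :
    ((List.finRange n).flatMap fun v => (List.finRange n).map fun w => adj v w).length = n * n := by
  simp [List.length_flatMap]

theorem length_adjMatrixCode {n : ℕ} (adj : Fin n → Fin n → Bool) :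
    (adjMatrixCode adj).length = (natCode n).length + n * n := by
  unfold adjMatrixCode
  rw [List.length_append, length_matrix]

theorem matrix_inj {n : ℕ} {adj adj' : Fin n → Fin n → Bool}
    (h : ((List.finRange n).flatMap fun v => (List.finRange n).map fun w => adj v w) =
      (List.finRange n).flatMap fun v => (List.finRange n).map fun w => adj' v w) : adj = adj' := by
  have key : ∀ l : List (Fin n),
      (l.flatMap fun v => (List.finRange n).map fun w => adj v w) =
        (l.flatMap fun v => (List.finRange n).map fun w => adj' v w) → ∀ v ∈ l, adj v = adj' v := by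
    intro l
    induction l with
    | nil => intro _ v hv; simp at hv
    | cons a l ih =>
      intro h v hv
      rw [List.flatMap_cons, List.flatMap_cons] at h
      have h1 := List.append_inj h (by simp)
      rcases List.mem_cons.1 hv with rfl | hv
      · funext w
        have h2 := h1.1
        have h3 := (List.map_inj_left.1 h2) w (List.mem_finRange w)
        exact h3
      · exact ih h1.2 v hv
  funext v
  exact key _ h v (List.mem_finRange v)

/-- Codes of graphs are self-delimiting. -/
theorem adjMatrixCode_append_inj {n m : ℕ} {G : Fin n → Fin n → Bool} {H : Fin m → Fin m → Bool}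
    {u v : List Bool} (h : adjMatrixCode G ++ u = adjMatrixCode H ++ v) :
    (∃ e : n = m, e ▸ G = H) ∧ u = v := by
  unfold adjMatrixCode at h
  rw [List.append_assoc, List.append_assoc] at h
  obtain ⟨h1, h2⟩ := natCode_append_inj h
  subst h1
  obtain ⟨h3, h4⟩ := List.append_inj h2 (by rw [length_matrix, length_matrix])
  exact ⟨⟨rfl, matrix_inj h3⟩, h4⟩

theorem adjMatrixCode_injective {n : ℕ} :
    Function.Injective (adjMatrixCode : (Fin n → Fin n → Bool) → List Bool) := by
  intro G H h
  unfold adjMatrixCode at h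
  obtain ⟨_, h2⟩ := natCode_append_inj h
  exact matrix_inj h2

/-- unique decoding of pairs -/
theorem pair_code_inj {n m n' m' : ℕ} {G : Fin n → Fin n → Bool} {H : Fin m → Fin m → Bool}
    {G' : Fin n' → Fin n' → Bool} {H' : Fin m' → Fin m' → Bool}
    (h : adjMatrixCode G ++ adjMatrixCode H = adjMatrixCode G' ++ adjMatrixCode H') :
    (∃ e : n = n', e ▸ G = G') ∧ (∃ e : m = m', e ▸ H = H') := by
  obtain ⟨h1, h2⟩ := adjMatrixCode_append_inj h
  refine ⟨h1, ?_⟩
  exact (adjMatrixCode_append_inj (u := []) (v := []) (by simpa using h2)).1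

theorem mem_jointEquivLang {k n m : ℕ} {G : Fin n → Fin n → Bool} {H : Fin m → Fin m → Bool}
    (hG : IsSimple G) (hH : IsSimple H) :
    adjMatrixCode G ++ adjMatrixCode H ∈ jointEquivLang k ↔ JEquiv k G H := by
  constructor
  · rintro ⟨n', m', G', H', _, _, hE, hw⟩
    obtain ⟨⟨rfl, rfl⟩, ⟨rfl, rfl⟩⟩ := pair_code_inj hw
    exact hE
  · intro hE
    exact ⟨n, m, G, H, hG, hH, hE, rfl⟩

theorem mem_sepEquivLang {k n m : ℕ} {G : Fin n → Fin n → Bool} {H : Fin m → Fin m → Bool}
    (hG : IsSimple G) (hH : IsSimple H) :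
    adjMatrixCode G ++ adjMatrixCode H ∈ sepEquivLang k ↔ SEquiv k G H := by
  constructor
  · rintro ⟨n', m', G', H', _, _, hE, hw⟩
    obtain ⟨⟨rfl, rfl⟩, ⟨rfl, rfl⟩⟩ := pair_code_inj hw
    exact hE
  · intro hE
    exact ⟨n, m, G, H, hG, hH, hE, rfl⟩

theorem mem_varDimEquivLang {k n m : ℕ} {G : Fin n → Fin n → Bool} {H : Fin m → Fin m → Bool}
    (hk : 2 ≤ k) (hG : IsSimple G) (hH : IsSimple H) :
    natCode k ++ adjMatrixCode G ++ adjMatrixCode H ∈ varDimEquivLang ↔ JEquiv k G H := by
  constructor
  · rintro ⟨k', n', m', G', H', _, _, _, hE, hw⟩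
    rw [List.append_assoc, List.append_assoc] at hw
    obtain ⟨rfl, hw2⟩ := natCode_append_inj hw
    obtain ⟨⟨rfl, rfl⟩, ⟨rfl, rfl⟩⟩ := pair_code_inj hw2
    exact hE
  · intro hE
    exact ⟨k, n, m, G, H, hk, hG, hH, hE, rfl⟩

theorem mem_subcubicVarDimEquivLang {k n : ℕ} {G H : Fin n → Fin n → Bool}
    (hk : 2 ≤ k) (hn : 0 < n) (hG : SimpleConnSubcubic G) (hH : SimpleConnSubcubic H) :
    natCode k ++ adjMatrixCode G ++ adjMatrixCode H ∈ subcubicVarDimEquivLang ↔ JEquiv k G H := by
  constructor
  · rintro ⟨k', n', G', H', _, _, _, _, hE, hw⟩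
    rw [List.append_assoc, List.append_assoc] at hw
    obtain ⟨rfl, hw2⟩ := natCode_append_inj hw
    obtain ⟨⟨rfl, rfl⟩, hw3⟩ := adjMatrixCode_append_inj hw2
    rw [adjMatrixCode_injective hw3]
    exact hE
  · intro hE
    exact ⟨k, n, G, H, hk, hn, hG, hH, hE, rfl⟩

theorem mem_wlDimLeLang {k n : ℕ} {G : Fin n → Fin n → Bool}
    (hk : 1 ≤ k) (hn : 0 < n) (hG : IsSimple G) :
    natCode k ++ adjMatrixCode G ∈ wlDimLeLang ↔ ∃ k', 1 ≤ k' ∧ k' ≤ k ∧ Identifies k' G := by
  constructor
  · rintro ⟨k', n', G', _, _, _, hE, hw⟩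
    obtain ⟨rfl, hw⟩ := natCode_append_inj hw
    obtain ⟨⟨rfl, rfl⟩, _⟩ := adjMatrixCode_append_inj (u := []) (v := []) (by simpa using hw)
    exact hE
  · intro hE
    exact ⟨k, n, G, hk, hn, hG, hE, rfl⟩

end Crest.Agent.R290
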