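import Crest.Agent.R290.J1a
import Crest.Agent.R290.D1Key
import Crest.Agent.R290.D1List
import Crest.Agent.R290.B

/-!
# Row 290, module J1a (helper29): the hypothesis `ShiftL` from D1, final form of J1a
-/

set_option autoImplicit false

open Finset
open Crest.WLRefine

namespace Crest.Agent.R290

variable {κ : Type} [DecidableEq κ]

theorem pkey_eq_pkL (xs : List (κ × κ × κ)) (ts : List (κ × Bool))
    (p : Fin (3 * xs.length + ts.length)) :
    pkL xs ts.length (fun j => (ts.get j).1) p = pkey xs ts p := by
  have h := portKeys_get xs ts p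
  rw [List.getElem?_eq_getElem (by rw [length_portKeys]; exact p.isLt)] at h
  exact (Option.some.inj h).symm

theorem okey_eq (xs : List (κ × κ × κ)) (ts : List (κ × Bool)) (v : Fin xs.length) (d : Fin 3) :
    pkL xs ts.length (fun j => (ts.get j).1) (po v d) = okey xs v d := by
  rw [pkey_eq_pkL]
  exact pkey_op xs ts v d _ rfl

theorem shiftL_gadj (xs : List (κ × κ × κ)) (ts : List (κ × Bool)) {k : ℕ} (hk : 4 ≤ k)
    (hne : 0 < 3 * xs.length + ts.length) : ShiftL k xs ts := by
  rintro l ⟨v, w, h1, h2⟩
  rw [← gadjT_false, gadjT_eq_aG] at h1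
  obtain ⟨e, g, h3, h4⟩ := h1.shift hk hne
  refine ⟨fun y => match y with | none => e | some y => zb (g y), ?_⟩
  intro p hp
  obtain ⟨i, hi, hi'⟩ := h2 p hp
  rw [← hi, ← hi']
  refine ⟨?_, ?_⟩
  · rw [h3 i]
    cases v i with
    | rt => rfl
    | rl b => rfl
    | bb p s => rfl
    | fr p s => rfl
    | fp p s b => simp only [shiftV, shB, pkey_eq_pkL]
    | cp p b => simp only [shiftV, shB, pkey_eq_pkL]
    | op v d b => simp only [shiftV, shB, okey_eq]
    | gd v z0 z1 =>
      simp only [shiftV, shB, okey_eq]
      rfl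
    | t1 j => rfl
    | t2 j => rfl
  · have h5 := h4 i
    have key : ∀ y : κ, (∀ j : Fin ts.length,
        pkL xs ts.length (fun j => (ts.get j).1) (pu j) = y →
          g y = tz (Bool.xor (ts.get j).2 (ts.get j).2)) → ∀ β, (y, β) ∈ ts → zb (g y) = false := by
      intro y hy β hβ
      obtain ⟨j, hj⟩ := List.get_of_mem hβ
      have e1 : pkL xs ts.length (fun j => (ts.get j).1) (pu j) = y := by
        rw [pkL_pu, hj]
      rw [hy j e1, Bool.xor_self]
      rfl
    cases hv : v i with
    | rt => trivial
    | rl b => trivial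
    | bb p s => trivial
    | fr p s => trivial
    | fp p s b =>
      rw [hv] at h5
      simp only [OkV] at h5
      rw [pkey_eq_pkL] at h5
      exact key _ h5
    | cp p b =>
      rw [hv] at h5
      simp only [OkV] at h5
      rw [pkey_eq_pkL] at h5
      exact key _ h5
    | op v d b =>
      rw [hv] at h5
      simp only [OkV] at h5
      rw [okey_eq] at h5
      exact key _ h5
    | gd v z0 z1 =>
      rw [hv] at h5
      simp only [OkV, okey_eq, Bool.xor_self] at h5
      simp only [okV, par3]
      have h6 := congrArg zb h5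
      rw [zb_add, zb_add] at h6
      have h7 : zb (tz false) = false := by decide
      rw [h7] at h6
      rw [← Bool.xor_assoc]
      exact h6
    | t1 j => trivial
    | t2 j => trivial

/-- J1a: a graph equivalent to `gadj xs ts` is isomorphic to a twisted version (same unary values) -/
theorem j1a (xs : List (κ × κ × κ)) (ts : List (κ × Bool)) {k : ℕ} (hk : 8 ≤ k)
    (hne : 0 < 3 * xs.length + ts.length) {W : Type} [Fintype W] [DecidableEq W]
    (H' : W → W → Bool) (h : JEq k (gadj xs ts) H') :
    ∃ (tw : κ × κ × κ → Bool) (e : W ≃ GV xs.length ts.length),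
      ∀ a b, gadjT xs ts tw (e a) (e b) = H' a b :=
  j1a_of_shift xs ts (shiftL_gadj xs ts (by omega) hne) hk H' h (h.card_eq (by omega))

end Crest.Agent.R290
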