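import Mathlib
import Crest.Agent.R290.JDefs

/-!
Row 290, module J, part J3 (helper43): definitions for the construction of a global solution of the
twisted constraint system. No sorry here.

`τ : Key × Key × Key → ZMod 2` = right-hand sides of the XOR nodes, `sg : Key → ZMod 2` = right-hand sides of
the unary constraints. The solution is `gSol R m τ sg hb` where `hb e i c` = value of `Key.hub e i c`.
-/
set_option autoImplicit false

namespace Crest.Agent.R290

open Finset

/-- total twist of the chain `(i, t)` of a slab -/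
def chainSum (r m σ s : ℕ) (hk : ℕ → ℕ → Key) (τ : Key × Key × Key → ZMod 2) (i t : ℕ) : ZMod 2 :=
  ∑ l ∈ range (m - 1), τ (slabNode r m σ s hk i t l)

/-- total twist of all nodes of rule number `a` with digit `i` and local value `t` -/
def hRule {r : ℕ} (m a : ℕ) (ρ : Rule r) (τ : Key × Key × Key → ZMod 2) (i t : ℕ) : ZMod 2 :=
  ∑ u ∈ range 3, τ (juncNode a i t u) + ∑ s ∈ range 9, chainSum r m a s (ruleHub a ρ s) τ i t

/-- total twist of digit `i` of the fact slab number `σ` -/
def hFact {r : ℕ} (m σ : ℕ) (f : ℕ × (Fin r → ℕ)) (τ : Key × Key × Key → ZMod 2)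
    (sg : Key → ZMod 2) (i : ℕ) : ZMod 2 :=
  sg (Key.ch σ 0 i 0 0) + chainSum r m σ 0 (factHub f) τ i 0

/-- the codeword (values of the digits `i`) of an address vector: twins equal, idle digits `0` -/
def cw {r : ℕ} (tv : Fin r → ℕ) (i : ℕ) : ℕ := if h : i / 2 < r then tv ⟨i / 2, h⟩ else 0

/-- head address of a rule at a local vector -/
def headAt {r : ℕ} (ρ : Rule r) (tv : Fin r → ℕ) : Fin r → ℕ :=
  fun J => ((ρ.rel J).getD (tv J) (0, 0, 0)).1

/-- output of J2 (twisted D2): `c (e, x)` = sum of the differences over the codeword bundle `(e, x)`. -/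
structure GSol {r : ℕ} (R : RSys r) (m : ℕ) (τ : Key × Key × Key → ZMod 2) (sg : Key → ZMod 2)
    (c : ℕ → (Fin r → ℕ) → ZMod 2) : Prop where
  rule : ∀ a ρ, R.rules[a]? = some ρ → ∀ tv : Fin r → ℕ, (∀ J, tv J < (ρ.rel J).length) →
    c ρ.e0 (headAt ρ tv) = ∑ i ∈ range m, hRule m a ρ τ i (cw tv i)
  fact : ∀ b f, (R.ax ++ [R.goal])[b]? = some f →
    c f.1 f.2 = ∑ i ∈ range m, hFact m (R.rules.length + b) f τ sg i

/-- an identity rule for every predicate -/
def HasId {r : ℕ} (R : RSys r) (A : ℕ) : Prop :=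
  ∀ e ∈ R.preds, ∃ ρ ∈ R.rules, ρ.e0 = e ∧ ∀ J, ρ.rel J = (List.range A).map fun a => (a, a, a)

/-! ### the laterals of a slab, as functions of the defect `D i t` -/

/-- sum of the laterals at digit `i` -/
def LL (r : ℕ) (D : ℕ → ℕ → ZMod 2) (i : ℕ) : ZMod 2 :=
  if i < 2 * r then (if i % 2 = 0 then 0 else D i 0 + D (i - 1) 0) else D i 0

/-- value of `Key.lat σ s i j`, `i < j` -/
def latD (r : ℕ) (D : ℕ → ℕ → ZMod 2) (i j : ℕ) : ZMod 2 :=
  if j = 2 * r then LL r D i else if i = 2 * r then LL r D j else 0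

/-- value of `latk r σ s i j t` -/
def lgD (r : ℕ) (D : ℕ → ℕ → ZMod 2) (i j t : ℕ) : ZMod 2 :=
  if i < 2 * r ∧ i / 2 = j / 2 then D (2 * (i / 2)) t else latD r D (min i j) (max i j)

/-! ### the global solution -/

section
variable {r : ℕ} (R : RSys r) (m : ℕ) (τ : Key × Key × Key → ZMod 2) (sg : Key → ZMod 2)
  (hb : ℕ → ℕ → ℕ → ZMod 2)

/-- value of the private variables of rule `a` -/
def prvV (a w i t : ℕ) : ZMod 2 :=
  match R.rules[a]? with
  | some ρ =>
    if w = 0 then
      τ (juncNode a i t 1) + chainSum r m a 3 (ruleHub a ρ 3) τ i t +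
        chainSum r m a 4 (ruleHub a ρ 4) τ i t + chainSum r m a 5 (ruleHub a ρ 5) τ i t +
        hb ρ.e1 i (ρ.lab 1 i t) + hb ρ.e2 i (ρ.lab 2 i t)
    else
      τ (juncNode a i t 2) + chainSum r m a 6 (ruleHub a ρ 6) τ i t +
        chainSum r m a 7 (ruleHub a ρ 7) τ i t + chainSum r m a 8 (ruleHub a ρ 8) τ i t +
        hb ρ.e1 i (ρ.lab 1 i t) + hb ρ.e2 i (ρ.lab 2 i t)
  | none => 0

/-- value of the hub variable of a slab (only hub and private keys matter) -/
def valHP : Key → ZMod 2
  | .hub e i c => hb e i c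
  | .prv a w i t => prvV R m τ hb a w i t
  | _ => 0

/-- hub variables of the slab `(σ, s)` -/
def hkOf (σ s : ℕ) : ℕ → ℕ → Key :=
  match R.rules[σ]? with
  | some ρ => ruleHub σ ρ s
  | none => match (R.ax ++ [R.goal])[σ - R.rules.length]? with
    | some f => factHub f
    | none => fun _ _ => Key.hub 0 0 0

/-- hub value + twist of the chain -/
def outV (σ s i t : ℕ) : ZMod 2 :=
  valHP R m τ hb (hkOf R σ s i t) + chainSum r m σ s (hkOf R σ s) τ i t

/-- value of the start variable `Key.ch σ s i t 0` -/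
def startV (σ s i t : ℕ) : ZMod 2 :=
  match R.rules[σ]? with
  | some _ => if s = 0 then τ (juncNode σ i t 0) + outV R m τ hb σ 1 i t + outV R m τ hb σ 2 i t
      else outV R m τ hb σ s i t
  | none => sg (Key.ch σ s i t 0)

/-- the defect of the chain `(i, t)` of the slab `(σ, s)`: the laterals must sum up to it -/
def defV (σ s i t : ℕ) : ZMod 2 := startV R m τ sg hb σ s i t + outV R m τ hb σ s i t

/-- the global solution -/
def gSol : Key → ZMod 2
  | .hub e i c => hb e i c
  | .prv a w i t => prvV R m τ hb a w i t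
  | .ch σ s i t l => startV R m τ sg hb σ s i t +
      ∑ l' ∈ range l, (τ (slabNode r m σ s (hkOf R σ s) i t l') +
        lgD r (defV R m τ sg hb σ s) i (partner i l') t)
  | .lat σ s i j => latD r (defV R m τ sg hb σ s) i j
  | .tw σ s J t => defV R m τ sg hb σ s (2 * J) t

end

end Crest.Agent.R290
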