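import Crest.Agent.R290.D2
import Crest.Agent.R290.J3Defs

/-!
Row 290, module J, part J2 (helper77): `gsol_of_cons`, the constants of the codeword bundles, from the
walks of D2X.lean.
-/
set_option autoImplicit false

namespace Crest.Agent.R290

open Finset

theorem FamT.toX {κ : Type} [DecidableEq κ] {s : CSysT κ} {m : ℕ}
    {H : Finset (Item κ) → (κ → ZMod 2) → Prop} (hF : FamT s m H) :
    FamX s.xs s.rhs m H where
  start := hF.start
  nod := fun S g h _ hc => hF.ok S g h _ hc
  ext := by
    intro S g h c hc p hp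
    have hi : s.IsItem p := by
      rcases hp with rfl | ⟨x, hx, rfl⟩
      · exact hc
      · show _ ∈ portKeys s.xs s.ts
        unfold portKeys
        rw [List.mem_append]
        left
        rw [List.mem_flatMap]
        exact ⟨c, hc, hx⟩
    obtain ⟨g', h1, -, h3⟩ := hF.ext S g h p hi
    exact ⟨g', h1, h3⟩

section
variable {r m : ℕ} {R : RSys r} {xs : List (Key × Key × Key)} {τ : Key × Key × Key → ZMod 2}
  {H : Finset (Item Key) → (Key → ZMod 2) → Prop}

theorem zc_unique {κ : Type} [DecidableEq κ] {xs : List (κ × κ × κ)} {τ : κ × κ × κ → ZMod 2}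
    {H : Finset (Item κ) → (κ → ZMod 2) → Prop} (hF : FamX xs τ m H) {y : Fin m → κ}
    (hy : ∀ i, IsIt xs (.var (y i))) {k k' : ZMod 2} (h : ZC H y k) (h' : ZC H y k') : k = k' := by
  obtain ⟨g, hg⟩ := pos_exists (m := m) hF (fun i => Item.var (y i)) hy
  rw [← h g hg, ← h' g hg]

/-- the hub variables of a slab are items -/
theorem isIt_hub {σ s : ℕ} {T : ℕ → ℕ} {hk : ℕ → ℕ → Key} (hm : 2 ≤ m)
    (hxs : ∀ c ∈ slabNodes r m σ s T hk, c ∈ xs) {i t : ℕ} (hi : i < m) (ht : t < T i) :
    IsIt xs (.var (hk i t)) := by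
  have h := slabNode_mem (r := r) (m := m) (σ := σ) (s := s) (T := T) (hk := hk)
    (i := i) (t := t) (l := m - 2) hi ht (by omega)
  refine ⟨_, hxs _ h, Or.inr ⟨_, ?_, rfl⟩⟩
  have e : hk i t = chk m σ s hk i t (m - 2 + 1) := by
    unfold chk
    rw [if_pos (by omega)]
  unfold linkN
  rw [← e]
  simp [Item.vars]

theorem sum_cw {m : ℕ} (f : ℕ → ℕ → ZMod 2) (tv : Fin r → ℕ) :
    ∑ i ∈ range m, f i (cw tv i) = ∑ i : Fin m, f i (cw tv i) := by
  rw [sum_range]

/-- module J, part J2 -/
theorem gsol_of_cons {A : ℕ} (R : RSys r) (hR : R.WF A) (_hm : 2 * r < m) (hm4 : 4 ≤ m)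
    (hfull : R.Full A) (τ : Key × Key × Key → ZMod 2) (sg : Key → ZMod 2)
    (h : (CSysT.mk (rxs R m) τ ((rtk R m).map fun y => (y, sg y))).Cons m) :
    ∃ c, GSol R m τ sg c := by
  classical
  obtain ⟨H, hFT⟩ := h
  have hF : FamX (rxs R m) τ m H := hFT.toX
  have hxs : ∀ c ∈ rxs R m, c ∈ rxs R m := fun c hc => hc
  have hm2 : 2 ≤ m := by omega
  -- start bundles of fact slabs
  have hst : ∀ b < R.ax.length + 1,
      ZC H (fun i : Fin m => Key.ch (R.rules.length + b) 0 i 0 0)
        (∑ i : Fin m, sg (Key.ch (R.rules.length + b) 0 i 0 0)) := by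
    intro b hb g hg
    refine sum_congr rfl fun i _ => ?_
    refine hFT.ok _ g hg (Item.var (Key.ch (R.rules.length + b) 0 i 0 0))
      (mem_image_of_mem (fun i : Fin m => Item.var (Key.ch (R.rules.length + b) 0 i 0 0))
        (mem_univ i)) _ ?_
    show _ ∈ (rtk R m).map fun y => (y, sg y)
    rw [List.mem_map]
    exact ⟨_, mem_rtk.2 ⟨b, hb, i.val, i.isLt, rfl⟩, rfl⟩
  have hder : ∀ e x, Der R e x → ∃ k, ZC H (factB m e x) k := by
    intro e x hd
    exact zc_der hF hm2 hxs (fun a ha => ⟨_, hst a (by omega)⟩) e x hd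
  refine ⟨fun e x => if h : ∃ k, ZC H (factB m e x) k then h.choose else 0, ?_, ?_⟩
  · intro a ρ ha tv htv
    have hρ : ρ ∈ R.rules := List.mem_of_getElem? ha
    obtain ⟨y, hy⟩ : ∃ y : Fin r → ℕ, y = fun J => ((ρ.rel J).getD (tv J) (0, 0, 0)).2.1 := ⟨_, rfl⟩
    obtain ⟨z, hz⟩ : ∃ z : Fin r → ℕ, z = fun J => ((ρ.rel J).getD (tv J) (0, 0, 0)).2.2 := ⟨_, rfl⟩
    have hget : ∀ J, (ρ.rel J)[tv J]? = some (headAt ρ tv J, y J, z J) := by
      intro J
      unfold headAt
      rw [hy, hz]
      simp only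
      rw [List.getD_eq_getElem _ _ (htv J), List.getElem?_eq_getElem (htv J)]
    have hmem : ∀ J, (headAt ρ tv J, y J, z J) ∈ ρ.rel J := fun J => List.mem_of_getElem? (hget J)
    have hpred : ∀ e, e = ρ.e1 ∨ e = ρ.e2 → e ∈ R.preds := by
      intro e he
      unfold RSys.preds
      rw [List.mem_cons]
      right
      rw [List.mem_append]
      right
      rw [List.mem_flatMap]
      refine ⟨ρ, hρ, ?_⟩
      rcases he with rfl | rfl <;> simp
    obtain ⟨c1, h1⟩ := hder ρ.e1 y (hfull _ (hpred _ (Or.inl rfl)) y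
      fun J => (hR.lt ρ hρ J _ (hmem J)).2.1)
    obtain ⟨c2, h2⟩ := hder ρ.e2 z (hfull _ (hpred _ (Or.inr rfl)) z
      fun J => (hR.lt ρ hρ J _ (hmem J)).2.2)
    have ht : RIdx ρ m (headAt ρ tv) y z (fun i : Fin m => cw tv i) := by
      intro i
      refine ⟨fun hi => ?_, fun hi => ?_⟩
      · beta_reduce
        unfold cw
        rw [dif_pos hi]
        exact hget _
      · beta_reduce
        unfold cw
        rw [dif_neg hi]
    have ttw : ∀ i j : Fin m, i.val < 2 * r → i.val / 2 = j.val / 2 →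
        (fun i : Fin m => cw tv i) i = (fun i : Fin m => cw tv i) j := by
      intro i j h3 h4
      beta_reduce
      unfold cw
      rw [dif_pos (by omega : i.val / 2 < r), dif_pos (by omega : j.val / 2 < r)]
      congr 2
    have key := zc_rule hF hm2 hxs ha (headAt ρ tv) y z (fun i : Fin m => cw tv i) ht ttw h1 h2
    have hex : ∃ k, ZC H (factB m ρ.e0 (headAt ρ tv)) k := ⟨_, key⟩
    have tlt : ∀ i : Fin m, cw tv i < ρ.num i := by
      intro i
      unfold Rule.num cw
      by_cases hi : i.val / 2 < r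
      · rw [dif_pos hi, dif_pos hi]; exact htv _
      · rw [dif_neg hi, dif_neg hi]; norm_num
    have hit : ∀ i : Fin m, IsIt (rxs R m) (.var (factB m ρ.e0 (headAt ρ tv) i)) := by
      intro i
      have h3 := isIt_hub (r := r) (m := m) (σ := a) (s := 0) (T := ρ.num)
        (hk := ruleHub a ρ 0) (xs := rxs R m) hm2
        (fun c hc => rule_mem ha (ruleSlab_mem (by norm_num) hc)) (i := i) (t := cw tv i)
        i.isLt (tlt i)
      have e : factB m ρ.e0 (headAt ρ tv) i = ruleHub a ρ 0 i (cw tv i) := by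
        unfold factB factHub ruleHub Rule.lab headAt cw
        rw [if_pos rfl]
        by_cases hi : i.val / 2 < r
        · rw [dif_pos hi, dif_pos hi, dif_pos hi]
          rfl
        · rw [dif_neg hi, dif_neg hi]
      rw [e]
      exact h3
    beta_reduce
    rw [dif_pos hex, zc_unique hF hit hex.choose_spec key, sum_cw (fun i t => hRule m a ρ τ i t)]
    unfold ruleC hRule slabC chainSum
    rw [sum_add_distrib, sum_comm (s := (univ : Finset (Fin m))) (t := range 3),
      sum_comm (s := (univ : Finset (Fin m))) (t := range 9), add_comm]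
    rfl
  · intro b f hf
    have hb : b < R.ax.length + 1 := by
      have := (List.getElem?_eq_some_iff.1 hf).1
      simpa using this
    have key := (zc_fact hF hm2 hxs hf _).1 (hst b hb)
    have hex : ∃ k, ZC H (factB m f.1 f.2) k := ⟨_, key⟩
    have hit : ∀ i : Fin m, IsIt (rxs R m) (.var (factB m f.1 f.2 i)) := by
      intro i
      exact isIt_hub (r := r) (m := m) (σ := R.rules.length + b) (s := 0) (T := fun _ => 1)
        (hk := factHub f) (xs := rxs R m) hm2
        (fun c hc => fact_mem hf hc) (i := i) (t := 0) i.isLt one_pos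
    beta_reduce
    rw [dif_pos hex, zc_unique hF hit hex.choose_spec key]
    unfold hFact slabC chainSum
    rw [sum_range fun i => sg (Key.ch (R.rules.length + b) 0 i 0 0) +
      ∑ l ∈ range (m - 1), τ (slabNode r m (R.rules.length + b) 0 (factHub f) i 0 l),
      sum_add_distrib]
    rfl

end

end Crest.Agent.R290
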