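import Mathlib
import Crest.Agent.R290.J3Defs

/-!
Row 290, J3, part a: the laterals of a slab (pure algebra over `ZMod 2`).
-/
set_option autoImplicit false

namespace Crest.Agent.R290

open Finset

theorem sum_partner {M : Type} [AddCommMonoid M] {m i : ℕ} (hi : i < m) (f : ℕ → M) :
    ∑ l ∈ range (m - 1), f (partner i l) = ∑ j ∈ (range m).erase i, f j := by
  refine Finset.sum_nbij' (fun l => partner i l) (fun j => if j < i then j else j - 1) ?_ ?_ ?_ ?_ ?_
  · intro l hl
    rw [mem_range] at hl
    rw [mem_erase, mem_range]
    unfold partner
    split_ifs <;> omega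
  · intro j hj
    rw [mem_erase, mem_range] at hj
    rw [mem_range]
    split_ifs <;> omega
  · intro l hl
    unfold partner
    split_ifs <;> omega
  · intro j hj
    rw [mem_erase, mem_range] at hj
    unfold partner
    split_ifs <;> omega
  · intro l _; rfl

theorem two_eq_zero' (a : ZMod 2) : a + a = 0 := CharTwo.add_self_eq_zero a

/-- codeword sums determine the laterals -/
theorem lgD_sum {r m : ℕ} (hm : 2 * r < m) (D : ℕ → ℕ → ZMod 2) (T : ℕ → ℕ)
    (hT0 : ∀ J < r, 0 < T (2 * J)) (hT1 : ∀ J < r, T (2 * J + 1) = T (2 * J))
    (hT2 : ∀ i, 2 * r ≤ i → T i = 1)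
    (hs : ∀ tv : Fin r → ℕ, (∀ J : Fin r, tv J < T (2 * J)) → ∑ i ∈ range m, D i (cw tv i) = 0)
    {i t : ℕ} (hi : i < m) (ht : t < T i) :
    ∑ l ∈ range (m - 1), lgD r D i (partner i l) t = D i t := by
  rw [sum_partner hi fun j => lgD r D i j t]
  have h0 : ∑ i ∈ range m, D i 0 = 0 := by
    have := hs (fun _ => 0) (fun J => hT0 J J.2)
    rw [← this]
    refine sum_congr rfl fun i _ => ?_
    unfold cw; split_ifs <;> rfl
  -- constancy of the twin sums
  have hconst : ∀ J < r, ∀ t < T (2 * J), D (2 * J) t + D (2 * J + 1) t =
      D (2 * J) 0 + D (2 * J + 1) 0 := by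
    intro J hJ t ht
    have h1 := hs (fun J' => if J'.val = J then t else 0) (fun J' => by
      by_cases h : J'.val = J
      · simp only [h, if_true]; exact ht
      · simp only [h, if_false]; exact hT0 J' J'.2)
    have hcw : ∀ i, cw (fun J' : Fin r => if J'.val = J then t else 0) i =
        if i / 2 = J then t else 0 := by
      intro i
      unfold cw
      by_cases h : i / 2 < r
      · rw [dif_pos h]
      · rw [dif_neg h, if_neg]; omega
    simp only [hcw] at h1
    have hsub : ({2 * J, 2 * J + 1} : Finset ℕ) ⊆ range m := by
      intro x hx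
      rw [mem_insert, mem_singleton] at hx
      rw [mem_range]; omega
    rw [← Finset.sum_sdiff hsub] at h0 h1
    have e1 : ∑ i ∈ range m \ {2 * J, 2 * J + 1}, D i (if i / 2 = J then t else 0) =
        ∑ i ∈ range m \ {2 * J, 2 * J + 1}, D i 0 := by
      refine sum_congr rfl fun i hi => ?_
      rw [mem_sdiff, mem_insert, mem_singleton] at hi
      rw [if_neg]; omega
    rw [e1, Finset.sum_pair (by omega), if_pos (by omega), if_pos (by omega)] at h1
    rw [Finset.sum_pair (by omega)] at h0
    exact add_left_cancel (h1.trans h0.symm)
  by_cases hi2 : i < 2 * r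
  · -- digit with a twin
    have hsub : ∀ j ∈ (range m).erase i, j ∉ ({2 * (i / 2) + (1 - i % 2), 2 * r} : Finset ℕ) →
        lgD r D i j t = 0 := by
      intro j hj hj2
      rw [mem_erase, mem_range] at hj
      rw [mem_insert, mem_singleton] at hj2
      push Not at hj2
      have h1 : ¬ (i < 2 * r ∧ i / 2 = j / 2) := by
        rintro ⟨_, h⟩; omega
      unfold lgD
      rw [if_neg h1]
      unfold latD
      rw [if_neg (by omega), if_neg (by omega)]
    rw [← Finset.sum_subset (s₁ := {2 * (i / 2) + (1 - i % 2), 2 * r}) ?_ hsub]
    swap
    · intro x hx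
      rw [mem_insert, mem_singleton] at hx
      rw [mem_erase, mem_range]; omega
    rw [Finset.sum_pair (by omega)]
    have e1 : lgD r D i (2 * (i / 2) + (1 - i % 2)) t = D (2 * (i / 2)) t := by
      unfold lgD; rw [if_pos ⟨hi2, by omega⟩]
    have e2 : lgD r D i (2 * r) t = LL r D i := by
      unfold lgD
      rw [if_neg (by rintro ⟨_, h⟩; omega)]
      unfold latD
      rw [if_pos (by omega), show min i (2 * r) = i by omega]
    rw [e1, e2]
    unfold LL
    rw [if_pos hi2]
    rcases Nat.mod_two_eq_zero_or_one i with hp | hp
    · rw [if_pos hp, add_zero, show 2 * (i / 2) = i by omega]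
    · rw [if_neg (by omega)]
      have hJ : i / 2 < r := by omega
      have hTe : T i = T (2 * (i / 2)) := by
        rw [← hT1 (i / 2) hJ]; congr 1; omega
      have h1 := hconst (i / 2) hJ t (hTe ▸ ht)
      have e3 : 2 * (i / 2) + 1 = i := by omega
      have e4 : i - 1 = 2 * (i / 2) := by omega
      rw [e3] at h1
      rw [e4, add_comm (D i 0), ← h1, ← add_assoc, two_eq_zero', zero_add]
  · -- idle digits
    have ht0 : t = 0 := by
      have := hT2 i (by omega); omega
    subst ht0
    have hlg : ∀ j, lgD r D i j 0 = latD r D (min i j) (max i j) := by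
      intro j; unfold lgD; rw [if_neg (fun h => hi2 h.1)]
    simp only [hlg]
    by_cases hi3 : i = 2 * r
    · subst hi3
      have e1 : ∀ j ∈ (range m).erase (2 * r), latD r D (min (2 * r) j) (max (2 * r) j) =
          LL r D j := by
        intro j hj
        rw [mem_erase, mem_range] at hj
        unfold latD
        by_cases h : j < 2 * r
        · rw [if_pos (by omega), show min (2 * r) j = j by omega]
        · rw [if_neg (by omega), if_pos (by omega), show max (2 * r) j = j by omega]
      rw [sum_congr rfl e1]
      -- sum of LL = sum of D over the other digits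
      have e2 : ∑ j ∈ (range m).erase (2 * r), LL r D j = ∑ j ∈ (range m).erase (2 * r), D j 0 := by
        have hsplit : (range m).erase (2 * r) = range (2 * r) ∪ (Finset.Ioo (2 * r) m) := by
          ext j
          rw [mem_erase, mem_union, mem_range, mem_range, mem_Ioo]; omega
        have hdis : Disjoint (range (2 * r)) (Finset.Ioo (2 * r) m) := by
          rw [Finset.disjoint_left]
          intro j h1 h2
          rw [mem_range] at h1; rw [mem_Ioo] at h2; omega
        rw [hsplit, sum_union hdis, sum_union hdis]
        congr 1
        · have key : ∀ r' ≤ r, ∑ j ∈ range (2 * r'), LL r D j = ∑ j ∈ range (2 * r'), D j 0 := by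
            intro r'
            induction r' with
            | zero => intro _; rfl
            | succ n ih =>
              intro hn
              rw [show 2 * (n + 1) = 2 * n + 1 + 1 by ring, sum_range_succ, sum_range_succ,
                sum_range_succ (fun j => D j 0), sum_range_succ (fun j => D j 0), ih (by omega)]
              have e3 : LL r D (2 * n) = 0 := by
                unfold LL; rw [if_pos (by omega), if_pos (by omega)]
              have e4 : LL r D (2 * n + 1) = D (2 * n + 1) 0 + D (2 * n) 0 := by
                unfold LL
                rw [if_pos (by omega), if_neg (by omega), show 2 * n + 1 - 1 = 2 * n by omega]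
              rw [e3, e4]; abel
          exact key r le_rfl
        · refine sum_congr rfl fun j hj => ?_
          rw [mem_Ioo] at hj
          unfold LL; rw [if_neg (by omega)]
      rw [e2]
      have h3 := h0
      rw [← Finset.add_sum_erase (range m) (fun j => D j 0) (mem_range.2 hi)] at h3
      have h4 := congrArg (fun x => D (2 * r) 0 + x) h3
      simp only [← add_assoc, two_eq_zero', zero_add, add_zero] at h4
      exact h4
    · have hsub : ∀ j ∈ (range m).erase i, j ∉ ({2 * r} : Finset ℕ) →
          latD r D (min i j) (max i j) = 0 := by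
        intro j hj hj2
        rw [mem_erase, mem_range] at hj
        rw [mem_singleton] at hj2
        unfold latD
        rw [if_neg (by omega), if_neg (by omega)]
      rw [← Finset.sum_subset (s₁ := {2 * r}) ?_ hsub, sum_singleton]
      · unfold latD
        rw [if_neg (by omega), if_pos (by omega), show max i (2 * r) = i by omega]
        unfold LL; rw [if_neg hi2]
      · intro x hx
        rw [mem_singleton] at hx
        rw [mem_erase, mem_range]; omega

end Crest.Agent.R290
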