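import Mathlib
import Crest.Agent.R290.J3a

/-!
Row 290, J3 (helper43): from the giant solution `c` (`GSol`) and the identity rules (`HasId`) to a global
solution of the twisted system.
-/
set_option autoImplicit false

namespace Crest.Agent.R290

open Finset

variable {r : ℕ} (R : RSys r) (m : ℕ) (τ : Key × Key × Key → ZMod 2) (sg : Key → ZMod 2)
  (hb : ℕ → ℕ → ℕ → ZMod 2)

theorem hkOf_rule {σ s : ℕ} {ρ : Rule r} (h : R.rules[σ]? = some ρ) :
    hkOf R σ s = ruleHub σ ρ s := by
  unfold hkOf; rw [h]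

theorem hkOf_fact {b s : ℕ} {f : ℕ × (Fin r → ℕ)} (h : (R.ax ++ [R.goal])[b]? = some f) :
    hkOf R (R.rules.length + b) s = factHub f := by
  unfold hkOf
  rw [List.getElem?_eq_none (by omega), Nat.add_sub_cancel_left, h]

theorem gSol_latk (σ s i j t : ℕ) :
    gSol R m τ sg hb (latk r σ s i j t) = lgD r (defV R m τ sg hb σ s) i j t := by
  unfold latk lgD
  split_ifs <;> rfl

/-- the equation of a link node -/
theorem gSol_slabNode {σ s i t l : ℕ} (hl : l < m - 1)
    (hhk : gSol R m τ sg hb (hkOf R σ s i t) = valHP R m τ hb (hkOf R σ s i t))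
    (hs : ∑ l ∈ range (m - 1), lgD r (defV R m τ sg hb σ s) i (partner i l) t =
      defV R m τ sg hb σ s i t) :
    gSol R m τ sg hb (slabNode r m σ s (hkOf R σ s) i t l).1 +
      gSol R m τ sg hb (slabNode r m σ s (hkOf R σ s) i t l).2.1 +
      gSol R m τ sg hb (slabNode r m σ s (hkOf R σ s) i t l).2.2 =
    τ (slabNode r m σ s (hkOf R σ s) i t l) := by
  have e3 : gSol R m τ sg hb (slabNode r m σ s (hkOf R σ s) i t l).2.2 =
      lgD r (defV R m τ sg hb σ s) i (partner i l) t := gSol_latk R m τ sg hb σ s i _ t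
  have e1 : gSol R m τ sg hb (slabNode r m σ s (hkOf R σ s) i t l).1 =
      startV R m τ sg hb σ s i t +
      ∑ l' ∈ range l, (τ (slabNode r m σ s (hkOf R σ s) i t l') +
        lgD r (defV R m τ sg hb σ s) i (partner i l') t) := by
    unfold slabNode chk
    rw [if_neg (by omega)]
    rfl
  have e2 : gSol R m τ sg hb (slabNode r m σ s (hkOf R σ s) i t l).2.1 =
      startV R m τ sg hb σ s i t +
      ∑ l' ∈ range (l + 1), (τ (slabNode r m σ s (hkOf R σ s) i t l') +
        lgD r (defV R m τ sg hb σ s) i (partner i l') t) := by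
    by_cases h : l + 1 + 1 = m
    · have h1 : (slabNode r m σ s (hkOf R σ s) i t l).2.1 = hkOf R σ s i t := by
        unfold slabNode chk
        rw [if_pos h]
      rw [h1, hhk, show l + 1 = m - 1 by omega, sum_add_distrib, hs]
      unfold defV outV
      have h2 := two_eq_zero' (startV R m τ sg hb σ s i t)
      have h3 := two_eq_zero' (chainSum r m σ s (hkOf R σ s) τ i t)
      unfold chainSum at h3 ⊢
      linear_combination (-1 : ZMod 2) * h2 - h3
    · unfold slabNode chk
      rw [if_neg h]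
      rfl
  rw [e1, e2, e3, sum_range_succ]
  have h1 := two_eq_zero' (startV R m τ sg hb σ s i t)
  have h2 := two_eq_zero' (∑ l' ∈ range l, (τ (slabNode r m σ s (hkOf R σ s) i t l') +
        lgD r (defV R m τ sg hb σ s) i (partner i l') t))
  have h3 := two_eq_zero' (lgD r (defV R m τ sg hb σ s) i (partner i l) t)
  linear_combination h1 + h2 + h3

theorem gSol_ruleHub {σ s i t : ℕ} {ρ : Rule r} :
    gSol R m τ sg hb (ruleHub σ ρ s i t) = valHP R m τ hb (ruleHub σ ρ s i t) := by
  unfold ruleHub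
  split_ifs <;> rfl

theorem gSol_factHub {i t : ℕ} {f : ℕ × (Fin r → ℕ)} :
    gSol R m τ sg hb (factHub f i t) = valHP R m τ hb (factHub f i t) := by
  unfold factHub
  split_ifs <;> rfl

section rule
variable {σ : ℕ} {ρ : Rule r} (h : R.rules[σ]? = some ρ)
include h

theorem outV_eq (s i t : ℕ) : outV R m τ hb σ s i t =
    valHP R m τ hb (ruleHub σ ρ s i t) + chainSum r m σ s (ruleHub σ ρ s) τ i t := by
  unfold outV; rw [hkOf_rule R h]

theorem prvV_zero (i t : ℕ) : prvV R m τ hb σ 0 i t =
      τ (juncNode σ i t 1) + chainSum r m σ 3 (ruleHub σ ρ 3) τ i t +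
        chainSum r m σ 4 (ruleHub σ ρ 4) τ i t + chainSum r m σ 5 (ruleHub σ ρ 5) τ i t +
        hb ρ.e1 i (ρ.lab 1 i t) + hb ρ.e2 i (ρ.lab 2 i t) := by
  unfold prvV; rw [h]; rfl

theorem prvV_one (i t : ℕ) : prvV R m τ hb σ 1 i t =
      τ (juncNode σ i t 2) + chainSum r m σ 6 (ruleHub σ ρ 6) τ i t +
        chainSum r m σ 7 (ruleHub σ ρ 7) τ i t + chainSum r m σ 8 (ruleHub σ ρ 8) τ i t +
        hb ρ.e1 i (ρ.lab 1 i t) + hb ρ.e2 i (ρ.lab 2 i t) := by
  unfold prvV; rw [h]; rfl

theorem startV_zero (i t : ℕ) : startV R m τ sg hb σ 0 i t =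
    τ (juncNode σ i t 0) + outV R m τ hb σ 1 i t + outV R m τ hb σ 2 i t := by
  unfold startV; rw [h]; rfl

theorem startV_pos {s : ℕ} (hs : s ≠ 0) (i t : ℕ) : startV R m τ sg hb σ s i t =
    outV R m τ hb σ s i t := by
  unfold startV; rw [h]; simp only [if_neg hs]

theorem defV_pos {s : ℕ} (hs : s ≠ 0) (i t : ℕ) : defV R m τ sg hb σ s i t = 0 := by
  unfold defV; rw [startV_pos R m τ sg hb h hs, two_eq_zero']

theorem defV_zero (i t : ℕ) : defV R m τ sg hb σ 0 i t =
    hRule m σ ρ τ i t + hb ρ.e0 i (ρ.lab 0 i t) := by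
  unfold defV
  rw [startV_zero R m τ sg hb h, outV_eq R m τ hb h, outV_eq R m τ hb h, outV_eq R m τ hb h]
  have e0 : valHP R m τ hb (ruleHub σ ρ 0 i t) = hb ρ.e0 i (ρ.lab 0 i t) := rfl
  have e1 : valHP R m τ hb (ruleHub σ ρ 1 i t) = prvV R m τ hb σ 0 i t := rfl
  have e2 : valHP R m τ hb (ruleHub σ ρ 2 i t) = prvV R m τ hb σ 1 i t := rfl
  rw [e0, e1, e2, prvV_zero R m τ hb h, prvV_one R m τ hb h]
  unfold hRule
  simp only [sum_range_succ, sum_range_zero, zero_add]
  have h1 := two_eq_zero' (hb ρ.e1 i (ρ.lab 1 i t))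
  have h2 := two_eq_zero' (hb ρ.e2 i (ρ.lab 2 i t))
  linear_combination h1 + h2

theorem gSol_junc {i t u : ℕ} (hu : u < 3) :
    gSol R m τ sg hb (juncNode σ i t u).1 + gSol R m τ sg hb (juncNode σ i t u).2.1 +
      gSol R m τ sg hb (juncNode σ i t u).2.2 = τ (juncNode σ i t u) := by
  have hst : ∀ s, gSol R m τ sg hb (Key.ch σ s i t 0) = startV R m τ sg hb σ s i t := by
    intro s
    simp only [gSol, sum_range_zero, add_zero]
  have e0 : gSol R m τ sg hb (juncNode σ i t u).1 = startV R m τ sg hb σ (3 * u) i t := hst _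
  have e1 : gSol R m τ sg hb (juncNode σ i t u).2.1 = startV R m τ sg hb σ (3 * u + 1) i t := hst _
  have e2 : gSol R m τ sg hb (juncNode σ i t u).2.2 = startV R m τ sg hb σ (3 * u + 2) i t := hst _
  rw [e0, e1, e2]
  interval_cases u
  · simp only [Nat.mul_zero, Nat.zero_add]
    rw [startV_zero R m τ sg hb h, startV_pos R m τ sg hb h (by norm_num),
      startV_pos R m τ sg hb h (by norm_num)]
    have h1 := two_eq_zero' (outV R m τ hb σ 1 i t)
    have h2 := two_eq_zero' (outV R m τ hb σ 2 i t)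
    linear_combination h1 + h2
  · simp only [Nat.mul_one, Nat.reduceAdd]
    rw [startV_pos R m τ sg hb h (by norm_num), startV_pos R m τ sg hb h (by norm_num),
      startV_pos R m τ sg hb h (by norm_num), outV_eq R m τ hb h, outV_eq R m τ hb h,
      outV_eq R m τ hb h]
    have e3 : valHP R m τ hb (ruleHub σ ρ 3 i t) = prvV R m τ hb σ 0 i t := rfl
    have e4 : valHP R m τ hb (ruleHub σ ρ 4 i t) = hb ρ.e1 i (ρ.lab 1 i t) := rfl
    have e5 : valHP R m τ hb (ruleHub σ ρ 5 i t) = hb ρ.e2 i (ρ.lab 2 i t) := rfl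
    rw [e3, e4, e5, prvV_zero R m τ hb h]
    have h1 := two_eq_zero' (hb ρ.e1 i (ρ.lab 1 i t))
    have h2 := two_eq_zero' (hb ρ.e2 i (ρ.lab 2 i t))
    have h3 := two_eq_zero' (chainSum r m σ 3 (ruleHub σ ρ 3) τ i t)
    have h4 := two_eq_zero' (chainSum r m σ 4 (ruleHub σ ρ 4) τ i t)
    have h5 := two_eq_zero' (chainSum r m σ 5 (ruleHub σ ρ 5) τ i t)
    linear_combination h1 + h2 + h3 + h4 + h5
  · simp only [Nat.reduceMul, Nat.reduceAdd]
    rw [startV_pos R m τ sg hb h (by norm_num), startV_pos R m τ sg hb h (by norm_num),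
      startV_pos R m τ sg hb h (by norm_num), outV_eq R m τ hb h, outV_eq R m τ hb h,
      outV_eq R m τ hb h]
    have e3 : valHP R m τ hb (ruleHub σ ρ 6 i t) = prvV R m τ hb σ 1 i t := rfl
    have e4 : valHP R m τ hb (ruleHub σ ρ 7 i t) = hb ρ.e1 i (ρ.lab 1 i t) := rfl
    have e5 : valHP R m τ hb (ruleHub σ ρ 8 i t) = hb ρ.e2 i (ρ.lab 2 i t) := rfl
    rw [e3, e4, e5, prvV_one R m τ hb h]
    have h1 := two_eq_zero' (hb ρ.e1 i (ρ.lab 1 i t))
    have h2 := two_eq_zero' (hb ρ.e2 i (ρ.lab 2 i t))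
    have h3 := two_eq_zero' (chainSum r m σ 6 (ruleHub σ ρ 6) τ i t)
    have h4 := two_eq_zero' (chainSum r m σ 7 (ruleHub σ ρ 7) τ i t)
    have h5 := two_eq_zero' (chainSum r m σ 8 (ruleHub σ ρ 8) τ i t)
    linear_combination h1 + h2 + h3 + h4 + h5

end rule

theorem num_even (ρ : Rule r) (J : Fin r) : ρ.num (2 * J) = (ρ.rel J).length := by
  unfold Rule.num
  have h : 2 * J.val / 2 < r := by have := J.2; omega
  rw [dif_pos h]
  congr 2
  ext1
  simp

theorem num_odd (ρ : Rule r) (J : Fin r) : ρ.num (2 * J + 1) = (ρ.rel J).length := by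
  unfold Rule.num
  have h : (2 * J.val + 1) / 2 < r := by have := J.2; omega
  rw [dif_pos h]
  congr 2
  ext1
  simp only
  omega

theorem lab_cw (ρ : Rule r) (tv : Fin r → ℕ) (i : ℕ) :
    ρ.lab 0 i (cw tv i) = cw (headAt ρ tv) i := by
  unfold Rule.lab cw headAt
  by_cases h : i / 2 < r
  · simp only [dif_pos h, if_true]
  · simp only [dif_neg h]

theorem exists_sol {A : ℕ} (hR : R.WF A) (hm : 2 * r < m) (hid : HasId R A)
    (c : ℕ → (Fin r → ℕ) → ZMod 2) (hc : GSol R m τ sg c) :
    ∃ g : Key → ZMod 2, (∀ p ∈ rxs R m, g p.1 + g p.2.1 + g p.2.2 = τ p) ∧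
      ∀ y ∈ rtk R m, g y = sg y := by
  classical
  -- hub values
  have hex : ∀ e : ℕ, ∃ hbe : ℕ → ℕ → ZMod 2, e ∈ R.preds → ∀ x : Fin r → ℕ, (∀ J, x J < A) →
      ∑ i ∈ range m, hbe i (cw x i) = c e x := by
    intro e
    by_cases he : e ∈ R.preds
    · obtain ⟨ρ, hρ, he0, hrel⟩ := hid e he
      obtain ⟨a, ha⟩ := List.getElem?_of_mem hρ
      refine ⟨fun i t => hRule m a ρ τ i t, fun _ x hx => ?_⟩
      have h1 := hc.rule a ρ ha x (fun J => by rw [hrel J, List.length_map, List.length_range]; exact hx J)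
      rw [← h1, he0]
      congr 1
      funext J
      unfold headAt
      rw [hrel J, List.getD_eq_getElem?_getD, List.getElem?_map, List.getElem?_range (hx J)]
      rfl
    · exact ⟨fun _ _ => 0, fun h => absurd h he⟩
  choose hb hbs using hex
  have memr : ∀ {σ : ℕ} {ρ : Rule r}, R.rules[σ]? = some ρ → ρ ∈ R.rules := fun h =>
    List.mem_of_getElem? h
  have pr0 : ∀ ρ ∈ R.rules, ρ.e0 ∈ R.preds := by
    intro ρ hρ
    unfold RSys.preds
    refine List.mem_cons_of_mem _ (List.mem_append_right _ (List.mem_flatMap.2 ⟨ρ, hρ, ?_⟩))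
    simp
  refine ⟨gSol R m τ sg hb, ?_, ?_⟩
  · intro p hp
    rcases mem_rxs.1 hp with ⟨σ, ρ, hσ, hp⟩ | ⟨b, f, hf, hp⟩
    · rcases mem_ruleNodes.1 hp with ⟨s, hs9, i, hi, t, ht, l, hl, rfl⟩ | ⟨i, hi, t, ht, u, hu, rfl⟩
      · have hk : ruleHub σ ρ s = hkOf R σ s := (hkOf_rule R hσ).symm
        rw [hk]
        refine gSol_slabNode R m τ sg hb hl ?_ ?_
        · rw [hkOf_rule R hσ]; exact gSol_ruleHub R m τ sg hb
        · by_cases hs0 : s = 0
          · subst hs0
            have hD : ∀ i t, defV R m τ sg hb σ 0 i t =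
                hRule m σ ρ τ i t + hb ρ.e0 i (ρ.lab 0 i t) := defV_zero R m τ sg hb hσ
            refine lgD_sum hm _ ρ.num ?_ ?_ ?_ ?_ hi ht
            · intro J hJ
              rw [num_even ρ ⟨J, hJ⟩]
              exact List.length_pos_of_ne_nil (hR.ne ρ (memr hσ) _)
            · intro J hJ
              rw [num_even ρ ⟨J, hJ⟩, num_odd ρ ⟨J, hJ⟩]
            · intro i hi
              unfold Rule.num
              rw [dif_neg (by omega)]
            · intro tv htv
              have htv' : ∀ J, tv J < (ρ.rel J).length := fun J => by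
                have := htv J; rwa [num_even] at this
              simp only [hD, sum_add_distrib]
              rw [← hc.rule σ ρ hσ tv htv']
              simp only [lab_cw]
              rw [hbs ρ.e0 (pr0 ρ (memr hσ)) (headAt ρ tv) ?_, two_eq_zero']
              intro J
              unfold headAt
              rw [List.getD_eq_getElem _ _ (htv' J)]
              exact (hR.lt ρ (memr hσ) J _ (List.getElem_mem _)).1
          · have hD : ∀ i t, defV R m τ sg hb σ s i t = 0 := defV_pos R m τ sg hb hσ hs0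
            rw [hD]
            refine sum_eq_zero fun l _ => ?_
            unfold lgD latD LL
            simp only [hD]
            split_ifs <;> simp
      · exact gSol_junc R m τ sg hb hσ hu
    · obtain ⟨i, hi, l, hl, rfl⟩ := mem_factNodes.1 hp
      have hk : factHub f = hkOf R (R.rules.length + b) 0 := (hkOf_fact R hf).symm
      rw [hk]
      refine gSol_slabNode R m τ sg hb hl ?_ ?_
      · rw [hkOf_fact R hf]; exact gSol_factHub R m τ sg hb
      · have hD : ∀ i, defV R m τ sg hb (R.rules.length + b) 0 i 0 =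
            hFact m (R.rules.length + b) f τ sg i + hb f.1 i (cw f.2 i) := by
          intro i
          have e1 : startV R m τ sg hb (R.rules.length + b) 0 i 0 =
              sg (Key.ch (R.rules.length + b) 0 i 0 0) := by
            unfold startV
            rw [List.getElem?_eq_none (by omega)]
          have e2 : valHP R m τ hb (factHub f i 0) = hb f.1 i (cw f.2 i) := by
            unfold factHub cw
            split_ifs <;> rfl
          unfold defV outV hFact
          rw [e1, hkOf_fact R hf, e2]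
          abel
        refine lgD_sum hm _ (fun _ => 1) (fun _ _ => Nat.one_pos) (fun _ _ => rfl)
          (fun _ _ => rfl) ?_ hi Nat.one_pos
        intro tv htv
        have hcw : ∀ i, cw tv i = 0 := by
          intro i
          unfold cw
          split_ifs with h
          · have := htv ⟨i / 2, h⟩; omega
          · rfl
        simp only [hcw, hD, sum_add_distrib]
        have hfm : f ∈ R.ax ++ [R.goal] := List.mem_of_getElem? hf
        rw [← hc.fact b f hf, hbs f.1 ?_ f.2 ?_, two_eq_zero']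
        · unfold RSys.preds
          rw [List.mem_append, List.mem_singleton] at hfm
          rcases hfm with h | h
          · exact List.mem_cons_of_mem _ (List.mem_append_left _ (List.mem_map_of_mem h))
          · rw [h]; exact List.mem_cons_self
        · intro J
          rw [List.mem_append, List.mem_singleton] at hfm
          rcases hfm with h | h
          · exact hR.ltax f h J
          · rw [h]; exact hR.ltgoal J
  · intro y hy
    obtain ⟨b, _, i, _, rfl⟩ := mem_rtk.1 hy
    simp only [gSol, sum_range_zero, add_zero]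
    unfold startV
    rw [List.getElem?_eq_none (by omega)]

end Crest.Agent.R290
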