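import Mathlib
import Crest.Agent.R290.JDefs

/-!
Row 290, J4 (helper43): a global solution of the difference system of two twisted graphs (same keys)
gives an isomorphism.
-/
set_option autoImplicit false

namespace Crest.Agent.R290

open Crest.WLRefine Finset

/-- directed adjacency of the abstract graph: `nx` chains of ports, `tb` twists, `tv` unary values -/
def dC {X T : ℕ} (nx : ℕ → ℕ → Bool) (tb : Fin X → Bool) (tv : Fin T → Bool) :
    GV X T → GV X T → Bool
  | .rt, .rl _ => true
  | .rt, .bb p s => decide (p.val = 0) && !s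
  | .bb p s, .bb q s' => (decide (p = q) && !s && s') || (decide (p.val + 1 = q.val) && s && !s')
  | .bb p s, .fr q s' => decide (p = q) && (s == s')
  | .fr p s, .fp q s' _ => decide (p = q) && (s == s')
  | .fp p s b, .fp q s' b' => decide (p = q) && !s && s' && (b == b')
  | .fp p s b, .cp q b' => decide (p = q) && s && (b == b')
  | .cp p b, .cp q b' => nx p q && (b == b')
  | .op v d b, .fp q s b' => decide (3 * v.val + d.val = q.val) && !s && (b == b')
  | .gd v z0 z1, .op v' d b => decide (v = v') && (gzT (tb v) z0 z1 d == b)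
  | .t1 j, .fp q s b => decide (3 * X + j.val = q.val) && !s && (b == tv j)
  | .t1 j, .t2 j' => decide (j = j')
  | _, _ => false

/-- the shift of the bits by `σ : port → Bool` -/
def shf {X T : ℕ} (σ : ℕ → Bool) : GV X T → GV X T
  | .rt => .rt
  | .rl b => .rl b
  | .bb p s => .bb p s
  | .fr p s => .fr p s
  | .fp p s b => .fp p s (Bool.xor b (σ p))
  | .cp p b => .cp p (Bool.xor b (σ p))
  | .op v d b => .op v d (Bool.xor b (σ (3 * v.val + d.val)))
  | .gd v z0 z1 => .gd v (Bool.xor z0 (σ (3 * v.val))) (Bool.xor z1 (σ (3 * v.val + 1)))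
  | .t1 j => .t1 j
  | .t2 j => .t2 j

theorem shf_shf {X T : ℕ} (σ : ℕ → Bool) (u : GV X T) : shf σ (shf σ u) = u := by
  cases u <;> simp [shf]

theorem beq_xor_aux (P b b' c c' : Bool) (h : P = true → c = c') :
    (P && (b == b')) = (P && ((Bool.xor b c) == (Bool.xor b' c'))) := by
  cases P
  · rfl
  · rw [h rfl]
    cases b <;> cases b' <;> cases c' <;> rfl

theorem dC_shf {X T : ℕ} (nx : ℕ → ℕ → Bool) (tb tb' : Fin X → Bool) (tv tv' : Fin T → Bool)
    (σ : ℕ → Bool) (hnx : ∀ p q, nx p q = true → σ p = σ q)
    (hb : ∀ v : Fin X, Bool.xor (tb v) (tb' v) = Bool.xor (Bool.xor (σ (3 * v.val))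
      (σ (3 * v.val + 1))) (σ (3 * v.val + 2)))
    (hv : ∀ j : Fin T, Bool.xor (tv j) (tv' j) = σ (3 * X + j.val)) (u v : GV X T) :
    dC nx tb tv u v = dC nx tb' tv' (shf σ u) (shf σ v) := by
  cases u <;> cases v <;> try rfl
  case fp.fp p s b q s' b' =>
    simp only [dC, shf]
    apply beq_xor_aux
    intro h
    simp only [Bool.and_eq_true, decide_eq_true_eq] at h
    rw [h.1.1]
  case fp.cp p s b q b' =>
    simp only [dC, shf]
    apply beq_xor_aux
    intro h
    simp only [Bool.and_eq_true, decide_eq_true_eq] at h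
    rw [h.1]
  case cp.cp p b q b' =>
    simp only [dC, shf]
    apply beq_xor_aux
    intro h
    exact hnx _ _ h
  case op.fp v d b q s b' =>
    simp only [dC, shf]
    apply beq_xor_aux
    intro h
    simp only [Bool.and_eq_true, decide_eq_true_eq] at h
    rw [h.1]
  case gd.op v z0 z1 v' d b =>
    simp only [dC, shf]
    by_cases h : v = v'
    · subst h
      simp only [decide_true, Bool.true_and]
      have hb1 := hb v
      obtain ⟨d, hd⟩ := d
      interval_cases d
      · simp only [gzT, if_true]
        exact beq_xor_aux true z0 b _ _ fun _ => rfl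
      · simp only [gzT, if_true, one_ne_zero, if_false]
        exact beq_xor_aux true z1 b _ _ fun _ => rfl
      · have e1 : (2 : ℕ) ≠ 0 := by norm_num
        have e2 : (2 : ℕ) ≠ 1 := by norm_num
        simp only [gzT, if_neg e1, if_neg e2]
        revert hb1
        generalize σ (3 * v.val) = s0
        generalize σ (3 * v.val + 1) = s1
        generalize σ (3 * v.val + 2) = s2
        generalize tb v = a
        generalize tb' v = a'
        revert s0 s1 s2 a a' z0 z1 b
        decide
    · simp [h]
  case t1.fp j q s b =>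
    simp only [dC, shf]
    by_cases h : 3 * X + j.val = q.val
    · have h1 := hv j
      rw [h] at h1
      simp only [h, decide_true, Bool.true_and]
      rw [← h1]
      generalize tv j = a
      generalize tv' j = a'
      cases s <;> cases a <;> cases a' <;> cases b <;> rfl
    · simp [h]

/-- isomorphism of the abstract graphs -/
theorem dC_iso {X T T' : ℕ} (hT : T = T') (nx : ℕ → ℕ → Bool) (tb tb' : Fin X → Bool)
    (tv : Fin T → Bool) (tv' : Fin T' → Bool)
    (σ : ℕ → Bool) (hnx : ∀ p q, nx p q = true → σ p = σ q)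
    (hb : ∀ v : Fin X, Bool.xor (tb v) (tb' v) = Bool.xor (Bool.xor (σ (3 * v.val))
      (σ (3 * v.val + 1))) (σ (3 * v.val + 2)))
    (hv : ∀ j : Fin T, Bool.xor (tv j) (tv' (Fin.cast hT j)) = σ (3 * X + j.val)) :
    ∃ e : GV X T ≃ GV X T', ∀ u v, dC nx tb tv u v = dC nx tb' tv' (e u) (e v) := by
  subst hT
  exact ⟨⟨shf σ, shf σ, shf_shf σ, shf_shf σ⟩, fun u v => dC_shf nx tb tb' tv tv' σ hnx hb hv u v⟩

variable {κ : Type} [DecidableEq κ]

theorem dadjT_eq_dC (xs : List (κ × κ × κ)) (ts : List (κ × Bool)) (tw : κ × κ × κ → Bool) :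
    dadjT xs ts tw = dC (fun p q => isNext (portKeys xs ts) p q) (fun v => tw (xs.get v))
      (fun j => (ts.get j).2) := by
  funext u v
  cases u <;> cases v <;> rfl

omit [DecidableEq κ] in
theorem flat3_length (xs : List (κ × κ × κ)) :
    (xs.flatMap fun c => [c.1, c.2.1, c.2.2]).length = 3 * xs.length := by
  induction xs with
  | nil => rfl
  | cons a l ih =>
    rw [List.flatMap_cons, List.length_append, ih, List.length_cons]
    simp only [List.length_cons, List.length_nil]
    omega

omit [DecidableEq κ] in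
theorem flat3_get (xs : List (κ × κ × κ)) (v : ℕ) (hv : v < xs.length) :
    (xs.flatMap fun c => [c.1, c.2.1, c.2.2])[3 * v]? = some (xs[v].1) ∧
    (xs.flatMap fun c => [c.1, c.2.1, c.2.2])[3 * v + 1]? = some (xs[v].2.1) ∧
    (xs.flatMap fun c => [c.1, c.2.1, c.2.2])[3 * v + 2]? = some (xs[v].2.2) := by
  induction xs generalizing v with
  | nil => simp at hv
  | cons a l ih =>
    rw [List.flatMap_cons]
    cases v with
    | zero => simp
    | succ v =>
      have hv' : v < l.length := by simpa using hv
      obtain ⟨h1, h2, h3⟩ := ih v hv'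
      have e1 : 3 * (v + 1) = 3 * v + 3 := by ring
      have e2 : 3 * (v + 1) + 1 = 3 * v + 1 + 3 := by ring
      have e3 : 3 * (v + 1) + 2 = 3 * v + 2 + 3 := by ring
      refine ⟨?_, ?_, ?_⟩
      · rw [e1, List.getElem?_append_right (by simp)]
        simpa using h1
      · rw [e2, List.getElem?_append_right (by simp)]
        simpa using h2
      · rw [e3, List.getElem?_append_right (by simp)]
        simpa using h3

omit [DecidableEq κ] in
theorem portKeys_map {β : Type} (xs : List (κ × κ × κ)) (tk : List κ) (f : κ → β) :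
    portKeys xs (tk.map fun y => (y, f y)) = (xs.flatMap fun c => [c.1, c.2.1, c.2.2]) ++ tk := by
  unfold portKeys
  rw [List.map_map]
  congr 1
  exact List.map_id _

/-- `ZMod 2` to bits -/
def zt (a : ZMod 2) : Bool := decide (a = 1)

theorem zt_tz (b : Bool) : zt (tz b) = b := by cases b <;> decide

theorem zt_add (a b : ZMod 2) : zt (a + b) = Bool.xor (zt a) (zt b) := by
  revert a b; decide

/-- a global solution of the difference system gives an isomorphism -/
theorem giso_of_sol (xs : List (κ × κ × κ)) (tk : List κ) (f f' : κ → Bool)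
    (tw tw' : κ × κ × κ → Bool) (g : κ → ZMod 2)
    (hx : ∀ p ∈ xs, g p.1 + g p.2.1 + g p.2.2 = tz (Bool.xor (tw p) (tw' p)))
    (ht : ∀ y ∈ tk, g y = tz (Bool.xor (f y) (f' y))) :
    ∃ e : GV xs.length (tk.map fun y => (y, f y)).length ≃
        GV xs.length (tk.map fun y => (y, f' y)).length,
      ∀ u v, gadjT xs (tk.map fun y => (y, f y)) tw u v =
        gadjT xs (tk.map fun y => (y, f' y)) tw' (e u) (e v) := by
  set pk : List κ := (xs.flatMap fun c => [c.1, c.2.1, c.2.2]) ++ tk with hpk
  set σ : ℕ → Bool := fun p => match pk[p]? with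
    | some y => zt (g y)
    | none => false with hσ
  have hσ' : ∀ p y, pk[p]? = some y → σ p = zt (g y) := by
    intro p y h
    simp only [hσ, h]
  have hlen := flat3_length xs
  have hget : ∀ v (hv : v < xs.length), pk[3 * v]? = some (xs[v].1) ∧
      pk[3 * v + 1]? = some (xs[v].2.1) ∧ pk[3 * v + 2]? = some (xs[v].2.2) := by
    intro v hv
    obtain ⟨h1, h2, h3⟩ := flat3_get xs v hv
    rw [hpk]
    rw [List.getElem?_append_left (by omega), List.getElem?_append_left (by omega),
      List.getElem?_append_left (by omega)]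
    exact ⟨h1, h2, h3⟩
  obtain ⟨e, he⟩ := dC_iso (X := xs.length) (T := (tk.map fun y => (y, f y)).length)
    (T' := (tk.map fun y => (y, f' y)).length) (by simp)
    (fun p q => isNext pk p q) (fun v => tw (xs.get v)) (fun v => tw' (xs.get v))
    (fun j => ((tk.map fun y => (y, f y)).get j).2) (fun j => ((tk.map fun y => (y, f' y)).get j).2)
    σ (by
      intro p q h
      simp only [isNext, decide_eq_true_eq] at h
      simp only [hσ, h.2.1]) (by
      intro v
      obtain ⟨h1, h2, h3⟩ := hget v.val v.isLt
      rw [hσ' _ _ h1, hσ' _ _ h2, hσ' _ _ h3, ← zt_add, ← zt_add, hx _ (List.getElem_mem _), zt_tz]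
      rfl) (by
      intro j
      have hj : j.val < tk.length := by simpa using j.isLt
      have h1 : pk[3 * xs.length + j.val]? = some (tk[j.val]) := by
        rw [hpk, List.getElem?_append_right (by omega), hlen, Nat.add_sub_cancel_left]
        exact List.getElem?_eq_getElem hj
      rw [hσ' _ _ h1, ht _ (List.getElem_mem _), zt_tz]
      simp)
  refine ⟨e, fun u v => ?_⟩
  have h1 : dadjT xs (tk.map fun y => (y, f y)) tw = dC (fun p q => isNext pk p q)
      (fun v => tw (xs.get v)) (fun j => ((tk.map fun y => (y, f y)).get j).2) := by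
    rw [dadjT_eq_dC, portKeys_map]
  have h2 : dadjT xs (tk.map fun y => (y, f' y)) tw' = dC (fun p q => isNext pk p q)
      (fun v => tw' (xs.get v)) (fun j => ((tk.map fun y => (y, f' y)).get j).2) := by
    rw [dadjT_eq_dC, portKeys_map]
  unfold gadjT
  rw [h1, h2, he u v, he v u]

end Crest.Agent.R290
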