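import Crest.Agent.R290.J1Main
import Crest.Agent.R290.D1Fwd
import Crest.Agent.R290.D1List
import Crest.Agent.R290.B

/-!
Row 290, J1b (helper43, from helper49's D1): equivalence of twisted graphs gives consistency of the
difference system.
-/
set_option autoImplicit false

namespace Crest.Agent.R290

/-- equivalence of twisted graphs gives consistency of the difference system -/
theorem j1b {κ : Type} [DecidableEq κ] (xs : List (κ × κ × κ)) (tk : List κ) (f f' : κ → Bool)
    (tw tw' : κ × κ × κ → Bool) {k : ℕ} (hx : xs ≠ []) (hk : 4 ≤ k)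
    (h : JEq k (gadjT xs (tk.map fun y => (y, f y)) tw)
      (gadjT xs (tk.map fun y => (y, f' y)) tw')) : (dsysT xs tk f f' tw tw').Cons k := by
  obtain ⟨e1, he1⟩ := gadjT_map_iso xs tk f tw
  obtain ⟨e2, he2⟩ := gadjT_map_iso xs tk f' tw'
  refine cons_of_jeq (mod_dsysT xs tk f f' tw tw') ?_ hk ?_
  · have : 0 < xs.length := List.length_pos_of_ne_nil hx
    omega
  · exact ((JEq_of_iso e1 he1).symm'.trans' h).trans' (JEq_of_iso e2 he2)

end Crest.Agent.R290
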