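import Mathlib
import Crest.Agent.R290.D2

/-!
Row 290, J (helper43): the system of a rule system whose goal fact is the head of a rule has no global
solution; a system which is consistent with very many pebbles has a global solution.
-/
set_option autoImplicit false

namespace Crest.Agent.R290

open Finset

/-- the system has no global solution -/
theorem no_sol {r : ℕ} (R : RSys r) {m : ℕ} (hm : 2 * r < m) (hm2 : 2 ≤ m)
    (hgoal : ∃ ρ ∈ R.rules, ρ.e0 = R.goal.1 ∧ ∀ J, ∃ t ∈ ρ.rel J, t.1 = R.goal.2 J) :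
    ¬ ∃ g : Key → ZMod 2, (∀ c ∈ rxs R m, g c.1 + g c.2.1 + g c.2.2 = 0) ∧
      ∀ y ∈ rtk R m, g y = if y = gkey R then 1 else 0 := by
  rintro ⟨g, h1, h2⟩
  obtain ⟨ρ, hρ, he, hrel⟩ := hgoal
  choose t ht htx using hrel
  -- the family of all parts of `g`
  let H : Finset (Item Key) → (Key → ZMod 2) → Prop := fun S h =>
    ∀ p ∈ S, (∀ c, p = Item.nod c → c ∈ rxs R m) ∧ ∀ x ∈ p.vars, h x = g x
  have hF : FamX (rxs R m) (fun _ => 0) m H := by
    refine ⟨⟨g, fun p hp => absurd hp (notMem_empty p)⟩, ?_, ?_⟩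
    · intro S h hS c hc
      obtain ⟨h3, h4⟩ := hS _ hc
      rw [h4 c.1 (by simp [Item.vars]), h4 c.2.1 (by simp [Item.vars]),
        h4 c.2.2 (by simp [Item.vars])]
      exact h1 c (h3 c rfl)
    · intro S h hS c hc p hp
      refine ⟨g, fun q hq x hx => ((hS q hq).2 x hx).symm, fun S' hS' _ q hq => ?_⟩
      refine ⟨?_, fun x _ => rfl⟩
      rcases mem_insert.1 (hS' hq) with rfl | hq'
      · intro c' hc'
        rcases hp with rfl | ⟨x, _, rfl⟩
        · cases hc'; exact hc
        · cases hc'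
      · exact (hS q hq').1
  have hpos : ∀ y : Fin m → Key, PosF H (fun i => Item.var (y i)) g := by
    intro y p hp
    obtain ⟨i, _, rfl⟩ := mem_image.1 hp
    exact ⟨fun c hc => (by cases hc), fun x _ => rfl⟩
  have hzc : ∀ y : Fin m → Key, ZC H y (∑ i, g (y i)) := by
    intro y h hh
    refine sum_congr rfl fun i _ => ?_
    exact (hh (Item.var (y i)) (mem_image_of_mem _ (mem_univ i))).2 (y i) (by simp [Item.vars])
  -- the head of the rule
  obtain ⟨a, ha, ha'⟩ := List.getElem_of_mem hρ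
  obtain ⟨tt, htt, ttw⟩ := exists_ridx (m := m) ρ (fun J => (t J).1) (fun J => (t J).2.1)
    (fun J => (t J).2.2) (fun J => ht J)
  have hz := zc_rule hF hm2 (fun c hc => hc) (by rw [List.getElem?_eq_getElem ha, ha']) _ _ _ tt htt
    ttw (hzc _) (hzc _)
  rw [ruleC_zero, he] at hz
  have hx : (fun J => (t J).1) = R.goal.2 := funext htx
  rw [hx] at hz
  -- the goal slab
  have hg : (R.ax ++ [R.goal])[R.ax.length]? = some R.goal := by
    rw [List.getElem?_append_right le_rfl]; simp
  have hz1 := (zc_fact hF hm2 (fun c hc => hc) hg _).1 (hzc _)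
  rw [slabC_zero, add_zero] at hz1
  have hz2 := hz g (hpos _)
  have hz3 := hz1 g (hpos _)
  rw [hz2] at hz3
  have hs : ∑ i : Fin m, g (Key.ch (R.rules.length + R.ax.length) 0 i 0 0) = 1 := by
    rw [Finset.sum_eq_single_of_mem (⟨2 * r, hm⟩ : Fin m) (mem_univ _)]
    · rw [h2 _ (mem_rtk' R.ax.length (by omega) (2 * r) hm)]
      exact if_pos rfl
    · intro i _ hi
      rw [h2 _ (mem_rtk' R.ax.length (by omega) i.val i.isLt), if_neg]
      unfold gkey
      rw [Key.ch.injEq]
      rintro ⟨-, -, h, -⟩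
      exact hi (Fin.ext h)
  rw [hs] at hz3
  exact absurd hz3 (by decide)
where
  mem_rtk' {r : ℕ} {R : RSys r} {m : ℕ} (b : ℕ) (hb : b < R.ax.length + 1) (i : ℕ) (hi : i < m) :
      Key.ch (R.rules.length + b) 0 i 0 0 ∈ rtk R m := by
    unfold rtk
    rw [List.mem_flatMap]
    exact ⟨b, List.mem_range.2 hb, List.mem_map.2 ⟨i, List.mem_range.2 hi, rfl⟩⟩

/-- consistency with very many pebbles gives a global solution -/
theorem cons_global {κ : Type} [DecidableEq κ] {s : CSys κ} {k : ℕ} (I : Finset (Item κ))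
    (hI : ∀ p ∈ I, s.IsItem p) (hk : I.card ≤ k) (h : s.Cons k) : ∃ g, ∀ p ∈ I, s.Ok g p := by
  obtain ⟨H, hF⟩ := h
  have key : ∀ J : Finset (Item κ), J ⊆ I → ∃ g, H J g := by
    intro J
    induction J using Finset.induction_on with
    | empty => exact fun _ => hF.start
    | insert p J hp ih =>
      intro hJ
      obtain ⟨g, hg⟩ := ih fun x hx => hJ (mem_insert_of_mem hx)
      obtain ⟨g', -, -, h3⟩ := hF.ext J g hg p (hI p (hJ (mem_insert_self p J)))
      exact ⟨g', h3 _ Subset.rfl ((card_le_card hJ).trans hk)⟩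
  obtain ⟨g, hg⟩ := key I Subset.rfl
  exact ⟨g, fun p hp => hF.ok I g hg p hp⟩

/-- consistency of `csys R m` with all numbers of pebbles is impossible -/
theorem not_cons_all {r : ℕ} (R : RSys r) {m : ℕ} (hm : 2 * r < m) (hm2 : 2 ≤ m)
    (hgoal : ∃ ρ ∈ R.rules, ρ.e0 = R.goal.1 ∧ ∀ J, ∃ t ∈ ρ.rel J, t.1 = R.goal.2 J) :
    ∃ k0, ∀ k, k0 ≤ k → ¬ (csys R m).Cons k := by
  classical
  let I : Finset (Item Key) := ((portKeys (csys R m).xs (csys R m).ts).map Item.var).toFinset ∪
    ((csys R m).xs.map Item.nod).toFinset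
  refine ⟨I.card, fun k hk hc => no_sol R hm hm2 hgoal ?_⟩
  obtain ⟨g, hg⟩ := cons_global I (by
    intro p hp
    rcases mem_union.1 hp with hp | hp
    · rw [List.mem_toFinset, List.mem_map] at hp
      obtain ⟨y, hy, rfl⟩ := hp
      exact hy
    · rw [List.mem_toFinset, List.mem_map] at hp
      obtain ⟨y, hy, rfl⟩ := hp
      exact hy) hk hc
  refine ⟨g, fun c hc => ?_, fun y hy => ?_⟩
  · exact hg (.nod c) (mem_union_right _ (List.mem_toFinset.2 (List.mem_map_of_mem hc)))
  · have hts : (y, if y = gkey R then (1 : ZMod 2) else 0) ∈ (csys R m).ts :=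
      List.mem_map.2 ⟨y, hy, rfl⟩
    have hv : y ∈ portKeys (csys R m).xs (csys R m).ts := by
      unfold portKeys
      rw [List.mem_append]
      exact Or.inr (List.mem_map.2 ⟨_, hts, rfl⟩)
    exact hg (.var y) (mem_union_left _ (List.mem_toFinset.2 (List.mem_map_of_mem hv))) _ hts

end Crest.Agent.R290
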