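import Mathlib
import Crest.Agent.R290.B
import Crest.Agent.R290.MSys
import Crest.Agent.R290.JIn
import Crest.Agent.R290.J1Main
import Crest.Agent.R290.J2
import Crest.Agent.R290.J3
import Crest.Agent.R290.J4
import Crest.Agent.R290.JNoSol

/-!
Row 290, J (helper43): assembly of module J (no sorry).

* `J_accept`: a full rule system with identity rules: every graph which is equivalent to `adjG R m`
  in dimension `m` is isomorphic to it.
* `J_reject`: the two graphs are not isomorphic.
* `msys_hasId`.
-/
set_option autoImplicit false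

namespace Crest.Agent.R290

open Finset

theorem rxs_ne_nil' {r : ℕ} (R : RSys r) {m : ℕ} (hm : 4 ≤ m) : rxs R m ≠ [] := by
  have hg : (R.ax ++ [R.goal])[R.ax.length]? = some R.goal := by
    rw [List.getElem?_append_right le_rfl]; simp
  have h : slabNode r m (R.rules.length + R.ax.length) 0 (factHub R.goal) 0 0 0 ∈ rxs R m :=
    mem_rxs.2 (Or.inr ⟨R.ax.length, R.goal, hg, mem_factNodes.2 ⟨0, by omega, 0, by omega, rfl⟩⟩)
  intro h0
  rw [h0] at h
  simp at h

/-- accepting side -/
theorem J_accept {r : ℕ} (R : RSys r) {A m : ℕ} (hR : R.WF A)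
    (hm : 2 * r < m) (hm8 : 8 ≤ m)
    (hfull : R.Full A) (hid : HasId R A)
    {V : Type} [Fintype V] [DecidableEq V] (H' : V → V → Bool) (h : JEq m (adjG R m) H') :
    ∃ e : GV (rxs R m).length (rts0 R m).length ≃ V, ∀ u v, H' (e u) (e v) = adjG R m u v := by
  have hne : 0 < (rxs R m).length := List.length_pos_of_ne_nil (rxs_ne_nil' R (by omega))
  obtain ⟨tw, e1, he1⟩ := j1a (rxs R m) (rts0 R m) hm8 (by omega) H' h
  have h2 : JEq m (gadjT (rxs R m) ((rtk R m).map fun y => (y, false)) (fun _ => false))
      (gadjT (rxs R m) ((rtk R m).map fun y => (y, false)) tw) := by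
    have h3 : JEq m H' (gadjT (rxs R m) (rts0 R m) tw) := JEq_of_iso e1 he1
    have h4 := h.trans' h3
    rw [gadjT_false]
    exact h4
  have h5 := j1b (rxs R m) (rtk R m) (fun _ => false) (fun _ => false) (fun _ => false) tw
    (rxs_ne_nil' R (by omega)) (by omega) h2
  obtain ⟨c, hc⟩ := gsol_of_cons R hR hm (by omega) hfull (fun c => tz (Bool.xor false (tw c)))
    (fun _ => tz (Bool.xor false false)) h5
  obtain ⟨g, hg1, hg2⟩ := exists_sol R m (fun c => tz (Bool.xor false (tw c)))
    (fun _ => tz (Bool.xor false false)) hR hm hid c hc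
  obtain ⟨e2, he2⟩ := giso_of_sol (rxs R m) (rtk R m) (fun _ => false) (fun _ => false)
    (fun _ => false) tw g hg1 hg2
  let e2' : GV (rxs R m).length (rts0 R m).length ≃ GV (rxs R m).length (rts0 R m).length := e2
  refine ⟨e2'.trans e1.symm, fun u v => ?_⟩
  have h6 : adjG R m u v = gadjT (rxs R m) (rts0 R m) tw (e2' u) (e2' v) := by
    have h7 := he2 u v
    rw [gadjT_false] at h7
    exact h7
  rw [h6, Equiv.trans_apply, Equiv.trans_apply, ← he1, Equiv.apply_symm_apply,
    Equiv.apply_symm_apply]

theorem csys_eq_dsysT {r : ℕ} (R : RSys r) (m : ℕ) :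
    (csys R m).toT = dsysT (rxs R m) (rtk R m) (fun _ => false) (fun y => decide (y = gkey R))
      (fun _ => false) (fun _ => false) := by
  unfold csys CSys.toT dsysT tz
  congr 1
  refine List.map_congr_left fun y _ => ?_
  by_cases h : y = gkey R <;> simp [h]

/-- rejecting side: the two graphs are not isomorphic -/
theorem J_reject {r : ℕ} (R : RSys r) {m : ℕ} (hm : 2 * r < m) (hm4 : 4 ≤ m)
    (hgoal : ∃ ρ ∈ R.rules, ρ.e0 = R.goal.1 ∧ ∀ J, ∃ t ∈ ρ.rel J, t.1 = R.goal.2 J) :
    ¬ ∃ e : GV (rxs R m).length (rts0 R m).length ≃ GV (rxs R m).length (rts1 R m).length,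
      ∀ u v, adjH R m (e u) (e v) = adjG R m u v := by
  rintro ⟨e, he⟩
  obtain ⟨k0, hk0⟩ := not_cons_all R hm (by omega) hgoal
  refine hk0 (max k0 4) (le_max_left _ _) ?_
  have h := JEq_of_iso (k := max k0 4) e he
  rw [← consT_zero, csys_eq_dsysT]
  refine j1b (rxs R m) (rtk R m) (fun _ => false) (fun y => decide (y = gkey R))
    (fun _ => false) (fun _ => false) (rxs_ne_nil' R hm4) (le_max_right _ _) ?_
  rw [gadjT_false, gadjT_false]
  exact h

/-- the machine systems have identity rules for all predicates -/
theorem msys_hasId (M : SMD) (x : List ℕ) (A R : ℕ) : HasId (msys M x A R) A := by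
  intro e he
  have hacc : pAcc ∈ basePreds M x A R := by
    unfold basePreds
    refine List.mem_cons_of_mem _ (List.mem_append_right _ (List.mem_flatMap.2
      ⟨mkR R pGoal pAcc pAcc dZero dZero, ?_, by simp [mkR]⟩))
    unfold baseRules
    simp
  have hb : e ∈ basePreds M x A R := by
    unfold RSys.preds at he
    rcases List.mem_cons.1 he with h | h
    · rw [h]
      exact List.mem_cons_self
    rcases List.mem_append.1 h with h | h
    · exact List.mem_cons_of_mem _ (List.mem_append_left _ h)
    · obtain ⟨ρ, hρ, he'⟩ := List.mem_flatMap.1 h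
      have hρ' : ρ ∈ baseRules M A R ++ floodAcc A R ++
        (basePreds M x A R).map fun e => idR A R e pAcc pAcc := hρ
      rcases List.mem_append.1 hρ' with h | h
      · rcases List.mem_append.1 h with h | h
        · exact List.mem_cons_of_mem _ (List.mem_append_right _ (List.mem_flatMap.2 ⟨ρ, h, he'⟩))
        · unfold floodAcc at h
          obtain ⟨J, _, h⟩ := List.mem_flatMap.1 h
          simp only [List.mem_cons, List.not_mem_nil, or_false] at h
          rcases h with rfl | rfl
          · simp only [List.mem_cons, List.not_mem_nil, or_false, or_self] at he'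
            rw [he']; exact hacc
          · simp only [List.mem_cons, List.not_mem_nil, or_false, or_self] at he'
            rw [he']; exact hacc
      · obtain ⟨e', he'', rfl⟩ := List.mem_map.1 h
        simp only [idR, mkR, List.mem_cons, List.not_mem_nil, or_false, or_self] at he'
        rcases he' with rfl | rfl
        · exact he''
        · exact hacc
  refine ⟨idR A R e pAcc pAcc, List.mem_append_right _ (List.mem_map.2 ⟨e, hb, rfl⟩), rfl, ?_⟩
  intro J
  show (if J.val < R then dSame A J.val else dSame A (J.val - R)) = _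
  split_ifs <;> rfl

end Crest.Agent.R290
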