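import Crest.Agent.R290.F
import Crest.Agent.R290.E
import Crest.Agent.R290.JMain

/-!
Row 290, MODULE J (identification): `ident`, `not_iso` from JMain (helper43).
-/
set_option autoImplicit false

namespace Crest.Agent.R290

open Crest.WLRefine

/-- hypotheses on the parameters -/
structure GP.Good (p : GP) : Prop where
  wf : SWF (unSMD p.1)
  sym : ∀ a ∈ p.2.1, a < (unSMD p.1).2.2
  base : 2 ≤ p.2.2.1.val
  pos : 1 ≤ gR p
  del : 1 ≤ p.2.2.2.2.val

theorem GP.Good.lt {p : GP} (hp : p.Good) : 2 * (2 * gR p) < gm p := by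
  have := hp.del
  unfold gm
  omega

theorem GP.Good.four {p : GP} (hp : p.Good) : 4 ≤ gm p := by
  have := hp.pos
  unfold gm
  omega

/-- if the goal is derivable then `adjG` is identified in dimension `gm p` -/
theorem ident {p : GP} (hp : p.Good) (h8 : 8 ≤ gm p)
    (hd : Der (gsys p) (gsys p).goal.1 (gsys p).goal.2)
    {n : ℕ} (adj' : Fin n → Fin n → Bool) (h : JEq (gm p) (gphG p) adj') :
    ∃ e : GV (rxs (gsys p) (gm p)).length (rts0 (gsys p) (gm p)).length ≃ Fin n,
      ∀ a b, adj' (e a) (e b) = gphG p a b :=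
  J_accept (gsys p) (A := p.2.2.1.val) (msys_wf hp.wf hp.sym hp.base hp.pos) hp.lt h8
    (msys_full hp.wf hp.base hp.pos hd) (msys_hasId _ _ _ _) adj' h

/-- the two graphs are never isomorphic -/
theorem not_iso {p : GP} (hp : p.Good) :
    ¬ ∃ e : GV (rxs (gsys p) (gm p)).length (rts0 (gsys p) (gm p)).length ≃
        GV (rxs (gsys p) (gm p)).length (rts1 (gsys p) (gm p)).length,
      ∀ a b, gphH p (e a) (e b) = gphG p a b :=
  J_reject (gsys p) hp.lt hp.four msys_goal

end Crest.Agent.R290
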