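import Crest.Agent.R290.C
import Crest.Agent.R290.D1
import Crest.Agent.R290.D2
import Crest.Agent.R290.E
import Crest.Agent.R290.F
import Crest.Agent.R290.J
import Crest.Agent.R290.HCode

/-!
Row 290: the main equivalences, from the module interfaces (helper85).
-/
set_option autoImplicit false

namespace Crest.Agent.R290

open Crest.WLRefine Crest.Agent.PolyT Crest.Enc

theorem gm_ge {p : GP} (hp : p.Good) : 5 ≤ gm p := by
  have := hp.pos; have := hp.del; unfold gm; omega

theorem gsys_wf {p : GP} (hp : p.Good) : (gsys p).WF p.2.2.1.val :=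
  msys_wf hp.wf hp.sym hp.base hp.pos

/-- goal derivable -/
def GDer (p : GP) : Prop := Der (gsys p) (gsys p).goal.1 (gsys p).goal.2

theorem cons_iff {p : GP} (hp : p.Good) : (csys (gsys p) (gm p)).Cons (gm p) ↔ ¬ GDer p := by
  have h5 := gm_ge hp
  have hm : 2 * (2 * gR p) < gm p := by have := hp.del; unfold gm; omega
  constructor
  · intro h hd
    exact spo (gsys p) (gsys_wf hp) hm (by omega) hd h
  · intro hd
    exact dup (gsys p) (gsys_wf hp) hm (by omega) hd

theorem GDer_iff {p : GP} (hp : p.Good) (hx : p.2.1.length < p.2.2.1.val ^ gR p) :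
    GDer p ↔ SHalts (unSMD p.1) p.2.1 (p.2.2.1.val ^ gR p - 1) true :=
  msys_der hp.wf hp.sym hp.base hp.pos hx

theorem JEq_main {p : GP} (hp : p.Good) : JEq (gm p) (gphG p) (gphH p) ↔ ¬ GDer p :=
  (JEq_adj_iff (gsys p) (by have := gm_ge hp; omega)).trans (cons_iff hp)

theorem SEq_main {p : GP} (hp : p.Good) : SEq (gm p + 1) (gphG p) (gphH p) ↔ ¬ GDer p :=
  (SEq_adj_iff (gsys p) (by have := gm_ge hp; omega)).trans (cons_iff hp)

theorem JEquiv_main {p : GP} (hp : p.Good) :
    JEquiv (gm p) (matOf (vlG p) (gphG p)) (matOf (vlH p) (gphH p)) ↔ ¬ GDer p :=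
  (JEq_matOf (vlist_nodup _ _) mem_vlist (vlist_nodup _ _) mem_vlist).trans (JEq_main hp)

theorem gphG_ne {p : GP} (hp : p.Good) : rxs (gsys p) (gm p) ≠ [] :=
  rxs_ne_nil _ (by have := gm_ge hp; omega)

theorem JEquiv_pad {p : GP} (hp : p.Good) (n : Un) :
    JEquiv (gm p) (padG (p, n)) (padH (p, n)) ↔ ¬ GDer p := by
  have h5 := gm_ge hp
  have hne := gphG_ne hp
  have hl : gpad (p, n) = n.val - (vlH p).length - 1 := by
    unfold gpad; rw [length_vlG]
  unfold padG padH
  refine (JEq_matOf (plist_nodup _ (vlist_nodup _ _)) (mem_plist _ mem_vlist)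
    (plist_nodup _ (vlist_nodup _ _)) (mem_plist _ mem_vlist)).trans ?_
  refine (JEq_apex _ (by omega) (gadj_symm _ _) (gadj_irrefl _ _) (gadj_exists _ _ hne)
    (gadj_exists_not _ _ hne) (gadj_symm _ _) (gadj_irrefl _ _) (gadj_exists _ _ hne)
    (gadj_exists_not _ _ hne)).trans ?_
  exact JEq_main hp

theorem SEquiv_pad {p : GP} (hp : p.Good) (n : Un) :
    SEquiv (gm p + 1) (padG (p, n)) (padH (p, n)) ↔ ¬ GDer p := by
  have h5 := gm_ge hp
  have hne := gphG_ne hp
  unfold padG padH
  refine (SEq_matOf (plist_nodup _ (vlist_nodup _ _)) (mem_plist _ mem_vlist)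
    (plist_nodup _ (vlist_nodup _ _)) (mem_plist _ mem_vlist)).trans ?_
  refine (SEq_apex _ (by omega) (gadj_symm _ _) (gadj_irrefl _ _) (gadj_exists _ _ hne)
    (gadj_exists_not _ _ hne) (gadj_symm _ _) (gadj_irrefl _ _) (gadj_exists _ _ hne)
    (gadj_exists_not _ _ hne)).trans ?_
  exact SEq_main hp

theorem padG_diam (q : GP × Un) : SimpleConnDiamTwo (padG q) :=
  apex_diamTwo _ (plist_nodup _ (vlist_nodup _ _)) (mem_plist _ mem_vlist) (gadj_symm _ _)
    (gadj_irrefl _ _)

theorem padH_diam (q : GP × Un) : SimpleConnDiamTwo (padH q) :=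
  apex_diamTwo _ (plist_nodup _ (vlist_nodup _ _)) (mem_plist _ mem_vlist) (gadj_symm _ _)
    (gadj_irrefl _ _)

theorem matG_simple (p : GP) : IsSimple (matOf (vlG p) (gphG p)) :=
  ⟨fun _ _ => gadj_symm _ _ _ _, fun _ => gadj_irrefl _ _ _⟩

theorem matH_simple (p : GP) : IsSimple (matOf (vlH p) (gphH p)) :=
  ⟨fun _ _ => gadj_symm _ _ _ _, fun _ => gadj_irrefl _ _ _⟩

/-- a graph given by a matrix along a vertex list is simple connected subcubic -/
theorem subcubic_matOf {V : Type} [Fintype V] [DecidableEq V] {adj : V → V → Bool} {L : List V}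
    (hL : L.Nodup) (hLc : ∀ v, v ∈ L) (hs : ∀ a b, adj a b = adj b a) (hl : ∀ a, adj a a = false)
    (hc : ∀ a b, Relation.ReflTransGen (fun a b => adj a b = true) a b)
    (hd : ∀ a, ((Finset.univ : Finset V).filter fun b => adj a b = true).card ≤ 3)
    (hne : 0 < L.length) : SimpleConnSubcubic (matOf L adj) := by
  classical
  let e : Fin L.length ≃ V := Equiv.ofBijective (fun i => L.get i)
    ⟨List.nodup_iff_injective_get.1 hL, fun v => List.get_of_mem (hLc v) |>.imp fun _ h => h⟩
  refine ⟨⟨fun _ _ => hs _ _, fun _ => hl _⟩, ?_, ?_⟩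
  · have : Nonempty (Fin L.length) := ⟨⟨0, hne⟩⟩
    refine (SimpleGraph.connected_iff _).2 ⟨?_, this⟩
    intro u v
    have key : ∀ a b, Relation.ReflTransGen (fun a b => adj a b = true) a b →
        (adjGraph (matOf L adj)).Reachable (e.symm a) (e.symm b) := by
      intro a b h
      induction h with
      | refl => exact SimpleGraph.Reachable.refl _
      | @tail b c _ hbc ih =>
        refine ih.trans (SimpleGraph.Adj.reachable ?_)
        have hb : L.get (e.symm b) = b := e.apply_symm_apply b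
        have hc : L.get (e.symm c) = c := e.apply_symm_apply c
        refine (SimpleGraph.fromRel_adj _ _ _).2 ⟨?_, Or.inl ?_⟩
        · intro h
          have : b = c := by rw [← hb, ← hc, h]
          rw [this, hl] at hbc
          exact Bool.noConfusion hbc
        · unfold matOf; rw [hb, hc]; exact hbc
    have := key (e u) (e v) (hc _ _)
    simpa using this
  · intro v
    refine le_trans (le_of_eq ?_) (hd (e v))
    refine Finset.card_bij (fun i _ => e i) ?_ ?_ ?_
    · intro i hi
      simp only [Finset.mem_filter, Finset.mem_univ, true_and] at hi ⊢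
      exact hi
    · intro i _ j _ h; exact e.injective h
    · intro b hb
      refine ⟨e.symm b, ?_, e.apply_symm_apply b⟩
      simp only [Finset.mem_filter, Finset.mem_univ, true_and] at hb ⊢
      have hb' : L.get (e.symm b) = b := e.apply_symm_apply b
      unfold matOf; rw [hb']; exact hb

theorem vlG_pos (p : GP) : 0 < (vlG p).length := by
  unfold vlG; rw [length_vlist]; omega

theorem matG_subcubic {p : GP} (hp : p.Good) : SimpleConnSubcubic (matOf (vlG p) (gphG p)) :=
  subcubic_matOf (vlist_nodup _ _) mem_vlist (gadj_symm _ _) (gadj_irrefl _ _)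
    (gadj_connected _ _ (gphG_ne hp)) (gadj_deg _ _) (vlG_pos p)

theorem matH_subcubic {p : GP} (hp : p.Good) : SimpleConnSubcubic (matOf (vlH p) (gphH p)) :=
  subcubic_matOf (vlist_nodup _ _) mem_vlist (gadj_symm _ _) (gadj_irrefl _ _)
    (gadj_connected _ _ (gphG_ne hp)) (gadj_deg _ _) (by rw [← length_vlG]; exact vlG_pos p)

theorem mem_sub' {k n m : ℕ} (e : n = m) {G : Fin n → Fin n → Bool} {H : Fin m → Fin m → Bool}
    (hk : 2 ≤ k) (hn : 0 < n) (hG : SimpleConnSubcubic G) (hH : SimpleConnSubcubic H) :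
    natCode k ++ adjMatrixCode G ++ adjMatrixCode H ∈ subcubicVarDimEquivLang ↔ JEquiv k G H := by
  subst e
  exact mem_subcubicVarDimEquivLang hk hn hG hH

end Crest.Agent.R290
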