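import Crest.Agent.R290.B
import Crest.Agent.R290.HCode
import Crest.Agent.Lib.PolyTime.Api

/-!
Row 290, module F (helper63), part 1: the adjacency matrix codes of `gadj xs ts` and of its padded
apex graph are polynomial time functions of the lists `xs`, `ts`.
-/
set_option autoImplicit false

namespace Crest.Agent.R290

open Crest.Agent.PolyT PEnc Crest.Enc Crest.WLRefine

/-! ### the list of the vertices -/

/-- vertices belonging to port `p` -/
def portVs {X T : ℕ} (p : Fin (3 * X + T)) : List (GV X T) :=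
  [.bb p false, .bb p true, .fr p false, .fr p true, .fp p false false, .fp p false true,
    .fp p true false, .fp p true true, .cp p false, .cp p true]

/-- vertices belonging to the XOR constraint `v` -/
def xorVs {X T : ℕ} (v : Fin X) : List (GV X T) :=
  [.op v 0 false, .op v 0 true, .op v 1 false, .op v 1 true, .op v 2 false, .op v 2 true,
    .gd v false false, .gd v false true, .gd v true false, .gd v true true]

/-- all vertices -/
def gvList (X T : ℕ) : List (GV X T) :=
  [.rt, .rl false, .rl true] ++ ((List.finRange (3 * X + T)).flatMap portVs ++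
    ((List.finRange X).flatMap xorVs ++ (List.finRange T).flatMap fun j => [.t1 j, .t2 j]))

theorem mem_gvList {X T : ℕ} (v : GV X T) : v ∈ gvList X T := by
  simp only [gvList, List.mem_append, List.mem_flatMap, List.mem_finRange, true_and, portVs, xorVs,
    List.mem_cons, List.not_mem_nil, or_false]
  cases v with
  | rt => simp
  | rl b => cases b <;> simp
  | bb p s => right; left; refine ⟨p, ?_⟩; cases s <;> simp
  | fr p s => right; left; refine ⟨p, ?_⟩; cases s <;> simp
  | fp p s b => right; left; refine ⟨p, ?_⟩; cases s <;> cases b <;> simp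
  | cp p b => right; left; refine ⟨p, ?_⟩; cases b <;> simp
  | op v d b =>
    right; right; left; refine ⟨v, ?_⟩
    fin_cases d <;> cases b <;> simp
  | gd v z0 z1 =>
    right; right; left; refine ⟨v, ?_⟩
    cases z0 <;> cases z1 <;> simp
  | t1 j => right; right; right; exact ⟨j, by simp⟩
  | t2 j => right; right; right; exact ⟨j, by simp⟩

theorem nodup_gvList (X T : ℕ) : (gvList X T).Nodup := by
  unfold gvList
  rw [List.nodup_append]
  refine ⟨by simp, ?_, ?_⟩
  · rw [List.nodup_append]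
    refine ⟨?_, ?_, ?_⟩
    · rw [List.nodup_flatMap]
      refine ⟨fun p _ => by simp [portVs], ?_⟩
      refine (List.nodup_finRange _).imp fun {a b} hab => ?_
      simp only [Function.onFun, List.disjoint_left, portVs, List.mem_cons, List.not_mem_nil, or_false]
      rintro v (rfl | rfl | rfl | rfl | rfl | rfl | rfl | rfl | rfl | rfl) <;> simp [hab]
    · rw [List.nodup_append]
      refine ⟨?_, ?_, ?_⟩
      · rw [List.nodup_flatMap]
        refine ⟨fun p _ => by simp [xorVs], ?_⟩
        refine (List.nodup_finRange _).imp fun {a b} hab => ?_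
        simp only [Function.onFun, List.disjoint_left, xorVs, List.mem_cons, List.not_mem_nil, or_false]
        rintro v (rfl | rfl | rfl | rfl | rfl | rfl | rfl | rfl | rfl | rfl) <;> simp [hab]
      · rw [List.nodup_flatMap]
        refine ⟨fun p _ => by simp, ?_⟩
        refine (List.nodup_finRange _).imp fun {a b} hab => ?_
        simp only [Function.onFun, List.disjoint_left, List.mem_cons, List.not_mem_nil, or_false]
        rintro v (rfl | rfl) <;> simp [hab]
      · intro a ha b hb
        simp only [List.mem_flatMap, List.mem_finRange, true_and, xorVs, List.mem_cons,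
          List.not_mem_nil, or_false] at ha hb
        obtain ⟨v, hv⟩ := ha
        obtain ⟨j, hj⟩ := hb
        rcases hv with rfl | rfl | rfl | rfl | rfl | rfl | rfl | rfl | rfl | rfl <;>
          rcases hj with rfl | rfl <;> simp
    · intro a ha b hb
      simp only [List.mem_append, List.mem_flatMap, List.mem_finRange, true_and, portVs, xorVs,
        List.mem_cons, List.not_mem_nil, or_false] at ha hb
      obtain ⟨p, hp⟩ := ha
      rcases hb with ⟨v, hv⟩ | ⟨j, hj⟩
      · rcases hp with rfl | rfl | rfl | rfl | rfl | rfl | rfl | rfl | rfl | rfl <;>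
          rcases hv with rfl | rfl | rfl | rfl | rfl | rfl | rfl | rfl | rfl | rfl <;> simp
      · rcases hp with rfl | rfl | rfl | rfl | rfl | rfl | rfl | rfl | rfl | rfl <;>
          rcases hj with rfl | rfl <;> simp
  · intro a ha b hb
    simp only [List.mem_append, List.mem_flatMap, List.mem_finRange, true_and, portVs, xorVs,
        List.mem_cons, List.not_mem_nil, or_false] at ha hb
    rcases hb with ⟨p, hp⟩ | ⟨v, hv⟩ | ⟨j, hj⟩
    · rcases ha with rfl | rfl | rfl <;>
        rcases hp with rfl | rfl | rfl | rfl | rfl | rfl | rfl | rfl | rfl | rfl <;> simp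
    · rcases ha with rfl | rfl | rfl <;>
        rcases hv with rfl | rfl | rfl | rfl | rfl | rfl | rfl | rfl | rfl | rfl <;> simp
    · rcases ha with rfl | rfl | rfl <;> rcases hj with rfl | rfl <;> simp

theorem length_gvList (X T : ℕ) : (gvList X T).length = 3 + 10 * (3 * X + T) + 10 * X + 2 * T := by
  simp only [gvList, List.length_append, List.length_flatMap, portVs, xorVs, List.length_cons,
    List.length_nil]
  simp
  ring

/-! ### raw vertices -/

/-- raw vertex `(tag, index, slot, two bits)` -/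
abbrev RV : Type := ℕ × Un × Un × Bool × Bool

def toRV {X T : ℕ} : GV X T → RV
  | .rt => (0, ⟨0⟩, ⟨0⟩, false, false)
  | .rl b => (1, ⟨0⟩, ⟨0⟩, b, false)
  | .bb p s => (2, ⟨p.val⟩, ⟨0⟩, s, false)
  | .fr p s => (3, ⟨p.val⟩, ⟨0⟩, s, false)
  | .fp p s b => (4, ⟨p.val⟩, ⟨0⟩, s, b)
  | .cp p b => (5, ⟨p.val⟩, ⟨0⟩, b, false)
  | .op v d b => (6, ⟨v.val⟩, ⟨d.val⟩, b, false)
  | .gd v z0 z1 => (7, ⟨v.val⟩, ⟨0⟩, z0, z1)
  | .t1 j => (8, ⟨j.val⟩, ⟨0⟩, false, false)
  | .t2 j => (9, ⟨j.val⟩, ⟨0⟩, false, false)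

def rvPort (p : ℕ) : List RV :=
  [(2, ⟨p⟩, ⟨0⟩, false, false), (2, ⟨p⟩, ⟨0⟩, true, false), (3, ⟨p⟩, ⟨0⟩, false, false),
    (3, ⟨p⟩, ⟨0⟩, true, false), (4, ⟨p⟩, ⟨0⟩, false, false), (4, ⟨p⟩, ⟨0⟩, false, true),
    (4, ⟨p⟩, ⟨0⟩, true, false), (4, ⟨p⟩, ⟨0⟩, true, true), (5, ⟨p⟩, ⟨0⟩, false, false),
    (5, ⟨p⟩, ⟨0⟩, true, false)]

def rvXor (v : ℕ) : List RV :=
  [(6, ⟨v⟩, ⟨0⟩, false, false), (6, ⟨v⟩, ⟨0⟩, true, false), (6, ⟨v⟩, ⟨1⟩, false, false),
    (6, ⟨v⟩, ⟨1⟩, true, false), (6, ⟨v⟩, ⟨2⟩, false, false), (6, ⟨v⟩, ⟨2⟩, true, false),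
    (7, ⟨v⟩, ⟨0⟩, false, false), (7, ⟨v⟩, ⟨0⟩, false, true), (7, ⟨v⟩, ⟨0⟩, true, false),
    (7, ⟨v⟩, ⟨0⟩, true, true)]

def rvTm (j : ℕ) : List RV := [(8, ⟨j⟩, ⟨0⟩, false, false), (9, ⟨j⟩, ⟨0⟩, false, false)]

/-- all raw vertices -/
def rvList (X T : ℕ) : List RV :=
  [(0, ⟨0⟩, ⟨0⟩, false, false), (1, ⟨0⟩, ⟨0⟩, false, false), (1, ⟨0⟩, ⟨0⟩, true, false)] ++
    ((List.range (3 * X + T)).flatMap rvPort ++
    ((List.range X).flatMap rvXor ++ (List.range T).flatMap rvTm))

theorem flatMap_finRange {β : Type} (n : ℕ) (g : ℕ → List β) :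
    (List.finRange n).flatMap (fun p => g p.val) = (List.range n).flatMap g := by
  rw [← List.map_coe_finRange_eq_range, List.flatMap_map]

theorem map_toRV (X T : ℕ) : (gvList X T).map toRV = rvList X T := by
  simp only [gvList, rvList, List.map_append, List.map_flatMap]
  congr 1
  congr 1
  · exact flatMap_finRange (3 * X + T) rvPort
  · congr 1
    · exact flatMap_finRange X rvXor
    · exact flatMap_finRange T rvTm

/-! ### raw adjacency -/

section
variable {κ : Type} [DecidableEq κ]

/-- directed raw adjacency; `ks` = port keys, `tb` = values of the unary constraints, `X` = number of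
XOR constraints -/
def rdadj (ks : List κ) (tb : List Bool) (X : ℕ) (u v : RV) : Bool :=
  if u.1 = 0 then
    decide (v.1 = 1) || (decide (v.1 = 2) && decide (v.2.1.val = 0) && !v.2.2.2.1)
  else if u.1 = 2 then
    (decide (v.1 = 2) && ((decide (u.2.1.val = v.2.1.val) && !u.2.2.2.1 && v.2.2.2.1) ||
      (decide (u.2.1.val + 1 = v.2.1.val) && u.2.2.2.1 && !v.2.2.2.1))) ||
    (decide (v.1 = 3) && decide (u.2.1.val = v.2.1.val) && (u.2.2.2.1 == v.2.2.2.1))
  else if u.1 = 3 then
    decide (v.1 = 4) && decide (u.2.1.val = v.2.1.val) && (u.2.2.2.1 == v.2.2.2.1)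
  else if u.1 = 4 then
    (decide (v.1 = 4) && decide (u.2.1.val = v.2.1.val) && !u.2.2.2.1 && v.2.2.2.1 &&
      (u.2.2.2.2 == v.2.2.2.2)) ||
    (decide (v.1 = 5) && decide (u.2.1.val = v.2.1.val) && u.2.2.2.1 && (u.2.2.2.2 == v.2.2.2.1))
  else if u.1 = 5 then
    decide (v.1 = 5) && isNext ks u.2.1.val v.2.1.val && (u.2.2.2.1 == v.2.2.2.1)
  else if u.1 = 6 then
    decide (v.1 = 4) && decide (3 * u.2.1.val + u.2.2.1.val = v.2.1.val) && !v.2.2.2.1 &&
      (u.2.2.2.1 == v.2.2.2.2)
  else if u.1 = 7 then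
    decide (v.1 = 6) && decide (u.2.1.val = v.2.1.val) &&
      ((if v.2.2.1.val = 0 then u.2.2.2.1 else if v.2.2.1.val = 1 then u.2.2.2.2
        else Bool.xor u.2.2.2.1 u.2.2.2.2) == v.2.2.2.1)
  else if u.1 = 8 then
    (decide (v.1 = 4) && decide (3 * X + u.2.1.val = v.2.1.val) && !v.2.2.2.1 &&
      (v.2.2.2.2 == tb.getD u.2.1.val false)) ||
    (decide (v.1 = 9) && decide (u.2.1.val = v.2.1.val))
  else false

def radj (ks : List κ) (tb : List Bool) (X : ℕ) (u v : RV) : Bool :=
  rdadj ks tb X u v || rdadj ks tb X v u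

theorem rdadj_toRV (xs : List (κ × κ × κ)) (ts : List (κ × Bool)) (u v : GV xs.length ts.length) :
    rdadj (portKeys xs ts) (ts.map Prod.snd) xs.length (toRV u) (toRV v) = dadj xs ts u v := by
  cases u <;> cases v <;> first
    | rfl
    | (simp only [dadj, Fin.ext_iff, gz]; simp [rdadj, toRV]; done)
    | (simp only [dadj, Fin.ext_iff, gz]; simp [rdadj, toRV]; congr!)

theorem radj_toRV (xs : List (κ × κ × κ)) (ts : List (κ × Bool)) (u v : GV xs.length ts.length) :
    radj (portKeys xs ts) (ts.map Prod.snd) xs.length (toRV u) (toRV v) = gadj xs ts u v := by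
  simp only [radj, gadj, rdadj_toRV]

end

end Crest.Agent.R290
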