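import Crest.Agent.R290.FPT
import Crest.Agent.R290.MSys

/-!
Row 290, module F (helper63), part 3: rule systems as data; polynomial time of `rxs`, `rts0`, `rts1`.
-/
set_option autoImplicit false

namespace Crest.Agent.R290

open Crest.Agent.PolyT PEnc Crest.Enc Crest.WLRefine

/-! ### codes of keys -/

def keyCode : Key → ℕ × ℕ × ℕ × ℕ × ℕ × ℕ
  | .hub e i c => (0, e, i, c, 0, 0)
  | .prv a w i t => (1, a, w, i, t, 0)
  | .ch σ s i t l => (2, σ, s, i, t, l)
  | .lat σ s i j => (3, σ, s, i, j, 0)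
  | .tw σ s i t => (4, σ, s, i, t, 0)

theorem keyCode_injective : Function.Injective keyCode := by
  intro a b h
  cases a <;> cases b <;> simp_all [keyCode]

instance : PEnc Key := ⟨fun y => enc (keyCode y), fun _ _ h => keyCode_injective (enc_inj h)⟩

section
variable {α : Type} [PEnc α]

@[fun_prop] theorem pt_hub {e i c : α → ℕ} (he : PT e) (hi : PT i) (hc : PT c) :
    PT (fun a => Key.hub (e a) (i a) (c a)) :=
  PT.of_enc_eq (g := fun a => ((0 : ℕ), e a, i a, c a, (0 : ℕ), (0 : ℕ))) (by fun_prop) fun _ => rfl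

@[fun_prop] theorem pt_prv {e w i c : α → ℕ} (he : PT e) (hw : PT w) (hi : PT i) (hc : PT c) :
    PT (fun a => Key.prv (e a) (w a) (i a) (c a)) :=
  PT.of_enc_eq (g := fun a => ((1 : ℕ), e a, w a, i a, c a, (0 : ℕ))) (by fun_prop) fun _ => rfl

@[fun_prop] theorem pt_ch {e w i c l : α → ℕ} (he : PT e) (hw : PT w) (hi : PT i) (hc : PT c)
    (hl : PT l) : PT (fun a => Key.ch (e a) (w a) (i a) (c a) (l a)) :=
  PT.of_enc_eq (g := fun a => ((2 : ℕ), e a, w a, i a, c a, l a)) (by fun_prop) fun _ => rfl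

@[fun_prop] theorem pt_lat {e w i c : α → ℕ} (he : PT e) (hw : PT w) (hi : PT i) (hc : PT c) :
    PT (fun a => Key.lat (e a) (w a) (i a) (c a)) :=
  PT.of_enc_eq (g := fun a => ((3 : ℕ), e a, w a, i a, c a, (0 : ℕ))) (by fun_prop) fun _ => rfl

@[fun_prop] theorem pt_tw {e w i c : α → ℕ} (he : PT e) (hw : PT w) (hi : PT i) (hc : PT c) :
    PT (fun a => Key.tw (e a) (w a) (i a) (c a)) :=
  PT.of_enc_eq (g := fun a => ((4 : ℕ), e a, w a, i a, c a, (0 : ℕ))) (by fun_prop) fun _ => rfl

@[fun_prop] theorem pt_zipIdx {β : Type} [PEnc β] {l : α → List β} (hl : PT l) :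
    PT (fun a => (l a).zipIdx) := by
  have h : (fun a => (l a).zipIdx) = fun a => (l a).zip (List.range (l a).length) := by
    funext a
    rw [List.zipIdx_eq_zip_range', List.range_eq_range']
  rw [h]
  exact PT.zip hl (PT.range (by fun_prop) (PT.pb_length hl))

end

/-! ### rule systems as data -/

abbrev RuleD : Type := ℕ × ℕ × ℕ × List (List (ℕ × ℕ × ℕ))
abbrev FactD : Type := ℕ × List ℕ
abbrev RSD : Type := List RuleD × List FactD × FactD

def RuleD.toR (r : ℕ) (d : RuleD) : Rule r := ⟨d.1, d.2.1, d.2.2.1, fun J => d.2.2.2.getD J.val []⟩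
def FactD.toR (r : ℕ) (f : FactD) : ℕ × (Fin r → ℕ) := (f.1, fun J => f.2.getD J.val 0)
def RSD.toR (r : ℕ) (D : RSD) : RSys r :=
  ⟨D.1.map (RuleD.toR r), D.2.1.map (FactD.toR r), FactD.toR r D.2.2⟩

def numD (r : ℕ) (d : RuleD) (i : ℕ) : ℕ :=
  if i / 2 < r then (d.2.2.2.getD (i / 2) []).length else 1

def labD (r : ℕ) (d : RuleD) (w i t : ℕ) : ℕ :=
  if i / 2 < r then
    (if w = 0 then ((d.2.2.2.getD (i / 2) []).getD t (0, 0, 0)).1
      else if w = 1 then ((d.2.2.2.getD (i / 2) []).getD t (0, 0, 0)).2.1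
      else ((d.2.2.2.getD (i / 2) []).getD t (0, 0, 0)).2.2)
  else 0

theorem num_toR (r : ℕ) (d : RuleD) : (RuleD.toR r d).num = numD r d := by
  funext i
  unfold Rule.num numD
  split <;> simp_all [RuleD.toR]

theorem lab_toR (r : ℕ) (d : RuleD) : (RuleD.toR r d).lab = labD r d := by
  funext w i t
  unfold Rule.lab labD
  split <;> simp_all [RuleD.toR]

section
variable {α : Type} [PEnc α]

theorem pb_numD {r i : α → ℕ} {d : α → RuleD} (hd : PT d) (hi : PT i) :
    PB (fun a => numD (r a) (d a) (i a)) := by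
  unfold numD
  refine PB.ite ?_ (PB.const 1)
  exact PT.pb_length (by fun_prop)

@[fun_prop] theorem pt_numD {r i : α → ℕ} {d : α → RuleD} (hr : PT r) (hd : PT d) (hi : PT i) :
    PT (fun a => numD (r a) (d a) (i a)) := by
  unfold numD
  fun_prop

@[fun_prop] theorem pt_labD {r w i t : α → ℕ} {d : α → RuleD} (hr : PT r) (hd : PT d) (hw : PT w)
    (hi : PT i) (ht : PT t) : PT (fun a => labD (r a) (d a) (w a) (i a) (t a)) := by
  unfold labD
  fun_prop

theorem pt_latk {r σ s i j t : α → ℕ} (hr : PT r) (hσ : PT σ) (hs : PT s) (hi : PT i) (hj : PT j)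
    (ht : PT t) : PT (fun a => latk (r a) (σ a) (s a) (i a) (j a) (t a)) := by
  unfold latk
  fun_prop

theorem pt_partner {i j : α → ℕ} (hi : PT i) (hj : PT j) : PT (fun a => partner (i a) (j a)) := by
  unfold partner
  fun_prop

/-- slabs: `T` and `hk` are given by `PT` functions of `α` and the loop variables -/
theorem pt_slabNodes {r m σ s : α → ℕ} (hr : PT r) (hm : PT m) (bm : PB m) (hσ : PT σ) (hs : PT s)
    {T : α → ℕ → ℕ} (hT : PT (fun p : α × Un => T p.1 p.2.val))
    (bT : PB (fun p : α × Un => T p.1 p.2.val)) {hk : α → ℕ → ℕ → Key}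
    (hh : PT (fun p : (α × Un) × Un => hk p.1.1 p.1.2.val p.2.val)) :
    PT (fun a => slabNodes (r a) (m a) (σ a) (s a) (T a) (hk a)) := by
  unfold slabNodes
  refine PT.flatMapRange hm bm ?_
  refine PT.flatMapRange hT bT ?_
  refine PT.mapRange (by fun_prop) (PB.sub (PB.comp bm (by fun_prop))) ?_
  have hch : ∀ (l : ((α × Un) × Un) × Un → ℕ), PT l →
      PT (fun p : ((α × Un) × Un) × Un =>
        chk (m p.1.1.1) (σ p.1.1.1) (s p.1.1.1) (hk p.1.1.1) p.1.1.2.val p.1.2.val (l p)) := by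
    intro l hl
    unfold chk
    refine PT.ite (by fun_prop) ?_ (by fun_prop)
    exact PT.comp (g := fun p : (α × Un) × Un => hk p.1.1 p.1.2.val p.2.val)
      (f := fun p : ((α × Un) × Un) × Un => p.1) hh (by fun_prop)
  refine PT.pair (hch _ (by fun_prop)) (PT.pair (hch _ (by fun_prop)) ?_)
  exact pt_latk (by fun_prop) (by fun_prop) (by fun_prop) (by fun_prop)
    (pt_partner (by fun_prop) (by fun_prop)) (by fun_prop)

/-- data version of `ruleHub` -/
def ruleHubD (r a : ℕ) (d : RuleD) (s i t : ℕ) : Key :=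
  if s = 0 then Key.hub d.1 i (labD r d 0 i t)
  else if s = 1 ∨ s = 3 then Key.prv a 0 i t
  else if s = 2 ∨ s = 6 then Key.prv a 1 i t
  else if s = 4 ∨ s = 7 then Key.hub d.2.1 i (labD r d 1 i t)
  else Key.hub d.2.2.1 i (labD r d 2 i t)

theorem ruleHub_toR (r a : ℕ) (d : RuleD) (s : ℕ) :
    ruleHub a (RuleD.toR r d) s = ruleHubD r a d s := by
  funext i t
  simp only [ruleHub, ruleHubD, ← lab_toR]
  rfl

theorem pt_ruleHubD {r b s i t : α → ℕ} {d : α → RuleD} (hr : PT r) (hb : PT b) (hd : PT d)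
    (hs : PT s) (hi : PT i) (ht : PT t) :
    PT (fun a => ruleHubD (r a) (b a) (d a) (s a) (i a) (t a)) := by
  unfold ruleHubD
  fun_prop

theorem pt_ruleNodes {r m b : α → ℕ} {d : α → RuleD} (hr : PT r) (hm : PT m) (bm : PB m) (hb : PT b)
    (hd : PT d) : PT (fun a => ruleNodes (m a) (b a) (RuleD.toR (r a) (d a))) := by
  unfold ruleNodes
  simp only [ruleHub_toR, num_toR]
  refine PT.append ?_ ?_
  · refine PT.flatMapRange (by fun_prop) (by pb) ?_
    refine pt_slabNodes (r := fun p : α × Un => r p.1) (m := fun p : α × Un => m p.1)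
      (σ := fun p : α × Un => b p.1) (s := fun p : α × Un => p.2.val)
      (T := fun p : α × Un => numD (r p.1) (d p.1))
      (hk := fun p : α × Un => ruleHubD (r p.1) (b p.1) (d p.1) p.2.val)
      (by fun_prop) (by fun_prop) (PB.comp bm (by fun_prop)) (by fun_prop)
      (by fun_prop) (by fun_prop) (pb_numD (by fun_prop) (by fun_prop)) ?_
    exact pt_ruleHubD (by fun_prop) (by fun_prop) (by fun_prop) (by fun_prop) (by fun_prop)
      (by fun_prop)
  · refine PT.flatMapRange (by fun_prop) bm ?_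
    refine PT.flatMapRange (by fun_prop) (pb_numD (by fun_prop) (by fun_prop)) ?_
    refine PT.mapRange (by fun_prop) (by pb) ?_
    fun_prop

/-- data version of `factHub` -/
def factHubD (r : ℕ) (f : FactD) (i _t : ℕ) : Key :=
  if i / 2 < r then Key.hub f.1 i (f.2.getD (i / 2) 0) else Key.hub f.1 i 0

theorem factHub_toR (r : ℕ) (f : FactD) : factHub (FactD.toR r f) = factHubD r f := by
  funext i t
  unfold factHub factHubD
  split <;> simp_all [FactD.toR]

theorem pt_factNodes {r m b : α → ℕ} {f : α → FactD} (hr : PT r) (hm : PT m) (bm : PB m) (hb : PT b)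
    (hf : PT f) : PT (fun a => factNodes (m a) (b a) (FactD.toR (r a) (f a))) := by
  unfold factNodes
  simp only [factHub_toR]
  refine pt_slabNodes (by fun_prop) (by fun_prop) bm (by fun_prop) (by fun_prop) (by fun_prop)
    (PB.const 1) ?_
  unfold factHubD
  fun_prop

theorem zipIdx_map' {β γ : Type} (l : List β) (f : β → γ) :
    (l.map f).zipIdx = l.zipIdx.map fun a => (f a.1, a.2) := by
  rw [List.zipIdx_map]
  rfl

theorem rxs_toR (r m : ℕ) (D : RSD) : rxs (RSD.toR r D) m =
    (D.1.zipIdx.flatMap fun a => ruleNodes m a.2 (RuleD.toR r a.1)) ++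
    ((D.2.1 ++ [D.2.2]).zipIdx.flatMap fun a =>
      factNodes m (D.1.length + a.2) (FactD.toR r a.1)) := by
  unfold rxs RSD.toR
  congr 1
  · simp only [zipIdx_map', List.flatMap_map]
  · have h : D.2.1.map (FactD.toR r) ++ [FactD.toR r D.2.2] =
        (D.2.1 ++ [D.2.2]).map (FactD.toR r) := by simp
    simp only [h, zipIdx_map', List.flatMap_map, List.length_map]

theorem pt_rxs {r m : α → ℕ} {D : α → RSD} (hr : PT r) (hm : PT m) (bm : PB m) (hD : PT D) :
    PT (fun a => rxs (RSD.toR (r a) (D a)) (m a)) := by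
  simp only [rxs_toR]
  refine PT.append ?_ ?_
  · refine PT.flatMap (by fun_prop) ?_
    exact pt_ruleNodes (by fun_prop) (by fun_prop) (PB.comp bm (by fun_prop)) (by fun_prop)
      (by fun_prop)
  · refine PT.flatMap (by fun_prop) ?_
    exact pt_factNodes (by fun_prop) (by fun_prop) (PB.comp bm (by fun_prop)) (by fun_prop)
      (by fun_prop)

theorem pt_rtk {r m : α → ℕ} {D : α → RSD} (_hr : PT r) (hm : PT m) (bm : PB m) (hD : PT D) :
    PT (fun a => rtk (RSD.toR (r a) (D a)) (m a)) := by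
  have h : ∀ a, rtk (RSD.toR (r a) (D a)) (m a) =
      (List.range ((D a).2.1.length + 1)).flatMap fun b =>
        (List.range (m a)).map fun i => Key.ch ((D a).1.length + b) 0 i 0 0 := by
    intro a
    simp only [rtk, RSD.toR, List.length_map]
  simp only [h]
  have bl : PB (fun a => (D a).2.1.length) := PT.pb_length (by fun_prop)
  refine PT.flatMapRange (by fun_prop) (PB.add bl (PB.const 1)) ?_
  refine PT.mapRange (by fun_prop) (PB.comp bm (by fun_prop)) ?_
  fun_prop

theorem pt_rts0 {r m : α → ℕ} {D : α → RSD} (hr : PT r) (hm : PT m) (bm : PB m) (hD : PT D) :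
    PT (fun a => rts0 (RSD.toR (r a) (D a)) (m a)) := by
  unfold rts0
  refine PT.map (pt_rtk hr hm bm hD) ?_
  fun_prop

theorem pt_rts1 {r m : α → ℕ} {D : α → RSD} (hr : PT r) (hm : PT m) (bm : PB m) (hD : PT D) :
    PT (fun a => rts1 (RSD.toR (r a) (D a)) (m a)) := by
  unfold rts1
  refine PT.map (pt_rtk hr hm bm hD) ?_
  have h : ∀ a, gkey (RSD.toR (r a) (D a)) =
      Key.ch ((D a).1.length + (D a).2.1.length) 0 (2 * r a) 0 0 := by
    intro a
    simp only [gkey, RSD.toR, List.length_map]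
  simp only [h]
  fun_prop

end

end Crest.Agent.R290
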