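import Crest.Agent.R290.FKey

/-!
Row 290, module F (helper63), part 4: the rule system of a machine as data, in polynomial time.
-/
set_option autoImplicit false

namespace Crest.Agent.R290

open Crest.Agent.PolyT PEnc Crest.Enc Crest.WLRefine

/-! ### data versions -/

def mkD (R e0 e1 e2 : ℕ) (tr pr : ℕ → List (ℕ × ℕ × ℕ)) : RuleD :=
  (e0, e1, e2, (List.range (2 * R)).map fun J => if J < R then tr J else pr (J - R))

theorem getD_map_range {β : Type} (n J : ℕ) (f : ℕ → β) (d : β) (hJ : J < n) :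
    ((List.range n).map f).getD J d = f J := by
  rw [List.getD_eq_getElem?_getD, List.getElem?_map, List.getElem?_range hJ]
  rfl

theorem toR_mkD (R e0 e1 e2 : ℕ) (tr pr : ℕ → List (ℕ × ℕ × ℕ)) :
    RuleD.toR (2 * R) (mkD R e0 e1 e2 tr pr) = mkR R e0 e1 e2 tr pr := by
  unfold RuleD.toR mkD mkR
  congr 1
  funext J
  exact getD_map_range _ _ _ _ J.2

/-- rules of state `q` with instruction `i` -/
def insRulesD (A R S g q : ℕ) (i : InsD) : List RuleD :=
  (if i.1 = 0 then
    ((List.range R).map fun it => mkD R (pQ (i.2.2.2.getD 0 0)) (pQ q) (pQ q) (dInc A it) dZero) ++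
    ((List.range (g + 1)).flatMap fun γ => (List.range R).flatMap fun it => (List.range R).map fun ip =>
      mkD R (pC g i.2.1 γ) (pQ q) (pC g i.2.1 γ) (dInc A it) (dInc A ip)) ++
    ((List.range R).map fun it =>
      mkD R (pC g i.2.1 (i.2.2.1 + 1)) (pQ q) (pQ q) (dInc A it) dZero)
  else if i.1 = 1 then
    ((List.range (g + 1)).flatMap fun γ => (List.range R).map fun it =>
      mkD R (pQ (i.2.2.2.getD γ 0)) (pQ q) (pC g i.2.1 γ) (dInc A it) dZero) ++
    ((List.range (g + 1)).flatMap fun γ => (List.range R).flatMap fun it => (List.range R).map fun ip =>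
      mkD R (pC g i.2.1 γ) (pQ q) (pC g i.2.1 γ) (dInc A it) (dPop A ip))
  else if i.2.1 = 1 then [mkD R pAcc (pQ q) (pQ q) (dSame A) dZero] else []) ++
  (if i.1 = 0 ∨ i.1 = 1 then
    (List.range S).flatMap fun s => if s = i.2.1 then [] else
      (List.range (g + 1)).flatMap fun γ => (List.range R).map fun it =>
        mkD R (pC g s γ) (pQ q) (pC g s γ) (dInc A it) (dSame A)
  else []) ++
  ((List.range R).map fun ip => mkD R (pQ q) (pQ q) (pQ q) (dSame A) (dInc A ip))

theorem insRulesD_toR (A R S g q : ℕ) (i : InsD) :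
    (insRulesD A R S g q i).map (RuleD.toR (2 * R)) = insRules A R S g q i := by
  unfold insRulesD insRules
  simp only [List.map_append, List.map_map, List.map_flatMap, apply_ite (List.map (RuleD.toR (2 * R))),
    Function.comp_def, toR_mkD, List.map_cons, List.map_nil]

def baseRulesD (M : SMD) (A R : ℕ) : List RuleD :=
  (M.1.zipIdx.flatMap fun a => insRulesD A R M.2.1 M.2.2 a.2 a.1) ++
  ((List.range M.2.1).flatMap fun s => (List.range R).map fun ip =>
    mkD R (pC M.2.2 s 0) (pC M.2.2 s 0) (pC M.2.2 s 0) dZero (dInc A ip)) ++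
  [mkD R pGoal pAcc pAcc dZero dZero]

theorem baseRulesD_toR (M : SMD) (A R : ℕ) :
    (baseRulesD M A R).map (RuleD.toR (2 * R)) = baseRules M A R := by
  unfold baseRulesD baseRules
  simp only [List.map_append, List.map_map, List.map_flatMap, insRulesD_toR,
    Function.comp_def, toR_mkD, List.map_cons, List.map_nil]

def posD (A R j : ℕ) : List ℕ :=
  (List.range (2 * R)).map fun J => if J < R then 0 else j / A ^ (J - R) % A

theorem posD_toR (A R j e : ℕ) : FactD.toR (2 * R) (e, posD A R j) = (e, posAddr A R j) := by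
  unfold FactD.toR posD posAddr
  congr 1
  funext J
  exact getD_map_range _ _ _ _ J.2

def baseAxD (M : SMD) (x : List ℕ) (A R : ℕ) : List FactD :=
  (pQ 0, posD A R 0) ::
  ((x.zipIdx.map fun a => (pC M.2.2 0 (a.1 + 1), posD A R a.2)) ++
   (pC M.2.2 0 0, posD A R x.length) ::
   ((List.range (M.2.1 - 1)).map fun s => (pC M.2.2 (s + 1) 0, posD A R 0)))

theorem baseAxD_toR (M : SMD) (x : List ℕ) (A R : ℕ) :
    (baseAxD M x A R).map (FactD.toR (2 * R)) = baseAx M x A R := by
  unfold baseAxD baseAx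
  simp only [List.map_append, List.map_map, Function.comp_def, posD_toR, List.map_cons]

def floodAccD (A R : ℕ) : List RuleD :=
  (List.range (2 * R)).flatMap fun J =>
    [(pAcc, pAcc, pAcc, (List.range (2 * R)).map fun J' =>
        if J' = J then (List.range (A - 1)).map fun a => (a + 1, a, a) else dSame A 0),
     (pAcc, pAcc, pAcc, (List.range (2 * R)).map fun J' =>
        if J' = J then (List.range (A - 1)).map fun a => (a, a + 1, a + 1) else dSame A 0)]

theorem toR_mk (r e0 e1 e2 : ℕ) (f : ℕ → List (ℕ × ℕ × ℕ)) :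
    RuleD.toR r (e0, e1, e2, (List.range r).map f) = ⟨e0, e1, e2, fun J => f J.val⟩ := by
  unfold RuleD.toR
  congr 1
  funext J
  exact getD_map_range _ _ _ _ J.2

theorem floodAccD_toR (A R : ℕ) :
    (floodAccD A R).map (RuleD.toR (2 * R)) = floodAcc A R := by
  unfold floodAccD floodAcc
  simp only [List.map_flatMap, List.map_cons, List.map_nil, toR_mk]

def basePredsD (M : SMD) (x : List ℕ) (A R : ℕ) : List ℕ :=
  pGoal :: ((baseAxD M x A R).map Prod.fst ++
    (baseRulesD M A R).flatMap fun ρ => [ρ.1, ρ.2.1, ρ.2.2.1])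

theorem basePredsD_eq (M : SMD) (x : List ℕ) (A R : ℕ) :
    basePredsD M x A R = basePreds M x A R := by
  unfold basePredsD basePreds
  rw [← baseAxD_toR, ← baseRulesD_toR, List.map_map, List.flatMap_map]
  rfl

def msysD (M : SMD) (x : List ℕ) (A R : ℕ) : RSD :=
  (baseRulesD M A R ++ floodAccD A R ++
    (basePredsD M x A R).map (fun e => mkD R e pAcc pAcc (dSame A) (dSame A)),
   baseAxD M x A R, (pGoal, []))

theorem msysD_toR (M : SMD) (x : List ℕ) (A R : ℕ) :
    RSD.toR (2 * R) (msysD M x A R) = msys M x A R := by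
  unfold RSD.toR msysD msys
  congr 1
  · simp only [List.map_append, baseRulesD_toR, floodAccD_toR, basePredsD_eq, List.map_map,
      Function.comp_def, toR_mkD, idR]
  · exact baseAxD_toR M x A R

/-! ### polynomial time -/

section
variable {α : Type} [PEnc α]

theorem pt_dSame {A J : α → ℕ} (hA : PT A) (bA : PB A) : PT (fun a => dSame (A a) (J a)) := by
  unfold dSame
  refine PT.mapRange hA bA ?_
  fun_prop

theorem pt_incD {A i J : α → ℕ} (hA : PT A) (bA : PB A) (hi : PT i) (hJ : PT J) :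
    PT (fun a => incD (A a) (i a) (J a)) := by
  unfold incD
  refine PT.ite (by fun_prop) (by fun_prop) (PT.ite (by fun_prop) ?_ ?_)
  · refine PT.mapRange (by fun_prop) (PB.sub bA) ?_
    fun_prop
  · refine PT.mapRange (by fun_prop) bA ?_
    fun_prop

theorem pt_dInc {A i J : α → ℕ} (hA : PT A) (bA : PB A) (hi : PT i) (hJ : PT J) :
    PT (fun a => dInc (A a) (i a) (J a)) := by
  unfold dInc
  refine PT.map (pt_incD hA bA hi hJ) ?_
  fun_prop

theorem pt_dPop {A i J : α → ℕ} (hA : PT A) (bA : PB A) (hi : PT i) (hJ : PT J) :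
    PT (fun a => dPop (A a) (i a) (J a)) := by
  unfold dPop
  refine PT.map (pt_incD hA bA hi hJ) ?_
  fun_prop

theorem pt_dZero {J : α → ℕ} : PT (fun a => dZero (J a)) := by
  unfold dZero
  fun_prop

theorem pt_mkD {R e0 e1 e2 : α → ℕ} {tr pr : α → ℕ → List (ℕ × ℕ × ℕ)} (hR : PT R) (bR : PB R)
    (h0 : PT e0) (h1 : PT e1) (h2 : PT e2) (ht : PT (fun p : α × ℕ => tr p.1 p.2))
    (hp : PT (fun p : α × ℕ => pr p.1 p.2)) :
    PT (fun a => mkD (R a) (e0 a) (e1 a) (e2 a) (tr a) (pr a)) := by
  unfold mkD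
  refine PT.pair h0 (PT.pair h1 (PT.pair h2 ?_))
  refine PT.mapRange (by fun_prop) (PB.mul (PB.const 2) bR) ?_
  refine PT.ite (by fun_prop) ?_ ?_
  · exact PT.comp (g := fun p : α × ℕ => tr p.1 p.2) (f := fun p : α × Un => (p.1, p.2.val)) ht
      (by fun_prop)
  · exact PT.comp (g := fun p : α × ℕ => pr p.1 p.2)
      (f := fun p : α × Un => (p.1, p.2.val - R p.1)) hp (by fun_prop)

@[fun_prop] theorem pt_pQ {q : α → ℕ} (hq : PT q) : PT (fun a => pQ (q a)) := by
  unfold pQ
  fun_prop

@[fun_prop] theorem pt_pC {g s γ : α → ℕ} (hg : PT g) (hs : PT s) (hγ : PT γ) :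
    PT (fun a => pC (g a) (s a) (γ a)) := by
  unfold pC
  fun_prop

end

end Crest.Agent.R290
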