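import Crest.Agent.R290.FMsys

/-!
Row 290, module F (helper63), part 5: polynomial time of `msysD`.
-/
set_option autoImplicit false

namespace Crest.Agent.R290

open Crest.Agent.PolyT PEnc Crest.Enc Crest.WLRefine

/-- `PB` side goals -/
macro "pbb" : tactic => `(tactic| first
  | assumption
  | exact PB.comp (by assumption) (by fun_prop)
  | exact PB.const _
  | exact PB.unVal (by fun_prop)
  | exact PB.sub (PB.comp (by assumption) (by fun_prop))
  | exact PB.add (PB.comp (by assumption) (by fun_prop)) (PB.const _)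
  | pb)

section
variable {α : Type} [PEnc α]

macro "dgt" : tactic => `(tactic| first
  | exact pt_dZero
  | exact pt_dInc (by fun_prop) (by pbb) (by fun_prop) (by fun_prop)
  | exact pt_dPop (by fun_prop) (by pbb) (by fun_prop) (by fun_prop)
  | exact pt_dSame (by fun_prop) (by pbb))

theorem pt_insRulesD {A R S g q : α → ℕ} {i : α → InsD} (hA : PT A) (bA : PB A) (hR : PT R)
    (bR : PB R) (hS : PT S) (bS : PB S) (hg : PT g) (bg : PB g) (hq : PT q) (hi : PT i) :
    PT (fun a => insRulesD (A a) (R a) (S a) (g a) (q a) (i a)) := by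
  unfold insRulesD
  refine PT.append (PT.append ?_ ?_) ?_
  · refine PT.ite (by fun_prop) (PT.append (PT.append ?_ ?_) ?_) (PT.ite (by fun_prop)
      (PT.append ?_ ?_) (PT.ite (by fun_prop) (PT.cons ?_ (PT.const _)) (PT.const _)))
    · refine PT.mapRange hR bR ?_
      refine pt_mkD (by fun_prop) (by pbb) (by fun_prop) (by fun_prop) (by fun_prop) ?_ ?_ <;> dgt
    · refine PT.flatMapRange (by fun_prop) (by pbb) ?_
      refine PT.flatMapRange (by fun_prop) (by pbb) ?_
      refine PT.mapRange (by fun_prop) (by pbb) ?_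
      refine pt_mkD (by fun_prop) (by pbb) (by fun_prop) (by fun_prop) (by fun_prop) ?_ ?_ <;> dgt
    · refine PT.mapRange hR bR ?_
      refine pt_mkD (by fun_prop) (by pbb) (by fun_prop) (by fun_prop) (by fun_prop) ?_ ?_ <;> dgt
    · refine PT.flatMapRange (by fun_prop) (by pbb) ?_
      refine PT.mapRange (by fun_prop) (by pbb) ?_
      refine pt_mkD (by fun_prop) (by pbb) (by fun_prop) (by fun_prop) (by fun_prop) ?_ ?_ <;> dgt
    · refine PT.flatMapRange (by fun_prop) (by pbb) ?_
      refine PT.flatMapRange (by fun_prop) (by pbb) ?_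
      refine PT.mapRange (by fun_prop) (by pbb) ?_
      refine pt_mkD (by fun_prop) (by pbb) (by fun_prop) (by fun_prop) (by fun_prop) ?_ ?_ <;> dgt
    · refine pt_mkD (by fun_prop) (by pbb) (by fun_prop) (by fun_prop) (by fun_prop) ?_ ?_ <;> dgt
  · refine PT.ite (by fun_prop) ?_ (PT.const _)
    refine PT.flatMapRange (by fun_prop) (by pbb) ?_
    refine PT.ite (by fun_prop) (PT.const _) ?_
    refine PT.flatMapRange (by fun_prop) (by pbb) ?_
    refine PT.mapRange (by fun_prop) (by pbb) ?_
    refine pt_mkD (by fun_prop) (by pbb) (by fun_prop) (by fun_prop) (by fun_prop) ?_ ?_ <;> dgt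
  · refine PT.mapRange hR bR ?_
    refine pt_mkD (by fun_prop) (by pbb) (by fun_prop) (by fun_prop) (by fun_prop) ?_ ?_ <;> dgt

theorem pt_baseRulesD {M : α → SMD} {A R : α → ℕ} (hM : PT M) (bS : PB fun a => (M a).2.1)
    (bg : PB fun a => (M a).2.2) (hA : PT A) (bA : PB A) (hR : PT R) (bR : PB R) :
    PT (fun a => baseRulesD (M a) (A a) (R a)) := by
  unfold baseRulesD
  refine PT.append (PT.append ?_ ?_) (PT.cons ?_ (PT.const _))
  · refine PT.flatMap (by fun_prop) ?_
    exact pt_insRulesD (A := fun p : α × (InsD × ℕ) => A p.1) (R := fun p : α × (InsD × ℕ) => R p.1)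
      (S := fun p : α × (InsD × ℕ) => (M p.1).2.1) (g := fun p : α × (InsD × ℕ) => (M p.1).2.2)
      (q := fun p : α × (InsD × ℕ) => p.2.2) (i := fun p : α × (InsD × ℕ) => p.2.1)
      (by fun_prop) (PB.comp bA (by fun_prop)) (by fun_prop) (PB.comp bR (by fun_prop))
      (by fun_prop) (PB.comp bS (by fun_prop)) (by fun_prop) (PB.comp bg (by fun_prop))
      (by fun_prop) (by fun_prop)
  · refine PT.flatMapRange (by fun_prop) bS ?_
    refine PT.mapRange (by fun_prop) (by pbb) ?_
    refine pt_mkD (by fun_prop) (by pbb) (by fun_prop) (by fun_prop) (by fun_prop) ?_ ?_ <;> dgt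
  · refine pt_mkD (by fun_prop) (by pbb) (by fun_prop) (by fun_prop) (by fun_prop) ?_ ?_ <;> dgt

theorem pt_posD {A R j : α → ℕ} (hA : PT A) (hR : PT R) (bR : PB R) (hj : PT j) :
    PT (fun a => posD (A a) (R a) (j a)) := by
  unfold posD
  refine PT.mapRange (by fun_prop) (PB.mul (PB.const 2) bR) ?_
  refine PT.ite (by fun_prop) (PT.const _) ?_
  refine PT.natMod (PT.natDiv (by fun_prop) ?_) (by fun_prop)
  exact PT.natPow (by fun_prop) (by fun_prop) (PB.sub (PB.unVal (by fun_prop)))

theorem pt_baseAxD {M : α → SMD} {x : α → List ℕ} {A R : α → ℕ} (hM : PT M)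
    (bS : PB fun a => (M a).2.1) (hx : PT x) (hA : PT A) (hR : PT R) (bR : PB R) :
    PT (fun a => baseAxD (M a) (x a) (A a) (R a)) := by
  unfold baseAxD
  refine PT.cons (PT.pair (by fun_prop) (pt_posD hA hR bR (by fun_prop)))
    (PT.append ?_ (PT.cons (PT.pair (by fun_prop) (pt_posD hA hR bR (by fun_prop))) ?_))
  · refine PT.map (by fun_prop) ?_
    exact PT.pair (by fun_prop) (pt_posD (by fun_prop) (by fun_prop) (by pbb) (by fun_prop))
  · refine PT.mapRange (by fun_prop) (PB.sub bS) ?_
    exact PT.pair (by fun_prop) (pt_posD (by fun_prop) (by fun_prop) (by pbb) (by fun_prop))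

theorem pt_floodAccD {A R : α → ℕ} (hA : PT A) (bA : PB A) (hR : PT R) (bR : PB R) :
    PT (fun a => floodAccD (A a) (R a)) := by
  unfold floodAccD
  refine PT.flatMapRange (by fun_prop) (PB.mul (PB.const 2) bR) ?_
  refine PT.cons ?_ (PT.cons ?_ (PT.const _))
  · refine PT.pair (PT.const _) (PT.pair (PT.const _) (PT.pair (PT.const _) ?_))
    refine PT.mapRange (by fun_prop) (PB.mul (PB.const 2) (by pbb)) ?_
    refine PT.ite (by fun_prop) ?_ (pt_dSame (by fun_prop) (by pbb))
    refine PT.mapRange (by fun_prop) (PB.sub (by pbb)) ?_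
    fun_prop
  · refine PT.pair (PT.const _) (PT.pair (PT.const _) (PT.pair (PT.const _) ?_))
    refine PT.mapRange (by fun_prop) (PB.mul (PB.const 2) (by pbb)) ?_
    refine PT.ite (by fun_prop) ?_ (pt_dSame (by fun_prop) (by pbb))
    refine PT.mapRange (by fun_prop) (PB.sub (by pbb)) ?_
    fun_prop

theorem pt_msysD {M : α → SMD} {x : α → List ℕ} {A R : α → ℕ} (hM : PT M)
    (bS : PB fun a => (M a).2.1) (bg : PB fun a => (M a).2.2) (hx : PT x) (hA : PT A) (bA : PB A)
    (hR : PT R) (bR : PB R) : PT (fun a => msysD (M a) (x a) (A a) (R a)) := by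
  have h1 := pt_baseRulesD hM bS bg hA bA hR bR
  have h2 := pt_baseAxD hM bS hx hA hR bR
  unfold msysD
  refine PT.pair (PT.append (PT.append h1 (pt_floodAccD hA bA hR bR)) ?_) (PT.pair h2 (PT.const _))
  refine PT.map ?_ ?_
  · unfold basePredsD
    fun_prop
  · refine pt_mkD (by fun_prop) (by pbb) (by fun_prop) (by fun_prop) (by fun_prop) ?_ ?_ <;> dgt

end

end Crest.Agent.R290
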