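import Crest.Agent.R290.FGraph

/-!
Row 290, module F (helper63), part 2: polynomial time of the adjacency and of the matrix codes.
-/
set_option autoImplicit false

namespace Crest.Agent.R290

open Crest.Agent.PolyT PEnc Crest.Enc Crest.WLRefine

section
variable {κ : Type} [DecidableEq κ] [PEnc κ] {α : Type} [PEnc α]

omit [PEnc κ] in
theorem isNext_eq (ks : List κ) (p q : ℕ) :
    isNext ks p q = (decide (p < q) && decide (ks[p]? = ks[q]?) &&
      (List.range q).all fun r => !decide (p < r) || decide (ks[r]? ≠ ks[p]?)) := by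
  unfold isNext
  rw [Bool.eq_iff_iff]
  simp only [decide_eq_true_eq, Bool.and_eq_true, List.all_eq_true, List.mem_range, Bool.or_eq_true,
    Bool.not_eq_true', decide_eq_false_iff_not, and_assoc]
  refine and_congr_right fun _ => and_congr_right fun _ => ?_
  refine forall_congr' fun r => forall_congr' fun _ => ?_
  tauto

theorem pt_isNext {ks : α → List κ} {p q : α → Un} (hk : PT ks) (hp : PT p) (hq : PT q) :
    PT (fun a => isNext (ks a) (p a).val (q a).val) := by
  simp only [isNext_eq]
  refine PT.and (by fun_prop) ?_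
  refine PT.allRange (by fun_prop) (PB.unVal hq) ?_
  fun_prop

/-- `3 n` etc. -/
theorem pt_rdadj {ks : α → List κ} {tb : α → List Bool} {X : α → ℕ} {u v : α → RV} (hk : PT ks)
    (ht : PT tb) (hX : PT X) (hu : PT u) (hv : PT v) :
    PT (fun a => rdadj (ks a) (tb a) (X a) (u a) (v a)) := by
  have hn : PT (fun a => isNext (ks a) (u a).2.1.val (v a).2.1.val) :=
    pt_isNext hk (by fun_prop) (by fun_prop)
  unfold rdadj
  fun_prop

end

/-! ### codes -/

theorem code_matOf {V : Type} (L : List V) (adj : V → V → Bool) :
    adjMatrixCode (matOf L adj) = natCode L.length ++ L.flatMap fun u => L.map fun v => adj u v := by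
  unfold adjMatrixCode matOf
  congr 1
  have h : ∀ {β : Type} (g : V → β), (List.finRange L.length).map (fun i => g (L.get i)) = L.map g := by
    intro β g
    conv_rhs => rw [← List.map_get_finRange L, List.map_map]
    rfl
  have h2 : ∀ {β : Type} (g : V → List β),
      (List.finRange L.length).flatMap (fun i => g (L.get i)) = L.flatMap g := by
    intro β g
    rw [List.flatMap_def, List.flatMap_def, h]
  rw [← h2 fun u => L.map fun v => adj u v]
  congr 1
  funext i
  exact h fun v => adj (L.get i) v

/-- code of a raw graph -/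
def rawCode {β : Type} (L : List β) (adj : β → β → Bool) : List Bool :=
  natCode L.length ++ L.flatMap fun u => L.map fun v => adj u v

theorem code_map {V β : Type} (L : List V) (f : V → β) (adj : V → V → Bool) (adj' : β → β → Bool)
    (h : ∀ u v, adj' (f u) (f v) = adj u v) :
    adjMatrixCode (matOf L adj) = rawCode (L.map f) adj' := by
  rw [code_matOf, rawCode, List.length_map, List.flatMap_map]
  congr 1
  congr 1
  funext u
  rw [List.map_map]
  apply List.map_congr_left
  intro v _
  exact (h u v).symm

section
variable {α : Type} [PEnc α]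

theorem pt_rawCode {β : Type} [PEnc β] {L : α → List β} {adj : α → β → β → Bool} (hL : PT L)
    (ha : PT (fun p : α × β × β => adj p.1 p.2.1 p.2.2)) : PT (fun a => rawCode (L a) (adj a)) := by
  unfold rawCode
  refine PT.append (by fun_prop) ?_
  refine PT.flatMap hL ?_
  refine PT.map (by fun_prop) ?_
  exact PT.comp (g := fun p : α × β × β => adj p.1 p.2.1 p.2.2)
    (f := fun p : (α × β) × β => (p.1.1, p.1.2, p.2)) ha (by fun_prop)

theorem pt_rvPort {p : α → Un} (hp : PT p) : PT (fun a => rvPort (p a).val) := by
  unfold rvPort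
  fun_prop (disch := pb)

theorem pt_rvXor {p : α → Un} (hp : PT p) : PT (fun a => rvXor (p a).val) := by
  unfold rvXor
  fun_prop (disch := pb)

theorem pt_rvTm {p : α → Un} (hp : PT p) : PT (fun a => rvTm (p a).val) := by
  unfold rvTm
  fun_prop (disch := pb)

theorem pt_rvList {X T : α → ℕ} (hX : PT X) (hT : PT T) (bX : PB X) (bT : PB T) :
    PT (fun a => rvList (X a) (T a)) := by
  unfold rvList
  refine PT.append (by fun_prop) (PT.append ?_ (PT.append ?_ ?_))
  · exact PT.flatMapRange (f := fun _ i => rvPort i) (by fun_prop) (by pb) (pt_rvPort (by fun_prop))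
  · exact PT.flatMapRange (f := fun _ i => rvXor i) (by fun_prop) bX (pt_rvXor (by fun_prop))
  · exact PT.flatMapRange (f := fun _ i => rvTm i) (by fun_prop) bT (pt_rvTm (by fun_prop))

end

section
variable {κ : Type} [DecidableEq κ] [PEnc κ] {α : Type} [PEnc α]

theorem pt_radj {ks : α → List κ} {tb : α → List Bool} {X : α → ℕ} {u v : α → RV} (hk : PT ks)
    (ht : PT tb) (hX : PT X) (hu : PT u) (hv : PT v) :
    PT (fun a => radj (ks a) (tb a) (X a) (u a) (v a)) := by
  unfold radj
  exact PT.or (pt_rdadj hk ht hX hu hv) (pt_rdadj hk ht hX hv hu)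

omit [DecidableEq κ] in
theorem pt_portKeys {xs : α → List (κ × κ × κ)} {ts : α → List (κ × Bool)} (hx : PT xs) (ht : PT ts) :
    PT (fun a => portKeys (xs a) (ts a)) := by
  unfold portKeys
  fun_prop

/-- the code of `gadj xs ts` -/
def gcode (xs : List (κ × κ × κ)) (ts : List (κ × Bool)) : List Bool :=
  adjMatrixCode (matOf (gvList xs.length ts.length) (gadj xs ts))

omit [PEnc κ] in
theorem gcode_eq (xs : List (κ × κ × κ)) (ts : List (κ × Bool)) :
    gcode xs ts = rawCode (rvList xs.length ts.length)
      (radj (portKeys xs ts) (ts.map Prod.snd) xs.length) := by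
  rw [← map_toRV]
  exact code_map _ _ _ _ fun u v => radj_toRV xs ts u v

theorem pt_gcode {xs : α → List (κ × κ × κ)} {ts : α → List (κ × Bool)} (hx : PT xs) (ht : PT ts) :
    PT (fun a => gcode (xs a) (ts a)) := by
  simp only [gcode_eq]
  refine pt_rawCode (pt_rvList (by fun_prop) (by fun_prop) (PT.pb_length hx) (PT.pb_length ht)) ?_
  exact pt_radj (pt_portKeys (by fun_prop) (by fun_prop)) (by fun_prop) (by fun_prop) (by fun_prop)
    (by fun_prop)

/-! ### padded apex graph -/

/-- vertices of the padded apex graph -/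
def apList (X T p : ℕ) : List (GV X T ⊕ Fin (p + 1)) :=
  (gvList X T).map Sum.inl ++ (List.finRange (p + 1)).map Sum.inr

theorem mem_apList {X T p : ℕ} (v : GV X T ⊕ Fin (p + 1)) : v ∈ apList X T p := by
  cases v with
  | inl v => simp [apList, mem_gvList]
  | inr j => simp [apList]

theorem nodup_apList (X T p : ℕ) : (apList X T p).Nodup := by
  unfold apList
  rw [List.nodup_append]
  refine ⟨(nodup_gvList X T).map Sum.inl_injective, (List.nodup_finRange _).map Sum.inr_injective, ?_⟩
  simp

theorem length_apList (X T p : ℕ) : (apList X T p).length = (gvList X T).length + (p + 1) := by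
  simp [apList]

def toRVA {X T p : ℕ} : GV X T ⊕ Fin (p + 1) → RV
  | .inl v => toRV v
  | .inr j => (10, ⟨j.val⟩, ⟨0⟩, false, false)

/-- raw vertices of the padded apex graph -/
def raList (X T p : ℕ) : List RV :=
  rvList X T ++ (List.range (p + 1)).map fun j => (10, ⟨j⟩, ⟨0⟩, false, false)

theorem map_toRVA (X T p : ℕ) : (apList X T p).map toRVA = raList X T p := by
  rw [apList, raList, List.map_append, List.map_map, ← map_toRV]
  congr 1
  rw [List.map_map, ← List.map_coe_finRange_eq_range, List.map_map]
  rfl

/-- raw adjacency of the padded apex graph -/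
def raadj (ks : List κ) (tb : List Bool) (X : ℕ) (u v : RV) : Bool :=
  if u.1 = 10 then
    if v.1 = 10 then Bool.xor (decide (u.2.1.val = 0)) (decide (v.2.1.val = 0))
    else decide (u.2.1.val = 0)
  else if v.1 = 10 then decide (v.2.1.val = 0)
  else radj ks tb X u v

theorem toRV_ne {X T : ℕ} (v : GV X T) : (toRV v).1 ≠ 10 := by
  cases v <;> simp [toRV]

omit [PEnc κ] in
theorem raadj_toRVA (xs : List (κ × κ × κ)) (ts : List (κ × Bool)) (p : ℕ)
    (u v : GV xs.length ts.length ⊕ Fin (p + 1)) :
    raadj (portKeys xs ts) (ts.map Prod.snd) xs.length (toRVA u) (toRVA v) =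
      apexAdj p (gadj xs ts) u v := by
  cases u with
  | inl u =>
    cases v with
    | inl v =>
      simp only [raadj, toRVA, if_neg (toRV_ne u), if_neg (toRV_ne v), apexAdj, radj_toRV]
    | inr j =>
      simp only [raadj, toRVA, if_neg (toRV_ne u), if_true, apexAdj]
      congr!
  | inr i =>
    cases v with
    | inl v =>
      simp only [raadj, toRVA, if_neg (toRV_ne v), if_true, apexAdj]
      congr!
    | inr j =>
      simp only [raadj, toRVA, if_true, apexAdj]
      congr!

theorem pt_raadj {ks : α → List κ} {tb : α → List Bool} {X : α → ℕ} {u v : α → RV} (hk : PT ks)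
    (ht : PT tb) (hX : PT X) (hu : PT u) (hv : PT v) :
    PT (fun a => raadj (ks a) (tb a) (X a) (u a) (v a)) := by
  have h := pt_radj hk ht hX hu hv
  unfold raadj
  fun_prop

/-- the code of the padded apex graph of `gadj xs ts` -/
def apcode (p : ℕ) (xs : List (κ × κ × κ)) (ts : List (κ × Bool)) : List Bool :=
  adjMatrixCode (matOf (apList xs.length ts.length p) (apexAdj p (gadj xs ts)))

omit [PEnc κ] in
theorem apcode_eq (p : ℕ) (xs : List (κ × κ × κ)) (ts : List (κ × Bool)) :
    apcode p xs ts = rawCode (raList xs.length ts.length p)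
      (raadj (portKeys xs ts) (ts.map Prod.snd) xs.length) := by
  rw [← map_toRVA]
  exact code_map _ _ _ _ fun u v => raadj_toRVA xs ts p u v

theorem pt_apcode {p : α → ℕ} {xs : α → List (κ × κ × κ)} {ts : α → List (κ × Bool)} (hp : PT p)
    (bp : PB p) (hx : PT xs) (ht : PT ts) : PT (fun a => apcode (p a) (xs a) (ts a)) := by
  simp only [apcode_eq]
  refine pt_rawCode ?_ ?_
  · unfold raList
    refine PT.append (pt_rvList (by fun_prop) (by fun_prop) (PT.pb_length hx) (PT.pb_length ht)) ?_
    refine PT.mapRange (by fun_prop) (by pb) ?_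
    fun_prop (disch := pb)
  · exact pt_raadj (pt_portKeys (by fun_prop) (by fun_prop)) (by fun_prop) (by fun_prop)
      (by fun_prop) (by fun_prop)

end

/-- a `PT` function on codes as a function on strings -/
theorem exists_raw {α : Type} [PEnc α] {f : α → List Bool} (hf : PT f) :
    ∃ F : List Bool → List Bool, Crest.Complexity.PolyTime F ∧ ∀ a, F (PEnc.enc a) = f a := by
  obtain ⟨g, hg, h⟩ := hf
  obtain ⟨g', hg', h'⟩ := polyTime_ofList
  exact ⟨fun x => g' (g x), polyTime_comp hg' hg, fun a => by simp only [h, h']⟩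

end Crest.Agent.R290
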