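import Mathlib
import Crest.Prelude.Def_WL
import Crest.Agent.R290.EqDef

/-!
# Row 290 module G: colour equality at all rounds (copy of a part of helper27's WLBasic, on `Fin n`)
-/

set_option autoImplicit false

open Finset
open Crest.WLRefine

namespace Crest.Agent.R290G

variable {n m : ℕ}

/-- equal joint colours at every round -/
def JT (k : ℕ) (G : Fin n → Fin n → Bool) (H : Fin m → Fin m → Bool) (v : Fin k → Fin n)
    (w : Fin k → Fin m) : Prop :=
  ∀ s, jcolor G k s v = jcolor H k s w

theorem exists_equiv_of_map_eq {V W : Type*} [Fintype V] [Fintype W] {α : Type*}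
    (f : V → α) (g : W → α)
    (h : (univ : Finset V).val.map f = (univ : Finset W).val.map g) :
    ∃ σ : V ≃ W, ∀ z, f z = g (σ z) := by
  classical
  have hc : ∀ a : α, Fintype.card {x // f x = a} = Fintype.card {x // g x = a} := by
    intro a
    have h1 := congrArg (Multiset.count a) h
    rw [Multiset.count_map, Multiset.count_map] at h1
    rw [Fintype.card_subtype, Fintype.card_subtype]
    simp only [Finset.card_def, Finset.filter_val]
    convert h1 using 3 <;> exact eq_comm
  have hE : ∀ a : α, Nonempty ({x // f x = a} ≃ {x // g x = a}) := fun a =>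
    ⟨Fintype.equivOfCardEq (hc a)⟩
  have E : ∀ a : α, {x // f x = a} ≃ {x // g x = a} := fun a => Classical.choice (hE a)
  refine ⟨(Equiv.sigmaFiberEquiv f).symm.trans
    ((Equiv.sigmaCongrRight E).trans (Equiv.sigmaFiberEquiv g)), ?_⟩
  intro z
  exact ((E (f z)) ⟨z, rfl⟩).2.symm

theorem map_eq_of_equiv {V W : Type*} [Fintype V] [Fintype W] {α : Type*}
    (f : V → α) (g : W → α) (σ : V ≃ W) (h : ∀ z, f z = g (σ z)) :
    (univ : Finset V).val.map f = (univ : Finset W).val.map g := by
  have : f = g ∘ σ := funext h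
  rw [this, ← Multiset.map_map, Multiset.map_univ_val_equiv σ]

theorem exists_forall_of_finite {α : Type*} [Finite α] (P : ℕ → α → Prop)
    (hdec : ∀ s a, P (s + 1) a → P s a) (hex : ∀ s, ∃ a, P s a) : ∃ a, ∀ s, P s a := by
  by_contra hcon
  push Not at hcon
  choose t ht using hcon
  have hmono : ∀ d s a, P (s + d) a → P s a := by
    intro d
    induction d with
    | zero => intro s a h; exact h
    | succ d ih => intro s a h; exact ih s a (hdec _ _ h)
  obtain ⟨M, hM⟩ := (Set.finite_range t).bddAbove
  obtain ⟨a, ha⟩ := hex M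
  have hle : t a ≤ M := hM ⟨a, rfl⟩
  apply ht a
  apply hmono (M - t a)
  rw [Nat.add_sub_cancel' hle]
  exact ha

theorem jcolor_succ_fst {k s : ℕ} {G : Fin n → Fin n → Bool} {H : Fin m → Fin m → Bool}
    {v : Fin k → Fin n} {w : Fin k → Fin m} (h : jcolor G k (s + 1) v = jcolor H k (s + 1) w) :
    jcolor G k s v = jcolor H k s w :=
  congrArg Prod.fst h

theorem jcolor_le {k s t : ℕ} {G : Fin n → Fin n → Bool} {H : Fin m → Fin m → Bool}
    {v : Fin k → Fin n} {w : Fin k → Fin m} (hst : s ≤ t) (h : jcolor G k t v = jcolor H k t w) :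
    jcolor G k s v = jcolor H k s w := by
  induction t, hst using Nat.le_induction with
  | base => exact h
  | succ t _ ih => exact ih (jcolor_succ_fst h)

/-- a bijective back-and-forth system is contained in colour equality -/
theorem jt_of_bisim {k : ℕ} {G : Fin n → Fin n → Bool} {H : Fin m → Fin m → Bool}
    (R : (Fin k → Fin n) → (Fin k → Fin m) → Prop)
    (atom : ∀ v w, R v w → atomicType G v = atomicType H w)
    (step : ∀ v w, R v w → ∃ σ : Fin n ≃ Fin m, ∀ z i,
      R (Function.update v i z) (Function.update w i (σ z)))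
    {v : Fin k → Fin n} {w : Fin k → Fin m} (h : R v w) : JT k G H v w := by
  intro s
  induction s generalizing v w with
  | zero => exact atom v w h
  | succ s ih =>
    obtain ⟨σ, hσ⟩ := step v w h
    simp only [jcolor]
    refine Prod.ext (ih h) ?_
    apply map_eq_of_equiv _ _ σ
    intro z
    funext i
    exact ih (hσ z i)

/-- colour equality is itself a Duplicator strategy -/
theorem jt_step {k : ℕ} {G : Fin n → Fin n → Bool} {H : Fin m → Fin m → Bool}
    {v : Fin k → Fin n} {w : Fin k → Fin m} (h : JT k G H v w) :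
    ∃ σ : Fin n ≃ Fin m, ∀ z i, JT k G H (Function.update v i z) (Function.update w i (σ z)) := by
  have := exists_forall_of_finite
    (fun (s : ℕ) (σ : Fin n ≃ Fin m) => ∀ z i, jcolor G k s (Function.update v i z) =
      jcolor H k s (Function.update w i (σ z)))
    (fun s σ hs z i => jcolor_succ_fst (hs z i))
    (fun s => by
      have h1 := congrArg Prod.snd (h (s + 1))
      obtain ⟨σ, hσ⟩ := exists_equiv_of_map_eq
        (fun z : Fin n => fun i : Fin k => jcolor G k s (Function.update v i z))
        (fun z : Fin m => fun i : Fin k => jcolor H k s (Function.update w i z)) h1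
      exact ⟨σ, fun z i => congrFun (hσ z) i⟩)
  obtain ⟨σ, hσ⟩ := this
  exact ⟨σ, fun z i s => hσ s z i⟩

theorem jequiv_iff_equiv {k : ℕ} {G : Fin n → Fin n → Bool} {H : Fin m → Fin m → Bool} :
    JEquiv k G H ↔ ∃ Φ : (Fin k → Fin n) ≃ (Fin k → Fin m), ∀ v, JT k G H v (Φ v) := by
  constructor
  · intro h
    obtain ⟨Φ, hΦ⟩ := exists_forall_of_finite
      (fun (s : ℕ) (Φ : (Fin k → Fin n) ≃ (Fin k → Fin m)) => ∀ v, jcolor G k s v = jcolor H k s (Φ v))
      (fun s σ hs z => jcolor_succ_fst (hs z))
      (fun s => exists_equiv_of_map_eq _ _ (h s))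
    exact ⟨Φ, fun v s => hΦ s v⟩
  · rintro ⟨Φ, hΦ⟩ s
    exact map_eq_of_equiv _ _ Φ (fun v => hΦ v s)

/-- one round of colour refinement less -/
theorem crcolor_succ_fst {s : ℕ} {G : Fin n → Fin n → Bool} {H : Fin m → Fin m → Bool}
    {v : Fin n} {w : Fin m} (h : crcolor G (s + 1) v = crcolor H (s + 1) w) :
    crcolor G s v = crcolor H s w :=
  congrArg Prod.fst h

theorem crcolor_le {s t : ℕ} {G : Fin n → Fin n → Bool} {H : Fin m → Fin m → Bool}
    {v : Fin n} {w : Fin m} (hst : s ≤ t) (h : crcolor G t v = crcolor H t w) :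
    crcolor G s v = crcolor H s w := by
  induction t, hst using Nat.le_induction with
  | base => exact h
  | succ t _ ih => exact ih (crcolor_succ_fst h)

/-- colour refinement: one bijection for all rounds -/
theorem crequiv_iff_equiv {G : Fin n → Fin n → Bool} {H : Fin m → Fin m → Bool} :
    CREquiv G H ↔ ∃ Φ : Fin n ≃ Fin m, ∀ v s, crcolor G s v = crcolor H s (Φ v) := by
  constructor
  · intro h
    obtain ⟨Φ, hΦ⟩ := exists_forall_of_finite
      (fun (s : ℕ) (Φ : Fin n ≃ Fin m) => ∀ v, crcolor G s v = crcolor H s (Φ v))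
      (fun s σ hs z => crcolor_succ_fst (hs z))
      (fun s => exists_equiv_of_map_eq _ _ (h s))
    exact ⟨Φ, fun v s => hΦ s v⟩
  · rintro ⟨Φ, hΦ⟩ s
    exact map_eq_of_equiv _ _ Φ (fun v => hΦ v s)

end Crest.Agent.R290G
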