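import Crest.Agent.R290.GMs
import Crest.Agent.R290.GJT

/-!
# Row 290 module G: the tables compute colour refinement, part 1 (one round, induction)
(on counts, tables, stabilisation: GMs.lean; on colours: GJT.lean, `crcolor_le`, `crequiv_iff_equiv`)
-/

set_option autoImplicit false

open Finset Crest.WLRefine

namespace Crest.Agent.R290G

variable {n : ℕ}

/-- vertex `v` of the graph number `ε` -/
def ev (n : ℕ) (ε : Bool) (v : Fin n) : ℕ := (if ε then n else 0) + v

/-- the graph number `ε` -/
def csl (n g h : ℕ) (ε : Bool) : Fin n → Fin n → Bool := matN n (if ε then h else g)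

theorem ev_lt (ε : Bool) (v : Fin n) : ev n ε v < 2 * n := by
  have := v.2
  unfold ev
  split_ifs <;> omega

theorem exists_ev {a : ℕ} (ha : a < 2 * n) : ∃ ε v, ev n ε v = a := by
  by_cases h : a < n
  · exact ⟨false, ⟨a, h⟩, by simp [ev]⟩
  · exact ⟨true, ⟨a - n, by omega⟩, by simp only [ev, if_true]; omega⟩

theorem gsel_ev (g h : ℕ) (ε : Bool) (v : Fin n) : gsel n g h (ev n ε v) = if ε then h else g := by
  have := v.2
  unfold gsel ev
  cases ε
  · simp [this]
  · simp

theorem ev_mod (ε : Bool) (v : Fin n) : ev n ε v % n = v := by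
  have := v.2
  unfold ev
  cases ε
  · simp [Nat.mod_eq_of_lt this]
  · simp [Nat.mod_eq_of_lt this]

theorem ev_div (ε : Bool) (v : Fin n) (c : ℕ) : n * (ev n ε v / n) + c = (if ε then n else 0) + c := by
  have h1 := v.2
  have hn : 0 < n := by omega
  unfold ev
  cases ε
  · simp [Nat.div_eq_of_lt h1]
  · simp [Nat.add_div_left _ hn, Nat.div_eq_of_lt h1]

/-- `gsel n g h (ev n ε v)` = number of the graph, `ev n ε v % n = v`, `n * (ev n ε v / n) + c = ev n ε c`;
then `count_eq_natCard` -/
theorem ccnt_eq (g h s : ℕ) (T : List Bool)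
    (hT : ∀ (ε δ : Bool) (v w : Fin n), rel (2 * n) T (ev n ε v) (ev n δ w) = true ↔
      crcolor (csl n g h ε) s v = crcolor (csl n g h δ) s w)
    (θ ε : Bool) (u v : Fin n) :
    ccnt n g h T (ev n θ u) (ev n ε v) = Nat.card {c : Fin n //
      csl n g h ε v c = true ∧ crcolor (csl n g h θ) s u = crcolor (csl n g h ε) s c} := by
  unfold ccnt
  rw [count_eq_natCard]
  refine Nat.card_congr (Equiv.subtypeEquivRight fun c => ?_)
  rw [← hT θ ε u c, gsel_ev, ev_mod, ev_div]
  rfl

/-- `ccnt_eq` and `map_filter_eq_iff` with `D = Bool × Fin n`, `c d = crcolor (csl n g h d.1) s d.2` -/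
theorem cR1_iff (g h s : ℕ) (T : List Bool)
    (hT : ∀ (ε δ : Bool) (v w : Fin n), rel (2 * n) T (ev n ε v) (ev n δ w) = true ↔
      crcolor (csl n g h ε) s v = crcolor (csl n g h δ) s w)
    (ε δ : Bool) (v w : Fin n) :
    cR1 n g h T (ev n ε v) (ev n δ w) = true ↔
      crcolor (csl n g h ε) (s + 1) v = crcolor (csl n g h δ) (s + 1) w := by
  unfold cR1
  rw [Bool.and_eq_true, decide_eq_true_iff, hT]
  have e1 : (crcolor (csl n g h ε) (s + 1) v = crcolor (csl n g h δ) (s + 1) w) ↔
      (crcolor (csl n g h ε) s v = crcolor (csl n g h δ) s w ∧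
        ((univ : Finset (Fin n)).filter fun x => csl n g h ε v x = true).val.map
          (crcolor (csl n g h ε) s) =
        ((univ : Finset (Fin n)).filter fun x => csl n g h δ w x = true).val.map
          (crcolor (csl n g h δ) s)) := by
    simp only [crcolor]
    exact Prod.ext_iff
  rw [e1]
  refine and_congr_right fun _ => ?_
  rw [map_filter_eq_iff (D := Bool × Fin n) (crcolor (csl n g h ε) s) (crcolor (csl n g h δ) s)
    (fun x => csl n g h ε v x = true) (fun x => csl n g h δ w x = true)
    (fun d => crcolor (csl n g h d.1) s d.2) (fun a => ⟨(ε, a), rfl⟩) (fun b => ⟨(δ, b), rfl⟩)]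
  constructor
  · intro H d
    have := H (ev n d.1 d.2) (ev_lt d.1 d.2)
    rwa [ccnt_eq g h s T hT, ccnt_eq g h s T hT] at this
  · intro H d hd
    obtain ⟨θ, u, rfl⟩ := exists_ev hd
    rw [ccnt_eq g h s T hT, ccnt_eq g h s T hT]
    exact H (θ, u)

/-- induction on `s`: `rel_tab`, `cR1_iff` -/
theorem crel_iter (g h s : ℕ) (ε δ : Bool) (v w : Fin n) :
    rel (2 * n) ((cstep n g h)^[s] (tab (2 * n) fun _ _ => true)) (ev n ε v) (ev n δ w) = true ↔
      crcolor (csl n g h ε) s v = crcolor (csl n g h δ) s w := by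
  induction s generalizing ε δ v w with
  | zero =>
    rw [Function.iterate_zero, id, rel_tab _ (ev_lt ε v) (ev_lt δ w)]
    simp [crcolor]
  | succ s ih =>
    rw [Function.iterate_succ_apply']
    unfold cstep
    rw [rel_tab _ (ev_lt ε v) (ev_lt δ w)]
    exact cR1_iff g h s _ ih ε δ v w

end Crest.Agent.R290G
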