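import Crest.Agent.R290.GCR1

/-!
# Row 290 module G: the tables compute colour refinement, part 2 (stabilisation, histograms)
-/

set_option autoImplicit false

open Finset Crest.WLRefine

namespace Crest.Agent.R290G

variable {n : ℕ}

/-- `iterate_stable`, as in GTab2 (`iterate_stable` with `μ T = T.count true`; `T_(s+1) = tab (2n) (cR1 .. T_s)`, `cR1 .. T a b = true → rel (2n) T a b = true`, `tab_rel`, `count_tab_lt`) -/
theorem citer_stable (n g h s : ℕ) (hs : 2 * n * (2 * n) ≤ s) :
    (cstep n g h)^[s] (tab (2 * n) fun _ _ => true) = cTfin n g h := by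
  unfold cTfin
  refine iterate_stable (cstep n g h) (tab (2 * n) fun _ _ => true) (fun T => T.count true)
    (2 * n * (2 * n)) ?_ ?_ s hs
  · exact (List.count_le_length).trans (length_tab' _ _).le
  · intro i hne
    have hlen : ((cstep n g h)^[i] (tab (2 * n) fun _ _ => true)).length = 2 * n * (2 * n) := by
      cases i with
      | zero => exact length_tab' _ _
      | succ i => rw [Function.iterate_succ_apply']; exact length_tab' _ _
    rw [Function.iterate_succ_apply'] at hne ⊢
    generalize (cstep n g h)^[i] (tab (2 * n) fun _ _ => true) = T at hne hlen ⊢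
    have hT := tab_rel T hlen
    have hlt := count_tab_lt (M := 2 * n) (rel (2 * n) T) (cR1 n g h T) (by
      intro a b _ _ hab
      unfold cR1 at hab
      rw [Bool.and_eq_true] at hab
      exact hab.1) (by rw [hT]; exact hne)
    rw [hT] at hlt
    exact hlt

/-- the final table is equality of the colours at all rounds -/
theorem crel_fin (g h : ℕ) (ε δ : Bool) (v w : Fin n) :
    rel (2 * n) (cTfin n g h) (ev n ε v) (ev n δ w) = true ↔
      ∀ s, crcolor (csl n g h ε) s v = crcolor (csl n g h δ) s w := by
  constructor
  · intro hr s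
    rcases le_total s (2 * n * (2 * n)) with hs | hs
    · exact crcolor_le hs ((crel_iter g h (2 * n * (2 * n)) ε δ v w).1 hr)
    · rw [← citer_stable n g h s hs] at hr
      exact (crel_iter g h s ε δ v w).1 hr
  · intro hr
    exact (crel_iter g h (2 * n * (2 * n)) ε δ v w).2 (hr _)

/-- **the colour refinement test is correct** (`crel_fin`, `count_eq_natCard`, `map_eq_iff_natCard` with the
colour `fun s => crcolor .. s v`, `exists_equiv_of_map_eq`, `crequiv_iff_equiv`) -/
theorem creq_iff (g h : ℕ) : creq n g h = true ↔ CREquiv (matN n g) (matN n h) := by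
  rw [crequiv_iff_equiv]
  have h1 : (∃ Φ : Fin n ≃ Fin n, ∀ v s, crcolor (matN n g) s v = crcolor (matN n h) s (Φ v)) ↔
      (univ : Finset (Fin n)).val.map (fun v s => crcolor (matN n g) s v) =
        (univ : Finset (Fin n)).val.map (fun v s => crcolor (matN n h) s v) := by
    constructor
    · rintro ⟨Φ, hΦ⟩
      exact map_eq_of_equiv _ _ Φ fun v => funext fun s => hΦ v s
    · intro he
      obtain ⟨Φ, hΦ⟩ := exists_equiv_of_map_eq _ _ he
      exact ⟨Φ, fun v s => congrFun (hΦ v) s⟩
  rw [h1, map_eq_iff_natCard _ _ rfl]
  unfold creq histEq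
  rw [decide_eq_true_iff]
  have h0 : ∀ v : Fin n, ev n false v = v := fun v => by simp [ev]
  have h2 : ∀ v : Fin n, ev n true v = n + v := fun v => by simp [ev]
  have h3 : ∀ v : Fin n, Nat.count (fun b => rel (2 * n) (cTfin n g h) v b = true) n =
      Nat.card {b : Fin n // (fun s => crcolor (matN n g) s v) = fun s => crcolor (matN n g) s b} := by
    intro v
    rw [count_eq_natCard]
    refine Nat.card_congr (Equiv.subtypeEquivRight fun b => ?_)
    have := crel_fin g h false false v b
    rw [h0, h0] at this
    rw [this]
    exact (funext_iff).symm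
  have h4 : ∀ v : Fin n, Nat.count (fun b => rel (2 * n) (cTfin n g h) v (n + b) = true) n =
      Nat.card {b : Fin n // (fun s => crcolor (matN n g) s v) = fun s => crcolor (matN n h) s b} := by
    intro v
    rw [count_eq_natCard]
    refine Nat.card_congr (Equiv.subtypeEquivRight fun b => ?_)
    have := crel_fin g h false true v b
    rw [h0, h2] at this
    rw [this]
    exact (funext_iff).symm
  constructor
  · intro hh v
    have := hh v v.2
    rw [h3, h4] at this
    exact this
  · intro hh a ha
    have := hh ⟨a, ha⟩
    have e3 := h3 ⟨a, ha⟩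
    have e4 := h4 ⟨a, ha⟩
    simp only at e3 e4
    rw [e3, e4]
    exact this

end Crest.Agent.R290G
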