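import Crest.Agent.R290.GDefs

/-!
# Row 290 module G: connectedness
-/

set_option autoImplicit false

open Finset Crest.WLRefine

namespace Crest.Agent.R290G

variable {n : ℕ}

/-- `hasOut n g S`: an edge of `adjGraph (matN n g)` from a vertex with `S`-bit `true` to one with `S`-bit
`false` (different vertices, `SimpleGraph.fromRel_adj`) -/
theorem hasOut_iff (n g S : ℕ) : hasOut n g S = true ↔
    ∃ v w : Fin n, bitN S v = true ∧ bitN S w = false ∧ (adjGraph (matN n g)).Adj v w := by
  unfold hasOut
  rw [decide_eq_true_iff]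
  constructor
  · rintro ⟨v, hv, w, hw, h1, h2, h3⟩
    refine ⟨⟨v, hv⟩, ⟨w, hw⟩, h1, h2, ?_⟩
    unfold adjGraph
    rw [SimpleGraph.fromRel_adj]
    refine ⟨?_, h3⟩
    intro e
    have e' : v = w := congrArg Fin.val e
    rw [e', h2] at h1
    exact Bool.false_ne_true h1
  · rintro ⟨v, w, h1, h2, h3⟩
    unfold adjGraph at h3
    rw [SimpleGraph.fromRel_adj] at h3
    exact ⟨v, v.2, w, w.2, h1, h2, h3.2⟩

private theorem gconn_bitN_eq (g j : ℕ) : bitN g j = g.testBit j := by
  unfold bitN
  rw [Nat.testBit_eq_decide_div_mod_eq]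

/-- every set of vertices has a number below `2 ^ n` (`Nat.ofBits`) -/
theorem exists_setN (p : Fin n → Prop) : ∃ S, S < 2 ^ n ∧ ∀ v : Fin n, bitN S v = true ↔ p v := by
  classical
  refine ⟨Nat.ofBits fun v : Fin n => decide (p v), Nat.ofBits_lt_two_pow _, fun v => ?_⟩
  rw [gconn_bitN_eq, Nat.testBit_ofBits_lt _ _ v.2, decide_eq_true_iff]

/-- `←`: `0 < n` from `Nonempty`; `0` is in `S`, `v` is not: a walk from `0` to `v` leaves `S` (induction on the
walk / `Relation.ReflTransGen`).  `→`: `S` = number of the set of vertices reachable from `0`; if some `v` is not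
reachable then an edge leaves the set, contradiction.  `pw B 2 n = 2 ^ n`. -/
theorem conn_iff (B : ℕ) (hB : 2 ^ n ≤ B) (g : ℕ) :
    conn B n g = true ↔ (adjGraph (matN n g)).Connected := by
  have hpw : pw B 2 n = 2 ^ n := Nat.min_eq_left hB
  unfold conn
  rw [decide_eq_true_iff, hpw]
  constructor
  · rintro ⟨hn, h⟩
    have h0 : ∀ v, (adjGraph (matN n g)).Reachable ⟨0, hn⟩ v := by
      by_contra hcon
      push Not at hcon
      obtain ⟨v, hv⟩ := hcon
      obtain ⟨S, hS, hSp⟩ := exists_setN (fun v => (adjGraph (matN n g)).Reachable ⟨0, hn⟩ v)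
      have hout := h S hS ⟨(hSp ⟨0, hn⟩).2 (SimpleGraph.Reachable.refl _), v, v.2, by
        rw [← Bool.not_eq_true]
        intro hcon'
        exact hv ((hSp v).1 hcon')⟩
      obtain ⟨a, b, ha, hb, hab⟩ := (hasOut_iff n g S).1 hout
      have hra := (hSp a).1 ha
      have hrb := (hSp b).2 (hra.trans hab.reachable)
      rw [hb] at hrb
      exact Bool.false_ne_true hrb
    haveI : Nonempty (Fin n) := ⟨⟨0, hn⟩⟩
    exact SimpleGraph.Connected.mk fun u v => (h0 u).symm.trans (h0 v)
  · intro hc
    obtain ⟨x⟩ := hc.nonempty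
    have hn : 0 < n := lt_of_le_of_lt (Nat.zero_le _) x.2
    refine ⟨hn, fun S _ => ?_⟩
    rintro ⟨h1, v, hv, h2⟩
    by_contra hno
    have hclosed : ∀ a b : Fin n, (adjGraph (matN n g)).Adj a b → bitN S a = true →
        bitN S b = true := by
      intro a b hab ha
      by_contra hb
      exact hno ((hasOut_iff n g S).2 ⟨a, b, ha, by simpa using hb, hab⟩)
    have hr := hc.preconnected ⟨0, hn⟩ ⟨v, hv⟩
    rw [SimpleGraph.reachable_iff_reflTransGen] at hr
    have hall : ∀ b : Fin n, Relation.ReflTransGen (adjGraph (matN n g)).Adj ⟨0, hn⟩ b →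
        bitN S b = true := by
      intro b hb
      induction hb with
      | refl => exact h1
      | tail _ hab ih => exact hclosed _ _ hab ih
    have := hall _ hr
    rw [h2] at this
    exact Bool.false_ne_true this

end Crest.Agent.R290G
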