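import Crest.Agent.R290.GXP
import Crest.Prelude.Def_WL

/-!
# Row 290 module G: the numeric algorithm (definitions only)

Graphs on `Fin n` are given by a number `g` (bit `n * v + w` = entry `(v, w)`): `matN n g`.
`K`-tuples are numbers `u < N = n ^ K` (base `n` digits), elements of the disjoint union of the tuples of
the two graphs `g`, `h` are numbers `a < 2 * N` (`a < N`: tuple `a` of `g`; `N ≤ a`: tuple `a - N` of `h`).
A relation on `[0, M)` is a table (list of bits) of length `M * M`, entry `(a, b)` at `a * M + b`.
`B` is an upper bound used to truncate powers (`pw B n i = min (n ^ i) B`).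
-/

set_option autoImplicit false

namespace Crest.Agent.R290G

/-- the matrix with the number `g` -/
def matN (n g : ℕ) : Fin n → Fin n → Bool := fun v w => bitN g (n * v + w)

/-- entry `(a, b)` of a table on `[0, M)` -/
def rel (M : ℕ) (T : List Bool) (a b : ℕ) : Bool := T.getD (a * M + b) false

/-- the table on `[0, M)` of a relation -/
def tab (M : ℕ) (f : ℕ → ℕ → Bool) : List Bool := (List.range (M * M)).map fun x => f (x / M) (x % M)

/-! ### joint refinement -/

/-- the graph of the element `a` -/
def gsel (N g h a : ℕ) : ℕ := if a < N then g else h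

/-- coordinate `i` of the element `a` -/
def dg (B n N a i : ℕ) : ℕ := (a % N) / pw B n i % n

/-- put `z` in coordinate `i` of `a` -/
def up (B n N a i z : ℕ) : ℕ := a - dg B n N a i * pw B n i + z * pw B n i

/-- equality of the atomic types -/
def jR0 (B n K N g h a b : ℕ) : Bool :=
  decide (∀ i, i < K → ∀ j, j < K →
    ((dg B n N a i = dg B n N a j ↔ dg B n N b i = dg B n N b j) ∧
      bitN (gsel N g h a) (n * dg B n N a i + dg B n N a j) =
        bitN (gsel N g h b) (n * dg B n N b i + dg B n N b j)))

/-- number of `z' < n` such that all `a[i/z]`, `b[i/z']` are related by the table -/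
def jcnt (B n K N : ℕ) (T : List Bool) (a b z : ℕ) : ℕ :=
  Nat.count (fun z' => ∀ i, i < K → rel (2 * N) T (up B n N a i z) (up B n N b i z') = true) n

/-- one entry of the refined table -/
def jR1 (B n K N : ℕ) (T : List Bool) (a b : ℕ) : Bool :=
  rel (2 * N) T a b && decide (∀ z, z < n → jcnt B n K N T a a z = jcnt B n K N T a b z)

/-- initial table -/
def jT0 (B n K N g h : ℕ) : List Bool := tab (2 * N) (jR0 B n K N g h)

/-- refinement step -/
def jstep (B n K N : ℕ) (T : List Bool) : List Bool := tab (2 * N) (jR1 B n K N T)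

/-- final table -/
def jTfin (B n K N g h : ℕ) : List Bool := (jstep B n K N)^[2 * N * (2 * N)] (jT0 B n K N g h)

/-- equal histograms of the table on `[0, N)` and `[N, 2N)` -/
def histEq (N : ℕ) (T : List Bool) : Bool :=
  decide (∀ a, a < N → Nat.count (fun b => rel (2 * N) T a b = true) N =
    Nat.count (fun b => rel (2 * N) T a (N + b) = true) N)

/-- joint `K`-dimensional equivalence of the graphs `g`, `h` on `n` vertices -/
def jeq (B n K g h : ℕ) : Bool := histEq (pw B n K) (jTfin B n K (pw B n K) g h)

/-! ### colour refinement -/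

/-- number of neighbours `c` of the vertex `a` (in `[0, 2n)`) with `(d, c)` in the table -/
def ccnt (n g h : ℕ) (T : List Bool) (d a : ℕ) : ℕ :=
  Nat.count (fun c => bitN (gsel n g h a) (n * (a % n) + c) = true ∧
    rel (2 * n) T d (n * (a / n) + c) = true) n

/-- one entry of the refined table -/
def cR1 (n g h : ℕ) (T : List Bool) (a b : ℕ) : Bool :=
  rel (2 * n) T a b && decide (∀ d, d < 2 * n → ccnt n g h T d a = ccnt n g h T d b)

/-- refinement step -/
def cstep (n g h : ℕ) (T : List Bool) : List Bool := tab (2 * n) (cR1 n g h T)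

/-- final table -/
def cTfin (n g h : ℕ) : List Bool := (cstep n g h)^[2 * n * (2 * n)] (tab (2 * n) fun _ _ => true)

/-- colour refinement equivalence -/
def creq (n g h : ℕ) : Bool := histEq n (cTfin n g h)

/-- Weisfeiler-Leman equivalence at dimension `k` -/
def wleq (B n k g h : ℕ) : Bool := if k = 1 then creq n g h else jeq B n k g h

/-! ### graph classes -/

/-- the matrix is simple -/
def simp (n g : ℕ) : Bool :=
  decide (∀ v, v < n → ((∀ w, w < n → bitN g (n * v + w) = bitN g (n * w + v)) ∧
    bitN g (n * v + v) = false))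

/-- there is an edge between the vertex set `S` and its complement -/
def hasOut (n g S : ℕ) : Bool :=
  decide (∃ v, v < n ∧ ∃ w, w < n ∧ (bitN S v = true ∧ bitN S w = false ∧
      (bitN g (n * v + w) = true ∨ bitN g (n * w + v) = true)))

/-- connected (every vertex set containing `0` but not everything has an edge leaving it) -/
def conn (B n g : ℕ) : Bool :=
  decide (0 < n ∧ ∀ S, S < pw B 2 n → (bitN S 0 = true ∧ (∃ v, v < n ∧ bitN S v = false) →
    hasOut n g S = true))

/-- maximum degree at most three -/
def deg3 (n g : ℕ) : Bool :=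
  decide (∀ v, v < n → Nat.count (fun w => bitN g (n * v + w) = true) n ≤ 3)

/-! ### codes -/

/-- symbol `i` of `natCode k` -/
def ncb (k i : ℕ) : Bool :=
  if i < 2 * k.size then (if i % 2 = 0 then true else bitN k (i / 2)) else false

/-- the string `w` has at position `o` the code of `k`, of length `2 * size k + 2` -/
def hasNat (w : List Bool) (o k : ℕ) : Bool :=
  decide (∀ i, i < 2 * k.size + 2 → w.getD (o + i) false = ncb k i)

/-- the string `w` has at position `o` the first `l` binary digits of `g` -/
def hasBits (w : List Bool) (o l g : ℕ) : Bool :=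
  decide (∀ i, i < l → w.getD (o + i) false = bitN g i)

/-- `w = natCode k ++ code of (n, g) ++ code of (n, h)` -/
def isPair (w : List Bool) (k n g h : ℕ) : Bool :=
  decide (w.length = (2 * k.size + 2) + (2 * n.size + 2) + n * n + (2 * n.size + 2) + n * n) &&
  hasNat w 0 k && hasNat w (2 * k.size + 2) n && hasBits w ((2 * k.size + 2) + (2 * n.size + 2)) (n * n) g &&
  hasNat w ((2 * k.size + 2) + (2 * n.size + 2) + n * n) n &&
  hasBits w ((2 * k.size + 2) + (2 * n.size + 2) + n * n + (2 * n.size + 2)) (n * n) h

/-- `w = natCode k ++ code of (n, g)` -/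
def isSingle (w : List Bool) (k n g : ℕ) : Bool :=
  decide (w.length = (2 * k.size + 2) + (2 * n.size + 2) + n * n) &&
  hasNat w 0 k && hasNat w (2 * k.size + 2) n && hasBits w ((2 * k.size + 2) + (2 * n.size + 2)) (n * n) g

/-! ### the three tests (`p = (w, B)`) -/

/-- test for `varDimEquivLang` -/
def testVar (p : List Bool × ℕ) : Bool :=
  decide (∃ k, k < p.2 ∧ ∃ n, n < p.1.length ∧ ∃ g, g < pw p.2 2 (n * n) ∧ ∃ h, h < pw p.2 2 (n * n) ∧
    (isPair p.1 k n g h = true ∧ 2 ≤ k ∧ simp n g = true ∧ simp n h = true ∧
      jeq p.2 n (min k (max n 2)) g h = true))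

/-- test for `subcubicVarDimEquivLang` -/
def testSub (p : List Bool × ℕ) : Bool :=
  decide (∃ k, k < p.2 ∧ ∃ n, n < p.1.length ∧ ∃ g, g < pw p.2 2 (n * n) ∧ ∃ h, h < pw p.2 2 (n * n) ∧
    (isPair p.1 k n g h = true ∧ 2 ≤ k ∧ simp n g = true ∧ simp n h = true ∧
      conn p.2 n g = true ∧ conn p.2 n h = true ∧ deg3 n g = true ∧ deg3 n h = true ∧
      jeq p.2 n (min k (max n 2)) g h = true))

/-- dimension `k'` identifies `g` among the graphs on `n` vertices -/
def ident (B n k' g : ℕ) : Bool :=
  decide (∀ h, h < pw B 2 (n * n) → (simp n h = true → wleq B n k' g h = true →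
    jeq B n (max n 2) g h = true))

/-- test for `wlDimLeLang` -/
def testDim (p : List Bool × ℕ) : Bool :=
  decide (∃ k, k < p.2 ∧ ∃ n, n < p.1.length ∧ ∃ g, g < pw p.2 2 (n * n) ∧
    (isSingle p.1 k n g = true ∧ 1 ≤ k ∧ 0 < n ∧ simp n g = true ∧
      ∃ k', k' < min k (max n 2) + 1 ∧ (1 ≤ k' ∧ ident p.2 n k' g = true)))

end Crest.Agent.R290G
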