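import Crest.Agent.R290.GDefs

/-!
# Row 290 module G: matrices and graph classes in numbers
-/

set_option autoImplicit false

open Finset Crest.WLRefine

namespace Crest.Agent.R290G

variable {n : ℕ}

/-- `Nat.testBit_eq_decide_div_mod_eq` -/
theorem bitN_eq (g j : ℕ) : bitN g j = g.testBit j := by
  rw [Nat.testBit_eq_decide_div_mod_eq]
  rfl

/-- every matrix has a number: `g = Nat.ofBits f`, `f : Fin (n * n) → Bool`, `f x = adj (x / n) (x % n)`
(`Nat.testBit_ofBits_lt`, `Nat.ofBits_lt_two_pow`) -/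
theorem exists_matN (adj : Fin n → Fin n → Bool) : ∃ g, g < 2 ^ (n * n) ∧ matN n g = adj := by
  rcases Nat.eq_zero_or_pos n with hn | hn
  · subst hn
    exact ⟨0, by positivity, funext fun v => v.elim0⟩
  · refine ⟨Nat.ofBits (fun x : Fin (n * n) => adj ⟨x / n, Nat.div_lt_of_lt_mul x.2⟩
      ⟨x % n, Nat.mod_lt _ hn⟩), Nat.ofBits_lt_two_pow _, ?_⟩
    funext v w
    have h : n * (v : ℕ) + (w : ℕ) < n * n := by
      have hv := v.2
      have hw := w.2
      calc n * (v : ℕ) + w < n * v + n := by omega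
        _ = n * (v + 1) := by ring
        _ ≤ n * n := Nat.mul_le_mul_left _ hv
    unfold matN
    rw [bitN_eq, Nat.testBit_ofBits_lt _ _ h]
    have h1 : (n * (v : ℕ) + (w : ℕ)) / n = v := by
      rw [Nat.mul_add_div hn, Nat.div_eq_of_lt w.2, add_zero]
    have h2 : (n * (v : ℕ) + (w : ℕ)) % n = w := by
      rw [Nat.mul_add_mod, Nat.mod_eq_of_lt w.2]
    have e1 : (⟨(n * (v : ℕ) + (w : ℕ)) / n, Nat.div_lt_of_lt_mul h⟩ : Fin n) = v := Fin.ext h1
    have e2 : (⟨(n * (v : ℕ) + (w : ℕ)) % n, Nat.mod_lt _ hn⟩ : Fin n) = w := Fin.ext h2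
    show adj ⟨(n * (v : ℕ) + (w : ℕ)) / n, Nat.div_lt_of_lt_mul h⟩
      ⟨(n * (v : ℕ) + (w : ℕ)) % n, Nat.mod_lt _ hn⟩ = adj v w
    rw [e1, e2]

theorem simp_iff (n g : ℕ) : simp n g = true ↔ IsSimple (matN n g) := by
  unfold simp IsSimple matN
  rw [decide_eq_true_iff]
  constructor
  · intro h
    exact ⟨fun v w => (h v v.2).1 w w.2, fun v => (h v v.2).2⟩
  · intro h v hv
    exact ⟨fun w hw => h.1 ⟨v, hv⟩ ⟨w, hw⟩, h.2 ⟨v, hv⟩⟩

/-- `Nat.count_eq_card_filter_range` -/
theorem deg3_iff (n g : ℕ) : deg3 n g = true ↔ MaxDegLeThree (matN n g) := by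
  have key : ∀ v : Fin n, Nat.count (fun w => bitN g (n * v + w) = true) n =
      (univ.filter fun w : Fin n => matN n g v w = true).card := by
    intro v
    rw [Nat.count_eq_card_filter_range]
    symm
    refine Finset.card_bij (fun w _ => (w : ℕ)) ?_ ?_ ?_
    · intro w hw
      rw [mem_filter] at hw ⊢
      exact ⟨mem_range.2 w.2, hw.2⟩
    · intro a _ b _ hab
      exact Fin.ext hab
    · intro b hb
      rw [mem_filter, mem_range] at hb
      exact ⟨⟨b, hb.1⟩, by rw [mem_filter]; exact ⟨mem_univ _, hb.2⟩, rfl⟩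
  unfold deg3 MaxDegLeThree
  rw [decide_eq_true_iff]
  constructor
  · intro h v
    have := h v v.2
    rw [key v] at this
    exact this
  · intro h v hv
    have := h ⟨v, hv⟩
    rw [← key ⟨v, hv⟩] at this
    exact this

end Crest.Agent.R290G
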