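import Crest.Agent.R290.GDefs

/-!
# Row 290 module G: codes
-/

set_option autoImplicit false

open Finset Crest.WLRefine

namespace Crest.Agent.R290G

variable {n : ℕ}

private theorem flat_aux (L : List Bool) : (L.map fun b => [true, b]).flatten =
    (List.range (2 * L.length)).map
      (fun i => if i % 2 = 0 then true else L.getD (i / 2) false) := by
  induction L with
  | nil => simp
  | cons b L ih =>
    rw [List.map_cons, List.flatten_cons, ih, List.length_cons,
      show 2 * (L.length + 1) = 2 * L.length + 1 + 1 by ring, List.range_succ_eq_map,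
      List.range_succ_eq_map]
    simp only [List.map_cons, List.map_map, List.cons_append, List.nil_append]
    congr 1
    congr 1
    apply List.map_congr_left
    intro i _
    have h1 : (i + 1 + 1) % 2 = i % 2 := by omega
    have h2 : (i + 1 + 1) / 2 = i / 2 + 1 := by omega
    simp only [Function.comp, Nat.succ_eq_add_one, h1, h2, List.getD_cons_succ]

private theorem bits_getD (k j : ℕ) : k.bits.getD j false = bitN k j := by
  have h := Nat.testBit_eq_inth k j
  rw [Nat.testBit_eq_decide_div_mod_eq] at h
  unfold bitN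
  rw [h]
  rfl

/-- `Crest.Enc.natCode` (Prelude/Def_BitEnc) -/
theorem natCode_eq (k : ℕ) : Crest.Enc.natCode k = (List.range (2 * k.size + 2)).map (ncb k) := by
  unfold Crest.Enc.natCode
  rw [flat_aux, Nat.size_eq_bits_len, List.range_add, List.map_append]
  congr 1
  · apply List.map_congr_left
    intro i hi
    rw [List.mem_range] at hi
    rw [bits_getD]
    unfold ncb
    rw [if_pos hi]
  · simp [List.range_succ, ncb]

private theorem range_mul_aux (g n m : ℕ) :
    ((List.range m).flatMap fun v => (List.range n).map fun w => bitN g (n * v + w)) =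
      (List.range (m * n)).map (bitN g) := by
  induction m with
  | zero => simp
  | succ m ih =>
    rw [List.range_succ, List.flatMap_append, ih, Nat.succ_mul, List.range_add, List.map_append]
    congr 1
    simp [List.flatMap_cons, Function.comp_def, Nat.mul_comm]

theorem adjMatrixCode_matN (n g : ℕ) :
    adjMatrixCode (matN n g) = Crest.Enc.natCode n ++ (List.range (n * n)).map (bitN g) := by
  unfold adjMatrixCode
  congr 1
  rw [← range_mul_aux, ← List.map_coe_finRange_eq_range]
  simp only [List.flatMap_map, List.map_map]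
  rfl

private theorem drop_aux (w : List Bool) (o l : ℕ) (f : ℕ → Bool) (r : List Bool)
    (hw : w.length = o + l + r.length) :
    w.drop o = (List.range l).map f ++ r ↔
      (∀ i, i < l → w.getD (o + i) false = f i) ∧ w.drop (o + l) = r := by
  constructor
  · intro h
    refine ⟨fun i hi => ?_, ?_⟩
    · have h1 : w.getD (o + i) false = (w.drop o).getD i false := by
        simp [List.getD_eq_getElem?_getD]
      rw [h1, h]
      rw [List.getD_append _ _ _ _ (by simpa using hi)]
      simp [List.getD_eq_getElem?_getD, hi]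
    · have h2 : w.drop (o + l) = (w.drop o).drop l := by simp
      rw [h2, h]
      rw [List.drop_append_of_le_length (by simp)]
      simp
  · rintro ⟨h1, h2⟩
    have h3 : w.drop o = (w.drop o).take l ++ (w.drop o).drop l := (List.take_append_drop _ _).symm
    rw [h3, List.drop_drop, h2]
    congr 1
    apply List.ext_getElem
    · simp; omega
    · intro i hi1 hi2
      have hil : i < l := by simpa using hi2
      rw [List.getElem_take, List.getElem_drop, List.getElem_map, List.getElem_range, ← h1 i hil]
      rw [List.getD_eq_getElem _ _ (by omega)]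

private theorem len_aux (l : ℕ) (f : ℕ → Bool) : ((List.range l).map f).length = l := by simp

/-- `List.ext_getElem`, `natCode_eq`, `adjMatrixCode_matN`; a list `w` equals `a ++ b` iff the lengths fit and
the entries of `w` (`getD`) are those of `a` at positions `< |a|` and those of `b` at `|a| + i` -/
theorem isPair_iff (w : List Bool) (k n g h : ℕ) : isPair w k n g h = true ↔
    w = Crest.Enc.natCode k ++ adjMatrixCode (matN n g) ++ adjMatrixCode (matN n h) := by
  rw [adjMatrixCode_matN, adjMatrixCode_matN, natCode_eq, natCode_eq]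
  unfold isPair hasNat hasBits
  simp only [Bool.and_eq_true, decide_eq_true_eq]
  constructor
  · rintro ⟨⟨⟨⟨⟨h0, h1⟩, h2⟩, h3⟩, h4⟩, h5⟩
    have e0 : w = w.drop 0 := rfl
    rw [e0]
    simp only [List.append_assoc]
    rw [drop_aux _ _ _ _ _ (by simp; omega)]
    refine ⟨h1, ?_⟩
    rw [drop_aux _ _ _ _ _ (by simp; omega)]
    refine ⟨fun i hi => by rw [Nat.zero_add]; exact h2 i hi, ?_⟩
    rw [drop_aux _ _ _ _ _ (by simp; omega)]
    refine ⟨fun i hi => by rw [Nat.zero_add]; exact h3 i hi, ?_⟩
    rw [drop_aux _ _ _ _ _ (by simp; omega)]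
    refine ⟨fun i hi => by rw [Nat.zero_add]; exact h4 i hi, ?_⟩
    rw [← List.append_nil ((List.range (n * n)).map (bitN h))]
    rw [drop_aux _ _ _ _ _ (by simp; omega)]
    refine ⟨fun i hi => by rw [Nat.zero_add]; exact h5 i hi, ?_⟩
    rw [List.drop_eq_nil_iff]
    omega
  · intro hw
    have hlen : w.length = (2 * k.size + 2) + (2 * n.size + 2) + n * n + (2 * n.size + 2) + n * n := by
      rw [hw]; simp; omega
    have e0 : w = w.drop 0 := rfl
    rw [e0] at hw
    simp only [List.append_assoc] at hw
    rw [drop_aux _ _ _ _ _ (by simp; omega)] at hw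
    obtain ⟨h1, hw⟩ := hw
    rw [drop_aux _ _ _ _ _ (by simp; omega)] at hw
    obtain ⟨h2, hw⟩ := hw
    rw [drop_aux _ _ _ _ _ (by simp; omega)] at hw
    obtain ⟨h3, hw⟩ := hw
    rw [drop_aux _ _ _ _ _ (by simp; omega)] at hw
    obtain ⟨h4, hw⟩ := hw
    rw [← List.append_nil ((List.range (n * n)).map (bitN h))] at hw
    rw [drop_aux _ _ _ _ _ (by simp; omega)] at hw
    obtain ⟨h5, hw⟩ := hw
    rw [Nat.zero_add] at h2 h3 h4 h5
    exact ⟨⟨⟨⟨⟨hlen, h1⟩, h2⟩, h3⟩, h4⟩, h5⟩

theorem isSingle_iff (w : List Bool) (k n g : ℕ) : isSingle w k n g = true ↔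
    w = Crest.Enc.natCode k ++ adjMatrixCode (matN n g) := by
  rw [adjMatrixCode_matN, natCode_eq, natCode_eq]
  unfold isSingle hasNat hasBits
  simp only [Bool.and_eq_true, decide_eq_true_eq]
  constructor
  · rintro ⟨⟨⟨h0, h1⟩, h2⟩, h3⟩
    have e0 : w = w.drop 0 := rfl
    rw [e0]
    rw [drop_aux _ _ _ _ _ (by simp; omega)]
    refine ⟨h1, ?_⟩
    rw [drop_aux _ _ _ _ _ (by simp; omega)]
    refine ⟨fun i hi => by rw [Nat.zero_add]; exact h2 i hi, ?_⟩
    rw [← List.append_nil ((List.range (n * n)).map (bitN g))]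
    rw [drop_aux _ _ _ _ _ (by simp; omega)]
    refine ⟨fun i hi => by rw [Nat.zero_add]; exact h3 i hi, ?_⟩
    rw [List.drop_eq_nil_iff]
    omega
  · intro hw
    have hlen : w.length = (2 * k.size + 2) + (2 * n.size + 2) + n * n := by
      rw [hw]; simp; omega
    have e0 : w = w.drop 0 := rfl
    rw [e0] at hw
    rw [drop_aux _ _ _ _ _ (by simp; omega)] at hw
    obtain ⟨h1, hw⟩ := hw
    rw [drop_aux _ _ _ _ _ (by simp; omega)] at hw
    obtain ⟨h2, hw⟩ := hw
    rw [← List.append_nil ((List.range (n * n)).map (bitN g))] at hw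
    rw [drop_aux _ _ _ _ _ (by simp; omega)] at hw
    obtain ⟨h3, hw⟩ := hw
    rw [Nat.zero_add] at h2 h3
    exact ⟨⟨⟨hlen, h1⟩, h2⟩, h3⟩

end Crest.Agent.R290G
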