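import Crest.Agent.R290.GIso

/-!
# Row 290 module G: reduction of the dimension, identification
-/

set_option autoImplicit false

open Finset Crest.WLRefine

namespace Crest.Agent.R290G

variable {n m k : ℕ}

/-- reduction of the dimension: if `k ≤ max n 2` nothing to do, otherwise both sides are `AdjIso` -/
theorem jequiv_min (hk : 1 ≤ k) (G H : Fin n → Fin n → Bool) :
    JEquiv k G H ↔ JEquiv (min k (max n 2)) G H := by
  rcases le_total k (max n 2) with h | h
  · rw [min_eq_left h]
  · rw [min_eq_right h]
    constructor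
    · intro hJ
      exact jequiv_of_adjIso (adjIso_of_jequiv hk (le_trans (le_max_left n 2) h) hJ)
    · intro hJ
      exact jequiv_of_adjIso (adjIso_of_jequiv (le_trans one_le_two (le_max_right n 2))
        (le_max_left n 2) hJ)

theorem wlequiv_card {k' : ℕ} (hk : 1 ≤ k') {G : Fin n → Fin n → Bool} {H : Fin m → Fin m → Bool}
    (h : WLEquiv k' G H) : n = m := by
  unfold WLEquiv at h
  by_cases h1 : k' = 1
  · rw [if_pos h1] at h
    exact crequiv_card h
  · rw [if_neg h1] at h
    exact jequiv_card hk h

/-- `WLEquiv k'` for `1 ≤ k'` implies equal orders (`crequiv_card`, `jequiv_card`), `JEquiv (max n 2)` is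
`AdjIso`; if `k' > max n 2` is an identifying dimension then `max n 2` is one, too. -/
theorem identifies_iff (G : Fin n → Fin n → Bool) :
    (∃ k', 1 ≤ k' ∧ k' ≤ k ∧ Identifies k' G) ↔
      ∃ k', 1 ≤ k' ∧ k' ≤ min k (max n 2) ∧
        ∀ H : Fin n → Fin n → Bool, IsSimple H → WLEquiv k' G H → JEquiv (max n 2) G H := by
  have h2 : 2 ≤ max n 2 := le_max_right n 2
  constructor
  · rintro ⟨k', h1, hk, hI⟩
    rcases le_total k' (max n 2) with h | h
    · refine ⟨k', h1, le_min hk h, ?_⟩
      intro H hH hW
      exact jequiv_of_adjIso (hI n H hH hW)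
    · refine ⟨max n 2, by omega, le_min (le_trans h hk) le_rfl, ?_⟩
      intro H _ hW
      unfold WLEquiv at hW
      rwa [if_neg (by omega)] at hW
  · rintro ⟨k', h1, hk, hI⟩
    refine ⟨k', h1, le_trans hk (min_le_left _ _), ?_⟩
    intro m H hH hW
    have hnm := wlequiv_card h1 hW
    subst hnm
    exact adjIso_of_jequiv (by omega) (le_max_left n 2) (hI H hH hW)

end Crest.Agent.R290G
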