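import Crest.Agent.R290.GJT

/-!
# Row 290 module G: dimension at least the order = isomorphism; reduction of the dimension
-/

set_option autoImplicit false

open Finset Crest.WLRefine

namespace Crest.Agent.R290G

variable {n m k : ℕ}

/-- `jt_of_bisim` with `R v w := w = e ∘ v` (and `Φ v = e ∘ v` in `jequiv_iff_equiv`) -/
theorem jequiv_of_adjIso {G : Fin n → Fin n → Bool} {H : Fin m → Fin m → Bool} (h : AdjIso G H) :
    JEquiv k G H := by
  obtain ⟨e, he⟩ := h
  refine jequiv_iff_equiv.2 ⟨Equiv.arrowCongr (Equiv.refl _) e, fun v => ?_⟩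
  refine jt_of_bisim (fun v w => w = e ∘ v) ?_ ?_ rfl
  · rintro v w rfl
    refine Prod.ext ?_ ?_
    · funext i j
      simp [atomicType]
    · funext i j
      simp [atomicType, he]
  · rintro v w rfl
    refine ⟨e, fun z i => ?_⟩
    rw [Function.comp_update]

/-- `n ^ k = m ^ k` (`Φ` of `jequiv_iff_equiv`, `Fintype.card_congr`, `Nat.pow_left_injective`) -/
theorem jequiv_card (hk : 1 ≤ k) {G : Fin n → Fin n → Bool} {H : Fin m → Fin m → Bool}
    (h : JEquiv k G H) : n = m := by
  obtain ⟨Φ, _⟩ := jequiv_iff_equiv.1 h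
  have h1 := Fintype.card_congr Φ
  simp only [Fintype.card_pi, Fintype.card_fin, Finset.prod_const, Finset.card_univ] at h1
  exact Nat.pow_left_injective (by omega) h1

/-- round `0` gives equal cards -/
theorem crequiv_card {G : Fin n → Fin n → Bool} {H : Fin m → Fin m → Bool}
    (h : CREquiv G H) : n = m := by
  obtain ⟨Φ, _⟩ := crequiv_iff_equiv.1 h
  simpa using Fintype.card_congr Φ

/-- `m = n` by `jequiv_card`; a surjective `v : Fin k → Fin n` exists as `n ≤ k`; `w = Φ v` has the same atomic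
type: `v i = v j ↔ w i = w j` and `G (v i) (v j) = H (w i) (w j)`; so `v i ↦ w i` is a well-defined injective map
`Fin n → Fin n`, hence a bijection. -/
theorem adjIso_of_jequiv (hk : 1 ≤ k) (hn : n ≤ k) {G : Fin n → Fin n → Bool}
    {H : Fin m → Fin m → Bool} (h : JEquiv k G H) : AdjIso G H := by
  obtain rfl := jequiv_card hk h
  rcases Nat.eq_zero_or_pos n with h0 | h0
  · subst h0
    exact ⟨Equiv.refl _, fun v => v.elim0⟩
  obtain ⟨Φ, hΦ⟩ := jequiv_iff_equiv.1 h
  obtain ⟨v, hv⟩ : ∃ v : Fin k → Fin n, ∀ x : Fin n, v (Fin.castLE hn x) = x := by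
    refine ⟨fun i => if hi : i.val < n then ⟨i.val, hi⟩ else ⟨0, h0⟩, fun x => ?_⟩
    simp
  have h1 : atomicType G v = atomicType H (Φ v) := hΦ v 0
  have h2 : ∀ i j, decide (v i = v j) = decide (Φ v i = Φ v j) := fun i j =>
    congrFun (congrFun (congrArg Prod.fst h1) i) j
  have h3 : ∀ i j, G (v i) (v j) = H (Φ v i) (Φ v j) := fun i j =>
    congrFun (congrFun (congrArg Prod.snd h1) i) j
  have hinj : Function.Injective (fun x : Fin n => Φ v (Fin.castLE hn x)) := by
    intro x y hxy
    have h4 := h2 (Fin.castLE hn x) (Fin.castLE hn y)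
    rw [hv, hv] at h4
    simpa [hxy] using h4
  refine ⟨Equiv.ofBijective _ (Finite.injective_iff_bijective.1 hinj), fun x y => ?_⟩
  have h4 := h3 (Fin.castLE hn x) (Fin.castLE hn y)
  rw [hv, hv] at h4
  exact h4.symm

end Crest.Agent.R290G
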