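import Crest.Agent.R290.GTab1

/-!
# Row 290 module G: the tables compute the joint colours, part 2 (stabilisation, histograms)
-/

set_option autoImplicit false

open Finset Crest.WLRefine

namespace Crest.Agent.R290G

variable {B n K : ℕ}

/-- `iterate_stable` with `μ T = T.count true`, `L = 2 N * (2 N)`: `T_(s+1) = tab (2N) (jR1 .. T_s)`,
`jR1 .. T a b = true → rel (2N) T a b = true`, `T_s = tab (2N) (rel (2N) T_s)` (`tab_rel`), `count_tab_lt` -/
theorem jiter_stable (B n K N g h s : ℕ) (hs : 2 * N * (2 * N) ≤ s) :
    (jstep B n K N)^[s] (jT0 B n K N g h) = jTfin B n K N g h := by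
  have hlen : ∀ i, ((jstep B n K N)^[i] (jT0 B n K N g h)).length = 2 * N * (2 * N) := by
    intro i
    cases i with
    | zero => exact length_tab' _ _
    | succ i => rw [Function.iterate_succ_apply']; exact length_tab' _ _
  refine iterate_stable (jstep B n K N) (jT0 B n K N g h) (fun T => T.count true)
    (2 * N * (2 * N)) ?_ ?_ s hs
  · calc (jT0 B n K N g h).count true ≤ (jT0 B n K N g h).length := List.count_le_length
      _ = _ := hlen 0
  · intro i hne
    simp only [Function.iterate_succ_apply'] at hne ⊢
    generalize hT : (jstep B n K N)^[i] (jT0 B n K N g h) = T at hne ⊢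
    have hl : T.length = 2 * N * (2 * N) := by rw [← hT]; exact hlen i
    have e : tab (2 * N) (rel (2 * N) T) = T := tab_rel T hl
    have h1 := count_tab_lt (M := 2 * N) (rel (2 * N) T) (jR1 B n K N T)
      (fun a b _ _ hab => by
        unfold jR1 at hab
        exact (Bool.and_eq_true_iff.1 hab).1)
      (by rw [e]; exact hne)
    rw [e] at h1
    exact h1

/-- the final table is equality of the colours at all rounds (`rel_iter`, `jiter_stable`, `jcolor_le`) -/
theorem rel_fin (hB : n ^ K ≤ B) (g h : ℕ) (ε δ : Bool) (v w : Fin K → Fin n) :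
    rel (2 * n ^ K) (jTfin B n K (n ^ K) g h) (el n ε v) (el n δ w) = true ↔
      ∀ s, jcolor (gsl n g h ε) K s v = jcolor (gsl n g h δ) K s w := by
  constructor
  · intro hr s
    have hst := jiter_stable B n K (n ^ K) g h (max s (2 * n ^ K * (2 * n ^ K))) (le_max_right _ _)
    rw [← hst] at hr
    exact jcolor_le (le_max_left _ _) ((rel_iter hB g h _ ε δ v w).1 hr)
  · intro hc
    exact (rel_iter hB g h _ ε δ v w).2 (hc _)

/-- a count below `n ^ K` is a number of tuples -/
theorem count_num (p : ℕ → Prop) [DecidablePred p] :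
    Nat.count p (n ^ K) = Nat.card {w : Fin K → Fin n // p (num n w)} := by
  rw [count_eq_natCard]
  refine Nat.card_congr (Equiv.ofBijective
    (fun w : {w : Fin K → Fin n // p (num n w)} =>
      (⟨⟨num n w.1, num_lt w.1⟩, w.2⟩ : {i : Fin (n ^ K) // p i})) ⟨?_, ?_⟩).symm
  · intro w w' hw
    have h1 : num n w.1 = num n w'.1 := by
      have := congrArg (fun x : {i : Fin (n ^ K) // p i} => (x.1 : ℕ)) hw
      exact this
    exact Subtype.ext (num_inj h1)
  · rintro ⟨⟨a, ha⟩, hp⟩
    obtain ⟨w, hw⟩ := exists_num (n := n) (K := K) ha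
    refine ⟨⟨w, ?_⟩, ?_⟩
    · rw [hw]; exact hp
    · apply Subtype.ext
      apply Fin.ext
      exact hw

/-- **the joint equivalence test is correct**.  `N = pw B n K = n ^ K`.
`rel_fin` with a colour `c v = fun s => jcolor .. s v`: `histEq` says: for all `v`
`card {w | c_g v = c_g w} = card {w | c_g v = c_h w}` (numbers `a < N` are the `num n v`, and `N + b` is
`el n true w`; `count_eq_natCard` and a bijection `Fin (n^K) ≃ (Fin K → Fin n)`), by `map_eq_iff_natCard` this is
`univ.map c_g = univ.map c_h`, that is (`exists_equiv_of_map_eq`, `jequiv_iff_equiv`) `JEquiv`. -/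
theorem jeq_iff (hK : 1 ≤ K) (hB : n ^ K ≤ B) (g h : ℕ) :
    jeq B n K g h = true ↔ JEquiv K (matN n g) (matN n h) := by
  have _ := hK
  have hp : pw B n K = n ^ K := min_eq_left hB
  unfold jeq
  rw [hp]
  unfold histEq
  rw [decide_eq_true_iff]
  have e1 : ∀ v : Fin K → Fin n, num n v = el n false v := fun v => by simp [el]
  have e2 : ∀ v : Fin K → Fin n, n ^ K + num n v = el n true v := fun v => by simp [el]
  have hg : gsl n g h false = matN n g := by simp [gsl]
  have hh : gsl n g h true = matN n h := by simp [gsl]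
  have key : (∀ a, a < n ^ K →
      Nat.count (fun b => rel (2 * n ^ K) (jTfin B n K (n ^ K) g h) a b = true) (n ^ K) =
      Nat.count (fun b => rel (2 * n ^ K) (jTfin B n K (n ^ K) g h) a (n ^ K + b) = true) (n ^ K)) ↔
      ∀ v : Fin K → Fin n,
        Nat.card {w : Fin K → Fin n // (fun s => jcolor (matN n g) K s v) =
          fun s => jcolor (matN n g) K s w} =
        Nat.card {w : Fin K → Fin n // (fun s => jcolor (matN n g) K s v) =
          fun s => jcolor (matN n h) K s w} := by
    have q1 : ∀ v : Fin K → Fin n,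
        Nat.count (fun b => rel (2 * n ^ K) (jTfin B n K (n ^ K) g h) (num n v) b = true) (n ^ K) =
        Nat.card {w : Fin K → Fin n // (fun s => jcolor (matN n g) K s v) =
          fun s => jcolor (matN n g) K s w} := by
      intro v
      rw [count_num]
      refine Nat.card_congr (Equiv.subtypeEquivRight fun w => ?_)
      rw [e1 v, e1 w, rel_fin hB, hg]
      exact funext_iff.symm
    have q2 : ∀ v : Fin K → Fin n,
        Nat.count (fun b => rel (2 * n ^ K) (jTfin B n K (n ^ K) g h) (num n v) (n ^ K + b) = true)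
          (n ^ K) =
        Nat.card {w : Fin K → Fin n // (fun s => jcolor (matN n g) K s v) =
          fun s => jcolor (matN n h) K s w} := by
      intro v
      rw [count_num]
      refine Nat.card_congr (Equiv.subtypeEquivRight fun w => ?_)
      rw [e1 v, e2 w, rel_fin hB, hg, hh]
      exact funext_iff.symm
    constructor
    · intro H v
      rw [← q1 v, ← q2 v]
      exact H _ (num_lt v)
    · intro H a ha
      obtain ⟨v, rfl⟩ := exists_num (n := n) (K := K) ha
      rw [q1 v, q2 v]
      exact H v
  rw [key, ← map_eq_iff_natCard (fun v : Fin K → Fin n => fun s => jcolor (matN n g) K s v)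
    (fun v : Fin K → Fin n => fun s => jcolor (matN n h) K s v) rfl, jequiv_iff_equiv]
  constructor
  · intro H
    obtain ⟨Φ, hΦ⟩ := exists_equiv_of_map_eq _ _ H
    exact ⟨Φ, fun v s => congrFun (hΦ v) s⟩
  · rintro ⟨Φ, hΦ⟩
    exact map_eq_of_equiv _ _ Φ (fun v => funext fun s => hΦ v s)

end Crest.Agent.R290G
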