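import Crest.Agent.R290.GDefs

/-!
# Row 290 module G: the algorithm is polynomial time (`XP`)
-/

set_option autoImplicit false
set_option maxHeartbeats 1000000

namespace Crest.Agent.R290G

open Crest.Agent.PT Crest.Complexity

variable {α : Type} [XEnc α]

@[fun_prop] theorem XP.rel {M a b : α → ℕ} {T : α → List Bool} (hM : XP M) (hT : XP T) (ha : XP a)
    (hb : XP b) : XP (fun x => rel (M x) (T x) (a x) (b x)) := by
  unfold R290G.rel
  fun_prop

@[fun_prop] theorem XP.tab {M : α → ℕ} {f : α → ℕ → ℕ → Bool} (hM : XP M)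
    (hf : XP (fun p : α × (ℕ × ℕ) => f p.1 p.2.1 p.2.2)) : XP (fun x => tab (M x) (f x)) := by
  unfold R290G.tab
  have h : XP (fun q : α × ℕ => f q.1 (q.2 / M q.1) (q.2 % M q.1)) :=
    XP.comp (g := fun p : α × (ℕ × ℕ) => f p.1 p.2.1 p.2.2)
      (f := fun q : α × ℕ => (q.1, (q.2 / M q.1, q.2 % M q.1))) hf (by fun_prop)
  exact XP.genBits (f := fun a x => f a (x / M a) (x % M a)) (by fun_prop) h

@[fun_prop] theorem XP.gsel {N g h a : α → ℕ} (hN : XP N) (hg : XP g) (hh : XP h) (ha : XP a) :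
    XP (fun x => gsel (N x) (g x) (h x) (a x)) := by
  unfold R290G.gsel
  fun_prop

@[fun_prop] theorem XP.dg {B n N a i : α → ℕ} (hB : XP B) (hn : XP n) (hN : XP N) (ha : XP a) (hi : XP i) :
    XP (fun x => dg (B x) (n x) (N x) (a x) (i x)) := by
  unfold R290G.dg
  fun_prop

@[fun_prop] theorem XP.up {B n N a i z : α → ℕ} (hB : XP B) (hn : XP n) (hN : XP N) (ha : XP a) (hi : XP i)
    (hz : XP z) : XP (fun x => up (B x) (n x) (N x) (a x) (i x) (z x)) := by
  unfold R290G.up
  fun_prop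

@[fun_prop] theorem XP.jR0 {B n K N g h a b : α → ℕ} (hB : XP B) (hn : XP n) (hK : XP K) (hN : XP N)
    (hg : XP g) (hh : XP h) (ha : XP a) (hb : XP b) :
    XP (fun x => jR0 (B x) (n x) (K x) (N x) (g x) (h x) (a x) (b x)) := by
  unfold R290G.jR0
  fun_prop

@[fun_prop] theorem XP.jcnt {B n K N a b z : α → ℕ} {T : α → List Bool} (hB : XP B) (hn : XP n) (hK : XP K)
    (hN : XP N) (hT : XP T) (ha : XP a) (hb : XP b) (hz : XP z) :
    XP (fun x => jcnt (B x) (n x) (K x) (N x) (T x) (a x) (b x) (z x)) := by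
  unfold R290G.jcnt
  fun_prop

@[fun_prop] theorem XP.jR1 {B n K N a b : α → ℕ} {T : α → List Bool} (hB : XP B) (hn : XP n) (hK : XP K)
    (hN : XP N) (hT : XP T) (ha : XP a) (hb : XP b) :
    XP (fun x => jR1 (B x) (n x) (K x) (N x) (T x) (a x) (b x)) := by
  unfold R290G.jR1
  fun_prop

@[fun_prop] theorem XP.jT0 {B n K N g h : α → ℕ} (hB : XP B) (hn : XP n) (hK : XP K) (hN : XP N)
    (hg : XP g) (hh : XP h) : XP (fun x => jT0 (B x) (n x) (K x) (N x) (g x) (h x)) := by
  unfold R290G.jT0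
  exact XP.tab (f := fun x a b => R290G.jR0 (B x) (n x) (K x) (N x) (g x) (h x) a b)
    (by fun_prop) (by fun_prop)

@[fun_prop] theorem XP.jstep {B n K N : α → ℕ} {T : α → List Bool} (hB : XP B) (hn : XP n) (hK : XP K)
    (hN : XP N) (hT : XP T) : XP (fun x => jstep (B x) (n x) (K x) (N x) (T x)) := by
  unfold R290G.jstep
  exact XP.tab (f := fun x a b => R290G.jR1 (B x) (n x) (K x) (N x) (T x) a b)
    (by fun_prop) (by fun_prop)

theorem length_tab (M : ℕ) (f : ℕ → ℕ → Bool) : (tab M f).length = M * M := by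
  simp [R290G.tab]

@[fun_prop] theorem XP.jTfin {B n K N g h : α → ℕ} (hB : XP B) (hn : XP n) (hK : XP K) (hN : XP N)
    (hg : XP g) (hh : XP h) : XP (fun x => jTfin (B x) (n x) (K x) (N x) (g x) (h x)) := by
  unfold R290G.jTfin
  refine XP.iterBits (n := fun x => 2 * N x * (2 * N x)) (b := fun x => 2 * N x * (2 * N x))
    (init := fun x => R290G.jT0 (B x) (n x) (K x) (N x) (g x) (h x))
    (step := fun x T => R290G.jstep (B x) (n x) (K x) (N x) T) (by fun_prop) (by fun_prop)
    (by fun_prop) (by fun_prop) ?_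
  intro a i
  cases i with
  | zero => simp [R290G.jT0, length_tab]
  | succ i => rw [Function.iterate_succ_apply']; simp [R290G.jstep, length_tab]

@[fun_prop] theorem XP.histEq {N : α → ℕ} {T : α → List Bool} (hN : XP N) (hT : XP T) :
    XP (fun x => histEq (N x) (T x)) := by
  unfold R290G.histEq
  fun_prop

@[fun_prop] theorem XP.jeq {B n K g h : α → ℕ} (hB : XP B) (hn : XP n) (hK : XP K)
    (hg : XP g) (hh : XP h) : XP (fun x => jeq (B x) (n x) (K x) (g x) (h x)) := by
  unfold R290G.jeq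
  fun_prop

@[fun_prop] theorem XP.ccnt {n g h d a : α → ℕ} {T : α → List Bool} (hn : XP n)
    (hg : XP g) (hh : XP h) (hT : XP T) (hd : XP d) (ha : XP a) :
    XP (fun x => ccnt (n x) (g x) (h x) (T x) (d x) (a x)) := by
  unfold R290G.ccnt
  fun_prop

@[fun_prop] theorem XP.cR1 {n g h a b : α → ℕ} {T : α → List Bool} (hn : XP n)
    (hg : XP g) (hh : XP h) (hT : XP T) (ha : XP a) (hb : XP b) :
    XP (fun x => cR1 (n x) (g x) (h x) (T x) (a x) (b x)) := by
  unfold R290G.cR1
  fun_prop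

@[fun_prop] theorem XP.cstep {n g h : α → ℕ} {T : α → List Bool} (hn : XP n)
    (hg : XP g) (hh : XP h) (hT : XP T) :
    XP (fun x => cstep (n x) (g x) (h x) (T x)) := by
  unfold R290G.cstep
  exact XP.tab (f := fun x a b => R290G.cR1 (n x) (g x) (h x) (T x) a b) (by fun_prop) (by fun_prop)

@[fun_prop] theorem XP.cTfin {n g h : α → ℕ} (hn : XP n) (hg : XP g) (hh : XP h) :
    XP (fun x => cTfin (n x) (g x) (h x)) := by
  unfold R290G.cTfin
  refine XP.iterBits (n := fun x => 2 * n x * (2 * n x)) (b := fun x => 2 * n x * (2 * n x))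
    (init := fun x => R290G.tab (2 * n x) fun _ _ => true)
    (step := fun x T => R290G.cstep (n x) (g x) (h x) T) (by fun_prop)
    (XP.tab (f := fun _ _ _ => true) (by fun_prop) (by fun_prop))
    (by fun_prop) (by fun_prop) ?_
  intro a i
  cases i with
  | zero => simp [length_tab]
  | succ i => rw [Function.iterate_succ_apply']; simp [R290G.cstep, length_tab]

@[fun_prop] theorem XP.creq {n g h : α → ℕ} (hn : XP n) (hg : XP g) (hh : XP h) :
    XP (fun x => creq (n x) (g x) (h x)) := by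
  unfold R290G.creq
  fun_prop

@[fun_prop] theorem XP.wleq {B n k g h : α → ℕ} (hB : XP B) (hn : XP n) (hk : XP k)
    (hg : XP g) (hh : XP h) : XP (fun x => wleq (B x) (n x) (k x) (g x) (h x)) := by
  unfold R290G.wleq
  fun_prop

@[fun_prop] theorem XP.simp {n g : α → ℕ} (hn : XP n) (hg : XP g) :
    XP (fun x => simp (n x) (g x)) := by
  unfold R290G.simp
  fun_prop

@[fun_prop] theorem XP.hasOut {n g S : α → ℕ} (hn : XP n) (hg : XP g) (hS : XP S) :
    XP (fun x => hasOut (n x) (g x) (S x)) := by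
  unfold R290G.hasOut
  fun_prop

@[fun_prop] theorem XP.conn {B n g : α → ℕ} (hB : XP B) (hn : XP n) (hg : XP g) :
    XP (fun x => conn (B x) (n x) (g x)) := by
  unfold R290G.conn
  fun_prop

@[fun_prop] theorem XP.deg3 {n g : α → ℕ} (hn : XP n) (hg : XP g) :
    XP (fun x => deg3 (n x) (g x)) := by
  unfold R290G.deg3
  fun_prop

@[fun_prop] theorem XP.ncb {k i : α → ℕ} (hk : XP k) (hi : XP i) :
    XP (fun x => ncb (k x) (i x)) := by
  unfold R290G.ncb
  fun_prop

@[fun_prop] theorem XP.hasNat {w : α → List Bool} {o k : α → ℕ} (hw : XP w) (ho : XP o) (hk : XP k) :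
    XP (fun x => hasNat (w x) (o x) (k x)) := by
  unfold R290G.hasNat
  fun_prop

@[fun_prop] theorem XP.hasBits {w : α → List Bool} {o l g : α → ℕ} (hw : XP w) (ho : XP o) (hl : XP l)
    (hg : XP g) : XP (fun x => hasBits (w x) (o x) (l x) (g x)) := by
  unfold R290G.hasBits
  fun_prop

@[fun_prop] theorem XP.isPair {w : α → List Bool} {k n g h : α → ℕ} (hw : XP w) (hk : XP k) (hn : XP n)
    (hg : XP g) (hh : XP h) : XP (fun x => isPair (w x) (k x) (n x) (g x) (h x)) := by
  unfold R290G.isPair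
  fun_prop

@[fun_prop] theorem XP.isSingle {w : α → List Bool} {k n g : α → ℕ} (hw : XP w) (hk : XP k) (hn : XP n)
    (hg : XP g) : XP (fun x => isSingle (w x) (k x) (n x) (g x)) := by
  unfold R290G.isSingle
  fun_prop

theorem XP.testVar : XP R290G.testVar := by
  unfold R290G.testVar
  fun_prop

theorem XP.testSub : XP R290G.testSub := by
  unfold R290G.testSub
  fun_prop

@[fun_prop] theorem XP.ident {B n k' g : α → ℕ} (hB : XP B) (hn : XP n) (hk : XP k')
    (hg : XP g) : XP (fun x => ident (B x) (n x) (k' x) (g x)) := by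
  unfold R290G.ident
  fun_prop

theorem XP.testDim : XP R290G.testDim := by
  unfold R290G.testDim
  fun_prop

end Crest.Agent.R290G
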