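import Crest.Agent.R290.GPad
import Crest.Agent.R290.GXPalg
import Crest.Agent.R290.GTab2
import Crest.Agent.R290.GCR2
import Crest.Agent.R290.GIdent
import Crest.Agent.R290.GEnc1
import Crest.Agent.R290.GEnc2
import Crest.Agent.R290.GConn

/-!
# Row 290 module G: the three languages are in EXPTIME (assembly, part 1)
-/

set_option autoImplicit false

open Crest.WLRefine

namespace Crest.Agent.R290G

/-- the bounds used by the tests -/
theorem bounds {L k n : ℕ} (h : 2 * k.size + 2 + (2 * n.size + 2) + n * n ≤ L) :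
    k < 2 ^ L ^ 3 ∧ n < L ∧ n * n ≤ L ∧ 2 ^ (n * n) ≤ 2 ^ L ^ 3 ∧ 2 ^ n ≤ 2 ^ L ^ 3 ∧
      n ^ (max n 2) ≤ 2 ^ L ^ 3 := by
  have hnn : n ≤ n * n := Nat.le_mul_self n
  have hL1 : L ≤ L ^ 3 := Nat.le_self_pow (by norm_num) L
  have hL2 : L * L ≤ L ^ 3 := by
    calc L * L = L ^ 2 := by ring
      _ ≤ L ^ 3 := Nat.pow_le_pow_right (by omega) (by norm_num)
  have hn : n < L := by omega
  refine ⟨?_, hn, by omega, ?_, ?_, ?_⟩
  · calc k < 2 ^ k.size := Nat.lt_size_self k
      _ ≤ 2 ^ L ^ 3 := Nat.pow_le_pow_right (by norm_num) (by omega)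
  · exact Nat.pow_le_pow_right (by norm_num) (by omega)
  · exact Nat.pow_le_pow_right (by norm_num) (by omega)
  · calc n ^ (max n 2) ≤ (2 ^ n) ^ (max n 2) := Nat.pow_le_pow_left Nat.lt_two_pow_self.le _
      _ = 2 ^ (n * max n 2) := by rw [← pow_mul]
      _ ≤ 2 ^ L ^ 3 := by
        refine Nat.pow_le_pow_right (by norm_num) (le_trans ?_ hL2)
        exact Nat.mul_le_mul hn.le (by omega)

/-- length of the code of a pair -/
theorem pair_len {w : List Bool} {k n g h : ℕ} (hp : isPair w k n g h = true) :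
    2 * k.size + 2 + (2 * n.size + 2) + n * n ≤ w.length := by
  unfold isPair at hp
  simp only [Bool.and_eq_true, decide_eq_true_eq] at hp
  have := hp.1.1.1.1.1
  omega

theorem pow_min_le {n k B : ℕ} (hk : 1 ≤ k) (hB : n ^ (max n 2) ≤ B) :
    n ^ (min k (max n 2)) ≤ B := by
  rcases Nat.eq_zero_or_pos n with h0 | h0
  · subst h0
    rw [zero_pow (by omega)]
    exact Nat.zero_le _
  · exact (Nat.pow_le_pow_right h0 (min_le_right _ _)).trans hB

/-- Proof: `inEXP_of_XP _ 3 (by norm_num) testVar XP.testVar`; unfold `testVar`; `isPair_iff`, `exists_matN`,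
`simp_iff`, `jeq_iff`, `jequiv_min`, `jequiv_card`, `bounds` (the length of `w` from `isPair`, or from
`isPair_iff` and the first conjunct of `isPair`). -/
theorem varDim_inEXP : Crest.ExpTime.InEXP varDimEquivLang := by
  refine inEXP_of_XP _ 3 (by norm_num) testVar XP.testVar fun w => ?_
  unfold testVar
  rw [decide_eq_true_iff]
  constructor
  · rintro ⟨k, n, m, adjG, adjH, hk, hG, hH, hJ, hw⟩
    obtain rfl : n = m := jequiv_card (by omega) hJ
    obtain ⟨g, hg, rfl⟩ := exists_matN adjG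
    obtain ⟨h, hh, rfl⟩ := exists_matN adjH
    have hp : isPair w k n g h = true := (isPair_iff w k n g h).2 hw
    obtain ⟨b1, b2, b3, b4, b5, b6⟩ := bounds (pair_len hp)
    have hpw : pw (2 ^ w.length ^ 3) 2 (n * n) = 2 ^ (n * n) := min_eq_left b4
    refine ⟨k, b1, n, b2, g, ?_, h, ?_, hp, hk, (simp_iff n g).2 hG, (simp_iff n h).2 hH, ?_⟩
    · show g < pw (2 ^ w.length ^ 3) 2 (n * n)
      rw [hpw]; exact hg
    · show h < pw (2 ^ w.length ^ 3) 2 (n * n)
      rw [hpw]; exact hh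
    · exact (jeq_iff (by omega) (pow_min_le (by omega) b6) g h).2
        ((jequiv_min (by omega) _ _).1 hJ)
  · rintro ⟨k, -, n, -, g, -, h, -, hp, hk, hG, hH, hJ⟩
    obtain ⟨b1, b2, b3, b4, b5, b6⟩ := bounds (pair_len hp)
    refine ⟨k, n, n, matN n g, matN n h, hk, (simp_iff n g).1 hG, (simp_iff n h).1 hH, ?_,
      (isPair_iff w k n g h).1 hp⟩
    exact (jequiv_min (by omega) _ _).2
      ((jeq_iff (by omega) (pow_min_le (by omega) b6) g h).1 hJ)

theorem subcubicVarDim_inEXP : Crest.ExpTime.InEXP subcubicVarDimEquivLang := by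
  refine inEXP_of_XP _ 3 (by norm_num) testSub XP.testSub fun w => ?_
  unfold testSub
  rw [decide_eq_true_iff]
  constructor
  · rintro ⟨k, n, adjG, adjH, hk, hn, ⟨hG, hGc, hGd⟩, ⟨hH, hHc, hHd⟩, hJ, hw⟩
    obtain ⟨g, hg, rfl⟩ := exists_matN adjG
    obtain ⟨h, hh, rfl⟩ := exists_matN adjH
    have hp : isPair w k n g h = true := (isPair_iff w k n g h).2 hw
    obtain ⟨b1, b2, b3, b4, b5, b6⟩ := bounds (pair_len hp)
    have hpw : pw (2 ^ w.length ^ 3) 2 (n * n) = 2 ^ (n * n) := min_eq_left b4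
    refine ⟨k, b1, n, b2, g, ?_, h, ?_, hp, hk, (simp_iff n g).2 hG, (simp_iff n h).2 hH,
      (conn_iff _ b5 g).2 hGc, (conn_iff _ b5 h).2 hHc, (deg3_iff n g).2 hGd,
      (deg3_iff n h).2 hHd, ?_⟩
    · show g < pw (2 ^ w.length ^ 3) 2 (n * n)
      rw [hpw]; exact hg
    · show h < pw (2 ^ w.length ^ 3) 2 (n * n)
      rw [hpw]; exact hh
    · exact (jeq_iff (by omega) (pow_min_le (by omega) b6) g h).2
        ((jequiv_min (by omega) _ _).1 hJ)
  · rintro ⟨k, -, n, -, g, -, h, -, hp, hk, hG, hH, hGc, hHc, hGd, hHd, hJ⟩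
    obtain ⟨b1, b2, b3, b4, b5, b6⟩ := bounds (pair_len hp)
    have hGc' := (conn_iff _ b5 g).1 hGc
    have hn : 0 < n := by
      obtain ⟨v⟩ := hGc'.nonempty
      exact v.pos
    refine ⟨k, n, matN n g, matN n h, hk, hn,
      ⟨(simp_iff n g).1 hG, hGc', (deg3_iff n g).1 hGd⟩,
      ⟨(simp_iff n h).1 hH, (conn_iff _ b5 h).1 hHc, (deg3_iff n h).1 hHd⟩, ?_,
      (isPair_iff w k n g h).1 hp⟩
    exact (jequiv_min (by omega) _ _).2
      ((jeq_iff (by omega) (pow_min_le (by omega) b6) g h).1 hJ)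

end Crest.Agent.R290G
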