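import Crest.Agent.R290.GMain1

/-!
# Row 290 module G: the three languages are in EXPTIME (assembly, part 2)
-/

set_option autoImplicit false

open Crest.WLRefine

namespace Crest.Agent.R290G

/-- `wleq B n k' g h = true ↔ WLEquiv k' (matN n g) (matN n h)` for `1 ≤ k' ≤ max n 2`, `n ^ (max n 2) ≤ B` -/
theorem wleq_iff {B n k' : ℕ} (hk : 1 ≤ k') (hB : n ^ k' ≤ B) (g h : ℕ) :
    wleq B n k' g h = true ↔ WLEquiv k' (matN n g) (matN n h) := by
  unfold wleq WLEquiv
  by_cases h1 : k' = 1
  · simp only [h1, if_true]; exact creq_iff g h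
  · simp only [h1, if_false]; exact jeq_iff hk hB g h

/-- `wleq_iff`, `jeq_iff`, `exists_matN`, `simp_iff` -/
theorem ident_iff {B n k' : ℕ} (hk : 1 ≤ k') (hk' : k' ≤ max n 2) (hB : n ^ (max n 2) ≤ B)
    (hB' : 2 ^ (n * n) ≤ B) (g : ℕ) :
    ident B n k' g = true ↔ ∀ H : Fin n → Fin n → Bool, IsSimple H → WLEquiv k' (matN n g) H →
      JEquiv (max n 2) (matN n g) H := by
  have hpow : n ^ k' ≤ B := by
    rcases Nat.eq_zero_or_pos n with h0 | h0
    · subst h0
      rw [zero_pow (by omega)]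
      exact Nat.zero_le _
    · exact (Nat.pow_le_pow_right h0 hk').trans hB
  have hpw : pw B 2 (n * n) = 2 ^ (n * n) := by
    unfold pw
    exact min_eq_left hB'
  have hm : 1 ≤ max n 2 := le_trans (by norm_num) (le_max_right n 2)
  unfold ident
  rw [decide_eq_true_iff, hpw]
  constructor
  · intro h H hH hW
    obtain ⟨x, hx, rfl⟩ := exists_matN H
    exact (jeq_iff hm hB g x).1 (h x hx ((simp_iff n x).2 hH) ((wleq_iff hk hpow g x).2 hW))
  · intro h x _ hs hw
    exact (jeq_iff hm hB g x).2 (h _ ((simp_iff n x).1 hs) ((wleq_iff hk hpow g x).1 hw))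

namespace GMAIN2aux

/-- the length of the string from the test -/
theorem length_of_isSingle {w : List Bool} {k n g : ℕ} (h : isSingle w k n g = true) :
    w.length = (2 * k.size + 2) + (2 * n.size + 2) + n * n := by
  unfold isSingle at h
  simp only [Bool.and_eq_true, decide_eq_true_eq] at h
  exact h.1.1.1

end GMAIN2aux

/-- `ident_iff`, `identifies_iff` -/
theorem wlDimLe_inEXP : Crest.ExpTime.InEXP wlDimLeLang := by
  refine inEXP_of_XP _ 3 (by norm_num) testDim XP.testDim fun w => ?_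
  unfold testDim
  rw [decide_eq_true_iff]
  dsimp only
  constructor
  · rintro ⟨k, n, adj, hk, hn, hs, hex, hw⟩
    obtain ⟨g, hg, rfl⟩ := exists_matN adj
    have hsing : isSingle w k n g = true := (isSingle_iff w k n g).2 hw
    have hlen := GMAIN2aux.length_of_isSingle hsing
    obtain ⟨b1, b2, b3, b4, b5, b6⟩ := bounds (L := w.length) (k := k) (n := n) hlen.ge
    obtain ⟨k', hk1, hk2, hk3⟩ := (identifies_iff (matN n g)).1 hex
    have hpw : pw (2 ^ w.length ^ 3) 2 (n * n) = 2 ^ (n * n) := by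
      unfold pw
      exact min_eq_left b4
    refine ⟨k, b1, n, b2, g, by rw [hpw]; exact hg, hsing, hk, hn, (simp_iff n g).2 hs, k',
      by omega, hk1, ?_⟩
    exact (ident_iff hk1 (hk2.trans (min_le_right _ _)) b6 b4 g).2 hk3
  · rintro ⟨k, hkB, n, hnL, g, hg, hsing, hk, hn, hs, k', hk', hk1, hid⟩
    have hlen := GMAIN2aux.length_of_isSingle hsing
    obtain ⟨b1, b2, b3, b4, b5, b6⟩ := bounds (L := w.length) (k := k) (n := n) hlen.ge
    have hk2 : k' ≤ min k (max n 2) := by omega
    refine ⟨k, n, matN n g, hk, hn, (simp_iff n g).1 hs, ?_, (isSingle_iff w k n g).1 hsing⟩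
    refine (identifies_iff (matN n g)).2 ⟨k', hk1, hk2, ?_⟩
    exact (ident_iff hk1 (hk2.trans (min_le_right _ _)) b6 b4 g).1 hid

end Crest.Agent.R290G
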