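import Crest.Agent.R290.GDefs

/-!
# Row 290 module G: multisets and counts; tables; stabilisation

All lemmas here are elementary and independent.
-/

set_option autoImplicit false

open Finset

namespace Crest.Agent.R290G

/-- `Nat.count_eq_card_filter_range`, then `Fin n ≃ range n` -/
theorem count_eq_natCard (p : ℕ → Prop) [DecidablePred p] (n : ℕ) :
    Nat.count p n = Nat.card {i : Fin n // p i} := by
  rw [Nat.count_eq_card_filter_range, Nat.card_eq_fintype_card, Fintype.card_subtype]
  have : (Finset.range n).filter p =
      ((univ : Finset (Fin n)).filter (fun i : Fin n => p (i : ℕ))).map Fin.valEmbedding := by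
    ext x
    simp only [mem_filter, mem_range, mem_map, mem_univ, true_and, Fin.valEmbedding_apply]
    constructor
    · rintro ⟨h1, h2⟩
      exact ⟨⟨x, h1⟩, h2, rfl⟩
    · rintro ⟨a, h1, rfl⟩
      exact ⟨a.2, h1⟩
  rw [this, Finset.card_map]

private theorem ms_count {V α : Type} [DecidableEq α] [Fintype V] (f : V → α) (p : V → Prop)
    [DecidablePred p] (a : α) :
    (((univ : Finset V).filter p).val.map f).count a = Nat.card {b : V // p b ∧ a = f b} := by
  classical
  rw [Multiset.count_map, Nat.card_eq_fintype_card, Fintype.card_subtype]
  rw [← Finset.filter_val, Finset.card_val, Finset.filter_filter]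

private theorem ms_count' {V α : Type} [DecidableEq α] [Fintype V] (f : V → α) (a : α) :
    ((univ : Finset V).val.map f).count a = Nat.card {b : V // a = f b} := by
  classical
  rw [Multiset.count_map, Nat.card_eq_fintype_card, Fintype.card_subtype]
  rw [← Finset.filter_val, Finset.card_val]

/-- `→`: `Multiset.count (f a)` of both sides (`Multiset.count_map`, classical). `←`: the left multiset is `≤`
the right one (`Multiset.le_iff_count`; elements not in the left have count `0`), cards are equal
(`Multiset.eq_of_le_of_card_le`). -/
theorem map_eq_iff_natCard {V W α : Type} [Fintype V] [Fintype W] (f : V → α) (g : W → α)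
    (hc : Fintype.card V = Fintype.card W) :
    (univ : Finset V).val.map f = (univ : Finset W).val.map g ↔
      ∀ a, Nat.card {b : V // f a = f b} = Nat.card {b : W // f a = g b} := by
  classical
  constructor
  · intro h a
    rw [← ms_count', ← ms_count', h]
  · intro h
    apply Multiset.eq_of_le_of_card_le
    · rw [Multiset.le_iff_count]
      intro x
      by_cases hx : ∃ a, f a = x
      · obtain ⟨a, rfl⟩ := hx
        rw [ms_count', ms_count', h a]
      · rw [Multiset.count_eq_zero_of_notMem]
        · exact Nat.zero_le _
        · intro hm
          obtain ⟨a, _, ha⟩ := Multiset.mem_map.mp hm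
          exact hx ⟨a, ha⟩
    · rw [Multiset.card_map, Multiset.card_map]
      simp only [Finset.card_val, Finset.card_univ]
      exact hc.ge

/-- `Multiset.ext`; a value that is not one of the `c d` has count `0` on both sides -/
theorem map_filter_eq_iff {V W D α : Type} [Fintype V] [Fintype W] (f : V → α) (g : W → α)
    (p : V → Prop) (q : W → Prop) [DecidablePred p] [DecidablePred q] (c : D → α)
    (hf : ∀ a, ∃ d, c d = f a) (hg : ∀ b, ∃ d, c d = g b) :
    ((univ : Finset V).filter p).val.map f = ((univ : Finset W).filter q).val.map g ↔
      ∀ d, Nat.card {a : V // p a ∧ c d = f a} = Nat.card {b : W // q b ∧ c d = g b} := by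
  classical
  constructor
  · intro h d
    rw [← ms_count, ← ms_count, h]
  · intro h
    refine Multiset.ext.mpr fun x => ?_
    by_cases hx : ∃ d, c d = x
    · obtain ⟨d, rfl⟩ := hx
      rw [ms_count, ms_count, h d]
    · rw [Multiset.count_eq_zero_of_notMem, Multiset.count_eq_zero_of_notMem]
      · intro hm
        obtain ⟨a, _, ha⟩ := Multiset.mem_map.mp hm
        obtain ⟨d, hd⟩ := hg a
        exact hx ⟨d, hd.trans ha⟩
      · intro hm
        obtain ⟨a, _, ha⟩ := Multiset.mem_map.mp hm
        obtain ⟨d, hd⟩ := hf a
        exact hx ⟨d, hd.trans ha⟩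

/-- if all `F^[j+1] x ≠ F^[j] x`, `j ≤ μ x`, then `μ (F^[j] x) + j ≤ μ x` for `j = μ x + 1`: contradiction;
so there is a fixed point among `F^[j] x`, `j ≤ μ x ≤ L` -/
theorem iterate_stable {α : Type} (F : α → α) (x : α) (μ : α → ℕ) (L : ℕ) (hL : μ x ≤ L)
    (h : ∀ i, F^[i + 1] x ≠ F^[i] x → μ (F^[i + 1] x) < μ (F^[i] x)) :
    ∀ s, L ≤ s → F^[s] x = F^[L] x := by
  -- there is a fixed point among `j ≤ L`
  have hfix : ∃ j, j ≤ L ∧ F^[j + 1] x = F^[j] x := by
    by_contra hcon
    push Not at hcon
    have key : ∀ j, j ≤ L + 1 → μ (F^[j] x) + j ≤ μ x := by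
      intro j
      induction j with
      | zero => intro _; simp
      | succ j ih =>
        intro hj
        have h1 := ih (by omega)
        have h2 := h j (hcon j (by omega))
        omega
    have := key (L + 1) le_rfl
    omega
  obtain ⟨j, hj, hfj⟩ := hfix
  have stab : ∀ i, F^[j + i] x = F^[j] x := by
    intro i
    induction i with
    | zero => rfl
    | succ i ih =>
      have h1 : F^[j + (i + 1)] x = F (F^[j + i] x) := by
        rw [← add_assoc, Function.iterate_succ_apply']
      rw [h1, ih, ← Function.iterate_succ_apply' F j x]
      exact hfj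
  intro s hs
  have e1 := stab (s - j)
  have e2 := stab (L - j)
  rw [show j + (s - j) = s by omega] at e1
  rw [show j + (L - j) = L by omega] at e2
  rw [e1, e2]

theorem length_tab' (M : ℕ) (f : ℕ → ℕ → Bool) : (tab M f).length = M * M := by
  simp [R290G.tab]

/-- entry of a table -/
theorem rel_tab {M : ℕ} (f : ℕ → ℕ → Bool) {a b : ℕ} (ha : a < M) (hb : b < M) :
    rel M (tab M f) a b = f a b := by
  have hlt : a * M + b < M * M := by
    have : (a + 1) * M ≤ M * M := Nat.mul_le_mul_right M ha
    have h2 : (a + 1) * M = a * M + M := by ring
    omega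
  have hM : 0 < M := lt_of_le_of_lt (Nat.zero_le _) ha
  unfold rel tab
  rw [List.getD_eq_getElem?_getD, List.getElem?_map, List.getElem?_range hlt]
  simp only [Option.map_some, Option.getD_some]
  have h1 : (a * M + b) / M = a := by
    rw [mul_comm, Nat.mul_add_div hM, Nat.div_eq_of_lt hb, add_zero]
  have h2 : (a * M + b) % M = b := by
    rw [mul_comm, Nat.mul_add_mod, Nat.mod_eq_of_lt hb]
  rw [h1, h2]

/-- auxiliary for `count_tab_lt` -/
theorem count_map_lt_aux4 (l : List ℕ) (f f' : ℕ → Bool)
    (h : ∀ x ∈ l, f' x = true → f x = true) (hne : l.map f' ≠ l.map f) :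
    (l.map f').count true < (l.map f).count true := by
  have hle : ∀ l : List ℕ, (∀ x ∈ l, f' x = true → f x = true) →
      (l.map f').count true ≤ (l.map f).count true := by
    intro l
    induction l with
    | nil => intro _; simp
    | cons a l ih =>
      intro h
      have h1 := ih (fun x hx => h x (List.mem_cons_of_mem _ hx))
      have h2 := h a (List.mem_cons_self)
      simp only [List.map_cons, List.count_cons]
      by_cases hf : f' a = true
      · have := h2 hf
        simp only [hf, this]
        omega
      · simp only [Bool.not_eq_true] at hf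
        simp only [hf]
        simp
        omega
  induction l with
  | nil => simp at hne
  | cons a l ih =>
    have h2 := h a (List.mem_cons_self)
    have h1 := hle l (fun x hx => h x (List.mem_cons_of_mem _ hx))
    simp only [List.map_cons, List.count_cons]
    by_cases heq : l.map f' = l.map f
    · have hfa : f' a ≠ f a := by
        intro he
        apply hne
        simp [he, heq]
      have hf : f' a = false := by
        by_contra hc
        simp only [Bool.not_eq_false] at hc
        exact hfa (by rw [hc, h2 hc])
      have hf2 : f a = true := by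
        by_contra hc
        simp only [Bool.not_eq_true] at hc
        exact hfa (by rw [hc, hf])
      simp only [hf, hf2]
      simp
      omega
    · have h3 := ih (fun x hx => h x (List.mem_cons_of_mem _ hx)) heq
      by_cases hf : f' a = true
      · have := h2 hf
        simp only [hf, this]
        omega
      · simp only [Bool.not_eq_true] at hf
        simp only [hf]
        simp
        omega

/-- the number of `true` goes down when a table is replaced by a different smaller one -/
theorem count_tab_lt {M : ℕ} (f f' : ℕ → ℕ → Bool)
    (h : ∀ a b, a < M → b < M → f' a b = true → f a b = true) (hne : tab M f' ≠ tab M f) :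
    (tab M f').count true < (tab M f).count true := by
  apply count_map_lt_aux4
  · intro x hx
    rw [List.mem_range] at hx
    have hM : 0 < M := by
      rcases Nat.eq_zero_or_pos M with h0 | h0
      · subst h0; simp at hx
      · exact h0
    exact h _ _ (Nat.div_lt_of_lt_mul hx) (Nat.mod_lt _ hM)
  · exact hne

/-- a table on `[0, M)` is the table of its relation -/
theorem tab_rel {M : ℕ} (T : List Bool) (hT : T.length = M * M) : tab M (rel M T) = T := by
  apply List.ext_getElem
  · rw [length_tab', hT]
  · intro i h1 h2
    have e : i / M * M + i % M = i := by rw [mul_comm]; exact Nat.div_add_mod i M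
    have h3 : (tab M (rel M T))[i] = T.getD (i / M * M + i % M) false := by
      simp [R290G.tab, R290G.rel]
    rw [h3, e, List.getD_eq_getElem _ _ h2]

end Crest.Agent.R290G
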