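import Crest.Agent.R290.GDefs

/-!
# Row 290 module G: tuples as numbers

`finFunctionFinEquiv : (Fin K → Fin n) ≃ Fin (n ^ K)` of Mathlib has
`finFunctionFinEquiv_apply : ↑(finFunctionFinEquiv f) = ∑ i, ↑(f i) * n ^ ↑i` and
`finFunctionFinEquiv_symm_apply_val : ↑(finFunctionFinEquiv.symm a b) = ↑a / n ^ ↑b % n`.
-/

set_option autoImplicit false

open Finset

namespace Crest.Agent.R290G

/-- number of the tuple `v` (base `n` digits) -/
def num (n : ℕ) {K : ℕ} (v : Fin K → Fin n) : ℕ := ∑ i, (v i : ℕ) * n ^ (i : ℕ)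

/-- element of the disjoint union: `ε = false` graph `g`, `ε = true` graph `h` -/
def el (n : ℕ) {K : ℕ} (ε : Bool) (v : Fin K → Fin n) : ℕ := (if ε then n ^ K else 0) + num n v

variable {B n K : ℕ}

theorem num_eq (v : Fin K → Fin n) : num n v = (finFunctionFinEquiv v : ℕ) :=
  (finFunctionFinEquiv_apply v).symm

theorem num_lt (v : Fin K → Fin n) : num n v < n ^ K := by
  rw [num_eq]
  exact (finFunctionFinEquiv v).isLt

theorem exists_num {a : ℕ} (ha : a < n ^ K) : ∃ v : Fin K → Fin n, num n v = a :=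
  ⟨finFunctionFinEquiv.symm ⟨a, ha⟩, by rw [num_eq, Equiv.apply_symm_apply]⟩

theorem num_inj {v w : Fin K → Fin n} (h : num n v = num n w) : v = w :=
  finFunctionFinEquiv.injective (Fin.ext (by rw [← num_eq, ← num_eq]; exact h))

theorem num_digit (v : Fin K → Fin n) (i : Fin K) : num n v / n ^ (i : ℕ) % n = v i := by
  have h := finFunctionFinEquiv_symm_apply_val (finFunctionFinEquiv v) i
  rw [Equiv.symm_apply_apply] at h
  rw [num_eq]
  exact h.symm

/-- `Finset.sum_update_of_mem` / `Fintype.sum_eq_add_sum_compl` -/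
theorem num_update (v : Fin K → Fin n) (i : Fin K) (z : Fin n) :
    num n (Function.update v i z) = num n v - (v i : ℕ) * n ^ (i : ℕ) + z * n ^ (i : ℕ) ∧
      (v i : ℕ) * n ^ (i : ℕ) ≤ num n v := by
  have h1 : num n v = (v i : ℕ) * n ^ (i : ℕ) + ∑ j ∈ ({i}ᶜ : Finset (Fin K)), (v j : ℕ) * n ^ (j : ℕ) :=
    Fintype.sum_eq_add_sum_compl i _
  have h2 : num n (Function.update v i z) = (z : ℕ) * n ^ (i : ℕ) +
      ∑ j ∈ ({i}ᶜ : Finset (Fin K)), (v j : ℕ) * n ^ (j : ℕ) := by
    unfold num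
    rw [Fintype.sum_eq_add_sum_compl i]
    congr 1
    · simp
    · refine Finset.sum_congr rfl fun j hj => ?_
      have hji : j ≠ i := by simpa using hj
      rw [Function.update_of_ne hji]
  constructor
  · rw [h1, h2]; omega
  · rw [h1]; omega

theorem pw_eq {i : ℕ} (hn : 0 < n) (hB : n ^ K ≤ B) (hi : i ≤ K) : pw B n i = n ^ i := by
  unfold pw
  exact min_eq_left ((Nat.pow_le_pow_right hn hi).trans hB)

theorem el_lt (ε : Bool) (v : Fin K → Fin n) : el n ε v < 2 * n ^ K := by
  have := num_lt v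
  unfold el
  cases ε <;> simp <;> omega

theorem exists_el {a : ℕ} (ha : a < 2 * n ^ K) : ∃ (ε : Bool) (v : Fin K → Fin n), el n ε v = a := by
  rcases Nat.lt_or_ge a (n ^ K) with h | h
  · obtain ⟨v, hv⟩ := exists_num h
    exact ⟨false, v, by simp [el, hv]⟩
  · obtain ⟨v, hv⟩ := exists_num (show a - n ^ K < n ^ K by omega)
    exact ⟨true, v, by simp [el, hv]; omega⟩

theorem dg_el (hB : n ^ K ≤ B) (ε : Bool) (v : Fin K → Fin n) (i : Fin K) :
    dg B n (n ^ K) (el n ε v) i = v i := by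
  have hn : 0 < n := (v i).pos
  have h1 : el n ε v % n ^ K = num n v := by
    have := num_lt v
    unfold el
    cases ε
    · simp [Nat.mod_eq_of_lt this]
    · simp [Nat.mod_eq_of_lt this]
  unfold dg
  rw [h1, pw_eq hn hB i.isLt.le, num_digit]

theorem up_el (hB : n ^ K ≤ B) (ε : Bool) (v : Fin K → Fin n) (i : Fin K) (z : Fin n) :
    up B n (n ^ K) (el n ε v) i z = el n ε (Function.update v i z) := by
  have hn : 0 < n := (v i).pos
  obtain ⟨h1, h2⟩ := num_update v i z
  unfold up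
  rw [dg_el hB, pw_eq hn hB i.isLt.le]
  unfold el
  rw [h1]
  omega

theorem gsel_el (g h : ℕ) (ε : Bool) (v : Fin K → Fin n) :
    gsel (n ^ K) g h (el n ε v) = if ε then h else g := by
  have := num_lt v
  unfold gsel el
  cases ε
  · simp [this]
  · simp

end Crest.Agent.R290G
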