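import Crest.Agent.Lib.PolyTime.PFCls
import Crest.Agent.Lib.PolyTime.PFFm
import Crest.Agent.Lib.PolyTime.PFSum

/-!
# Row 290 module G: `XP f` = polynomial time w.r.t. unary numbers, bits, bit lists, pairs

`XEnc α` : code of the type (`ℕ` in UNARY, `Bool` one bit, `List Bool` itself, pairs).
`XP f` : polynomial time.  Everything is derived from the layer `PF` of `Lib/PolyTime` (proved).
Combinations are proved by `fun_prop`; binders by the lemmas `XP.decide_forall`, `XP.decide_exists`,
`XP.count`, `XP.genBits`, `XP.iterBits` (the body is a function of the pair `(a, i)`).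
-/

set_option autoImplicit false

namespace Crest.Agent.R290G

open Crest.Agent.PT Crest.Complexity

/-- codes -/
class XEnc (α : Type) where
  enc : α → List Bool

instance : XEnc ℕ := ⟨un⟩
instance : XEnc Bool := ⟨bo⟩
instance : XEnc (List Bool) := ⟨ls⟩
instance {α β : Type} [XEnc α] [XEnc β] : XEnc (α × β) := ⟨pe XEnc.enc XEnc.enc⟩

/-- polynomial time in the size of the codes (numbers in unary) -/
@[fun_prop] def XP {α β : Type} [XEnc α] [XEnc β] (f : α → β) : Prop :=
  PF (XEnc.enc : α → List Bool) (XEnc.enc : β → List Bool) f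

variable {α β γ : Type} [XEnc α] [XEnc β] [XEnc γ]

@[fun_prop] theorem XP.id : XP (fun a : α => a) := PF.id
@[fun_prop] theorem XP.const (b : β) : XP (fun _ : α => b) := PF.const b
@[fun_prop] theorem XP.comp {g : β → γ} {f : α → β} (hg : XP g) (hf : XP f) :
    XP (fun a => g (f a)) := PF.comp hg hf
@[fun_prop] theorem XP.pair {f : α → β} {g : α → γ} (hf : XP f) (hg : XP g) :
    XP (fun a => (f a, g a)) := PF.pair hf hg
@[fun_prop] theorem XP.fst {f : α → β × γ} (hf : XP f) : XP (fun a => (f a).1) := PF.fst' hf
@[fun_prop] theorem XP.snd {f : α → β × γ} (hf : XP f) : XP (fun a => (f a).2) := PF.snd' hf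

@[fun_prop] theorem XP.add {f g : α → ℕ} (hf : XP f) (hg : XP g) : XP (fun a => f a + g a) :=
  PF.comp (g := fun p : ℕ × ℕ => p.1 + p.2) PF.un_add (PF.pair hf hg)
@[fun_prop] theorem XP.sub {f g : α → ℕ} (hf : XP f) (hg : XP g) : XP (fun a => f a - g a) :=
  PF.comp (g := fun p : ℕ × ℕ => p.1 - p.2) PF.un_sub (PF.pair hf hg)
@[fun_prop] theorem XP.mul {f g : α → ℕ} (hf : XP f) (hg : XP g) : XP (fun a => f a * g a) :=
  PF.comp (g := fun p : ℕ × ℕ => p.1 * p.2) PF.un_mul (PF.pair hf hg)
@[fun_prop] theorem XP.div {f g : α → ℕ} (hf : XP f) (hg : XP g) : XP (fun a => f a / g a) :=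
  PF.comp (g := fun p : ℕ × ℕ => p.1 / p.2) PF.un_div (PF.pair hf hg)
@[fun_prop] theorem XP.mod {f g : α → ℕ} (hf : XP f) (hg : XP g) : XP (fun a => f a % g a) :=
  PF.comp (g := fun p : ℕ × ℕ => p.1 % p.2) PF.un_mod (PF.pair hf hg)

@[fun_prop] theorem XP.decide_lt {f g : α → ℕ} (hf : XP f) (hg : XP g) :
    XP (fun a => decide (f a < g a)) :=
  PF.comp (g := fun p : ℕ × ℕ => decide (p.1 < p.2)) PF.un_lt (PF.pair hf hg)
@[fun_prop] theorem XP.decide_eq {f g : α → ℕ} (hf : XP f) (hg : XP g) :
    XP (fun a => decide (f a = g a)) :=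
  PF.comp (g := fun p : ℕ × ℕ => decide (p.1 = p.2)) PF.un_eq (PF.pair hf hg)
@[fun_prop] theorem XP.not {f : α → Bool} (hf : XP f) : XP (fun a => !f a) :=
  PF.comp (g := fun b : Bool => !b) PF.bnot hf
@[fun_prop] theorem XP.and {f g : α → Bool} (hf : XP f) (hg : XP g) : XP (fun a => f a && g a) :=
  PF.comp (g := fun p : Bool × Bool => p.1 && p.2) PF.band (PF.pair hf hg)
@[fun_prop] theorem XP.or {f g : α → Bool} (hf : XP f) (hg : XP g) : XP (fun a => f a || g a) :=
  PF.comp (g := fun p : Bool × Bool => p.1 || p.2) PF.bor (PF.pair hf hg)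

@[fun_prop] theorem XP.decide_le {f g : α → ℕ} (hf : XP f) (hg : XP g) :
    XP (fun a => decide (f a ≤ g a)) := by
  have h : (fun a => decide (f a ≤ g a)) = fun a => !decide (g a < f a) := by
    funext a; rw [← decide_not]; simp
  rw [h]; fun_prop

@[fun_prop] theorem XP.decide_not {p : α → Prop} [∀ a, Decidable (p a)]
    (hp : XP (fun a => decide (p a))) : XP (fun a => decide (¬ p a)) := by
  have h : (fun a => decide (¬ p a)) = fun a => !decide (p a) := by funext a; simp
  rw [h]; fun_prop
@[fun_prop] theorem XP.decide_and {p q : α → Prop} [∀ a, Decidable (p a)] [∀ a, Decidable (q a)]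
    (hp : XP (fun a => decide (p a))) (hq : XP (fun a => decide (q a))) :
    XP (fun a => decide (p a ∧ q a)) := by
  have h : (fun a => decide (p a ∧ q a)) = fun a => decide (p a) && decide (q a) := by
    funext a; simp
  rw [h]; fun_prop
@[fun_prop] theorem XP.decide_or {p q : α → Prop} [∀ a, Decidable (p a)] [∀ a, Decidable (q a)]
    (hp : XP (fun a => decide (p a))) (hq : XP (fun a => decide (q a))) :
    XP (fun a => decide (p a ∨ q a)) := by
  have h : (fun a => decide (p a ∨ q a)) = fun a => decide (p a) || decide (q a) := by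
    funext a; simp
  rw [h]; fun_prop
@[fun_prop] theorem XP.decide_imp {p q : α → Prop} [∀ a, Decidable (p a)] [∀ a, Decidable (q a)]
    (hp : XP (fun a => decide (p a))) (hq : XP (fun a => decide (q a))) :
    XP (fun a => decide (p a → q a)) := by
  have h : (fun a => decide (p a → q a)) = fun a => !decide (p a) || decide (q a) := by
    funext a; by_cases h1 : p a <;> simp [h1]
  rw [h]; fun_prop
@[fun_prop] theorem XP.decide_iff {p q : α → Prop} [∀ a, Decidable (p a)] [∀ a, Decidable (q a)]
    (hp : XP (fun a => decide (p a))) (hq : XP (fun a => decide (q a))) :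
    XP (fun a => decide (p a ↔ q a)) := by
  have h : (fun a => decide (p a ↔ q a)) =
      fun a => (decide (p a) && decide (q a)) || (!decide (p a) && !decide (q a)) := by
    funext a; by_cases h1 : p a <;> by_cases h2 : q a <;> simp [h1, h2]
  rw [h]; fun_prop
@[fun_prop] theorem XP.decide_eq_true {f : α → Bool} (hf : XP f) : XP (fun a => decide (f a = true)) := by
  have h : (fun a => decide (f a = true)) = f := by funext a; simp
  rw [h]; exact hf
@[fun_prop] theorem XP.decide_bool_eq {f g : α → Bool} (hf : XP f) (hg : XP g) :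
    XP (fun a => decide (f a = g a)) := by
  have h : (fun a => decide (f a = g a)) = fun a => (f a && g a) || (!f a && !g a) := by
    funext a; cases f a <;> cases g a <;> rfl
  rw [h]; fun_prop

@[fun_prop] theorem XP.ite {p : α → Prop} [∀ a, Decidable (p a)] {f g : α → β}
    (hp : XP (fun a => decide (p a))) (hf : XP f) (hg : XP g) :
    XP (fun a => if p a then f a else g a) := by
  refine PF.congr (PF.cond hp hf hg) (fun a => ?_)
  by_cases h : p a <;> simp [h]

@[fun_prop] theorem XP.min {f g : α → ℕ} (hf : XP f) (hg : XP g) : XP (fun a => min (f a) (g a)) := by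
  have h : (fun a => Min.min (f a) (g a)) = fun a => if f a ≤ g a then f a else g a := by
    funext a; rfl
  rw [h]; fun_prop
@[fun_prop] theorem XP.max {f g : α → ℕ} (hf : XP f) (hg : XP g) : XP (fun a => max (f a) (g a)) := by
  have h : (fun a => Max.max (f a) (g a)) = fun a => if f a ≤ g a then g a else f a := by
    funext a; rfl
  rw [h]; fun_prop

/-- number of binary digits -/
@[fun_prop] theorem XP.size {f : α → ℕ} (hf : XP f) : XP (fun a => (f a).size) :=
  PF.comp (g := fun n : ℕ => n.size) (PF.comp (g := Nat.size) (f := fun n : ℕ => n) PF.bn_size PF.un_bn) hf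

@[fun_prop] theorem XP.length {f : α → List Bool} (hf : XP f) : XP (fun a => (f a).length) :=
  PF.comp (g := List.length) PF.llength hf

/-- bounded primitive recursion on unary numbers / bit lists (any type), from `PF.natrec` -/
theorem XP.natrec {n : α → ℕ} {init : α → β} {f : α → ℕ → β → β}
    (hn : XP n) (hi : XP init) (hf : XP (fun p : α × (ℕ × β) => f p.1 p.2.1 p.2.2)) (q : Polynomial ℕ)
    (hb : ∀ a i, i ≤ n a → (XEnc.enc (nrec (init a) (f a) i) : List Bool).length ≤
      q.eval (XEnc.enc a : List Bool).length) :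
    XP (fun a => nrec (init a) (f a) (n a)) :=
  PF.natrec hn hi hf q hb

@[simp] theorem enc_nat (n : ℕ) : (XEnc.enc n : List Bool) = un n := rfl
@[simp] theorem enc_bool (b : Bool) : (XEnc.enc b : List Bool) = bo b := rfl
@[simp] theorem enc_list (l : List Bool) : (XEnc.enc l : List Bool) = ls l := rfl

theorem XP.length_le_nat {f : α → ℕ} (hf : XP f) :
    ∃ q : Polynomial ℕ, ∀ a, f a ≤ q.eval (XEnc.enc a : List Bool).length := by
  obtain ⟨q, hq⟩ := PF.length_le hf
  exact ⟨q, fun a => by have := hq a; simpa using this⟩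

theorem XP.length_le_ls {f : α → List Bool} (hf : XP f) :
    ∃ q : Polynomial ℕ, ∀ a, (f a).length ≤ q.eval (XEnc.enc a : List Bool).length := by
  obtain ⟨q, hq⟩ := PF.length_le hf
  exact ⟨q, fun a => by have := hq a; simpa using this⟩

theorem XP.congr' {f g : α → β} (hf : XP f) (h : ∀ a, f a = g a) : XP g := PF.congr hf h

/-- bounded universal quantifier -/
@[fun_prop] theorem XP.decide_forall {n : α → ℕ} {p : α → ℕ → Prop} [∀ a i, Decidable (p a i)]
    (hn : XP n) (hp : XP (fun q : α × ℕ => decide (p q.1 q.2))) :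
    XP (fun a => decide (∀ i, i < n a → p a i)) := by
  have key := XP.natrec (n := n) (init := fun _ : α => true)
    (f := fun a i s => s && decide (p a i)) hn (by fun_prop)
    (by
      refine XP.and (by fun_prop) ?_
      exact XP.comp (g := fun q : α × ℕ => decide (p q.1 q.2)) (f := fun r : α × (ℕ × Bool) => (r.1, r.2.1))
        hp (by fun_prop)) 1 (fun a i _ => by simp)
  refine key.congr' fun a => ?_
  generalize n a = m
  induction m with
  | zero => simp [nrec]
  | succ m ih =>
    rw [nrec, ih, Bool.eq_iff_iff]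
    simp only [Bool.and_eq_true, decide_eq_true_eq]
    constructor
    · rintro ⟨h1, h2⟩ i hi
      rcases Nat.lt_succ_iff_lt_or_eq.1 hi with h | h
      · exact h1 i h
      · exact h ▸ h2
    · intro h
      exact ⟨fun i hi => h i (by omega), h m (by omega)⟩

/-- bounded existential quantifier -/
@[fun_prop] theorem XP.decide_exists {n : α → ℕ} {p : α → ℕ → Prop} [∀ a i, Decidable (p a i)]
    (hn : XP n) (hp : XP (fun q : α × ℕ => decide (p q.1 q.2))) :
    XP (fun a => decide (∃ i, i < n a ∧ p a i)) := by
  have key := XP.natrec (n := n) (init := fun _ : α => false)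
    (f := fun a i s => s || decide (p a i)) hn (by fun_prop)
    (by
      refine XP.or (by fun_prop) ?_
      exact XP.comp (g := fun q : α × ℕ => decide (p q.1 q.2)) (f := fun r : α × (ℕ × Bool) => (r.1, r.2.1))
        hp (by fun_prop)) 1 (fun a i _ => by simp)
  refine key.congr' fun a => ?_
  generalize n a = m
  induction m with
  | zero => simp [nrec]
  | succ m ih =>
    rw [nrec, ih, Bool.eq_iff_iff]
    simp only [Bool.or_eq_true, decide_eq_true_eq]
    constructor
    · rintro (⟨i, h1, h2⟩ | h)
      · exact ⟨i, by omega, h2⟩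
      · exact ⟨m, by omega, h⟩
    · rintro ⟨i, h1, h2⟩
      rcases Nat.lt_succ_iff_lt_or_eq.1 h1 with h | h
      · exact Or.inl ⟨i, h, h2⟩
      · exact Or.inr (h ▸ h2)

/-- counting -/
@[fun_prop] theorem XP.count {n : α → ℕ} {p : α → ℕ → Prop} [∀ a i, Decidable (p a i)]
    (hn : XP n) (hp : XP (fun q : α × ℕ => decide (p q.1 q.2))) :
    XP (fun a => Nat.count (p a) (n a)) := by
  obtain ⟨q, hq⟩ := hn.length_le_nat
  have hc : ∀ (a : α) (m : ℕ), nrec 0 (fun i s => s + if p a i then 1 else 0) m = Nat.count (p a) m := by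
    intro a m
    induction m with
    | zero => simp [nrec]
    | succ m ih => rw [nrec, ih, Nat.count_succ]
  have hp' : XP (fun r : α × (ℕ × ℕ) => decide (p r.1 r.2.1)) :=
    XP.comp (g := fun q : α × ℕ => decide (p q.1 q.2)) (f := fun r : α × (ℕ × ℕ) => (r.1, r.2.1))
        hp (by fun_prop)
  have key := XP.natrec (n := n) (init := fun _ : α => 0)
    (f := fun a i s => s + if p a i then 1 else 0) hn (by fun_prop)
    (by fun_prop) q (fun a i hi => by
      rw [hc]
      simp only [enc_nat, un_length]
      exact (Nat.count_le _).trans (hi.trans (hq a)))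
  exact key.congr' fun a => hc a (n a)

theorem XP.append {f g : α → List Bool} (hf : XP f) (hg : XP g) : XP (fun a => f a ++ g a) :=
  PF.comp (g := fun p : List Bool × List Bool => p.1 ++ p.2) PF.lappend (PF.pair hf hg)

theorem XP.single {f : α → Bool} (hf : XP f) : XP (fun a => [f a]) :=
  PF.comp (g := fun b : Bool => [b]) PF.bo_ls hf

/-- table generation -/
@[fun_prop] theorem XP.genBits {n : α → ℕ} {f : α → ℕ → Bool}
    (hn : XP n) (hf : XP (fun q : α × ℕ => f q.1 q.2)) :
    XP (fun a => (List.range (n a)).map (f a)) := by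
  obtain ⟨q, hq⟩ := hn.length_le_nat
  have hc : ∀ (a : α) (m : ℕ), nrec ([] : List Bool) (fun i s => s ++ [f a i]) m = (List.range m).map (f a) := by
    intro a m
    induction m with
    | zero => simp [nrec]
    | succ m ih => rw [nrec, ih, List.range_succ]; simp
  have key := XP.natrec (n := n) (init := fun _ : α => ([] : List Bool))
    (f := fun a i s => s ++ [f a i]) hn (XP.const _)
    (XP.append (by fun_prop) (XP.single (XP.comp (g := fun q : α × ℕ => f q.1 q.2)
      (f := fun r : α × (ℕ × List Bool) => (r.1, r.2.1)) hf (by fun_prop)))) q (fun a i hi => by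
      rw [hc]
      simp only [enc_list, ls_length, List.length_map, List.length_range]
      exact (hi.trans (hq a)))
  exact key.congr' fun a => hc a (n a)

theorem XP.tail {f : α → List Bool} (hf : XP f) : XP (fun a => (f a).tail) :=
  PF.comp (g := List.tail) PF.ltail hf

theorem XP.head {f : α → List Bool} (hf : XP f) : XP (fun a => (f a).headD false) :=
  PF.comp (g := fun l : List Bool => l.headD false) PF.lhead hf

/-- table look up -/
@[fun_prop] theorem XP.getD {l : α → List Bool} {i : α → ℕ} (hl : XP l) (hi : XP i) :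
    XP (fun a => (l a).getD (i a) false) := by
  obtain ⟨q, hq⟩ := hl.length_le_ls
  have hc : ∀ (L : List Bool) (m : ℕ), nrec L (fun _ s => s.tail) m = L.drop m := by
    intro L m
    induction m with
    | zero => simp [nrec]
    | succ m ih => rw [nrec, ih, List.tail_drop]
  have key := XP.natrec (n := i) (init := l)
    (f := fun _ _ s => s.tail) hi hl
    (XP.tail (by fun_prop)) q (fun a j hj => by
      rw [hc]
      simp only [enc_list, ls_length, List.length_drop]
      exact (Nat.sub_le _ _).trans (hq a))
  refine (XP.head key).congr' fun a => ?_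
  rw [hc]
  simp [List.headD_eq_head?_getD, List.head?_drop, List.getD_eq_getElem?_getD]

/-- iteration of a step on bit tables of bounded length -/
theorem XP.iterBits {n b : α → ℕ} {init : α → List Bool} {step : α → List Bool → List Bool}
    (hn : XP n) (hi : XP init) (hs : XP (fun p : α × List Bool => step p.1 p.2)) (hb : XP b)
    (hlen : ∀ a i, ((step a)^[i] (init a)).length ≤ b a) :
    XP (fun a => (step a)^[n a] (init a)) := by
  obtain ⟨q, hq⟩ := hb.length_le_nat
  have hc : ∀ (a : α) (m : ℕ), nrec (init a) (fun _ s => step a s) m = (step a)^[m] (init a) := by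
    intro a m
    induction m with
    | zero => simp [nrec]
    | succ m ih => rw [nrec, ih, Function.iterate_succ_apply']
  have key := XP.natrec (n := n) (init := init)
    (f := fun a _ s => step a s) hn hi
    (XP.comp (g := fun p : α × List Bool => step p.1 p.2)
      (f := fun r : α × (ℕ × List Bool) => (r.1, r.2.2)) hs (by fun_prop)) q (fun a j hj => by
      rw [hc]
      simp only [enc_list, ls_length]
      exact (hlen a j).trans (hq a))
  exact key.congr' fun a => hc a (n a)

/-- binary digit of a (unary) number -/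
def bitN (g j : ℕ) : Bool := decide (g / 2 ^ j % 2 = 1)

@[fun_prop] theorem XP.bitN {f g : α → ℕ} (hf : XP f) (hg : XP g) :
    XP (fun a => R290G.bitN (f a) (g a)) := by
  obtain ⟨q, hq⟩ := hf.length_le_nat
  have hc : ∀ (x : ℕ) (m : ℕ), nrec x (fun _ s => s / 2) m = x / 2 ^ m := by
    intro x m
    induction m with
    | zero => simp [nrec]
    | succ m ih => rw [nrec, ih, Nat.div_div_eq_div_mul, pow_succ]
  have key := XP.natrec (n := g) (init := f)
    (f := fun _ _ s => s / 2) hg hf
    (by fun_prop) q (fun a j hj => by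
      rw [hc]
      simp only [enc_nat, un_length]
      exact (Nat.div_le_self _ _).trans (hq a))
  have h2 : XP (fun a => decide ((nrec (f a) (fun _ s => s / 2) (g a)) % 2 = 1)) := by
    fun_prop
  refine h2.congr' fun a => ?_
  rw [hc]
  rfl

/-- power truncated at `b` -/
def pw (b n k : ℕ) : ℕ := Min.min (n ^ k) b

@[fun_prop] theorem XP.pw {b f g : α → ℕ} (hb : XP b) (hf : XP f) (hg : XP g) :
    XP (fun a => R290G.pw (b a) (f a) (g a)) := by
  obtain ⟨q, hq⟩ := hb.length_le_nat
  have hc : ∀ (B x : ℕ) (m : ℕ), nrec (Min.min 1 B) (fun _ s => Min.min (s * x) B) m = Min.min (x ^ m) B := by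
    intro B x m
    induction m with
    | zero => simp [nrec]
    | succ m ih =>
      rw [nrec, ih]
      show Min.min (Min.min (x ^ m) B * x) B = _
      rcases le_total (x ^ m) B with h | h
      · rw [min_eq_left h, pow_succ]
      · rw [min_eq_right h]
        rcases Nat.eq_zero_or_pos x with rfl | hx
        · rcases Nat.eq_zero_or_pos m with rfl | hm
          · have h1 : B ≤ 1 := by simpa using h
            interval_cases B <;> simp
          · have h1 : B = 0 := by simpa [hm.ne'] using h
            simp [h1]
        · rw [min_eq_right, min_eq_right]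
          · exact h.trans (Nat.pow_le_pow_right hx (by omega))
          · exact Nat.le_mul_of_pos_right _ hx
  have key := XP.natrec (n := g) (init := fun a => Min.min 1 (b a))
    (f := fun a _ s => Min.min (s * f a) (b a)) hg (by fun_prop)
    (by fun_prop) q (fun a j hj => by
      rw [hc]
      simp only [enc_nat, un_length]
      exact (min_le_right _ _).trans (hq a))
  exact key.congr' fun a => hc _ _ _

end Crest.Agent.R290G
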