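import Crest.Agent.R290.GTime
import Crest.Agent.R290.GXP

/-!
# Row 290 module G: exponential time = polynomial time on padded inputs

Statements used outside: `inEXP_of_XP`.

PROOF of `inEXP_of_padded` (use `timeBoundPred_of_run` of GTime.lean with `t n = 2 ^ (n ^ (e+1))`):
program on the stacks `Fin 3` (input on 0, output on 2), calls (a `Fin 4`-indexed or inductive family)
`cnt x = replicate (|x| ^ e) true` (`PT.PolyTime.poly (X ^ e)`), `dbl y = y ++ y`
(`PT.PolyTime.append` composed with `pr id id`), `dlm x = x.flatMap (fun b => [true, b]) ++ [false]`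
(`PT.PolyTime.pr id (const [])`: `pr x [] = delim x`), `V`:
1. `Prog.dup 0 2 1` (copy the input on 1, aux 2)                     cost `9 N + 2`
2. `call cnt 1` : stack 1 = `replicate (N ^ e) true`                 cost poly(N)
3. `push 2 true` : stack 2 = `[true] = replicate (2 ^ 0) true`
4. `loop 1 isSome (seq (pop 1) (call dbl 2))` : stack 2 = `replicate (2 ^ (N ^ e)) true`, stack 1 = `[]`;
   every one of the `N ^ e` rounds costs `≤ T_dbl (2 ^ (N^e)) + 6 * 2 ^ (N^e) + 10`
5. `call dlm 0` : stack 0 = `delim x`
6. `move 0 1` : stack 1 = `(delim x).reverse`, 7. `move 1 2` : stack 2 = `delim x ++ replicate .. true = pr x ..`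
8. `call V 2` : stack 2 = `[v x]`.
The total cost is `≤ Q (2 ^ (N ^ e))` for one polynomial `Q` (note `N ≤ N ^ e < 2 ^ (N ^ e)` as `1 ≤ e`), which is
`≤ c * 2 ^ (N ^ (e + 1)) + c` by `poly_bound`.
-/

set_option autoImplicit false

namespace Crest.Agent.R290G

open Crest.Agent.PolyT Crest.Complexity

/-- `Q.eval y ≤ c₀ * y ^ d` for `1 ≤ y` (`c₀` = sum of the coefficients); `d * N ^ e ≤ N ^ (e + 1)` for `d ≤ N`;
the finitely many `N < d` go into the constant -/
theorem poly_bound (Q : Polynomial ℕ) (e : ℕ) (he : 1 ≤ e) :
    ∃ c : ℕ, ∀ N : ℕ, Q.eval (2 ^ (N ^ e)) ≤ c * 2 ^ (N ^ (e + 1)) + c := by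
  set d := Q.natDegree with hd
  have hq : ∀ y : ℕ, 1 ≤ y → Q.eval y ≤ (∑ i ∈ Finset.range (d + 1), Q.coeff i) * y ^ d := by
    intro y hy
    rw [Polynomial.eval_eq_sum_range, Finset.sum_mul]
    refine Finset.sum_le_sum fun i hi => Nat.mul_le_mul_left _ ?_
    rw [Finset.mem_range] at hi
    exact Nat.pow_le_pow_right hy (by omega)
  refine ⟨(∑ i ∈ Finset.range (d + 1), Q.coeff i) + Q.eval (2 ^ (d ^ e)), fun N => ?_⟩
  rcases le_total d N with hN | hN
  · have h1 := hq (2 ^ (N ^ e)) Nat.one_le_two_pow
    have h2 : (2 ^ (N ^ e)) ^ d ≤ 2 ^ (N ^ (e + 1)) := by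
      rw [← pow_mul, pow_succ]
      exact Nat.pow_le_pow_right (by norm_num) (Nat.mul_le_mul_left _ hN)
    have h3 := h1.trans (Nat.mul_le_mul_left _ h2)
    rw [add_mul]
    omega
  · have h1 : Q.eval (2 ^ (N ^ e)) ≤ Q.eval (2 ^ (d ^ e)) :=
      poly_mono Q (Nat.pow_le_pow_right (by norm_num) (Nat.pow_le_pow_left hN e))
    omega

/-- the four subroutines -/
private def padF (e : ℕ) (V : List Bool → List Bool) : Fin 4 → List Bool → List Bool
  | 0 => fun x => List.replicate (x.length ^ e) true
  | 1 => fun y => y ++ y
  | 2 => fun x => PT.pr x []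
  | 3 => V

private theorem upd0 (u v w u' : List Bool) :
    Function.update (![u, v, w] : Fin 3 → List Bool) 0 u' = ![u', v, w] := by
  funext k; fin_cases k <;> rfl

private theorem upd1 (u v w u' : List Bool) :
    Function.update (![u, v, w] : Fin 3 → List Bool) 1 u' = ![u, u', w] := by
  funext k; fin_cases k <;> rfl

private theorem upd2 (u v w u' : List Bool) :
    Function.update (![u, v, w] : Fin 3 → List Bool) 2 u' = ![u, v, u'] := by
  funext k; fin_cases k <;> rfl

private theorem single0 (u : List Bool) : single (0 : Fin 3) u = ![u, [], []] := by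
  funext k; fin_cases k <;> rfl

private theorem single2 (u : List Bool) : single (2 : Fin 3) u = ![[], [], u] := by
  funext k; fin_cases k <;> rfl

private theorem run_dblLoop (e : ℕ) (V : List Bool → List Bool) (T : Fin 4 → Polynomial ℕ)
    (M : ℕ) (u : List Bool) :
    ∀ (w : List Bool) (j : ℕ), 2 ^ (j + w.length) ≤ M →
      Run (padF e V) T (Prog.loop (1 : Fin 3) Option.isSome
          (Prog.seq (Prog.pop (1 : Fin 3)) (Prog.call (1 : Fin 4) (2 : Fin 3))))
        ![u, w, List.replicate (2 ^ j) true]
        (w.length * ((T 1).eval M + 6 * M + 10) + 1)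
        ![u, [], List.replicate (2 ^ (j + w.length)) true] := by
  intro w
  induction w with
  | nil =>
    intro j _
    exact Run.mono (Run.loop_done rfl) (by omega)
  | cons b w ih =>
    intro j hj
    have hpop := Run.pop (F := padF e V) (T := T) (1 : Fin 3)
      ![u, b :: w, List.replicate (2 ^ j) true]
    have e1 : Function.update (![u, b :: w, List.replicate (2 ^ j) true] : Fin 3 → List Bool) 1
        ((![u, b :: w, List.replicate (2 ^ j) true] : Fin 3 → List Bool) 1).tail =
        ![u, w, List.replicate (2 ^ j) true] := by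
      rw [upd1]; rfl
    rw [e1] at hpop
    have hcall := Run.call (F := padF e V) (T := T) (1 : Fin 4) (2 : Fin 3)
      ![u, w, List.replicate (2 ^ j) true]
    have e2 : padF e V 1 ((![u, w, List.replicate (2 ^ j) true] : Fin 3 → List Bool) 2) =
        List.replicate (2 ^ (j + 1)) true := by
      show List.replicate (2 ^ j) true ++ List.replicate (2 ^ j) true = _
      rw [← List.replicate_add, pow_succ, mul_two]
    rw [e2, upd2] at hcall
    have hj' : 2 ^ ((j + 1) + w.length) ≤ M := by
      rw [List.length_cons] at hj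
      rwa [show j + 1 + w.length = j + (w.length + 1) by omega]
    have hrec := ih (j + 1) hj'
    have hstep := Run.loop_step (k := (1 : Fin 3)) (c := Option.isSome)
      (S := ![u, b :: w, List.replicate (2 ^ j) true]) rfl (Run.seq hpop hcall) hrec
    have e3 : j + 1 + w.length = j + (b :: w).length := by rw [List.length_cons]; omega
    rw [e3] at hstep
    refine Run.mono hstep ?_
    have h1 : 2 ^ (j + 1) ≤ M := le_trans (Nat.pow_le_pow_right (by norm_num) (by omega)) hj'
    have h2 : 2 ^ j ≤ 2 ^ (j + 1) := Nat.pow_le_pow_right (by norm_num) (by omega)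
    have h3 : ((![u, w, List.replicate (2 ^ j) true] : Fin 3 → List Bool) 2).length = 2 ^ j := by
      show (List.replicate (2 ^ j) true).length = 2 ^ j
      simp
    have h4 : (T 1).eval (2 ^ j) ≤ (T 1).eval M := poly_mono _ (by omega)
    rw [h3, List.length_replicate, List.length_cons, add_mul]
    omega

theorem inEXP_of_padded (L : Set (List Bool)) (e : ℕ) (he : 1 ≤ e) (V : List Bool → List Bool)
    (hV : PolyTime V) (v : List Bool → Bool)
    (h : ∀ x, V (PT.pr x (List.replicate (2 ^ (x.length ^ e)) true)) = [v x])
    (hL : ∀ x, x ∈ L ↔ v x = true) : Crest.ExpTime.InEXP L := by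
  obtain ⟨c, hc⟩ := timeBoundPred_of_run (K := Fin 3) (ι := Fin 4) (padF e V) (by
      intro i
      fin_cases i
      · have h1 := PT.PolyTime.poly (Polynomial.X ^ e)
        simpa [padF] using h1
      · have h1 := PT.PolyTime.comp PT.PolyTime.append (PT.PolyTime.pr PT.PolyTime.id PT.PolyTime.id)
        simpa [padF] using h1
      · exact PT.PolyTime.pr PT.PolyTime.id (PT.PolyTime.const [])
      · exact hV)
    (Prog.seq (Prog.dup (0 : Fin 3) (2 : Fin 3) (1 : Fin 3))
      (Prog.seq (Prog.call (0 : Fin 4) (1 : Fin 3))
        (Prog.seq (Prog.push (2 : Fin 3) true)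
          (Prog.seq (Prog.loop (1 : Fin 3) Option.isSome
            (Prog.seq (Prog.pop (1 : Fin 3)) (Prog.call (1 : Fin 4) (2 : Fin 3))))
            (Prog.seq (Prog.call (2 : Fin 4) (0 : Fin 3))
              (Prog.seq (Prog.move (0 : Fin 3) (1 : Fin 3))
                (Prog.seq (Prog.move (1 : Fin 3) (2 : Fin 3))
                  (Prog.call (3 : Fin 4) (2 : Fin 3)))))))))
    (0 : Fin 3) (2 : Fin 3) v (fun n => 2 ^ (n ^ (e + 1))) (by
      intro T
      obtain ⟨c, hc⟩ := poly_bound ((9 * Polynomial.X + 2) + ((T 0 + 4 * Polynomial.X + 8) + (1 +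
        ((Polynomial.X * (T 1 + 6 * Polynomial.X + 10) + 1) + ((T 2 + 6 * Polynomial.X + 10) +
        ((8 * Polynomial.X + 5) + ((8 * Polynomial.X + 5) +
        ((T 3).comp (3 * Polynomial.X + 1) + 6 * Polynomial.X + 12)))))))) e he
      refine ⟨c, fun x => ?_⟩
      set N := x.length with hN
      set M := 2 ^ (N ^ e) with hM
      have hNe : N ≤ N ^ e := Nat.le_self_pow (by omega) N
      have hNM : N ^ e ≤ M := (Nat.lt_two_pow_self).le
      have r1 := run_dup (F := padF e V) (T := T) (a := (0 : Fin 3)) (t := (2 : Fin 3))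
        (b := (1 : Fin 3)) (by decide) (by decide) (by decide) ![x, [], []] rfl
      have e1 : Function.update (![x, [], []] : Fin 3 → List Bool) 1
          ((![x, [], []] : Fin 3 → List Bool) 0 ++ (![x, [], []] : Fin 3 → List Bool) 1) =
          ![x, x, []] := by
        rw [upd1]; simp
      rw [e1] at r1
      have r2 := Run.call (F := padF e V) (T := T) (0 : Fin 4) (1 : Fin 3) ![x, x, []]
      have e2 : padF e V 0 ((![x, x, []] : Fin 3 → List Bool) 1) = List.replicate (N ^ e) true :=
        rfl
      rw [e2, upd1] at r2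
      have r3 := Run.push (F := padF e V) (T := T) (2 : Fin 3) true
        ![x, List.replicate (N ^ e) true, []]
      rw [upd2] at r3
      have r4 := run_dblLoop e V T M x (List.replicate (N ^ e) true) 0 (by simp [hM])
      have r5 := Run.call (F := padF e V) (T := T) (2 : Fin 4) (0 : Fin 3)
        ![x, [], List.replicate (2 ^ (0 + (List.replicate (N ^ e) true).length)) true]
      have e5 : 2 ^ (0 + (List.replicate (N ^ e) true).length) = M := by simp [hM]
      rw [e5] at r4 r5
      have e5' : padF e V 2 ((![x, [], List.replicate M true] : Fin 3 → List Bool) 0) =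
          PT.pr x [] := rfl
      rw [e5', upd0] at r5
      have r6 := run_move (F := padF e V) (T := T) (a := (0 : Fin 3)) (t := (1 : Fin 3))
        (by decide) ![PT.pr x [], [], List.replicate M true]
      have e6 : Function.update (Function.update
          (![PT.pr x [], [], List.replicate M true] : Fin 3 → List Bool) 0 []) 1
          (((![PT.pr x [], [], List.replicate M true] : Fin 3 → List Bool) 0).reverse ++
            (![PT.pr x [], [], List.replicate M true] : Fin 3 → List Bool) 1) =
          ![[], (PT.pr x []).reverse, List.replicate M true] := by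
        rw [upd0, upd1]; simp
      rw [e6] at r6
      have r7 := run_move (F := padF e V) (T := T) (a := (1 : Fin 3)) (t := (2 : Fin 3))
        (by decide) ![[], (PT.pr x []).reverse, List.replicate M true]
      have hpr : PT.pr x [] ++ List.replicate M true = PT.pr x (List.replicate M true) := by
        simp [PT.pr]
      have e7 : Function.update (Function.update
          (![[], (PT.pr x []).reverse, List.replicate M true] : Fin 3 → List Bool) 1 []) 2
          (((![[], (PT.pr x []).reverse, List.replicate M true] : Fin 3 → List Bool) 1).reverse ++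
            (![[], (PT.pr x []).reverse, List.replicate M true] : Fin 3 → List Bool) 2) =
          ![[], [], PT.pr x (List.replicate M true)] := by
        rw [upd1, upd2, ← hpr]; simp
      rw [e7] at r7
      have r8 := Run.call (F := padF e V) (T := T) (3 : Fin 4) (2 : Fin 3)
        ![[], [], PT.pr x (List.replicate M true)]
      have e8 : padF e V 3 ((![[], [], PT.pr x (List.replicate M true)] : Fin 3 → List Bool) 2) =
          [v x] := h x
      rw [e8, upd2] at r8
      rw [single0, single2]
      refine Run.mono (Run.seq r1 (Run.seq r2 (Run.seq r3 (Run.seq r4 (Run.seq r5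
        (Run.seq r6 (Run.seq r7 r8))))))) (le_trans ?_ (hc N))
      have l0 : ((![x, [], []] : Fin 3 → List Bool) 0).length = N := rfl
      have l1 : ((![x, x, []] : Fin 3 → List Bool) 1).length = N := rfl
      have l5 : ((![x, [], List.replicate M true] : Fin 3 → List Bool) 0).length = N := rfl
      have l6 : ((![PT.pr x [], [], List.replicate M true] : Fin 3 → List Bool) 0).length =
          2 * N + 1 := by
        show (PT.pr x []).length = _
        simp [hN]
      have l7 : ((![[], (PT.pr x []).reverse, List.replicate M true] :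
          Fin 3 → List Bool) 1).length = 2 * N + 1 := by
        show (PT.pr x []).reverse.length = _
        simp [hN]
      have l8 : ((![[], [], PT.pr x (List.replicate M true)] : Fin 3 → List Bool) 2).length =
          2 * N + M + 1 := by
        show (PT.pr x (List.replicate M true)).length = _
        simp [hN]
      rw [l0, l1, l5, l6, l7, l8, List.length_replicate, List.length_singleton, PT.pr_length,
        List.length_nil, ← hM]
      simp only [Polynomial.eval_add, Polynomial.eval_mul, Polynomial.eval_comp, Polynomial.eval_X,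
        Polynomial.eval_ofNat, Polynomial.eval_one]
      have t0 : (T 0).eval N ≤ (T 0).eval M := poly_mono _ (by omega)
      have t2 : (T 2).eval N ≤ (T 2).eval M := poly_mono _ (by omega)
      have t3 : (T 3).eval (2 * N + M + 1) ≤ (T 3).eval (3 * M + 1) := poly_mono _ (by omega)
      have t4 : N ^ e * ((T 1).eval M + 6 * M + 10) ≤ M * ((T 1).eval M + 6 * M + 10) :=
        Nat.mul_le_mul_right _ hNM
      omega)
  exact ⟨e + 1, v, c, hc, hL⟩

/-- **padding** -/
theorem inEXP_of_XP (L : Set (List Bool)) (e : ℕ) (he : 1 ≤ e) (F : List Bool × ℕ → Bool) (hF : XP F)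
    (hL : ∀ x, x ∈ L ↔ F (x, 2 ^ (x.length ^ e)) = true) : Crest.ExpTime.InEXP L := by
  obtain ⟨V, hV, hV'⟩ := hF
  exact inEXP_of_padded L e he V hV (fun x => F (x, 2 ^ (x.length ^ e)))
    (fun x => hV' (x, 2 ^ (x.length ^ e))) hL

end Crest.Agent.R290G
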