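import Crest.Agent.R290.GMs
import Crest.Agent.R290.GNum
import Crest.Agent.R290.GJT

/-!
# Row 290 module G: the tables compute the joint colours, part 1 (one round, induction)

(facts on numbers: GNum.lean; on counts, tables, stabilisation: GMs.lean; on colours: GJT.lean)
-/

set_option autoImplicit false

open Finset Crest.WLRefine

namespace Crest.Agent.R290G

variable {B n K : ℕ}

/-- the graph number `ε` -/
def gsl (n g h : ℕ) (ε : Bool) : Fin n → Fin n → Bool := matN n (if ε then h else g)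

/-- `dg_el`, `gsel_el`; `Prod.ext_iff`, `funext_iff`, `decide_eq_decide`; the quantifiers over `i < K` are
quantifiers over `Fin K` (`Fin.forall_iff`). -/
theorem jR0_iff (hB : n ^ K ≤ B) (g h : ℕ) (ε δ : Bool) (v w : Fin K → Fin n) :
    jR0 B n K (n ^ K) g h (el n ε v) (el n δ w) = true ↔
      atomicType (gsl n g h ε) v = atomicType (gsl n g h δ) w := by
  have hd := fun (ε : Bool) (v : Fin K → Fin n) (i : ℕ) (hi : i < K) =>
    dg_el (B := B) (n := n) (K := K) hB ε v ⟨i, hi⟩
  simp only [] at hd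
  unfold jR0
  rw [decide_eq_true_iff]
  constructor
  · intro H
    apply Prod.ext
    · funext i j
      have h1 := (H i i.2 j j.2).1
      rw [hd ε v i i.2, hd ε v j j.2, hd δ w i i.2, hd δ w j j.2] at h1
      show decide (v i = v j) = decide (w i = w j)
      rw [decide_eq_decide, Fin.ext_iff, Fin.ext_iff]
      exact h1
    · funext i j
      have h1 := (H i i.2 j j.2).2
      rw [hd ε v i i.2, hd ε v j j.2, hd δ w i i.2, hd δ w j j.2, gsel_el, gsel_el] at h1
      exact h1
  · intro H i hi j hj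
    have h1 := congrFun (congrFun (congrArg Prod.fst H) ⟨i, hi⟩) ⟨j, hj⟩
    have h2 := congrFun (congrFun (congrArg Prod.snd H) ⟨i, hi⟩) ⟨j, hj⟩
    rw [hd ε v i hi, hd ε v j hj, hd δ w i hi, hd δ w j hj, gsel_el, gsel_el]
    refine ⟨?_, h2⟩
    have h3 : decide (v ⟨i, hi⟩ = v ⟨j, hj⟩) = decide (w ⟨i, hi⟩ = w ⟨j, hj⟩) := h1
    rw [decide_eq_decide, Fin.ext_iff, Fin.ext_iff] at h3
    exact h3

/-- `count_eq_natCard`, `up_el`, then the hypothesis; `Nat.card_congr` -/
theorem jcnt_eq (hB : n ^ K ≤ B) (g h s : ℕ) (T : List Bool)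
    (hT : ∀ (ε δ : Bool) (v w : Fin K → Fin n), rel (2 * n ^ K) T (el n ε v) (el n δ w) = true ↔
      jcolor (gsl n g h ε) K s v = jcolor (gsl n g h δ) K s w)
    (ε δ : Bool) (v w : Fin K → Fin n) (z : Fin n) :
    jcnt B n K (n ^ K) T (el n ε v) (el n δ w) z = Nat.card {z' : Fin n //
      (fun i => jcolor (gsl n g h ε) K s (Function.update v i z)) =
        fun i => jcolor (gsl n g h δ) K s (Function.update w i z')} := by
  unfold jcnt
  rw [count_eq_natCard]
  apply Nat.card_congr
  apply Equiv.subtypeEquivRight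
  intro z'
  constructor
  · intro H
    funext i
    have h1 := H i i.2
    rw [up_el hB ε v i z, up_el hB δ w i z'] at h1
    exact (hT ε δ _ _).mp h1
  · intro H i hi
    have h1 := congrFun H ⟨i, hi⟩
    have h2 := (hT ε δ _ _).mpr h1
    have h3 := up_el hB ε v ⟨i, hi⟩ z
    have h4 := up_el hB δ w ⟨i, hi⟩ z'
    simp only [] at h3 h4
    rw [h3, h4]
    exact h2

/-- `jcnt_eq` and `map_eq_iff_natCard` -/
theorem jR1_iff (hB : n ^ K ≤ B) (g h s : ℕ) (T : List Bool)
    (hT : ∀ (ε δ : Bool) (v w : Fin K → Fin n), rel (2 * n ^ K) T (el n ε v) (el n δ w) = true ↔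
      jcolor (gsl n g h ε) K s v = jcolor (gsl n g h δ) K s w)
    (ε δ : Bool) (v w : Fin K → Fin n) :
    jR1 B n K (n ^ K) T (el n ε v) (el n δ w) = true ↔
      jcolor (gsl n g h ε) K (s + 1) v = jcolor (gsl n g h δ) K (s + 1) w := by
  have hc : jcolor (gsl n g h ε) K (s + 1) v = jcolor (gsl n g h δ) K (s + 1) w ↔
      jcolor (gsl n g h ε) K s v = jcolor (gsl n g h δ) K s w ∧
      (univ : Finset (Fin n)).val.map (fun z => fun i => jcolor (gsl n g h ε) K s (Function.update v i z)) =
      (univ : Finset (Fin n)).val.map (fun z => fun i => jcolor (gsl n g h δ) K s (Function.update w i z)) :=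
    Prod.ext_iff
  rw [hc, map_eq_iff_natCard _ _ rfl]
  unfold jR1
  rw [Bool.and_eq_true, decide_eq_true_iff, hT ε δ v w]
  apply and_congr Iff.rfl
  constructor
  · intro H z
    have h1 := H z z.2
    rw [jcnt_eq hB g h s T hT ε ε v v z, jcnt_eq hB g h s T hT ε δ v w z] at h1
    exact h1
  · intro H z hz
    have h1 := H ⟨z, hz⟩
    have h2 := jcnt_eq hB g h s T hT ε ε v v ⟨z, hz⟩
    have h3 := jcnt_eq hB g h s T hT ε δ v w ⟨z, hz⟩
    simp only [] at h2 h3
    rw [h2, h3]
    exact h1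

/-- induction on `s`: `rel_tab`, `jR0_iff`, `jR1_iff` -/
theorem rel_iter (hB : n ^ K ≤ B) (g h s : ℕ) (ε δ : Bool) (v w : Fin K → Fin n) :
    rel (2 * n ^ K) ((jstep B n K (n ^ K))^[s] (jT0 B n K (n ^ K) g h)) (el n ε v) (el n δ w) = true ↔
      jcolor (gsl n g h ε) K s v = jcolor (gsl n g h δ) K s w := by
  induction s generalizing ε δ v w with
  | zero =>
    rw [Function.iterate_zero, id]
    unfold jT0
    rw [rel_tab _ (el_lt ε v) (el_lt δ w)]
    exact jR0_iff hB g h ε δ v w
  | succ s ih =>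
    rw [Function.iterate_succ_apply']
    unfold jstep
    rw [rel_tab _ (el_lt ε v) (el_lt δ w)]
    exact jR1_iff hB g h s _ (fun ε δ v w => ih ε δ v w) ε δ v w

end Crest.Agent.R290G
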