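import Crest.Agent.Lib.PolyTime.Compile
import Crest.Prelude.Def_TimeBound
import Crest.Prelude.Def_ExpTime

/-!
# Row 290 module G: the compiler theorem for arbitrary time bounds
-/

set_option autoImplicit false

namespace Crest.Agent.R290G

open Crest.Agent.PolyT Crest.Complexity Turing

/-- **Compiler theorem, decision version, arbitrary time bound.** -/
theorem timeBoundPred_of_run {K ι : Type} [Fintype K] [DecidableEq K] [Fintype ι] [DecidableEq ι]
    (F : ι → List Bool → List Bool) (hF : ∀ i, PolyTime (F i)) (P : Prog K ι) (kin kout : K)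
    (f : List Bool → Bool) (t : ℕ → ℕ)
    (h : ∀ T : ι → Polynomial ℕ, ∃ c : ℕ, ∀ x : List Bool,
      Run F T P (single kin x) (c * t x.length + c) (single kout [f x])) :
    ∃ c : ℕ, Crest.DTime.TimeBoundPred f (fun n => c * t n + c) := by
  classical
  let C := fun i => Classical.choice (hF i)
  let M : ι → FinTM2 := fun i => (C i).tm
  let ain : ∀ i, (M i).Γ (M i).k₀ ≃ Bool := fun i => (C i).inputAlphabet
  let aout : ∀ i, (M i).Γ (M i).k₁ ≃ Bool := fun i => (C i).outputAlphabet
  let T : ι → Polynomial ℕ := fun i => (C i).time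
  have hM : ∀ i x, Comp.RT (M i).m
      ⟨some (M i).main, (M i).initialState,
        Function.update (fun _ => []) (M i).k₀ (x.map (ain i).symm)⟩
      ⟨none, (M i).initialState,
        Function.update (fun _ => []) (M i).k₁ ((F i x).map (aout i).symm)⟩
      ((T i).eval x.length) := by
    intro i x
    obtain ⟨⟨n, h2⟩, h3⟩ := (C i).outputsFun x
    rw [Comp.initList_eq] at h2
    refine ⟨n, h3, ?_⟩
    refine h2.trans ?_
    simp only [Option.map_some]
    rw [Comp.haltList_eq]
    rfl
  obtain ⟨c, hp⟩ := h T
  refine ⟨c + 1, ⟨⟨⟨Comp.big M ain aout P kin kout, Equiv.refl Bool, Equiv.refl Bool⟩,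
    fun n => c * t n + c + 1, fun x => ?_⟩, fun n => ?_⟩⟩
  swap
  · show c * t n + c + 1 ≤ (c + 1) * t n + (c + 1)
    rw [add_mul]; omega
  have h1 := Comp.compile_run hM (hp x) (Comp.big M ain aout P kin kout).m some none
    (fun l => rfl)
  have h2 := h1.trans (Comp.RT.step (c' := ⟨none, Comp.s0 M,
    Comp.st M (single kout [f x]) [] (fun _ _ => [])⟩) rfl)
  have e1 : List.map (Equiv.refl Bool).invFun ((Computability.encodingList Bool).encode x) = x :=
    List.map_id x
  have e2 : List.map (Equiv.refl Bool).invFun (Computability.encodeBool (f x)) = [f x] :=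
    List.map_id [f x]
  refine ⟨⟨h2.choose, ?_⟩, ?_⟩
  · have h3 := h2.choose_spec.2
    refine Eq.trans ?_ (h3.trans ?_)
    · refine congrArg _ (congrArg some ?_)
      refine Eq.trans ?_ (Comp.init_eq M ain aout P kin kout x)
      exact congrArg _ e1
    · simp only [Option.map_some]
      refine congrArg some ?_
      refine (Comp.halt_eq M ain aout P kin kout [f x]).symm.trans ?_
      exact congrArg _ e2.symm
  · refine h2.choose_spec.1.trans ?_
    simp [Computability.encodingList]

/-- **Compiler theorem, function version, arbitrary time bound.** -/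
theorem timeBound_of_run {K ι : Type} [Fintype K] [DecidableEq K] [Fintype ι] [DecidableEq ι]
    (F : ι → List Bool → List Bool) (hF : ∀ i, PolyTime (F i)) (P : Prog K ι) (kin kout : K)
    (f : List Bool → List Bool) (t : ℕ → ℕ)
    (h : ∀ T : ι → Polynomial ℕ, ∃ c : ℕ, ∀ x : List Bool,
      Run F T P (single kin x) (c * t x.length + c) (single kout (f x))) :
    ∃ c : ℕ, Crest.DTime.TimeBound f (fun n => c * t n + c) := by
  classical
  let C := fun i => Classical.choice (hF i)
  let M : ι → FinTM2 := fun i => (C i).tm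
  let ain : ∀ i, (M i).Γ (M i).k₀ ≃ Bool := fun i => (C i).inputAlphabet
  let aout : ∀ i, (M i).Γ (M i).k₁ ≃ Bool := fun i => (C i).outputAlphabet
  let T : ι → Polynomial ℕ := fun i => (C i).time
  have hM : ∀ i x, Comp.RT (M i).m
      ⟨some (M i).main, (M i).initialState,
        Function.update (fun _ => []) (M i).k₀ (x.map (ain i).symm)⟩
      ⟨none, (M i).initialState,
        Function.update (fun _ => []) (M i).k₁ ((F i x).map (aout i).symm)⟩
      ((T i).eval x.length) := by
    intro i x
    obtain ⟨⟨n, h2⟩, h3⟩ := (C i).outputsFun x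
    rw [Comp.initList_eq] at h2
    refine ⟨n, h3, ?_⟩
    refine h2.trans ?_
    simp only [Option.map_some]
    rw [Comp.haltList_eq]
    rfl
  obtain ⟨c, hp⟩ := h T
  refine ⟨c + 1, ⟨⟨⟨Comp.big M ain aout P kin kout, Equiv.refl Bool, Equiv.refl Bool⟩,
    fun n => c * t n + c + 1, fun x => ?_⟩, fun n => ?_⟩⟩
  swap
  · show c * t n + c + 1 ≤ (c + 1) * t n + (c + 1)
    rw [add_mul]; omega
  have h1 := Comp.compile_run hM (hp x) (Comp.big M ain aout P kin kout).m some none
    (fun l => rfl)
  have h2 := h1.trans (Comp.RT.step (c' := ⟨none, Comp.s0 M,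
    Comp.st M (single kout (f x)) [] (fun _ _ => [])⟩) rfl)
  have e1 : List.map (Equiv.refl Bool).invFun ((Computability.encodingList Bool).encode x) = x :=
    List.map_id x
  have e2 : List.map (Equiv.refl Bool).invFun
      ((Computability.encodingList Bool).encode (f x)) = f x :=
    List.map_id (f x)
  refine ⟨⟨h2.choose, ?_⟩, ?_⟩
  · have h3 := h2.choose_spec.2
    refine Eq.trans ?_ (h3.trans ?_)
    · refine congrArg _ (congrArg some ?_)
      refine Eq.trans ?_ (Comp.init_eq M ain aout P kin kout x)
      exact congrArg _ e1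
    · simp only [Option.map_some]
      refine congrArg some ?_
      refine (Comp.halt_eq M ain aout P kin kout (f x)).symm.trans ?_
      exact congrArg _ e2.symm
  · refine h2.choose_spec.1.trans ?_
    simp [Computability.encodingList]

end Crest.Agent.R290G
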