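import Crest.Agent.Lib.PolyTime.Compile

/-!
# Row 290, module H, part 1: composition of a polynomial time function with an arbitrary machine
on a promise domain (pointwise time bounds)  (helper36)
-/

set_option autoImplicit false
set_option linter.unusedSectionVars false

namespace Crest.Agent.R290

open Crest.Complexity Turing Crest.Agent.PolyT Crest.Agent.PolyT.Comp

section

variable {K ι : Type} [DecidableEq K] [DecidableEq ι] {M : ι → FinTM2}

/-- one call of the machine `i` on a single input, with an arbitrary number of steps -/
theorem call_run {ain : ∀ i, (M i).Γ (M i).k₀ ≃ Bool} {aout : ∀ i, (M i).Γ (M i).k₁ ≃ Bool}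
    (i : ι) (k : K) (S : K → List Bool) (y : List Bool) (T : ℕ)
    (hM : RT (M i).m
      ⟨some (M i).main, (M i).initialState,
        Function.update (fun _ => []) (M i).k₀ ((S k).map (ain i).symm)⟩
      ⟨none, (M i).initialState,
        Function.update (fun _ => []) (M i).k₁ (y.map (aout i).symm)⟩ T)
    {Λ : Type} (m : Λ → TM2.Stmt (GG K M) Λ (SS M))
    (e : Lab M (Prog.call i k : Prog K ι) → Λ) (ex : Λ)
    (hm : ∀ l, m (e l) = code M ain aout (Prog.call i k) e ex l) :
    RT m ⟨some (e (start M (Prog.call i k : Prog K ι))), s0 M, st M S [] (fun _ _ => [])⟩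
      ⟨some ex, s0 M, st M (Function.update S k y) [] (fun _ _ => [])⟩
      (T + 2 * (S k).length + 2 * y.length + 8) := by
  have h0 := loop0 (hm (.inl 0)) S (fun i => (M i).initialState) (fun _ _ => []) (S k) []
  have h1 := loop1 (ain i) (hm (.inl 1)) (Function.update S k [])
    (fun i => (M i).initialState) (fun _ _ => []) (S k).reverse []
  have h2 := emb_run M i m (fun l => e (.inr l)) (e (.inl 2)) (fun l => hm (.inr l))
    (Function.update S k []) [] none (fun i => (M i).initialState) (fun _ _ => []) _ _ _ hM
  have h3 := loop2 (aout i) (hm (.inl 2)) (Function.update S k [])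
    (fun i => (M i).initialState) (fun _ _ => []) y []
  have h4 := loop3 (hm (.inl 3)) S (fun i => (M i).initialState) (fun _ _ => []) y.reverse []
  have hW := updW0 M i
  have hV : Function.update (fun i => (M i).initialState) i (M i).initialState =
      (fun i => (M i).initialState) := by
    rw [Function.update_eq_self_iff]
  simp only [Function.update_eq_self, List.append_nil, List.length_reverse,
    List.reverse_reverse] at h0 h1 h3 h4
  simp only [embC, Option.elim, hV] at h2
  have h5 := h0.trans (h1.trans (h2.trans (h3.trans h4)))
  refine RT.mono h5 (by omega)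

end

/-- A machine with Boolean input and output alphabets. -/
structure BMach where
  /-- the machine -/
  tm : FinTM2
  /-- input alphabet -/
  ain : tm.Γ tm.k₀ ≃ Bool
  /-- output alphabet -/
  aout : tm.Γ tm.k₁ ≃ Bool

/-- the machine `D` started on the bit string `w` halts with output `y` within `t` steps -/
def BMach.Out (D : BMach) (w y : List Bool) (t : ℕ) : Prop :=
  RT D.tm.m
    ⟨some D.tm.main, D.tm.initialState,
      Function.update (fun _ => []) D.tm.k₀ (w.map D.ain.symm)⟩
    ⟨none, D.tm.initialState,
      Function.update (fun _ => []) D.tm.k₁ (y.map D.aout.symm)⟩ t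

theorem BMach.Out.mono {D : BMach} {w y : List Bool} {t t' : ℕ} (h : D.Out w y t) (ht : t ≤ t') :
    D.Out w y t' := RT.mono h ht

/-- The composition of a polynomial time function and a machine on a promise domain. -/
theorem comp_machine (F : List Bool → List Bool)
    (CF : TM2ComputableInPolyTime (Computability.encodingList Bool).encode
      (Computability.encodingList Bool).encode F)
    {S : Set (List Bool)} {g : S → Bool}
    (M : TM2ComputableInTime (fun x : S => x.1) Computability.encodeBool g) :
    ∃ D : BMach, ∀ (w : List Bool) (h : F w ∈ S),
      D.Out w [g ⟨F w, h⟩]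
        (CF.time.eval w.length + M.time (F w).length + 2 * w.length + 4 * (F w).length + 20) := by
  classical
  let MM : Bool → FinTM2 := fun b => bif b then M.tm else CF.tm
  let ain : ∀ i, (MM i).Γ (MM i).k₀ ≃ Bool := fun i =>
    match i with
    | true => M.inputAlphabet
    | false => CF.inputAlphabet
  let aout : ∀ i, (MM i).Γ (MM i).k₁ ≃ Bool := fun i =>
    match i with
    | true => M.outputAlphabet
    | false => CF.outputAlphabet
  let P : Prog Unit Bool := Prog.seq (Prog.call false ()) (Prog.call true ())
  refine ⟨⟨Comp.big MM ain aout P () (), Equiv.refl Bool, Equiv.refl Bool⟩, fun w h => ?_⟩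
  -- the first call
  have hM1 : RT (MM false).m
      ⟨some (MM false).main, (MM false).initialState,
        Function.update (fun _ => []) (MM false).k₀ (w.map (ain false).symm)⟩
      ⟨none, (MM false).initialState,
        Function.update (fun _ => []) (MM false).k₁ ((F w).map (aout false).symm)⟩
      (CF.time.eval w.length) := by
    obtain ⟨⟨n, h2⟩, h3⟩ := CF.outputsFun w
    rw [Comp.initList_eq] at h2
    refine ⟨n, h3, ?_⟩
    refine h2.trans ?_
    simp only [Option.map_some]
    rw [Comp.haltList_eq]
    rfl
  have hM2 : RT (MM true).m
      ⟨some (MM true).main, (MM true).initialState,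
        Function.update (fun _ => []) (MM true).k₀ ((F w).map (ain true).symm)⟩
      ⟨none, (MM true).initialState,
        Function.update (fun _ => []) (MM true).k₁ (([g ⟨F w, h⟩]).map (aout true).symm)⟩
      (M.time (F w).length) := by
    obtain ⟨⟨n, h2⟩, h3⟩ := M.outputsFun ⟨F w, h⟩
    rw [Comp.initList_eq] at h2
    refine ⟨n, h3, ?_⟩
    refine h2.trans ?_
    simp only [Option.map_some]
    rw [Comp.haltList_eq]
    rfl
  have hS : (Function.update (single () w) () (F w) : Unit → List Bool) = fun _ => F w := by
    funext x; simp
  have c1 := call_run (M := MM) (K := Unit) (ain := ain) (aout := aout) false () (single () w) (F w)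
    (CF.time.eval w.length) (by simpa [single] using hM1)
    (Comp.big MM ain aout P () ()).m (fun l => some (.inl l))
    (some (.inr (start MM (Prog.call true () : Prog Unit Bool)))) (fun l => rfl)
  have c2 := call_run (M := MM) (K := Unit) (ain := ain) (aout := aout) true ()
    (Function.update (single () w) () (F w)) [g ⟨F w, h⟩]
    (M.time (F w).length) (by simpa [single] using hM2)
    (Comp.big MM ain aout P () ()).m (fun l => some (.inr l)) none (fun l => rfl)
  have c3 := c1.trans (c2.trans (Comp.RT.step (c' := ⟨none, Comp.s0 MM,
    Comp.st MM (Function.update (Function.update (single () w) () (F w)) () [g ⟨F w, h⟩]) []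
      (fun _ _ => [])⟩) rfl))
  have e0 : (Function.update (Function.update (single () w) () (F w)) () [g ⟨F w, h⟩] :
      Unit → List Bool) = single () [g ⟨F w, h⟩] := by
    funext x; simp [single]
  have l1 : (single () w ()).length = w.length := by simp [single]
  have l2 : (Function.update (single () w) () (F w) ()).length = (F w).length := by simp
  rw [e0, l1, l2] at c3
  have e1 : List.map (Equiv.refl Bool).symm w = w := List.map_id w
  have e2 : List.map (Equiv.refl Bool).symm [g ⟨F w, h⟩] = [g ⟨F w, h⟩] := List.map_id _
  have i1 := Comp.init_eq MM ain aout P () () w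
  have i2 := Comp.halt_eq MM ain aout P () () [g ⟨F w, h⟩]
  have i1' := (Comp.initList_eq (Comp.big MM ain aout P () ()) w).symm.trans i1
  have i2' := (Comp.haltList_eq (Comp.big MM ain aout P () ()) [g ⟨F w, h⟩]).symm.trans i2
  obtain ⟨j, hj, h3⟩ := c3
  refine ⟨j, ?_, ?_⟩
  · refine hj.trans ?_
    simp only [List.length_cons, List.length_nil]
    omega
  · refine Eq.trans ?_ (h3.trans ?_)
    · refine congrArg _ (congrArg some ?_)
      refine Eq.trans ?_ i1'
      exact congrArg (fun x : List Bool => (⟨some (Comp.big MM ain aout P () ()).main,
        (Comp.big MM ain aout P () ()).initialState,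
        Function.update (fun _ => []) (Comp.big MM ain aout P () ()).k₀ x⟩ :
          (Comp.big MM ain aout P () ()).Cfg)) e1
    · refine congrArg some ?_
      refine Eq.trans i2'.symm ?_
      exact congrArg (fun x : List Bool => (⟨none,
        (Comp.big MM ain aout P () ()).initialState,
        Function.update (fun _ => []) (Comp.big MM ain aout P () ()).k₁ x⟩ :
          (Comp.big MM ain aout P () ()).Cfg)) e2.symm

end Crest.Agent.R290
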