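import Crest.Agent.R290.HComp
import Crest.Agent.R290.HCode

/-!
# Row 290, module H, part 3: the diagonalisation, from an abstract interface  (helper36)

`DiagData E` collects what the other modules provide for one convention (`E k n G H` is `JEquiv k G H`
or `SEquiv k G H`).  `diag` is the lower bound.
-/

set_option autoImplicit false

namespace Crest.Agent.R290

open Crest.Complexity Crest.Enc Crest.WLRefine Turing

/-- What the diagonalisation needs. -/
structure DiagData (E : ℕ → (n : ℕ) → (Fin n → Fin n → Bool) → (Fin n → Fin n → Bool) → Prop) where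
  /-- machine descriptions -/
  Desc : Type
  /-- `Acc d w t`: the machine `d` accepts the bit string `w` within `t` steps -/
  Acc : Desc → List Bool → ℕ → Prop
  /-- compilation of machines of the library, linear overhead -/
  compile : ∀ D : BMach, ∃ (d : Desc) (C : ℕ), ∀ (w : List Bool) (b : Bool) (t t' : ℕ),
    D.Out w [b] t → C * (t + w.length + 1) ≤ t' → (Acc d w t' ↔ b = true)
  /-- the instance: dimension `k`, machine `d`, number of vertices `n` (binary), base `A` (unary) -/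
  enc : ℕ → Desc → ℕ → ℕ → List Bool
  enc_len : ∀ k d, ∃ C, ∀ n A, (enc k d n A).length ≤ C * (A + n.size + 1)
  /-- the generator -/
  F : List Bool → List Bool
  hF : PolyTime F
  s : ℕ
  hs : 1 ≤ s
  q : ℕ
  hq : 1 ≤ q
  /-- number of address digits -/
  r : ℕ → ℕ
  k1 : ℕ
  hr : ∀ k ≥ k1, k ≤ q * r k + q
  good : ∀ k ≥ k1, ∀ d, ∃ A0, ∀ A ≥ A0, ∀ n, A ^ s ≤ n → n < (A + 1) ^ s →
    ∃ G H : Fin n → Fin n → Bool, SimpleConnDiamTwo G ∧ SimpleConnDiamTwo H ∧
      F (enc k d n A) = adjMatrixCode G ++ adjMatrixCode H ∧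
      (E k n G H ↔ ¬ Acc d (enc k d n A) (A ^ r k - 1))

/-! ### arithmetic -/

theorem poly_bound (p : Polynomial ℕ) (C : ℕ) :
    ∃ C', ∀ A ≥ 1, p.eval (C * A) ≤ C' * A ^ p.natDegree := by
  refine ⟨∑ i ∈ Finset.range (p.natDegree + 1), p.coeff i * C ^ i, fun A hA => ?_⟩
  rw [Polynomial.eval_eq_sum_range, Finset.sum_mul]
  refine Finset.sum_le_sum fun i hi => ?_
  rw [mul_pow, ← mul_assoc]
  refine Nat.mul_le_mul_left _ (Nat.pow_le_pow_right hA ?_)
  have := Finset.mem_range.1 hi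
  omega

theorem exists_root (s : ℕ) (hs : 1 ≤ s) (n A1 : ℕ) (hn : A1 ^ s ≤ n) :
    ∃ A ≥ A1, A ^ s ≤ n ∧ n < (A + 1) ^ s := by
  classical
  have hP : A1 ≤ n := by
    rcases Nat.eq_zero_or_pos A1 with h | h
    · omega
    · calc A1 = A1 ^ 1 := (pow_one _).symm
        _ ≤ A1 ^ s := Nat.pow_le_pow_right h hs
        _ ≤ n := hn
  refine ⟨Nat.findGreatest (fun A => A ^ s ≤ n) n, ?_, ?_, ?_⟩
  · exact Nat.le_findGreatest hP hn
  · exact Nat.findGreatest_spec (P := fun A => A ^ s ≤ n) hP hn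
  · by_contra h
    push Not at h
    have h2 : Nat.findGreatest (fun A => A ^ s ≤ n) n + 1 ≤ n := by
      calc Nat.findGreatest (fun A => A ^ s ≤ n) n + 1
          = (Nat.findGreatest (fun A => A ^ s ≤ n) n + 1) ^ 1 := (pow_one _).symm
        _ ≤ (Nat.findGreatest (fun A => A ^ s ≤ n) n + 1) ^ s :=
          Nat.pow_le_pow_right (by omega) hs
        _ ≤ n := h
    have h3 := Nat.le_findGreatest (P := fun A => A ^ s ≤ n) h2 h
    omega

/-- real power to natural power -/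
theorem T_bound (s : ℕ) (hs : 1 ≤ s) (q : ℕ) (hq : 1 ≤ q) (k A n T : ℕ) (hA : 2 ≤ A)
    (hn : n ≤ A ^ (2 * s)) (hT : (T : ℝ) < (n : ℝ) ^ ((1 / (8 * q * s : ℝ)) * k)) :
    T ≤ A ^ (k / (4 * q) + 1) := by
  have hs' : (0 : ℝ) < s := by exact_mod_cast hs
  have hq' : (0 : ℝ) < q := by exact_mod_cast hq
  have hA1 : (1 : ℝ) ≤ A := by
    have : (2 : ℝ) ≤ A := by exact_mod_cast hA
    linarith
  have h1 : (n : ℝ) ^ ((1 / (8 * q * s : ℝ)) * k) ≤
      ((A : ℝ) ^ (2 * s)) ^ ((1 / (8 * q * s : ℝ)) * k) := by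
    apply Real.rpow_le_rpow (by positivity)
    · exact_mod_cast hn
    · positivity
  have h2 : ((A : ℝ) ^ (2 * s)) ^ ((1 / (8 * q * s : ℝ)) * k) = (A : ℝ) ^ ((k : ℝ) / (4 * q)) := by
    rw [← Real.rpow_natCast (A : ℝ) (2 * s), ← Real.rpow_mul (by positivity)]
    congr 1
    push_cast
    field_simp
    ring
  have h3 : (k : ℝ) / (4 * q) ≤ ((k / (4 * q) + 1 : ℕ) : ℝ) := by
    rw [div_le_iff₀ (by positivity)]
    have h4 : k ≤ (k / (4 * q) + 1) * (4 * q) := by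
      have h5 := Nat.div_add_mod k (4 * q)
      have h6 := Nat.mod_lt k (show 0 < 4 * q by omega)
      nlinarith
    exact_mod_cast h4
  have h7 : (A : ℝ) ^ ((k : ℝ) / (4 * q)) ≤ (A : ℝ) ^ (k / (4 * q) + 1) := by
    rw [← Real.rpow_natCast (A : ℝ) (k / (4 * q) + 1)]
    exact Real.rpow_le_rpow_of_exponent_le hA1 h3
  have h8 : (T : ℝ) ≤ (A : ℝ) ^ (k / (4 * q) + 1) := by
    rw [h2] at h1
    linarith
  exact_mod_cast h8

/-- the number of steps of the diagonal machine is small -/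
theorem steps_bound (p : Polynomial ℕ) (s : ℕ) (hs : 1 ≤ s) (q : ℕ) (hq : 1 ≤ q) (k R : ℕ)
    (hR : k ≤ q * R + q)
    (hk : q * (p.natDegree + 1) + q * (4 * s + 2) + 8 * q ≤ k) (C1 C2 : ℕ) :
    ∃ A1, 2 ≤ A1 ∧ ∀ A ≥ A1, ∀ n : ℕ, A ^ s ≤ n → n < (A + 1) ^ s → ∀ (T L : ℕ),
      (T : ℝ) < (n : ℝ) ^ ((1 / (8 * q * s : ℝ)) * k) → L ≤ C1 * (A + n.size + 1) →
      C2 * (p.eval L + T + 2 * L + 4 * (2 * ((natCode n).length + n * n)) + 20 + L + 1) ≤
        A ^ R - 1 := by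
  obtain ⟨C4, hC4⟩ := poly_bound p (C1 * (2 * s + 2))
  refine ⟨C2 * (C4 + 1 + 3 * (C1 * (2 * s + 2)) + 61) + 2, by omega, ?_⟩
  intro A hA n hAn hnA T L hT hL
  have hA2 : 2 ≤ A := by omega
  have hAA : A + 1 ≤ A ^ 2 := by nlinarith
  have hn2 : n ≤ A ^ (2 * s) := by
    refine hnA.le.trans ?_
    rw [pow_mul]
    exact Nat.pow_le_pow_left hAA s
  have hsize : n.size ≤ (A + 1) * s := by
    rw [Nat.size_le, pow_mul]
    refine lt_of_lt_of_le hnA (Nat.pow_le_pow_left ?_ s)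
    exact (Nat.lt_two_pow_self).le
  have hL2 : L ≤ (C1 * (2 * s + 2)) * A := by
    refine hL.trans ?_
    rw [mul_assoc]
    refine Nat.mul_le_mul_left _ ?_
    nlinarith
  have hTb := T_bound s hs q hq k A n T hA2 hn2 hT
  have hp : p.eval L ≤ C4 * A ^ p.natDegree := (Crest.Agent.PolyT.poly_mono p hL2).trans
    (hC4 A (by omega))
  have hcode := length_natCode_le n
  -- the exponent
  have hq0 : 0 < q := hq
  have hR1 : p.natDegree + 4 * s + 10 ≤ R := by
    have : q * (p.natDegree + 4 * s + 11) ≤ q * (R + 1) := by nlinarith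
    have := Nat.le_of_mul_le_mul_left this hq0
    omega
  have hx : 4 * (k / (4 * q)) ≤ R + 1 := by
    have h5 := Nat.div_mul_le_self k (4 * q)
    have : q * (4 * (k / (4 * q))) ≤ q * (R + 1) := by nlinarith
    exact Nat.le_of_mul_le_mul_left this hq0
  obtain ⟨R', rfl⟩ : ∃ R', R = R' + 1 := ⟨R - 1, by omega⟩
  have hpow : ∀ e, e ≤ R' → A ^ e ≤ A ^ R' := fun e he => Nat.pow_le_pow_right (by omega) he
  have e1 : A ^ p.natDegree ≤ A ^ R' := hpow _ (by omega)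
  have e2 : A ^ (k / (4 * q) + 1) ≤ A ^ R' := hpow _ (by omega)
  have e3 : A ≤ A ^ R' := by
    calc A = A ^ 1 := (pow_one A).symm
      _ ≤ A ^ R' := hpow _ (by omega)
  have e4 : A ^ (2 * s) * A ^ (2 * s) ≤ A ^ R' := by
    rw [← pow_add]
    exact hpow _ (by omega)
  have e5 : 1 ≤ A ^ R' := Nat.one_le_pow _ _ (by omega)
  have e6 : A ^ (2 * s) ≤ A ^ R' := hpow _ (by omega)
  have hnn : n * n ≤ A ^ R' := (Nat.mul_le_mul hn2 hn2).trans e4
  have hn3 : n ≤ A ^ R' := hn2.trans e6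
  have f1 : p.eval L ≤ C4 * A ^ R' := hp.trans (Nat.mul_le_mul_left _ e1)
  have f2 : T ≤ A ^ R' := hTb.trans e2
  have f3 : L ≤ (C1 * (2 * s + 2)) * A ^ R' := hL2.trans (Nat.mul_le_mul_left _ e3)
  have hsum : p.eval L + T + 2 * L + 4 * (2 * ((natCode n).length + n * n)) + 20 + L + 1 ≤
      (C4 + 1 + 3 * (C1 * (2 * s + 2)) + 61) * A ^ R' := by
    nlinarith
  calc C2 * (p.eval L + T + 2 * L + 4 * (2 * ((natCode n).length + n * n)) + 20 + L + 1)
      ≤ C2 * ((C4 + 1 + 3 * (C1 * (2 * s + 2)) + 61) * A ^ R') := Nat.mul_le_mul_left _ hsum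
    _ ≤ A ^ (R' + 1) - 1 := by
      apply Nat.le_sub_of_add_le
      rw [pow_succ, ← mul_assoc]
      calc C2 * (C4 + 1 + 3 * (C1 * (2 * s + 2)) + 61) * A ^ R' + 1
          ≤ C2 * (C4 + 1 + 3 * (C1 * (2 * s + 2)) + 61) * A ^ R' + 2 * A ^ R' := by omega
        _ = (C2 * (C4 + 1 + 3 * (C1 * (2 * s + 2)) + 61) + 2) * A ^ R' := by ring
        _ ≤ A * A ^ R' := Nat.mul_le_mul_right _ hA
        _ = A ^ R' * A := by ring

/-! ### the lower bound -/

theorem diag {E : ℕ → (n : ℕ) → (Fin n → Fin n → Bool) → (Fin n → Fin n → Bool) → Prop}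
    (I : DiagData E) (Lang : ℕ → Set (List Bool))
    (hL : ∀ k n (G H : Fin n → Fin n → Bool), IsSimple G → IsSimple H →
      (adjMatrixCode G ++ adjMatrixCode H ∈ Lang k ↔ E k n G H)) :
    ∃ c : ℝ, 0 < c ∧ ∃ k₀ : ℕ, ∀ k ≥ k₀,
      (∀ (g : diamTwoPairCodes → Bool), (∀ x, x.1 ∈ Lang k ↔ g x = true) →
        ∀ M : TM2ComputableInTime (fun x : diamTwoPairCodes => x.1) Computability.encodeBool g,
          ∃ n₀ : ℕ, ∀ n ≥ n₀,
            (n : ℝ) ^ (c * k) ≤ M.time (2 * ((natCode n).length + n * n))) := by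
  classical
  obtain ⟨CF⟩ := I.hF
  have hs' : (0 : ℝ) < I.s := by exact_mod_cast I.hs
  have hq' : (0 : ℝ) < I.q := by exact_mod_cast I.hq
  refine ⟨1 / (8 * I.q * I.s : ℝ), by positivity,
    max I.k1 (I.q * (CF.time.natDegree + 1) + I.q * (4 * I.s + 2) + 8 * I.q), fun k hk g hg M => ?_⟩
  have hk1 : I.k1 ≤ k := le_trans (le_max_left _ _) hk
  have hk2 := le_trans (le_max_right _ _) hk
  obtain ⟨D, hD⟩ := comp_machine I.F CF M
  obtain ⟨d, C2, hd⟩ := I.compile D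
  obtain ⟨C1, hC1⟩ := I.enc_len k d
  obtain ⟨A1, hA1, hst⟩ := steps_bound CF.time I.s I.hs I.q I.hq k (I.r k) (I.hr k hk1) hk2 C1 C2
  obtain ⟨A0, hA0⟩ := I.good k hk1 d
  refine ⟨(max A0 A1) ^ I.s, fun n hn => ?_⟩
  by_contra hlt
  push Not at hlt
  obtain ⟨A, hA, hAn, hnA⟩ := exists_root I.s I.hs n _ hn
  obtain ⟨G, H, hG, hH, hFw, hE⟩ := hA0 A (le_trans (le_max_left _ _) hA) n hAn hnA
  set w := I.enc k d n A with hw
  have hmem : I.F w ∈ diamTwoPairCodes := ⟨n, G, H, hG, hH, hFw⟩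
  have hlen : (I.F w).length = 2 * ((natCode n).length + n * n) := by
    rw [hFw, List.length_append, length_adjMatrixCode, length_adjMatrixCode]
    ring
  have hout := hD w hmem
  have hT := hst A (le_trans (le_max_right _ _) hA) n hAn hnA
    (M.time (2 * ((natCode n).length + n * n))) w.length hlt (hC1 n A)
  have hacc := hd w _ _ (A ^ I.r k - 1) hout (by
    rw [hlen]
    exact hT)
  have h1 : I.F w ∈ Lang k ↔ E k n G H := by
    rw [hFw]
    exact hL k n G H hG.1 hH.1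
  have h2 := hg ⟨I.F w, hmem⟩
  simp only at h2
  rw [h1, hE, hacc] at h2
  exact (iff_not_self (a := g ⟨I.F w, hmem⟩ = true)) h2.symm

end Crest.Agent.R290
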