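import Crest.Agent.R290.HDiag

/-!
# Row 290, module H, part 4: S0435 from the two instances of the interface  (helper36)
-/

set_option autoImplicit false

namespace Crest.Agent.R290

open Crest.Complexity Crest.Enc Crest.WLRefine Turing

theorem S0435_of (IJ : DiagData fun k _ G H => JEquiv k G H)
    (IS : DiagData fun k _ G H => SEquiv k G H) :
    ∃ c : ℝ, 0 < c ∧ ∃ k₀ : ℕ, ∀ k ≥ k₀,
      (∀ (g : Crest.WLRefine.diamTwoPairCodes → Bool),
        (∀ x, x.1 ∈ Crest.WLRefine.jointEquivLang k ↔ g x = true) →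
        ∀ M : Turing.TM2ComputableInTime (fun x : Crest.WLRefine.diamTwoPairCodes => x.1)
            Computability.encodeBool g,
          ∃ n₀ : ℕ, ∀ n ≥ n₀,
            (n : ℝ) ^ (c * k) ≤ M.time (2 * ((Crest.Enc.natCode n).length + n * n))) ∧
      (∀ (g : Crest.WLRefine.diamTwoPairCodes → Bool),
        (∀ x, x.1 ∈ Crest.WLRefine.sepEquivLang k ↔ g x = true) →
        ∀ M : Turing.TM2ComputableInTime (fun x : Crest.WLRefine.diamTwoPairCodes => x.1)
            Computability.encodeBool g,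
          ∃ n₀ : ℕ, ∀ n ≥ n₀,
            (n : ℝ) ^ (c * k) ≤ M.time (2 * ((Crest.Enc.natCode n).length + n * n))) := by
  obtain ⟨c1, hc1, k1, h1⟩ := diag IJ jointEquivLang
    (fun k n G H hG hH => mem_jointEquivLang hG hH)
  obtain ⟨c2, hc2, k2, h2⟩ := diag IS sepEquivLang
    (fun k n G H hG hH => mem_sepEquivLang hG hH)
  refine ⟨min c1 c2, lt_min hc1 hc2, max k1 k2, fun k hk => ⟨fun g hg M => ?_, fun g hg M => ?_⟩⟩
  · obtain ⟨n₀, hn⟩ := h1 k (le_trans (le_max_left _ _) hk) g hg M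
    refine ⟨max n₀ 1, fun n hn' => le_trans ?_ (hn n (le_trans (le_max_left _ _) hn'))⟩
    have : (1 : ℝ) ≤ n := by exact_mod_cast le_trans (le_max_right _ _) hn'
    exact Real.rpow_le_rpow_of_exponent_le this
      (mul_le_mul_of_nonneg_right (min_le_left _ _) (by positivity))
  · obtain ⟨n₀, hn⟩ := h2 k (le_trans (le_max_right _ _) hk) g hg M
    refine ⟨max n₀ 1, fun n hn' => le_trans ?_ (hn n (le_trans (le_max_left _ _) hn'))⟩
    have : (1 : ℝ) ≤ n := by exact_mod_cast le_trans (le_max_right _ _) hn'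
    exact Real.rpow_le_rpow_of_exponent_le this
      (mul_le_mul_of_nonneg_right (min_le_right _ _) (by positivity))

/-- For S0439: a machine with an arbitrary bound at the length of `n`-vertex pairs. -/
theorem lower_of_time {k : ℕ} {Lang : ℕ → Set (List Bool)} {c : ℝ}
    (h : ∀ (g : diamTwoPairCodes → Bool), (∀ x, x.1 ∈ Lang k ↔ g x = true) →
        ∀ M : TM2ComputableInTime (fun x : diamTwoPairCodes => x.1) Computability.encodeBool g,
          ∃ n₀ : ℕ, ∀ n ≥ n₀,
            (n : ℝ) ^ (c * k) ≤ M.time (2 * ((natCode n).length + n * n)))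
    (g : diamTwoPairCodes → Bool) (hg : ∀ x, x.1 ∈ Lang k ↔ g x = true)
    (M : TM2ComputableInTime (fun x : diamTwoPairCodes => x.1) Computability.encodeBool g)
    (T : ℕ → ℕ) (hT : ∃ n₁, ∀ n ≥ n₁, M.time (2 * ((natCode n).length + n * n)) ≤ T n) :
    ∃ n₀ : ℕ, ∀ n ≥ n₀, (n : ℝ) ^ (c * k) ≤ T n := by
  obtain ⟨n₀, h0⟩ := h g hg M
  obtain ⟨n₁, h1⟩ := hT
  refine ⟨max n₀ n₁, fun n hn => (h0 n (le_trans (le_max_left _ _) hn)).trans ?_⟩
  exact_mod_cast h1 n (le_trans (le_max_right _ _) hn)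

end Crest.Agent.R290
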