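import Crest.Agent.R290.HDiag
import Crest.Agent.R290.E

/-!
# Row 290, module H, part 5: library machines as machine descriptions (from module E)  (helper36)
-/

set_option autoImplicit false

namespace Crest.Agent.R290

open Crest.Complexity Crest.Enc Crest.WLRefine Turing

/-- machine descriptions -/
def HDesc : Type := {M : SMD // SWF M}

/-- acceptance -/
def HAcc (d : HDesc) (w : List Bool) (t : ℕ) : Prop := SHalts d.1 (bitsOf w) t true

theorem BMach.outputs {D : BMach} {w : List Bool} {b : Bool} {t : ℕ} (h : D.Out w [b] t) :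
    Nonempty (TM2OutputsInTime D.tm (w.map D.ain.symm) (some [D.aout.symm b]) t) := by
  obtain ⟨j, hj, h⟩ := h
  refine ⟨⟨⟨j, ?_⟩, hj⟩⟩
  rw [Crest.Agent.PolyT.Comp.initList_eq]
  refine h.trans ?_
  simp only [Option.map_some]
  rw [Crest.Agent.PolyT.Comp.haltList_eq]
  rfl

theorem hcompile (D : BMach) : ∃ (d : HDesc) (C : ℕ), ∀ (w : List Bool) (b : Bool) (t t' : ℕ),
    D.Out w [b] t → C * (t + w.length + 1) ≤ t' → (HAcc d w t' ↔ b = true) := by
  obtain ⟨M, hM, C, h⟩ := exists_smd D.tm D.ain D.aout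
  refine ⟨⟨M, hM⟩, C, fun w b t t' ho ht => ?_⟩
  have h1 : SHalts M (bitsOf w) t' b :=
    (h w b t (BMach.outputs ho)).mono (le_trans (Nat.mul_le_mul_left _ (by omega)) ht)
  unfold HAcc
  constructor
  · intro h2
    exact h1.unique h2
  · rintro rfl
    exact h1

end Crest.Agent.R290
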