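import Crest.Agent.R290.Eqv
import Crest.Agent.R290.HSmd
import Crest.Agent.R290.HFinal

/-!
Row 290, module H, part 6 (helper63): the two instances of `DiagData`, and S0435.
-/
set_option autoImplicit false

namespace Crest.Agent.R290

open Crest.WLRefine Crest.Agent.PolyT Crest.Enc Crest.Complexity Crest.Agent.PolyT.PEnc

/-- instances: `k`, machine, `n`, `A` -/
abbrev HI : Type := Un × SMU × ℕ × Un

/-- parameters with `R = R k`, `δ = δ k` -/
def hpar (R δ : ℕ → ℕ) (a : HI) : GP :=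
  (a.2.1, (enc a).map Bool.toNat, a.2.2.2, ⟨R a.1.val⟩, ⟨δ a.1.val⟩)

def hn (a : HI) : Un := ⟨min a.2.2.1 ((a.2.2.2.val + 1) ^ 4)⟩

def hgen (R δ : ℕ → ℕ) (a : HI) : List Bool :=
  codePG (hpar R δ a, hn a) ++ codePH (hpar R δ a, hn a)

theorem pt_hpar (R δ : ℕ → ℕ) (hR : PT (fun u : Un => R u.val)) (hδ : PT (fun u : Un => δ u.val))
    (hR' : ∀ k, R k ≤ k) (hδ' : ∀ k, δ k ≤ k) : PT (hpar R δ) := by
  have h1 : PT (fun a : HI => a.1) := by fun_prop
  unfold hpar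
  refine PT.pair (by fun_prop) (PT.pair ?_ (PT.pair (by fun_prop) (PT.pair ?_ ?_)))
  · exact PT.map (PT.enc PT.id) (PT.comp (PT.of_finite Bool.toNat) (PT.snd PT.id))
  · exact PT.mkUn (PT.comp (g := fun u : Un => R u.val) (f := fun a : HI => a.1) hR h1)
      (PB.of_le (PB.unVal h1) fun a => hR' _)
  · exact PT.mkUn (PT.comp (g := fun u : Un => δ u.val) (f := fun a : HI => a.1) hδ h1)
      (PB.of_le (PB.unVal h1) fun a => hδ' _)

theorem pt_hn : PT hn := by
  have hb : PB (fun a : HI => (a.2.2.2.val + 1) ^ 4) :=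
    PB.pow (PB.add (PB.unVal (by fun_prop)) (PB.const 1)) 4
  unfold hn
  refine PT.mkUn (PT.natMin (by fun_prop) ?_) (PB.min_right hb)
  exact PT.natPow (by fun_prop) (PT.const 4) (PB.const 4)

theorem pt_hgen (R δ : ℕ → ℕ) (hR : PT (fun u : Un => R u.val)) (hδ : PT (fun u : Un => δ u.val))
    (hR' : ∀ k, R k ≤ k) (hδ' : ∀ k, δ k ≤ k) : PT (hgen R δ) := by
  have h := pt_hpar R δ hR hδ hR' hδ'
  have h2 : PT (fun a : HI => (hpar R δ a, hn a)) := PT.pair h pt_hn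
  exact PT.append (PT_codePG.comp h2) (PT_codePH.comp h2)

/-- the instance -/
def hinst (k : ℕ) (d : HDesc) (n A : ℕ) : HI := (⟨k⟩, mkSMU d.1, n, ⟨A⟩)

def henc (k : ℕ) (d : HDesc) (n A : ℕ) : List Bool := enc (hinst k d n A)

theorem henc_len (k : ℕ) (d : HDesc) : ∃ C, ∀ n A, (henc k d n A).length ≤ C * (A + n.size + 1) := by
  obtain ⟨D, hD⟩ : ∃ D, D = mkSMU d.1 := ⟨_, rfl⟩
  refine ⟨2 * k + 2 * sz D + 4, fun n A => ?_⟩
  have h : (henc k d n A).length = sz ((⟨k⟩, D, n, ⟨A⟩) : HI) := by rw [hD]; rfl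
  have h1 : sz ((⟨k⟩, D, n, ⟨A⟩) : HI) = 2 * k + 1 + (2 * sz D + 1 + (2 * n.size + 1 + A)) := by
    rw [sz_mk (⟨k⟩ : Un) (D, n, (⟨A⟩ : Un)), sz_mk D (n, (⟨A⟩ : Un)), sz_mk n (⟨A⟩ : Un), sz_un,
      sz_un, sz_nat]
  rw [h, h1]
  nlinarith [Nat.zero_le (n.size * k), Nat.zero_le (A * k), Nat.zero_le (n.size * sz D),
    Nat.zero_le (A * sz D)]

/-- two matrices with equal numbers of rows -/
theorem pair_cast {m m' n : ℕ} (h : m = n) (h' : m' = n) (G : Fin m → Fin m → Bool)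
    (H : Fin m' → Fin m' → Bool) : ∃ G' H' : Fin n → Fin n → Bool,
      adjMatrixCode G' = adjMatrixCode G ∧ adjMatrixCode H' = adjMatrixCode H ∧
      (SimpleConnDiamTwo G → SimpleConnDiamTwo G') ∧ (SimpleConnDiamTwo H → SimpleConnDiamTwo H') ∧
      (∀ k, JEquiv k G' H' ↔ JEquiv k G H) ∧ (∀ k, SEquiv k G' H' ↔ SEquiv k G H) := by
  subst h
  subst h'
  exact ⟨G, H, rfl, rfl, id, id, fun _ => Iff.rfl, fun _ => Iff.rfl⟩

theorem size_le_of_lt {n A s : ℕ} (h : n < (A + 1) ^ s) : n.size ≤ (A + 1) * s := by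
  rw [Nat.size_le, pow_mul]
  exact lt_of_lt_of_le h (Nat.pow_le_pow_left Nat.lt_two_pow_self.le s)

/-- everything about one instance -/
theorem hgood (R δ : ℕ → ℕ) (k : ℕ) (hR : 3 ≤ R k) (hδ : 1 ≤ δ k) (d : HDesc) :
    ∃ A0, ∀ A ≥ A0, ∀ n, A ^ 4 ≤ n → n < (A + 1) ^ 4 →
    ∃ G H : Fin n → Fin n → Bool, SimpleConnDiamTwo G ∧ SimpleConnDiamTwo H ∧
      hgen R δ (hinst k d n A) = adjMatrixCode G ++ adjMatrixCode H ∧
      (JEquiv (4 * R k + δ k) G H ↔ ¬ HAcc d (henc k d n A) (A ^ R k - 1)) ∧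
      (SEquiv (4 * R k + δ k + 1) G H ↔ ¬ HAcc d (henc k d n A) (A ^ R k - 1)) := by
  obtain ⟨C1, hC1⟩ := henc_len k d
  obtain ⟨C, hC⟩ := size_vlG (mkSMU d.1) (R k) (δ k)
  obtain ⟨K, hK⟩ : ∃ K, K = C * (8 * C1 + 2) ^ 2 := ⟨_, rfl⟩
  refine ⟨K + 8 * C1 + 2, fun A hA n hn1 hn2 => ?_⟩
  have hA2 : 2 ≤ A := by omega
  have hlen : (henc k d n A).length ≤ 8 * C1 * A := by
    refine (hC1 n A).trans ?_
    have h1 := size_le_of_lt hn2
    have h2 : A + n.size + 1 ≤ 8 * A := by omega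
    calc C1 * (A + n.size + 1) ≤ C1 * (8 * A) := Nat.mul_le_mul_left _ h2
      _ = 8 * C1 * A := by ring
  have hlt : (henc k d n A).length < A ^ R k := by
    have h1 : A ^ 2 ≤ A ^ R k := Nat.pow_le_pow_right (by omega) (by omega)
    have h2 : 8 * C1 * A < A ^ 2 := by nlinarith
    omega
  obtain ⟨p, hp⟩ : ∃ p, p = hpar R δ (hinst k d n A) := ⟨_, rfl⟩
  have hp' : p = (mkSMU d.1, bitsOf (henc k d n A), ⟨A⟩, ⟨R k⟩, ⟨δ k⟩) := hp
  have hgood : p.Good := by
    rw [hp']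
    refine ⟨d.2, ?_, hA2, ?_, hδ⟩
    · intro a ha
      obtain ⟨b, _, rfl⟩ := List.mem_map.1 ha
      have h2 : 2 ≤ d.1.2.2 := d.2.2.1
      have : b.toNat < 2 := by cases b <;> simp
      exact this.trans_le h2
    · show 1 ≤ R k
      omega
  have hgR : gR p = R k := by rw [hp']; rfl
  have hgm : gm p = 4 * R k + δ k := by rw [hp']; rfl
  have hsz : (vlG p).length + 1 ≤ n := by
    have h1 : (vlG p).length ≤ C * (A + (bitsOf (henc k d n A)).length + 1) ^ 2 := by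
      rw [hp']
      exact hC _ _
    have h2 : (bitsOf (henc k d n A)).length = (henc k d n A).length := List.length_map _
    rw [h2] at h1
    have h3 : A + (henc k d n A).length + 1 ≤ (8 * C1 + 2) * A := by nlinarith
    have h4 : (vlG p).length ≤ K * A ^ 2 := by
      refine h1.trans ?_
      rw [hK]
      calc C * (A + (henc k d n A).length + 1) ^ 2 ≤ C * ((8 * C1 + 2) * A) ^ 2 :=
            Nat.mul_le_mul_left _ (Nat.pow_le_pow_left h3 2)
        _ = _ := by ring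
    have h5 : K * A ^ 2 + 1 ≤ A ^ 4 := by
      have h6 : (K + 1) * A ^ 2 ≤ A ^ 4 := by
        have h7 : K + 1 ≤ A ^ 2 := by nlinarith
        calc (K + 1) * A ^ 2 ≤ A ^ 2 * A ^ 2 := Nat.mul_le_mul_right _ h7
          _ = A ^ 4 := by ring
      have h8 : 1 ≤ A ^ 2 := Nat.one_le_pow _ _ (by omega)
      nlinarith
    omega
  have hnn : hn (hinst k d n A) = ⟨n⟩ := by
    unfold hn hinst
    congr 1
    exact min_eq_left hn2.le
  have hder : GDer p ↔ HAcc d (henc k d n A) (A ^ R k - 1) := by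
    rw [GDer_iff hgood]
    · rw [hgR, hp']
      rfl
    · rw [hgR, hp']
      show (bitsOf (henc k d n A)).length < A ^ R k
      rw [bitsOf, List.length_map]
      exact hlt
  have hl1 : (plist (gpad (p, ⟨n⟩)) (vlG p)).length = n := by
    rw [length_plist]
    unfold gpad
    show (vlG p).length + (n - (vlG p).length - 1) + 1 = n
    omega
  have hl2 : (plist (gpad (p, ⟨n⟩)) (vlH p)).length = n := by
    rw [length_plist, ← length_vlG]
    unfold gpad
    show (vlG p).length + (n - (vlG p).length - 1) + 1 = n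
    omega
  obtain ⟨G, H, e1, e2, e3, e4, e5, e6⟩ := pair_cast hl1 hl2 (padG (p, ⟨n⟩)) (padH (p, ⟨n⟩))
  refine ⟨G, H, e3 (padG_diam _), e4 (padH_diam _), ?_, ?_, ?_⟩
  · rw [e1, e2]
    unfold hgen
    rw [hnn, ← hp]
    rfl
  · rw [e5, ← hgm, JEquiv_pad hgood, hder]
  · rw [e6, ← hgm, SEquiv_pad hgood, hder]

/-! ### the two instances -/

def RJ (k : ℕ) : ℕ := (k - 1) / 4
def dJ (k : ℕ) : ℕ := k - 4 * ((k - 1) / 4)
def RS (k : ℕ) : ℕ := (k - 2) / 4
def dS (k : ℕ) : ℕ := k - 1 - 4 * ((k - 2) / 4)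

theorem exists_hF (R δ : ℕ → ℕ) (hR : PT (fun u : Un => R u.val)) (hδ : PT (fun u : Un => δ u.val))
    (hR' : ∀ k, R k ≤ k) (hδ' : ∀ k, δ k ≤ k) :
    ∃ F : List Bool → List Bool, PolyTime F ∧ ∀ a, F (enc a) = hgen R δ a :=
  exists_raw (pt_hgen R δ hR hδ hR' hδ')

theorem hFJ : ∃ F : List Bool → List Bool, PolyTime F ∧ ∀ a, F (enc a) = hgen RJ dJ a :=
  exists_hF RJ dJ (by unfold RJ; fun_prop) (by unfold dJ; fun_prop)
    (fun k => by unfold RJ; omega) (fun k => by unfold dJ; omega)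

theorem hFS : ∃ F : List Bool → List Bool, PolyTime F ∧ ∀ a, F (enc a) = hgen RS dS a :=
  exists_hF RS dS (by unfold RS; fun_prop) (by unfold dS; fun_prop)
    (fun k => by unfold RS; omega) (fun k => by unfold dS; omega)

noncomputable def diagJ : DiagData fun k _ G H => JEquiv k G H where
  Desc := HDesc
  Acc := HAcc
  compile := hcompile
  enc := henc
  enc_len := henc_len
  F := hFJ.choose
  hF := hFJ.choose_spec.1
  s := 4
  hs := by norm_num
  q := 4
  hq := by norm_num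
  r := RJ
  k1 := 13
  hr := fun k hk => by unfold RJ; omega
  good := by
    intro k hk d
    obtain ⟨A0, h⟩ := hgood RJ dJ k (by unfold RJ; omega) (by unfold dJ; omega) d
    refine ⟨A0, fun A hA n h1 h2 => ?_⟩
    obtain ⟨G, H, e1, e2, e3, e4, _⟩ := h A hA n h1 h2
    refine ⟨G, H, e1, e2, ?_, ?_⟩
    · rw [← e3]
      exact hFJ.choose_spec.2 _
    · have hk' : 4 * RJ k + dJ k = k := by unfold RJ dJ; omega
      rw [hk'] at e4
      exact e4

noncomputable def diagS : DiagData fun k _ G H => SEquiv k G H where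
  Desc := HDesc
  Acc := HAcc
  compile := hcompile
  enc := henc
  enc_len := henc_len
  F := hFS.choose
  hF := hFS.choose_spec.1
  s := 4
  hs := by norm_num
  q := 5
  hq := by norm_num
  r := RS
  k1 := 14
  hr := fun k hk => by unfold RS; omega
  good := by
    intro k hk d
    obtain ⟨A0, h⟩ := hgood RS dS k (by unfold RS; omega) (by unfold dS; omega) d
    refine ⟨A0, fun A hA n h1 h2 => ?_⟩
    obtain ⟨G, H, e1, e2, e3, _, e4⟩ := h A hA n h1 h2
    refine ⟨G, H, e1, e2, ?_, ?_⟩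
    · rw [← e3]
      exact hFS.choose_spec.2 _
    · have hk' : 4 * RS k + dS k + 1 = k := by unfold RS dS; omega
      rw [hk'] at e4
      exact e4

end Crest.Agent.R290
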