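import Crest.Agent.R290.Eqv
import Crest.Prelude.Def_ExpTime

/-!
Row 290: EXP-hardness (S0436, S0437) from the module interfaces (helper85).
-/
set_option autoImplicit false

namespace Crest.Agent.R290

open Crest.WLRefine Crest.Agent.PolyT Crest.Enc Crest.Complexity

/-- a language in EXP is decided by a machine in normal form -/
theorem exists_smd_of_inEXP {A : Set (List Bool)} (hA : Crest.ExpTime.InEXP A) :
    ∃ (M : SMD) (k K : ℕ), SWF M ∧ ∀ w : List Bool, ∃ b : Bool, (w ∈ A ↔ b = true) ∧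
      ∀ N, w.length ^ k ≤ N → SHalts M (bitsOf w) (2 ^ (N + K) - 1) b := by
  obtain ⟨k, f, c, ⟨T, hT⟩, hf⟩ := hA
  obtain ⟨M, hM, C, hC⟩ := exists_smd T.tm T.inputAlphabet T.outputAlphabet
  obtain ⟨K, hK⟩ : ∃ K : ℕ, C * (2 * c + 1) + 1 ≤ 2 ^ K :=
    ⟨C * (2 * c + 1) + 1, (Nat.lt_two_pow_self).le⟩
  refine ⟨M, k, K, hM, fun w => ⟨f w, hf w, fun N hN => ?_⟩⟩
  have h1 := hC w (f w) (T.time w.length) ⟨T.outputsFun w⟩
  refine h1.mono ?_
  have h2 : T.time w.length ≤ c * 2 ^ (w.length ^ k) + c := hT _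
  have h3 : 2 ^ (w.length ^ k) ≤ 2 ^ N := Nat.pow_le_pow_right (by norm_num) hN
  have h4 : 1 ≤ 2 ^ N := Nat.one_le_two_pow
  have h5 : C * (T.time w.length + 1) ≤ C * (2 * c + 1) * 2 ^ N := by
    rw [mul_assoc]
    refine Nat.mul_le_mul_left _ ?_
    nlinarith
  have h6 : (C * (2 * c + 1) + 1) * 2 ^ N ≤ 2 ^ K * 2 ^ N := Nat.mul_le_mul_right _ hK
  rw [pow_add, mul_comm (2 ^ N) (2 ^ K)]
  rw [add_mul, one_mul] at h6
  omega

/-- the parameters of the reduction -/
def redP (M : SMD) (k K : ℕ) (w : List Bool) : GP :=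
  (mkSMU M, w.map Bool.toNat, ⟨2⟩, ⟨w.length ^ k + w.length + 1 + K⟩, ⟨1⟩)

theorem PT_redP (M : SMD) (k K : ℕ) : PT (redP M k K) := by
  unfold redP
  refine PT.pair (PT.const _) (PT.pair ?_ (PT.pair (PT.const _) (PT.pair ?_ (PT.const _))))
  · exact PT.map PT.id (PT.comp (PT.of_finite Bool.toNat) (PT.snd PT.id))
  · have hb : PB (fun w : List Bool => w.length) := PB.length_of_PT PT.id
    have hb' : PB (fun w : List Bool => w.length ^ k + w.length + 1 + K) :=
      (((hb.pow k).add hb).add (PB.const 1)).add (PB.const K)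
    refine PT.mkUn ?_ hb'
    have hl : PT (fun w : List Bool => w.length) := PT.length PT.id
    exact PT.natAdd (PT.natAdd (PT.natAdd (PT.natPow hl (PT.const k) (PB.const k)) hl)
      (PT.const 1)) (PT.const K)

theorem redP_good {M : SMD} (hM : SWF M) (k K : ℕ) (w : List Bool) : (redP M k K w).Good where
  wf := hM
  sym := by
    intro a ha
    obtain ⟨b, _, rfl⟩ := List.mem_map.1 ha
    have : b.toNat < 2 := by cases b <;> simp
    exact this.trans_le hM.2.1
  base := le_refl 2
  pos := by unfold gR redP; simp only []; omega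
  del := le_refl 1

theorem GDer_redP {M : SMD} (hM : SWF M) {k K : ℕ} {w : List Bool} {b : Bool}
    (h : ∀ N, w.length ^ k ≤ N → SHalts M (bitsOf w) (2 ^ (N + K) - 1) b) :
    GDer (redP M k K w) ↔ b = true := by
  have hR : gR (redP M k K w) = w.length ^ k + w.length + 1 + K := rfl
  rw [GDer_iff (redP_good hM k K w)]
  · have h1 : SHalts M (bitsOf w) (2 ^ (w.length ^ k + w.length + 1 + K) - 1) b :=
      h (w.length ^ k + w.length + 1) (by omega)
    constructor
    · intro h2
      exact h1.unique h2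
    · rintro rfl
      exact h1
  · rw [hR]
    change (w.map Bool.toNat).length < 2 ^ _
    rw [List.length_map]
    refine (Nat.lt_two_pow_self).trans_le (Nat.pow_le_pow_right (by norm_num) (by omega))

theorem PT_gm : PT gm := by
  unfold gm gR
  have h1 : PT (fun p : GP => p.2.2.2.1.val) := by fun_prop
  have h2 : PT (fun p : GP => p.2.2.2.2.val) := by fun_prop
  exact PT.natAdd (PT.natMul (PT.const 4) h1) h2

/-- the reduction for S0436 -/
def red36 (M : SMD) (k K : ℕ) (w : List Bool) : List Bool :=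
  natCode (gm (redP M k K w)) ++ codeG (redP M k K w) ++ codeH (redP M k K w)

theorem red36_pt (M : SMD) (k K : ℕ) : PolyTime (red36 M k K) := by
  apply PT.polyTime
  have h := PT_redP M k K
  exact PT.append (PT.append (PT.natCode (PT_gm.comp h)) (PT_codeG.comp h)) (PT_codeH.comp h)

theorem hard36 (L : Set (List Bool))
    (hL : ∀ p : GP, p.Good → (natCode (gm p) ++ codeG p ++ codeH p ∈ L ↔
      JEquiv (gm p) (matOf (vlG p) (gphG p)) (matOf (vlH p) (gphH p)))) :
    Crest.ExpTime.EXPHard L := by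
  intro A hA
  obtain ⟨M, k, K, hM, h⟩ := exists_smd_of_inEXP hA
  refine ⟨red36 (sflip M) k K, red36_pt _ _ _, fun w => ?_⟩
  obtain ⟨b, hb, hw⟩ := h w
  have hg := redP_good (sflip_wf hM) k K w
  have h2 := GDer_redP (sflip_wf hM) (k := k) (K := K) (w := w) (b := !b)
    (fun N hN => sflip_halts (hw N hN))
  unfold red36
  rw [hL _ hg, JEquiv_main hg, h2, hb]
  cases b <;> simp

theorem hard_varDim : Crest.ExpTime.EXPHard varDimEquivLang :=
  hard36 _ fun p hp => mem_varDimEquivLang (by have := gm_ge hp; omega) (matG_simple p)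
    (matH_simple p)

theorem hard_subcubic : Crest.ExpTime.EXPHard subcubicVarDimEquivLang :=
  hard36 _ fun p hp => mem_sub' (length_vlG p) (by have := gm_ge hp; omega) (vlG_pos p)
    (matG_subcubic hp) (matH_subcubic hp)

/-- an isomorphism of matrices along vertex lists gives one of the graphs -/
theorem iso_of_matOf {V W : Type} [DecidableEq V] [DecidableEq W] {adj : V → V → Bool}
    {adj' : W → W → Bool} {L : List V} {L' : List W} (hL : L.Nodup) (hLc : ∀ v, v ∈ L)
    (hL' : L'.Nodup) (hLc' : ∀ v, v ∈ L') (h : AdjIso (matOf L adj) (matOf L' adj')) :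
    ∃ e : V ≃ W, ∀ a b, adj' (e a) (e b) = adj a b := by
  obtain ⟨e, he⟩ := h
  let f : Fin L.length ≃ V := Equiv.ofBijective (fun i => L.get i)
    ⟨List.nodup_iff_injective_get.1 hL, fun v => List.get_of_mem (hLc v) |>.imp fun _ h => h⟩
  let g : Fin L'.length ≃ W := Equiv.ofBijective (fun i => L'.get i)
    ⟨List.nodup_iff_injective_get.1 hL', fun v => List.get_of_mem (hLc' v) |>.imp fun _ h => h⟩
  refine ⟨f.symm.trans (e.trans g), fun a b => ?_⟩
  have h1 := he (f.symm a) (f.symm b)
  have h2 : ∀ i, L.get i = f i := fun _ => rfl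
  have h3 : ∀ i, L'.get i = g i := fun _ => rfl
  unfold matOf at h1
  rw [h2, h2, h3, h3, f.apply_symm_apply, f.apply_symm_apply] at h1
  exact h1

theorem adjIso_of {V : Type} [DecidableEq V] {adj : V → V → Bool} {L : List V} (hL : L.Nodup)
    (hLc : ∀ v, v ∈ L) {n : ℕ} {adj' : Fin n → Fin n → Bool} (e : V ≃ Fin n)
    (h : ∀ a b, adj' (e a) (e b) = adj a b) : AdjIso (matOf L adj) adj' := by
  let f : Fin L.length ≃ V := Equiv.ofBijective (fun i => L.get i)
    ⟨List.nodup_iff_injective_get.1 hL, fun v => List.get_of_mem (hLc v) |>.imp fun _ h => h⟩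
  exact ⟨f.trans e, fun a b => h _ _⟩

/-- matrix of a graph along a vertex list is equivalent to the graph -/
theorem JEq_matOf_right {V : Type} [Fintype V] [DecidableEq V] {adj : V → V → Bool} {L : List V}
    (hL : L.Nodup) (hLc : ∀ v, v ∈ L) (k : ℕ) : JEq k adj (matOf L adj) := by
  let f : Fin L.length ≃ V := Equiv.ofBijective (fun i => L.get i)
    ⟨List.nodup_iff_injective_get.1 hL, fun v => List.get_of_mem (hLc v) |>.imp fun _ h => h⟩
  refine JEq_of_iso f.symm fun a b => ?_
  have h2 : ∀ i, L.get i = f i := fun _ => rfl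
  unfold matOf
  rw [h2, h2, f.apply_symm_apply, f.apply_symm_apply]

theorem dim_main {p : GP} (hp : p.Good) (h8 : 8 ≤ gm p) :
    (∃ k', 1 ≤ k' ∧ k' ≤ gm p ∧ Identifies k' (matOf (vlG p) (gphG p))) ↔ GDer p := by
  have h5 := gm_ge hp
  constructor
  · rintro ⟨k', h1, h2, hid⟩
    by_contra hd
    have hJ : JEquiv (gm p) (matOf (vlG p) (gphG p)) (matOf (vlH p) (gphH p)) :=
      (JEquiv_main hp).2 hd
    have hW : WLEquiv k' (matOf (vlG p) (gphG p)) (matOf (vlH p) (gphH p)) := by
      unfold WLEquiv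
      split_ifs with hk
      · exact CREquiv_of_JEquiv (by omega) hJ
      · rw [jequiv_iff] at hJ ⊢
        exact hJ.mono h1 h2
    have h3 := hid _ _ (matH_simple p) hW
    obtain ⟨e, he⟩ := iso_of_matOf (vlist_nodup _ _) mem_vlist (vlist_nodup _ _) mem_vlist h3
    exact not_iso hp ⟨e, he⟩
  · intro hd
    refine ⟨gm p, by omega, le_refl _, fun n adj' hs hW => ?_⟩
    unfold WLEquiv at hW
    rw [if_neg (by omega), jequiv_iff] at hW
    obtain ⟨e, he⟩ := ident hp h8 hd adj'
      ((JEq_matOf_right (vlist_nodup _ _) mem_vlist _).trans' hW)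
    exact adjIso_of (vlist_nodup _ _) mem_vlist e he

/-- the reduction for S0437 -/
def red37 (M : SMD) (k K : ℕ) (w : List Bool) : List Bool :=
  natCode (gm (redP M k K w)) ++ codeG (redP M k K w)

theorem red37_pt (M : SMD) (k K : ℕ) : PolyTime (red37 M k K) := by
  apply PT.polyTime
  have h := PT_redP M k K
  exact PT.append (PT.natCode (PT_gm.comp h)) (PT_codeG.comp h)

theorem hard_wlDim : Crest.ExpTime.EXPHard wlDimLeLang := by
  intro A hA
  obtain ⟨M, k, K, hM, h⟩ := exists_smd_of_inEXP hA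
  refine ⟨red37 M k (K + 1), red37_pt _ _ _, fun w => ?_⟩
  obtain ⟨b, hb, hw⟩ := h w
  have hg := redP_good hM k (K + 1) w
  have h2 := GDer_redP hM (k := k) (K := K + 1) (w := w) (b := b) (fun N hN => by
    have h3 := hw (N + 1) (by omega)
    rwa [show N + 1 + K = N + (K + 1) by ring] at h3)
  have h8 : 8 ≤ gm (redP M k (K + 1) w) := by
    unfold gm gR redP
    simp only []
    omega
  unfold red37 codeG
  rw [mem_wlDimLeLang (by have := gm_ge hg; omega) (vlG_pos _) (matG_simple _), dim_main hg h8,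
    h2, hb]

end Crest.Agent.R290
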