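import Crest.Agent.R290.IDefs

/-!
Row 290, MODULE I, part 3 (helper60): simulation and size bound.
-/
set_option autoImplicit false

namespace Crest.Agent.R290I

open Crest.Agent.PolyT Crest.WordRAM

/-! ### bitwise operations -/

theorem testBit_ofBits (l : List Bool) : ∀ i, (ofBits l).testBit i = l.getD i false := by
  induction l with
  | nil => intro i; simp
  | cons b l ih =>
    intro i
    have h : ofBits (b :: l) = Nat.bit b (ofBits l) := by
      rw [ofBits_cons, Nat.bit_val]; omega
    rw [h]
    cases i with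
    | zero => rw [Nat.testBit_bit_zero]; simp
    | succ i => rw [Nat.testBit_bit_succ, ih]; simp

theorem bitop_testBit (f : Bool → Bool → Bool) (hf : f false false = false) (a b i : ℕ) :
    (bitop f a b).testBit i = f (a.testBit i) (b.testBit i) := by
  unfold bitop
  rw [testBit_ofBits, List.getD_eq_getElem?_getD, List.getElem?_map]
  by_cases h : i < a.size + b.size
  · rw [List.getElem?_range h]
    simp only [Option.map_some, Option.getD_some]
    rw [Nat.testBit_eq_decide_div_mod_eq, Nat.testBit_eq_decide_div_mod_eq]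
  · rw [List.getElem?_eq_none (by simpa using h)]
    have ha : a.testBit i = false := by
      apply Nat.testBit_lt_two_pow
      exact (Nat.lt_size_self a).trans_le (Nat.pow_le_pow_right (by norm_num) (by omega))
    have hb : b.testBit i = false := by
      apply Nat.testBit_lt_two_pow
      exact (Nat.lt_size_self b).trans_le (Nat.pow_le_pow_right (by norm_num) (by omega))
    rw [ha, hb, hf]
    rfl

theorem bitop_and (a b : ℕ) : bitop (fun p q => p && q) a b = a &&& b := by
  apply Nat.eq_of_testBit_eq
  intro i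
  rw [bitop_testBit _ rfl, Nat.testBit_and]

theorem bitop_or (a b : ℕ) : bitop (fun p q => p || q) a b = a ||| b := by
  apply Nat.eq_of_testBit_eq
  intro i
  rw [bitop_testBit _ rfl, Nat.testBit_or]

theorem bitop_xor (a b : ℕ) : bitop (fun p q => Bool.xor p q) a b = a ^^^ b := by
  apply Nat.eq_of_testBit_eq
  intro i
  rw [bitop_testBit _ rfl, Nat.testBit_xor]

/-! ### registers and memory -/

theorem length_setL (l : List ℕ) (i v : ℕ) (h : i < l.length) : (setL l i v).length = l.length := by
  unfold setL
  simp only [List.length_append, List.length_take, List.length_cons, List.length_drop]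
  omega

theorem getD_setL (l : List ℕ) (i v j : ℕ) (h : i < l.length) :
    (setL l i v).getD j 0 = if j = i then v else l.getD j 0 := by
  have e : setL l i v = l.set i v := by
    unfold setL
    rw [List.set_eq_take_append_cons_drop, if_pos h]
  rw [e, List.getD_eq_getElem?_getD, List.getElem?_set, List.getD_eq_getElem?_getD]
  by_cases hj : j = i
  · subst hj; simp [h]
  · simp [hj, Ne.symm hj]

theorem mem_setL {l : List ℕ} {i v u : ℕ} (h : u ∈ setL l i v) : u = v ∨ u ∈ l := by
  unfold setL at h
  rw [List.mem_append, List.mem_cons] at h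
  rcases h with h | h | h
  · exact Or.inr (List.mem_of_mem_take h)
  · exact Or.inl h
  · exact Or.inr (List.mem_of_mem_drop h)

theorem memR_nil (w : ℕ) (x : List Bool) (a : ℕ) :
    memR w x [] a = ((x.map fun b => if b then 1 else 0)[a]?.getD 0) % 2 ^ w := by
  unfold memR
  simp only [List.filter_nil, List.head?_nil, Option.elim_none, List.getElem?_map,
    List.getD_eq_getElem?_getD]
  congr 1
  cases x[a]? with
  | none => simp
  | some b => cases b <;> simp

theorem memR_cons (w : ℕ) (x : List Bool) (wr : List (ℕ × ℕ)) (u v a : ℕ) :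
    memR w x ((u, v) :: wr) a = if a = u then v else memR w x wr a := by
  unfold memR
  by_cases h : a = u
  · subst h
    simp
  · have h' : ¬ (u = a) := fun e => h e.symm
    simp [h, h']

theorem memR_lt (w : ℕ) (x : List Bool) (wr : List (ℕ × ℕ)) (a : ℕ)
    (h : ∀ p ∈ wr, p.2 < 2 ^ w) : memR w x wr a < 2 ^ w := by
  have h0 : 0 < 2 ^ w := by positivity
  unfold memR
  cases ho : (wr.filter fun p => decide (p.1 = a)).head? with
  | none => exact Nat.mod_lt _ h0
  | some p =>
    have h1 := List.mem_of_mem_head? ho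
    exact h p (List.mem_filter.1 h1).1

/-! ### simulation -/

/-- the data state `s` represents the configuration `c` -/
structure Sim (P : Program) (w : ℕ) (x : List Bool) (c : Cfg P.numRegs) (s : DSt) : Prop where
  pc : s.1 = c.pc
  halted : s.2.1 = c.halted
  len : s.2.2.1.length = P.numRegs
  regs : ∀ j : Fin P.numRegs, s.2.2.1.getD j.val 0 = c.regs j
  mem : ∀ a, memR w x s.2.2.2 a = c.mem a

theorem sim_write {P : Program} {w : ℕ} {x : List Bool} {c : Cfg P.numRegs} {s : DSt}
    (h : Sim P w x c s) (hh : c.halted = false) (d : Fin P.numRegs) (v v' : ℕ) (hv : v = v') (n : ℕ) :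
    Sim P w x { c with pc := c.pc + 1, regs := writeReg c.regs d v', drawn := n }
      (s.1 + 1, false, setL s.2.2.1 d.val v, s.2.2.2) := by
  subst hv
  have hd : d.val < s.2.2.1.length := by rw [h.len]; exact d.2
  refine ⟨?_, hh.symm, ?_, ?_, h.mem⟩
  · show s.1 + 1 = c.pc + 1
    rw [h.pc]
  · show (setL s.2.2.1 d.val v).length = _
    rw [length_setL _ _ _ hd, h.len]
  · intro j
    show (setL s.2.2.1 d.val v).getD j.val 0 = writeReg c.regs d v j
    rw [getD_setL _ _ _ _ hd, h.regs j]
    unfold writeReg
    by_cases hj : j = d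
    · subst hj; simp
    · have : ¬ (j.val = d.val) := fun e => hj (Fin.ext e)
      simp [hj, this]

theorem sim_jump {P : Program} {w : ℕ} {x : List Bool} {c : Cfg P.numRegs} {s : DSt}
    (h : Sim P w x c s) (hh : c.halted = false) (l l' : ℕ) (hl : l = l') :
    Sim P w x { c with pc := l' } (l, false, s.2.2.1, s.2.2.2) := by
  subst hl
  exact ⟨rfl, hh.symm, h.len, h.regs, h.mem⟩

theorem sim_step {P : Program} {w : ℕ} {x : List Bool} {c : Cfg P.numRegs} {s : DSt}
    (h : Sim P w x c s) :
    Sim P w x (step P w (fun _ => 0) c) (stepR (codeOf P) w x s) := by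
  unfold step stepR
  by_cases hh : c.halted = true
  · rw [if_pos hh, if_pos (h.halted.trans hh)]
    exact h
  · have hs : ¬ s.2.1 = true := fun e => hh (h.halted.symm.trans e)
    rw [if_neg hh, if_neg hs]
    have hf : c.halted = false := by simpa using hh
    have hc : (codeOf P)[s.1]? = (P.code[c.pc]?).map insOf := by
      unfold codeOf
      rw [List.getElem?_map, h.pc]
    rw [hc]
    rcases hi : P.code[c.pc]? with _ | ins
    · simp only [Option.map_none, Option.elim_none]
      exact ⟨h.pc, rfl, h.len, h.regs, h.mem⟩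
    · simp only [Option.map_some, Option.elim_some]
      cases ins with
      | const d v =>
        exact sim_write h hf d _ _ rfl _
      | copy d s' =>
        exact sim_write h hf d _ _ (h.regs s') _
      | add d a b =>
        refine sim_write h hf d _ _ ?_ _
        show ((s.2.2.1.getD a.val 0) + (s.2.2.1.getD b.val 0)) % 2 ^ w = _
        rw [h.regs a, h.regs b]
      | sub d a b =>
        refine sim_write h hf d _ _ ?_ _
        show (s.2.2.1.getD a.val 0) - (s.2.2.1.getD b.val 0) = _
        rw [h.regs a, h.regs b]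
      | mul d a b =>
        refine sim_write h hf d _ _ ?_ _
        show ((s.2.2.1.getD a.val 0) * (s.2.2.1.getD b.val 0)) % 2 ^ w = _
        rw [h.regs a, h.regs b]
      | quot d a b =>
        refine sim_write h hf d _ _ ?_ _
        show (s.2.2.1.getD a.val 0) / (s.2.2.1.getD b.val 0) = _
        rw [h.regs a, h.regs b]
      | rem d a b =>
        refine sim_write h hf d _ _ ?_ _
        show (s.2.2.1.getD a.val 0) % (s.2.2.1.getD b.val 0) = _
        rw [h.regs a, h.regs b]
      | and d a b =>
        refine sim_write h hf d _ _ ?_ _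
        show bitop (fun p q => p && q) (s.2.2.1.getD a.val 0) (s.2.2.1.getD b.val 0) = _
        rw [h.regs a, h.regs b, bitop_and]
      | or d a b =>
        refine sim_write h hf d _ _ ?_ _
        show bitop (fun p q => p || q) (s.2.2.1.getD a.val 0) (s.2.2.1.getD b.val 0) = _
        rw [h.regs a, h.regs b, bitop_or]
      | xor d a b =>
        refine sim_write h hf d _ _ ?_ _
        show bitop (fun p q => Bool.xor p q) (s.2.2.1.getD a.val 0) (s.2.2.1.getD b.val 0) = _
        rw [h.regs a, h.regs b, bitop_xor]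
      | shl d a b =>
        refine sim_write h hf d _ _ ?_ _
        show (if s.2.2.1.getD b.val 0 < w then
          (s.2.2.1.getD a.val 0 * 2 ^ (min (s.2.2.1.getD b.val 0) w)) % 2 ^ w else 0) = _
        rw [h.regs a, h.regs b]
        by_cases hb : c.regs b < w
        · rw [if_pos hb, if_pos hb, min_eq_left hb.le, Nat.shiftLeft_eq]
        · rw [if_neg hb, if_neg hb]
      | shr d a b =>
        refine sim_write h hf d _ _ ?_ _
        show (if s.2.2.1.getD b.val 0 < w then
          (s.2.2.1.getD a.val 0) / 2 ^ (min (s.2.2.1.getD b.val 0) w) else 0) = _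
        rw [h.regs a, h.regs b]
        by_cases hb : c.regs b < w
        · rw [if_pos hb, if_pos hb, min_eq_left hb.le, Nat.shiftRight_eq_div_pow]
        · rw [if_neg hb, if_neg hb]
      | load d a =>
        refine sim_write h hf d _ _ ?_ _
        show memR w x s.2.2.2 (s.2.2.1.getD a.val 0) = _
        rw [h.regs a, h.mem]
      | store s' a =>
        refine ⟨?_, hf.symm, h.len, h.regs, ?_⟩
        · show s.1 + 1 = c.pc + 1
          rw [h.pc]
        · intro u
          show memR w x ((s.2.2.1.getD a.val 0, s.2.2.1.getD s'.val 0) :: s.2.2.2) u =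
            writeMem c.mem (c.regs a) (c.regs s') u
          rw [memR_cons, h.regs a, h.regs s', h.mem]
          rfl
      | jump l =>
        exact sim_jump h hf _ _ rfl
      | jumpIfZero a l =>
        refine sim_jump h hf _ _ ?_
        show (if s.2.2.1.getD a.val 0 = 0 then l else s.1 + 1) = _
        rw [h.regs a, h.pc]
      | jumpIfEq a b l =>
        refine sim_jump h hf _ _ ?_
        show (if s.2.2.1.getD a.val 0 = s.2.2.1.getD b.val 0 then l else s.1 + 1) = _
        rw [h.regs a, h.regs b, h.pc]
      | jumpIfLt a b l =>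
        refine sim_jump h hf _ _ ?_
        show (if s.2.2.1.getD a.val 0 < s.2.2.1.getD b.val 0 then l else s.1 + 1) = _
        rw [h.regs a, h.regs b, h.pc]
      | rand d =>
        refine sim_write h hf d _ _ ?_ _
        show 0 = 0 % 2 ^ w
        rw [Nat.zero_mod]
      | halt =>
        exact ⟨h.pc, rfl, h.len, h.regs, h.mem⟩

/-! ### sizes -/

/-- bound for the program counter -/
def pcB (P : Program) : ℕ := P.code.length + ((codeOf P).map fun i => i.2.1).sum

/-- the invariant -/
structure Inv (P : Program) (w t : ℕ) (s : DSt) : Prop where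
  pc : s.1 ≤ pcB P
  len : s.2.2.1.length = P.numRegs
  regs : ∀ v ∈ s.2.2.1, v < 2 ^ w
  wlen : s.2.2.2.length ≤ t
  wr : ∀ p ∈ s.2.2.2, p.1 < 2 ^ w ∧ p.2 < 2 ^ w

theorem getD_lt {l : List ℕ} {B : ℕ} (h : ∀ v ∈ l, v < B) (hB : 0 < B) (i : ℕ) :
    l.getD i 0 < B := by
  rw [List.getD_eq_getElem?_getD]
  rcases hi : l[i]? with _ | v
  · simpa using hB
  · exact h v (List.mem_of_getElem? hi)

theorem valR_lt (w : ℕ) (x : List Bool) (wr : List (ℕ × ℕ)) (op b A B : ℕ)
    (hA : A < 2 ^ w) (hB : B < 2 ^ w) (h : ∀ p ∈ wr, p.2 < 2 ^ w) :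
    valR w x wr op b A B < 2 ^ w := by
  have h0 : 0 < 2 ^ w := by positivity
  unfold valR
  by_cases c0 : op = 0
  · rw [if_pos c0]; exact Nat.mod_lt _ h0
  rw [if_neg c0]
  by_cases c1 : op = 1
  · rw [if_pos c1]; exact hA
  rw [if_neg c1]
  by_cases c2 : op = 2
  · rw [if_pos c2]; exact Nat.mod_lt _ h0
  rw [if_neg c2]
  by_cases c3 : op = 3
  · rw [if_pos c3]; omega
  rw [if_neg c3]
  by_cases c4 : op = 4
  · rw [if_pos c4]; exact Nat.mod_lt _ h0
  rw [if_neg c4]
  by_cases c5 : op = 5
  · rw [if_pos c5]; exact (Nat.div_le_self _ _).trans_lt hA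
  rw [if_neg c5]
  by_cases c6 : op = 6
  · rw [if_pos c6]; exact (Nat.mod_le _ _).trans_lt hA
  rw [if_neg c6]
  by_cases c7 : op = 7
  · rw [if_pos c7, bitop_and]; exact Nat.and_lt_two_pow _ hB
  rw [if_neg c7]
  by_cases c8 : op = 8
  · rw [if_pos c8, bitop_or]; exact Nat.or_lt_two_pow hA hB
  rw [if_neg c8]
  by_cases c9 : op = 9
  · rw [if_pos c9, bitop_xor]; exact Nat.xor_lt_two_pow hA hB
  rw [if_neg c9]
  by_cases c10 : op = 10
  · rw [if_pos c10]
    by_cases hb : B < w
    · rw [if_pos hb]; exact Nat.mod_lt _ h0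
    · rw [if_neg hb]; exact h0
  rw [if_neg c10]
  by_cases c11 : op = 11
  · rw [if_pos c11]
    by_cases hb : B < w
    · rw [if_pos hb]; exact (Nat.div_le_self _ _).trans_lt hA
    · rw [if_neg hb]; exact h0
  rw [if_neg c11]
  by_cases c12 : op = 12
  · rw [if_pos c12]; exact memR_lt w x wr _ h
  rw [if_neg c12]
  exact h0

theorem inv_step {P : Program} {w t : ℕ} {x : List Bool} {s : DSt} (h : Inv P w t s)
    (hreg : ∀ i ∈ codeOf P, i.1 ≤ 13 → i.2.1 < P.numRegs) :
    Inv P w (t + 1) (stepR (codeOf P) w x s) := by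
  have h0 : 0 < 2 ^ w := by positivity
  unfold stepR
  split_ifs with hh
  · exact ⟨h.pc, h.len, h.regs, h.wlen.trans (Nat.le_succ _), h.wr⟩
  · rcases hi : (codeOf P)[s.1]? with _ | i
    · exact ⟨h.pc, h.len, h.regs, h.wlen.trans (Nat.le_succ _), h.wr⟩
    · simp only [Option.elim_some]
      have hmem : i ∈ codeOf P := List.mem_of_getElem? hi
      have hlt : s.1 < P.code.length := by
        have := (List.getElem?_eq_some_iff.1 hi).1
        unfold codeOf at this
        simpa using this
      have hpc1 : s.1 + 1 ≤ pcB P := by unfold pcB; omega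
      have hd : i.2.1 ≤ pcB P := by
        have : i.2.1 ≤ ((codeOf P).map fun i => i.2.1).sum :=
          List.single_le_sum (by simp) _ (List.mem_map.2 ⟨i, hmem, rfl⟩)
        unfold pcB; omega
      unfold execR
      split_ifs with h1 h2 h3
      · refine ⟨hpc1, ?_, ?_, h.wlen.trans (Nat.le_succ _), h.wr⟩
        · show (setL _ _ _).length = _
          rw [length_setL _ _ _ (by rw [h.len]; exact hreg i hmem h1), h.len]
        · intro v hv
          rcases mem_setL hv with hv | hv
          · rw [hv]
            exact valR_lt _ _ _ _ _ _ _ (getD_lt h.regs h0 _) (getD_lt h.regs h0 _)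
              fun p hp => (h.wr p hp).2
          · exact h.regs v hv
      · refine ⟨hpc1, h.len, h.regs, ?_, ?_⟩
        · show (_ :: s.2.2.2).length ≤ t + 1
          rw [List.length_cons]
          exact Nat.succ_le_succ h.wlen
        · intro p hp
          rcases List.mem_cons.1 hp with hp | hp
          · rw [hp]
            exact ⟨getD_lt h.regs h0 _, getD_lt h.regs h0 _⟩
          · exact h.wr p hp
      · refine ⟨?_, h.len, h.regs, h.wlen.trans (Nat.le_succ _), h.wr⟩
        show jmpR _ _ _ _ _ ≤ _
        unfold jmpR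
        split_ifs <;> assumption
      · exact ⟨h.pc, h.len, h.regs, h.wlen.trans (Nat.le_succ _), h.wr⟩

theorem sz_list_le {β : Type} [PEnc β] (l : List β) (B : ℕ) (h : ∀ b ∈ l, sz b ≤ B) :
    sz l ≤ l.length * (2 * B + 1) := by
  rw [sz_list]
  have := List.sum_le_card_nsmul (l.map fun a => 2 * sz a + 1) (2 * B + 1) (by
    intro v hv
    obtain ⟨a, ha, rfl⟩ := List.mem_map.1 hv
    have := h a ha
    omega)
  simpa using this

theorem codeOf_reg (P : Program) : ∀ i ∈ codeOf P, i.1 ≤ 13 → i.2.1 < P.numRegs := by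
  intro i hi h
  unfold codeOf at hi
  obtain ⟨ins, -, rfl⟩ := List.mem_map.1 hi
  cases ins <;> first
    | exact Fin.isLt _
    | (simp [insOf] at h)

theorem init_sim (P : Program) (w : ℕ) (x : List Bool) :
    Sim P w x (init P w (x.map fun b => if b then 1 else 0))
      (0, false, (x.length % 2 ^ w :: List.replicate P.numRegs 0).take P.numRegs, []) := by
  refine ⟨rfl, rfl, ?_, ?_, fun a => memR_nil w x a⟩
  · simp
  · intro j
    have hj := j.2
    show ((x.length % 2 ^ w :: List.replicate P.numRegs 0).take P.numRegs).getD j.val 0 =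
      if j.val = 0 then (x.map fun b => if b then 1 else 0).length % 2 ^ w else 0
    rw [List.getD_eq_getElem?_getD, List.getElem?_take, if_pos hj, List.length_map]
    rcases Nat.eq_zero_or_pos j.val with h | h
    · rw [h]; simp
    · obtain ⟨m, hm⟩ : ∃ m, j.val = m + 1 := ⟨j.val - 1, by omega⟩
      rw [hm, List.getElem?_cons_succ, List.getElem?_replicate, if_neg (Nat.succ_ne_zero m)]
      split_ifs <;> rfl

theorem init_inv (P : Program) (w : ℕ) (x : List Bool) :
    Inv P w 0 (0, false, (x.length % 2 ^ w :: List.replicate P.numRegs 0).take P.numRegs, []) := by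
  have h0 : 0 < 2 ^ w := by positivity
  refine ⟨Nat.zero_le _, by simp, ?_, le_refl _, by simp⟩
  intro v hv
  have h1 := List.mem_of_mem_take hv
  rcases List.mem_cons.1 h1 with h1 | h1
  · rw [h1]; exact Nat.mod_lt _ h0
  · rw [List.eq_of_mem_replicate h1]; exact h0

/-- iterating the universal step -/
theorem rstep_iterate (e : (List DIns × Un) × List Bool) (s : DSt) (t : ℕ) :
    rstep^[t] (e, s) = (e, (stepR e.1.1 e.1.2.val e.2)^[t] s) := by
  induction t with
  | zero => rfl
  | succ t ih =>
    rw [Function.iterate_succ_apply', ih, Function.iterate_succ_apply']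
    rfl

theorem output_iff {P : Program} {w : ℕ} {x : List Bool} {c : Cfg P.numRegs} {s : DSt}
    (h : Sim P w x c s) :
    (s.2.2.1.getD 0 0 = 1 ∧ memR w x s.2.2.2 (s.2.2.1.getD 1 0) = 1) ↔ c.output = [1] := by
  have hr : ∀ k, s.2.2.1.getD k 0 = c.reg k := by
    intro k
    unfold Cfg.reg
    split_ifs with hk
    · exact h.regs ⟨k, hk⟩
    · rw [List.getD_eq_getElem?_getD, List.getElem?_eq_none (by rw [h.len]; omega)]
      rfl
  rw [hr, hr, h.mem]
  unfold Cfg.output
  constructor
  · rintro ⟨h1, h2⟩
    rw [h1]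
    simp [h2]
  · intro h1
    have h2 : c.reg 0 = 1 := by
      have := congrArg List.length h1
      simpa using this
    refine ⟨h2, ?_⟩
    rw [h2] at h1
    simpa using h1

/-- simulation of the word RAM (random words 0) and the size of the states -/
theorem ram_sim (P : Program) (c₀ : ℕ) : ∃ KP : ℕ, ∀ (x : List Bool) (t : ℕ),
    (rhalt (rstep^[t] (rsetup ((codeOf P, ⟨P.numRegs⟩, ⟨c₀⟩), x))) =
      (run P (wlen c₀ x) (fun _ => 0) (x.map fun b => if b then 1 else 0) t).halted) ∧
    (rans (rstep^[t] (rsetup ((codeOf P, ⟨P.numRegs⟩, ⟨c₀⟩), x))) = true ↔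
      (run P (wlen c₀ x) (fun _ => 0) (x.map fun b => if b then 1 else 0) t).output = [1]) ∧
    sz (rstep^[t] (rsetup ((codeOf P, ⟨P.numRegs⟩, ⟨c₀⟩), x))) ≤
      KP * (x.length + 1 + (t + 1) * (wlen c₀ x + 1)) := by
  refine ⟨8 * sz (codeOf P) + 2 * pcB P + 4 * P.numRegs + 40, fun x t => ?_⟩
  set w := wlen c₀ x with hw
  have e0 : rsetup ((codeOf P, ⟨P.numRegs⟩, ⟨c₀⟩), x) = (((codeOf P, ⟨w⟩), x),
    (0, false, (x.length % 2 ^ w :: List.replicate P.numRegs 0).take P.numRegs, [])) := rfl
  rw [e0, rstep_iterate]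
  have hS : ∀ t, Sim P w x (run P w (fun _ => 0) (x.map fun b => if b then 1 else 0) t)
      ((stepR (codeOf P) w x)^[t]
        (0, false, (x.length % 2 ^ w :: List.replicate P.numRegs 0).take P.numRegs, [])) := by
    intro t
    induction t with
    | zero => exact init_sim P w x
    | succ t ih =>
      unfold run at ih ⊢
      rw [Function.iterate_succ_apply', Function.iterate_succ_apply']
      exact sim_step ih
  have hI : ∀ t, Inv P w t ((stepR (codeOf P) w x)^[t]
        (0, false, (x.length % 2 ^ w :: List.replicate P.numRegs 0).take P.numRegs, [])) := by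
    intro t
    induction t with
    | zero => exact init_inv P w x
    | succ t ih =>
      rw [Function.iterate_succ_apply']
      exact inv_step ih (codeOf_reg P)
  have h1 := hS t
  have h2 := hI t
  refine ⟨h1.halted, ?_, ?_⟩
  · rw [← output_iff h1]
    unfold rans
    rw [Bool.and_eq_true, decide_eq_true_iff, decide_eq_true_iff]
  · generalize (stepR (codeOf P) w x)^[t]
        (0, false, (x.length % 2 ^ w :: List.replicate P.numRegs 0).take P.numRegs, []) = s at h2
    have hx : sz x ≤ x.length * 3 := by
      have := sz_list_le x 1 (fun b _ => le_of_eq (sz_bool b))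
      simpa using this
    have hpc : sz s.1 ≤ pcB P := (sz_nat_le _).trans h2.pc
    have hregs : sz s.2.2.1 ≤ P.numRegs * (2 * w + 1) := by
      have := sz_list_le s.2.2.1 w (fun v hv => sz_nat_le_iff.2 (h2.regs v hv))
      rwa [h2.len] at this
    have hwr : sz s.2.2.2 ≤ t * (2 * (3 * w + 1) + 1) := by
      have := sz_list_le s.2.2.2 (3 * w + 1) (fun p hp => by
        have h3 := sz_nat_le_iff.2 (h2.wr p hp).1
        have h4 := sz_nat_le_iff.2 (h2.wr p hp).2
        rw [sz_prod]; omega)
      exact this.trans (Nat.mul_le_mul_right _ h2.wlen)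
    have hs : sz s = 2 * sz s.1 + 1 + (2 * 1 + 1 + (2 * sz s.2.2.1 + 1 + sz s.2.2.2)) := by
      rw [sz_prod, sz_prod, sz_prod, sz_bool]
    have ht : sz (((codeOf P, (⟨w⟩ : Un)), x), s) =
        2 * (2 * (2 * sz (codeOf P) + 1 + w) + 1 + sz x) + 1 + sz s := by
      rw [sz_mk, sz_mk, sz_mk, sz_un]
    rw [ht, hs]
    set Y := x.length + 1 + (t + 1) * (w + 1) with hY
    have y1 : 1 ≤ Y := by omega
    have y2 : w ≤ Y := by nlinarith
    have y3 : x.length ≤ Y := by omega
    have y4 : t * (w + 1) ≤ Y := by nlinarith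
    have z1 : sz (codeOf P) ≤ sz (codeOf P) * Y := Nat.le_mul_of_pos_right _ y1
    have z2 : pcB P ≤ pcB P * Y := Nat.le_mul_of_pos_right _ y1
    have z3 : P.numRegs * (2 * w + 1) ≤ 2 * (P.numRegs * Y) := by
      have : 2 * w + 1 ≤ 2 * Y := by nlinarith
      calc P.numRegs * (2 * w + 1) ≤ P.numRegs * (2 * Y) := Nat.mul_le_mul_left _ this
        _ = 2 * (P.numRegs * Y) := by ring
    have z4 : t * (2 * (3 * w + 1) + 1) ≤ 6 * Y := by nlinarith
    have e1 : (8 * sz (codeOf P) + 2 * pcB P + 4 * P.numRegs + 40) * Y =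
      8 * (sz (codeOf P) * Y) + 2 * (pcB P * Y) + 4 * (P.numRegs * Y) + 40 * Y := by ring
    rw [e1]
    omega

end Crest.Agent.R290I
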