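import Crest.Agent.R290.IRun
import Crest.Agent.R290.ISim
import Crest.Prelude.Def_WL

/-!
Row 290, MODULE I, part 6 (helper60): `ram_tm` (the arithmetic).
-/
set_option autoImplicit false

namespace Crest.Agent.R290I

open Crest.WLRefine Crest.Enc Crest.Agent.PolyT Turing

theorem eval_le (T : Polynomial ℕ) : ∃ A D : ℕ, ∀ n, T.eval n ≤ A * (n + 1) ^ D := by
  refine ⟨∑ i ∈ Finset.range (T.natDegree + 1), T.coeff i, T.natDegree, fun n => ?_⟩
  rw [Polynomial.eval_eq_sum_range, Finset.sum_mul]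
  refine Finset.sum_le_sum fun i hi => Nat.mul_le_mul_left _ ?_
  rw [Finset.mem_range] at hi
  exact (Nat.pow_le_pow_left (Nat.le_succ n) i).trans
    (Nat.pow_le_pow_right (Nat.succ_pos n) (by omega))

theorem eval_le_common (T T' : Polynomial ℕ) : ∃ A D : ℕ, (∀ n, T.eval n ≤ A * (n + 1) ^ D) ∧
    ∀ n, T'.eval n ≤ A * (n + 1) ^ D := by
  obtain ⟨A, D, h⟩ := eval_le (T + T')
  refine ⟨A, D, fun n => ?_, fun n => ?_⟩
  · have := h n
    rw [Polynomial.eval_add] at this
    omega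
  · have := h n
    rw [Polynomial.eval_add] at this
    omega

theorem length_natCode' (n : ℕ) : (natCode n).length = 2 * n.size + 2 := by
  unfold natCode
  have : ∀ l : List Bool, ((l.map fun b => [true, b]).flatten).length = 2 * l.length := by
    intro l
    induction l with
    | nil => rfl
    | cons b l ih =>
      rw [List.map_cons, List.flatten_cons, List.length_append, ih]
      simp only [List.length_cons, List.length_nil]
      ring
  rw [List.length_append, this, Nat.size_eq_bits_len]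
  rfl

theorem length_adj {n : ℕ} (G : Fin n → Fin n → Bool) :
    (adjMatrixCode G).length = (natCode n).length + n * n := by
  unfold adjMatrixCode
  rw [List.length_append, List.length_flatMap]
  congr 1
  simp

theorem ell_inj {n m : ℕ}
    (h : 2 * ((natCode n).length + n * n) = 2 * ((natCode m).length + m * m)) : n = m := by
  rw [length_natCode', length_natCode'] at h
  rcases lt_trichotomy n m with h1 | h1 | h1
  · have h2 := Nat.size_le_size h1.le
    have h3 : n * n < m * m := Nat.mul_self_lt_mul_self h1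
    omega
  · exact h1
  · have h2 := Nat.size_le_size h1.le
    have h3 : m * m < n * n := Nat.mul_self_lt_mul_self h1
    omega

theorem run_halted (P : Crest.WordRAM.Program) (w : ℕ) (ρ : ℕ → ℕ) (input : List ℕ) (τ : ℕ)
    (h : (Crest.WordRAM.run P w ρ input τ).halted = true) (m : ℕ) :
    Crest.WordRAM.run P w ρ input (τ + m) = Crest.WordRAM.run P w ρ input τ := by
  induction m with
  | zero => rfl
  | succ m ih =>
    have : Crest.WordRAM.run P w ρ input (τ + (m + 1)) =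
        Crest.WordRAM.step P w ρ (Crest.WordRAM.run P w ρ input (τ + m)) := by
      unfold Crest.WordRAM.run
      rw [← Nat.add_assoc, Function.iterate_succ_apply']
    rw [this, ih]
    unfold Crest.WordRAM.step
    rw [if_pos h]

/-- arithmetic of the running time -/
theorem time_arith (A D KP c₀ s : ℕ) : ∃ K : ℕ, ∀ n Tn τ X w L : ℕ, τ ≤ Tn →
    X ≤ 4 * (n + 1) ^ 2 → w ≤ c₀ * (n + 2) → L ≤ KP * (X + 1 + (τ + 1) * (w + 1)) →
    6 * s + 20 + 2 * X + A * (2 * s + 1 + X + 1) ^ D + 2 * L +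
        (τ + 1) * (A * (L + 1 + 1) ^ D + 4 * L + 17) ≤ K * (n + Tn + 2) ^ (2 * D + 3) := by
  refine ⟨(6 * s + 28) + A * (2 * s + 6) ^ D + 2 * (KP * (c₀ + 6) + 2) +
    (A * (KP * (c₀ + 6) + 2) ^ D + 4 * (KP * (c₀ + 6) + 2) + 17), ?_⟩
  intro n Tn τ X w L hτ hX hw hL
  set N := n + Tn + 2 with hN
  have hN1 : 1 ≤ N := by omega
  have hX' : X ≤ 4 * N ^ 2 := hX.trans (Nat.mul_le_mul_left _ (Nat.pow_le_pow_left (by omega) 2))
  have hN2 : 1 ≤ N ^ 2 := Nat.one_le_pow _ _ hN1
  have hw' : w + 1 ≤ (c₀ + 1) * N := by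
    have : w ≤ c₀ * N := hw.trans (Nat.mul_le_mul_left _ (by omega))
    nlinarith
  have hτ' : τ + 1 ≤ N := by omega
  have hL' : L ≤ KP * (c₀ + 6) * N ^ 2 := by
    refine hL.trans ?_
    rw [mul_assoc]
    refine Nat.mul_le_mul_left _ ?_
    have : (τ + 1) * (w + 1) ≤ N * ((c₀ + 1) * N) := Nat.mul_le_mul hτ' hw'
    nlinarith
  set K1 := KP * (c₀ + 6) + 2 with hK1
  have hL1 : L + 1 + 1 ≤ K1 * N ^ 2 := by
    rw [hK1, add_mul]; omega
  have hL2 : L ≤ K1 * N ^ 2 := by omega
  have hX1 : 2 * s + 1 + X + 1 ≤ (2 * s + 6) * N ^ 2 := by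
    have : 2 * s ≤ 2 * s * N ^ 2 := Nat.le_mul_of_pos_right _ hN2
    rw [add_mul]; omega
  have e1 : (2 * s + 1 + X + 1) ^ D ≤ (2 * s + 6) ^ D * N ^ (2 * D + 3) := by
    calc (2 * s + 1 + X + 1) ^ D ≤ ((2 * s + 6) * N ^ 2) ^ D := Nat.pow_le_pow_left hX1 D
      _ = (2 * s + 6) ^ D * N ^ (2 * D) := by rw [mul_pow, ← pow_mul]
      _ ≤ _ := Nat.mul_le_mul_left _ (Nat.pow_le_pow_right hN1 (by omega))
  have e2 : N * (L + 1 + 1) ^ D ≤ K1 ^ D * N ^ (2 * D + 3) := by
    calc N * (L + 1 + 1) ^ D ≤ N * (K1 * N ^ 2) ^ D :=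
          Nat.mul_le_mul_left _ (Nat.pow_le_pow_left hL1 D)
      _ = K1 ^ D * N ^ (2 * D + 1) := by rw [mul_pow, ← pow_mul, pow_succ]; ring
      _ ≤ _ := Nat.mul_le_mul_left _ (Nat.pow_le_pow_right hN1 (by omega))
  set Z := N ^ (2 * D + 3) with hZ
  have z1 : 1 ≤ Z := Nat.one_le_pow _ _ hN1
  have z2 : N ^ 2 ≤ Z := Nat.pow_le_pow_right hN1 (by omega)
  have z3 : N * N ^ 2 ≤ Z := by
    rw [← pow_succ']
    exact Nat.pow_le_pow_right hN1 (by omega)
  have zN : N ≤ Z := by
    calc N = N ^ 1 := (pow_one _).symm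
      _ ≤ Z := Nat.pow_le_pow_right hN1 (by omega)
  have f1 : 6 * s + 20 + 2 * X ≤ (6 * s + 28) * Z := by
    have a1 : 6 * s ≤ 6 * s * Z := Nat.le_mul_of_pos_right _ z1
    have a2 : 2 * X ≤ 8 * Z := by omega
    rw [add_mul]; omega
  have f2 : A * (2 * s + 1 + X + 1) ^ D ≤ A * (2 * s + 6) ^ D * Z := by
    rw [mul_assoc]
    exact Nat.mul_le_mul_left _ e1
  have f3 : 2 * L ≤ 2 * K1 * Z := by
    rw [mul_assoc]
    exact Nat.mul_le_mul_left _ (hL2.trans (Nat.mul_le_mul_left _ z2))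
  have f4 : (τ + 1) * (A * (L + 1 + 1) ^ D + 4 * L + 17) ≤ (A * K1 ^ D + 4 * K1 + 17) * Z := by
    refine (Nat.mul_le_mul_right _ hτ').trans ?_
    have g1 : N * (A * (L + 1 + 1) ^ D) ≤ A * K1 ^ D * Z := by
      calc N * (A * (L + 1 + 1) ^ D) = A * (N * (L + 1 + 1) ^ D) := by ring
        _ ≤ A * (K1 ^ D * Z) := Nat.mul_le_mul_left _ e2
        _ = _ := by ring
    have g2 : N * (4 * L) ≤ 4 * K1 * Z := by
      calc N * (4 * L) ≤ N * (4 * (K1 * N ^ 2)) :=
            Nat.mul_le_mul_left _ (Nat.mul_le_mul_left _ hL2)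
        _ = 4 * K1 * (N * N ^ 2) := by ring
        _ ≤ _ := Nat.mul_le_mul_left _ z3
    have g3 : N * 17 ≤ 17 * Z := by omega
    calc N * (A * (L + 1 + 1) ^ D + 4 * L + 17) =
          N * (A * (L + 1 + 1) ^ D) + N * (4 * L) + N * 17 := by ring
      _ ≤ A * K1 ^ D * Z + 4 * K1 * Z + 17 * Z := by omega
      _ = _ := by ring
  calc 6 * s + 20 + 2 * X + A * (2 * s + 1 + X + 1) ^ D + 2 * L +
        (τ + 1) * (A * (L + 1 + 1) ^ D + 4 * L + 17)
      ≤ (6 * s + 28) * Z + A * (2 * s + 6) ^ D * Z + 2 * K1 * Z +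
        (A * K1 ^ D + 4 * K1 + 17) * Z := by omega
    _ = _ := by ring

/-- simulation of a word RAM program (random words all zero), loop until it has halted -/
theorem ram_tm : ∃ C : ℕ, ∀ (P : Crest.WordRAM.Program) (c₀ : ℕ), ∃ K : ℕ, ∀ (T : ℕ → ℕ)
    (g : diamTwoPairCodes → Bool),
    (∀ (n : ℕ) (G H : Fin n → Fin n → Bool) (x : diamTwoPairCodes),
      x.1 = adjMatrixCode G ++ adjMatrixCode H →
      (Crest.WordRAM.run P (c₀ * Nat.clog 2 (n + 2)) (fun _ => 0)
        (x.1.map fun b => if b then 1 else 0) (T n)).halted = true ∧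
      ((Crest.WordRAM.run P (c₀ * Nat.clog 2 (n + 2)) (fun _ => 0)
        (x.1.map fun b => if b then 1 else 0) (T n)).output = [1] ↔
        g x = true)) →
    ∃ M : TM2ComputableInTime (fun x : diamTwoPairCodes => x.1) Computability.encodeBool g,
      ∀ n, M.time (2 * ((natCode n).length + n * n)) ≤ K * (n + T n + 2) ^ C := by
  classical
  obtain ⟨T0, T1, hM⟩ := ram_machine
  obtain ⟨A, D, hA0, hA1⟩ := eval_le_common T0 T1
  refine ⟨2 * D + 3, fun P c₀ => ?_⟩
  obtain ⟨KP, hKP⟩ := ram_sim P c₀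
  set p : List DIns × Un × Un := (codeOf P, ⟨P.numRegs⟩, ⟨c₀⟩) with hp
  obtain ⟨K, hK⟩ := time_arith A D KP c₀ (sz p)
  refine ⟨K, fun T g h => ?_⟩
  let time : ℕ → ℕ := fun l => if hl : ∃ n, 2 * ((natCode n).length + n * n) = l then
    K * (hl.choose + T hl.choose + 2) ^ (2 * D + 3) else 0
  have htime : ∀ n, time (2 * ((natCode n).length + n * n)) = K * (n + T n + 2) ^ (2 * D + 3) := by
    intro n
    have hl : ∃ m, 2 * ((natCode m).length + m * m) = 2 * ((natCode n).length + n * n) := ⟨n, rfl⟩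
    have : hl.choose = n := ell_inj hl.choose_spec
    show (if hl : ∃ m, 2 * ((natCode m).length + m * m) = 2 * ((natCode n).length + n * n) then
      K * (hl.choose + T hl.choose + 2) ^ (2 * D + 3) else 0) = _
    rw [dif_pos hl, this]
  obtain ⟨M, hMt⟩ := hM p diamTwoPairCodes g time (fun x => by
    obtain ⟨n, G, H, -, -, hx⟩ := x.2
    obtain ⟨hh, ho⟩ := h n G H x hx
    have hlen : x.1.length = 2 * ((natCode n).length + n * n) := by
      rw [hx, List.length_append, length_adj, length_adj]; ring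
    have hw : wlen c₀ x.1 = c₀ * Nat.clog 2 (n + 2) := by
      unfold wlen
      rw [hx]
      unfold adjMatrixCode
      rw [List.append_assoc, readNat_natCode]
    have hex : ∃ t, (Crest.WordRAM.run P (c₀ * Nat.clog 2 (n + 2)) (fun _ => 0)
        (x.1.map fun b => if b then 1 else 0) t).halted = true := ⟨T n, hh⟩
    have hτT : Nat.find hex ≤ T n := Nat.find_min' hex hh
    refine ⟨Nat.find hex, KP * (x.1.length + 1 + (Nat.find hex + 1) * (wlen c₀ x.1 + 1)),
      ?_, ?_, ?_, ?_, ?_⟩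
    · intro t ht
      rw [(hKP x.1 t).1, hw]
      have := Nat.find_min hex ht
      simpa using this
    · rw [(hKP x.1 _).1, hw]
      exact Nat.find_spec hex
    · rw [Bool.eq_iff_iff, (hKP x.1 _).2.1, hw, ← ho]
      obtain ⟨m, hm⟩ := Nat.exists_eq_add_of_le hτT
      rw [hm, run_halted P _ _ _ _ (Nat.find_spec hex) m]
    · intro t ht
      refine ((hKP x.1 t).2.2).trans (Nat.mul_le_mul_left _ ?_)
      have : (t + 1) * (wlen c₀ x.1 + 1) ≤ (Nat.find hex + 1) * (wlen c₀ x.1 + 1) :=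
        Nat.mul_le_mul_right _ (by omega)
      omega
    · rw [hlen, htime n]
      have hX : 2 * ((natCode n).length + n * n) ≤ 4 * (n + 1) ^ 2 := by
        rw [length_natCode']
        have h1 : n.size ≤ n := by rw [Nat.size_le]; exact Nat.lt_two_pow_self
        nlinarith
      have hw2 : wlen c₀ x.1 ≤ c₀ * (n + 2) := by
        rw [hw]
        refine Nat.mul_le_mul_left _ ?_
        rw [clog_eq_size, Nat.size_le]
        exact Nat.lt_two_pow_self.trans (Nat.pow_lt_pow_right (by norm_num) (by omega))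
      have h1 := hK n (T n) (Nat.find hex) (2 * ((natCode n).length + n * n)) (wlen c₀ x.1)
        (KP * (2 * ((natCode n).length + n * n) + 1 + (Nat.find hex + 1) * (wlen c₀ x.1 + 1)))
        hτT hX hw2 (le_refl _)
      refine le_trans (add_le_add (add_le_add (add_le_add le_rfl (hA0 _)) le_rfl)
        (Nat.mul_le_mul_left _ (add_le_add (add_le_add (hA1 _) le_rfl) le_rfl))) h1)
  exact ⟨M, fun n => by rw [hMt, htime]⟩

end Crest.Agent.R290I
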