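import Crest.Prelude.Def_WL
import Crest.Agent.R290.IFin
import Crest.Prelude.Def_WordRAM
import Crest.Prelude.Def_BitEnc

/-!
Row 290, MODULE I (word RAM to multi-stack machines): interface statement (architects helper67,
helper60) and the deduction of S0439 from S0435 (helper85).
`C` must not depend on the program: use ONE polynomial time step function with the program as data.
-/
set_option autoImplicit false

namespace Crest.Agent.R290

open Crest.WLRefine Crest.Enc Turing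

/-- the input words of a code -/
def ramInput (w : List Bool) : List ℕ := w.map fun b => if b then 1 else 0

/-- simulation of a word RAM program (random words all zero), loop until it has halted -/
theorem ram_tm : ∃ C : ℕ, ∀ (P : Crest.WordRAM.Program) (c₀ : ℕ), ∃ K : ℕ, ∀ (T : ℕ → ℕ)
    (g : diamTwoPairCodes → Bool),
    (∀ (n : ℕ) (G H : Fin n → Fin n → Bool) (x : diamTwoPairCodes),
      x.1 = adjMatrixCode G ++ adjMatrixCode H →
      (Crest.WordRAM.run P (c₀ * Nat.clog 2 (n + 2)) (fun _ => 0) (ramInput x.1) (T n)).halted = true ∧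
      ((Crest.WordRAM.run P (c₀ * Nat.clog 2 (n + 2)) (fun _ => 0) (ramInput x.1) (T n)).output = [1] ↔
        g x = true)) →
    ∃ M : TM2ComputableInTime (fun x : diamTwoPairCodes => x.1) Computability.encodeBool g,
      ∀ n, M.time (2 * ((natCode n).length + n * n)) ≤ K * (n + T n + 2) ^ C := by
  exact Crest.Agent.R290I.ram_tm

/-- arithmetic -/
theorem ram_arith (c1 : ℝ) (hc : 0 < c1) (C : ℕ) (k : ℕ) (hk : 4 * (C + 1) / c1 ≤ (k : ℝ)) (K : ℕ) :
    ∃ n₀ : ℕ, ∀ n ≥ n₀, ∀ t : ℕ, (n : ℝ) ^ (c1 * k) ≤ ((K * (n + t + 2) ^ C : ℕ) : ℝ) →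
      (n : ℝ) ^ (c1 / (4 * (C + 1)) * k) ≤ t := by
  have hC : (0 : ℝ) < 4 * (C + 1) := by positivity
  set a : ℝ := c1 / (4 * (C + 1)) * k with ha
  have ha1 : 1 ≤ a := by
    rw [ha, div_mul_eq_mul_div, le_div_iff₀ hC, one_mul]
    rw [div_le_iff₀ hc] at hk
    linarith
  have hck : c1 * k = 4 * (C + 1) * a := by
    rw [ha]; field_simp
  refine ⟨K * 3 ^ C + 2, fun n hn t h => ?_⟩
  by_contra hlt
  push Not at hlt
  have hn2 : (2 : ℝ) ≤ n := by exact_mod_cast (show 2 ≤ n by omega)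
  have hn1 : (1 : ℝ) ≤ n := by linarith
  have h1 : (n : ℝ) ≤ (n : ℝ) ^ a := by
    calc (n : ℝ) = (n : ℝ) ^ (1 : ℝ) := (Real.rpow_one _).symm
      _ ≤ (n : ℝ) ^ a := Real.rpow_le_rpow_of_exponent_le hn1 ha1
  have h2 : ((n + t + 2 : ℕ) : ℝ) ≤ 3 * (n : ℝ) ^ a := by
    push_cast; linarith
  have h3 : ((K * (n + t + 2) ^ C : ℕ) : ℝ) ≤ K * 3 ^ C * ((n : ℝ) ^ a) ^ C := by
    push_cast at h2 ⊢
    rw [mul_assoc, ← mul_pow]
    exact mul_le_mul_of_nonneg_left (pow_le_pow_left₀ (by positivity) h2 C) (by positivity)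
  have h4 : (K * 3 ^ C : ℝ) < n := by
    have : K * 3 ^ C < n := by omega
    exact_mod_cast this
  have h5 : 0 < ((n : ℝ) ^ a) ^ C := by positivity
  have h6 : (K * 3 ^ C : ℝ) * ((n : ℝ) ^ a) ^ C < (n : ℝ) * ((n : ℝ) ^ a) ^ C :=
    mul_lt_mul_of_pos_right h4 h5
  have h7 : (n : ℝ) * ((n : ℝ) ^ a) ^ C ≤ (n : ℝ) ^ (c1 * k) := by
    calc (n : ℝ) * ((n : ℝ) ^ a) ^ C ≤ (n : ℝ) ^ a * ((n : ℝ) ^ a) ^ C :=
          mul_le_mul_of_nonneg_right h1 h5.le
      _ = (n : ℝ) ^ (a * ((C + 1 : ℕ) : ℝ)) := by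
          rw [← pow_succ', ← Real.rpow_natCast, ← Real.rpow_mul (by positivity)]
      _ ≤ (n : ℝ) ^ (c1 * k) := by
          refine Real.rpow_le_rpow_of_exponent_le hn1 ?_
          rw [hck]; push_cast
          have : (0 : ℝ) ≤ (C + 1) * a := by positivity
          nlinarith
  linarith

/-- S0439 for one convention -/
theorem ram_lower {E : ℕ → (n : ℕ) → (Fin n → Fin n → Bool) → (Fin n → Fin n → Bool) → Prop}
    {Lang : ℕ → Set (List Bool)}
    (hL : ∀ k n (G H : Fin n → Fin n → Bool), IsSimple G → IsSimple H →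
      (adjMatrixCode G ++ adjMatrixCode H ∈ Lang k ↔ E k n G H)) {c1 : ℝ} (hc : 0 < c1)
    (C : ℕ) (hC : ∀ (P : Crest.WordRAM.Program) (c₀ : ℕ), ∃ K : ℕ, ∀ (T : ℕ → ℕ)
      (g : diamTwoPairCodes → Bool),
      (∀ (n : ℕ) (G H : Fin n → Fin n → Bool) (x : diamTwoPairCodes),
        x.1 = adjMatrixCode G ++ adjMatrixCode H →
        (Crest.WordRAM.run P (c₀ * Nat.clog 2 (n + 2)) (fun _ => 0) (ramInput x.1)
          (T n)).halted = true ∧
        ((Crest.WordRAM.run P (c₀ * Nat.clog 2 (n + 2)) (fun _ => 0) (ramInput x.1)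
          (T n)).output = [1] ↔ g x = true)) →
      ∃ M : TM2ComputableInTime (fun x : diamTwoPairCodes => x.1) Computability.encodeBool g,
        ∀ n, M.time (2 * ((natCode n).length + n * n)) ≤ K * (n + T n + 2) ^ C)
    (k : ℕ) (hk : 4 * (C + 1) / c1 ≤ (k : ℝ))
    (h : ∀ (g : diamTwoPairCodes → Bool), (∀ x, x.1 ∈ Lang k ↔ g x = true) →
        ∀ M : TM2ComputableInTime (fun x : diamTwoPairCodes => x.1) Computability.encodeBool g,
          ∃ n₀ : ℕ, ∀ n ≥ n₀,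
            (n : ℝ) ^ (c1 * k) ≤ M.time (2 * ((natCode n).length + n * n)))
    (hsimp : ∀ (n m : ℕ) (G H : Fin n → Fin n → Bool) (G' H' : Fin m → Fin m → Bool),
      adjMatrixCode G ++ adjMatrixCode H = adjMatrixCode G' ++ adjMatrixCode H' →
      SimpleConnDiamTwo G' → SimpleConnDiamTwo H' → SimpleConnDiamTwo G ∧ SimpleConnDiamTwo H)
    (c₀ : ℕ) (P : Crest.WordRAM.Program) (T : ℕ → ℕ)
    (hP : ∀ (n : ℕ) (G H : Fin n → Fin n → Bool), SimpleConnDiamTwo G → SimpleConnDiamTwo H →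
      ∀ ρ : ℕ → ℕ,
        (Crest.WordRAM.run P (c₀ * Nat.clog 2 (n + 2)) ρ
          (((adjMatrixCode G ++ adjMatrixCode H).map fun b => if b then 1 else 0)) (T n)).halted = true ∧
        ((Crest.WordRAM.run P (c₀ * Nat.clog 2 (n + 2)) ρ
          (((adjMatrixCode G ++ adjMatrixCode H).map fun b => if b then 1 else 0)) (T n)).output = [1] ↔
          E k n G H)) :
    ∃ n₀ : ℕ, ∀ n ≥ n₀, (n : ℝ) ^ (c1 / (4 * (C + 1)) * k) ≤ T n := by
  classical
  obtain ⟨K, hK⟩ := hC P c₀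
  obtain ⟨M, hM⟩ := hK T (fun x => decide (x.1 ∈ Lang k)) (by
    intro n G H x hx
    obtain ⟨n', G', H', hG', hH', hx'⟩ := x.2
    obtain ⟨hG, hH⟩ := hsimp n n' G H G' H' (hx.symm.trans hx') hG' hH'
    have := hP n G H hG hH (fun _ => 0)
    rw [hx]
    refine ⟨this.1, this.2.trans ?_⟩
    rw [decide_eq_true_iff]
    exact (hL k n G H hG.1 hH.1).symm)
  obtain ⟨n₀, h0⟩ := h _ (fun x => by simp) M
  obtain ⟨n₁, h1⟩ := ram_arith c1 hc C k hk K
  refine ⟨max n₀ n₁, fun n hn => h1 n (le_trans (le_max_right _ _) hn) (T n) ?_⟩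
  refine (h0 n (le_trans (le_max_left _ _) hn)).trans ?_
  exact_mod_cast hM n

end Crest.Agent.R290
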