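import Crest.Agent.Lib.PolyTime.Api
import Crest.Prelude.Def_WordRAM

/-!
Row 290, MODULE I, part 1 (helper60): the word RAM as data.

* `DIns` : instructions as data `(op, d, b, c)`; `codeOf P` : the program as data.
* `RSt = ((List DIns × Un) × List Bool) × DSt` : ((code, word length), input), state
  `(pc, halted, registers, writes)` (association list, newest first).
* `rstep`, `rhalt`, `rans`, `rsetup` : universal functions (all `PT`, see IPT.lean);
  simulation and size bound: ISim.lean.
-/
set_option autoImplicit false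

namespace Crest.Agent.R290I

open Crest.Agent.PolyT Crest.WordRAM

/-- instruction as data: `(op, d, b, c)` -/
abbrev DIns : Type := ℕ × ℕ × ℕ × ℕ

/-- state: `(pc, halted, registers, writes)` -/
abbrev DSt : Type := ℕ × Bool × List ℕ × List (ℕ × ℕ)

/-- full state: `((code, word length), input), state` -/
abbrev RSt : Type := ((List DIns × Un) × List Bool) × DSt

/-- an instruction as data -/
def insOf {r : ℕ} : Instr r → DIns
  | .const d v => (0, d.val, v, 0)
  | .copy d s => (1, d.val, s.val, 0)
  | .add d a b => (2, d.val, a.val, b.val)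
  | .sub d a b => (3, d.val, a.val, b.val)
  | .mul d a b => (4, d.val, a.val, b.val)
  | .quot d a b => (5, d.val, a.val, b.val)
  | .rem d a b => (6, d.val, a.val, b.val)
  | .and d a b => (7, d.val, a.val, b.val)
  | .or d a b => (8, d.val, a.val, b.val)
  | .xor d a b => (9, d.val, a.val, b.val)
  | .shl d a b => (10, d.val, a.val, b.val)
  | .shr d a b => (11, d.val, a.val, b.val)
  | .load d a => (12, d.val, a.val, 0)
  | .rand d => (13, d.val, 0, 0)
  | .store s a => (14, s.val, a.val, 0)
  | .jump l => (15, l, 0, 0)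
  | .jumpIfZero a l => (16, l, a.val, 0)
  | .jumpIfEq a b l => (17, l, a.val, b.val)
  | .jumpIfLt a b l => (18, l, a.val, b.val)
  | .halt => (19, 0, 0, 0)

/-- the code of a program as data -/
def codeOf (P : Program) : List DIns := P.code.map insOf

/-- bitwise operation, as a list of bits -/
def bitop (f : Bool → Bool → Bool) (a b : ℕ) : ℕ :=
  ofBits ((List.range (a.size + b.size)).map fun i =>
    f (decide (a / 2 ^ i % 2 = 1)) (decide (b / 2 ^ i % 2 = 1)))

/-- reading the memory: the newest write at `a`, else the input -/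
def memR (w : ℕ) (x : List Bool) (wr : List (ℕ × ℕ)) (a : ℕ) : ℕ :=
  ((wr.filter fun p => decide (p.1 = a)).head?).elim ((if x.getD a false = true then 1 else 0) % 2 ^ w)
    fun p => p.2

/-- write into the register list -/
def setL (l : List ℕ) (i v : ℕ) : List ℕ := l.take i ++ v :: l.drop (i + 1)

/-- the value computed by the instruction `op ≤ 13`: `b` the literal, `A`, `B` the contents of the
registers `b`, `c` -/
def valR (w : ℕ) (x : List Bool) (wr : List (ℕ × ℕ)) (op b A B : ℕ) : ℕ :=
  if op = 0 then b % 2 ^ w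
  else if op = 1 then A
  else if op = 2 then (A + B) % 2 ^ w
  else if op = 3 then A - B
  else if op = 4 then (A * B) % 2 ^ w
  else if op = 5 then A / B
  else if op = 6 then A % B
  else if op = 7 then bitop (fun p q => p && q) A B
  else if op = 8 then bitop (fun p q => p || q) A B
  else if op = 9 then bitop (fun p q => Bool.xor p q) A B
  else if op = 10 then (if B < w then (A * 2 ^ (min B w)) % 2 ^ w else 0)
  else if op = 11 then (if B < w then A / 2 ^ (min B w) else 0)
  else if op = 12 then memR w x wr A
  else 0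

/-- the new program counter, for `15 ≤ op ≤ 18` -/
def jmpR (pc op d A B : ℕ) : ℕ :=
  if op = 15 then d
  else if op = 16 then (if A = 0 then d else pc + 1)
  else if op = 17 then (if A = B then d else pc + 1)
  else (if A < B then d else pc + 1)

/-- execution of one instruction -/
def execR (w : ℕ) (x : List Bool) (s : DSt) (i : DIns) : DSt :=
  if i.1 ≤ 13 then
    (s.1 + 1, false, setL s.2.2.1 i.2.1
      (valR w x s.2.2.2 i.1 i.2.2.1 (s.2.2.1.getD i.2.2.1 0) (s.2.2.1.getD i.2.2.2 0)), s.2.2.2)
  else if i.1 = 14 then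
    (s.1 + 1, false, s.2.2.1, (s.2.2.1.getD i.2.2.1 0, s.2.2.1.getD i.2.1 0) :: s.2.2.2)
  else if i.1 ≤ 18 then
    (jmpR s.1 i.1 i.2.1 (s.2.2.1.getD i.2.2.1 0) (s.2.2.1.getD i.2.2.2 0), false, s.2.2.1, s.2.2.2)
  else (s.1, true, s.2.2.1, s.2.2.2)

/-- one step of the state -/
def stepR (code : List DIns) (w : ℕ) (x : List Bool) (s : DSt) : DSt :=
  if s.2.1 = true then s
  else (code[s.1]?).elim (s.1, true, s.2.2.1, s.2.2.2) fun i => execR w x s i

/-- one step, universal -/
def rstep (s : RSt) : RSt := (s.1, stepR s.1.1.1 s.1.1.2.val s.1.2 s.2)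

/-- has it halted? -/
def rhalt (s : RSt) : Bool := s.2.2.1

/-- is the output `[1]`? -/
def rans (s : RSt) : Bool :=
  decide (s.2.2.2.1.getD 0 0 = 1) &&
    decide (memR s.1.1.2.val s.1.2 s.2.2.2.2 (s.2.2.2.1.getD 1 0) = 1)

/-- word length for the input `x` -/
def wlen (c₀ : ℕ) (x : List Bool) : ℕ := c₀ * Nat.clog 2 ((readNat x).1 + 2)

/-- initial state: argument `((code, number of registers, c₀), x)` -/
def rsetup (p : (List DIns × Un × Un) × List Bool) : RSt :=
  (((p.1.1, ⟨wlen p.1.2.2.val p.2⟩), p.2),
    (0, false, (p.2.length % 2 ^ (wlen p.1.2.2.val p.2) ::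
      List.replicate p.1.2.1.val 0).take p.1.2.1.val, []))

end Crest.Agent.R290I
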