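import Crest.Agent.R290.I
import Crest.Agent.R290.HCode

/-!
Row 290: S0439 from S0435 and module I (helper85).
-/
set_option autoImplicit false

namespace Crest.Agent.R290

open Crest.WLRefine Crest.Enc Turing

theorem pair_simple (n m : ℕ) (G H : Fin n → Fin n → Bool) (G' H' : Fin m → Fin m → Bool)
    (h : adjMatrixCode G ++ adjMatrixCode H = adjMatrixCode G' ++ adjMatrixCode H')
    (hG : SimpleConnDiamTwo G') (hH : SimpleConnDiamTwo H') :
    SimpleConnDiamTwo G ∧ SimpleConnDiamTwo H := by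
  obtain ⟨⟨rfl, rfl⟩, ⟨_, rfl⟩⟩ := pair_code_inj h
  exact ⟨hG, hH⟩

theorem S0439_of (h : ∃ c : ℝ, 0 < c ∧ ∃ k₀ : ℕ, ∀ k ≥ k₀,
      (∀ (g : Crest.WLRefine.diamTwoPairCodes → Bool),
        (∀ x, x.1 ∈ Crest.WLRefine.jointEquivLang k ↔ g x = true) →
        ∀ M : Turing.TM2ComputableInTime (fun x : Crest.WLRefine.diamTwoPairCodes => x.1)
            Computability.encodeBool g,
          ∃ n₀ : ℕ, ∀ n ≥ n₀,
            (n : ℝ) ^ (c * k) ≤ M.time (2 * ((Crest.Enc.natCode n).length + n * n))) ∧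
      (∀ (g : Crest.WLRefine.diamTwoPairCodes → Bool),
        (∀ x, x.1 ∈ Crest.WLRefine.sepEquivLang k ↔ g x = true) →
        ∀ M : Turing.TM2ComputableInTime (fun x : Crest.WLRefine.diamTwoPairCodes => x.1)
            Computability.encodeBool g,
          ∃ n₀ : ℕ, ∀ n ≥ n₀,
            (n : ℝ) ^ (c * k) ≤ M.time (2 * ((Crest.Enc.natCode n).length + n * n)))) :
    ∃ c : ℝ, 0 < c ∧ ∃ k₀ : ℕ, ∀ k ≥ k₀, ∀ c₀ : ℕ,
      (∀ (P : Crest.WordRAM.Program) (T : ℕ → ℕ),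
        (∀ (n : ℕ) (G H : Fin n → Fin n → Bool), Crest.WLRefine.SimpleConnDiamTwo G →
          Crest.WLRefine.SimpleConnDiamTwo H → ∀ ρ : ℕ → ℕ,
            (Crest.WordRAM.run P (c₀ * Nat.clog 2 (n + 2)) ρ (((Crest.WLRefine.adjMatrixCode G ++ Crest.WLRefine.adjMatrixCode H).map fun b => if b then 1 else 0)) (T n)).halted = true ∧
            ((Crest.WordRAM.run P (c₀ * Nat.clog 2 (n + 2)) ρ (((Crest.WLRefine.adjMatrixCode G ++ Crest.WLRefine.adjMatrixCode H).map fun b => if b then 1 else 0)) (T n)).output = [1] ↔ Crest.WLRefine.JEquiv k G H)) →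
        ∃ n₀ : ℕ, ∀ n ≥ n₀, (n : ℝ) ^ (c * k) ≤ T n) ∧
      (∀ (P : Crest.WordRAM.Program) (T : ℕ → ℕ),
        (∀ (n : ℕ) (G H : Fin n → Fin n → Bool), Crest.WLRefine.SimpleConnDiamTwo G →
          Crest.WLRefine.SimpleConnDiamTwo H → ∀ ρ : ℕ → ℕ,
            (Crest.WordRAM.run P (c₀ * Nat.clog 2 (n + 2)) ρ (((Crest.WLRefine.adjMatrixCode G ++ Crest.WLRefine.adjMatrixCode H).map fun b => if b then 1 else 0)) (T n)).halted = true ∧
            ((Crest.WordRAM.run P (c₀ * Nat.clog 2 (n + 2)) ρ (((Crest.WLRefine.adjMatrixCode G ++ Crest.WLRefine.adjMatrixCode H).map fun b => if b then 1 else 0)) (T n)).output = [1] ↔ Crest.WLRefine.SEquiv k G H)) →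
        ∃ n₀ : ℕ, ∀ n ≥ n₀, (n : ℝ) ^ (c * k) ≤ T n) := by
  obtain ⟨c1, hc1, k₀, h⟩ := h
  obtain ⟨C, hC⟩ := ram_tm
  refine ⟨c1 / (4 * (C + 1)), by positivity, max k₀ ⌈4 * (C + 1) / c1⌉₊, fun k hk c₀ => ⟨?_, ?_⟩⟩
  · intro P T hP
    exact ram_lower (E := fun k _ G H => JEquiv k G H) (Lang := jointEquivLang)
      (fun k n G H hG hH => mem_jointEquivLang hG hH) hc1 C hC k
      ((Nat.le_ceil _).trans (by exact_mod_cast le_trans (le_max_right _ _) hk))
      (h k (le_trans (le_max_left _ _) hk)).1 pair_simple c₀ P T hP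
  · intro P T hP
    exact ram_lower (E := fun k _ G H => SEquiv k G H) (Lang := sepEquivLang)
      (fun k n G H hG hH => mem_sepEquivLang hG hH) hc1 C hC k
      ((Nat.le_ceil _).trans (by exact_mod_cast le_trans (le_max_right _ _) hk))
      (h k (le_trans (le_max_left _ _) hk)).2 pair_simple c₀ P T hP

end Crest.Agent.R290
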