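import Crest.Agent.Lib.PolyTime.Compile

/-!
# Row 290, module I: machines from programs (architect helper67)
-/

set_option autoImplicit false

namespace Crest.Agent.R290.I

open Crest.Agent.PolyT Crest.Complexity Turing

/-- from a program to a machine with an arbitrary time function -/
theorem exists_machine {K ι : Type} [Fintype K] [DecidableEq K] [Fintype ι] [DecidableEq ι]
    (F : ι → List Bool → List Bool) (hF : ∀ i, PolyTime (F i)) :
    ∃ T : ι → Polynomial ℕ, ∀ (P : Prog K ι) (kin kout : K) (X : Type) (e : X → List Bool)
      (g : X → Bool) (time : ℕ → ℕ),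
      (∀ x : X, Run F T P (single kin (e x)) (time (e x).length) (single kout [g x])) →
      ∃ M : TM2ComputableInTime e Computability.encodeBool g, ∀ L, M.time L = time L + 1 := by
  classical
  let C := fun i => Classical.choice (hF i)
  let M : ι → FinTM2 := fun i => (C i).tm
  let ain : ∀ i, (M i).Γ (M i).k₀ ≃ Bool := fun i => (C i).inputAlphabet
  let aout : ∀ i, (M i).Γ (M i).k₁ ≃ Bool := fun i => (C i).outputAlphabet
  let T : ι → Polynomial ℕ := fun i => (C i).time
  have hM : ∀ i x, Comp.RT (M i).m
      ⟨some (M i).main, (M i).initialState,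
        Function.update (fun _ => []) (M i).k₀ (x.map (ain i).symm)⟩
      ⟨none, (M i).initialState,
        Function.update (fun _ => []) (M i).k₁ ((F i x).map (aout i).symm)⟩
      ((T i).eval x.length) := by
    intro i x
    obtain ⟨⟨n, h2⟩, h3⟩ := (C i).outputsFun x
    rw [Comp.initList_eq] at h2
    refine ⟨n, h3, ?_⟩
    refine h2.trans ?_
    simp only [Option.map_some]
    rw [Comp.haltList_eq]
    rfl
  refine ⟨T, fun P kin kout X e g time hP => ?_⟩
  refine ⟨⟨⟨Comp.big M ain aout P kin kout, Equiv.refl Bool, Equiv.refl Bool⟩,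
    fun L => time L + 1, fun x => ?_⟩, fun L => rfl⟩
  have h1 := Comp.compile_run hM (hP x) (Comp.big M ain aout P kin kout).m some none
    (fun l => rfl)
  have h2 := h1.trans (Comp.RT.step (c' := ⟨none, Comp.s0 M,
    Comp.st M (single kout [g x]) [] (fun _ _ => [])⟩) rfl)
  have e1 : List.map (Equiv.refl Bool).invFun (e x) = e x := List.map_id (e x)
  have e2 : List.map (Equiv.refl Bool).invFun (Computability.encodeBool (g x)) = [g x] := rfl
  refine ⟨⟨h2.choose, ?_⟩, ?_⟩
  · have h3 := h2.choose_spec.2
    refine Eq.trans ?_ (h3.trans ?_)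
    · refine congrArg _ (congrArg some ?_)
      refine Eq.trans ?_ (Comp.init_eq M ain aout P kin kout (e x))
      exact congrArg _ e1
    · simp only [Option.map_some]
      refine congrArg some ?_
      refine (Comp.halt_eq M ain aout P kin kout [g x]).symm.trans ?_
      exact congrArg _ e2.symm
  · exact h2.choose_spec.1

end Crest.Agent.R290.I
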