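import Crest.Agent.R290.IDefs

/-!
Row 290, MODULE I, part 2 (helper60): the universal functions are polynomial time.
-/
set_option autoImplicit false

namespace Crest.Agent.R290I

open Crest.Agent.PolyT Crest.WordRAM

variable {α : Type} [PEnc α]

theorem PT_two_pow {w : α → ℕ} (hw : PT w) (hb : PB w) : PT (fun a => 2 ^ (w a)) :=
  PT.natPow (PT.const 2) hw hb

theorem PT_bit {A : α → ℕ} (hA : PT A) : PT (fun p : α × Un => decide (A p.1 / 2 ^ p.2.val % 2 = 1)) := by
  have h1 : PT (fun p : α × Un => A p.1) := PT.comp hA (by fun_prop)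
  have h2 : PT (fun p : α × Un => 2 ^ p.2.val) := PT_two_pow (by fun_prop) (PB.unVal (by fun_prop))
  exact PT.eq (PT.natMod (PT.natDiv h1 h2) (PT.const 2)) (PT.const 1)

theorem PT_bitop {f : Bool → Bool → Bool} {A B : α → ℕ} (hf : PT (fun p : Bool × Bool => f p.1 p.2))
    (hA : PT A) (hB : PT B) : PT (fun a => bitop f (A a) (B a)) := by
  unfold bitop
  refine PT.ofBits (PT.mapRange (f := fun a i =>
    f (decide (A a / 2 ^ i % 2 = 1)) (decide (B a / 2 ^ i % 2 = 1))) ?_ ?_ ?_)
  · fun_prop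
  · exact PB.add (PB.size hA) (PB.size hB)
  · exact PT.comp (g := fun p : Bool × Bool => f p.1 p.2) hf (PT.pair (PT_bit hA) (PT_bit hB))

theorem PT_memR {w : α → Un} {x : α → List Bool} {wr : α → List (ℕ × ℕ)} {A : α → ℕ}
    (hw : PT w) (hx : PT x) (hwr : PT wr) (hA : PT A) :
    PT (fun a => memR (w a).val (x a) (wr a) (A a)) := by
  unfold memR
  have h2 : PT (fun a => 2 ^ (w a).val) := PT_two_pow (by fun_prop) (PB.unVal hw)
  refine PT.optCases (o := fun a => ((wr a).filter fun p => decide (p.1 = A a)).head?)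
    (f := fun a => (if (x a).getD (A a) false = true then 1 else 0) % 2 ^ (w a).val)
    (g := fun _ (p : ℕ × ℕ) => p.2) ?_ ?_ (by fun_prop)
  · refine PT.head? (PT.filter (f := fun a p => decide (p.1 = A a)) hwr ?_)
    have : PT (fun q : α × (ℕ × ℕ) => A q.1) := PT.comp hA (by fun_prop)
    exact PT.eq (by fun_prop) this
  · refine PT.natMod ?_ h2
    refine PT.ite ?_ (PT.const 1) (PT.const 0)
    exact PT.decide_bool (PT.listGetD hx hA (PT.const false))

theorem PT_setL {l : α → List ℕ} {i v : α → ℕ} (hl : PT l) (hi : PT i) (hv : PT v) :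
    PT (fun a => setL (l a) (i a) (v a)) := by
  unfold setL
  fun_prop

theorem PT_valR {w : α → Un} {x : α → List Bool} {wr : α → List (ℕ × ℕ)} {op b A B : α → ℕ}
    (hw : PT w) (hx : PT x) (hwr : PT wr) (hop : PT op) (hb : PT b) (hA : PT A) (hB : PT B) :
    PT (fun a => valR (w a).val (x a) (wr a) (op a) (b a) (A a) (B a)) := by
  have hwv : PT (fun a => (w a).val) := PT.unVal hw
  have hwb : PB (fun a => (w a).val) := PB.unVal hw
  have h2 : PT (fun a => 2 ^ (w a).val) := PT_two_pow hwv hwb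
  have h3 : PT (fun a => 2 ^ (min (B a) (w a).val)) :=
    PT_two_pow (PT.natMin hB hwv) (PB.min_right hwb)
  unfold valR
  refine PT.ite (PT.eq hop (PT.const _)) (PT.natMod hb h2) ?_
  refine PT.ite (PT.eq hop (PT.const _)) hA ?_
  refine PT.ite (PT.eq hop (PT.const _)) (PT.natMod (PT.natAdd hA hB) h2) ?_
  refine PT.ite (PT.eq hop (PT.const _)) (PT.natSub hA hB) ?_
  refine PT.ite (PT.eq hop (PT.const _)) (PT.natMod (PT.natMul hA hB) h2) ?_
  refine PT.ite (PT.eq hop (PT.const _)) (PT.natDiv hA hB) ?_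
  refine PT.ite (PT.eq hop (PT.const _)) (PT.natMod hA hB) ?_
  refine PT.ite (PT.eq hop (PT.const _)) (PT_bitop (by fun_prop) hA hB) ?_
  refine PT.ite (PT.eq hop (PT.const _)) (PT_bitop (by fun_prop) hA hB) ?_
  refine PT.ite (PT.eq hop (PT.const _)) (PT_bitop (by fun_prop) hA hB) ?_
  refine PT.ite (PT.eq hop (PT.const _)) (PT.ite (PT.natLt hB hwv)
    (PT.natMod (PT.natMul hA h3) h2) (PT.const 0)) ?_
  refine PT.ite (PT.eq hop (PT.const _)) (PT.ite (PT.natLt hB hwv)
    (PT.natDiv hA h3) (PT.const 0)) ?_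
  exact PT.ite (PT.eq hop (PT.const _)) (PT_memR hw hx hwr hA) (PT.const 0)

theorem PT_jmpR {pc op d A B : α → ℕ} (hpc : PT pc) (hop : PT op) (hd : PT d) (hA : PT A)
    (hB : PT B) : PT (fun a => jmpR (pc a) (op a) (d a) (A a) (B a)) := by
  have hp1 : PT (fun a => pc a + 1) := PT.natAdd hpc (PT.const 1)
  unfold jmpR
  refine PT.ite (PT.eq hop (PT.const _)) hd ?_
  refine PT.ite (PT.eq hop (PT.const _)) (PT.ite (PT.eq hA (PT.const 0)) hd hp1) ?_
  refine PT.ite (PT.eq hop (PT.const _)) (PT.ite (PT.eq hA hB) hd hp1) ?_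
  exact PT.ite (PT.natLt hA hB) hd hp1

theorem PT_execR {w : α → Un} {x : α → List Bool} {s : α → DSt} {i : α → DIns}
    (hw : PT w) (hx : PT x) (hs : PT s) (hi : PT i) :
    PT (fun a => execR (w a).val (x a) (s a) (i a)) := by
  have hpc : PT (fun a => (s a).1) := PT.fst hs
  have hr : PT (fun a => (s a).2.2.1) := PT.fst (PT.snd (PT.snd hs))
  have hwr : PT (fun a => (s a).2.2.2) := PT.snd (PT.snd (PT.snd hs))
  have hop : PT (fun a => (i a).1) := PT.fst hi
  have hd : PT (fun a => (i a).2.1) := PT.fst (PT.snd hi)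
  have hb : PT (fun a => (i a).2.2.1) := PT.fst (PT.snd (PT.snd hi))
  have hc : PT (fun a => (i a).2.2.2) := PT.snd (PT.snd (PT.snd hi))
  have hA : PT (fun a => (s a).2.2.1.getD (i a).2.2.1 0) := PT.listGetD hr hb (PT.const 0)
  have hB : PT (fun a => (s a).2.2.1.getD (i a).2.2.2 0) := PT.listGetD hr hc (PT.const 0)
  have hD : PT (fun a => (s a).2.2.1.getD (i a).2.1 0) := PT.listGetD hr hd (PT.const 0)
  have hp1 : PT (fun a => (s a).1 + 1) := PT.natAdd hpc (PT.const 1)
  unfold execR
  refine PT.ite (PT.natLe hop (PT.const 13)) ?_ (PT.ite (PT.eq hop (PT.const 14)) ?_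
    (PT.ite (PT.natLe hop (PT.const 18)) ?_ ?_))
  · exact PT.pair hp1 (PT.pair (PT.const false) (PT.pair
      (PT_setL hr hd (PT_valR hw hx hwr hop hb hA hB)) hwr))
  · exact PT.pair hp1 (PT.pair (PT.const false) (PT.pair hr (PT.cons (PT.pair hA hD) hwr)))
  · exact PT.pair (PT_jmpR hpc hop hd hA hB) (PT.pair (PT.const false) (PT.pair hr hwr))
  · exact PT.pair hpc (PT.pair (PT.const true) (PT.pair hr hwr))

theorem PT_rstep : PT rstep := by
  unfold rstep
  refine PT.pair (by fun_prop) ?_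
  unfold stepR
  have hs : PT (fun s : RSt => s.2) := by fun_prop
  refine PT.ite (PT.decide_bool (by fun_prop)) hs ?_
  refine PT.optCases (o := fun s : RSt => (s.1.1.1)[s.2.1]?)
    (f := fun s : RSt => (s.2.1, true, s.2.2.2.1, s.2.2.2.2))
    (g := fun s i => execR s.1.1.2.val s.1.2 s.2 i) (by fun_prop) (by fun_prop) ?_
  exact PT_execR (w := fun p : RSt × DIns => p.1.1.1.2) (x := fun p : RSt × DIns => p.1.1.2)
    (s := fun p : RSt × DIns => p.1.2) (i := fun p : RSt × DIns => p.2)
    (by fun_prop) (by fun_prop) (by fun_prop) (by fun_prop)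

theorem PT_rhalt : PT rhalt := by
  unfold rhalt
  fun_prop

theorem PT_rans : PT rans := by
  unfold rans
  refine PT.and (PT.eq ?_ (PT.const 1)) (PT.eq ?_ (PT.const 1))
  · exact PT.listGetD (by fun_prop) (PT.const 0) (PT.const 0)
  · exact PT_memR (w := fun s : RSt => s.1.1.2) (x := fun s : RSt => s.1.2)
      (wr := fun s : RSt => s.2.2.2.2) (A := fun s : RSt => s.2.2.2.1.getD 1 0)
      (by fun_prop) (by fun_prop) (by fun_prop)
      (PT.listGetD (by fun_prop) (PT.const 1) (PT.const 0))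

theorem clog_eq_size (n : ℕ) : Nat.clog 2 (n + 2) = (n + 1).size := by
  apply le_antisymm
  · rw [Nat.clog_le_iff_le_pow (by norm_num)]
    have := Nat.lt_size_self (n + 1)
    omega
  · rw [Nat.size_le]
    have := Nat.le_pow_clog (b := 2) (by norm_num) (n + 2)
    omega

theorem PT_rsetup : PT rsetup := by
  have hx : PT (fun p : (List DIns × Un × Un) × List Bool => p.2) := by fun_prop
  have hn : PT (fun p : (List DIns × Un × Un) × List Bool => (readNat p.2).1) :=
    PT.fst (PT.readNat hx)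
  have hn1 : PT (fun p : (List DIns × Un × Un) × List Bool => (readNat p.2).1 + 1) :=
    PT.natAdd hn (PT.const 1)
  have hs : PT (fun p : (List DIns × Un × Un) × List Bool => ((readNat p.2).1 + 1).size) :=
    PT.natSize hn1
  have hsb : PB (fun p : (List DIns × Un × Un) × List Bool => ((readNat p.2).1 + 1).size) :=
    PB.size hn1
  have hc : PT (fun p : (List DIns × Un × Un) × List Bool => p.1.2.2.val) := by fun_prop
  have hcb : PB (fun p : (List DIns × Un × Un) × List Bool => p.1.2.2.val) :=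
    PB.unVal (by fun_prop)
  have hw : PT (fun p : (List DIns × Un × Un) × List Bool => wlen p.1.2.2.val p.2) := by
    unfold wlen
    simp only [clog_eq_size]
    exact PT.natMul hc hs
  have hwb : PB (fun p : (List DIns × Un × Un) × List Bool => wlen p.1.2.2.val p.2) := by
    unfold wlen
    simp only [clog_eq_size]
    exact PB.mul hcb hsb
  have h2 : PT (fun p : (List DIns × Un × Un) × List Bool => 2 ^ wlen p.1.2.2.val p.2) :=
    PT_two_pow hw hwb
  unfold rsetup
  refine PT.pair (PT.pair (PT.pair (by fun_prop) (PT.mkUn hw hwb)) (by fun_prop)) ?_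
  refine PT.pair (PT.const 0) (PT.pair (PT.const false) (PT.pair ?_ (PT.const [])))
  refine PT.take (by fun_prop) (PT.cons (PT.natMod (by fun_prop) h2) ?_)
  exact PT.replicate (by fun_prop) (PB.unVal (by fun_prop)) (PT.const 0)

end Crest.Agent.R290I
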