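import Crest.Agent.R290.IMach2
import Crest.Agent.R290.IPT

/-!
Row 290, MODULE I, part 5 (helper60): the machine that runs a word RAM program given as data.
-/
set_option autoImplicit false

namespace Crest.Agent.R290I

open Crest.Agent.PolyT Crest.Complexity Turing PEnc

/-- the raw subroutines -/
theorem exists_raw : ∃ Fi Fn : List Bool → List Bool, PolyTime Fi ∧ PolyTime Fn ∧
    (∀ (p : List DIns × Un × Un) (x : List Bool),
      Fi (delim (enc p) ++ x) = true :: enc (rsetup (p, x))) ∧
    (∀ s : RSt, Fn (true :: enc s) =
      if rhalt s = true then [false, rans s] else true :: enc (rstep s)) := by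
  obtain ⟨gi, hgi, hi⟩ := PT_rsetup
  obtain ⟨gs, hgs, hs⟩ := PT_rstep
  obtain ⟨gh, hgh, hh⟩ := PT_rhalt
  obtain ⟨ga, hga, ha⟩ := PT_rans
  refine ⟨fun z => true :: gi (pairCode (fstCode z) (enc (sndCode z))),
    fun w => if (gh w.tail).head? = some true then false :: ga w.tail else true :: gs w.tail,
    ?_, ?_, ?_, ?_⟩
  · exact polyTime_comp (polyTime_cons true) (polyTime_comp hgi
      (polyTime_pair polyTime_fst (polyTime_comp polyTime_toList polyTime_snd)))
  · exact polyTime_ite (polyTime_comp hgh polyTime_tail)
      (polyTime_comp (polyTime_cons false) (polyTime_comp hga polyTime_tail))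
      (polyTime_comp (polyTime_cons true) (polyTime_comp hgs polyTime_tail))
  · intro p x
    have h1 : fstCode (delim (enc p) ++ x) = enc p := fstCode_pairCode (enc p) x
    have h2 : sndCode (delim (enc p) ++ x) = x := sndCode_pairCode (enc p) x
    show true :: gi (pairCode (fstCode _) (enc (sndCode _))) = _
    rw [h1, h2, ← enc_mk, hi]
  · intro s
    show (if (gh (enc s)).head? = some true then false :: ga (enc s) else true :: gs (enc s)) = _
    rw [hh, hs, ha, enc_bool, enc_bool, List.head?_cons]
    cases rhalt s <;> simp

/-- push a list of bits -/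
def pushAll : List Bool → Prog Unit Bool
  | [] => Prog.skip
  | b :: l => Prog.seq (pushAll l) (Prog.push () b)

theorem run_pushAll {F : Bool → List Bool → List Bool} {T : Bool → Polynomial ℕ} (d : List Bool)
    (w : List Bool) :
    Run F T (pushAll d) (fun _ => w) (d.length + 1) (fun _ => d ++ w) := by
  induction d with
  | nil => exact Run.skip _
  | cons b d ih =>
    have h1 := Run.push (F := F) (T := T) () b (fun _ => d ++ w)
    have e : Function.update (fun _ : Unit => d ++ w) () (b :: (d ++ w)) =
        fun _ => (b :: d) ++ w := by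
      funext u; simp
    rw [e] at h1
    exact Run.mono (Run.seq ih h1) (by simp)

/-- the loop -/
def loopR : Prog Unit Bool := Prog.loop () (fun o => o == some true) (Prog.call true ())

/-- the whole program -/
def progR (d : List Bool) : Prog Unit Bool :=
  Prog.seq (pushAll d) (Prog.seq (Prog.call false ()) (Prog.seq loopR (Prog.pop ())))

theorem run_call {F : Bool → List Bool → List Bool} {T : Bool → Polynomial ℕ} (i : Bool)
    (w w' : List Bool) (h : F i w = w') :
    Run F T (Prog.call i ()) (fun _ => w)
      ((T i).eval w.length + 2 * w.length + 2 * w'.length + 8) (fun _ => w') := by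
  have h1 := Run.call (F := F) (T := T) i () (fun _ => w)
  have e : Function.update (fun _ : Unit => w) () (F i w) = fun _ => w' := by
    funext u; simp [h]
  rw [e, h] at h1
  exact h1

theorem run_loopR {F : Bool → List Bool → List Bool} {T : Bool → Polynomial ℕ}
    (hF : ∀ s : RSt, F true (true :: enc s) =
      if rhalt s = true then [false, rans s] else true :: enc (rstep s))
    (s : ℕ → RSt) (hs : ∀ t, s (t + 1) = rstep (s t)) (τ : ℕ) (hτ : rhalt (s τ) = true)
    (hlt : ∀ t < τ, rhalt (s t) = false) (L : ℕ) (hL : ∀ t ≤ τ, sz (s t) ≤ L) (m : ℕ) :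
    ∀ j, j + m = τ →
      Run F T loopR (fun _ => true :: enc (s j))
        ((m + 1) * ((T true).eval (L + 1) + 4 * L + 17) + 1) (fun _ => [false, rans (s τ)]) := by
  induction m with
  | zero =>
    intro j hj
    have hj' : j = τ := by omega
    subst hj'
    have h1 := run_call (F := F) (T := T) true (true :: enc (s j)) [false, rans (s j)]
      (by rw [hF, if_pos hτ])
    have h2 : Run F T loopR (fun _ => [false, rans (s j)]) 1 (fun _ => [false, rans (s j)]) :=
      Run.loop_done rfl
    refine Run.mono (Run.loop_step rfl h1 h2) ?_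
    have h3 : (true :: enc (s j)).length ≤ L + 1 := by
      rw [List.length_cons]; exact Nat.succ_le_succ (hL j (le_refl _))
    have h4 := poly_mono (T true) h3
    simp only [List.length_cons, List.length_nil] at h3 h4 ⊢
    omega
  | succ m ih =>
    intro j hj
    have h1 := run_call (F := F) (T := T) true (true :: enc (s j)) (true :: enc (s (j + 1)))
      (by rw [hF, if_neg (by rw [hlt j (by omega)]; simp), hs])
    have h2 := ih (j + 1) (by omega)
    refine Run.mono (Run.loop_step rfl h1 h2) ?_
    have h3 : (true :: enc (s j)).length ≤ L + 1 := by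
      rw [List.length_cons]; exact Nat.succ_le_succ (hL j (by omega))
    have h3' : (true :: enc (s (j + 1))).length ≤ L + 1 := by
      rw [List.length_cons]; exact Nat.succ_le_succ (hL (j + 1) (by omega))
    have h4 := poly_mono (T true) h3
    have e : (m + 1 + 1) * ((T true).eval (L + 1) + 4 * L + 17) =
      (m + 1) * ((T true).eval (L + 1) + 4 * L + 17) + ((T true).eval (L + 1) + 4 * L + 17) := by
      ring
    rw [e]
    omega

/-- the machine, with universal polynomials -/
theorem ram_machine : ∃ T0 T1 : Polynomial ℕ, ∀ (p : List DIns × Un × Un) (S : Set (List Bool))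
    (g : S → Bool) (time : ℕ → ℕ),
    (∀ x : S, ∃ τ L : ℕ, (∀ t < τ, rhalt (rstep^[t] (rsetup (p, x.1))) = false) ∧
      rhalt (rstep^[τ] (rsetup (p, x.1))) = true ∧
      rans (rstep^[τ] (rsetup (p, x.1))) = g x ∧
      (∀ t ≤ τ, sz (rstep^[t] (rsetup (p, x.1))) ≤ L) ∧
      (6 * sz p + 20 + 2 * x.1.length + T0.eval (2 * sz p + 1 + x.1.length) + 2 * L +
        (τ + 1) * (T1.eval (L + 1) + 4 * L + 17)) ≤ time x.1.length) →
    ∃ M : TM2ComputableInTime (fun x : S => x.1) Computability.encodeBool g, M.time = time := by
  obtain ⟨Fi, Fn, hFi, hFn, hi, hn⟩ := exists_raw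
  obtain ⟨T, hT⟩ := machine_of_run (fun b : Bool => bif b then Fn else Fi)
    (by intro b; cases b <;> assumption)
  refine ⟨T false, T true, fun p S g time h => ?_⟩
  refine hT Unit inferInstance inferInstance (progR (delim (enc p))) () () S g time (fun x => ?_)
  obtain ⟨τ, L, h1, h2, h3, h4, h5⟩ := h x
  refine ⟨time x.1.length - 1, by omega, ?_⟩
  have e1 : single () x.1 = fun _ => x.1 := by funext u; simp [single]
  have e2 : single () [g x] = fun _ => [g x] := by funext u; simp [single]
  have h0 : sz (rsetup (p, x.1)) ≤ L := h4 0 (Nat.zero_le _)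
  rw [e1, e2]
  have r1 := run_pushAll (F := fun b : Bool => bif b then Fn else Fi) (T := T) (delim (enc p)) x.1
  have r2 := run_call (F := fun b : Bool => bif b then Fn else Fi) (T := T) false
    (delim (enc p) ++ x.1) (true :: enc (rsetup (p, x.1))) (hi p x.1)
  have r3 := run_loopR (F := fun b : Bool => bif b then Fn else Fi) (T := T) hn
    (fun t => rstep^[t] (rsetup (p, x.1))) (fun t => Function.iterate_succ_apply' _ _ _) τ h2 h1 L h4
    τ 0 (by omega)
  have r4 : Run (fun b : Bool => bif b then Fn else Fi) T (Prog.pop ())
      (fun _ => [false, rans (rstep^[τ] (rsetup (p, x.1)))]) 1 (fun _ => [g x]) := by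
    have := Run.pop (F := fun b : Bool => bif b then Fn else Fi) (T := T) ()
      (fun _ => [false, rans (rstep^[τ] (rsetup (p, x.1)))])
    have e : Function.update (fun _ : Unit => [false, rans (rstep^[τ] (rsetup (p, x.1)))]) ()
        ([false, rans (rstep^[τ] (rsetup (p, x.1)))]).tail = fun _ => [g x] := by
      funext u; simp [h3]
    rw [e] at this
    exact this
  refine Run.mono (Run.seq r1 (Run.seq r2 (Run.seq r3 r4))) ?_
  have l1 : (delim (enc p)).length = 2 * sz p + 1 := length_delim _
  have l2 : (delim (enc p) ++ x.1).length = 2 * sz p + 1 + x.1.length := by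
    rw [List.length_append, l1]
  have l3 : (true :: enc (rsetup (p, x.1))).length ≤ L + 1 := by
    rw [List.length_cons]; exact Nat.succ_le_succ h0
  rw [l1, l2]
  omega

end Crest.Agent.R290I
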