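import Crest.Agent.R290.JDefs

/-!
# Row 290, module J1a (helper29): shifts of the vertices of `gadj`

* `pkey p` : key of the port `p`; `okey v d` : key of the port `d` of the gadget `v`.
* `keysOf u` : keys on which the vertex `u` depends; `shB g u` : `u` shifted by `g`.
* `shB_adjT` : `shB g` maps `gadj` to a twisted graph if `g` has the parity of the twist.
* `bcp y b` : vertex `cp p b`, `p` = the first port with key `y`.
-/

set_option autoImplicit false

open Finset
open Crest.WLRefine

namespace Crest.Agent.R290

variable {κ : Type} [DecidableEq κ]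

omit [DecidableEq κ] in
theorem length_portKeys {β : Type} (xs : List (κ × κ × κ)) (ts : List (κ × β)) :
    (portKeys xs ts).length = 3 * xs.length + ts.length := by
  simp only [portKeys, List.length_append, List.length_map, List.length_flatMap]
  simp
  omega

/-- key of the port `p` -/
def pkey {β : Type} (xs : List (κ × κ × κ)) (ts : List (κ × β))
    (p : Fin (3 * xs.length + ts.length)) : κ :=
  (portKeys xs ts)[p.val]'(by rw [length_portKeys]; exact p.isLt)

/-- key of the port `d` of the gadget `v` -/
def okey (xs : List (κ × κ × κ)) (v : Fin xs.length) (d : Fin 3) : κ :=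
  if d.val = 0 then (xs.get v).1 else if d.val = 1 then (xs.get v).2.1 else (xs.get v).2.2

omit [DecidableEq κ] in
theorem pkey_op {β : Type} (xs : List (κ × κ × κ)) (ts : List (κ × β)) (v : Fin xs.length)
    (d : Fin 3) (p : Fin (3 * xs.length + ts.length)) (h : 3 * v.val + d.val = p.val) :
    pkey xs ts p = okey xs v d := by
  have key : ∀ (xs : List (κ × κ × κ)) (i : ℕ) (hi : i < xs.length) (d : ℕ) (hd : d < 3)
      (hlt : 3 * i + d < (xs.flatMap fun c => [c.1, c.2.1, c.2.2]).length),
      (xs.flatMap fun c => [c.1, c.2.1, c.2.2])[3 * i + d] =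
        if d = 0 then (xs[i]).1 else if d = 1 then (xs[i]).2.1 else (xs[i]).2.2 := by
    intro xs
    induction xs with
    | nil => intro i hi; simp at hi
    | cons c xs ih =>
      intro i hi d hd hlt
      cases i with
      | zero =>
        simp only [List.flatMap_cons, Nat.mul_zero, Nat.zero_add, List.getElem_cons_zero]
        interval_cases d <;> simp
      | succ i =>
        have e : 3 * (i + 1) + d = (3 * i + d) + 3 := by ring
        simp only [List.flatMap_cons, List.getElem_cons_succ]
        have hi' : i < xs.length := by simpa using hi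
        have hlt' : 3 * i + d < (xs.flatMap fun c => [c.1, c.2.1, c.2.2]).length := by
          simp only [List.length_flatMap] at hlt ⊢
          simp at hlt ⊢
          omega
        rw [← ih i hi' d hd hlt']
        simp only [e]
        rfl
  unfold pkey okey
  have h2 : p.val < (xs.flatMap fun c => [c.1, c.2.1, c.2.2]).length := by
    simp only [List.length_flatMap]
    simp
    have := v.isLt
    have := d.isLt
    omega
  have h3 : (portKeys xs ts)[p.val]'(by rw [length_portKeys]; exact p.isLt) =
      (xs.flatMap fun c => [c.1, c.2.1, c.2.2])[p.val]'h2 := by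
    simp only [portKeys]
    exact List.getElem_append_left h2
  rw [h3]
  have h4 := key xs v.val v.isLt d.val d.isLt (by rw [h]; exact h2)
  simp only [h] at h4
  rw [h4]
  rfl

omit [DecidableEq κ] in
theorem pkey_ts {β : Type} (xs : List (κ × κ × κ)) (ts : List (κ × β)) (j : Fin ts.length)
    (p : Fin (3 * xs.length + ts.length)) (h : 3 * xs.length + j.val = p.val) :
    pkey xs ts p = (ts.get j).1 := by
  unfold pkey
  have h1 : (xs.flatMap fun c => [c.1, c.2.1, c.2.2]).length = 3 * xs.length := by
    simp only [List.length_flatMap]
    simp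
    omega
  simp only [portKeys]
  rw [List.getElem_append_right (by rw [h1]; omega)]
  simp only [List.getElem_map]
  have h2 : p.val - (xs.flatMap fun c => [c.1, c.2.1, c.2.2]).length = j.val := by rw [h1]; omega
  simp only [h2]
  rfl

/-- keys on which a vertex depends (`none` = the pair of leaves at the root) -/
def keysOf (xs : List (κ × κ × κ)) {β : Type} (ts : List (κ × β)) :
    GV xs.length ts.length → List (Option κ)
  | .rl _ => [none]
  | .fp p _ _ => [some (pkey xs ts p)]
  | .cp p _ => [some (pkey xs ts p)]
  | .op v d _ => [some (okey xs v d)]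
  | .gd v _ _ => [some (xs.get v).1, some (xs.get v).2.1, some (xs.get v).2.2]
  | _ => []

/-- shift of a vertex -/
def shB (xs : List (κ × κ × κ)) {β : Type} (ts : List (κ × β)) (g : Option κ → Bool) :
    GV xs.length ts.length → GV xs.length ts.length
  | .rl b => .rl (Bool.xor b (g none))
  | .fp p s b => .fp p s (Bool.xor b (g (some (pkey xs ts p))))
  | .cp p b => .cp p (Bool.xor b (g (some (pkey xs ts p))))
  | .op v d b => .op v d (Bool.xor b (g (some (okey xs v d))))
  | .gd v z0 z1 => .gd v (Bool.xor z0 (g (some (xs.get v).1)))
      (Bool.xor z1 (g (some (xs.get v).2.1)))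
  | u => u

/-- parity of `g` on a triple -/
def par3 (g : Option κ → Bool) (c : κ × κ × κ) : Bool :=
  Bool.xor (g (some c.1)) (Bool.xor (g (some c.2.1)) (g (some c.2.2)))

/-- the constraints at a vertex: parity of the gadget, unary constraints -/
def okV (xs : List (κ × κ × κ)) {β : Type} (ts : List (κ × β)) (tw : κ × κ × κ → Bool)
    (g : Option κ → Bool) : GV xs.length ts.length → Prop
  | .gd v _ _ => par3 g (xs.get v) = tw (xs.get v)
  | .fp p _ _ => ∀ β, (pkey xs ts p, β) ∈ ts → g (some (pkey xs ts p)) = false
  | .cp p _ => ∀ β, (pkey xs ts p, β) ∈ ts → g (some (pkey xs ts p)) = false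
  | .op v d _ => ∀ β, (okey xs v d, β) ∈ ts → g (some (okey xs v d)) = false
  | _ => True

section
variable {β : Type} {xs : List (κ × κ × κ)} {ts : List (κ × β)}

omit [DecidableEq κ] in
theorem shB_shB (g h : Option κ → Bool) (u : GV xs.length ts.length) :
    shB xs ts g (shB xs ts h u) = shB xs ts (fun y => Bool.xor (g y) (h y)) u := by
  have hx : ∀ b x y : Bool, Bool.xor (Bool.xor b x) y = Bool.xor b (Bool.xor y x) := by decide
  cases u <;> simp only [shB, hx]

omit [DecidableEq κ] in
theorem shB_congr {g g' : Option κ → Bool} {u : GV xs.length ts.length}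
    (h : ∀ y ∈ keysOf xs ts u, g y = g' y) : shB xs ts g u = shB xs ts g' u := by
  cases u <;> simp only [shB, keysOf, List.mem_cons, List.not_mem_nil, or_false, forall_eq,
    forall_eq_or_imp] at h ⊢
  · rw [h]
  · rw [h]
  · rw [h]
  · rw [h]
  · rw [h.1, h.2.1]

omit [DecidableEq κ] in
theorem keysOf_shB (g : Option κ → Bool) (u : GV xs.length ts.length) :
    keysOf xs ts (shB xs ts g u) = keysOf xs ts u := by
  cases u <;> rfl

omit [DecidableEq κ] in
theorem shB_false (u : GV xs.length ts.length) : shB xs ts (fun _ => false) u = u := by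
  cases u <;> simp [shB]

omit [DecidableEq κ] in
theorem shB_inj (g : Option κ → Bool) {u u' : GV xs.length ts.length}
    (h : shB xs ts g u = shB xs ts g u') : u = u' := by
  have h1 := congrArg (shB xs ts g) h
  rw [shB_shB, shB_shB] at h1
  simpa [shB_false] using h1

end

theorem shB_dadjT (xs : List (κ × κ × κ)) (ts : List (κ × Bool)) (tw : κ × κ × κ → Bool)
    (g : Option κ → Bool) (u u' : GV xs.length ts.length) (hu : okV xs ts tw g u)
    (hu' : okV xs ts tw g u') :
    dadjT xs ts tw (shB xs ts g u) (shB xs ts g u') = dadj xs ts u u' := by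
  have hx : ∀ b b' c : Bool, (Bool.xor b c == Bool.xor b' c) = (b == b') := by decide
  cases u <;> cases u' <;> simp only [shB, dadjT, dadj]
  case fp.fp p s b q s' b' =>
    by_cases h : p = q
    · subst h; rw [hx]
    · simp [h]
  case fp.cp p s b q b' =>
    by_cases h : p = q
    · subst h; rw [hx]
    · simp [h]
  case cp.cp p b q b' =>
    by_cases h : isNext (portKeys xs ts) p q = true
    · have h1 : (portKeys xs ts)[p.val]? = (portKeys xs ts)[q.val]? := by
        unfold isNext at h
        rw [decide_eq_true_eq] at h
        exact h.2.1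
      have h2 : pkey xs ts p = pkey xs ts q := by
        unfold pkey
        rw [List.getElem?_eq_getElem (by rw [length_portKeys]; exact p.isLt),
          List.getElem?_eq_getElem (by rw [length_portKeys]; exact q.isLt)] at h1
        exact Option.some.inj h1
      rw [h2, hx]
    · simp [h]
  case op.fp v d b q s b' =>
    by_cases h : 3 * v.val + d.val = q.val
    · rw [pkey_op xs ts v d q h, hx]
    · simp [h]
  case gd.op v z0 z1 v' d b =>
    by_cases h : v = v'
    · subst h
      simp only [okV, par3] at hu
      simp only [decide_true, Bool.true_and]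
      rw [← hu]
      unfold gzT gz okey
      fin_cases d
      · simp only [if_true]
        exact hx _ _ _
      · simp only [if_true]
        exact hx _ _ _
      · simp only [Nat.reduceEqDiff, if_false]
        have : ∀ z0 z1 b x y z : Bool,
            (Bool.xor (Bool.xor x (Bool.xor y z)) (Bool.xor (Bool.xor z0 x) (Bool.xor z1 y)) ==
              Bool.xor b z) = (Bool.xor z0 z1 == b) := by decide
        exact this _ _ _ _ _ _
    · simp [h]
  case t1.fp j q s b =>
    by_cases h : 3 * xs.length + j.val = q.val
    · have h1 := pkey_ts xs ts j q h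
      have h2 : g (some (pkey xs ts q)) = false := by
        apply hu' (ts.get j).2
        rw [h1]
        exact List.get_mem ts j
      rw [h2, Bool.xor_false]
    · simp [h]

theorem shB_adjT (xs : List (κ × κ × κ)) (ts : List (κ × Bool)) (tw : κ × κ × κ → Bool)
    (g : Option κ → Bool) (u u' : GV xs.length ts.length) (hu : okV xs ts tw g u)
    (hu' : okV xs ts tw g u') :
    gadjT xs ts tw (shB xs ts g u) (shB xs ts g u') = gadj xs ts u u' := by
  unfold gadjT gadj
  rw [shB_dadjT xs ts tw g u u' hu hu', shB_dadjT xs ts tw g u' u hu' hu]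

/-- `y` is the key of a port (or `none`) -/
def goodKey (xs : List (κ × κ × κ)) {β : Type} (ts : List (κ × β)) : Option κ → Prop
  | none => True
  | some y => y ∈ portKeys xs ts

/-- vertex `cp p b` at the first port `p` with key `y` -/
def bcp (xs : List (κ × κ × κ)) {β : Type} (ts : List (κ × β)) (y : Option κ) (b : Bool) :
    GV xs.length ts.length :=
  match y with
  | none => .rl b
  | some y => if h : (portKeys xs ts).idxOf y < 3 * xs.length + ts.length then .cp ⟨_, h⟩ b
      else .rt

theorem bcp_eq {β : Type} {xs : List (κ × κ × κ)} {ts : List (κ × β)} {y : κ}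
    (hy : y ∈ portKeys xs ts) : ∃ p, pkey xs ts p = y ∧ ∀ b, bcp xs ts (some y) b = .cp p b := by
  have h : (portKeys xs ts).idxOf y < 3 * xs.length + ts.length := by
    rw [← length_portKeys]
    exact List.idxOf_lt_length_iff.mpr hy
  refine ⟨⟨_, h⟩, ?_, ?_⟩
  · unfold pkey
    exact List.getElem_idxOf _
  · intro b
    simp only [bcp]
    rw [dif_pos h]

end Crest.Agent.R290
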