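import Crest.Agent.R290.WLGame

/-!
# Row 290, module J1a (helper29): related lists of pebble pairs

`JL k G H l` : the pairs `(v, w) ∈ l` occur at common coordinates of two tuples with the same joint
colours at every round.
* `JL.mono`, `JL.symm`, `JL.eq_iff`, `JL.adj`, `JL.ext` (bijection step), `JL.extL`, `JL.extR`,
  `JL.comp` (composition through a third graph), `JEq.jl` (start).
-/

set_option autoImplicit false

open Finset
open Crest.WLRefine

namespace Crest.Agent.R290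

variable {V W U : Type} [Fintype V] [DecidableEq V] [Fintype W] [DecidableEq W]
  [Fintype U] [DecidableEq U]

/-- related lists of pebble pairs -/
def JL (k : ℕ) (G : V → V → Bool) (H : W → W → Bool) (l : List (V × W)) : Prop :=
  ∃ (v : Fin k → V) (w : Fin k → W), JT k G H v w ∧ ∀ p ∈ l, ∃ i, v i = p.1 ∧ w i = p.2

variable {k : ℕ} {G : V → V → Bool} {H : W → W → Bool} {I : U → U → Bool}

theorem JL.mono {l l' : List (V × W)} (h : JL k G H l) (hl : ∀ p ∈ l', p ∈ l) : JL k G H l' := by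
  obtain ⟨v, w, h1, h2⟩ := h
  exact ⟨v, w, h1, fun p hp => h2 p (hl p hp)⟩

theorem JL.symm {l : List (V × W)} (h : JL k G H l) : JL k H G (l.map Prod.swap) := by
  obtain ⟨v, w, h1, h2⟩ := h
  refine ⟨w, v, h1.symm, fun p hp => ?_⟩
  rw [List.mem_map] at hp
  obtain ⟨q, hq, rfl⟩ := hp
  obtain ⟨i, hi, hi'⟩ := h2 q hq
  exact ⟨i, hi', hi⟩

theorem JL.eq_iff {l : List (V × W)} (h : JL k G H l) {a b : V} {a' b' : W} (ha : (a, a') ∈ l)
    (hb : (b, b') ∈ l) : a = b ↔ a' = b' := by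
  obtain ⟨v, w, h1, h2⟩ := h
  obtain ⟨i, hi, hi'⟩ := h2 _ ha
  obtain ⟨j, hj, hj'⟩ := h2 _ hb
  have := h1.eq_iff i j
  simp only at hi hi' hj hj'
  rw [hi, hi', hj, hj'] at this
  exact this

theorem JL.adj {l : List (V × W)} (h : JL k G H l) {a b : V} {a' b' : W} (ha : (a, a') ∈ l)
    (hb : (b, b') ∈ l) : G a b = H a' b' := by
  obtain ⟨v, w, h1, h2⟩ := h
  obtain ⟨i, hi, hi'⟩ := h2 _ ha
  obtain ⟨j, hj, hj'⟩ := h2 _ hb
  have := h1.adj i j
  simp only at hi hi' hj hj'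
  rw [hi, hi', hj, hj'] at this
  exact this

theorem JL.ext {l : List (V × W)} (h : JL k G H l) (hl : l.length < k) :
    ∃ σ : V ≃ W, ∀ z, JL k G H ((z, σ z) :: l) := by
  obtain ⟨v, w, h1, h2⟩ := h
  have h3 : ∀ p : {p // p ∈ l}, ∃ i, v i = p.1.1 ∧ w i = p.1.2 := fun p => h2 p.1 p.2
  choose idx hidx using h3
  obtain ⟨i0, hi0⟩ : ∃ i0 : Fin k, ∀ p : {p // p ∈ l}, idx p ≠ i0 := by
    by_contra hcon
    push Not at hcon
    have hsurj : (l.attach.toFinset.image idx) = (univ : Finset (Fin k)) := by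
      rw [Finset.eq_univ_iff_forall]
      intro i
      obtain ⟨p, hp⟩ := hcon i
      rw [Finset.mem_image]
      exact ⟨p, by rw [List.mem_toFinset]; exact List.mem_attach _ _, hp⟩
    have hc := congrArg Finset.card hsurj
    rw [Finset.card_univ, Fintype.card_fin] at hc
    have h4 : (l.attach.toFinset.image idx).card ≤ l.length := by
      refine Finset.card_image_le.trans ?_
      refine (List.toFinset_card_le _).trans ?_
      rw [List.length_attach]
    omega
  obtain ⟨σ, hσ⟩ := (jt_bisim k G H).step v w h1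
  refine ⟨σ, fun z => ⟨_, _, hσ z i0, ?_⟩⟩
  intro p hp
  rw [List.mem_cons] at hp
  rcases hp with rfl | hp
  · exact ⟨i0, by simp⟩
  · refine ⟨idx ⟨p, hp⟩, ?_⟩
    rw [Function.update_of_ne (hi0 ⟨p, hp⟩), Function.update_of_ne (hi0 ⟨p, hp⟩)]
    exact hidx ⟨p, hp⟩

theorem JL.extL {l : List (V × W)} (h : JL k G H l) (hl : l.length < k) (z : V) :
    ∃ w, JL k G H ((z, w) :: l) := by
  obtain ⟨σ, hσ⟩ := h.ext hl
  exact ⟨σ z, hσ z⟩

theorem JL.extR {l : List (V × W)} (h : JL k G H l) (hl : l.length < k) (w : W) :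
    ∃ z, JL k G H ((z, w) :: l) := by
  obtain ⟨σ, hσ⟩ := h.ext hl
  exact ⟨σ.symm w, by simpa using hσ (σ.symm w)⟩

/-- composition: `l` is a list of triples -/
theorem JL.comp {l : List (V × W × U)} (hl : l.length ≤ k) (hl0 : l ≠ [])
    (h : JL k G H (l.map fun t => (t.1, t.2.1))) (h' : JL k H I (l.map fun t => (t.2.1, t.2.2))) :
    JL k G I (l.map fun t => (t.1, t.2.2)) := by
  obtain ⟨v, w, h1, h2⟩ := h
  obtain ⟨w', u, h1', h2'⟩ := h'
  have hpos : 0 < l.length := List.length_pos_iff.mpr hl0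
  have h3 : ∀ s : Fin l.length, ∃ i, v i = (l.get s).1 ∧ w i = (l.get s).2.1 := fun s =>
    h2 ((l.get s).1, (l.get s).2.1) (List.mem_map.mpr ⟨l.get s, List.get_mem l s, rfl⟩)
  have h3' : ∀ s : Fin l.length, ∃ i, w' i = (l.get s).2.1 ∧ u i = (l.get s).2.2 := fun s =>
    h2' ((l.get s).2.1, (l.get s).2.2) (List.mem_map.mpr ⟨l.get s, List.get_mem l s, rfl⟩)
  choose f hf using h3
  choose f' hf' using h3'
  have hlt : ∀ t : Fin k, min t.val (l.length - 1) < l.length := fun t =>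
    lt_of_le_of_lt (min_le_right _ _) (by omega)
  have e1 := h1.comp (fun t => f ⟨min t.val (l.length - 1), hlt t⟩)
  have e2 := h1'.comp (fun t => f' ⟨min t.val (l.length - 1), hlt t⟩)
  have e3 : (w ∘ fun t : Fin k => f ⟨min t.val (l.length - 1), hlt t⟩) =
      (w' ∘ fun t : Fin k => f' ⟨min t.val (l.length - 1), hlt t⟩) := by
    funext t
    simp only [Function.comp]
    rw [(hf _).2, (hf' _).1]
  rw [e3] at e1
  refine ⟨_, _, e1.trans e2, ?_⟩
  intro p hp
  rw [List.mem_map] at hp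
  obtain ⟨t, ht, rfl⟩ := hp
  obtain ⟨s, rfl⟩ := List.get_of_mem ht
  have hs : min s.val (l.length - 1) = s.val := by
    apply min_eq_left
    have := s.isLt
    omega
  refine ⟨⟨s.val, lt_of_lt_of_le s.isLt hl⟩, ?_⟩
  simp only [Function.comp, hs]
  exact ⟨(hf s).1, (hf' s).2⟩

/-- start -/
theorem JEq.jl (h : JEq k G H) (v : Fin k → V) : JL k G H [] := by
  obtain ⟨w, hw⟩ := h.exists_jt v
  exact ⟨v, w, hw, by simp⟩

end Crest.Agent.R290
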