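import Crest.Agent.R290.J1Defs
import Crest.Agent.R290.JRel

/-!
# Row 290, module J1a (helper29): a graph equivalent to `gadj` is a twisted `gadj`

`ShiftL k xs ts` : related lists of vertices of `gadj xs ts` with itself are shifts (from D1).
`j1a` : if `JEq k (gadj xs ts) H'` (`k ≥ 8`), then `H'` is isomorphic to `gadjT xs ts tw` for some `tw`.
Proof: base vertices `σ₀ (bcp y false)` for all keys `y`; a vertex `a` of `H'` and the base vertices of
its keys lift to `u` and `bcp y (g y)`; `a ↦ shB g u` does not depend on the lift.
-/

set_option autoImplicit false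

open Finset
open Crest.WLRefine

namespace Crest.Agent.R290

variable {κ : Type} [DecidableEq κ]

/-- related lists are shifts -/
def ShiftL (k : ℕ) (xs : List (κ × κ × κ)) (ts : List (κ × Bool)) : Prop :=
  ∀ l, JL k (gadj xs ts) (gadj xs ts) l → ∃ g : Option κ → Bool, ∀ p ∈ l,
    p.2 = shB xs ts g p.1 ∧ okV xs ts (fun _ => false) g p.1

theorem keysOf_mem {β : Type} {xs : List (κ × κ × κ)} {ts : List (κ × β)}
    {u : GV xs.length ts.length} {y : Option κ} (h : y ∈ keysOf xs ts u) : goodKey xs ts y := by
  have hp : ∀ p : Fin (3 * xs.length + ts.length), pkey xs ts p ∈ portKeys xs ts := fun p =>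
    List.getElem_mem _
  have ho : ∀ (v : Fin xs.length) (d : Fin 3), okey xs v d ∈ portKeys xs ts := by
    intro v d
    have hlt : 3 * v.val + d.val < 3 * xs.length + ts.length := by
      have := v.isLt
      have := d.isLt
      omega
    rw [← pkey_op xs ts v d ⟨3 * v.val + d.val, hlt⟩ rfl]
    exact hp _
  cases u <;> simp only [keysOf, List.mem_cons, List.not_mem_nil, or_false] at h
  · rw [h]; trivial
  · rw [h]; exact hp _
  · rw [h]; exact hp _
  · rw [h]; exact ho _ _
  · rcases h with h | h | h
    · rw [h]; exact ho _ 0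
    · rw [h]; exact ho _ 1
    · rw [h]; exact ho _ 2

theorem keysOf_len {β : Type} {xs : List (κ × κ × κ)} {ts : List (κ × β)}
    (u : GV xs.length ts.length) : (keysOf xs ts u).length ≤ 3 := by
  cases u <;> simp [keysOf]

section
variable {xs : List (κ × κ × κ)} {ts : List (κ × Bool)} {k : ℕ} {W : Type} [Fintype W]
  [DecidableEq W] {H' : W → W → Bool}

/-- pebbles on the base vertices of the keys `L`, lifts given by `g` -/
def basL (xs : List (κ × κ × κ)) (ts : List (κ × Bool)) (σ : GV xs.length ts.length ≃ W)
    (g : Option κ → Bool) (L : List (Option κ)) : List (GV xs.length ts.length × W) :=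
  L.map fun y => (bcp xs ts y (g y), σ (bcp xs ts y false))

theorem bcp_inj {y : Option κ} (hy : goodKey xs ts y) {b b' : Bool}
    (h : bcp xs ts y b = bcp xs ts y b') : b = b' := by
  cases y with
  | none => simpa [bcp] using h
  | some y =>
    obtain ⟨p, _, hp⟩ := bcp_eq (xs := xs) (ts := ts) hy
    rw [hp, hp] at h
    simpa using h

theorem shB_bcp {y : Option κ} (hy : goodKey xs ts y) (g : Option κ → Bool) (b : Bool) :
    shB xs ts g (bcp xs ts y b) = bcp xs ts y (Bool.xor b (g y)) := by
  cases y with
  | none => rfl
  | some y =>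
    obtain ⟨p, hp, hb⟩ := bcp_eq (xs := xs) (ts := ts) hy
    rw [hb, hb]
    simp only [shB, hp]

theorem exists_basL (hS : ShiftL k xs ts) (hk : 1 ≤ k) {σ : GV xs.length ts.length ≃ W}
    (hσ : ∀ z, JL k (gadj xs ts) H' [(z, σ z)]) (l : List (GV xs.length ts.length × W))
    (h : JL k (gadj xs ts) H' l) (L : List (Option κ)) (hL : ∀ y ∈ L, goodKey xs ts y)
    (hl : l.length + L.length ≤ k) :
    ∃ g, JL k (gadj xs ts) H' (l ++ basL xs ts σ g L) := by
  induction L with
  | nil => exact ⟨fun _ => false, h.mono (by simp [basL])⟩
  | cons y L ih =>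
    obtain ⟨g, hg⟩ := ih (fun y' hy' => hL y' (List.mem_cons_of_mem _ hy'))
      (by simp only [List.length_cons] at hl; omega)
    obtain ⟨z, hz⟩ := hg.extR (by
      simp only [basL, List.length_append, List.length_map]
      simp only [List.length_cons] at hl
      omega) (σ (bcp xs ts y false))
    have hy : goodKey xs ts y := hL y (by simp)
    -- `z` is a base vertex
    have h1 : JL k (gadj xs ts) H' [(z, σ (bcp xs ts y false))] := hz.mono (by
      intro p hp
      rw [List.mem_singleton] at hp
      rw [hp]
      exact List.mem_cons_self)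
    have h2 := (hσ (bcp xs ts y false)).symm
    have h3 : JL k (gadj xs ts) (gadj xs ts)
        ([(z, σ (bcp xs ts y false), bcp xs ts y false)].map fun t => (t.1, t.2.2)) :=
      JL.comp (by simpa using hk) (by simp) h1 h2
    obtain ⟨g', hg'⟩ := hS _ h3
    obtain ⟨hz1, _⟩ := hg' (z, bcp xs ts y false) (by simp)
    simp only at hz1
    have hz2 : z = bcp xs ts y (g' y) := by
      have := congrArg (shB xs ts g') hz1
      rw [shB_bcp hy, shB_shB] at this
      simp only [Bool.xor_self, shB_false, Bool.false_xor] at this
      exact this.symm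
    rw [hz2] at hz
    refine ⟨Function.update g y (g' y), hz.mono ?_⟩
    intro p hp
    rw [List.mem_append] at hp
    rcases hp with hp | hp
    · exact List.mem_cons_of_mem _ (List.mem_append_left _ hp)
    · simp only [basL, List.map_cons, List.mem_cons, List.mem_map, Function.update_self] at hp
      rcases hp with hp | ⟨y', hy', hp⟩
      · rw [hp]; exact List.mem_cons_self
      · by_cases hyy : y' = y
        · subst hyy
          rw [Function.update_self] at hp
          rw [← hp]; exact List.mem_cons_self
        · rw [Function.update_of_ne hyy] at hp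
          refine List.mem_cons_of_mem _ (List.mem_append_right _ ?_)
          rw [← hp]
          exact List.mem_map.mpr ⟨y', hy', rfl⟩

/-- two lifts differ by a shift -/
theorem lift_unique (hS : ShiftL k xs ts) {σ : GV xs.length ts.length ≃ W} {a : W}
    {u u' : GV xs.length ts.length} {g g' : Option κ → Bool} {L : List (Option κ)}
    (hL : ∀ y ∈ L, goodKey xs ts y) (hlen : L.length + 1 ≤ k)
    (h : JL k (gadj xs ts) H' ((u, a) :: basL xs ts σ g L))
    (h' : JL k (gadj xs ts) H' ((u', a) :: basL xs ts σ g' L)) :
    ∃ d : Option κ → Bool, u' = shB xs ts d u ∧ okV xs ts (fun _ => false) d u ∧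
      ∀ y ∈ L, g' y = Bool.xor (g y) (d y) := by
  have h2 := h'.symm
  have h3 : JL k (gadj xs ts) (gadj xs ts)
      (((u, a, u') :: L.map fun y => (bcp xs ts y (g y), σ (bcp xs ts y false),
        bcp xs ts y (g' y))).map fun t => (t.1, t.2.2)) := by
    refine JL.comp (H := H') (by simpa using hlen) (by simp) ?_ ?_
    · simpa [basL, Function.comp_def] using h
    · simpa [basL, Function.comp_def] using h2
  obtain ⟨d, hd⟩ := hS _ h3
  have e1 := hd (u, u') (by simp)
  refine ⟨d, e1.1, e1.2, ?_⟩
  intro y hy
  have e2 := (hd (bcp xs ts y (g y), bcp xs ts y (g' y)) (by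
    simp only [List.map_cons, List.map_map, List.mem_cons, List.mem_map, Function.comp]
    exact Or.inr ⟨y, hy, rfl⟩)).1
  simp only at e2
  rw [shB_bcp (hL y hy)] at e2
  exact bcp_inj (hL y hy) e2

/-- the shifted lift is unique -/
theorem shB_lift (hS : ShiftL k xs ts) {σ : GV xs.length ts.length ≃ W} {a : W}
    {u u' : GV xs.length ts.length} {g g' : Option κ → Bool} {L L' : List (Option κ)}
    (hL : ∀ y ∈ L, goodKey xs ts y) (hk : 4 ≤ k)
    (hLu : ∀ y ∈ keysOf xs ts u, y ∈ L) (hLu' : ∀ y ∈ keysOf xs ts u, y ∈ L')
    (h : JL k (gadj xs ts) H' ((u, a) :: basL xs ts σ g L))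
    (h' : JL k (gadj xs ts) H' ((u', a) :: basL xs ts σ g' L')) :
    shB xs ts g' u' = shB xs ts g u ∧ keysOf xs ts u' = keysOf xs ts u := by
  have key : ∀ (g : Option κ → Bool) (L : List (Option κ)) (u1 : GV xs.length ts.length),
      (∀ y ∈ keysOf xs ts u, y ∈ L) →
      JL k (gadj xs ts) H' ((u1, a) :: basL xs ts σ g L) →
      JL k (gadj xs ts) H' ((u1, a) :: basL xs ts σ g (keysOf xs ts u)) := by
    intro g L u1 hL h
    refine h.mono ?_
    intro p hp
    rw [List.mem_cons] at hp
    rcases hp with rfl | hp
    · exact List.mem_cons_self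
    · refine List.mem_cons_of_mem _ ?_
      simp only [basL, List.mem_map] at hp ⊢
      obtain ⟨y, hy, rfl⟩ := hp
      exact ⟨y, hL y hy, rfl⟩
  obtain ⟨d, hd1, _, hd3⟩ := lift_unique hS (fun y hy => keysOf_mem hy)
    (by have := keysOf_len u; omega) (key g L u hLu h) (key g' L' u' hLu' h')
  refine ⟨?_, by rw [hd1, keysOf_shB]⟩
  rw [hd1, shB_shB]
  apply shB_congr
  intro y hy
  rw [hd3 y hy, Bool.xor_assoc, Bool.xor_self, Bool.xor_false]

/-- parity is unique -/
theorem par_lift (hS : ShiftL k xs ts) {σ : GV xs.length ts.length ≃ W} {a : W}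
    {u' : GV xs.length ts.length} {v : Fin xs.length} {z0 z1 : Bool} {g g' : Option κ → Bool}
    {L L' : List (Option κ)} (hk : 4 ≤ k)
    (hLu : ∀ y ∈ keysOf xs ts (.gd v z0 z1 : GV xs.length ts.length), y ∈ L)
    (hLu' : ∀ y ∈ keysOf xs ts (.gd v z0 z1 : GV xs.length ts.length), y ∈ L')
    (h : JL k (gadj xs ts) H' ((.gd v z0 z1, a) :: basL xs ts σ g L))
    (h' : JL k (gadj xs ts) H' ((u', a) :: basL xs ts σ g' L')) :
    par3 g' (xs.get v) = par3 g (xs.get v) := by
  have key : ∀ (g : Option κ → Bool) (L : List (Option κ)) (u1 : GV xs.length ts.length),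
      (∀ y ∈ keysOf xs ts (.gd v z0 z1 : GV xs.length ts.length), y ∈ L) →
      JL k (gadj xs ts) H' ((u1, a) :: basL xs ts σ g L) →
      JL k (gadj xs ts) H' ((u1, a) :: basL xs ts σ g
        (keysOf xs ts (.gd v z0 z1 : GV xs.length ts.length))) := by
    intro g L u1 hL h
    refine h.mono ?_
    intro p hp
    rw [List.mem_cons] at hp
    rcases hp with rfl | hp
    · exact List.mem_cons_self
    · refine List.mem_cons_of_mem _ ?_
      simp only [basL, List.mem_map] at hp ⊢
      obtain ⟨y, hy, rfl⟩ := hp
      exact ⟨y, hL y hy, rfl⟩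
  obtain ⟨d, hd1, hd2, hd3⟩ := lift_unique hS (fun y hy => keysOf_mem hy)
    (by simp only [keysOf, List.length_cons, List.length_nil]; omega)
    (key g L _ hLu h) (key g' L' u' hLu' h')
  simp only [okV, par3] at hd2
  simp only [par3]
  rw [hd3 (some (xs.get v).1) (by simp [keysOf]), hd3 (some (xs.get v).2.1) (by simp [keysOf]),
    hd3 (some (xs.get v).2.2) (by simp [keysOf])]
  generalize d (some (xs.get v).1) = x at hd2 ⊢
  generalize d (some (xs.get v).2.1) = y at hd2 ⊢
  generalize d (some (xs.get v).2.2) = z at hd2 ⊢
  generalize g (some (xs.get v).1) = x' 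
  generalize g (some (xs.get v).2.1) = y' 
  generalize g (some (xs.get v).2.2) = z' 
  revert hd2
  revert x y z x' y' z'
  decide

end

/-- MAIN THEOREM of J1a -/
theorem j1a_of_shift (xs : List (κ × κ × κ)) (ts : List (κ × Bool)) {k : ℕ}
    (hS : ShiftL k xs ts) (hk : 8 ≤ k) {W : Type} [Fintype W] [DecidableEq W]
    (H' : W → W → Bool) (h : JEq k (gadj xs ts) H')
    (hc : Fintype.card (GV xs.length ts.length) = Fintype.card W) :
    ∃ (tw : κ × κ × κ → Bool) (e : W ≃ GV xs.length ts.length),
      ∀ a b, gadjT xs ts tw (e a) (e b) = H' a b := by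
  classical
  obtain ⟨σ, hσ⟩ := (h.jl (fun _ => GV.rt)).ext (by simp; omega)
  have hex : ∀ a : W, ∃ (u : GV xs.length ts.length) (g : Option κ → Bool),
      JL k (gadj xs ts) H' ((u, a) :: basL xs ts σ g (keysOf xs ts u)) := by
    intro a
    have h1 := hσ (σ.symm a)
    rw [Equiv.apply_symm_apply] at h1
    obtain ⟨g, hg⟩ := exists_basL hS (by omega) hσ _ h1 (keysOf xs ts (σ.symm a))
      (fun y hy => keysOf_mem hy) (by
        have := keysOf_len (xs := xs) (ts := ts) (σ.symm a)
        simp only [List.length_cons, List.length_nil]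
        omega)
    exact ⟨_, g, hg⟩
  choose U g hg using hex
  -- joint lifts
  have hjoint : ∀ a b : W, ∃ (u u' : GV xs.length ts.length) (g' : Option κ → Bool),
      JL k (gadj xs ts) H' ([(u, a), (u', b)] ++ basL xs ts σ g'
        (keysOf xs ts u ++ keysOf xs ts u')) := by
    intro a b
    have h1 := hσ (σ.symm a)
    rw [Equiv.apply_symm_apply] at h1
    obtain ⟨u', h2⟩ := h1.extR (by simp; omega) b
    have h2' : JL k (gadj xs ts) H' [(σ.symm a, a), (u', b)] := h2.mono (by
      intro p hp
      simp only [List.mem_cons, List.not_mem_nil, or_false] at hp ⊢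
      tauto)
    obtain ⟨g', h3⟩ := exists_basL hS (by omega) hσ _ h2' (keysOf xs ts (σ.symm a) ++
      keysOf xs ts u') (by
        intro y hy
        rw [List.mem_append] at hy
        rcases hy with hy | hy
        · exact keysOf_mem hy
        · exact keysOf_mem hy) (by
        have e1 := keysOf_len (xs := xs) (ts := ts) (σ.symm a)
        have e2 := keysOf_len (xs := xs) (ts := ts) u'
        simp only [List.length_cons, List.length_nil, List.length_append]
        omega)
    exact ⟨_, _, g', h3⟩
  -- the value at `a` from any joint lift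
  have hval : ∀ (a : W) (u : GV xs.length ts.length) (g' : Option κ → Bool) (L : List (Option κ)),
      (∀ y ∈ keysOf xs ts u, y ∈ L) → (∀ y ∈ L, goodKey xs ts y) →
      JL k (gadj xs ts) H' ((u, a) :: basL xs ts σ g' L) →
      shB xs ts (g a) (U a) = shB xs ts g' u ∧ keysOf xs ts (U a) = keysOf xs ts u := by
    intro a u g' L hL hL2 h1
    have h2 := shB_lift hS (L' := L) (fun y hy => keysOf_mem hy) (by omega) (fun y hy => hy)
      (fun y hy => hL y (by
        have e : keysOf xs ts (U a) = keysOf xs ts u := by
          have h3 : JL k (gadj xs ts) (gadj xs ts) ([(U a, a, u)].map fun t => (t.1, t.2.2)) := by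
            refine JL.comp (by simp; omega) (by simp) (H := H') ?_ ?_
            · exact (hg a).mono (by simp)
            · refine (h1.symm).mono ?_
              intro p hp
              simp only [List.map_cons, List.map_nil, List.mem_cons, List.not_mem_nil,
                or_false] at hp
              rw [hp]
              exact List.mem_cons_self
          obtain ⟨d, hd⟩ := hS _ h3
          have := (hd (U a, u) (by simp)).1
          simp only at this
          rw [this, keysOf_shB]
        rw [← e]; exact hy)) (hg a) h1
    exact ⟨h2.1.symm, h2.2.symm⟩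
  -- the twist
  set tw : κ × κ × κ → Bool := fun c => decide (∃ (a : W) (v : Fin xs.length) (z0 z1 : Bool)
    (g' : Option κ → Bool), xs.get v = c ∧ JL k (gadj xs ts) H'
      ((.gd v z0 z1, a) :: basL xs ts σ g' (keysOf xs ts (.gd v z0 z1 : GV xs.length ts.length))) ∧
      par3 g' c = true) with htw
  have htw1 : ∀ (a : W) (v : Fin xs.length) (z0 z1 : Bool) (g' : Option κ → Bool),
      JL k (gadj xs ts) H' ((.gd v z0 z1, a) :: basL xs ts σ g'
        (keysOf xs ts (.gd v z0 z1 : GV xs.length ts.length))) →
      par3 g' (xs.get v) = tw (xs.get v) := by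
    intro a v z0 z1 g' h1
    by_cases h2 : ∃ (a : W) (v' : Fin xs.length) (z0 z1 : Bool)
      (g' : Option κ → Bool), xs.get v' = xs.get v ∧ JL k (gadj xs ts) H'
      ((.gd v' z0 z1, a) :: basL xs ts σ g'
        (keysOf xs ts (.gd v' z0 z1 : GV xs.length ts.length))) ∧ par3 g' (xs.get v) = true
    · have h3 : tw (xs.get v) = true := by
        rw [htw]
        simp only [decide_eq_true_eq]
        exact h2
      rw [h3]
      obtain ⟨a', v', z0', z1', g'', hv', h4, h5⟩ := h2
      obtain ⟨u1, u2, gg, h6⟩ := hjoint a a'
      have p1 : par3 gg (xs.get v) = par3 g' (xs.get v) := by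
        have ek : keysOf xs ts (.gd v z0 z1 : GV xs.length ts.length) = keysOf xs ts u1 := by
          have h3 : JL k (gadj xs ts) (gadj xs ts)
              ([((.gd v z0 z1 : GV xs.length ts.length), a, u1)].map fun t => (t.1, t.2.2)) := by
            refine JL.comp (by simp; omega) (by simp) (H := H') ?_ ?_
            · exact h1.mono (by simp)
            · refine (h6.symm).mono ?_
              intro p hp
              simp only [List.map_cons, List.map_nil, List.mem_cons, List.not_mem_nil,
                or_false] at hp
              rw [hp]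
              exact List.mem_cons_self
          obtain ⟨d, hd⟩ := hS _ h3
          have := (hd (.gd v z0 z1, u1) (by simp)).1
          simp only at this
          rw [this, keysOf_shB]
        refine par_lift hS (u' := u1) (L := keysOf xs ts (.gd v z0 z1 : GV xs.length ts.length))
          (L' := keysOf xs ts u1 ++ keysOf xs ts u2) (by omega) (fun y hy => hy)
          (fun y hy => List.mem_append_left _ (ek ▸ hy)) h1 (h6.mono ?_)
        intro p hp
        rw [List.mem_cons] at hp
        rcases hp with rfl | hp
        · simp
        · exact List.mem_append_right _ hp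
      have p2 : par3 gg (xs.get v') = par3 g'' (xs.get v') := by
        have ek : keysOf xs ts (.gd v' z0' z1' : GV xs.length ts.length) = keysOf xs ts u2 := by
          have h3 : JL k (gadj xs ts) (gadj xs ts)
              ([((.gd v' z0' z1' : GV xs.length ts.length), a', u2)].map
                fun t => (t.1, t.2.2)) := by
            refine JL.comp (by simp; omega) (by simp) (H := H') ?_ ?_
            · exact h4.mono (by simp)
            · refine (h6.symm).mono ?_
              intro p hp
              simp only [List.map_cons, List.map_nil, List.mem_cons, List.not_mem_nil,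
                or_false] at hp
              rw [hp]
              simp
          obtain ⟨d, hd⟩ := hS _ h3
          have := (hd (.gd v' z0' z1', u2) (by simp)).1
          simp only at this
          rw [this, keysOf_shB]
        refine par_lift hS (u' := u2) (L := keysOf xs ts (.gd v' z0' z1' : GV xs.length ts.length))
          (L' := keysOf xs ts u1 ++ keysOf xs ts u2) (by omega) (fun y hy => hy)
          (fun y hy => List.mem_append_right _ (ek ▸ hy)) h4 (h6.mono ?_)
        intro p hp
        rw [List.mem_cons] at hp
        rcases hp with rfl | hp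
        · simp
        · exact List.mem_append_right _ hp
      rw [hv'] at p2
      rw [← p1, p2]
      exact h5
    · have h3 : tw (xs.get v) = false := by
        rw [htw]
        simp only [decide_eq_false_iff_not]
        exact h2
      rw [h3]
      by_contra hcon
      apply h2
      exact ⟨a, v, z0, z1, g', rfl, h1, by simpa using hcon⟩
  -- constraints at the lifts
  have hok : ∀ (a : W) (u : GV xs.length ts.length) (g' : Option κ → Bool),
      JL k (gadj xs ts) H' ((u, a) :: basL xs ts σ g' (keysOf xs ts u)) → okV xs ts tw g' u := by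
    intro a u g' h1
    have hun : ∀ y, some y ∈ keysOf xs ts u → ∀ β, (y, β) ∈ ts → g' (some y) = false := by
      intro y hy β hβ
      have hyp := keysOf_mem hy
      have h2 : JL k (gadj xs ts) (gadj xs ts)
          ([(bcp xs ts (some y) (g' (some y)), σ (bcp xs ts (some y) false), bcp xs ts (some y) false)].map
            fun t => (t.1, t.2.2)) := by
        refine JL.comp (by simp; omega) (by simp) (H := H') ?_ ?_
        · refine h1.mono ?_
          intro p hp
          simp only [List.map_cons, List.map_nil, List.mem_cons, List.not_mem_nil,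
            or_false] at hp
          rw [hp]
          exact List.mem_cons_of_mem _ (List.mem_map.mpr ⟨some y, hy, rfl⟩)
        · exact (hσ (bcp xs ts (some y) false)).symm
      obtain ⟨d, hd⟩ := hS _ h2
      obtain ⟨e1, e2⟩ := hd (bcp xs ts (some y) (g' (some y)), bcp xs ts (some y) false) (by simp)
      simp only at e1 e2
      rw [shB_bcp hyp] at e1
      have e3 := bcp_inj hyp e1
      obtain ⟨p, hp, hb⟩ := bcp_eq (xs := xs) (ts := ts) hyp
      rw [hb] at e2
      simp only [okV] at e2
      rw [hp] at e2
      have e4 := e2 β hβ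
      rw [e4, Bool.xor_false] at e3
      exact e3.symm
    cases u with
    | gd v z0 z1 => exact htw1 a v z0 z1 g' h1
    | fp p s b => exact fun β hβ => hun _ (by simp [keysOf]) β hβ
    | cp p b => exact fun β hβ => hun _ (by simp [keysOf]) β hβ
    | op v d b => exact fun β hβ => hun _ (by simp [keysOf]) β hβ
    | _ => trivial
  -- the map
  have hadj : ∀ a b, gadjT xs ts tw (shB xs ts (g a) (U a)) (shB xs ts (g b) (U b)) = H' a b ∧
      (shB xs ts (g a) (U a) = shB xs ts (g b) (U b) → a = b) := by
    intro a b
    obtain ⟨u, u', g', h1⟩ := hjoint a b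
    have h2 : JL k (gadj xs ts) H' ((u, a) :: basL xs ts σ g'
        (keysOf xs ts u ++ keysOf xs ts u')) := h1.mono (by
      intro p hp
      rw [List.mem_cons] at hp
      rcases hp with rfl | hp
      · simp
      · exact List.mem_append_right _ hp)
    have h3 : JL k (gadj xs ts) H' ((u', b) :: basL xs ts σ g'
        (keysOf xs ts u ++ keysOf xs ts u')) := h1.mono (by
      intro p hp
      rw [List.mem_cons] at hp
      rcases hp with rfl | hp
      · simp
      · exact List.mem_append_right _ hp)
    have hL2 : ∀ y ∈ keysOf xs ts u ++ keysOf xs ts u', goodKey xs ts y := by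
      intro y hy
      rw [List.mem_append] at hy
      rcases hy with hy | hy
      · exact keysOf_mem hy
      · exact keysOf_mem hy
    obtain ⟨e1, _⟩ := hval a u g' _ (fun y hy => List.mem_append_left _ hy) hL2 h2
    obtain ⟨e2, _⟩ := hval b u' g' _ (fun y hy => List.mem_append_right _ hy) hL2 h3
    have key : ∀ (u1 : GV xs.length ts.length) (a1 : W),
        (∀ y ∈ keysOf xs ts u1, y ∈ keysOf xs ts u ++ keysOf xs ts u') →
        JL k (gadj xs ts) H' ((u1, a1) :: basL xs ts σ g'
        (keysOf xs ts u ++ keysOf xs ts u')) → JL k (gadj xs ts) H' ((u1, a1) :: basL xs ts σ g'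
        (keysOf xs ts u1)) := by
      intro u1 a1 hs h
      refine h.mono ?_
      intro p hp
      rw [List.mem_cons] at hp
      rcases hp with rfl | hp
      · exact List.mem_cons_self
      · refine List.mem_cons_of_mem _ ?_
        simp only [basL, List.mem_map] at hp ⊢
        obtain ⟨y, hy, rfl⟩ := hp
        exact ⟨y, hs y hy, rfl⟩
    have ok1 := hok a u g' (key u a (fun y hy => List.mem_append_left _ hy) h2)
    have ok2 := hok b u' g' (key u' b (fun y hy => List.mem_append_right _ hy) h3)
    rw [e1, e2]
    refine ⟨?_, ?_⟩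
    · rw [shB_adjT xs ts tw g' u u' ok1 ok2]
      exact h1.adj (by simp) (by simp)
    · intro h4
      have h5 := shB_inj g' h4
      exact (h1.eq_iff (a := u) (b := u') (a' := a) (b' := b) (by simp) (by simp)).1 h5
  have hinj : Function.Injective fun a => shB xs ts (g a) (U a) := fun a b hab => (hadj a b).2 hab
  have hbij : Function.Bijective fun a => shB xs ts (g a) (U a) :=
    (Fintype.bijective_iff_injective_and_card _).mpr ⟨hinj, hc.symm⟩
  exact ⟨tw, Equiv.ofBijective _ hbij, fun a b => (hadj a b).1⟩

end Crest.Agent.R290
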