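import Crest.Agent.R290.EqDef
import Crest.Agent.R290.WLGame

/-!
# Row 290, module B: monotonicity, isomorphism, colour refinement, apex graphs (helper27)
-/

set_option autoImplicit false

open Finset
open Crest.WLRefine

namespace Crest.Agent.R290

variable {V W : Type} [Fintype V] [DecidableEq V] [Fintype W] [DecidableEq W]

/-! ### empty vertex sets -/

theorem jeq_of_isEmptyA {k : ℕ} (hk : 1 ≤ k) {G : V → V → Bool} {H : W → W → Bool} [IsEmpty V]
    [IsEmpty W] : JEq k G H := by
  haveI : Nonempty (Fin k) := ⟨⟨0, hk⟩⟩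
  haveI : IsEmpty (Fin k → V) := inferInstance
  haveI : IsEmpty (Fin k → W) := inferInstance
  exact jeq_iff_equiv.2 ⟨Equiv.equivOfIsEmpty _ _, fun v => (IsEmpty.false v).elim⟩

theorem seq_of_isEmptyA {k : ℕ} (hk : 1 ≤ k) {G : V → V → Bool} {H : W → W → Bool} [IsEmpty V]
    [IsEmpty W] : SEq k G H := by
  haveI : Nonempty (Fin k) := ⟨⟨0, hk⟩⟩
  haveI : IsEmpty (Fin k → V) := inferInstance
  haveI : IsEmpty (Fin k → W) := inferInstance
  exact seq_iff_equiv.2 ⟨Equiv.equivOfIsEmpty _ _, fun v => (IsEmpty.false v).elim⟩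

/-! ### monotonicity in the number of pebbles -/

theorem update_comp_inj {Z : Type} {k k' : ℕ} (f : Fin k' → Fin k) (hf : Function.Injective f)
    (x : Fin k → Z) (i : Fin k') (z : Z) :
    Function.update (x ∘ f) i z = Function.update x (f i) z ∘ f := by
  funext j
  by_cases h : j = i
  · subst h; simp
  · rw [Function.update_of_ne h]
    simp only [Function.comp]
    rw [Function.update_of_ne (fun h' => h (hf h'))]

theorem restrict_jBisim {k k' : ℕ} (f : Fin k' → Fin k) (hf : Function.Injective f)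
    (G : V → V → Bool) (H : W → W → Bool) :
    JBisim k' G H (fun v w => ∃ x y, JT k G H x y ∧ v = x ∘ f ∧ w = y ∘ f) := by
  constructor
  · rintro v w ⟨x, y, h, rfl, rfl⟩
    refine Prod.ext ?_ ?_
    · funext i j
      exact decide_eq_decide.2 (h.eq_iff _ _)
    · funext i j
      exact h.adj _ _
  · rintro v w ⟨x, y, h, rfl, rfl⟩
    obtain ⟨σ, hσ⟩ := (jt_bisim k G H).step x y h
    exact ⟨σ, fun z i => ⟨_, _, hσ z (f i), update_comp_inj f hf x i z,
      update_comp_inj f hf y i (σ z)⟩⟩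

theorem restrict_sBisim {k k' : ℕ} (f : Fin k' → Fin k) (hf : Function.Injective f)
    (G : V → V → Bool) (H : W → W → Bool) :
    SBisim k' G H (fun v w => ∃ x y, ST k G H x y ∧ v = x ∘ f ∧ w = y ∘ f) := by
  constructor
  · rintro v w ⟨x, y, h, rfl, rfl⟩
    refine Prod.ext ?_ ?_
    · funext i j
      exact decide_eq_decide.2 (h.eq_iff _ _)
    · funext i j
      exact h.adj _ _
  · rintro v w ⟨x, y, h, rfl, rfl⟩ i
    obtain ⟨σ, hσ⟩ := (st_bisim k G H).step x y h (f i)
    exact ⟨σ, fun z => ⟨_, _, hσ z, update_comp_inj f hf x i z,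
      update_comp_inj f hf y i (σ z)⟩⟩

theorem jeq_monoA {k k' : ℕ} {G : V → V → Bool} {H : W → W → Bool} (hk : 1 ≤ k') (hkk : k' ≤ k)
    (h : JEq k G H) : JEq k' G H := by
  have hc := card_eq_of_jeq (lt_of_lt_of_le hk hkk) h
  rcases isEmpty_or_nonempty V with hV | ⟨⟨a⟩⟩
  · haveI : IsEmpty W := by
      rw [← Fintype.card_eq_zero_iff, ← hc]
      exact Fintype.card_eq_zero
    exact jeq_of_isEmptyA hk
  · obtain ⟨y, hy⟩ := h.exists_jt (fun _ => a)
    exact jeq_of_bisim (restrict_jBisim (Fin.castLE hkk) (Fin.castLE_injective hkk) G H)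
      ⟨_, y, hy, rfl, rfl⟩

theorem seq_monoA {k k' : ℕ} {G : V → V → Bool} {H : W → W → Bool} (hk : 1 ≤ k') (hkk : k' ≤ k)
    (h : SEq k G H) : SEq k' G H := by
  have hc := card_eq_of_seq (lt_of_lt_of_le hk hkk) h
  rcases isEmpty_or_nonempty V with hV | ⟨⟨a⟩⟩
  · haveI : IsEmpty W := by
      rw [← Fintype.card_eq_zero_iff, ← hc]
      exact Fintype.card_eq_zero
    exact seq_of_isEmptyA hk
  · obtain ⟨y, hy⟩ := h.exists_st (fun _ => a)
    exact seq_of_bisim (restrict_sBisim (Fin.castLE hkk) (Fin.castLE_injective hkk) G H)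
      ⟨_, y, hy, rfl, rfl⟩

/-! ### with at least `card V` pebbles -/

theorem exists_surj_tuple {V : Type} [Fintype V] {k : ℕ} (hc : Fintype.card V ≤ k) (a : V) :
    ∃ v : Fin k → V, Function.Surjective v := by
  classical
  let e := Fintype.equivFin V
  refine ⟨fun i => if h : i.1 < Fintype.card V then e.symm ⟨i.1, h⟩ else a, ?_⟩
  intro b
  refine ⟨⟨(e b).1, lt_of_lt_of_le (e b).2 hc⟩, ?_⟩
  simp

theorem iso_of_jeq {k : ℕ} {G : V → V → Bool} {H : W → W → Bool} (hk : 1 ≤ k)
    (hc : Fintype.card V ≤ k) (h : JEq k G H) :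
    ∃ e : V ≃ W, ∀ a b, H (e a) (e b) = G a b := by
  have hcard := card_eq_of_jeq (Nat.lt_of_lt_of_le Nat.zero_lt_one hk) h
  rcases isEmpty_or_nonempty V with hV | ⟨⟨a⟩⟩
  · haveI : IsEmpty W := by
      rw [← Fintype.card_eq_zero_iff, ← hcard]
      exact Fintype.card_eq_zero
    exact ⟨Equiv.equivOfIsEmpty _ _, fun a => isEmptyElim a⟩
  · obtain ⟨v, hv⟩ := exists_surj_tuple hc a
    obtain ⟨w, hw⟩ := h.exists_jt v
    choose s hs using hv
    have hinj : Function.Injective fun b => w (s b) := by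
      intro b c hbc
      have := (hw.eq_iff (s b) (s c)).2 hbc
      rwa [hs, hs] at this
    have hbij : Function.Bijective fun b => w (s b) :=
      (Fintype.bijective_iff_injective_and_card _).2 ⟨hinj, hcard⟩
    refine ⟨Equiv.ofBijective _ hbij, ?_⟩
    intro b c
    have := hw.adj (s b) (s c)
    rw [hs, hs] at this
    exact this.symm

/-! ### colour refinement -/

theorem crcolor_eq_of_jt {n m k : ℕ} {G : Fin n → Fin n → Bool} {H : Fin m → Fin m → Bool}
    (hk : 2 ≤ k) (s : ℕ) : ∀ (v : Fin k → Fin n) (w : Fin k → Fin m) (i : Fin k),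
      JT k G H v w → crcolor G s (v i) = crcolor H s (w i) := by
  induction s with
  | zero => intro v w i _; rfl
  | succ s ih =>
    intro v w i h
    simp only [crcolor]
    refine Prod.ext (ih v w i h) ?_
    obtain ⟨σ, hσ, h1, h2, h3⟩ := h.step' hk
    obtain ⟨j, hj⟩ := exists_ne_fin hk i
    have hcol : ∀ z, crcolor G s z = crcolor H s (σ z) := by
      intro z
      have := ih _ _ j (hσ z j)
      rwa [Function.update_self, Function.update_self] at this
    change (Multiset.map (crcolor G s) (univ.filter fun w => G (v i) w = true).val) =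
      (Multiset.map (crcolor H s) (univ.filter fun z => H (w i) z = true).val)
    have hfil : (univ.filter fun z => H (w i) z = true) =
        (univ.filter fun z => G (v i) z = true).map σ.toEmbedding := by
      ext b
      simp only [mem_filter, mem_univ, true_and, mem_map, Equiv.coe_toEmbedding]
      constructor
      · intro hb
        refine ⟨σ.symm b, ?_, by simp⟩
        rw [h2]
        simpa using hb
      · rintro ⟨z, hz, rfl⟩
        rw [← h2]
        exact hz
    rw [hfil]
    simp only [Finset.map_val, Multiset.map_map]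
    apply Multiset.map_congr rfl
    intro z _
    exact hcol z

theorem crequiv_of_jeq {n m k : ℕ} {G : Fin n → Fin n → Bool} {H : Fin m → Fin m → Bool}
    (hk : 2 ≤ k) (h : JEq k G H) : CREquiv G H := by
  intro s
  have hcard := card_eq_of_jeq (by omega) h
  rcases isEmpty_or_nonempty (Fin n) with hV | ⟨⟨a⟩⟩
  · haveI : IsEmpty (Fin m) := by
      rw [← Fintype.card_eq_zero_iff, ← hcard]
      exact Fintype.card_eq_zero
    exact map_eq_of_equiv _ _ (Equiv.equivOfIsEmpty _ _) (fun a => isEmptyElim a)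
  · obtain ⟨y, hy⟩ := h.exists_jt (fun _ => a)
    obtain ⟨σ, hσ⟩ := (jt_bisim k G H).step _ _ hy
    refine map_eq_of_equiv _ _ σ ?_
    intro z
    have := crcolor_eq_of_jt hk s _ _ ⟨0, by omega⟩ (hσ z ⟨0, by omega⟩)
    rwa [Function.update_self, Function.update_self] at this

/-! ### unary properties seen by colours -/

theorem JT.univ_iff {k : ℕ} (hk : 2 ≤ k) {G : V → V → Bool} {H : W → W → Bool} {v : Fin k → V}
    {w : Fin k → W} (h : JT k G H v w) (i : Fin k) :
    (∀ z, z ≠ v i → G (v i) z = true) ↔ (∀ z, z ≠ w i → H (w i) z = true) := by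
  obtain ⟨σ, -, h1, h2, -⟩ := h.step' hk
  constructor
  · intro hu z hz
    have h3 := h2 i (σ.symm z)
    rw [Equiv.apply_symm_apply] at h3
    rw [← h3]
    apply hu
    intro h4
    apply hz
    rw [← h1 i, ← h4, Equiv.apply_symm_apply]
  · intro hu z hz
    rw [h2]
    apply hu
    intro h4
    apply hz
    rw [← h1 i] at h4
    exact σ.injective h4

theorem JT.pend_iff {k : ℕ} (hk : 2 ≤ k) {G : V → V → Bool} {H : W → W → Bool} {v : Fin k → V}
    {w : Fin k → W} (h : JT k G H v w) (i : Fin k) :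
    (∀ z z', G (v i) z = true → G (v i) z' = true → z = z') ↔
      (∀ z z', H (w i) z = true → H (w i) z' = true → z = z') := by
  obtain ⟨σ, -, h1, h2, -⟩ := h.step' hk
  constructor
  · intro hu z z' hz hz'
    have h3 := h2 i (σ.symm z)
    have h4 := h2 i (σ.symm z')
    rw [Equiv.apply_symm_apply] at h3 h4
    have := hu _ _ (h3.trans hz) (h4.trans hz')
    exact σ.symm.injective this
  · intro hu z z' hz hz'
    apply σ.injective
    apply hu
    · rw [← h2]; exact hz
    · rw [← h2]; exact hz'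

theorem ST.univ_iff {k : ℕ} (hk : 2 ≤ k) {G : V → V → Bool} {H : W → W → Bool} {v : Fin k → V}
    {w : Fin k → W} (h : ST k G H v w) (i : Fin k) :
    (∀ z, z ≠ v i → G (v i) z = true) ↔ (∀ z, z ≠ w i → H (w i) z = true) := by
  obtain ⟨j, hj⟩ := exists_ne_fin hk i
  obtain ⟨σ, -, h1, h2, -⟩ := h.step' j
  have h1 := h1 i hj.symm
  have h2 := h2 i hj.symm
  constructor
  · intro hu z hz
    have h3 := h2 (σ.symm z)
    rw [Equiv.apply_symm_apply] at h3
    rw [← h3]
    apply hu
    intro h4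
    apply hz
    rw [← h1, ← h4, Equiv.apply_symm_apply]
  · intro hu z hz
    rw [h2]
    apply hu
    intro h4
    apply hz
    rw [← h1] at h4
    exact σ.injective h4

theorem ST.pend_iff {k : ℕ} (hk : 2 ≤ k) {G : V → V → Bool} {H : W → W → Bool} {v : Fin k → V}
    {w : Fin k → W} (h : ST k G H v w) (i : Fin k) :
    (∀ z z', G (v i) z = true → G (v i) z' = true → z = z') ↔
      (∀ z z', H (w i) z = true → H (w i) z' = true → z = z') := by
  obtain ⟨j, hj⟩ := exists_ne_fin hk i
  obtain ⟨σ, -, h1, h2, -⟩ := h.step' j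
  have h2 := h2 i hj.symm
  constructor
  · intro hu z z' hz hz'
    have h3 := h2 (σ.symm z)
    have h4 := h2 (σ.symm z')
    rw [Equiv.apply_symm_apply] at h3 h4
    have := hu _ _ (h3.trans hz) (h4.trans hz')
    exact σ.symm.injective this
  · intro hu z z' hz hz'
    apply σ.injective
    apply hu
    · rw [← h2]; exact hz
    · rw [← h2]; exact hz'

/-! ### apex graphs -/

/-- apex (`inr 0`) adjacent to everything, `p` further vertices adjacent only to the apex -/
def apexAdj {V : Type} (p : ℕ) (adj : V → V → Bool) : V ⊕ Fin (p + 1) → V ⊕ Fin (p + 1) → Bool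
  | .inl a, .inl b => adj a b
  | .inl _, .inr j => decide (j.val = 0)
  | .inr i, .inl _ => decide (i.val = 0)
  | .inr i, .inr j => Bool.xor (decide (i.val = 0)) (decide (j.val = 0))

theorem apex_inl_iff {V : Type} (p : ℕ) {G : V → V → Bool} (hn : ∀ a, ∃ b, G a b = true)
    (hc : ∀ a, ∃ b, a ≠ b ∧ G a b = false) (u : V ⊕ Fin (p + 1)) :
    (∃ a, u = Sum.inl a) ↔ ¬ (∀ z, z ≠ u → apexAdj p G u z = true) ∧
      ¬ (∀ z z', apexAdj p G u z = true → apexAdj p G u z' = true → z = z') := by
  rcases u with a | j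
  · refine iff_of_true ⟨a, rfl⟩ ⟨?_, ?_⟩
    · intro hu
      obtain ⟨b, hab, hb⟩ := hc a
      have := hu (Sum.inl b) (fun h => hab (Sum.inl.inj h).symm)
      simp [apexAdj, hb] at this
    · intro hu
      obtain ⟨b, hb⟩ := hn a
      have := hu (Sum.inl b) (Sum.inr 0) (by simp [apexAdj, hb]) (by simp [apexAdj])
      cases this
  · refine iff_of_false (by rintro ⟨a, ha⟩; cases ha) ?_
    rintro ⟨h1, h2⟩
    by_cases hj : j.val = 0
    · apply h1
      intro z hz
      rcases z with a | i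
      · simp [apexAdj, hj]
      · have : i.val ≠ 0 := by
          intro hi
          apply hz
          rw [Fin.ext (hi.trans hj.symm)]
        simp [apexAdj, hj, this]
    · apply h2
      intro z z' hz hz'
      have key : ∀ z, apexAdj p G (Sum.inr j) z = true → z = Sum.inr 0 := by
        intro z hz
        rcases z with a | i
        · simp [apexAdj, hj] at hz
        · simp [apexAdj, hj] at hz
          rw [hz]
      rw [key z hz, key z' hz']

/-- a bijection of sums that respects the left summands restricts -/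
theorem restrict_inl {V W P Q : Type} (σ : V ⊕ P ≃ W ⊕ Q) (h1 : ∀ a, ∃ b, σ (Sum.inl a) = Sum.inl b)
    (h2 : ∀ b, ∃ a, σ (Sum.inl a) = Sum.inl b) : ∃ τ : V ≃ W, ∀ a, σ (Sum.inl a) = Sum.inl (τ a) := by
  choose f hf using h1
  have hinj : Function.Injective f := by
    intro a b hab
    have : σ (Sum.inl a) = σ (Sum.inl b) := by rw [hf, hf, hab]
    exact Sum.inl.inj (σ.injective this)
  have hsurj : Function.Surjective f := by
    intro b
    obtain ⟨a, ha⟩ := h2 b
    refine ⟨a, ?_⟩
    rw [hf] at ha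
    exact Sum.inl.inj ha
  exact ⟨Equiv.ofBijective f ⟨hinj, hsurj⟩, hf⟩

theorem inl_comp_update {V P : Type} {k : ℕ} (v : Fin k → V) (i : Fin k) (a : V) :
    (Sum.inl ∘ Function.update v i a : Fin k → V ⊕ P) =
      Function.update (Sum.inl ∘ v) i (Sum.inl a) := by
  funext j
  by_cases h : j = i
  · subst h; simp
  · simp [Function.update_of_ne h]

/-- the lifted relation on tuples of the apex graphs -/
def ApexRel {V W P : Type} {k : ℕ} (R : (Fin k → V) → (Fin k → W) → Prop)
    (x : Fin k → V ⊕ P) (y : Fin k → W ⊕ P) : Prop :=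
  ∃ (v : Fin k → V) (w : Fin k → W), R v w ∧
    ∀ i, (x i = Sum.inl (v i) ∧ y i = Sum.inl (w i)) ∨ (∃ j, x i = Sum.inr j ∧ y i = Sum.inr j)

omit [Fintype V] [Fintype W] in
theorem apexRel_atom {k p : ℕ} {G : V → V → Bool} {H : W → W → Bool}
    {R : (Fin k → V) → (Fin k → W) → Prop} (hR : ∀ v w, R v w → gatom G v = gatom H w)
    (x : Fin k → V ⊕ Fin (p + 1)) (y : Fin k → W ⊕ Fin (p + 1)) (h : ApexRel R x y) :
    gatom (apexAdj p G) x = gatom (apexAdj p H) y := by
  obtain ⟨v, w, h1, hi⟩ := h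
  have a1 := hR v w h1
  have e1 : ∀ i j, (v i = v j) ↔ (w i = w j) := fun i j =>
    decide_eq_decide.1 (congrFun (congrFun (congrArg Prod.fst a1) i) j)
  have g1 : ∀ i j, G (v i) (v j) = H (w i) (w j) := fun i j =>
    congrFun (congrFun (congrArg Prod.snd a1) i) j
  refine Prod.ext ?_ ?_
  · funext i j
    refine decide_eq_decide.2 ?_
    rcases hi i with ⟨hx, hy⟩ | ⟨a, hx, hy⟩ <;> rcases hi j with ⟨hx', hy'⟩ | ⟨b, hx', hy'⟩ <;>
      rw [hx, hy, hx', hy'] <;> simp [e1]
  · funext i j
    change apexAdj p G (x i) (x j) = apexAdj p H (y i) (y j)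
    rcases hi i with ⟨hx, hy⟩ | ⟨a, hx, hy⟩ <;> rcases hi j with ⟨hx', hy'⟩ | ⟨b, hx', hy'⟩ <;>
      rw [hx, hy, hx', hy'] <;> simp [apexAdj, g1]

theorem apexRel_update {V W P : Type} {k : ℕ} {R : (Fin k → V) → (Fin k → W) → Prop}
    {v : Fin k → V} {w : Fin k → W} (h : R v w) {x : Fin k → V ⊕ P} {y : Fin k → W ⊕ P}
    (hi : ∀ i, (x i = Sum.inl (v i) ∧ y i = Sum.inl (w i)) ∨ (∃ j, x i = Sum.inr j ∧ y i = Sum.inr j))
    (σ : V ≃ W) (i : Fin k) (hσ : ∀ z, R (Function.update v i z) (Function.update w i (σ z)))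
    (z : V ⊕ P) :
    ApexRel R (Function.update x i z)
      (Function.update y i (Equiv.sumCongr σ (Equiv.refl P) z)) := by
  rcases z with a | b
  · refine ⟨Function.update v i a, Function.update w i (σ a), hσ a, ?_⟩
    intro j
    by_cases hj : j = i
    · subst hj
      left
      exact ⟨by rw [Function.update_self, Function.update_self],
        by rw [Function.update_self, Function.update_self]; rfl⟩
    · simp only [Function.update_of_ne hj]
      exact hi j
  · refine ⟨v, w, h, ?_⟩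
    intro j
    by_cases hj : j = i
    · subst hj
      right
      exact ⟨b, by rw [Function.update_self], by rw [Function.update_self]; rfl⟩
    · simp only [Function.update_of_ne hj]
      exact hi j

theorem apexRel_jBisim (k p : ℕ) (G : V → V → Bool) (H : W → W → Bool) :
    JBisim k (apexAdj p G) (apexAdj p H) (ApexRel (JT k G H)) := by
  refine ⟨apexRel_atom (jt_bisim k G H).atom, ?_⟩
  rintro x y ⟨v, w, h1, hi⟩
  obtain ⟨σ, hσ⟩ := (jt_bisim k G H).step v w h1
  exact ⟨Equiv.sumCongr σ (Equiv.refl _), fun z i => apexRel_update h1 hi σ i (fun z => hσ z i) z⟩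

theorem apexRel_sBisim (k p : ℕ) (G : V → V → Bool) (H : W → W → Bool) :
    SBisim k (apexAdj p G) (apexAdj p H) (ApexRel (ST k G H)) := by
  refine ⟨apexRel_atom (st_bisim k G H).atom, ?_⟩
  rintro x y ⟨v, w, h1, hi⟩ i
  obtain ⟨σ, hσ⟩ := (st_bisim k G H).step v w h1 i
  exact ⟨Equiv.sumCongr σ (Equiv.refl _), fun z => apexRel_update h1 hi σ i hσ z⟩

theorem apex_iso_of_isEmpty (p : ℕ) (G : V → V → Bool) (H : W → W → Bool) [IsEmpty V] [IsEmpty W] :
    ∃ e : V ⊕ Fin (p + 1) ≃ W ⊕ Fin (p + 1),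
      ∀ a b, apexAdj p H (e a) (e b) = apexAdj p G a b := by
  refine ⟨Equiv.sumCongr (Equiv.equivOfIsEmpty _ _) (Equiv.refl _), ?_⟩
  intro a b
  rcases a with a | a
  · exact isEmptyElim a
  · rcases b with b | b
    · exact isEmptyElim b
    · rfl

theorem jeq_apex_of_jeq {k : ℕ} (hk : 1 ≤ k) (p : ℕ) {G : V → V → Bool} {H : W → W → Bool}
    (h : JEq k G H) : JEq k (apexAdj p G) (apexAdj p H) := by
  have hcard := card_eq_of_jeq (by omega) h
  rcases isEmpty_or_nonempty V with hV | ⟨⟨a⟩⟩
  · haveI : IsEmpty W := by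
      rw [← Fintype.card_eq_zero_iff, ← hcard]
      exact Fintype.card_eq_zero
    obtain ⟨e, he⟩ := apex_iso_of_isEmpty p G H
    exact jeq_of_iso k _ _ e he
  · obtain ⟨w, hw⟩ := h.exists_jt (fun _ => a)
    exact jeq_of_bisim (apexRel_jBisim k p G H) (v := fun _ => Sum.inl a) (w := Sum.inl ∘ w)
      ⟨_, w, hw, fun i => Or.inl ⟨rfl, rfl⟩⟩

theorem seq_apex_of_seq {k : ℕ} (hk : 1 ≤ k) (p : ℕ) {G : V → V → Bool} {H : W → W → Bool}
    (h : SEq k G H) : SEq k (apexAdj p G) (apexAdj p H) := by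
  have hcard := card_eq_of_seq (by omega) h
  rcases isEmpty_or_nonempty V with hV | ⟨⟨a⟩⟩
  · haveI : IsEmpty W := by
      rw [← Fintype.card_eq_zero_iff, ← hcard]
      exact Fintype.card_eq_zero
    obtain ⟨e, he⟩ := apex_iso_of_isEmpty p G H
    exact seq_of_iso k _ _ e he
  · obtain ⟨w, hw⟩ := h.exists_st (fun _ => a)
    exact seq_of_bisim (apexRel_sBisim k p G H) (v := fun _ => Sum.inl a) (w := Sum.inl ∘ w)
      ⟨_, w, hw, fun i => Or.inl ⟨rfl, rfl⟩⟩

section back
variable {k p : ℕ} {G : V → V → Bool} {H : W → W → Bool}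
  (hn : ∀ a, ∃ b, G a b = true) (hc : ∀ a, ∃ b, a ≠ b ∧ G a b = false)
  (hn' : ∀ a, ∃ b, H a b = true) (hc' : ∀ a, ∃ b, a ≠ b ∧ H a b = false)

include hn hc hn' hc'

theorem jt_apex_inl (hk : 2 ≤ k) {x : Fin k → V ⊕ Fin (p + 1)} {y : Fin k → W ⊕ Fin (p + 1)}
    (h : JT k (apexAdj p G) (apexAdj p H) x y) (i : Fin k) :
    (∃ a, x i = Sum.inl a) ↔ (∃ b, y i = Sum.inl b) := by
  rw [apex_inl_iff p hn hc, apex_inl_iff p hn' hc', h.univ_iff hk i, h.pend_iff hk i]

theorem st_apex_inl (hk : 2 ≤ k) {x : Fin k → V ⊕ Fin (p + 1)} {y : Fin k → W ⊕ Fin (p + 1)}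
    (h : ST k (apexAdj p G) (apexAdj p H) x y) (i : Fin k) :
    (∃ a, x i = Sum.inl a) ↔ (∃ b, y i = Sum.inl b) := by
  rw [apex_inl_iff p hn hc, apex_inl_iff p hn' hc', h.univ_iff hk i, h.pend_iff hk i]

theorem apex_back_jBisim (hk : 2 ≤ k) :
    JBisim k G H (fun v w => JT k (apexAdj p G) (apexAdj p H) (Sum.inl ∘ v) (Sum.inl ∘ w)) := by
  constructor
  · intro v w h
    refine Prod.ext ?_ ?_
    · funext i j
      refine decide_eq_decide.2 ?_
      have := h.eq_iff i j
      simpa using this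
    · funext i j
      exact h.adj i j
  · intro v w h
    obtain ⟨σ, hσ⟩ := (jt_bisim _ _ _).step _ _ h
    have i0 : Fin k := ⟨0, by omega⟩
    obtain ⟨τ, hτ⟩ := restrict_inl σ
      (fun a => by
        have := (jt_apex_inl hn hc hn' hc' hk (hσ (Sum.inl a) i0) i0).1
          ⟨a, by rw [Function.update_self]⟩
        rwa [Function.update_self] at this)
      (fun b => by
        have h1 := hσ (σ.symm (Sum.inl b)) i0
        rw [Equiv.apply_symm_apply] at h1
        have := (jt_apex_inl hn hc hn' hc' hk h1 i0).2 ⟨b, by rw [Function.update_self]⟩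
        rw [Function.update_self] at this
        obtain ⟨a, ha⟩ := this
        exact ⟨a, by rw [← ha, Equiv.apply_symm_apply]⟩)
    refine ⟨τ, fun z i => ?_⟩
    rw [inl_comp_update, inl_comp_update, ← hτ]
    exact hσ _ i

theorem apex_back_sBisim (hk : 2 ≤ k) :
    SBisim k G H (fun v w => ST k (apexAdj p G) (apexAdj p H) (Sum.inl ∘ v) (Sum.inl ∘ w)) := by
  constructor
  · intro v w h
    refine Prod.ext ?_ ?_
    · funext i j
      refine decide_eq_decide.2 ?_
      have := h.eq_iff i j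
      simpa using this
    · funext i j
      exact h.adj i j
  · intro v w h i
    obtain ⟨σ, hσ⟩ := (st_bisim _ _ _).step _ _ h i
    obtain ⟨τ, hτ⟩ := restrict_inl σ
      (fun a => by
        have := (st_apex_inl hn hc hn' hc' hk (hσ (Sum.inl a)) i).1
          ⟨a, by rw [Function.update_self]⟩
        rwa [Function.update_self] at this)
      (fun b => by
        have h1 := hσ (σ.symm (Sum.inl b))
        rw [Equiv.apply_symm_apply] at h1
        have := (st_apex_inl hn hc hn' hc' hk h1 i).2 ⟨b, by rw [Function.update_self]⟩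
        rw [Function.update_self] at this
        obtain ⟨a, ha⟩ := this
        exact ⟨a, by rw [← ha, Equiv.apply_symm_apply]⟩)
    refine ⟨τ, fun z => ?_⟩
    rw [inl_comp_update, inl_comp_update, ← hτ]
    exact hσ _

theorem jeq_of_jeq_apex (hk : 2 ≤ k) (h : JEq k (apexAdj p G) (apexAdj p H)) : JEq k G H := by
  have hcard := card_eq_of_jeq (by omega) h
  rw [Fintype.card_sum, Fintype.card_sum] at hcard
  rcases isEmpty_or_nonempty V with hV | ⟨⟨a⟩⟩
  · haveI : IsEmpty W := by
      rw [← Fintype.card_eq_zero_iff]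
      have : Fintype.card V = 0 := Fintype.card_eq_zero
      omega
    exact jeq_of_isEmptyA (by omega)
  · obtain ⟨y, hy⟩ := h.exists_jt (fun _ => Sum.inl a)
    have := fun i => (jt_apex_inl hn hc hn' hc' hk hy i).1 ⟨a, rfl⟩
    choose w hw using this
    have hyw : y = Sum.inl ∘ w := funext hw
    subst hyw
    exact jeq_of_bisim (apex_back_jBisim hn hc hn' hc' hk) (v := fun _ => a) (w := w) hy

theorem seq_of_seq_apex (hk : 2 ≤ k) (h : SEq k (apexAdj p G) (apexAdj p H)) : SEq k G H := by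
  have hcard := card_eq_of_seq (by omega) h
  rw [Fintype.card_sum, Fintype.card_sum] at hcard
  rcases isEmpty_or_nonempty V with hV | ⟨⟨a⟩⟩
  · haveI : IsEmpty W := by
      rw [← Fintype.card_eq_zero_iff]
      have : Fintype.card V = 0 := Fintype.card_eq_zero
      omega
    exact seq_of_isEmptyA (by omega)
  · obtain ⟨y, hy⟩ := h.exists_st (fun _ => Sum.inl a)
    have := fun i => (st_apex_inl hn hc hn' hc' hk hy i).1 ⟨a, rfl⟩
    choose w hw using this
    have hyw : y = Sum.inl ∘ w := funext hw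
    subst hyw
    exact seq_of_bisim (apex_back_sBisim hn hc hn' hc' hk) (v := fun _ => a) (w := w) hy

end back

end Crest.Agent.R290
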