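import Crest.Agent.R290.Defs
import Crest.Prelude.Def_ParityLift

/-!
# Row 290, module B: Weisfeiler-Leman basics (bisimulation form), over arbitrary finite vertex types

Uses `gatom, gj, gs, JEq, SEq` of `Defs.lean`.
* `JT k G H v w` (`ST`): equal joint (separate) colours of the tuples `v`, `w` at every round.
* `JBisim k G H R` (`SBisim`): `R` is a Duplicator strategy (same atomic type + one step of the
  bijective pebble game).  `JT` is the largest `JBisim`, `ST` the largest `SBisim`.
-/

set_option autoImplicit false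

open Finset
open Crest.WLRefine Crest.WLRefine.ParityLift

namespace Crest.Agent.R290

variable {V W U : Type} [Fintype V] [DecidableEq V] [Fintype W] [DecidableEq W]
  [Fintype U] [DecidableEq U]

/-- equal joint colours at every round -/
def JT (k : ℕ) (G : V → V → Bool) (H : W → W → Bool) (v : Fin k → V) (w : Fin k → W) : Prop :=
  ∀ s, gj G k s v = gj H k s w

/-- equal separate colours at every round -/
def ST (k : ℕ) (G : V → V → Bool) (H : W → W → Bool) (v : Fin k → V) (w : Fin k → W) : Prop :=
  ∀ s, gs G k s v = gs H k s w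

/-- Duplicator strategy for the joint convention (bijective game; `z` may go to every coordinate). -/
structure JBisim (k : ℕ) (G : V → V → Bool) (H : W → W → Bool)
    (R : (Fin k → V) → (Fin k → W) → Prop) : Prop where
  atom : ∀ v w, R v w → gatom G v = gatom H w
  step : ∀ v w, R v w → ∃ σ : V ≃ W, ∀ z i, R (Function.update v i z) (Function.update w i (σ z))

/-- Duplicator strategy for the separate convention. -/
structure SBisim (k : ℕ) (G : V → V → Bool) (H : W → W → Bool)
    (R : (Fin k → V) → (Fin k → W) → Prop) : Prop where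
  atom : ∀ v w, R v w → gatom G v = gatom H w
  step : ∀ v w, R v w → ∀ i, ∃ σ : V ≃ W, ∀ z, R (Function.update v i z) (Function.update w i (σ z))

/-! ### From multiset equality to bijections -/

theorem exists_equiv_of_map_eq {V W : Type*} [Fintype V] [Fintype W] {α : Type*}
    (f : V → α) (g : W → α)
    (h : (univ : Finset V).val.map f = (univ : Finset W).val.map g) :
    ∃ σ : V ≃ W, ∀ z, f z = g (σ z) := by
  classical
  have hc : ∀ a : α, Fintype.card {x // f x = a} = Fintype.card {x // g x = a} := by
    intro a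
    have h1 := congrArg (Multiset.count a) h
    rw [Multiset.count_map, Multiset.count_map] at h1
    rw [Fintype.card_subtype, Fintype.card_subtype]
    simp only [Finset.card_def, Finset.filter_val]
    convert h1 using 3 <;> exact eq_comm
  have hE : ∀ a : α, Nonempty ({x // f x = a} ≃ {x // g x = a}) := fun a =>
    ⟨Fintype.equivOfCardEq (hc a)⟩
  have E : ∀ a : α, {x // f x = a} ≃ {x // g x = a} := fun a => Classical.choice (hE a)
  refine ⟨(Equiv.sigmaFiberEquiv f).symm.trans
    ((Equiv.sigmaCongrRight E).trans (Equiv.sigmaFiberEquiv g)), ?_⟩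
  intro z
  exact ((E (f z)) ⟨z, rfl⟩).2.symm

theorem map_eq_of_equiv {V W : Type*} [Fintype V] [Fintype W] {α : Type*}
    (f : V → α) (g : W → α) (σ : V ≃ W) (h : ∀ z, f z = g (σ z)) :
    (univ : Finset V).val.map f = (univ : Finset W).val.map g := by
  have : f = g ∘ σ := funext h
  rw [this, ← Multiset.map_map, Multiset.map_univ_val_equiv σ]

/-- a decreasing family of properties of elements of a finite type, each satisfiable, is
simultaneously satisfiable -/
theorem exists_forall_of_finite {α : Type*} [Finite α] (P : ℕ → α → Prop)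
    (hdec : ∀ s a, P (s + 1) a → P s a) (hex : ∀ s, ∃ a, P s a) : ∃ a, ∀ s, P s a := by
  by_contra hcon
  push Not at hcon
  choose t ht using hcon
  have hmono : ∀ d s a, P (s + d) a → P s a := by
    intro d
    induction d with
    | zero => intro s a h; exact h
    | succ d ih => intro s a h; exact ih s a (hdec _ _ h)
  obtain ⟨M, hM⟩ := (Set.finite_range t).bddAbove
  obtain ⟨a, ha⟩ := hex M
  have hle : t a ≤ M := hM ⟨a, rfl⟩
  apply ht a
  apply hmono (M - t a)
  rw [Nat.add_sub_cancel' hle]
  exact ha

theorem gj_succ_fst {k s : ℕ} {G : V → V → Bool} {H : W → W → Bool} {v : Fin k → V}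
    {w : Fin k → W} (h : gj G k (s + 1) v = gj H k (s + 1) w) : gj G k s v = gj H k s w :=
  congrArg Prod.fst h

theorem gs_succ_fst {k s : ℕ} {G : V → V → Bool} {H : W → W → Bool} {v : Fin k → V}
    {w : Fin k → W} (h : gs G k (s + 1) v = gs H k (s + 1) w) : gs G k s v = gs H k s w :=
  congrArg Prod.fst h

/-! ### Bisimulations and colours -/

theorem JBisim.gj_eq {k : ℕ} {G : V → V → Bool} {H : W → W → Bool}
    {R : (Fin k → V) → (Fin k → W) → Prop} (hR : JBisim k G H R) (s : ℕ) :
    ∀ v w, R v w → gj G k s v = gj H k s w := by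
  induction s with
  | zero => intro v w h; exact hR.atom v w h
  | succ s ih =>
    intro v w h
    obtain ⟨σ, hσ⟩ := hR.step v w h
    simp only [gj]
    refine Prod.ext (ih v w h) ?_
    apply map_eq_of_equiv _ _ σ
    intro z
    funext i
    exact ih _ _ (hσ z i)

theorem SBisim.gs_eq {k : ℕ} {G : V → V → Bool} {H : W → W → Bool}
    {R : (Fin k → V) → (Fin k → W) → Prop} (hR : SBisim k G H R) (s : ℕ) :
    ∀ v w, R v w → gs G k s v = gs H k s w := by
  induction s with
  | zero => intro v w h; exact hR.atom v w h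
  | succ s ih =>
    intro v w h
    simp only [gs]
    refine Prod.ext (ih v w h) ?_
    funext i
    obtain ⟨σ, hσ⟩ := hR.step v w h i
    apply map_eq_of_equiv _ _ σ
    intro z
    exact ih _ _ (hσ z)

/-- every Duplicator strategy is contained in colour equality -/
theorem JBisim.le {k : ℕ} {G : V → V → Bool} {H : W → W → Bool}
    {R : (Fin k → V) → (Fin k → W) → Prop} (hR : JBisim k G H R) {v : Fin k → V} {w : Fin k → W}
    (h : R v w) : JT k G H v w := fun s => hR.gj_eq s v w h

theorem SBisim.le {k : ℕ} {G : V → V → Bool} {H : W → W → Bool}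
    {R : (Fin k → V) → (Fin k → W) → Prop} (hR : SBisim k G H R) {v : Fin k → V} {w : Fin k → W}
    (h : R v w) : ST k G H v w := fun s => hR.gs_eq s v w h

/-- colour equality is itself a Duplicator strategy -/
theorem jt_bisim (k : ℕ) (G : V → V → Bool) (H : W → W → Bool) : JBisim k G H (JT k G H) := by
  refine ⟨fun v w h => h 0, ?_⟩
  intro v w h
  have := exists_forall_of_finite
    (fun (s : ℕ) (σ : V ≃ W) => ∀ z i, gj G k s (Function.update v i z) =
      gj H k s (Function.update w i (σ z)))
    (fun s σ hs z i => gj_succ_fst (hs z i))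
    (fun s => by
      have h1 := congrArg Prod.snd (h (s + 1))
      obtain ⟨σ, hσ⟩ := exists_equiv_of_map_eq _ _ h1
      exact ⟨σ, fun z i => congrFun (hσ z) i⟩)
  obtain ⟨σ, hσ⟩ := this
  exact ⟨σ, fun z i s => hσ s z i⟩

theorem st_bisim (k : ℕ) (G : V → V → Bool) (H : W → W → Bool) : SBisim k G H (ST k G H) := by
  refine ⟨fun v w h => h 0, ?_⟩
  intro v w h i
  have := exists_forall_of_finite
    (fun (s : ℕ) (σ : V ≃ W) => ∀ z, gs G k s (Function.update v i z) =
      gs H k s (Function.update w i (σ z)))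
    (fun s σ hs z => gs_succ_fst (hs z))
    (fun s => by
      have h1 := congrFun (congrArg Prod.snd (h (s + 1))) i
      obtain ⟨σ, hσ⟩ := exists_equiv_of_map_eq _ _ h1
      exact ⟨σ, fun z => hσ z⟩)
  obtain ⟨σ, hσ⟩ := this
  exact ⟨σ, fun z s => hσ s z⟩

/-! ### Histograms -/

theorem jeq_iff_equiv {k : ℕ} {G : V → V → Bool} {H : W → W → Bool} :
    JEq k G H ↔ ∃ Φ : (Fin k → V) ≃ (Fin k → W), ∀ v, JT k G H v (Φ v) := by
  constructor
  · intro h
    obtain ⟨Φ, hΦ⟩ := exists_forall_of_finite
      (fun (s : ℕ) (Φ : (Fin k → V) ≃ (Fin k → W)) => ∀ v, gj G k s v = gj H k s (Φ v))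
      (fun s σ hs z => gj_succ_fst (hs z))
      (fun s => exists_equiv_of_map_eq _ _ (h s))
    exact ⟨Φ, fun v s => hΦ s v⟩
  · rintro ⟨Φ, hΦ⟩ s
    exact map_eq_of_equiv _ _ Φ (fun v => hΦ v s)

theorem seq_iff_equiv {k : ℕ} {G : V → V → Bool} {H : W → W → Bool} :
    SEq k G H ↔ ∃ Φ : (Fin k → V) ≃ (Fin k → W), ∀ v, ST k G H v (Φ v) := by
  constructor
  · intro h
    obtain ⟨Φ, hΦ⟩ := exists_forall_of_finite
      (fun (s : ℕ) (Φ : (Fin k → V) ≃ (Fin k → W)) => ∀ v, gs G k s v = gs H k s (Φ v))
      (fun s σ hs z => gs_succ_fst (hs z))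
      (fun s => exists_equiv_of_map_eq _ _ (h s))
    exact ⟨Φ, fun v s => hΦ s v⟩
  · rintro ⟨Φ, hΦ⟩ s
    exact map_eq_of_equiv _ _ Φ (fun v => hΦ v s)

end Crest.Agent.R290
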